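import Vale.Agent.P235P.ZDefs
import Vale.Agent.P235.Concrete

/-! P235 planar case, part zero: the shortest path metric. -/

open Set SimpleGraph

noncomputable section

namespace Vale.Agent.P235.Pl

variable {V : Type} {G : SimpleGraph V} {ℓ : Sym2 V → ℝ} {d : V → V → ℝ} {T : Tr G}

/-- Use `spDist_le`, `le_spDist`, `len_nonneg`, `spMetric` of `P235/Concrete`. For `bell x y`: choose
the neighbour `z` of `x` minimising `ℓ s(x, z) + d z y` (a walk from `x` to `y` is a `cons`, so
there is a neighbour; `Finite.exists_min`-type lemma on the subtype); `≤` by triangle and edge,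
`≥` by `le_spDist` and cases on the walk. -/
theorem met [Finite V] (hG : G.Connected) (hl : ∀ e ∈ G.edgeSet, 0 < ℓ e) :
    Met G ℓ (spDist G ℓ) := by
  have he : ∀ x y, G.Adj x y → spDist G ℓ x y ≤ ℓ s(x, y) := fun x y h => by
    simpa using spDist_le hl (Walk.cons h Walk.nil)
  have ht := (spMetric hG hl).dist_triangle
  refine ⟨fun x y h => hl _ h, (spMetric hG hl).dist_self, (spMetric hG hl).dist_comm, ht, he,
    fun x y hxy => ?_⟩
  have : Nonempty {z // G.Adj x z} := by
    obtain ⟨p⟩ := hG x y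
    cases p with
    | nil => exact absurd rfl hxy
    | cons h _ => exact ⟨_, h⟩
  obtain ⟨z, hz⟩ := Finite.exists_min fun z : {z // G.Adj x z} => ℓ s(x, z.1) + spDist G ℓ z.1 y
  refine ⟨z.1, z.2, le_antisymm ((ht x z.1 y).trans (add_le_add_left (he x z.1 z.2) _))
    (le_spDist hG fun p => ?_)⟩
  cases p with
  | nil => exact absurd rfl hxy
  | cons h q =>
    simp only [Walk.edges_cons, List.map_cons, List.sum_cons]
    exact (hz ⟨_, h⟩).trans (add_le_add_right (spDist_le hl q) _)

theorem Met.nonneg (M : Met G ℓ d) (x y : V) : 0 ≤ d x y := by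
  have := M.tri x y x
  rw [M.self, M.symm y x] at this
  linarith

theorem Met.dist_pos (M : Met G ℓ d) {x y : V} (h : x ≠ y) : 0 < d x y := by
  obtain ⟨z, hz, e⟩ := M.bell x y h
  linarith [M.pos x z hz, M.nonneg z y]

/-- `par v` is chosen by `bell v r`, the height is `d v r`. -/
theorem Met.exists_tr (M : Met G ℓ d) {σ : Equiv.Perm G.Dart} (hσ : IsRotationSystem G σ) (r : V) :
    ∃ T : Tr G, T.σ = σ ∧ T.r = r ∧ T.Geo ℓ d := by
  choose! par h1 h2 using fun v => M.bell v r
  exact ⟨⟨σ, hσ, r, par, fun v => d v r, h1, fun v hv => by linarith [h2 v hv, M.pos _ _ (h1 v hv)]⟩,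
    rfl, rfl, fun _ => rfl, fun v hv => (h2 v hv).trans (add_comm _ _)⟩

/-- Induction on the distance to `y` (finite well-founded order as in `Tr.ind_up`, and `bell`). -/
theorem Met.ind [Finite V] (M : Met G ℓ d) (y : V) {p : V → Prop} (h0 : p y)
    (h1 : ∀ x z, G.Adj x z → d x y = ℓ s(x, z) + d z y → p z → p x) (x : V) : p x := by
  have wf : WellFounded fun a b : V => d a y < d b y := Finite.wellFounded_of_trans_of_irrefl _
  induction x using wf.induction with
  | _ x ih =>
    by_cases hx : x = y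
    · exact hx ▸ h0
    · obtain ⟨z, hz, e⟩ := M.bell x y hx
      exact h1 x z hz e (ih z (by linarith [M.pos x z hz]))

/-- Heights differ by at most the length along an edge. -/
theorem Met.h_le (M : Met G ℓ d) (g : T.Geo ℓ d) (e : G.Dart) :
    T.h e.fst ≤ T.h e.snd + ℓ s(e.fst, e.snd) ∧ T.h e.snd ≤ T.h e.fst + ℓ s(e.fst, e.snd) := by
  rw [g.h, g.h]
  have h1 := M.edge _ _ e.adj
  have h2 := M.tri e.fst e.snd T.r
  have h3 := M.tri e.snd e.fst T.r
  rw [M.symm e.snd e.fst] at h3
  constructor <;> linarith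

end Vale.Agent.P235.Pl
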