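import Vale.Agent.P235P.FM2

/-! P235 planar case: the descent and the main induction of the frame. -/

open Set Classical
open scoped BigOperators

noncomputable section

namespace Vale.Agent.P235.Pl

variable {S : Sk} {π : Par} {Y : Sys S π} {N : NodeC Y} {c : Ctx S} {ι : Type} {pt : ι → ℕ × ℝ}
  {F : (ι → ℝ) → ℝ} {P : PairC Y N c pt F} {nd : Bool} {s : St} {V : ℕ → ℝ → ℝ} {A : ℝ} {n y : ℕ}
  {co : Coins S} {dd : Qn π × Qn π}

theorem ch_ind (N : NodeC Y) (hs : N.NI s) (co : Coins S) (a b) (θ : ℕ) :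
    Y.ch s (co, a) θ = Y.ch s (co, b) θ := by
  unfold Sys.ch
  rw [if_pos (N.ok s _ hs).1, if_pos (N.ok s _ hs).1]
  rfl

theorem desc_val (hp : Pay c pt F) (hw : 0 < s.w) {i : Option (ℕ × ℕ)} {T : ℝ}
    (h : ∀ u eo, (∀ j, Y.ch s (co, dd, u, true, eo) (pt j).1 = some i) ∧
      T ≤ Y.val n (Y.cSt s (co, dd, u, true, eo) i) F (fun i => (pt i).1)
        (fun i => V (pt i).1 (pt i).2)) :
    T ≤ 𝔼 u, 𝔼 σ, gv Y n s pt F V co dd u σ := by
  refine Finset.le_expect Finset.univ_nonempty fun u _ => ?_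
  unfold gv
  rw [Finset.expect_comm]
  refine Finset.le_expect Finset.univ_nonempty fun eo _ => ?_
  have h1 := Y.cval_child (n := n) (co, dd, u, true, eo) hp.conv hw
    (fun i => V (pt i).1 (pt i).2) (h u eo).1
  have h2 := exp_bool (fun σ => Y.cval n s (co, dd, u, σ, eo) F (fun i => (pt i).1)
    (fun i => V (pt i).1 (pt i).2)) true
  have h3 := (h u eo).2
  have h4 := h1.trans_eq h2.symm
  linarith

/-- The descent into the child that contains the ball. -/
theorem descend (hC : Claim P n) (hp : Pay c pt F) (hs : N.NI s) (hcl : Cl P nd s V A)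
    (hW : c.Win s V A) (hb : c.Big s A π y)
    (hn : mes' S s + (2 * (S.N + 1) ^ 2 + 3) * y ≤ n) {i : Option (ℕ × ℕ)}
    (hi : ∀ a, Y.ch s (co, a) c.x.1 = some i)
    (hx : ∀ a, thr s ((co, dd, a) : Rnd S π) i + 100 * A * c.r ≤ Y.DI s (cI s i) (c.x.1, c.vx V)) :
    (1 - 2 * eta y) * tv π c nd y A ≤ 𝔼 u, 𝔼 σ, gv Y n s pt F V co dd u σ ∧
    (Y.DI s (cI s i) (c.x.1, c.vx V) ≤ high s i →
      (1 - eta y) * tv π c nd y A ≤ 𝔼 u, 𝔼 σ, gv Y n s pt F V co dd u σ) := by
  have hA := hcl.rep.pos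
  have h1 := hb.w_big hA
  have h2 := mul_pos hA c.r_pos
  have hw := (N.pos s hs).1
  have hv := win_ico hA hW
  have key : ∀ a, (∀ j, Y.ch s (co, dd, a) (pt j).1 = some i) ∧
      Cl P nd (Y.cSt s (co, dd, a) i) V A := fun a => by
    have h7 := desc_of N hs hcl.rep hW (by norm_num) (by norm_num) (by linarith) (hi _) (hx a)
    refine ⟨fun j => h7.1 _ (c.ball_mono (by norm_num) (hp.mem j)), fun e => ?_, fun e => ?_⟩
    · obtain ⟨hR, hN, hD⟩ := hcl.1 e
      exact ⟨h7.2, ⟨hN.slope, hN.dev, hN.young⟩, P.child s _ V A y i hs hR hW hN hD hb h7.1⟩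
    · exact ⟨(desc_of N hs (hcl.2 e).1 hW (by norm_num) le_rfl (by linarith) (hi _) (hx a)).2,
        (hcl.2 e).2⟩
  have key2 : ∀ a, _ := fun a => hC (Y.cSt s (co, dd, a) i) V A y nd (N.child s _ _ i hs (hi _))
    (key a).2 hW ⟨hb.m0, hb.w_eq, hb.le_y, hb.y_le, hb.nq, hb.phase⟩ (by
      have h3 : Sys.mes (Y.cSt s (co, dd, a) i) < mes' S s := mes_child N hs (hi _)
      have h4 : mes' S (Y.cSt s (co, dd, a) i) = Sys.mes (Y.cSt s (co, dd, a) i) :=
        if_neg (Option.some_ne_none _)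
      omega)
  exact ⟨desc_val hp hw fun u eo => ⟨(key _).1, (key2 _).1⟩, fun hh => desc_val hp hw fun u eo =>
    ⟨(key _).1, (key2 _).2 fun ρ' i' h => N.endc s _ _ _ i hs ⟨hv.1, hv.2.le⟩ (hi _) hh ρ' i' h⟩⟩

theorem prob_thr (hb : c.Big s A π y) (hA : 0 < A) (i : Option (ℕ × ℕ)) (d : ℝ) (a) :
    (𝔼 dd : Qn π × Qn π, if thr s ((co, dd, a) : Rnd S π) i ∉ Icc d (d + 200 * A * c.r)
      then (0 : ℝ) else 1) ≤ eta y := by
  have h1 := hb.w_big hA
  have h2 := mul_pos hA c.r_pos
  refine hb.fsmall hA (k := 8001) (by norm_num) ?_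
  rw [exp_prod]
  cases i with
  | none =>
    refine Finset.expect_le Finset.univ_nonempty fun k _ => le_of_eq_of_le ?_
      (prob_iv (a := 9 * s.w) (b := 10 * s.w) hb hA (by linarith) d)
    exact Finset.expect_congr rfl fun k' _ => ite_not _ _ _
  | some I =>
    refine le_of_eq_of_le ?_ (prob_iv (a := s.w / 10) (b := s.w / 5) hb hA (by linarith) d)
    refine Finset.expect_congr rfl fun k _ => Eq.trans ?_ (Fintype.expect_const (ι := Qn π) _)
    exact Finset.expect_congr rfl fun k' _ => ite_not _ _ _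

theorem node_step (hC : Claim P n) (hp : Pay c pt F) (hs : N.NI s) (hcl : Cl P nd s V A)
    (hW : c.Win s V A) (hb : c.Big s A π y)
    (hn : mes' S s + (2 * (S.N + 1) ^ 2 + 3) * y ≤ n) (co : Coins S) :
    (1 - 2 * eta y) * tv π c nd y A ≤ 𝔼 dd, 𝔼 u, 𝔼 σ, gv Y n s pt F V co dd u σ ∧
    (EndN Y c s V → (1 - eta y) * tv π c nd y A ≤ 𝔼 dd, 𝔼 u, 𝔼 σ, gv Y n s pt F V co dd u σ) := by
  have hA := hcl.rep.pos
  have h1 := hb.w_big hA
  have hr := c.r_pos
  have h2 := mul_pos hA hr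
  have hw := (N.pos s hs).1
  have hv := win_ico hA hW
  have ht := tv_nonneg (π := π) (c := c) (nd := nd) hA y
  have hy : 1 ≤ y := by have := hb.m0; have := hb.le_y; omega
  have he := eta_pos hy
  have he' := eta_le hy
  have h12 : (1 - 2 * eta y) * tv π c nd y A ≤ (1 - eta y) * tv π c nd y A :=
    mul_le_mul_of_nonneg_right (by linarith) ht
  have hn' : (2 * (S.N + 1) ^ 2 + 3) * y ≤ n := le_trans (Nat.le_add_left _ _) hn
  obtain ⟨a0⟩ : Nonempty ((Qn π × Qn π) × (Qn π × Qn π × HS π) × Bool ×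
    (Fin (2 * π.m0 + 2) × Qn π)) := inferInstance
  have stop : ∀ dd, nd = false → (∀ a i, Y.ch s (co, dd, a) c.x.1 = some i →
      Y.DI s (cI s i) (c.x.1, c.vx V) ≤ thr s ((co, dd, a) : Rnd S π) i - 100 * A * c.r) →
      (1 - eta y) * tv π c nd y A ≤ 𝔼 u, 𝔼 σ, gv Y n s pt F V co dd u σ := fun dd e h => by
    subst e
    exact stop_aff hC hp hs hcl hW hb hn' fun u σ eo =>
      shal_of N hs (hcl.2 rfl).1 hW (by norm_num) le_rfl (by linarith) (h _)
  cases hx : Y.ch s (co, a0) c.x.1 with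
  | none =>
    have hx' : ∀ a, Y.ch s (co, a) c.x.1 = none := fun a => (ch_ind N hs co a a0 _).trans hx
    have : (1 - eta y) * tv π c nd y A ≤ 𝔼 dd, 𝔼 u, 𝔼 σ, gv Y n s pt F V co dd u σ := by
      refine Finset.le_expect Finset.univ_nonempty fun dd _ => ?_
      cases nd
      · exact stop dd rfl fun a i h => by rw [hx'] at h; cases h
      · exact stop_non hC hp hs hcl hW hb hn' fun u σ eo => hx' _
    exact ⟨h12.trans this, fun _ => this⟩
  | some i =>
    have hx' : ∀ a, Y.ch s (co, a) c.x.1 = some i := fun a => (ch_ind N hs co a a0 _).trans hx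
    have hyf : nd = true → 12 * s.w ≤ Y.DI s (cI s i) (c.x.1, c.vx V) := fun e => by
      have h3 := (hcl.1 e).2.1.young c.x (c.x_mem (by norm_num))
      have h4 := c.le_r
      have h5 := c.rs_pos
      refine young_far N hs (p := (c.x.1, c.vx V)) (h3.trans_lt ?_) ⟨hv.1, hv.2.le⟩ hx
      nlinarith
    have hh : high s i ≤ 11 * s.w := by unfold high; split_ifs <;> linarith
    have hl : low s i ≤ 8 * s.w := by unfold low; split_ifs <;> linarith
    refine ⟨?_, fun hE => Finset.le_expect Finset.univ_nonempty fun dd _ => ?_⟩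
    · by_cases hd : Y.DI s (cI s i) (c.x.1, c.vx V) ≤ high s i
      · have e : nd = false := by
          cases nd
          · rfl
          · linarith [hyf rfl]
        refine le_trans ?_ (exp_bad' (B := (1 - eta y) * tv π c nd y A)
          (mul_nonneg (by linarith) ht) (fun dd => Finset.expect_nonneg fun u _ =>
            Finset.expect_nonneg fun σ _ => gv_nonneg hp) (fun dd h => ?_)
          (prob_thr (co := co) hb hA i (Y.DI s (cI s i) (c.x.1, c.vx V) - 100 * A * c.r) a0.2))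
        · nlinarith [mul_nonneg (mul_self_nonneg (eta y)) ht]
        · have h3 : ∀ a, thr s ((co, dd, a) : Rnd S π) i = thr s ((co, dd, a0.2) : Rnd S π) i :=
            fun _ => rfl
          rcases not_and_or.1 h with h | h
          · exact (descend hC hp hs hcl hW hb hn hx' fun a => by
              rw [h3]; linarith [not_le.1 h]).2 hd
          · refine stop dd e fun a i' hi' => ?_
            rw [hx'] at hi'
            cases hi'
            rw [h3]
            linarith [not_le.1 h]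
      · refine Finset.le_expect Finset.univ_nonempty fun dd _ => ?_
        exact (descend hC hp hs hcl hW hb hn hx' fun a => by
          linarith [not_le.1 hd, (thr_bounds (ρ := (co, dd, a)) hw i).2]).1
    · have h3 := hE _ i hx
      refine stop dd ?_ fun a i' hi' => ?_
      · cases nd
        · rfl
        · linarith [hyf rfl]
      · linarith [hE _ i' hi', (thr_bounds (ρ := (co, dd, a)) hw i').1]

theorem claim (P : PairC Y N c pt F) (hp : Pay c pt F) (n : ℕ) : Claim P n := by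
  induction n with
  | zero => exact fun s V A y nd _ _ _ _ h => by omega
  | succ n ih =>
    intro s V A y nd hs hcl hW hb hn
    rw [Y.val_succ' (N.pos s hs).1, exp_rnd]
    have h := node_step ih hp hs hcl hW hb (by omega)
    exact ⟨Finset.le_expect Finset.univ_nonempty fun co _ => (h co).1,
      fun hE => Finset.le_expect Finset.univ_nonempty fun co _ => (h co).2 hE⟩

theorem frame (P : PairC Y N c pt F) (hp : Pay c pt F) {lo w : ℝ}
    (hb : c.Big (st0 c.D0 lo w) 1 π y) (hW : c.Win (st0 c.D0 lo w) (fun _ t => t) 1)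
    (hn : (2 * (S.N + 1) ^ 2 + 3) * (y + 1) ≤ n) :
    c.rs / (2 ^ 46 * (2 * π.m0 + 2)) ≤
      Y.val n (st0 c.D0 lo w) F (fun i => (pt i).1) (fun i => (pt i).2) := by
  have h1 := hb.w_big one_pos
  have hr := c.r_pos
  have hrs := c.rs_pos
  have h2 := c.le_r
  have hw : 0 < w := lt_of_lt_of_le (by positivity) h1
  have hR : c.Rep (st0 c.D0 lo w) (fun _ t => t) 1 8 :=
    ⟨one_pos, fun _ => monotone_id, fun _ => continuous_id, fun _ _ _ h => ⟨h, rfl⟩,
      fun _ _ t _ h => ⟨t, h, rfl⟩, fun _ t t' _ _ => by linarith [abs_nonneg (t - t')],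
      fun _ _ ⟨_, h, _⟩ => h, fun _ h => by cases h⟩
  have hD : c.AffD (st0 c.D0 lo w) (fun _ t => t) 1 :=
    ⟨0, fun p _ => ⟨by ring, rfl, by
      show 1 * c.rs ≤ w
      have : 10 ^ 10 * 1 * c.r ≤ w := h1
      linarith⟩⟩
  have hy : 1 ≤ y := by have := hb.m0; have := hb.le_y; omega
  refine le_trans ?_ (claim P hp n _ _ 1 y false (N.init _ _ _ c.init hw)
    ⟨fun e => (by cases e), fun _ => ⟨hR, hD⟩⟩ hW hb ?_).1
  · have h3 := eta_le hy
    have h4 := Pm_ge π.m0 y
    have h5 : (0 : ℝ) < 2 * π.m0 + 2 := by positivity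
    have h6 : c.rs / (2 ^ 46 * (2 * π.m0 + 2)) ≤
        7 / 8 * (1 / (25600 * (2 * (π.m0 : ℝ) + 2)) * (1 / 2 ^ 20 * 1 * (c.rs / 1024))) := by
      have : c.rs / (2 ^ 46 * (2 * π.m0 + 2)) = 1 / 2 ^ 46 * (c.rs / (2 * π.m0 + 2)) := by
        field_simp
      have h7 : 7 / 8 * (1 / (25600 * (2 * (π.m0 : ℝ) + 2)) * (1 / 2 ^ 20 * 1 * (c.rs / 1024))) =
          7 / (8 * 25600 * 2 ^ 30) * (c.rs / (2 * π.m0 + 2)) := by
        field_simp
        norm_num
      rw [this, h7]
      exact mul_le_mul_of_nonneg_right (by norm_num) (by positivity)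
    refine h6.trans (mul_le_mul (by linarith) ?_ (by positivity) (by linarith))
    exact mul_le_mul_of_nonneg_right h4 (by positivity)
  · have : mes' S (st0 c.D0 lo w) = 2 * (S.N + 1) ^ 2 + 2 := if_pos rfl
    rw [this]
    linarith

end Vale.Agent.P235.Pl
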