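import Vale.Agent.P235P.PA4

/-! P235 planar case: the pair statements of system A. -/

open Set Classical

noncomputable section

namespace Vale.Agent.P235.Pl

variable {S : Sk} {π : Par} {N : NodeC (sysA S π)} {c : Ctx S} {s : St} {V : ℕ → ℝ → ℝ}
  {A : ℝ} {y : ℕ} {co : Coins S} {dd : Qn π × Qn π} {eo : Fin (2 * π.m0 + 2) × Qn π}
  {q : Fin 4 → ℕ} {pk : Fin 4 → ℝ} {z o : ℕ × ℝ} {a₀ : ℕ} {ρ : Rnd S π}

namespace PA

theorem suc (h : At (sysA S π) c s N V A y (NA.iv S a₀) co dd eo) (ha : a₀ < S.mate a₀)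
    {u₀ : Qn π × Qn π × HS π} (hP : HealAt (sysA S π) c s V A (NA.iv S a₀) co dd eo
      (NA.hpk s (co, dd, u₀, true, eo) a₀)) (hT : TypeA c q pk z o) (u : Qn π × Qn π × HS π)
    {X : Cone → Finset ℝ} {i k : ℤ}
    (hm : (NA.hpk s (co, dd, u₀, true, eo) a₀).Mid u.2.2 (c.hb V A (NA.iv S a₀) (nIdx π y)) X
      (xi0 s (co, dd, u, true, eo)) (trap s (co, dd, u, true, eo) (c.vx V)) (nIdx π y))
    (hd : ¬ Dir c q pk z V A ((NA.hpk s (co, dd, u₀, true, eo) a₀).Hs u.2.2 (nIdx π y)))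
    (hk : (NA.hpk s (co, dd, u₀, true, eo) a₀).Suc u.2.2 (c.hb V A (NA.iv S a₀) (nIdx π y))
      ⟨nIdx π y, h.big.nIdx_lt.1⟩ i k) :
    c.NDA (q 3) ((sysA S π).mid s (co, dd, u, true, eo))
      ((sysA S π).Vn s (co, dd, u, true, eo) V) A := by
  obtain ⟨hb, hsc⟩ := h.ball hP
  obtain ⟨b, hb'⟩ := h.aff
  have dn := fun {tk} => suc_done (tk := tk) h ha hP hT (fun p hp => (hb' p hp).1) hm.1 hd hk
  set P := NA.hpk s (co, dd, u₀, true, eo) a₀ with hPe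
  set κ := cone P.s1 u.2.2 ⟨nIdx π y, h.big.nIdx_lt.1⟩ i k with hκ
  set ρ : Rnd S π := (co, dd, u, true, eo) with hρ
  have hA := h.rep.pos
  have hs0 := c.rs_pos
  have hAs := mul_pos hA hs0
  have hr : 2 ^ 16 * (A * c.rs) ≤ A * c.r := by nlinarith [c.le_r]
  have hκs : κ.s = A * c.rs := hsc
  have hsg : sg ρ = 1 := by simp [sg, hρ]
  obtain ⟨s1, s2, s3⟩ := id hk
  change |c.vx V - κ.t| ≤ scl π P.s1 (nIdx π y) at s1
  change P.Hs u.2.2 (nIdx π y) c.x.1 (c.vx V) + 11 * scl π P.s1 (nIdx π y) ≤ κ.a at s2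
  change κ.a ≤ P.Hs u.2.2 (nIdx π y) c.x.1 (c.vx V) + 12 * scl π P.s1 (nIdx π y) at s3
  rw [hsc] at s1 s2 s3
  have htk : A * ((κ.t - b) / A) + b = κ.t := by field_simp; ring
  have hx8 : c.x ∈ c.ball 8 := c.x_mem (by norm_num)
  have ht : |(κ.t - b) / A - c.x.2| ≤ c.rs := by
    rw [Ctx.vx, (hb' _ hx8).1, abs_sub_comm] at s1
    rw [show (κ.t - b) / A - c.x.2 = (κ.t - (A * c.x.2 + b)) / A by field_simp; ring, abs_div,
      abs_of_pos hA, div_le_iff₀ hA]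
    linarith
  refine ⟨(κ.t - b) / A, b + (κ.a - xi0 s ρ), ht, ?_, fun p hp => ?_⟩
  · have e1 := (h.mid_psi hP u true hm (h.mem_thick hx8)).2.2.2.2
    have e2 := hb.out_le (hs := u.2.2) (nIdx π y) c.x.1 (c.vx V) h.big.nIdx_lt.1.le
    rw [hsc] at e2
    have e3 : c.vx ((sysA S π).Vn s ρ V) =
        c.vx V + ((P.out u.2.2).H c.x.1 (c.vx V) - xi0 s ρ) := by
      show (sysA S π).Psi s ρ c.x.1 (c.vx V) = _
      rw [Sys.Psi, hsg, one_mul]
      exact congrArg _ e1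
    have := abs_le.1 s1
    rw [e3, ← add_assoc, htk]
    exact abs_le.2 ⟨by linarith [e2.1], by linarith [e2.2]⟩
  have hp8 : p ∈ c.ball 8 := c.ball_mono (by norm_num) (core_sub hT 3 ht hp)
  obtain ⟨v1, v2, v3⟩ := hb' p hp8
  have c3 := abs_le.1 (core_time hT ht hp).2.1
  have key : ∀ v, |v - V p.1 p.2| ≤ A * c.rs → ((sysA S π).hl s ρ (NA.iv S a₀)).H p.1 v = κ.a ∧
      ((sysA S π).hl s ρ (NA.iv S a₀)).dn p.1 v = (0, A * c.rs) ∧ 0 < κ.a - xi0 s ρ ∧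
      κ.a - xi0 s ρ < trap s ρ v ∧ (sysA S π).Psi s ρ p.1 v = 1 * v + (κ.a - xi0 s ρ) := by
    intro v hv
    have e : A * ((v - b) / A) + b = v := by field_simp; ring
    have h1 : |p.2 - (v - b) / A| ≤ c.rs := by
      rw [v1, abs_sub_comm] at hv
      rw [show p.2 - (v - b) / A = (A * p.2 + b - v) / A by field_simp; ring, abs_div,
        abs_of_pos hA, div_le_iff₀ hA]
      linarith
    have h2 := dn htk ht hp h1
    rw [e] at h2
    obtain ⟨o1, o2⟩ := HP.out_done hb.good.s1 h2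
    have h3 : |v - κ.t| ≤ 28 * κ.s := by
      have := abs_le.1 hv
      have a1 : A * (p.2 - (κ.t - b) / A) = A * p.2 + b - κ.t := by linarith
      rw [hκs]
      exact abs_le.2 ⟨by nlinarith, by nlinarith⟩
    have h4 : κ.slope v = 0 := by
      have := abs_le.1 h3
      unfold Cone.slope
      rw [if_neg (by linarith), if_pos (by linarith)]
    change _ = κ.G v at o1
    change _ = (κ.slope v, scl π P.s1 (nIdx π y)) at o2
    rw [κ.G_core h3] at o1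
    rw [h4, hsc] at o2
    obtain ⟨m1, m2, m3, m4, m5⟩ := h.mid_psi hP u true hm (p := (p.1, v))
      ⟨p.2, hp8, hv.trans (by linarith)⟩
    simp only [o1, o2] at m1 m2 m3 m4 m5
    exact ⟨m1, m2, m3, m4, by rw [Sys.Psi, hsg, m5, one_mul, one_mul]⟩
  obtain ⟨k1, k2, k3, k4, k5⟩ := key (V p.1 p.2) (by simpa using hAs.le)
  have e1 : ((sysA S π).mid s ρ).lab p.1 ((sysA S π).Vn s ρ V p.1 p.2) =
      (sysA S π).lab1 s ρ p.1 (V p.1 p.2) :=
    mid_lab (inj_of_aff ((sysA S π).Psi_mono s ρ p.1) one_pos hAs fun v hv => (key v hv).2.2.2.2)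
  have e2 : (sysA S π).lab1 s ρ p.1 (V p.1 p.2) = (A, min (s.lab p.1 (V p.1 p.2)).2 (A * c.rs)) := by
    have n1 := (h.shal u true).not_deep hA.le hp8
    have n2 := (N.ok s ρ h.ni).2
    have n3 := h.rep.ink _ h.kick p hp8
    simp only [Sys.lab1, h.kick]
    rw [if_neg n1, if_neg (by rw [k1]; simp only [n2, n3, not_true, false_or]; linarith),
      if_neg (by rw [k1]; linarith), if_pos (by rw [k2]; exact hAs), k2, v2]
    simp
  rw [e1, e2]
  refine ⟨?_, rfl, le_min v3 le_rfl⟩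
  show (sysA S π).Psi s ρ p.1 (V p.1 p.2) = _
  rw [k5, v1]
  ring

theorem birth {I : ℕ × ℕ} (hm : 200 ≤ π.m0) (hT : TypeA c q pk z o) {zx : Bool} (hz : z = ptB c zx)
    (h : At (sysA S π) c s N V A y I co dd eo) (hN : NA.NI S s) {B : ℝ}
    {Gv : Qn π × Qn π × HS π → Bool → ℝ}
    (hv : Val (sysA S π) c s (ptA c q pk) (payA zx) (c.NDA (q 3)) V A co dd eo B Gv) :
    (1 - 10 ^ 9 * (y + 1) * (A * c.r / s.w)) * (B * A) ≤
      Finset.expect Finset.univ fun u => Finset.expect Finset.univ fun σ => Gv u σ := by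
  rcases hN.node with ⟨-, hk⟩ | ⟨a₀, Af, K⟩
  · rw [h.kick] at hk
    cases hk
  obtain rfl : I = NA.iv S a₀ := Option.some.inj (h.kick.symm.trans K.kick)
  by_cases hn : ∃ p ∈ c.thick V A, Near S s.D s.W (cols S s.W a₀) (5 * s.w) p
  · obtain ⟨p, hp, hn⟩ := hn
    have hP := healAt h hN K hp hn (0, 0, fun _ => (0, 0, 0))
    exact h.birth_gen hv hP ⟨nIdx π y, h.big.nIdx_lt.1⟩ rfl (fun _ _ _ => ∅) (fun _ _ _ => by simp)
      (Dir c q pk z V A) (fun u _ h1 h2 h3 => ⟨true, dir h hP hT hz u h1 h2 h3⟩)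
      fun u i k _ h1 h2 h3 => ⟨true, suc h (K.fam.arc _ K.mem) hP hT u h1 h2 h3⟩
  · refine h.birth_far hv fun u σ p hp => le_trans ?_
      (K.H_top hm hN (h.thick_abs hp).2.1 fun h' => hn ⟨p, hp, h'⟩)
    linarith [hN.w0]

end PA

/-- The pair statements of system A. -/
def pairA (hm : 200 ≤ π.m0) (hT : TypeA c q pk z o) {zx : Bool} (hz : z = ptB c zx) :
    PairC (sysA S π) (nodeA hm) c (ptA c q pk) (payA zx) where
  ND := c.NDA (q 3)
  birth _ _ _ _ _ _ _ _ _ _ h1 h2 h3 h4 h5 h6 h7 b0 b1 g0 g1 g2 g3 :=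
    PA.birth (N := nodeA hm) hm hT hz ⟨h1, h2, h3, h4, h5, h6, h7⟩ h1 ⟨b0, b1, g0, g1, g2, g3⟩
  top := PA.top
  step s ρ V A y h1 h2 h3 h4 h5 h6 h7 h8 h9 :=
    have h := PA.op_step (nodeA hm) h1 h2 h7 h8 h9 fun I hI => PA.top s ρ V A y I h1 hI h2 h3 h4 h6 h7
    PA.nda_step (hT.sep 3).1 (hT.pk_mem 3) (hT.lev 3) (hT.near 3) h2.pos h9 h.1 h.2 h5
  child _ _ _ _ _ i _ _ _ _ h _ _ := PA.nda_child i h
  cut _ _ _ u o _ _ h := PA.nda_cut u o _ h
  finA := PA.finA hm hT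
  finN := PA.finN hm hT

end Vale.Agent.P235.Pl
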