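import Vale.Agent.P235P.QBirth

/-! P235 planar case: the pair statements of system B. -/

noncomputable section

namespace Vale.Agent.P235.Pl

variable {S : Sk} {π : Par} {c : Ctx S}

/-- The pair statements of system B. -/
def pairB (hm : 200 ≤ π.m0) (hB : TypeB c) : PairC (sysB S π) (nodeB hm) c (ptB c) payB :=
  pairB_of hm hB (Pb.qb_birth hm hB)

end Vale.Agent.P235.Pl
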