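import Vale.Agent.P235P.ZNc
import Vale.Agent.P235P.ZUp
import Vale.Agent.P235P.ZLo

/-! P235 planar case, part zero: planar metrics are realised by link diagrams. -/

open Set SimpleGraph

noncomputable section

namespace Vale.Agent.P235.Pl

variable {V : Type} {G : SimpleGraph V} {ℓ : Sym2 V → ℝ} {d : V → V → ℝ} {T : Tr G}

theorem Met.le_pk (M : Met G ℓ d) (g : T.Geo ℓ d) (e : G.Dart) : T.h e.fst ≤ T.pk ℓ e := by
  have := (M.h_le g e).1
  unfold Tr.pk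
  linarith

/-- The height of the vertex of a time that ends an arc is below the peak. -/
theorem Ct.h_le (C : Ct T) (M : Met G ℓ d) (g : T.Geo ℓ d) {a θ : ℕ} (ha : a < C.mate a)
    (hθ : θ = a ∨ θ = C.mate a) : T.h (C.dt θ).fst ≤ T.pk ℓ (C.dt a) := by
  obtain ⟨e, -, h1, h2⟩ := C.arc ha.ne'
  rcases hθ with rfl | rfl
  · exact M.le_pk g _
  · rw [h2, h1, C.dt_tm, C.dt_tm, ← Tr.pk_symm]
    exact M.le_pk g _

theorem Ct.init (C : Ct T) (h : C.NC) (M : Met G ℓ d) (g : T.Geo ℓ d) :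
    Init (C.sk h) (C.lk ℓ) where
  l0 := eq_empty_of_forall_notMem fun _ ht => absurd ht.1 (by omega)
  lN _ hg := eq_empty_of_forall_notMem fun _ ht => absurd ht.2.1 (not_lt.2 hg)
  down _ _ _ ht h' := ⟨ht.1, ht.2.1, h'.trans ht.2.2⟩
  single _ _ := ⟨_, rfl⟩
  top a p ha hp θ hθ t ht := by
    obtain rfl : p = T.pk ℓ (C.dt a) := hp
    refine le_trans ?_ (C.h_le M g ha hθ)
    rcases ht with ⟨-, -, ht⟩ | ⟨h1, -, ht⟩
    · exact ht.trans (min_le_left _ _)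
    · rw [← Nat.sub_add_cancel (n := θ) (m := 1) (by omega), C.succ _ h1]
      exact ht.trans (min_le_right _ _)

theorem Ct.adj (C : Ct T) (a : ℕ) : C.mate a ≠ a + 1 := fun h => by
  obtain ⟨e, h1, h2, h3⟩ := C.arc (a := a) (by omega)
  have h4 : e.symm = T.τ e := by
    rw [← C.dt_tm e.symm, ← h3, h, C.succ a (h2 ▸ C.one e), h2, C.dt_tm]
  have h5 := Tr.τ_fst_neg h1
  rw [← h4] at h5
  exact e.adj.ne' h5

theorem planar_diagram' {V : Type} [Fintype V] (G : SimpleGraph V) (hG : G.Connected)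
    (hp : Planar G) (ℓ : Sym2 V → ℝ) (hl : ∀ e ∈ G.edgeSet, 0 < ℓ e) :
    ∃ S D pt, (∀ a, S.mate a ≠ a + 1) ∧ Realises S D pt (spDist G ℓ) := by
  have M := met hG hl
  by_cases h1 : ∀ x y : V, x = y
  · refine ⟨⟨1, id, fun _ => rfl, fun _ _ h h' => absurd h' h.not_gt, fun _ h => absurd h (lt_irrefl _)⟩,
      ⟨fun _ => ∅, fun _ => ∅⟩, fun _ => (1, 0), fun a => a.succ_ne_self.symm, ⟨rfl, fun _ _ => rfl, fun _ _ _ h _ => h,
      fun _ h => absurd h (lt_irrefl _), fun _ _ h => absurd h (lt_irrefl _)⟩,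
      fun _ => ⟨le_rfl, le_rfl, fun _ _ h => absurd h (lt_irrefl _)⟩, fun x y => ?_⟩
    rw [h1 x y, M.self]
    exact ⟨.refl trivial, fun _ => rz_nonneg⟩
  have hd : ∀ v : V, ∃ e : G.Dart, e.fst = v := fun v => by
    obtain ⟨w, hw⟩ : ∃ w, v ≠ w := by
      by_contra h
      exact h1 fun x y => by
        rw [← not_not.1 (not_exists.1 h x), ← not_not.1 (not_exists.1 h y)]
    obtain ⟨z, hz, -⟩ := M.bell v w hw
    exact ⟨⟨(v, z), hz⟩, rfl⟩
  choose o ho using hd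
  obtain ⟨r⟩ := hG.nonempty
  obtain ⟨σ, hσ, hE⟩ := hp.resolve_left fun h => (h ▸ (o r).edge_mem : (o r).edge ∈ (∅ : Set _))
  obtain ⟨T, rfl, rfl, g⟩ := M.exists_tr hσ r
  obtain ⟨C⟩ := T.exists_ct (ho _)
  have nc := C.nc hE
  refine ⟨C.sk nc, C.lk ℓ, fun v => (C.tm (o v), T.h v), C.adj, C.init nc M g,
    fun v => ⟨C.one _, C.le _, fun a p ha hp hθ => ?_⟩, fun x y => ⟨?_, fun c hc => ?_⟩⟩
  · obtain rfl : p = T.pk ℓ (C.dt a) := hp
    have := C.h_le M g ha hθ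
    rwa [C.dt_tm, ho] at this
  · have := C.up nc M g (o x) (o y)
    rwa [ho, ho] at this
  · have := C.lo nc M g (e := o x) (e' := o y) (c := c) (by rwa [ho, ho])
    rwa [ho, ho] at this

theorem planar_diagram {V : Type} [Fintype V] (G : SimpleGraph V) (hG : G.Connected)
    (hp : Planar G) (ℓ : Sym2 V → ℝ) (hl : ∀ e ∈ G.edgeSet, 0 < ℓ e) :
    ∃ S D pt, Realises S D pt (spDist G ℓ) :=
  let ⟨S, D, pt, _, h⟩ := planar_diagram' G hG hp ℓ hl
  ⟨S, D, pt, h⟩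

theorem spDist_pos {V : Type} [Fintype V] {G : SimpleGraph V} (hG : G.Connected) {ℓ : Sym2 V → ℝ}
    (hl : ∀ e ∈ G.edgeSet, 0 < ℓ e) (x y : V) (h : x ≠ y) : 0 < spDist G ℓ x y :=
  (met hG hl).dist_pos h

end Vale.Agent.P235.Pl
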