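import Vale.Agent.P235P.MainA
import Vale.Agent.P235P.FMain
import Vale.Agent.P235P.ZMain
import Vale.Agent.P235P.PAMain
import Vale.Agent.P235P.QBMain

/-! P235 planar case: the main theorem. -/

namespace Vale.Agent.P235.Pl

theorem diag_embed :
    ∃ C : ℝ, ∀ (V : Type) [Fintype V] (S : Sk) (D : Lk) (pt : V → ℕ × ℝ) (d : V → V → ℝ),
      (∀ a, S.mate a ≠ a + 1) → Realises S D pt d → (∀ x y, x ≠ y → 0 < d x y) →
      EmbedsL1 d C :=
  diag_embed_of
    (fun _ _ hm _ _ _ _ _ h => h.zo.elim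
      (fun e => ⟨true, fun _ _ _ _ => frame (pairA (zx := true) hm h e.1) (main_payA h _)⟩)
      fun e => ⟨false, fun _ _ _ _ => frame (pairA (zx := false) hm h e.1) (main_payA h _)⟩)
    fun _ _ hm c h _ _ _ _ => frame (pairB hm h) (main_payB c)

theorem planar_embed : ∃ C : ℝ, ∀ (V : Type) [Fintype V] (G : SimpleGraph V),
    G.Connected → Planar G → ∀ ℓ : Sym2 V → ℝ, (∀ e ∈ G.edgeSet, 0 < ℓ e) →
      EmbedsL1 (spDist G ℓ) C := by
  obtain ⟨C, h⟩ := diag_embed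
  refine ⟨C, fun V _ G hG hp ℓ hl => ?_⟩
  obtain ⟨S, D, pt, h1, h2⟩ := planar_diagram' G hG hp ℓ hl
  exact h V S D pt _ h1 h2 (spDist_pos hG hl)

end Vale.Agent.P235.Pl
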