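import Mathlib

/-! Planarity of a finite connected graph, through rotation systems. -/

namespace Vale.Agent.P235

variable {V : Type}

/-- A rotation system: a permutation of the darts (oriented edges) whose cycles are exactly the
sets of darts leaving a common vertex, i.e. a cyclic order of the edges at every vertex. -/
def IsRotationSystem (G : SimpleGraph V) (σ : Equiv.Perm G.Dart) : Prop :=
  ∀ d d' : G.Dart, σ.SameCycle d d' ↔ d.fst = d'.fst

/-- Reversal of darts, as a permutation. -/
def reversal (G : SimpleGraph V) : Equiv.Perm G.Dart :=
  Function.Involutive.toPerm SimpleGraph.Dart.symm SimpleGraph.Dart.symm_involutive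

/-- The number of faces of the cellular embedding given by a rotation system: the number of
orbits of the face-tracing permutation (reverse the dart, then rotate). -/
noncomputable def faceCount (G : SimpleGraph V) (σ : Equiv.Perm G.Dart) : ℕ :=
  Nat.card (Quotient (Equiv.Perm.SameCycle.setoid (σ * reversal G)))

/-- A rotation system of genus zero, that is, one with `V - E + F = 2`. -/
def HasSphericalEmbedding (G : SimpleGraph V) : Prop :=
  ∃ σ : Equiv.Perm G.Dart, IsRotationSystem G σ ∧
    Nat.card V + faceCount G σ = Nat.card G.edgeSet + 2

/-- A finite connected graph is planar iff it has no edge (one vertex) or has a rotation system of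
genus zero. -/
def Planar (G : SimpleGraph V) : Prop := G.edgeSet = ∅ ∨ HasSphericalEmbedding G

end Vale.Agent.P235
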