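import Vale.Agent.P235P.BReach

/-! P235 planar case: barriers for paths, mates, and neighbourhoods. -/

open Set

namespace Vale.Agent.P235.Pl

variable {S : Sk} {D D' : Lk} {W W' : Set ℝ} {p q r : ℕ × ℝ} {c c' : ℝ} {θ θ' g g' a b e e' : ℕ}
  {t t' : ℝ}

theorem Sk.mate_inj (S : Sk) (h : S.mate a = S.mate b) : a = b := by
  rw [← S.inv a, h, S.inv]

/-- Two arcs are nested or disjoint. -/
theorem Sk.nest (S : Sk) (ha : a < S.mate a) (hb : b < S.mate b) (h : a < b) :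
    S.mate a < b ∨ S.mate b < S.mate a := by
  rcases lt_trichotomy b (S.mate a) with h1 | h1 | h1
  · exact Or.inr (S.nc a b h h1).2
  · rw [h1, S.inv] at hb; omega
  · exact Or.inl h1

/-- BAR for a gap: the path passes the chain of the gap or jumps along an enclosing arc. -/
theorem Reach.bar_gap (h : Reach S D W p q c) (hp : p.1 ≤ g) (hq : g < q.1) :
    (∃ t ∈ D.L g, Via S D W p (g, t) q c) ∨
      ∃ a t, a ≤ g ∧ g < S.mate a ∧ t ∈ D.P a ∧ Via S D W p (a, t) q c := by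
  obtain ⟨θ, θ', t, h1, h2, h3, h4⟩ := h.cross (A := {θ | θ ≤ g}) hp (not_le.2 hq)
  change θ ≤ g at h1
  change ¬θ' ≤ g at h2
  rcases h3 with ⟨e, h5⟩ | ⟨e, -⟩ | ⟨-, e, h5⟩ | ⟨h5, e, -⟩
  · obtain rfl : θ = g := by omega
    exact Or.inl ⟨t, h5, h4⟩
  · omega
  · exact Or.inr ⟨θ, t, h1, by omega, h5, h4⟩
  · omega

theorem Reach.bar_gap' (h : Reach S D W p q c) (hp : g < p.1) (hq : q.1 ≤ g) :
    (∃ t ∈ D.L g, Via S D W p (g, t) q c) ∨
      ∃ a t, a ≤ g ∧ g < S.mate a ∧ t ∈ D.P a ∧ Via S D W p (a, t) q c := by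
  rcases h.symm.bar_gap hq hp with ⟨t, h1, h2⟩ | ⟨a, t, h1, h2, h3, h4⟩
  · exact Or.inl ⟨t, h1, h2.symm⟩
  · exact Or.inr ⟨a, t, h1, h2, h3, h4.symm⟩

/-- A link that leaves the closed interval of an arc is a gap link at one of its ends. -/
theorem Link.exit_arc (h : Link S D θ θ' t) (ha : a < S.mate a) (h1 : a ≤ θ) (h2 : θ ≤ S.mate a)
    (h3 : θ' < a ∨ S.mate a < θ') :
    (θ = a ∧ a = θ' + 1 ∧ t ∈ D.L θ') ∨ (θ = S.mate a ∧ θ' = θ + 1 ∧ t ∈ D.L θ) := by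
  have key : θ' ≠ S.mate θ := fun e => by
    rcases h1.eq_or_lt with rfl | h1
    · omega
    · rcases h2.eq_or_lt with rfl | h2
      · rw [S.inv] at e; omega
      · have := S.nc a θ h1 h2
        omega
  rcases h with ⟨e, h5⟩ | ⟨e, h5⟩ | ⟨-, e, -⟩ | ⟨-, e, -⟩
  · exact Or.inr ⟨by omega, e, h5⟩
  · exact Or.inl ⟨by omega, by omega, h5⟩
  · exact absurd e key
  · exact absurd (by rw [e, S.inv]) key

/-- BAR for an arc: the path passes a column of the arc, at a link value of the outer gap. -/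
theorem Reach.bar_arc (h : Reach S D W p q c) (ha : a < S.mate a) (h1 : a ≤ p.1)
    (h2 : p.1 ≤ S.mate a) (h3 : q.1 < a ∨ S.mate a < q.1) :
    ∃ t, (t ∈ D.L (a - 1) ∧ Via S D W p (a, t) q c) ∨
      (t ∈ D.L (S.mate a) ∧ Via S D W p (S.mate a, t) q c) := by
  obtain ⟨θ, θ', t, k1, k2, k3, k4⟩ := h.cross (A := Icc a (S.mate a)) ⟨h1, h2⟩
    (by rw [mem_Icc]; omega)
  rw [mem_Icc] at k1 k2
  rcases k3.exit_arc ha k1.1 k1.2 (by omega) with ⟨rfl, e, h5⟩ | ⟨rfl, -, h5⟩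
  · exact ⟨t, Or.inl ⟨by rwa [e, Nat.add_sub_cancel], k4⟩⟩
  · exact ⟨t, Or.inr ⟨h5, k4⟩⟩

theorem Reach.bar_sep (h : Reach S D W p q c) (hs : Sep S a p.1 q.1) :
    ∃ θ t, (θ = a ∨ θ = S.mate a) ∧ (t ∈ D.L θ ∨ t ∈ D.L (θ - 1)) ∧ Via S D W p (θ, t) q c := by
  obtain ⟨t, h1 | h1⟩ := h.bar_arc hs.1 hs.2.1 hs.2.2.1 hs.2.2.2
  · exact ⟨_, t, Or.inl rfl, Or.inr h1.1, h1.2⟩
  · exact ⟨_, t, Or.inr rfl, Or.inl h1.1, h1.2⟩

/-- BAR for the open interval of an arc. -/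
theorem Reach.bar_open (h : Reach S D W p q c) (h1 : a < p.1) (h2 : p.1 < S.mate a)
    (h3 : q.1 ≤ a ∨ S.mate a ≤ q.1) :
    ∃ t, (t ∈ D.L a ∧ Via S D W p (a, t) q c) ∨
      (t ∈ D.L (S.mate a - 1) ∧ Via S D W p (S.mate a, t) q c) := by
  obtain ⟨θ, θ', t, k1, k2, k3, k4⟩ := h.cross (A := Ioo a (S.mate a)) ⟨h1, h2⟩
    (by rw [mem_Ioo]; omega)
  rw [mem_Ioo] at k1 k2
  have := S.nc a θ k1.1 k1.2
  rcases id k3 with ⟨e, h5⟩ | ⟨e, h5⟩ | ⟨-, e, -⟩ | ⟨-, e, -⟩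
  · obtain rfl : θ' = S.mate a := by omega
    exact ⟨t, Or.inr ⟨by rwa [e, Nat.add_sub_cancel], k4.link k3⟩⟩
  · obtain rfl : θ' = a := by omega
    exact ⟨t, Or.inl ⟨h5, k4.link k3⟩⟩
  · omega
  · have : θ' = S.mate θ := by rw [e, S.inv]
    omega

/-- An arc with a link value in `W`. -/
def WArc (S : Sk) (D : Lk) (W : Set ℝ) (a : ℕ) : Prop := a < S.mate a ∧ ∃ t ∈ D.P a, t ∈ W

/-- The arc `a` encloses the gap `g`. -/
def Enc (S : Sk) (a g : ℕ) : Prop := a ≤ g ∧ g < S.mate a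

/-- Gaps that no arc with a value in `W` separates. -/
def Mates (S : Sk) (D : Lk) (W : Set ℝ) (g g' : ℕ) : Prop :=
  ∀ a, WArc S D W a → (Enc S a g ↔ Enc S a g')

/-- The chain of a gap. -/
def chain (D : Lk) (W : Set ℝ) (g : ℕ) : Set (ℕ × ℝ) := {p | p.1 = g ∧ p.2 ∈ D.L g ∧ p.2 ∈ W}

/-- A gap without links in `W`. -/
def Free (D : Lk) (W : Set ℝ) (g : ℕ) : Prop := ∀ t ∈ W, t ∉ D.L g

/-- The two columns of an arc. -/
def cols (S : Sk) (W : Set ℝ) (a : ℕ) : Set (ℕ × ℝ) := {p | (p.1 = a ∨ p.1 = S.mate a) ∧ p.2 ∈ W}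

theorem Mates.refl (S : Sk) (D : Lk) (W : Set ℝ) (g : ℕ) : Mates S D W g g := fun _ _ => Iff.rfl

theorem Mates.symm (h : Mates S D W g g') : Mates S D W g' g := fun a ha => (h a ha).symm

theorem Mates.trans (h : Mates S D W g g') (h' : Mates S D W g' e) : Mates S D W g e :=
  fun a ha => (h a ha).trans (h' a ha)

theorem WArc.mono (h : WArc S D W a) (hW : W ⊆ W') (hD : D.LeOn D' W) : WArc S D' W' a :=
  let ⟨h1, t, h2, h3⟩ := h
  ⟨h1, t, hD.2 _ _ h3 h2, hW h3⟩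

theorem Mates.anti (h : Mates S D' W' g g') (hW : W ⊆ W') (hD : D.LeOn D' W) : Mates S D W g g' :=
  fun a ha => h a (ha.mono hW hD)

/-- A link that leaves the interval between two mates is a link of one of the two gaps. -/
theorem Link.exit_mates (h : Link S D θ θ' t) (ht : t ∈ W) (hm : Mates S D W g g') (h1 : g < θ)
    (h2 : θ ≤ g') (h3 : θ' ≤ g ∨ g' < θ') :
    (θ = g + 1 ∧ θ' = g ∧ t ∈ D.L g) ∨ (θ = g' ∧ θ' = g' + 1 ∧ t ∈ D.L g') := by
  rcases h with ⟨e, h5⟩ | ⟨e, h5⟩ | ⟨h4, e, h5⟩ | ⟨h4, e, h5⟩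
  · obtain rfl : θ = g' := by omega
    exact Or.inr ⟨rfl, e, h5⟩
  · obtain rfl : θ' = g := by omega
    exact Or.inl ⟨e, rfl, h5⟩
  · have := hm θ ⟨h4, t, h5, ht⟩
    unfold Enc at this
    omega
  · have := hm θ' ⟨h4, t, h5, ht⟩
    unfold Enc at this
    omega

/-- BAR for two mates. -/
theorem Reach.bar_mates (h : Reach S D W p q c) (hm : Mates S D W g g') (h1 : g < p.1)
    (h2 : p.1 ≤ g') (h3 : q.1 ≤ g ∨ g' < q.1) :
    (∃ t ∈ D.L g, Via S D W p (g, t) q c) ∨ ∃ t ∈ D.L g', Via S D W p (g', t) q c := by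
  obtain ⟨θ, θ', t, k1, k2, k3, k4⟩ := h.cross (A := Ioc g g') ⟨h1, h2⟩ (by rw [mem_Ioc]; omega)
  rw [mem_Ioc] at k1 k2
  rcases k3.exit_mates k4.mem hm k1.1 k1.2 (by omega) with ⟨-, rfl, h5⟩ | ⟨rfl, -, h5⟩
  · exact Or.inl ⟨t, h5, k4.link k3⟩
  · exact Or.inr ⟨t, h5, k4⟩

/-- The gaps just outside an arc are mates. -/
theorem mates_arc (S : Sk) (D : Lk) (W : Set ℝ) (ha : e + 1 < S.mate (e + 1)) :
    Mates S D W e (S.mate (e + 1)) := by
  intro b hb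
  unfold Enc
  have hb1 := hb.1
  rcases lt_trichotomy b (e + 1) with h | rfl | h
  · have := S.nest hb1 ha h
    omega
  · omega
  · have := S.nest ha hb1 h
    omega

/-- The next mate after `e`, if an arc does not close at `e + 1`. -/
theorem mates_next (hm : Mates S D W e e') (hlt : e < e') :
    Mates S D W e (e + 1) ∨ (WArc S D W (e + 1) ∧ S.mate (e + 1) ≤ e') := by
  by_cases h : Mates S D W e (e + 1)
  · exact Or.inl h
  · unfold Mates at h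
    push Not at h
    obtain ⟨a, ha, h⟩ := h
    have h1 := hm a ha
    have h2 := ha.1
    unfold Enc at h h1
    obtain rfl : a = e + 1 := by omega
    exact Or.inr ⟨ha, by omega⟩

/-- SUCC: consecutive mates. -/
theorem succ_mates (hm : Mates S D W e e') (hlt : e < e')
    (hc : ∀ g, e < g → g < e' → ¬Mates S D W e g) :
    e' = e + 1 ∨ (WArc S D W (e + 1) ∧ e' = S.mate (e + 1)) := by
  rcases mates_next hm hlt with h | ⟨h1, h2⟩
  · left
    by_contra hn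
    exact hc (e + 1) (by omega) (by omega) h
  · refine Or.inr ⟨h1, ?_⟩
    by_contra hn
    exact hc _ (by have := h1.1; omega) (by omega) (mates_arc S D W h1.1)

/-- The chains of consecutive mates are close. -/
theorem succ_near {w : ℝ} (hW : ∀ s ∈ W, ∀ s' ∈ W, |s - s'| ≤ w) (hm : Mates S D W e e')
    (hlt : e < e') (hc : ∀ g, e < g → g < e' → ¬Mates S D W e g) (ht : t ∈ D.L e) (htW : t ∈ W)
    (ht' : t' ∈ W) : ∃ c ≤ 2 * w, Reach S D W (e, t) (e', t') c := by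
  have h0 := Reach.of_link (link_gap S ht) htW
  rcases succ_mates hm hlt hc with rfl | ⟨⟨h1, s, h2, h3⟩, rfl⟩
  · refine ⟨_, ?_, h0.vert ht'⟩
    have := hW t htW t' ht'
    linarith [abs_nonneg (t - t')]
  · refine ⟨_, ?_, ((h0.vert h3).link (link_arc h1 h2)).vert ht'⟩
    linarith [hW t htW s h3, hW s h3 t' ht']

namespace Near

variable {A A' : Set (ℕ × ℝ)} {R R' : ℝ}

theorem of_reach (hp : p ∈ A) (h : Reach S D W p q c) (hc : c ≤ R) : Near S D W A R q :=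
  ⟨p, hp, c, hc, h⟩

theorem self (hp : p ∈ A) (hW : p.2 ∈ W) (hR : 0 ≤ R) : Near S D W A R p :=
  ⟨p, hp, 0, hR, Reach.refl hW⟩

theorem mem (h : Near S D W A R q) : q.2 ∈ W :=
  let ⟨_, _, _, _, h⟩ := h
  h.mem_right

theorem nonneg (h : Near S D W A R q) : 0 ≤ R :=
  let ⟨_, _, _, hc, h⟩ := h
  h.nonneg.trans hc

theorem mono (h : Near S D W A R q) (hA : A ⊆ A') (hR : R ≤ R') : Near S D W A' R' q :=
  let ⟨p, hp, c, hc, h⟩ := h
  ⟨p, hA hp, c, hc.trans hR, h⟩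

theorem mono_R (h : Near S D W A R q) (hR : R ≤ R') : Near S D W A R' q := h.mono Subset.rfl hR

theorem mono_D (h : Near S D W A R q) (hW : W ⊆ W') (hD : D.LeOn D' W) : Near S D' W' A R q :=
  let ⟨p, hp, c, hc, h⟩ := h
  ⟨p, hp, c, hc, h.mono hW hD⟩

theorem reach (h : Near S D W A R q) (h' : Reach S D W q r c) : Near S D W A (R + c) r :=
  let ⟨p, hp, _, hc, h⟩ := h
  ⟨p, hp, _, by linarith, h.trans h'⟩

theorem vert (h : Near S D W A R (θ, t)) (ht : t' ∈ W) : Near S D W A (R + |t - t'|) (θ, t') :=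
  h.reach (Reach.col S D θ h.mem ht)

theorem link (h : Near S D W A R (θ, t)) (hl : Link S D θ θ' t) : Near S D W A R (θ', t) :=
  let ⟨p, hp, c, hc, h⟩ := h
  ⟨p, hp, c, hc, h.link hl⟩

theorem trans (h : Near S D W A' R' q) (hA : ∀ p ∈ A', p.2 ∈ W → Near S D W A R p) :
    Near S D W A (R + R') q :=
  let ⟨p, hp, _, hc, h⟩ := h
  ((hA p hp h.mem_left).reach h).mono_R (by linarith)

theorem union : Near S D W (A ∪ A') R q ↔ Near S D W A R q ∨ Near S D W A' R q :=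
  ⟨fun ⟨p, hp, h⟩ => hp.imp (fun hp => ⟨p, hp, h⟩) fun hp => ⟨p, hp, h⟩,
    fun h => h.elim (fun h => h.mono subset_union_left le_rfl)
      fun h => h.mono subset_union_right le_rfl⟩

theorem swap (h : Near S D W A R q) : ∃ p ∈ A, Near S D W {q} R p :=
  let ⟨p, hp, c, hc, h⟩ := h
  ⟨p, hp, q, rfl, c, hc, h.symm⟩

theorem single : Near S D W {p} R q ↔ ∃ c ≤ R, Reach S D W p q c :=
  ⟨fun ⟨_, hp, h⟩ => hp ▸ h, fun h => ⟨p, rfl, h⟩⟩

end Near

end Vale.Agent.P235.Pl
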