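import Vale.Agent.P235P.BBar

/-! P235 planar case: capped infima, envelopes and distances. -/

open Set

namespace Vale.Agent.P235.Pl

/-- The infimum of `T`, capped. -/
noncomputable def cinf (cap : ℝ) (T : Set ℝ) : ℝ := sInf (insert cap T)

section
variable {cap cap' v δ m : ℝ} {T T' : Set ℝ}

theorem cinf_bdd (hT : ∀ v ∈ T, m ≤ v) : BddBelow (insert cap T) :=
  BddBelow.insert _ ⟨m, hT⟩

theorem cinf_le_cap (hT : ∀ v ∈ T, m ≤ v) : cinf cap T ≤ cap :=
  csInf_le (cinf_bdd hT) (mem_insert _ _)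

theorem cinf_le (hT : ∀ v ∈ T, m ≤ v) (hv : v ∈ T) : cinf cap T ≤ v :=
  csInf_le (cinf_bdd hT) (mem_insert_of_mem _ hv)

theorem le_cinf (hc : m ≤ cap) (hT : ∀ v ∈ T, m ≤ v) : m ≤ cinf cap T :=
  le_csInf (insert_nonempty _ _) (by rintro v (rfl | hv); exacts [hc, hT v hv])

theorem exists_of_cinf_lt (h : cinf cap T < v) (hv : v ≤ cap) : ∃ u ∈ T, u < v := by
  by_contra hn
  push Not at hn
  exact absurd (le_cinf hv hn) (not_le.2 h)

theorem cinf_le_add (hT : ∀ v ∈ T, m ≤ v) (hc : cap ≤ cap' + δ)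
    (h : ∀ v ∈ T', cap ≤ v + δ ∨ ∃ u ∈ T, u ≤ v + δ) : cinf cap T ≤ cinf cap' T' + δ := by
  rw [← sub_le_iff_le_add]
  refine le_cinf (by linarith [cinf_le_cap (cap := cap) hT]) fun v hv => ?_
  rcases h v hv with h | ⟨u, hu, h⟩
  · linarith [cinf_le_cap (cap := cap) hT]
  · linarith [cinf_le (cap := cap) hT hu]

theorem cinf_eq_cap (h : ∀ v ∈ T, cap ≤ v) : cinf cap T = cap :=
  le_antisymm (cinf_le_cap h) (le_cinf le_rfl h)

theorem min_cinf (hT : ∀ v ∈ T, m ≤ v) (h : cap' ≤ cap) : min cap' (cinf cap T) = cinf cap' T := by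
  refine le_antisymm (le_cinf (min_le_left _ _) fun v hv => (min_le_right _ _).trans
    (cinf_le hT hv)) (le_min (cinf_le_cap hT) ?_)
  exact le_cinf ((cinf_le_cap hT).trans h) fun v hv => cinf_le hT hv

end

/-- The capped envelope of the data `f` on the sources `A` with slope `k`. -/
noncomputable def env (S : Sk) (D : Lk) (W : Set ℝ) (A : Set (ℕ × ℝ)) (f : ℕ × ℝ → ℝ)
    (k cap : ℝ) (q : ℕ × ℝ) : ℝ :=
  cinf cap {v | ∃ p ∈ A, ∃ c, Reach S D W p q c ∧ v = f p + k * c}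

/-- The capped distance to `A`. -/
noncomputable def cd (S : Sk) (D : Lk) (W : Set ℝ) (A : Set (ℕ × ℝ)) (cap : ℝ) (q : ℕ × ℝ) : ℝ :=
  env S D W A (fun _ => 0) 1 cap q

variable {S : Sk} {D D' : Lk} {W W' : Set ℝ} {p q r : ℕ × ℝ} {c k cap cap' m R v t t' : ℝ}
  {θ θ' : ℕ} {A A' : Set (ℕ × ℝ)} {f f' : ℕ × ℝ → ℝ}

theorem env_low (hk : 0 ≤ k) (hf : ∀ p ∈ A, p.2 ∈ W → m ≤ f p) :
    ∀ v ∈ {v | ∃ p ∈ A, ∃ c, Reach S D W p q c ∧ v = f p + k * c}, m ≤ v := by
  rintro v ⟨p, hp, c, hc, rfl⟩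
  linarith [hf p hp hc.mem_left, mul_nonneg hk hc.nonneg]

theorem env_le_cap (hk : 0 ≤ k) (hf : ∀ p ∈ A, p.2 ∈ W → m ≤ f p) : env S D W A f k cap q ≤ cap :=
  cinf_le_cap (env_low hk hf)

theorem env_le (hk : 0 ≤ k) (hf : ∀ p ∈ A, p.2 ∈ W → m ≤ f p) (hp : p ∈ A)
    (h : Reach S D W p q c) : env S D W A f k cap q ≤ f p + k * c :=
  cinf_le (env_low hk hf) ⟨p, hp, c, h, rfl⟩

theorem le_env (hc : m ≤ cap) (h : ∀ p ∈ A, ∀ c, Reach S D W p q c → m ≤ f p + k * c) :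
    m ≤ env S D W A f k cap q :=
  le_cinf hc (by rintro v ⟨p, hp, c, hc, rfl⟩; exact h p hp c hc)

theorem exists_of_env_lt (h : env S D W A f k cap q < v) (hv : v ≤ cap) :
    ∃ p ∈ A, ∃ c, Reach S D W p q c ∧ f p + k * c < v := by
  obtain ⟨u, ⟨p, hp, c, hc, rfl⟩, hu⟩ := exists_of_cinf_lt h hv
  exact ⟨p, hp, c, hc, hu⟩

theorem env_reach (hk : 0 ≤ k) (hf : ∀ p ∈ A, p.2 ∈ W → m ≤ f p) (h : Reach S D W q r c) :
    env S D W A f k cap r ≤ env S D W A f k cap q + k * c := by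
  refine cinf_le_add (env_low hk hf) (le_add_of_nonneg_right (mul_nonneg hk h.nonneg)) ?_
  rintro v ⟨p, hp, c', hc, rfl⟩
  exact Or.inr ⟨_, ⟨p, hp, _, hc.trans h, rfl⟩, le_of_eq (by ring)⟩

theorem env_abs (hk : 0 ≤ k) (hf : ∀ p ∈ A, p.2 ∈ W → m ≤ f p) (h : Reach S D W q r c) :
    |env S D W A f k cap q - env S D W A f k cap r| ≤ k * c :=
  abs_sub_le_iff.2 ⟨by linarith [env_reach (cap := cap) hk hf h.symm],
    by linarith [env_reach (cap := cap) hk hf h]⟩

theorem env_lip (hk : 0 ≤ k) (hf : ∀ p ∈ A, p.2 ∈ W → m ≤ f p) (ht : t ∈ W) (ht' : t' ∈ W) :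
    |env S D W A f k cap (θ, t) - env S D W A f k cap (θ, t')| ≤ k * |t - t'| :=
  env_abs hk hf (Reach.col S D θ ht ht')

theorem env_link (h : Link S D θ θ' t) : env S D W A f k cap (θ, t) = env S D W A f k cap (θ', t) := by
  unfold env
  congr 1
  ext v
  exact ⟨fun ⟨p, hp, c, hc, e⟩ => ⟨p, hp, c, hc.link h, e⟩,
    fun ⟨p, hp, c, hc, e⟩ => ⟨p, hp, c, hc.link h.symm, e⟩⟩

theorem env_off (hq : q.2 ∉ W) : env S D W A f k cap q = cap :=
  cinf_eq_cap (by rintro v ⟨p, -, c, hc, -⟩; exact absurd hc.mem_right hq)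

/-- More sources, more links, smaller data and a smaller cap give a smaller envelope. -/
theorem env_mono (hk : 0 ≤ k) (hf : ∀ p ∈ A', p.2 ∈ W' → m ≤ f' p) (hA : A ⊆ A') (hW : W ⊆ W')
    (hD : D.LeOn D' W) (hff : ∀ p ∈ A, p.2 ∈ W → f' p ≤ f p) (hc : cap' ≤ cap) :
    env S D' W' A' f' k cap' q ≤ env S D W A f k cap q := by
  refine le_env ((env_le_cap hk hf).trans hc) fun p hp c h => ?_
  linarith [env_le (cap := cap') hk hf (hA hp) (h.mono hW hD), hff p hp h.mem_left]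

theorem min_env (hk : 0 ≤ k) (hf : ∀ p ∈ A, p.2 ∈ W → m ≤ f p) (h : cap' ≤ cap) :
    min cap' (env S D W A f k cap q) = env S D W A f k cap' q :=
  min_cinf (env_low hk hf) h

theorem cd_le_cap : cd S D W A cap q ≤ cap := env_le_cap zero_le_one fun _ _ _ => le_rfl

theorem cd_nonneg (hc : 0 ≤ cap) : 0 ≤ cd S D W A cap q :=
  le_env hc fun _ _ _ h => by simpa using h.nonneg

theorem Near.cd_le (h : Near S D W A R q) : cd S D W A cap q ≤ R := by
  obtain ⟨p, hp, c, hc, h⟩ := h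
  have := env_le (f := fun _ => 0) (k := 1) (cap := cap) zero_le_one (fun _ _ _ => le_rfl) hp h
  unfold cd
  linarith

theorem near_of_cd_lt (h : cd S D W A cap q < R) (hR : R ≤ cap) : Near S D W A R q := by
  obtain ⟨p, hp, c, hc, h⟩ := exists_of_env_lt h hR
  exact ⟨p, hp, c, by linarith, hc⟩

theorem le_cd (hn : ¬Near S D W A R q) (hR : R ≤ cap) : R ≤ cd S D W A cap q :=
  not_lt.1 fun h => hn (near_of_cd_lt h hR)

theorem le_cd' (hR : R ≤ cap) (h : ∀ p ∈ A, ∀ c, Reach S D W p q c → R ≤ c) :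
    R ≤ cd S D W A cap q :=
  le_env hR fun p hp c hc => by simpa using h p hp c hc

theorem cd_self (hc : 0 ≤ cap) (hp : p ∈ A) (hW : p.2 ∈ W) : cd S D W A cap p = 0 :=
  le_antisymm (Near.self hp hW le_rfl).cd_le (cd_nonneg hc)

theorem cd_reach (h : Reach S D W q r c) : cd S D W A cap r ≤ cd S D W A cap q + c := by
  simpa [cd] using env_reach (A := A) (f := fun _ => 0) (cap := cap) zero_le_one
    (fun _ _ _ => le_rfl) h

theorem cd_abs (h : Reach S D W q r c) : |cd S D W A cap q - cd S D W A cap r| ≤ c :=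
  abs_sub_le_iff.2 ⟨by linarith [cd_reach (A := A) (cap := cap) h.symm],
    by linarith [cd_reach (A := A) (cap := cap) h]⟩

theorem cd_lip (ht : t ∈ W) (ht' : t' ∈ W) :
    |cd S D W A cap (θ, t) - cd S D W A cap (θ, t')| ≤ |t - t'| :=
  cd_abs (Reach.col S D θ ht ht')

theorem cd_link (h : Link S D θ θ' t) : cd S D W A cap (θ, t) = cd S D W A cap (θ', t) :=
  env_link h

theorem cd_off (hq : q.2 ∉ W) : cd S D W A cap q = cap := env_off hq

theorem cd_mono (hA : A ⊆ A') (hW : W ⊆ W') (hD : D.LeOn D' W) (hc : cap' ≤ cap) :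
    cd S D' W' A' cap' q ≤ cd S D W A cap q :=
  env_mono zero_le_one (fun _ _ _ => le_rfl) hA hW hD (fun _ _ _ => le_rfl) hc

theorem min_cd (h : cap' ≤ cap) : min cap' (cd S D W A cap q) = cd S D W A cap' q :=
  min_env zero_le_one (fun _ _ _ => le_rfl) h

theorem cd_union : cd S D W (A ∪ A') cap q = min (cd S D W A cap q) (cd S D W A' cap q) := by
  have hD : D.LeOn D W := ⟨fun _ _ _ h => h, fun _ _ _ h => h⟩
  refine le_antisymm (le_min (cd_mono subset_union_left Subset.rfl hD le_rfl)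
    (cd_mono subset_union_right Subset.rfl hD le_rfl)) ?_
  refine le_cd' ((min_le_left _ _).trans cd_le_cap) fun p hp c h => ?_
  rcases hp with hp | hp
  · exact (min_le_left _ _).trans (Near.of_reach hp h le_rfl).cd_le
  · exact (min_le_right _ _).trans (Near.of_reach hp h le_rfl).cd_le

/-- If the extra links of `D'` have both ends at `D`-distance at least `R`, the distances agree
below `R`. -/
theorem cd_extra (hD : D.LeOn D' W) (hR : R ≤ cap)
    (h : ∀ θ θ' t, t ∈ W → Link S D' θ θ' t → Link S D θ θ' t ∨ R ≤ cd S D W A cap (θ, t)) :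
    min R (cd S D' W A cap q) = min R (cd S D W A cap q) := by
  refine le_antisymm (min_le_min_left _ (cd_mono Subset.rfl Subset.rfl hD le_rfl)) ?_
  refine le_min (min_le_left _ _) (le_cd' ((min_le_left _ _).trans hR) fun p hp c hc => ?_)
  refine hc.inv (Q := fun q c => min R (cd S D W A cap q) ≤ c) ?_ ?_ ?_
  · exact (min_le_right _ _).trans (Near.self hp hc.mem_left le_rfl).cd_le
  · intro θ t t' c h1 h2 h3
    have h4 := abs_le.1 (cd_lip (S := S) (D := D) (A := A) (cap := cap) (θ := θ) h1.mem_right h2)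
    rcases min_le_iff.1 h3 with h3 | h3
    · exact (min_le_left _ _).trans (by linarith [abs_nonneg (t - t')])
    · exact (min_le_right _ _).trans (by linarith [h4.1])
  · intro θ θ' t c h1 h2 h3
    rcases h θ θ' t h1.mem_right h2 with h4 | h4
    · rwa [← cd_link h4]
    · rw [min_eq_left h4] at h3
      exact (min_le_left _ _).trans h3

end Vale.Agent.P235.Pl
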