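import Vale.Agent.P235P.Engine

/-! P235 planar case: the API of `envT` and `dc`. -/

open Set

namespace Vale.Agent.P235.Pl

variable {S : Sk} {D D' : Lk} {W W' : Set ℝ} {p q r : ℕ × ℝ} {c k cap cap' m R v t t' : ℝ}
  {θ θ' : ℕ} {A A' : Set (ℕ × ℝ)} {f f' : ℕ × ℝ → ℝ} {T T' : ℕ → Set ℕ}

theorem envT_eq : envT S D W A f k T cap θ t = cinf cap {v | ∃ p0 ∈ A, ∃ p c, Reach S D W p0 p c ∧
    p.1 ∈ T θ ∧ v = f p0 + k * (c + |t - p.2|)} := rfl

theorem envT_low (hk : 0 ≤ k) (hf : ∀ p ∈ A, p.2 ∈ W → m ≤ f p) :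
    ∀ v ∈ {v | ∃ p0 ∈ A, ∃ p c, Reach S D W p0 p c ∧ p.1 ∈ T θ ∧
      v = f p0 + k * (c + |t - p.2|)}, m ≤ v := by
  rintro v ⟨p, hp, q, c, hc, -, rfl⟩
  linarith [hf p hp hc.mem_left, mul_nonneg hk (add_nonneg hc.nonneg (abs_nonneg (t - q.2)))]

theorem envT_le_cap (hk : 0 ≤ k) (hf : ∀ p ∈ A, p.2 ∈ W → m ≤ f p) :
    envT S D W A f k T cap θ t ≤ cap := cinf_le_cap (envT_low hk hf)

theorem envT_le (hk : 0 ≤ k) (hf : ∀ p ∈ A, p.2 ∈ W → m ≤ f p) (hp : p ∈ A)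
    (h : Reach S D W p q c) (hq : q.1 ∈ T θ) :
    envT S D W A f k T cap θ t ≤ f p + k * (c + |t - q.2|) :=
  cinf_le (envT_low hk hf) ⟨p, hp, q, c, h, hq, rfl⟩

theorem le_envT (hc : m ≤ cap) (h : ∀ p ∈ A, ∀ q c, Reach S D W p q c → q.1 ∈ T θ →
    m ≤ f p + k * (c + |t - q.2|)) : m ≤ envT S D W A f k T cap θ t :=
  le_cinf hc (by rintro v ⟨p, hp, q, c, hc, hq, rfl⟩; exact h p hp q c hc hq)

theorem low_le_envT (hk : 0 ≤ k) (hf : ∀ p ∈ A, p.2 ∈ W → m ≤ f p) (hc : m ≤ cap) :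
    m ≤ envT S D W A f k T cap θ t := le_cinf hc (envT_low hk hf)

theorem exists_of_envT_lt (h : envT S D W A f k T cap θ t < v) (hv : v ≤ cap) :
    ∃ p ∈ A, ∃ q c, Reach S D W p q c ∧ q.1 ∈ T θ ∧ f p + k * (c + |t - q.2|) < v := by
  obtain ⟨u, ⟨p, hp, q, c, hc, hq, rfl⟩, hu⟩ := exists_of_cinf_lt h hv
  exact ⟨p, hp, q, c, hc, hq, hu⟩

/-- Comparison of two envelopes. -/
theorem envT_le_add {S' : Sk} {k' δ : ℝ} (hk : 0 ≤ k) (hf : ∀ p ∈ A, p.2 ∈ W → m ≤ f p)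
    (hc : cap ≤ cap' + δ) (h : ∀ p' ∈ A', ∀ q' c', Reach S' D' W' p' q' c' → q'.1 ∈ T' θ' →
      cap ≤ f' p' + k' * (c' + |t' - q'.2|) + δ ∨ ∃ p ∈ A, ∃ q c, Reach S D W p q c ∧ q.1 ∈ T θ ∧
        f p + k * (c + |t - q.2|) ≤ f' p' + k' * (c' + |t' - q'.2|) + δ) :
    envT S D W A f k T cap θ t ≤ envT S' D' W' A' f' k' T' cap' θ' t' + δ := by
  refine cinf_le_add (envT_low hk hf) hc ?_
  rintro v ⟨p, hp, q, c, h1, h2, rfl⟩
  rcases h p hp q c h1 h2 with h | ⟨p, hp, q, c, h1, h2, h3⟩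
  · exact Or.inl h
  · exact Or.inr ⟨_, ⟨p, hp, q, c, h1, h2, rfl⟩, h3⟩

theorem envT_le_lip (hk : 0 ≤ k) (hf : ∀ p ∈ A, p.2 ∈ W → m ≤ f p) (t t' : ℝ) :
    envT S D W A f k T cap θ t ≤ envT S D W A f k T cap θ t' + k * |t - t'| := by
  refine envT_le_add hk hf (le_add_of_nonneg_right (by positivity)) fun p hp q c h1 h2 =>
    Or.inr ⟨p, hp, q, c, h1, h2, ?_⟩
  nlinarith [mul_le_mul_of_nonneg_left (abs_sub_le t t' q.2) hk]

theorem envT_lip (hk : 0 ≤ k) (hf : ∀ p ∈ A, p.2 ∈ W → m ≤ f p) (t t' : ℝ) :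
    |envT S D W A f k T cap θ t - envT S D W A f k T cap θ t'| ≤ k * |t - t'| := by
  have h1 := envT_le_lip (S := S) (D := D) (T := T) (cap := cap) (θ := θ) hk hf t t'
  have h2 := envT_le_lip (S := S) (D := D) (T := T) (cap := cap) (θ := θ) hk hf t' t
  rw [abs_sub_comm t' t] at h2
  exact abs_sub_le_iff.2 ⟨by linarith, by linarith⟩

/-- More sources, links and targets, smaller data and a smaller cap give a smaller envelope. -/
theorem envT_mono (hk : 0 ≤ k) (hf : ∀ p ∈ A', p.2 ∈ W' → m ≤ f' p) (hA : A ⊆ A') (hW : W ⊆ W')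
    (hD : D.LeOn D' W) (hff : ∀ p ∈ A, p.2 ∈ W → f' p ≤ f p) (hT : T θ ⊆ T' θ')
    (hc : cap' ≤ cap) : envT S D' W' A' f' k T' cap' θ' t ≤ envT S D W A f k T cap θ t := by
  refine le_envT ((envT_le_cap hk hf).trans hc) fun p hp q c h hq => ?_
  linarith [envT_le (cap := cap') (t := t) hk hf (hA hp) (h.mono hW hD) (hT hq),
    hff p hp h.mem_left]

theorem Lk.LeOn.rfl : D.LeOn D W := ⟨fun _ _ _ h => h, fun _ _ _ h => h⟩

theorem envT_anti_T (hk : 0 ≤ k) (hf : ∀ p ∈ A, p.2 ∈ W → m ≤ f p) (hT : T θ ⊆ T θ') :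
    envT S D W A f k T cap θ' t ≤ envT S D W A f k T cap θ t :=
  envT_mono hk hf Subset.rfl Subset.rfl Lk.LeOn.rfl (fun _ _ _ => le_rfl) hT le_rfl

theorem min_envT (hk : 0 ≤ k) (hf : ∀ p ∈ A, p.2 ∈ W → m ≤ f p) (h : cap' ≤ cap) :
    min cap' (envT S D W A f k T cap θ t) = envT S D W A f k T cap' θ t :=
  min_cinf (envT_low hk hf) h

/-- Envelopes with a single target time along a path. -/
theorem env1_reach (hk : 0 ≤ k) (hf : ∀ p ∈ A, p.2 ∈ W → m ≤ f p) (h : Reach S D W q r c) :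
    envT S D W A f k (fun θ => {θ}) cap r.1 r.2 ≤
      envT S D W A f k (fun θ => {θ}) cap q.1 q.2 + k * c := by
  refine envT_le_add hk hf (le_add_of_nonneg_right (mul_nonneg hk h.nonneg))
    fun p hp q' c' h1 h2 => Or.inr ⟨p, hp, r, c' + |q'.2 - q.2| + c, ?_, rfl, le_of_eq ?_⟩
  · obtain ⟨θ, u⟩ := q'
    obtain rfl : θ = q.1 := h2
    exact (h1.vert h.mem_left).trans h
  · rw [sub_self, abs_zero, abs_sub_comm]
    ring

theorem env1_le (hk : 0 ≤ k) (hf : ∀ p ∈ A, p.2 ∈ W → m ≤ f p) (hp : p ∈ A)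
    (h : Reach S D W p q c) : envT S D W A f k (fun θ => {θ}) cap q.1 q.2 ≤ f p + k * c := by
  simpa using envT_le (T := fun θ => {θ}) (θ := q.1) (t := q.2) (cap := cap) hk hf hp h rfl

theorem exists_of_env1_lt (h : envT S D W A f k (fun θ => {θ}) cap q.1 q.2 < v) (hv : v ≤ cap)
    (hq : q.2 ∈ W) : ∃ p ∈ A, ∃ c, Reach S D W p q c ∧ f p + k * c < v := by
  obtain ⟨p, hp, ⟨θ, u⟩, c, h1, h2, h3⟩ := exists_of_envT_lt h hv
  obtain rfl : θ = q.1 := h2
  exact ⟨p, hp, _, h1.vert hq, by rwa [abs_sub_comm]⟩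

theorem le_env1 (hc : m ≤ cap) (hq : q.2 ∈ W)
    (h : ∀ p ∈ A, ∀ c, Reach S D W p q c → m ≤ f p + k * c) :
    m ≤ envT S D W A f k (fun θ => {θ}) cap q.1 q.2 :=
  not_lt.1 fun hl =>
    let ⟨p, hp, c, h1, h2⟩ := exists_of_env1_lt hl hc hq
    absurd (h p hp c h1) (not_le.2 h2)

theorem env1_abs (hk : 0 ≤ k) (hf : ∀ p ∈ A, p.2 ∈ W → m ≤ f p) (h : Reach S D W q r c) :
    |envT S D W A f k (fun θ => {θ}) cap q.1 q.2 - envT S D W A f k (fun θ => {θ}) cap r.1 r.2| ≤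
      k * c :=
  abs_sub_le_iff.2 ⟨by linarith [env1_reach (cap := cap) hk hf h.symm],
    by linarith [env1_reach (cap := cap) hk hf h]⟩

theorem env1_link (hk : 0 ≤ k) (hf : ∀ p ∈ A, p.2 ∈ W → m ≤ f p) (h : Link S D θ θ' t)
    (ht : t ∈ W) :
    envT S D W A f k (fun θ => {θ}) cap θ t = envT S D W A f k (fun θ => {θ}) cap θ' t := by
  have := env1_abs (cap := cap) hk hf (Reach.of_link h ht)
  rwa [mul_zero, abs_nonpos_iff, sub_eq_zero] at this

theorem dc_le_cap : dc S D W A cap q ≤ cap := envT_le_cap zero_le_one fun _ _ _ => le_rfl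

theorem dc_nonneg (hc : 0 ≤ cap) : 0 ≤ dc S D W A cap q :=
  low_le_envT zero_le_one (fun _ _ _ => le_rfl) hc

theorem Near.dc_le (h : Near S D W A R q) : dc S D W A cap q ≤ R := by
  obtain ⟨p, hp, c, hc, h⟩ := h
  have := env1_le (f := fun _ => 0) (k := 1) (cap := cap) zero_le_one (fun _ _ _ => le_rfl) hp h
  unfold dc
  linarith

theorem near_of_dc_lt (h : dc S D W A cap q < R) (hR : R ≤ cap) (hq : q.2 ∈ W) :
    Near S D W A R q := by
  obtain ⟨p, hp, c, hc, h⟩ := exists_of_env1_lt h hR hq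
  exact ⟨p, hp, c, by linarith, hc⟩

theorem le_dc (hn : ¬Near S D W A R q) (hR : R ≤ cap) (hq : q.2 ∈ W) : R ≤ dc S D W A cap q :=
  not_lt.1 fun h => hn (near_of_dc_lt h hR hq)

theorem le_dc' (hR : R ≤ cap) (hq : q.2 ∈ W) (h : ∀ p ∈ A, ∀ c, Reach S D W p q c → R ≤ c) :
    R ≤ dc S D W A cap q :=
  le_env1 hR hq fun p hp c hc => by simpa using h p hp c hc

theorem dc_self (hc : 0 ≤ cap) (hp : p ∈ A) (hW : p.2 ∈ W) : dc S D W A cap p = 0 :=
  le_antisymm (Near.self hp hW le_rfl).dc_le (dc_nonneg hc)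

theorem dc_reach (h : Reach S D W q r c) : dc S D W A cap r ≤ dc S D W A cap q + c := by
  simpa [dc] using env1_reach (A := A) (f := fun _ => 0) (cap := cap) zero_le_one
    (fun _ _ _ => le_rfl) h

theorem dc_abs (h : Reach S D W q r c) : |dc S D W A cap q - dc S D W A cap r| ≤ c :=
  abs_sub_le_iff.2 ⟨by linarith [dc_reach (A := A) (cap := cap) h.symm],
    by linarith [dc_reach (A := A) (cap := cap) h]⟩

theorem dc_lip (t t' : ℝ) : |dc S D W A cap (θ, t) - dc S D W A cap (θ, t')| ≤ |t - t'| := by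
  simpa [dc] using envT_lip (S := S) (D := D) (W := W) (A := A) (f := fun _ => 0)
    (T := fun θ => {θ}) (cap := cap) (θ := θ) zero_le_one (fun _ _ _ => le_rfl) t t'

theorem dc_link (h : Link S D θ θ' t) (ht : t ∈ W) :
    dc S D W A cap (θ, t) = dc S D W A cap (θ', t) :=
  env1_link zero_le_one (fun _ _ _ => le_rfl) h ht

theorem dc_mono (hA : A ⊆ A') (hW : W ⊆ W') (hD : D.LeOn D' W) (hc : cap' ≤ cap) :
    dc S D' W' A' cap' q ≤ dc S D W A cap q :=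
  envT_mono zero_le_one (fun _ _ _ => le_rfl) hA hW hD (fun _ _ _ => le_rfl) Subset.rfl hc

theorem min_dc (h : cap' ≤ cap) : min cap' (dc S D W A cap q) = dc S D W A cap' q :=
  min_envT zero_le_one (fun _ _ _ => le_rfl) h

theorem dc_union (hq : q.2 ∈ W) :
    dc S D W (A ∪ A') cap q = min (dc S D W A cap q) (dc S D W A' cap q) := by
  refine le_antisymm (le_min (dc_mono subset_union_left Subset.rfl Lk.LeOn.rfl le_rfl)
    (dc_mono subset_union_right Subset.rfl Lk.LeOn.rfl le_rfl)) ?_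
  refine le_dc' ((min_le_left _ _).trans dc_le_cap) hq fun p hp c h => ?_
  rcases hp with hp | hp
  · exact (min_le_left _ _).trans (Near.of_reach hp h le_rfl).dc_le
  · exact (min_le_right _ _).trans (Near.of_reach hp h le_rfl).dc_le

/-- If the extra links of `D'` start at `D`-distance at least `R`, the distances agree
below `R`. -/
theorem dc_extra (hD : D.LeOn D' W) (hR : R ≤ cap) (hq : q.2 ∈ W)
    (h : ∀ θ θ' t, t ∈ W → Link S D' θ θ' t → Link S D θ θ' t ∨ R ≤ dc S D W A cap (θ, t)) :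
    min R (dc S D' W A cap q) = min R (dc S D W A cap q) := by
  refine le_antisymm (min_le_min_left _ (dc_mono Subset.rfl Subset.rfl hD le_rfl)) ?_
  refine le_min (min_le_left _ _) (le_dc' ((min_le_left _ _).trans hR) hq fun p hp c hc => ?_)
  refine hc.inv (Q := fun q c => min R (dc S D W A cap q) ≤ c) ?_ ?_ ?_
  · exact (min_le_right _ _).trans (Near.self hp hc.mem_left le_rfl).dc_le
  · intro θ t t' c _ _ h3
    have h4 := abs_le.1 (dc_lip (S := S) (D := D) (W := W) (A := A) (cap := cap) (θ := θ) t t')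
    rcases min_le_iff.1 h3 with h3 | h3
    · exact (min_le_left _ _).trans (by linarith [abs_nonneg (t - t')])
    · exact (min_le_right _ _).trans (by linarith [h4.1])
  · intro θ θ' t c h1 h2 h3
    rcases h θ θ' t h1.mem_right h2 with h4 | h4
    · rwa [← dc_link h4 h1.mem_right]
    · rw [min_eq_left h4] at h3
      exact (min_le_left _ _).trans h3

end Vale.Agent.P235.Pl
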