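import Vale.Agent.P235P.Base

/-! P235 planar case: paths in link diagrams. -/

open Set

namespace Vale.Agent.P235.Pl

variable {S : Sk} {D D' : Lk} {W W' : Set ℝ} {p q r : ℕ × ℝ} {c c' : ℝ} {θ θ' g g' a : ℕ}
  {t t' : ℝ}

theorem Link.symm (h : Link S D θ θ' t) : Link S D θ' θ t := by
  unfold Link at *; tauto

theorem link_gap (S : Sk) (h : t ∈ D.L g) : Link S D g (g + 1) t := Or.inl ⟨rfl, h⟩

theorem link_arc (ha : a < S.mate a) (h : t ∈ D.P a) : Link S D a (S.mate a) t :=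
  Or.inr (Or.inr (Or.inl ⟨ha, rfl, h⟩))

/-- `D` has at most the links of `D'` with values in `W`. -/
def Lk.LeOn (D D' : Lk) (W : Set ℝ) : Prop :=
  (∀ g, ∀ t ∈ W, t ∈ D.L g → t ∈ D'.L g) ∧ ∀ a, ∀ t ∈ W, t ∈ D.P a → t ∈ D'.P a

theorem Link.mono (h : Link S D θ θ' t) (hD : D.LeOn D' W) (ht : t ∈ W) : Link S D' θ θ' t := by
  rcases h with ⟨h1, h2⟩ | ⟨h1, h2⟩ | ⟨h1, h2, h3⟩ | ⟨h1, h2, h3⟩
  · exact Or.inl ⟨h1, hD.1 _ _ ht h2⟩
  · exact Or.inr (Or.inl ⟨h1, hD.1 _ _ ht h2⟩)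
  · exact Or.inr (Or.inr (Or.inl ⟨h1, h2, hD.2 _ _ ht h3⟩))
  · exact Or.inr (Or.inr (Or.inr ⟨h1, h2, hD.2 _ _ ht h3⟩))

namespace Reach

theorem mem_left (h : Reach S D W p q c) : p.2 ∈ W := by
  induction h with
  | refl h => exact h
  | vert _ _ ih => exact ih
  | link _ _ ih => exact ih

theorem mem_right (h : Reach S D W p q c) : q.2 ∈ W := by
  induction h with
  | refl h => exact h
  | vert _ h _ => exact h
  | link _ _ ih => exact ih

theorem nonneg (h : Reach S D W p q c) : 0 ≤ c := by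
  induction h with
  | refl _ => exact le_rfl
  | vert _ _ ih => exact add_nonneg ih (abs_nonneg _)
  | link _ _ ih => exact ih

theorem cast (h : Reach S D W p q c) (e : c = c') : Reach S D W p q c' := e ▸ h

theorem trans (h : Reach S D W p q c) (h' : Reach S D W q r c') : Reach S D W p r (c + c') := by
  induction h' with
  | refl _ => simpa using h
  | vert _ hw ih => exact (ih.vert hw).cast (add_assoc _ _ _)
  | link _ hl ih => exact ih.link hl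

theorem col (S : Sk) (D : Lk) (θ : ℕ) (ht : t ∈ W) (ht' : t' ∈ W) :
    Reach S D W (θ, t) (θ, t') |t - t'| :=
  ((refl (p := (θ, t)) ht).vert ht').cast (zero_add _)

theorem of_link (h : Link S D θ θ' t) (ht : t ∈ W) : Reach S D W (θ, t) (θ', t) 0 :=
  (refl (p := (θ, t)) ht).link h

theorem symm (h : Reach S D W p q c) : Reach S D W q p c := by
  induction h with
  | refl h => exact refl h
  | vert h hw ih =>
    exact ((col S D _ hw h.mem_right).trans ih).cast (by rw [abs_sub_comm, add_comm])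
  | link h hl ih => exact ((of_link hl.symm h.mem_right).trans ih).cast (zero_add _)

theorem mono (h : Reach S D W p q c) (hW : W ⊆ W') (hD : D.LeOn D' W) : Reach S D' W' p q c := by
  induction h with
  | refl h => exact refl (hW h)
  | vert _ hw ih => exact ih.vert (hW hw)
  | link h hl ih => exact ih.link (hl.mono hD h.mem_right)

theorem mono_W (h : Reach S D W p q c) (hW : W ⊆ W') : Reach S D W' p q c :=
  h.mono hW ⟨fun _ _ _ h => h, fun _ _ _ h => h⟩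

/-- A consistent Lipschitz function changes by at most the cost. -/
theorem lip (h : Reach S D W p q c) {f : ℕ → ℝ → ℝ} {k : ℝ}
    (hl : ∀ θ, ∀ t ∈ W, ∀ t' ∈ W, |f θ t - f θ t'| ≤ k * |t - t'|)
    (hc : ∀ θ θ', ∀ t ∈ W, Link S D θ θ' t → f θ t = f θ' t) :
    |f p.1 p.2 - f q.1 q.2| ≤ k * c := by
  induction h with
  | refl _ => simp
  | @vert θ t t' c h hw ih =>
    have := hl θ t h.mem_right t' hw
    have h3 := abs_sub_le (f p.1 p.2) (f θ t) (f θ t')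
    simp only at ih ⊢
    linarith
  | @link θ θ' t c h hl' ih =>
    simp only at ih ⊢
    rwa [← hc θ θ' t h.mem_right hl']

theorem abs_le (h : Reach S D W p q c) : |p.2 - q.2| ≤ c := by
  simpa using h.lip (f := fun _ t => t) (k := 1) (fun _ _ _ _ _ => by simp) fun _ _ _ _ _ => rfl

/-- A short path stays in a short window. -/
theorem shrink (h : Reach S D W p q c) {R : ℝ} (hR : c ≤ R) :
    Reach S D (W ∩ Icc (p.2 - R) (p.2 + R)) p q c := by
  have key : ∀ {q c}, Reach S D W p q c → c ≤ R → q.2 ∈ W ∩ Icc (p.2 - R) (p.2 + R) :=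
    fun h hR => ⟨h.mem_right, by
      have := _root_.abs_le.1 (h.abs_le.trans hR)
      constructor <;> linarith [this.1, this.2]⟩
  induction h with
  | refl h => exact refl (key (refl h) hR)
  | vert h hw ih => exact (ih (le_trans (le_add_of_nonneg_right (abs_nonneg _)) hR)).vert (key (h.vert hw) hR)
  | link _ hl ih => exact (ih hR).link hl

/-- Induction along a path for a property of points and costs. -/
theorem inv (h : Reach S D W p q c) {Q : ℕ × ℝ → ℝ → Prop} (h0 : Q p 0)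
    (hv : ∀ θ t t' c, Reach S D W p (θ, t) c → t' ∈ W → Q (θ, t) c → Q (θ, t') (c + |t - t'|))
    (hl : ∀ θ θ' t c, Reach S D W p (θ, t) c → Link S D θ θ' t → Q (θ, t) c → Q (θ', t) c) :
    Q q c := by
  induction h with
  | refl _ => exact h0
  | vert h hw ih => exact hv _ _ _ _ h hw ih
  | link h hl' ih => exact hl _ _ _ _ h hl' ih

end Reach

/-- The links with both times in `A`. -/
def Lk.res (S : Sk) (D : Lk) (A : Set ℕ) : Lk where
  L g := {t | t ∈ D.L g ∧ g ∈ A ∧ g + 1 ∈ A}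
  P a := {t | t ∈ D.P a ∧ a ∈ A ∧ S.mate a ∈ A}

theorem link_res {A : Set ℕ} : Link S (D.res S A) θ θ' t ↔ Link S D θ θ' t ∧ θ ∈ A ∧ θ' ∈ A := by
  constructor
  · rintro (⟨rfl, h⟩ | ⟨rfl, h⟩ | ⟨h1, rfl, h⟩ | ⟨h1, rfl, h⟩)
    · exact ⟨Or.inl ⟨rfl, h.1⟩, h.2⟩
    · exact ⟨Or.inr (Or.inl ⟨rfl, h.1⟩), h.2.2, h.2.1⟩
    · exact ⟨link_arc h1 h.1, h.2⟩
    · exact ⟨(link_arc h1 h.1).symm, h.2.2, h.2.1⟩
  · rintro ⟨⟨rfl, h⟩ | ⟨rfl, h⟩ | ⟨h1, rfl, h⟩ | ⟨h1, rfl, h⟩, h2, h3⟩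
    · exact Or.inl ⟨rfl, h, h2, h3⟩
    · exact Or.inr (Or.inl ⟨rfl, h, h3, h2⟩)
    · exact link_arc h1 ⟨h, h2, h3⟩
    · exact (link_arc (D := D.res S A) h1 ⟨h, h3, h2⟩).symm

theorem res_le (S : Sk) (D : Lk) (A : Set ℕ) (W : Set ℝ) : (D.res S A).LeOn D W :=
  ⟨fun _ _ _ h => h.1, fun _ _ _ h => h.1⟩

theorem Reach.of_res {A : Set ℕ} (h : Reach S (D.res S A) W p q c) : Reach S D W p q c :=
  h.mono Subset.rfl (res_le S D A W)

theorem Reach.res_mem {A : Set ℕ} (h : Reach S (D.res S A) W p q c) (hp : p.1 ∈ A) : q.1 ∈ A := by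
  induction h with
  | refl _ => exact hp
  | vert _ _ ih => exact ih
  | link _ hl _ => exact (link_res.1 hl).2.2

/-- A path stays in a set of times or has a first exit. -/
theorem Reach.stay_or_exit (h : Reach S D W p q c) {A : Set ℕ} (hp : p.1 ∈ A) :
    Reach S (D.res S A) W p q c ∨ ∃ θ θ' t c₁ c₂, θ ∈ A ∧ θ' ∉ A ∧ Link S D θ θ' t ∧ t ∈ W ∧
      Reach S (D.res S A) W p (θ, t) c₁ ∧ Reach S D W (θ', t) q c₂ ∧ c₁ + c₂ = c := by
  induction h with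
  | refl h => exact Or.inl (Reach.refl h)
  | vert _ hw ih =>
    rcases ih with ih | ⟨θ, θ', t, c₁, c₂, h1, h2, h3, h4, h5, h6, h7⟩
    · exact Or.inl (ih.vert hw)
    · exact Or.inr ⟨θ, θ', t, c₁, _, h1, h2, h3, h4, h5, h6.vert hw, by rw [← h7, add_assoc]⟩
  | @link θ₀ θ₁ t₀ c₀ h hl ih =>
    rcases ih with ih | ⟨θ, θ', t, c₁, c₂, h1, h2, h3, h4, h5, h6, h7⟩
    · by_cases hA : θ₁ ∈ A
      · exact Or.inl (ih.link (link_res.2 ⟨hl, ih.res_mem hp, hA⟩))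
      · exact Or.inr ⟨θ₀, θ₁, t₀, c₀, 0, ih.res_mem hp, hA, hl, h.mem_right, ih,
          Reach.refl h.mem_right, add_zero _⟩
    · exact Or.inr ⟨θ, θ', t, c₁, c₂, h1, h2, h3, h4, h5, h6.link hl, h7⟩

/-- First exit from a set of times. -/
theorem Reach.exit (h : Reach S D W p q c) {A : Set ℕ} (hp : p.1 ∈ A) (hq : q.1 ∉ A) :
    ∃ θ θ' t c₁ c₂, θ ∈ A ∧ θ' ∉ A ∧ Link S D θ θ' t ∧ t ∈ W ∧
      Reach S (D.res S A) W p (θ, t) c₁ ∧ Reach S D W (θ', t) q c₂ ∧ c₁ + c₂ = c :=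
  (h.stay_or_exit hp).resolve_left fun h' => hq (h'.res_mem hp)

/-- A path of cost `c` from `p` to `q` through `z`. -/
def Via (S : Sk) (D : Lk) (W : Set ℝ) (p z q : ℕ × ℝ) (c : ℝ) : Prop :=
  ∃ c₁ c₂, Reach S D W p z c₁ ∧ Reach S D W z q c₂ ∧ c₁ + c₂ = c

theorem Via.symm {z : ℕ × ℝ} (h : Via S D W p z q c) : Via S D W q z p c :=
  let ⟨c₁, c₂, h1, h2, h3⟩ := h
  ⟨c₂, c₁, h2.symm, h1.symm, by rw [add_comm, h3]⟩

theorem Via.left {z : ℕ × ℝ} (h : Via S D W p z q c) : ∃ c₁ ≤ c, Reach S D W p z c₁ :=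
  let ⟨c₁, _, h1, h2, h3⟩ := h
  ⟨c₁, by linarith [h2.nonneg], h1⟩

theorem Via.right {z : ℕ × ℝ} (h : Via S D W p z q c) : ∃ c₂ ≤ c, Reach S D W z q c₂ :=
  let ⟨_, c₂, h1, h2, h3⟩ := h
  ⟨c₂, by linarith [h1.nonneg], h2⟩

theorem Via.link (h : Via S D W p (θ, t) q c) (hl : Link S D θ θ' t) : Via S D W p (θ', t) q c :=
  let ⟨c₁, c₂, h1, h2, h3⟩ := h
  ⟨c₁, c₂, h1.link hl, ((Reach.of_link hl.symm h1.mem_right).trans h2).cast (zero_add _), h3⟩

theorem Via.mem {z : ℕ × ℝ} (h : Via S D W p z q c) : z.2 ∈ W :=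
  let ⟨_, _, h1, _, _⟩ := h
  h1.mem_right

/-- Crossing the boundary of a set of times. -/
theorem Reach.cross (h : Reach S D W p q c) {A : Set ℕ} (hp : p.1 ∈ A) (hq : q.1 ∉ A) :
    ∃ θ θ' t, θ ∈ A ∧ θ' ∉ A ∧ Link S D θ θ' t ∧ Via S D W p (θ, t) q c := by
  obtain ⟨θ, θ', t, c₁, c₂, h1, h2, h3, h4, h5, h6, h7⟩ := h.exit hp hq
  exact ⟨θ, θ', t, h1, h2, h3, c₁, c₂, h5.of_res,
    ((Reach.of_link h3 h4).trans h6).cast (zero_add _), h7⟩

end Vale.Agent.P235.Pl
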