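import Vale.Agent.P235.Defs

/-! P235 planar case: link diagrams. Times are natural numbers; gap `g` lies between the times `g` and
`g + 1`; a point is a pair (time, value). -/

open Set

namespace Vale.Agent.P235.Pl

/-- A non-crossing matching of times; `a < mate a` means that `a` is the left end of an arc. -/
structure Sk where
  N : ℕ
  mate : ℕ → ℕ
  inv : ∀ a, mate (mate a) = a
  nc : ∀ a b, a < b → b < mate a → a < mate b ∧ mate b < mate a
  pos : ∀ a, a < mate a → 1 ≤ a ∧ mate a ≤ N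

/-- Link values across gaps and along arcs (indexed by the left end). -/
structure Lk where
  L : ℕ → Set ℝ
  P : ℕ → Set ℝ

/-- The times `θ`, `θ'` are glued at the value `t`. -/
def Link (S : Sk) (D : Lk) (θ θ' : ℕ) (t : ℝ) : Prop :=
  (θ' = θ + 1 ∧ t ∈ D.L θ) ∨ (θ = θ' + 1 ∧ t ∈ D.L θ') ∨
    (θ < S.mate θ ∧ θ' = S.mate θ ∧ t ∈ D.P θ) ∨ (θ' < S.mate θ' ∧ θ = S.mate θ' ∧ t ∈ D.P θ')

/-- Paths with values in `W` and their cost. -/
inductive Reach (S : Sk) (D : Lk) (W : Set ℝ) (p : ℕ × ℝ) : ℕ × ℝ → ℝ → Prop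
  | refl : p.2 ∈ W → Reach S D W p p 0
  | vert {θ : ℕ} {t t' c : ℝ} : Reach S D W p (θ, t) c → t' ∈ W →
      Reach S D W p (θ, t') (c + |t - t'|)
  | link {θ θ' : ℕ} {t c : ℝ} : Reach S D W p (θ, t) c → Link S D θ θ' t →
      Reach S D W p (θ', t) c

/-- `q` is within distance `R` of the set `A`. -/
def Near (S : Sk) (D : Lk) (W : Set ℝ) (A : Set (ℕ × ℝ)) (R : ℝ) (q : ℕ × ℝ) : Prop :=
  ∃ p ∈ A, ∃ c ≤ R, Reach S D W p q c

/-- Initial diagrams. -/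
structure Init (S : Sk) (D : Lk) : Prop where
  l0 : D.L 0 = ∅
  lN : ∀ g, S.N ≤ g → D.L g = ∅
  down : ∀ g t t', t ∈ D.L g → t' ≤ t → t' ∈ D.L g
  single : ∀ a, a < S.mate a → ∃ p, D.P a = {p}
  top : ∀ a p, a < S.mate a → p ∈ D.P a → ∀ θ, θ = a ∨ θ = S.mate a →
    ∀ t, t ∈ D.L θ ∨ t ∈ D.L (θ - 1) → t ≤ p

/-- Admissible marked points. -/
def Pt (S : Sk) (D : Lk) (x : ℕ × ℝ) : Prop :=
  1 ≤ x.1 ∧ x.1 ≤ S.N ∧ ∀ a p, a < S.mate a → p ∈ D.P a → x.1 = a ∨ x.1 = S.mate a → x.2 ≤ p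

/-- The metric `d` on `V` is realised by marked points of an initial diagram. -/
def Realises {V : Type} (S : Sk) (D : Lk) (pt : V → ℕ × ℝ) (d : V → V → ℝ) : Prop :=
  Init S D ∧ (∀ x, Pt S D (pt x)) ∧ ∀ x y, IsLeast {c | Reach S D univ (pt x) (pt y) c} (d x y)

/-- A family of monotone maps of the columns that respects the links. -/
def Cons (S : Sk) (D : Lk) (Φ : ℕ → ℝ → ℝ) : Prop :=
  (∀ θ, Monotone (Φ θ)) ∧ ∀ θ θ' t, Link S D θ θ' t → Φ θ t = Φ θ' t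

/-- The arc with left end `a` separates the times `θ` (inside) and `θ'` (outside). -/
def Sep (S : Sk) (a θ θ' : ℕ) : Prop :=
  a < S.mate a ∧ a ≤ θ ∧ θ ≤ S.mate a ∧ (θ' < a ∨ S.mate a < θ')

end Vale.Agent.P235.Pl
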