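import Vale.Agent.P235P.SysB

/-! P235 planar case: the interface between the generic frame and the two systems. -/

open Set Classical

noncomputable section

namespace Vale.Agent.P235.Pl

/-- The pair of points, its distance and the matched scale. -/
structure Ctx (S : Sk) where
  D0 : Lk
  x : ℕ × ℝ
  y : ℕ × ℝ
  r : ℝ
  rs : ℝ
  init : Init S D0
  ptx : Pt S D0 x
  pty : Pt S D0 y
  dist : IsLeast {c | Reach S D0 univ x y c} r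
  lev : |x.2 - y.2| ≤ rs
  rs_pos : 0 < rs
  adj : ∀ a, S.mate a ≠ a + 1
  r_le : r ≤ 2 ^ 24 * rs
  le_r : 2 ^ 16 * rs ≤ r

variable {S : Sk} {π : Par}

namespace Ctx
variable (c : Ctx S) (s : St) (V : ℕ → ℝ → ℝ) (A : ℝ)

def ball (R : ℝ) : Set (ℕ × ℝ) := {p | Near S c.D0 univ {c.x} (R * c.r) p}

/-- The current value of `x`. -/
def vx : ℝ := V c.x.1 c.x.2

structure Rep (R : ℝ) : Prop where
  pos : 0 < A
  mono : ∀ θ, Monotone (V θ)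
  cont : ∀ θ, Continuous (V θ)
  r1 : ∀ θ θ' t, Link S c.D0 θ θ' t → Link S s.D θ θ' (V θ t) ∧ V θ t = V θ' t
  r2 : ∀ θ θ' t, (θ, t) ∈ c.ball R → Link S s.D θ θ' (V θ t) →
    ∃ t', Link S c.D0 θ θ' t' ∧ V θ t' = V θ t
  lip : ∀ θ t t', (θ, t) ∈ c.ball R → (θ, t') ∈ c.ball R → |V θ t - V θ t'| ≤ 2 * A * |t - t'|
  pf : ∀ p ∈ c.ball R, ¬ Near S s.D s.W s.Pin (50 * A * c.r) (p.1, V p.1 p.2)
  ink : ∀ I, s.kick = some I → ∀ p ∈ c.ball R, p.1 ∈ tm I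

def Win : Prop := Icc (c.vx V - 100 * A * c.r) (c.vx V + 100 * A * c.r) ⊆ s.W

def AffD : Prop := ∃ b, ∀ p ∈ c.ball 8, V p.1 p.2 = A * p.2 + b ∧
  (s.lab p.1 (V p.1 p.2)).1 = A ∧ A * c.rs ≤ (s.lab p.1 (V p.1 p.2)).2

structure NonG : Prop where
  slope : ∀ θ t t', (θ, t) ∈ c.ball 7 → (θ, t') ∈ c.ball 7 → t ≤ t' →
    A * (15 / 16 * (t' - t) - 27 * c.rs) ≤ V θ t' - V θ t
  dev : ∀ p k, Reach S c.D0 univ c.x p k → k ≤ 7 * c.r →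
    |V p.1 p.2 - c.vx V - A * (p.2 - c.x.2)| ≤ A * (k / 16 + 27 * c.rs)
  young : ∀ p ∈ c.ball 7, (s.lab p.1 (V p.1 p.2)).2 ≤ 2 * A * c.rs

/-- Parameters at a step that is not final. -/
structure Big (π : Par) (y : ℕ) : Prop where
  m0 : 200 ≤ π.m0
  w_eq : s.w = 2 ^ y * A * (c.rs / 1024)
  le_y : π.m0 ≤ y
  y_le : y ≤ π.nS
  nq : 256 * s.w ≤ π.Nq * A * c.r
  phase : ∃ i : ℤ, c.rs = 2 ^ π.b * ((2 ^ π.m0 : ℕ) : ℝ) ^ i

/-- The window of the final step. -/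
structure Fin : Prop where
  w_eq : s.w = A * (c.rs / 1024)
  full : s.hi - s.lo = s.w
  lo_le : s.lo + s.w / 3 ≤ c.vx V
  le_hi : c.vx V ≤ s.hi - s.w / 3
  close : |c.vx V - V c.y.1 c.y.2| ≤ s.w / 100
  pend : s.pend = none
  kick : s.kick = none

end Ctx

variable (Y : Sys S π)

/-- The interval whose sources define the child. -/
def cI (s : St) (i : Option (ℕ × ℕ)) : ℕ × ℕ := i.getD (s.kick.getD (0, 0))
def thr (s : St) (ρ : Rnd S π) (i : Option (ℕ × ℕ)) : ℝ := if i.isSome then del' s ρ else del s ρ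
def low (s : St) (i : Option (ℕ × ℕ)) : ℝ := if i.isSome then s.w / 20 else 8 * s.w
def high (s : St) (i : Option (ℕ × ℕ)) : ℝ := if i.isSome then s.w / 4 else 11 * s.w

/-- The initial state. -/
def st0 (D0 : Lk) (lo w : ℝ) : St :=
  { D := D0, Pin := ∅, lab := fun _ _ => (1, w), lo := lo, hi := lo + w, w := w,
    pend := none, kick := none }

/-- Node invariants (independent of the pair). -/
structure NodeC where
  NI : St → Prop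
  pos : ∀ s, NI s → 0 < s.w ∧ s.lo ≤ s.hi ∧ s.hi - s.lo ≤ s.w
  ok : ∀ s ρ, NI s → Y.OkC s ρ ∧ Y.OkP s ρ
  child : ∀ s ρ θ i, NI s → Y.ch s ρ θ = some i → NI (Y.cSt s ρ i)
  next : ∀ s ρ v, NI s → v ∈ Ico s.lo s.hi → NI ((Y.mid s ρ).cut (w' s ρ) (off s ρ) v)
  quiet : ∀ s ρ p, NI s → Near S s.D s.W s.Pin (s.w / 100) p →
    Y.psi s ρ p.1 p.2 = 0 ∧ ¬ Y.deep s ρ p
  bnd : ∀ s ρ I, NI s → I ∈ Y.PE s ρ → I.1 < I.2 ∧ I.2 ≤ S.N
  inj : ∀ s ρ I I', NI s → I ∈ Y.PE s ρ → I' ∈ Y.PE s ρ → I.1 = I'.1 → I = I'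
  pin_in : ∀ s ρ I, NI s → I ∈ Y.PE s ρ → some I ≠ s.kick → ∃ i, ∀ θ ∈ tm I, Y.ch s ρ θ = some i
  ch_tm : ∀ s ρ θ I, NI s → Y.ch s ρ θ = some (some I) → I ∈ Y.PE s ρ ∧ some I ≠ s.kick ∧
    ∀ θ', Y.ch s ρ θ' = some (some I) ↔ θ' ∈ tm I
  half : ∀ s I, NI s → s.kick = some I → s.w / 2 ≤ s.hi - s.lo
  start : ∀ s, NI s → s.pend = none → s.kick = none
  mature : ∀ s ρ I p, NI s → I ∈ Y.PE s ρ ∨ s.kick = some I →
    Near S s.D s.W (Y.src s I) (12 * s.w) p → s.w ≤ (s.lab p.1 p.2).2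
  bdry : ∀ s ρ θ θ' t i, NI s → Link S s.D θ θ' t → t ∈ s.W → Y.ch s ρ θ = some i →
    Y.ch s ρ θ' ≠ some i → Y.DI s (cI s i) (θ, t) ≤ low s i
  endc : ∀ s ρ θ t i, NI s → t ∈ s.W → Y.ch s ρ θ = some i → Y.DI s (cI s i) (θ, t) ≤ high s i →
    ∀ ρ' i', Y.ch (Y.cSt s ρ i) ρ' θ = some i' →
      Y.DI (Y.cSt s ρ i) (cI (Y.cSt s ρ i) i') (θ, t) ≤ low (Y.cSt s ρ i) i'
  init : ∀ D0 lo w, Init S D0 → 0 < w → NI (st0 D0 lo w)

/-- No point of the ball is deep, with a margin. -/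
def Shal (c : Ctx S) (s : St) (ρ : Rnd S π) (V : ℕ → ℝ → ℝ) (A R : ℝ) : Prop :=
  ∀ p ∈ c.ball R, ∀ i, Y.ch s ρ p.1 = some i →
    Y.DI s (cI s i) (p.1, V p.1 p.2) ≤ thr s ρ i - 50 * A * c.r

/-- The value of `x` is far from the kinks of the trapezoid. -/
def Kink (c : Ctx S) (s : St) (ρ : Rnd S π) (V : ℕ → ℝ → ℝ) (A : ℝ) : Prop :=
  100 * A * c.r ≤ |c.vx V - (s.lo + zz s ρ)| ∧ 100 * A * c.r ≤ |c.vx V - (s.lo + zz s ρ + s.w / 20)| ∧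
  100 * A * c.r ≤ |c.vx V - (s.hi - zz s ρ - s.w / 20)| ∧ 100 * A * c.r ≤ |c.vx V - (s.hi - zz s ρ)|

/-- The values after the operation. -/
def Sys.Vn (s : St) (ρ : Rnd S π) (V : ℕ → ℝ → ℝ) : ℕ → ℝ → ℝ := fun θ t => Y.Psi s ρ θ (V θ t)

/-- The slope of the operation at `x` when the ball sees the trapezoid. -/
def beta (c : Ctx S) (s : St) (ρ : Rnd S π) (V : ℕ → ℝ → ℝ) : ℝ :=
  if s.kick.isSome then 1 + sg ρ * trapS s ρ (c.vx V) else 1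

/-- Statements about a pair; `pt` are the tracked points, `F` the convex payoff. -/
structure PairC (N : NodeC Y) (c : Ctx S) {ι : Type} (pt : ι → ℕ × ℝ) (F : (ι → ℝ) → ℝ) where
  ND : St → (ℕ → ℝ → ℝ) → ℝ → Prop
  /-- a kick node at which the affine ball stops -/
  birth : ∀ s V A y I co dd eo (B : ℝ) (Gv : Qn π × Qn π × HS π → Bool → ℝ), N.NI s →
    s.kick = some I → c.Rep s V A 8 → c.Win s V A → c.AffD s V A → c.Big s A π y →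
    (∀ u σ, Shal Y c s (co, dd, u, σ, eo) V A 8) → 0 ≤ B → B ≤ c.rs / 1024 →
    (∀ u σ, 0 ≤ Gv u σ) →
    (∀ u σ, F (fun i => Y.Vn s (co, dd, u, σ, eo) V (pt i).1 (pt i).2) ≤ Gv u σ) →
    (∀ u σ A', A' = A ∨ A' = 2 * A →
      c.Rep (Y.mid s (co, dd, u, σ, eo)) (Y.Vn s (co, dd, u, σ, eo) V) A' 8 →
      c.Win (Y.mid s (co, dd, u, σ, eo)) (Y.Vn s (co, dd, u, σ, eo) V) A' →
      c.AffD (Y.mid s (co, dd, u, σ, eo)) (Y.Vn s (co, dd, u, σ, eo) V) A' → B * A' ≤ Gv u σ) →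
    (∀ u σ, c.Rep (Y.mid s (co, dd, u, σ, eo)) (Y.Vn s (co, dd, u, σ, eo) V) A 7 →
      c.Win (Y.mid s (co, dd, u, σ, eo)) (Y.Vn s (co, dd, u, σ, eo) V) A →
      c.NonG (Y.mid s (co, dd, u, σ, eo)) (Y.Vn s (co, dd, u, σ, eo) V) A →
      ND (Y.mid s (co, dd, u, σ, eo)) (Y.Vn s (co, dd, u, σ, eo) V) A →
      2 ^ 20 * B * A ≤ Gv u σ) →
    (1 - 10 ^ 9 * (y + 1) * (A * c.r / s.w)) * (B * A) ≤
      Finset.expect Finset.univ fun u => Finset.expect Finset.univ fun σ => Gv u σ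
  /-- at a kick node the ball sees the trapezoid -/
  top : ∀ s ρ V A y I, N.NI s → s.kick = some I → c.Rep s V A 7 → c.Win s V A → c.NonG s V A →
    c.Big s A π y → (∀ p ∈ c.ball 7, Y.ch s ρ p.1 = none) →
    ∀ p ∈ c.ball 7, ∀ u, |u - V p.1 p.2| ≤ A * c.r →
      trap s ρ u ≤ (Y.hl s ρ I).H p.1 u - xi0 s ρ
  step : ∀ s ρ V A y, N.NI s → c.Rep s V A 7 → c.Win s V A → c.NonG s V A → ND s V A →
    c.Big s A π y → (∀ p ∈ c.ball 7, Y.ch s ρ p.1 = none) → Kink c s ρ V A →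
    0 < beta c s ρ V → ND (Y.mid s ρ) (Y.Vn s ρ V) (beta c s ρ V * A)
  child : ∀ s ρ V A y i, N.NI s → c.Rep s V A 7 → c.Win s V A → c.NonG s V A → ND s V A →
    c.Big s A π y → (∀ p ∈ c.ball 7, Y.ch s ρ p.1 = some i) → ND (Y.cSt s ρ i) V A
  cut : ∀ s V A u o, 0 < u → c.vx V ∈ Ico s.lo s.hi → ND s V A → ND (s.cut u o (c.vx V)) V A
  finA : ∀ s V A n, N.NI s → c.Rep s V A 8 → c.AffD s V A → c.Fin s V A →
    2 * (S.N + 1) ^ 2 + 3 ≤ n → s.w / 1600 ≤ Finset.expect Finset.univ fun ω : Om S π n =>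
      |Y.proc n s ω c.x.1 (c.vx V) - Y.proc n s ω c.y.1 (V c.y.1 c.y.2)|
  finN : ∀ s V A n, N.NI s → c.Rep s V A 7 → c.NonG s V A → ND s V A → c.Fin s V A →
    2 * (S.N + 1) ^ 2 + 3 ≤ n → s.w / 1600 ≤ Finset.expect Finset.univ fun ω : Om S π n =>
      |Y.proc n s ω c.x.1 (c.vx V) - Y.proc n s ω c.y.1 (V c.y.1 c.y.2)|

/-- Four nested arcs around `z` (system A, units `rs`). -/
structure TypeA (c : Ctx S) (q : Fin 4 → ℕ) (pk : Fin 4 → ℝ) (z o : ℕ × ℝ) : Prop where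
  zo : (z = c.x ∧ o = c.y) ∨ (z = c.y ∧ o = c.x)
  sep : ∀ i, Sep S (q i) z.1 o.1
  pk_mem : ∀ i, pk i ∈ c.D0.P (q i)
  lev : ∀ i, |pk i - c.x.2| ≤ c.rs
  nest : StrictMono q
  near : ∀ i, (q i, pk i) ∈ c.ball 1
  far : ∀ i j k, i ≠ j → Reach S c.D0 univ (q i, pk i) (q j, pk j) k → 5000 * c.rs ≤ k
  farz : ∀ i k, Reach S c.D0 univ z (q i, pk i) k → 5000 * c.rs ≤ k

/-- A long range of distances without separating arcs near the level of `x` (system B). -/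
def TypeB (c : Ctx S) : Prop :=
  ∃ t0, 100000 * c.rs ≤ t0 ∧ t0 + 150000 * c.rs ≤ c.r ∧ ∀ a p k,
    Sep S a c.x.1 c.y.1 ∨ Sep S a c.y.1 c.x.1 → p ∈ c.D0.P a → |p - c.x.2| ≤ 61 * c.rs →
    IsGLB {k | Reach S c.D0 univ c.x (a, p) k} k → k < t0 ∨ t0 + 50000 * c.rs < k

/-- The tracked points and the payoff of system A. -/
def ptA (c : Ctx S) (q : Fin 4 → ℕ) (pk : Fin 4 → ℝ) : Bool ⊕ Fin 4 → ℕ × ℝ :=
  Sum.elim (fun b => if b then c.x else c.y) fun i => (q i, pk i)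

def payA (zx : Bool) (a : Bool ⊕ Fin 4 → ℝ) : ℝ :=
  max |a (.inl true) - a (.inl false)| (⨆ i, a (.inl zx) - a (.inr i))

def ptB (c : Ctx S) : Bool → ℕ × ℝ := fun b => if b then c.x else c.y

def payB (a : Bool → ℝ) : ℝ := |a true - a false|

end Vale.Agent.P235.Pl
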