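import Vale.Agent.P235P.Engine

/-! P235 planar case: legality of the process. -/

open Set Classical

noncomputable section

namespace Vale.Agent.P235.Pl

variable {S : Sk} {π : Par} (Y : Sys S π) {s : St} (ρ : Rnd S π)

theorem uq_mem (k : Qn π) {a b : ℝ} (h : a ≤ b) : a ≤ uq k a b ∧ uq k a b ≤ b := by
  have h0 : (0 : ℝ) < π.Nq + 1 := by positivity
  have h1 : ((k : ℕ) : ℝ) ≤ π.Nq + 1 := by exact_mod_cast k.2.le
  have h2 : (b - a) * ((k : ℕ) : ℝ) / (π.Nq + 1) ≤ b - a := by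
    rw [div_le_iff₀ h0]
    exact mul_le_mul_of_nonneg_left h1 (sub_nonneg.2 h)
  have h3 : 0 ≤ (b - a) * ((k : ℕ) : ℝ) / (π.Nq + 1) :=
    div_nonneg (mul_nonneg (sub_nonneg.2 h) (Nat.cast_nonneg _)) h0.le
  unfold uq
  constructor <;> linarith

theorem w'_pos (hw : 0 < s.w) : 0 < w' s ρ := div_pos hw (by positivity)

theorem zz_mem (hw : 0 < s.w) : s.w / 40 ≤ zz s ρ ∧ zz s ρ ≤ s.w / 20 := uq_mem _ (by linarith)

theorem trap_nonneg (t : ℝ) : 0 ≤ trap s ρ t := le_max_left _ _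

theorem trap_out (hw : 0 < s.w) {t : ℝ} (ht : t ≤ s.lo ∨ s.hi ≤ t) : trap s ρ t = 0 := by
  have h := (zz_mem ρ hw).1
  refine max_eq_left ((min_le_right _ _).trans ?_)
  rcases ht with ht | ht
  · exact (min_le_left _ _).trans (by linarith)
  · exact (min_le_right _ _).trans (by linarith)

theorem abs_sg : |sg ρ| = 1 := by
  unfold sg
  split_ifs <;> simp

namespace Sys

theorem psi_mem (θ : ℕ) (t : ℝ) : 0 ≤ Y.psi s ρ θ t ∧ Y.psi s ρ θ t ≤ trap s ρ t := by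
  have h := trap_nonneg (s := s) ρ t
  unfold psi psi0
  split_ifs
  · split
    · exact ⟨le_rfl, h⟩
    · split_ifs
      · exact ⟨le_max_left _ _, max_le h (min_le_left _ _)⟩
      · exact ⟨le_rfl, h⟩
  · exact ⟨le_rfl, h⟩

theorem psi_lip (θ : ℕ) (t t' : ℝ) : |Y.psi s ρ θ t - Y.psi s ρ θ t'| ≤ |t - t'| := by
  unfold psi
  split_ifs with h
  · exact h.1 θ t t'
  · simp

theorem psi_pin {θ : ℕ} {t : ℝ} (h : (θ, t) ∈ s.Pin) : Y.psi s ρ θ t = 0 := by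
  unfold psi
  split_ifs with h'
  · exact h'.2.1 _ h
  · rfl

theorem psi_link {θ θ' : ℕ} {t : ℝ} (h : Link S (Y.Dp s ρ) θ θ' t) :
    Y.psi s ρ θ t = Y.psi s ρ θ' t := by
  unfold psi
  split_ifs with h'
  · exact h'.2.2 _ _ _ h
  · rfl

theorem Psi_of_zero {θ : ℕ} {t : ℝ} (h : Y.psi s ρ θ t = 0) : Y.Psi s ρ θ t = t := by
  rw [Psi, h, mul_zero, add_zero]

theorem Psi_out (hw : 0 < s.w) (θ : ℕ) {t : ℝ} (ht : t ≤ s.lo ∨ s.hi ≤ t) : Y.Psi s ρ θ t = t :=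
  Y.Psi_of_zero ρ (le_antisymm ((Y.psi_mem ρ θ t).2.trans_eq (trap_out ρ hw ht)) (Y.psi_mem ρ θ t).1)

theorem Psi_mono' (θ : ℕ) : Monotone (Y.Psi s ρ θ) := fun t t' h => by
  have h1 : |sg ρ * (Y.psi s ρ θ t - Y.psi s ρ θ t')| ≤ t' - t := by
    rw [abs_mul, abs_sg, one_mul]
    exact (Y.psi_lip ρ θ t t').trans_eq (by rw [abs_sub_comm, abs_of_nonneg (sub_nonneg.2 h)])
  have h2 := (abs_le.1 h1).2
  unfold Psi
  linarith

theorem Psi_mem (hw : 0 < s.w) (θ : ℕ) {t : ℝ} (ht : t ∈ s.W) : Y.Psi s ρ θ t ∈ s.W :=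
  ⟨(Y.Psi_out ρ hw θ (Or.inl le_rfl)).ge.trans (Y.Psi_mono' ρ θ ht.1),
    (Y.Psi_mono' ρ θ ht.2).trans (Y.Psi_out ρ hw θ (Or.inr le_rfl)).le⟩

theorem Psi_link {θ θ' : ℕ} {t : ℝ} (h : Link S (Y.Dp s ρ) θ θ' t) :
    Y.Psi s ρ θ t = Y.Psi s ρ θ' t := by
  rw [Psi, Psi, Y.psi_link ρ h]

theorem link_Dp {θ θ' : ℕ} {t : ℝ} (h : Link S s.D θ θ' t) : Link S (Y.Dp s ρ) θ θ' t := by
  rcases h with h | h | h | h
  · exact Or.inl ⟨h.1, Or.inl h.2⟩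
  · exact Or.inr (Or.inl ⟨h.1, Or.inl h.2⟩)
  · exact Or.inr (Or.inr (Or.inl ⟨h.1, h.2.1, Or.inl h.2.2⟩))
  · exact Or.inr (Or.inr (Or.inr ⟨h.1, h.2.1, Or.inl h.2.2⟩))

theorem link_mid {θ θ' : ℕ} {t : ℝ} (h : Link S (Y.Dp s ρ) θ θ' t) :
    Link S (Y.mid s ρ).D θ θ' (Y.Psi s ρ θ t) := by
  have e := Y.Psi_link ρ h
  rcases h with h | h | h | h
  · exact Or.inl ⟨h.1, t, h.2, rfl⟩
  · exact Or.inr (Or.inl ⟨h.1, t, h.2, e.symm⟩)
  · exact Or.inr (Or.inr (Or.inl ⟨h.1, h.2.1, t, h.2.2, rfl⟩))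
  · exact Or.inr (Or.inr (Or.inr ⟨h.1, h.2.1, t, h.2.2, e.symm⟩))

theorem ch_exit {θ θ' : ℕ} {t : ℝ} {i : Option (ℕ × ℕ)} (h : Link S s.D θ θ' t) (ht : t ∈ s.W)
    (h1 : Y.ch s ρ θ = some i) (h2 : Y.ch s ρ θ' ≠ some i) : (θ, t) ∈ Y.cPin s ρ i := by
  unfold ch at h1 h2
  split_ifs at h1 h2 with h0
  exact Or.inr (h0 θ θ' t i h ht h1 h2)

/-- The next state for the value `v`. -/
def nxt (s : St) (ρ : Rnd S π) (v : ℝ) : St := (Y.mid s ρ).cut (w' s ρ) (off s ρ) v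

/-- The value after the children have acted. -/
def inn (n : ℕ) (s : St) (ρ : Rnd S π) (c : Option (Fin (S.N + 1)) → Om S π n) (θ : ℕ) (t : ℝ) : ℝ :=
  match Y.ch s ρ θ with
  | none => t
  | some i => Y.proc n (Y.cSt s ρ i) (c (cidx S i)) θ t

theorem inn_none {n : ℕ} (c : Option (Fin (S.N + 1)) → Om S π n) {θ : ℕ} (h : Y.ch s ρ θ = none)
    (t : ℝ) : Y.inn n s ρ c θ t = t := by
  simp only [inn, h]

theorem inn_some {n : ℕ} (c : Option (Fin (S.N + 1)) → Om S π n) {θ : ℕ} {i : Option (ℕ × ℕ)}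
    (h : Y.ch s ρ θ = some i) (t : ℝ) :
    Y.inn n s ρ c θ t = Y.proc n (Y.cSt s ρ i) (c (cidx S i)) θ t := by
  simp only [inn, h]

theorem proc_in {n : ℕ} (ω : Om S π (n + 1)) (θ : ℕ) {t : ℝ} (ht : t ∈ Ico s.lo s.hi) :
    Y.proc (n + 1) s ω θ t = Y.proc n (Y.nxt s ω.1 (Y.Psi s ω.1 θ (Y.inn n s ω.1 ω.2.1 θ t))) ω.2.2 θ
      (Y.Psi s ω.1 θ (Y.inn n s ω.1 ω.2.1 θ t)) := by
  rw [proc, if_pos ht]
  rfl

theorem proc_out {n : ℕ} (ω : Om S π n) (θ : ℕ) {t : ℝ} (ht : t ∉ Ico s.lo s.hi) :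
    Y.proc n s ω θ t = t := by
  cases n with
  | zero => rfl
  | succ n => rw [proc, if_neg ht]

theorem proc_succ (hw : 0 < s.w) {n : ℕ} (ω : Om S π (n + 1)) (θ : ℕ) (t : ℝ) :
    Y.proc (n + 1) s ω θ t = Y.proc n (Y.nxt s ω.1 (Y.Psi s ω.1 θ (Y.inn n s ω.1 ω.2.1 θ t))) ω.2.2 θ
      (Y.Psi s ω.1 θ (Y.inn n s ω.1 ω.2.1 θ t)) := by
  by_cases ht : t ∈ Ico s.lo s.hi
  · exact Y.proc_in ω θ ht
  have h1 : Y.inn n s ω.1 ω.2.1 θ t = t := by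
    cases h : Y.ch s ω.1 θ with
    | none => exact Y.inn_none _ _ h t
    | some i => exact (Y.inn_some _ _ h t).trans (Y.proc_out (s := Y.cSt s ω.1 i) _ θ ht)
  have h2 : t ≤ s.lo ∨ s.hi ≤ t := by
    by_contra h
    push Not at h
    exact ht ⟨h.1.le, h.2⟩
  rw [h1, Y.Psi_out _ hw θ h2, Y.proc_out ω θ ht]
  exact (Y.proc_out _ θ fun h => ht ⟨(le_max_left _ _).trans h.1, h.2.trans_le (min_le_left _ _)⟩).symm

end Sys

theorem cell_mem {u : ℝ} (hu : 0 < u) (o v : ℝ) :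
    o + u * ⌊(v - o) / u⌋ ≤ v ∧ v < o + u * (⌊(v - o) / u⌋ + 1) := by
  have h1 := (le_div_iff₀ hu).1 (Int.floor_le ((v - o) / u))
  have h2 := (div_lt_iff₀ hu).1 (Int.lt_floor_add_one ((v - o) / u))
  constructor <;> linarith

namespace Sys

theorem proc_mem (n : ℕ) : ∀ {s : St}, 0 < s.w → ∀ (ω : Om S π n) (θ : ℕ) {t : ℝ}, t ∈ s.W →
    Y.proc n s ω θ t ∈ s.W := by
  induction n with
  | zero => exact fun _ _ _ _ ht => ht
  | succ n ih =>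
    intro s hw ω θ t ht
    have h1 : Y.inn n s ω.1 ω.2.1 θ t ∈ s.W := by
      cases h : Y.ch s ω.1 θ with
      | none => rwa [Y.inn_none _ _ h]
      | some i =>
        rw [Y.inn_some _ _ h]
        exact ih (s := Y.cSt s ω.1 i) hw _ θ ht
    have h2 := Y.Psi_mem ω.1 hw θ h1
    have h3 := cell_mem (w'_pos ω.1 hw) (off s ω.1) (Y.Psi s ω.1 θ (Y.inn n s ω.1 ω.2.1 θ t))
    rw [Y.proc_succ hw]
    have h4 := ih (s := Y.nxt s ω.1 _) (w'_pos ω.1 hw) ω.2.2 θ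
      (⟨max_le h2.1 h3.1, le_min h2.2 h3.2.le⟩ : _ ∈ Icc _ _)
    exact ⟨(le_max_left _ _).trans h4.1, h4.2.trans (min_le_left _ _)⟩

/-- The process does not leave an interval that contains the point and the window. -/
theorem proc_btw {n : ℕ} (hw : 0 < s.w) (ω : Om S π n) (θ : ℕ) {t a b : ℝ} (ht : t ∈ Icc a b)
    (ha : a ≤ s.lo) (hb : s.hi ≤ b) : Y.proc n s ω θ t ∈ Icc a b := by
  by_cases h : t ∈ Ico s.lo s.hi
  · have h1 := Y.proc_mem n hw ω θ (Ico_subset_Icc_self h)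
    exact ⟨ha.trans h1.1, h1.2.trans hb⟩
  · rwa [Y.proc_out ω θ h]

theorem proc_mono' (n : ℕ) : ∀ {s : St}, 0 < s.w → ∀ (ω : Om S π n) (θ : ℕ),
    Monotone (Y.proc n s ω θ) := by
  induction n with
  | zero => exact fun _ _ _ _ _ h => h
  | succ n ih =>
    intro s hw ω θ t t' h
    have h1 : Y.inn n s ω.1 ω.2.1 θ t ≤ Y.inn n s ω.1 ω.2.1 θ t' := by
      cases e : Y.ch s ω.1 θ with
      | none => rwa [Y.inn_none _ _ e, Y.inn_none _ _ e]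
      | some i =>
        rw [Y.inn_some _ _ e, Y.inn_some _ _ e]
        exact ih (s := Y.cSt s ω.1 i) hw _ θ h
    have h2 := Y.Psi_mono' (s := s) ω.1 θ h1
    have hu := w'_pos ω.1 hw
    rw [Y.proc_succ hw, Y.proc_succ hw]
    generalize Y.Psi s ω.1 θ (Y.inn n s ω.1 ω.2.1 θ t) = v at h2
    generalize Y.Psi s ω.1 θ (Y.inn n s ω.1 ω.2.1 θ t') = v' at h2
    have h3 : ⌊(v - off s ω.1) / w' s ω.1⌋ ≤ ⌊(v' - off s ω.1) / w' s ω.1⌋ :=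
      Int.floor_mono (div_le_div_of_nonneg_right (by linarith) hu.le)
    rcases h3.eq_or_lt with e | e
    · have e2 : Y.nxt s ω.1 v = Y.nxt s ω.1 v' := by simp only [nxt, St.cut, e]
      rw [e2]
      exact ih (s := Y.nxt s ω.1 v') hu _ θ h2
    · have h4 := (Y.proc_btw (s := Y.nxt s ω.1 v) hu ω.2.2 θ
        ⟨(cell_mem hu _ v).1, (cell_mem hu _ v).2.le⟩ (le_max_right _ _) (min_le_right _ _)).2
      have h5 := (Y.proc_btw (s := Y.nxt s ω.1 v') hu ω.2.2 θ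
        ⟨(cell_mem hu _ v').1, (cell_mem hu _ v').2.le⟩ (le_max_right _ _) (min_le_right _ _)).1
      have h6 : ((⌊(v - off s ω.1) / w' s ω.1⌋ : ℤ) : ℝ) + 1 ≤ ⌊(v' - off s ω.1) / w' s ω.1⌋ := by
        exact_mod_cast e
      linarith [mul_le_mul_of_nonneg_left h6 hu.le]

theorem proc_pin' (n : ℕ) : ∀ {s : St}, 0 < s.w → ∀ (ω : Om S π n) {θ : ℕ} {t : ℝ},
    (θ, t) ∈ s.Pin → Y.proc n s ω θ t = t := by
  induction n with
  | zero => exact fun _ _ _ _ _ => rfl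
  | succ n ih =>
    intro s hw ω θ t h
    have h1 : Y.inn n s ω.1 ω.2.1 θ t = t := by
      cases e : Y.ch s ω.1 θ with
      | none => exact Y.inn_none _ _ e t
      | some i =>
        rw [Y.inn_some _ _ e]
        exact ih (s := Y.cSt s ω.1 i) hw _ (Or.inl (Or.inl h))
    rw [Y.proc_succ hw, h1, Y.Psi_of_zero _ (Y.psi_pin _ h)]
    exact ih (s := Y.nxt s ω.1 t) (w'_pos ω.1 hw) _ h

/-- A point that is not deep is not moved by the children. -/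
theorem inn_shal {n : ℕ} (hw : 0 < s.w) (c : Option (Fin (S.N + 1)) → Om S π n) {θ : ℕ} {t : ℝ}
    (h : ¬ Y.deep s ρ (θ, t)) : Y.inn n s ρ c θ t = t := by
  cases e : Y.ch s ρ θ with
  | none => exact Y.inn_none _ _ e t
  | some i =>
    rw [Y.inn_some _ _ e]
    by_cases ht : t ∈ s.W
    · refine Y.proc_pin' n (s := Y.cSt s ρ i) hw _ ?_
      by_contra h1
      exact h ⟨ht, i, e, h1⟩
    · exact Y.proc_out (s := Y.cSt s ρ i) _ θ fun h1 => ht (Ico_subset_Icc_self h1)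

theorem mem_fat {n : ℕ} (hw : 0 < s.w) (ω : Om S π n) {θ θ' : ℕ} {t : ℝ} {A : Set ℝ}
    {i : Option (ℕ × ℕ)} (hA : t ∈ A) (ht : t ∈ s.W) (h1 : Y.ch s ρ θ = some i)
    (h2 : Y.ch s ρ θ' = some i)
    (e : Y.proc n (Y.cSt s ρ i) ω θ t = Y.proc n (Y.cSt s ρ i) ω θ' t) :
    Y.proc n (Y.cSt s ρ i) ω θ t ∈ A ∪ Y.fat s ρ θ θ' A := by
  by_cases h : (θ, t) ∈ Y.cPin s ρ i
  · rw [Y.proc_pin' n (s := Y.cSt s ρ i) hw ω h]
    exact Or.inl hA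
  have key : ∀ η u, (η, u) ∈ Y.cPin s ρ i → min t (Y.proc n (Y.cSt s ρ i) ω η t) < u →
      u < max t (Y.proc n (Y.cSt s ρ i) ω η t) → False := fun η u hu a b => by
    have m := Y.proc_mono' n (s := Y.cSt s ρ i) hw ω η
    have p := Y.proc_pin' n (s := Y.cSt s ρ i) hw ω hu
    rcases le_total t u with c | c
    · exact absurd (max_le c ((m c).trans_eq p)) (not_le.2 b)
    · exact absurd (le_min c (p.ge.trans (m c))) (not_le.2 a)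
  exact Or.inr ⟨Y.proc_mem n (s := Y.cSt s ρ i) hw ω θ ht, t, hA, ht, i, h1, h2, h, fun u a b =>
    ⟨fun hu => key θ u hu a b, fun hu => key θ' u hu (e ▸ a) (e ▸ b)⟩⟩

theorem proc_link (n : ℕ) : ∀ {s : St}, 0 < s.w → ∀ (ω : Om S π n) {θ θ' : ℕ} {t : ℝ},
    Link S s.D θ θ' t → Y.proc n s ω θ t = Y.proc n s ω θ' t := by
  induction n with
  | zero => exact fun _ _ _ _ _ _ => rfl
  | succ n ih =>
    intro s hw ω θ θ' t h
    by_cases ht : t ∈ Ico s.lo s.hi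
    swap
    · rw [Y.proc_out ω θ ht, Y.proc_out ω θ' ht]
    have ht' : t ∈ s.W := Ico_subset_Icc_self ht
    have key : Y.inn n s ω.1 ω.2.1 θ t = Y.inn n s ω.1 ω.2.1 θ' t ∧
        Link S (Y.Dp s ω.1) θ θ' (Y.inn n s ω.1 ω.2.1 θ t) := by
      by_cases e : ∃ i, Y.ch s ω.1 θ = some i ∧ Y.ch s ω.1 θ' = some i
      · obtain ⟨i, e1, e2⟩ := e
        have e3 := ih (s := Y.cSt s ω.1 i) hw (ω.2.1 (cidx S i)) h
        rw [Y.inn_some _ _ e1, Y.inn_some _ _ e2]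
        refine ⟨e3, ?_⟩
        rcases h with h | ⟨h, h'⟩ | h | ⟨h, h', h''⟩
        · exact Or.inl ⟨h.1, Y.mem_fat _ hw _ h.2 ht' e1 (h.1 ▸ e2) (h.1 ▸ e3)⟩
        · exact Or.inr (Or.inl ⟨h, e3 ▸ Y.mem_fat _ hw _ h' ht' e2 (h ▸ e1) (h ▸ e3.symm)⟩)
        · exact Or.inr (Or.inr (Or.inl
            ⟨h.1, h.2.1, Y.mem_fat _ hw _ h.2.2 ht' e1 (h.2.1 ▸ e2) (h.2.1 ▸ e3)⟩))
        · exact Or.inr (Or.inr (Or.inr
            ⟨h, h', e3 ▸ Y.mem_fat _ hw _ h'' ht' e2 (h' ▸ e1) (h' ▸ e3.symm)⟩))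
      · rw [Y.inn_shal _ hw _ fun ⟨_, i, a, b⟩ => b (Y.ch_exit _ h ht' a fun c => e ⟨i, a, c⟩),
          Y.inn_shal _ hw _ fun ⟨_, i, a, b⟩ => b (Y.ch_exit _ h.symm ht' a fun c => e ⟨i, c, a⟩)]
        exact ⟨rfl, Y.link_Dp _ h⟩
    rw [Y.proc_succ hw, Y.proc_succ hw, ← key.1, ← Y.Psi_link _ key.2]
    exact ih (s := Y.nxt s ω.1 _) (w'_pos ω.1 hw) _ (Y.link_mid _ key.2)

theorem proc_cons' {n : ℕ} (hw : 0 < s.w) (ω : Om S π n) : Cons S s.D (Y.proc n s ω) :=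
  ⟨Y.proc_mono' n hw ω, fun _ _ _ h => Y.proc_link n hw ω h⟩

end Sys

end Vale.Agent.P235.Pl
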