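import Vale.Agent.P235P.EA

/-! P235 planar case: expectations of the process. -/

open Set Classical
open scoped BigOperators

noncomputable section

namespace Vale.Agent.P235.Pl

theorem exp_prod {α β : Type} [Fintype α] [Fintype β] [h : Fintype (α × β)] (g : α × β → ℝ) :
    𝔼 x, g x = 𝔼 a, 𝔼 b, g (a, b) := by
  rw [← Finset.expect_product]
  exact Finset.expect_congr (Finset.ext fun x => by simp) fun _ _ => rfl

theorem exp_mono {α : Type} [Fintype α] {f g : α → ℝ} (h : ∀ a, f a ≤ g a) : 𝔼 a, f a ≤ 𝔼 a, g a :=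
  Finset.expect_le_expect fun a _ => h a

theorem exp_coord {ι Ω : Type} [Fintype ι] [DecidableEq ι] [Fintype Ω] [Nonempty Ω]
    [Fintype (ι → Ω)] (i : ι) (g : Ω → ℝ) : 𝔼 c : ι → Ω, g (c i) = 𝔼 ω, g ω := by
  rw [Fintype.expect_equiv (Equiv.funSplitAt i Ω) (fun c => g (c i)) (fun x => g x.1) fun _ => rfl,
    exp_prod]
  simp only [Fintype.expect_const]

theorem exp_coord2 {ι Ω : Type} [Fintype ι] [DecidableEq ι] [Fintype Ω] [Nonempty Ω]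
    [Fintype (ι → Ω)] {i j : ι} (h : j ≠ i) (g : Ω → Ω → ℝ) :
    𝔼 c : ι → Ω, g (c i) (c j) = 𝔼 ω, 𝔼 ω', g ω ω' := by
  rw [Fintype.expect_equiv (Equiv.funSplitAt i Ω) (fun c => g (c i) (c j))
    (fun x => g x.1 (x.2 ⟨j, h⟩)) fun _ => rfl, exp_prod]
  exact Finset.expect_congr rfl fun ω _ => exp_coord (⟨j, h⟩ : {k // k ≠ i}) (g ω)

theorem exp_jensen {ι Ω : Type} [Fintype Ω] [Nonempty Ω] {F : (ι → ℝ) → ℝ} (hF : ConvexOn ℝ univ F)
    (X : Ω → ι → ℝ) {a : ι → ℝ} (h : ∀ i, 𝔼 ω, X ω i = a i) : F a ≤ 𝔼 ω, F (X ω) := by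
  have h0 : (0 : ℝ) < Fintype.card Ω := by exact_mod_cast Fintype.card_pos
  have h1 := hF.map_sum_le (t := Finset.univ) (w := fun _ : Ω => (Fintype.card Ω : ℝ)⁻¹) (p := X)
    (fun _ _ => by positivity) (by simp [h0.ne']) fun _ _ => mem_univ _
  have h2 : ∑ ω, (Fintype.card Ω : ℝ)⁻¹ • X ω = a := funext fun i => by
    rw [← h i, Finset.expect_eq_sum_div_card, Finset.sum_apply, Finset.card_univ, div_eq_inv_mul,
      Finset.mul_sum]
    rfl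
  rw [h2] at h1
  rw [Finset.expect_eq_sum_div_card, Finset.card_univ, div_eq_inv_mul, Finset.mul_sum]
  exact h1

variable {S : Sk} {π : Par} (Y : Sys S π) {s : St} (ρ : Rnd S π) {ι : Type} {n : ℕ}
  {F : (ι → ℝ) → ℝ}

theorem exp_om (g : Om S π (n + 1) → ℝ) :
    𝔼 ω, g ω = 𝔼 ρ : Rnd S π, 𝔼 c : Option (Fin (S.N + 1)) → Om S π n, 𝔼 x : Om S π n,
      g (ρ, c, x) := by
  refine (exp_prod (h := Om.fin S π (n + 1)) g).trans ?_
  exact Finset.expect_congr rfl fun ρ _ => exp_prod _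

theorem exp_rnd (g : Rnd S π → ℝ) :
    𝔼 ρ, g ρ = 𝔼 co, 𝔼 dd, 𝔼 u, 𝔼 σ, 𝔼 eo, g (co, dd, u, σ, eo) := by
  simp only [exp_prod g, exp_prod fun b => g (_, b), exp_prod fun b => g (_, _, b),
    exp_prod fun b => g (_, _, _, b)]

/-- The opposite sign. -/
def flp (ρ : Rnd S π) : Rnd S π := (ρ.1, ρ.2.1, ρ.2.2.1, !ρ.2.2.2.1, ρ.2.2.2.2)

theorem flp_flp : flp (flp ρ) = ρ := by simp [flp]

theorem sg_flp : sg (flp ρ) = -sg ρ := by
  unfold sg flp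
  cases ρ.2.2.2.1 <;> simp

theorem exp_flp (g : Rnd S π → ℝ) : 𝔼 ρ, g (flp ρ) = 𝔼 ρ, g ρ :=
  Fintype.expect_bijective flp (Function.Involutive.bijective flp_flp) _ _ fun _ => rfl

theorem exp_pair {g h : Rnd S π → ℝ} (H : ∀ ρ, 2 * h ρ ≤ g ρ + g (flp ρ)) :
    𝔼 ρ, h ρ ≤ 𝔼 ρ, g ρ := by
  have h1 := exp_mono H
  rw [Finset.expect_add_distrib, exp_flp, ← Finset.mul_expect] at h1
  linarith

namespace Sys

theorem ch_flp : Y.ch s (flp ρ) = Y.ch s ρ := rfl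
theorem cSt_flp : Y.cSt s (flp ρ) = Y.cSt s ρ := rfl
theorem psi_flp : Y.psi s (flp ρ) = Y.psi s ρ := rfl
theorem inn_flp : Y.inn n s (flp ρ) = Y.inn n s ρ := rfl

theorem Psi_flp (θ : ℕ) (t : ℝ) : Y.Psi s (flp ρ) θ t = t - sg ρ * Y.psi s ρ θ t := by
  rw [Psi, sg_flp, psi_flp]
  ring

theorem exp_proc (n : ℕ) : ∀ {s : St}, 0 < s.w → ∀ (θ : ℕ) (t : ℝ),
    𝔼 ω : Om S π n, Y.proc n s ω θ t = t := by
  induction n with
  | zero => exact fun _ _ t => Fintype.expect_const t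
  | succ n ih =>
    intro s hw θ t
    have h1 : ∀ ρ : Rnd S π, 𝔼 c, Y.inn n s ρ c θ t = t := fun ρ => by
      cases e : Y.ch s ρ θ with
      | none => simp only [Y.inn_none _ _ e, Fintype.expect_const]
      | some i =>
        simp only [Y.inn_some _ _ e]
        exact (exp_coord (cidx S i) fun ω => Y.proc n (Y.cSt s ρ i) ω θ t).trans
          (ih (s := Y.cSt s ρ i) hw θ t)
    have h2 : 𝔼 ω : Om S π (n + 1), Y.proc (n + 1) s ω θ t =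
        𝔼 ρ : Rnd S π, 𝔼 c, Y.Psi s ρ θ (Y.inn n s ρ c θ t) := by
      rw [exp_om]
      refine Finset.expect_congr rfl fun ρ _ => Finset.expect_congr rfl fun c _ => ?_
      exact (Finset.expect_congr rfl fun x _ => Y.proc_succ hw (ρ, c, x) θ t).trans
        (ih (s := Y.nxt s ρ (Y.Psi s ρ θ (Y.inn n s ρ c θ t))) (w'_pos ρ hw) θ
          (Y.Psi s ρ θ (Y.inn n s ρ c θ t)))
    have h3 : ∀ ρ : Rnd S π, 𝔼 c, Y.Psi s ρ θ (Y.inn n s ρ c θ t) +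
        𝔼 c, Y.Psi s (flp ρ) θ (Y.inn n s (flp ρ) c θ t) = 2 * t := fun ρ => by
      rw [← Finset.expect_add_distrib, ← h1 ρ, Finset.mul_expect]
      refine Finset.expect_congr rfl fun c _ => ?_
      rw [Psi_flp, inn_flp, Psi, h1 ρ]
      ring
    have h4 : 𝔼 ρ : Rnd S π, (𝔼 c, Y.Psi s ρ θ (Y.inn n s ρ c θ t) +
        𝔼 c, Y.Psi s (flp ρ) θ (Y.inn n s (flp ρ) c θ t)) = 2 * t := by
      simp only [h3, Fintype.expect_const]
    rw [Finset.expect_add_distrib,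
      exp_flp fun ρ => 𝔼 c, Y.Psi s ρ θ (Y.inn n s ρ c θ t), ← h2] at h4
    linarith

theorem exp_inn (hw : 0 < s.w) (θ : ℕ) (t : ℝ) : 𝔼 c, Y.inn n s ρ c θ t = t := by
  cases e : Y.ch s ρ θ with
  | none => simp only [Y.inn_none _ _ e, Fintype.expect_const]
  | some i =>
    simp only [Y.inn_some _ _ e]
    exact (exp_coord (cidx S i) fun ω => Y.proc n (Y.cSt s ρ i) ω θ t).trans
      (Y.exp_proc n (s := Y.cSt s ρ i) hw θ t)

theorem val_ge' (hF : ConvexOn ℝ univ F) (hw : 0 < s.w) (θ : ι → ℕ) (a : ι → ℝ) :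
    F a ≤ Y.val n s F θ a :=
  exp_jensen hF _ fun i => Y.exp_proc n hw (θ i) (a i)

/-- The value of the stage after the operation, for the values `v`. -/
def nval (n : ℕ) (s : St) (ρ : Rnd S π) (F : (ι → ℝ) → ℝ) (θ : ι → ℕ) (v : ι → ℝ) : ℝ :=
  𝔼 x : Om S π n, F fun i => Y.proc n (Y.nxt s ρ (v i)) x (θ i) (v i)

/-- The value of a node when its own randomness is `ρ`. -/
def cval (n : ℕ) (s : St) (ρ : Rnd S π) (F : (ι → ℝ) → ℝ) (θ : ι → ℕ) (a : ι → ℝ) : ℝ :=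
  𝔼 c, Y.nval n s ρ F θ fun i => Y.Psi s ρ (θ i) (Y.inn n s ρ c (θ i) (a i))

theorem val_succ' (hw : 0 < s.w) (F : (ι → ℝ) → ℝ) (θ : ι → ℕ) (a : ι → ℝ) :
    Y.val (n + 1) s F θ a = 𝔼 ρ, Y.cval n s ρ F θ a := by
  unfold val
  rw [exp_om]
  exact Finset.expect_congr rfl fun ρ _ => Finset.expect_congr rfl fun c _ =>
    Finset.expect_congr rfl fun x _ => congrArg F (funext fun i => Y.proc_succ hw (ρ, c, x) _ _)

theorem nval_ge (hF : ConvexOn ℝ univ F) (hw : 0 < s.w) (θ : ι → ℕ) (v : ι → ℝ) :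
    F v ≤ Y.nval n s ρ F θ v :=
  exp_jensen hF _ fun i => Y.exp_proc n (s := Y.nxt s ρ (v i)) (w'_pos ρ hw) (θ i) (v i)

/-- All values lie in the cell of `v₀`. -/
theorem nval_cell (F : (ι → ℝ) → ℝ) (θ : ι → ℕ) {v : ι → ℝ} {v₀ : ℝ}
    (h : ∀ i, ⌊(v i - off s ρ) / w' s ρ⌋ = ⌊(v₀ - off s ρ) / w' s ρ⌋) :
    Y.nval n s ρ F θ v = Y.val n (Y.nxt s ρ v₀) F θ v := by
  have e : ∀ i, Y.nxt s ρ (v i) = Y.nxt s ρ v₀ := fun i => by simp only [nxt, St.cut, h i]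
  simp only [nval, val, e]

/-- No point is deep. -/
theorem cval_shal (hw : 0 < s.w) (F : (ι → ℝ) → ℝ) {θ : ι → ℕ} {a : ι → ℝ}
    (h : ∀ i, ¬ Y.deep s ρ (θ i, a i)) :
    Y.cval n s ρ F θ a = Y.nval n s ρ F θ fun i => Y.Psi s ρ (θ i) (a i) := by
  simp only [cval, Y.inn_shal ρ hw _ (h _), Fintype.expect_const]

theorem cval_ge (hF : ConvexOn ℝ univ F) (hw : 0 < s.w) (θ : ι → ℕ) (a : ι → ℝ) :
    𝔼 c, F (fun i => Y.Psi s ρ (θ i) (Y.inn n s ρ c (θ i) (a i))) ≤ Y.cval n s ρ F θ a :=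
  exp_mono fun _ => Y.nval_ge ρ hF hw θ _

theorem cval_pair (hF : ConvexOn ℝ univ F) (hw : 0 < s.w) (θ : ι → ℕ) (a : ι → ℝ) :
    2 * 𝔼 c, F (fun i => Y.inn n s ρ c (θ i) (a i)) ≤
      Y.cval n s ρ F θ a + Y.cval n s (flp ρ) F θ a := by
  refine le_trans ?_ (add_le_add (Y.cval_ge ρ hF hw θ a) (Y.cval_ge (flp ρ) hF hw θ a))
  rw [← Finset.expect_add_distrib, Finset.mul_expect]
  refine exp_mono fun c => ?_
  have h := hF.2 (mem_univ fun i => Y.Psi s ρ (θ i) (Y.inn n s ρ c (θ i) (a i)))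
    (mem_univ fun i => Y.Psi s (flp ρ) (θ i) (Y.inn n s (flp ρ) c (θ i) (a i)))
    (show (0 : ℝ) ≤ 1 / 2 by norm_num) (show (0 : ℝ) ≤ 1 / 2 by norm_num) (by norm_num)
  have e : ((1 / 2 : ℝ) • fun i => Y.Psi s ρ (θ i) (Y.inn n s ρ c (θ i) (a i))) +
      ((1 / 2 : ℝ) • fun i => Y.Psi s (flp ρ) (θ i) (Y.inn n s (flp ρ) c (θ i) (a i))) =
      fun i => Y.inn n s ρ c (θ i) (a i) := funext fun i => by
    simp only [Pi.add_apply, Pi.smul_apply, smul_eq_mul, Psi_flp, inn_flp]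
    rw [Psi]
    ring
  rw [e, smul_eq_mul, smul_eq_mul] at h
  linarith

theorem cval_pair_ge (hF : ConvexOn ℝ univ F) (hw : 0 < s.w) (θ : ι → ℕ) (a : ι → ℝ) :
    2 * F a ≤ Y.cval n s ρ F θ a + Y.cval n s (flp ρ) F θ a :=
  le_trans (mul_le_mul_of_nonneg_left (exp_jensen hF _ fun i => Y.exp_inn ρ hw (θ i) (a i))
    zero_le_two) (Y.cval_pair ρ hF hw θ a)

/-- All points lie in one child. -/
theorem cval_child (hF : ConvexOn ℝ univ F) (hw : 0 < s.w) {θ : ι → ℕ} (a : ι → ℝ)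
    {j : Option (ℕ × ℕ)} (h : ∀ i, Y.ch s ρ (θ i) = some j) :
    2 * Y.val n (Y.cSt s ρ j) F θ a ≤ Y.cval n s ρ F θ a + Y.cval n s (flp ρ) F θ a := by
  refine le_of_eq_of_le ?_ (Y.cval_pair ρ hF hw θ a)
  simp only [Y.inn_some ρ _ (h _)]
  rw [exp_coord (cidx S j) fun ω => F fun i => Y.proc n (Y.cSt s ρ j) ω (θ i) (a i)]
  rfl

theorem val_pair (hw : 0 < s.w) {θ : ι → ℕ} {a : ι → ℝ} {g : Rnd S π → ℝ}
    (h : ∀ ρ, 2 * g ρ ≤ Y.cval n s ρ F θ a + Y.cval n s (flp ρ) F θ a) :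
    𝔼 ρ, g ρ ≤ Y.val (n + 1) s F θ a := by
  rw [Y.val_succ' hw]
  exact exp_pair h

end Sys

end Vale.Agent.P235.Pl
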