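import Vale.Agent.P235P.EB

/-! P235 planar case: the engine lemmas in the form used by the frame. -/

open Set Classical
open scoped BigOperators

noncomputable section

namespace Vale.Agent.P235.Pl

variable {S : Sk} {π : Par} (Y : Sys S π)

theorem exp_bool (g : Bool → ℝ) (σ : Bool) : 2 * 𝔼 b, g b = g σ + g !σ := by
  rw [Finset.expect_eq_sum_div_card, Fintype.sum_bool]
  cases σ <;> simp <;> ring

namespace Sys

theorem proc_mono (n : ℕ) (s : St) (hw : 0 < s.w) (ω : Om S π n) (θ : ℕ) :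
    Monotone (Y.proc n s ω θ) := Y.proc_mono' n hw ω θ

theorem proc_cons (n : ℕ) (s : St) (hw : 0 < s.w) (ω : Om S π n) {θ θ' : ℕ} {t : ℝ}
    (h : Link S s.D θ θ' t) : Y.proc n s ω θ t = Y.proc n s ω θ' t := Y.proc_link n hw ω h

theorem proc_pin (n : ℕ) (s : St) (hw : 0 < s.w) (ω : Om S π n) {p : ℕ × ℝ} (h : p ∈ s.Pin) :
    Y.proc n s ω p.1 p.2 = p.2 := Y.proc_pin' n hw ω h

theorem proc_mean (n : ℕ) (s : St) (hw : 0 < s.w) (θ : ℕ) (t : ℝ) :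
    Finset.expect Finset.univ (fun ω : Om S π n => Y.proc n s ω θ t) = t := Y.exp_proc n hw θ t

theorem val_ge {ι : Type} (n : ℕ) (s : St) (hw : 0 < s.w) {F : (ι → ℝ) → ℝ}
    (hF : ConvexOn ℝ univ F) (θ : ι → ℕ) (a : ι → ℝ) : F a ≤ Y.val n s F θ a :=
  Y.val_ge' hF hw θ a

/-- The expected payoff given the randomness of the top node. -/
def G {ι : Type} (n : ℕ) (s : St) (F : (ι → ℝ) → ℝ) (θ : ι → ℕ) (a : ι → ℝ) (ρ : Rnd S π) : ℝ :=
  Finset.expect Finset.univ fun ω : (Option (Fin (S.N + 1)) → Om S π n) × Om S π n =>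
    F fun j => Y.proc (n + 1) s ((ρ, ω) : Rnd S π × (Option (Fin (S.N + 1)) → Om S π n) × Om S π n)
      (θ j) (a j)

theorem G_eq {ι : Type} (n : ℕ) (s : St) (hw : 0 < s.w) (F : (ι → ℝ) → ℝ) (θ : ι → ℕ) (a : ι → ℝ)
    (ρ : Rnd S π) : Y.G n s F θ a ρ = Y.cval n s ρ F θ a := by
  unfold G
  rw [exp_prod]
  exact Finset.expect_congr rfl fun c _ =>
    Finset.expect_congr rfl fun x _ => congrArg F (funext fun i => Y.proc_succ hw (ρ, c, x) _ _)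

theorem val_succ {ι : Type} (n : ℕ) (s : St) (F : (ι → ℝ) → ℝ) (θ : ι → ℕ) (a : ι → ℝ) :
    Y.val (n + 1) s F θ a = Finset.expect Finset.univ fun ρ => Y.G n s F θ a ρ :=
  exp_prod (h := Om.fin S π (n + 1)) _

theorem G_child {ι : Type} (n : ℕ) (s : St) (hw : 0 < s.w) {F : (ι → ℝ) → ℝ}
    (hF : ConvexOn ℝ univ F) (θ : ι → ℕ) (a : ι → ℝ) (_ha : ∀ j, a j ∈ Ico s.lo s.hi)
    (co : Coins S) (dd : Qn π × Qn π) (u : Qn π × Qn π × HS π) (σ0 : Bool)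
    (eo : Fin (2 * π.m0 + 2) × Qn π) (i : Option (ℕ × ℕ))
    (h : ∀ j, Y.ch s (co, dd, u, σ0, eo) (θ j) = some i) :
    Y.val n (Y.cSt s (co, dd, u, σ0, eo) i) F θ a ≤
      Finset.expect Finset.univ fun σ : Bool => Y.G n s F θ a (co, dd, u, σ, eo) := by
  have h1 := Y.cval_child (n := n) (co, dd, u, σ0, eo) hF hw a h
  have h2 := exp_bool (fun σ => Y.G n s F θ a (co, dd, u, σ, eo)) σ0
  rw [Y.G_eq n s hw, Y.G_eq n s hw] at h2
  exact le_of_mul_le_mul_left (h1.trans_eq h2.symm) two_pos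

theorem G_ge {ι : Type} (n : ℕ) (s : St) (hw : 0 < s.w) {F : (ι → ℝ) → ℝ}
    (hF : ConvexOn ℝ univ F) (θ : ι → ℕ) (a : ι → ℝ) (_ha : ∀ j, a j ∈ Ico s.lo s.hi)
    (ρ : Rnd S π) (h : ∀ j, ¬ Y.deep s ρ (θ j, a j)) :
    F (fun j => Y.Psi s ρ (θ j) (a j)) ≤ Y.G n s F θ a ρ := by
  rw [Y.G_eq n s hw, Y.cval_shal ρ hw F h]
  exact Y.nval_ge ρ hF hw θ _

/-- The sign average of `G` is at least the current payoff. -/
theorem G_avg {ι : Type} (n : ℕ) (s : St) (hw : 0 < s.w) {F : (ι → ℝ) → ℝ}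
    (hF : ConvexOn ℝ univ F) (θ : ι → ℕ) (a : ι → ℝ) (co : Coins S) (dd : Qn π × Qn π)
    (u : Qn π × Qn π × HS π) (eo : Fin (2 * π.m0 + 2) × Qn π) :
    F a ≤ Finset.expect Finset.univ fun σ : Bool => Y.G n s F θ a (co, dd, u, σ, eo) := by
  have h1 := Y.cval_pair_ge (n := n) (co, dd, u, true, eo) hF hw θ a
  have h2 := exp_bool (fun σ => Y.G n s F θ a (co, dd, u, σ, eo)) true
  rw [Y.G_eq n s hw, Y.G_eq n s hw] at h2
  exact le_of_mul_le_mul_left (h1.trans_eq h2.symm) two_pos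

theorem G_next {ι : Type} (n : ℕ) (s : St) (hw : 0 < s.w) (F : (ι → ℝ) → ℝ)
    (θ : ι → ℕ) (a : ι → ℝ) (_ha : ∀ j, a j ∈ Ico s.lo s.hi)
    (ρ : Rnd S π) (h : ∀ j, ¬ Y.deep s ρ (θ j, a j)) (v : ℝ)
    (hv : ∀ j, (Y.mid s ρ).cut (w' s ρ) (off s ρ) (Y.Psi s ρ (θ j) (a j)) =
      (Y.mid s ρ).cut (w' s ρ) (off s ρ) v) :
    Y.G n s F θ a ρ =
      Y.val n ((Y.mid s ρ).cut (w' s ρ) (off s ρ) v) F θ fun j => Y.Psi s ρ (θ j) (a j) := by
  rw [Y.G_eq n s hw, Y.cval_shal ρ hw F h]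
  simp only [nval, val, nxt, hv]

/-- `Psi` is monotone, continuous, consistent on the fattened diagram and fixes the ends. -/
theorem Psi_mono (s : St) (ρ : Rnd S π) (θ : ℕ) : Monotone (Y.Psi s ρ θ) := Y.Psi_mono' ρ θ

theorem Psi_cont (s : St) (ρ : Rnd S π) (θ : ℕ) : Continuous (Y.Psi s ρ θ) := by
  have h : LipschitzWith 1 (Y.psi s ρ θ) := LipschitzWith.of_dist_le_mul fun t t' => by
    rw [Real.dist_eq, Real.dist_eq, NNReal.coe_one, one_mul]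
    exact Y.psi_lip ρ θ t t'
  exact continuous_id.add (continuous_const.mul h.continuous)

theorem Psi_cons (s : St) (ρ : Rnd S π) {θ θ' : ℕ} {t : ℝ} (h : Link S (Y.Dp s ρ) θ θ' t) :
    Y.Psi s ρ θ t = Y.Psi s ρ θ' t := Y.Psi_link ρ h

theorem Psi_off (s : St) (hw : 0 < s.w) (ρ : Rnd S π) (θ : ℕ) {t : ℝ} (h : t ≤ s.lo ∨ s.hi ≤ t) :
    Y.Psi s ρ θ t = t := Y.Psi_out ρ hw θ h

end Sys

end Vale.Agent.P235.Pl
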