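import Vale.Agent.P235P.ELem
import Vale.Agent.P235P.Contracts

/-! P235 planar case: the serving lemma. -/

open Set Classical
open scoped BigOperators

noncomputable section

namespace Vale.Agent.P235.Pl

variable {S : Sk} {π : Par} (Y : Sys S π)

theorem payB_convex : ConvexOn ℝ univ payB := by
  refine ⟨convex_univ, fun x _ y _ a b ha hb _ => ?_⟩
  simp only [payB, Pi.add_apply, Pi.smul_apply, smul_eq_mul]
  have e : a * x true + b * y true - (a * x false + b * y false) =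
      a * (x true - x false) + b * (y true - y false) := by ring
  rw [e]
  refine (abs_add_le _ _).trans_eq ?_
  rw [abs_mul, abs_mul, abs_of_nonneg ha, abs_of_nonneg hb]

namespace Sys

variable {Y} (N : NodeC Y) {n : ℕ} {s : St} {θz θo : ℕ} {a b : ℝ} {I : ℕ × ℕ}

theorem esv_cidx (hs : N.NI s) {ρ : Rnd S π} {θ θ' : ℕ} {i j : Option (ℕ × ℕ)}
    (hi : Y.ch s ρ θ = some i) (hj : Y.ch s ρ θ' = some j) (h : cidx S j = cidx S i) : j = i := by
  cases i with
  | none => exact Option.map_eq_none_iff.1 h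
  | some I =>
    cases j with
    | none => exact absurd h (by simp [cidx])
    | some J =>
      have h1 := (N.ch_tm s ρ θ I hs hi).1
      have h2 := (N.ch_tm s ρ θ' J hs hj).1
      have h3 := N.bnd s ρ I hs h1
      have h4 := N.bnd s ρ J hs h2
      have h5 : J.1 % (S.N + 1) = I.1 % (S.N + 1) := congrArg Fin.val (Option.some.inj h)
      rw [Nat.mod_eq_of_lt (by omega), Nat.mod_eq_of_lt (by omega)] at h5
      rw [N.inj s ρ J I hs h2 h1 h5]

/-- One step of the descent. -/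
theorem esv_down (hs : N.NI s) {ρ : Rnd S π} {i : Option (ℕ × ℕ)} (hi : Y.ch s ρ θz = some i) :
    2 * Y.val n (Y.cSt s ρ i) payB (fun x => cond x θz θo) (fun x => cond x a b) ≤
      Y.cval n s ρ payB (fun x => cond x θz θo) (fun x => cond x a b) +
        Y.cval n s (flp ρ) payB (fun x => cond x θz θo) (fun x => cond x a b) := by
  have hw := (N.pos s hs).1
  by_cases e : Y.ch s ρ θo = some i
  · exact Y.cval_child ρ payB_convex hw _ fun x => by cases x <;> assumption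
  refine le_trans (mul_le_mul_of_nonneg_left ?_ zero_le_two) (Y.cval_pair ρ payB_convex hw _ _)
  have h1 : ∀ ω, Y.proc n (Y.cSt s ρ i) ω θo b = b := fun ω =>
    Y.proc_pin' n (s := Y.cSt s ρ i) hw ω (Or.inl (Or.inr e))
  simp only [val, payB, cond_true, cond_false, h1, Y.inn_some ρ _ hi]
  cases e' : Y.ch s ρ θo with
  | none =>
    simp only [Y.inn_none ρ _ e']
    exact (exp_coord (cidx S i) fun ω => |Y.proc n (Y.cSt s ρ i) ω θz a - b|).ge
  | some j =>
    simp only [Y.inn_some ρ _ e']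
    rw [exp_coord2 (i := cidx S i) (j := cidx S j)
      (fun h => e (e'.trans (congrArg some (esv_cidx N hs hi e' h))))
      fun ω ω' => |Y.proc n (Y.cSt s ρ i) ω θz a - Y.proc n (Y.cSt s ρ j) ω' θo b|]
    refine exp_mono fun ω => le_of_eq_of_le ?_ (Finset.abs_expect_le _ _)
    rw [Finset.expect_sub_distrib, Fintype.expect_const, Y.exp_proc n (s := Y.cSt s ρ j) hw]

/-- The node of the interval. -/
theorem esv_kick (hw : 0 < s.w) (ha : s.lo + s.w / 4 ≤ a ∧ a ≤ s.hi - s.w / 4)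
    (hab : |a - b| ≤ s.w / 100) (ho : (θo, b) ∈ s.Pin) (ρ : Rnd S π)
    (h : ∀ t, Y.psi s ρ θz t = trap s ρ t) :
    2 * (s.w / 100) ≤ Y.cval n s ρ payB (fun x => cond x θz θo) (fun x => cond x a b) +
      Y.cval n s (flp ρ) payB (fun x => cond x θz θo) (fun x => cond x a b) := by
  refine le_trans ?_ (add_le_add (Y.cval_ge ρ payB_convex hw _ _)
    (Y.cval_ge (flp ρ) payB_convex hw _ _))
  rw [← Finset.expect_add_distrib]
  refine Finset.le_expect Finset.univ_nonempty fun c _ => ?_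
  have h1 : Y.inn n s ρ c θo b = b :=
    Y.inn_shal ρ hw c fun ⟨_, i, _, h2⟩ => h2 (Or.inl (Or.inl ho))
  simp only [payB, cond_true, cond_false, inn_flp, Psi_flp, h1]
  simp only [Psi, Y.psi_pin ρ ho, mul_zero, add_zero, sub_zero, h]
  generalize Y.inn n s ρ c θz a = u
  have h2 := abs_add_le (u + sg ρ * trap s ρ u - b) (u - sg ρ * trap s ρ u - b)
  have h3 := abs_sub (u + sg ρ * trap s ρ u - b) (u - sg ρ * trap s ρ u - b)
  rw [show u + sg ρ * trap s ρ u - b + (u - sg ρ * trap s ρ u - b) = 2 * (u - b) by ring, abs_mul,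
    abs_two] at h2
  rw [show u + sg ρ * trap s ρ u - b - (u - sg ρ * trap s ρ u - b) = 2 * (sg ρ * trap s ρ u) by ring,
    abs_mul, abs_two, abs_mul, abs_sg, one_mul, abs_of_nonneg (trap_nonneg ρ u)] at h3
  by_cases hu : |u - a| ≤ s.w / 40
  · have h4 := zz_mem ρ hw
    have h5 := abs_le.1 hu
    have h6 : s.w / 20 ≤ trap s ρ u :=
      le_max_of_le_right (le_min le_rfl (le_min (by linarith) (by linarith)))
    linarith
  · have h4 := abs_sub_le u b a
    rw [abs_sub_comm b a] at h4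
    linarith

theorem esv_fin (hs : N.NI s) (ρ : Rnd S π) :
    (Y.PE s ρ).Finite ∧ (Y.PE s ρ).ncard ≤ (S.N + 1) ^ 2 := by
  have h : Y.PE s ρ ⊆ ↑(Finset.range (S.N + 1) ×ˢ Finset.range (S.N + 1)) := fun I hI => by
    have := N.bnd s ρ I hs hI
    simp only [Finset.coe_product, Finset.coe_range, mem_prod, mem_Iio]
    omega
  refine ⟨(Finset.finite_toSet _).subset h, (ncard_le_ncard h).trans_eq ?_⟩
  rw [ncard_coe_finset, Finset.card_product, Finset.card_range, sq]

theorem esv_mes (hs : N.NI s) {ρ : Rnd S π} {θ : ℕ} {i : Option (ℕ × ℕ)}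
    (hi : Y.ch s ρ θ = some i) :
    mes (Y.cSt s ρ i) < 2 * ncard {I | I ∈ Y.PE s ρ ∧ some I ≠ s.kick} +
      if s.kick.isSome then 1 else 0 := by
  have hf : {I | I ∈ Y.PE s ρ ∧ some I ≠ s.kick}.Finite :=
    (esv_fin N hs ρ).1.subset fun _ h => h.1
  have hsub : {I | I ∈ (Y.cSt s ρ i).pend.getD ∅ ∧ some I ≠ (Y.cSt s ρ i).kick} ⊆
      {I | I ∈ Y.PE s ρ ∧ some I ≠ s.kick} := fun I h => ⟨h.1.1, h.1.2.1⟩
  unfold mes
  cases i with
  | none =>
    have h1 := ncard_le_ncard hsub hf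
    have h2 : s.kick.isSome := by
      cases e : s.kick with
      | some _ => rfl
      | none =>
        unfold ch ch0 Zs at hi
        rw [e] at hi
        simp only [mem_empty_iff_false, if_false] at hi
        split_ifs at hi
        simp at hi
    rw [if_pos h2, if_neg (show ¬ (Y.cSt s ρ none).kick.isSome = true from Bool.false_ne_true)]
    omega
  | some J =>
    have h1 := N.ch_tm s ρ θ J hs hi
    have h2 := ncard_lt_ncard (hsub.ssubset_of_mem_notMem ⟨h1.1, h1.2.1⟩ fun h => h.2 rfl) hf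
    split_ifs <;> omega

theorem esv_child (hs : N.NI s) {ρ : Rnd S π} (hI : I ∈ Y.PE s ρ) (hk : some I ≠ s.kick)
    (hz : θz ∈ tm I) (ho : θo ∉ tm I) (b : ℝ) : ∃ i, Y.ch s ρ θz = some i ∧
      ((I ∈ (Y.cSt s ρ i).pend.getD ∅ ∧ some I ≠ (Y.cSt s ρ i).kick) ∨
        ((Y.cSt s ρ i).kick = some I ∧ (θo, b) ∈ (Y.cSt s ρ i).Pin)) := by
  obtain ⟨i, hi⟩ := N.pin_in s ρ I hs hI hk
  refine ⟨i, hi θz hz, ?_⟩
  by_cases e : some I = i
  · subst e
    exact Or.inr ⟨rfl, Or.inl (Or.inr fun h => ho (((N.ch_tm s ρ θz I hs (hi θz hz)).2.2 θo).1 h))⟩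
  · exact Or.inl ⟨⟨hI, hk, hi⟩, e⟩

theorem esv_main {s₀ : St} (ha : s₀.lo + s₀.w / 4 ≤ a ∧ a ≤ s₀.hi - s₀.w / 4)
    (hab : |a - b| ≤ s₀.w / 100) (hz : θz ∈ tm I) (ho : θo ∉ tm I)
    (h : ∀ s' ρ, N.NI s' → s'.D = s₀.D → s'.lab = s₀.lab → s'.lo = s₀.lo → s'.hi = s₀.hi →
      s'.w = s₀.w → s'.kick = some I → ∀ t, Y.psi s' ρ θz t = trap s' ρ t) (n : ℕ) :
    ∀ s, N.NI s → s.D = s₀.D → s.lab = s₀.lab → s.lo = s₀.lo → s.hi = s₀.hi → s.w = s₀.w →
      s.pend.isSome → mes s < n →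
      ((I ∈ s.pend.getD ∅ ∧ some I ≠ s.kick) ∨ (s.kick = some I ∧ (θo, b) ∈ s.Pin)) →
      s₀.w / 100 ≤ Y.val n s payB (fun x => cond x θz θo) (fun x => cond x a b) := by
  induction n with
  | zero => exact fun _ _ _ _ _ _ _ _ h => absurd h (Nat.not_lt_zero _)
  | succ n ih =>
    intro s hs e1 e2 e3 e4 e5 hp hm hc
    have hw := (N.pos s hs).1
    refine le_of_eq_of_le (Fintype.expect_const _).symm (Y.val_pair hw fun ρ => ?_)
    rcases hc with hc | hc
    · obtain ⟨P, hP⟩ := Option.isSome_iff_exists.1 hp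
      have e6 : Y.PE s ρ = s.pend.getD ∅ := by rw [PE, hP]; rfl
      obtain ⟨i, h1, h2⟩ := esv_child N hs (e6 ▸ hc.1 : I ∈ Y.PE s ρ) hc.2 hz ho b
      have h3 := esv_mes N hs h1
      rw [e6] at h3
      exact (mul_le_mul_of_nonneg_left (ih (Y.cSt s ρ i) (N.child s ρ θz i hs h1) e1 e2 e3 e4 e5 rfl
        (lt_of_lt_of_le h3 (Nat.lt_succ_iff.1 hm)) h2) zero_le_two).trans (esv_down N hs h1)
    · rw [← e5]
      exact esv_kick hw (by rw [e3, e4, e5]; exact ha) (by rw [e5]; exact hab) hc.2 ρ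
        (h s ρ hs e1 e2 e3 e4 e5 hc.1)

variable (Y)

/-- The serving lemma at the start of a step. -/
theorem serve_start (N : NodeC Y) (n : ℕ) (s : St) (hs : N.NI s) (hp : s.pend = none)
    (hk : s.kick = none) (hn : 2 * (S.N + 1) ^ 2 + 3 ≤ n) (_hfull : s.hi - s.lo = s.w)
    (θz θo : ℕ) (a b : ℝ) (ha : s.lo + s.w / 4 ≤ a ∧ a ≤ s.hi - s.w / 4) (hab : |a - b| ≤ s.w / 100)
    (sel : Coins S → Option (ℕ × ℕ))
    (hsel : ∀ co I, sel co = some I → I ∈ Y.cand s co ∧ θz ∈ tm I ∧ θo ∉ tm I ∧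
      ∀ s' ρ, N.NI s' → s'.D = s.D → s'.lab = s.lab → s'.lo = s.lo → s'.hi = s.hi → s'.w = s.w →
        s'.kick = some I → ∀ t, Y.psi s' ρ θz t = trap s' ρ t) :
    (Finset.expect Finset.univ fun co : Coins S => if (sel co).isSome then s.w / 100 else 0) ≤
      Finset.expect Finset.univ fun ω : Om S π n => |Y.proc n s ω θz a - Y.proc n s ω θo b| := by
  obtain ⟨n, rfl⟩ : ∃ m, n = m + 1 := ⟨n - 1, by omega⟩
  have hw := (N.pos s hs).1
  have key := Y.val_pair (n := n) (F := payB) (θ := fun x => cond x θz θo) (a := fun x => cond x a b)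
    (g := fun ρ => if (sel ρ.1).isSome then s.w / 100 else 0) hw fun ρ => by
      cases e : sel ρ.1 with
      | none =>
        refine le_trans ?_ (Y.cval_pair_ge ρ payB_convex hw _ _)
        exact mul_le_mul_of_nonneg_left (abs_nonneg _) zero_le_two
      | some I =>
        obtain ⟨h1, h2, h3, h4⟩ := hsel ρ.1 I e
        have h5 : I ∈ Y.PE s ρ := by rw [PE, hp]; exact h1
        obtain ⟨i, h6, h7⟩ := esv_child N hs h5 (by rw [hk]; simp) h2 h3 b
        have h8 := esv_mes N hs h6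
        have h9 := (ncard_le_ncard (fun _ h => h.1 : {I | I ∈ Y.PE s ρ ∧ some I ≠ s.kick} ⊆ _)
          (esv_fin N hs ρ).1).trans (esv_fin N hs ρ).2
        refine (mul_le_mul_of_nonneg_left (esv_main N ha hab h2 h3 h4 n (Y.cSt s ρ i)
          (N.child s ρ θz i hs h6) rfl rfl rfl rfl rfl rfl ?_ h7) zero_le_two).trans
          (esv_down N hs h6)
        split_ifs at h8 <;> omega
  refine le_of_eq_of_le ?_ key
  rw [exp_prod]
  exact Finset.expect_congr rfl fun co _ => (Fintype.expect_const _).symm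

end Sys

end Vale.Agent.P235.Pl
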