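import Vale.Agent.P235P.BDist

/-! P235 planar case: the random process (generic engine). -/

open Set Classical

noncomputable section

namespace Vale.Agent.P235.Pl

/-- Lower envelope: data `f` on the sources `A`, slope `k`, targets at the times `T θ`, capped. -/
def envT (S : Sk) (D : Lk) (W : Set ℝ) (A : Set (ℕ × ℝ)) (f : ℕ × ℝ → ℝ) (k : ℝ) (T : ℕ → Set ℕ)
    (cap : ℝ) (θ : ℕ) (t : ℝ) : ℝ :=
  sInf (insert cap {v | ∃ p0 ∈ A, ∃ p c, Reach S D W p0 p c ∧ p.1 ∈ T θ ∧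
    v = f p0 + k * (c + |t - p.2|)})

/-- Capped distance to `A`. -/
def dc (S : Sk) (D : Lk) (W : Set ℝ) (A : Set (ℕ × ℝ)) (cap : ℝ) (p : ℕ × ℝ) : ℝ :=
  envT S D W A (fun _ => 0) 1 (fun θ => {θ}) cap p.1 p.2

/-- The times of an interval. -/
def tm (I : ℕ × ℕ) : Set ℕ := Ioc I.1 I.2

/-- Greedy selection. -/
def greedy (el : ℕ → Prop) (rel : ℕ → ℕ → Prop) (g : ℕ) : Prop :=
  el g ∧ ∀ g' : Fin g, greedy el rel g'.1 → ¬ rel g'.1 g
termination_by g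
decreasing_by exact g'.2

theorem greedy_iff (el : ℕ → Prop) (rel : ℕ → ℕ → Prop) (g : ℕ) :
    greedy el rel g ↔ el g ∧ ∀ g' < g, greedy el rel g' → ¬ rel g' g := by
  rw [greedy]
  exact and_congr Iff.rfl ⟨fun h g' hg => h ⟨g', hg⟩, fun h g' => h g'.1 g'.2⟩

structure Par where
  m0 : ℕ
  b : ℤ
  Nq : ℕ
  nS : ℕ

structure St where
  D : Lk
  Pin : Set (ℕ × ℝ)
  lab : ℕ → ℝ → ℝ × ℝ
  lo : ℝ
  hi : ℝ
  w : ℝ
  pend : Option (Set (ℕ × ℕ))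
  kick : Option (ℕ × ℕ)

def St.W (s : St) : Set ℝ := Icc s.lo s.hi

/-- The neighbourhood of radius `R` of `A` in the band of the state. -/
def St.nb (S : Sk) (s : St) (A : Set (ℕ × ℝ)) (R : ℝ) : Set (ℕ × ℝ) := {p | Near S s.D s.W A R p}

/-- Uniform mature label. -/
def St.Unif (s : St) (U : Set (ℕ × ℝ)) : Prop :=
  ∃ A, 0 < A ∧ ∀ p ∈ U, (s.lab p.1 p.2).1 = A ∧ s.w ≤ (s.lab p.1 p.2).2

/-- The slope label of a set of sources. -/
def St.labA (s : St) (A : Set (ℕ × ℝ)) : ℝ :=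
  if h : A.Nonempty then (s.lab h.some.1 h.some.2).1 else 1

abbrev Qn (π : Par) : Type := Fin (π.Nq + 1)
abbrev HS (π : Par) : Type := Fin π.nS → Qn π × Qn π × Qn π
abbrev Coins (S : Sk) : Type := Fin (S.N + 1) → Bool

/-- coins, (δ', δ), (z, ξ₀, healing seeds), sign, (e, offset). -/
abbrev Rnd (S : Sk) (π : Par) : Type :=
  Coins S × (Qn π × Qn π) × (Qn π × Qn π × HS π) × Bool × (Fin (2 * π.m0 + 2) × Qn π)

/-- A uniform value in `[a, b)`. -/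
def uq {π : Par} (k : Qn π) (a b : ℝ) : ℝ := a + (b - a) * ((k : ℕ) : ℝ) / (π.Nq + 1)

/-- A healed function with its record (slope of the cone, scale; scale `0` means not done). -/
structure Hl where
  H : ℕ → ℝ → ℝ
  dn : ℕ → ℝ → ℝ × ℝ

structure Sys (S : Sk) (π : Par) where
  cand : St → Coins S → Set (ℕ × ℕ)
  src : St → ℕ × ℕ → Set (ℕ × ℝ)
  Z : St → ℕ × ℕ → Set ℕ
  heal : St → Lk → ℕ × ℕ → ℝ → HS π → Hl

variable {S : Sk} {π : Par} (Y : Sys S π) (s : St) (ρ : Rnd S π)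

def del' : ℝ := uq ρ.2.1.1 (s.w / 10) (s.w / 5)
def del : ℝ := uq ρ.2.1.2 (9 * s.w) (10 * s.w)
def zz : ℝ := uq ρ.2.2.1.1 (s.w / 40) (s.w / 20)
def xi0 : ℝ := uq ρ.2.2.1.2.1 (s.w / 20) (s.w / 10)
def sg : ℝ := if ρ.2.2.2.1 then 1 else -1
def w' : ℝ := s.w / 2 ^ (π.m0 - 1 + (ρ.2.2.2.2.1 : ℕ))
def off : ℝ := uq ρ.2.2.2.2.2 0 (w' s ρ)

namespace Sys

def PE : Set (ℕ × ℕ) := s.pend.getD (Y.cand s ρ.1)

def Zs : Set ℕ := match s.kick with
  | none => ∅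
  | some I => Y.Z s I

/-- The capped distance to the sources of an interval. -/
def DI (I : ℕ × ℕ) (p : ℕ × ℝ) : ℝ := dc S s.D s.W (Y.src s I) (20 * s.w) p

/-- Kick children. -/
def KC : Set (ℕ × ℕ) :=
  {I | I ∈ Y.PE s ρ ∧ some I ≠ s.kick ∧ Disjoint (tm I) (Y.Zs s) ∧
    ∀ I' ∈ Y.PE s ρ, some I' ≠ s.kick → Disjoint (tm I') (Y.Zs s) → tm I ⊆ tm I' → I' = I}

/-- The child at a time, before the check: `some none` is the zone child. -/
def ch0 (θ : ℕ) : Option (Option (ℕ × ℕ)) :=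
  if θ ∈ Y.Zs s then some none
  else if h : ∃ I ∈ Y.KC s ρ, θ ∈ tm I then some (some h.choose) else none

/-- The shallow points of a child. -/
def shal (i : Option (ℕ × ℕ)) : Set (ℕ × ℝ) := match i with
  | none => {p | Y.DI s (s.kick.getD (0, 0)) p ≤ del s ρ}
  | some I => {p | Y.DI s I p ≤ del' s ρ}

/-- Links leaving a child start at shallow points. -/
def OkC : Prop := ∀ θ θ' t i, Link S s.D θ θ' t → t ∈ s.W → Y.ch0 s ρ θ = some i →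
  Y.ch0 s ρ θ' ≠ some i → (θ, t) ∈ Y.shal s ρ i

def ch (θ : ℕ) : Option (Option (ℕ × ℕ)) := if Y.OkC s ρ then Y.ch0 s ρ θ else none

def cPin (i : Option (ℕ × ℕ)) : Set (ℕ × ℝ) :=
  s.Pin ∪ {p | Y.ch s ρ p.1 ≠ some i} ∪ Y.shal s ρ i

def cSt (i : Option (ℕ × ℕ)) : St :=
  { s with
    Pin := Y.cPin s ρ i
    pend := some {I | I ∈ Y.PE s ρ ∧ some I ≠ s.kick ∧ ∀ θ ∈ tm I, Y.ch s ρ θ = some i}
    kick := i }

def deep (p : ℕ × ℝ) : Prop := p.2 ∈ s.W ∧ ∃ i, Y.ch s ρ p.1 = some i ∧ p ∉ Y.cPin s ρ i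

def fat (θ θ' : ℕ) (A : Set ℝ) : Set ℝ :=
  {v | v ∈ s.W ∧ ∃ t ∈ A, t ∈ s.W ∧ ∃ i, Y.ch s ρ θ = some i ∧ Y.ch s ρ θ' = some i ∧
    (θ, t) ∉ Y.cPin s ρ i ∧
    ∀ u, min t v < u → u < max t v → (θ, u) ∉ Y.cPin s ρ i ∧ (θ', u) ∉ Y.cPin s ρ i}

/-- The diagram with the additional links. -/
def Dp : Lk where
  L g := s.D.L g ∪ Y.fat s ρ g (g + 1) (s.D.L g)
  P a := s.D.P a ∪ Y.fat s ρ a (S.mate a) (s.D.P a)

end Sys

def trap (t : ℝ) : ℝ := max 0 (min (s.w / 20) (min (t - s.lo - zz s ρ) (s.hi - zz s ρ - t)))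

def trapS (t : ℝ) : ℝ :=
  if t < s.lo + zz s ρ then 0 else if t < s.lo + zz s ρ + s.w / 20 then 1
  else if t < s.hi - zz s ρ - s.w / 20 then 0 else if t < s.hi - zz s ρ then -1 else 0

namespace Sys

def hl (I : ℕ × ℕ) : Hl := Y.heal s (Y.Dp s ρ) I (del s ρ) ρ.2.2.1.2.2

def psi0 (θ : ℕ) (t : ℝ) : ℝ := match s.kick with
  | none => 0
  | some I => if θ ∈ tm I then max 0 (min (trap s ρ t) ((Y.hl s ρ I).H θ t - xi0 s ρ)) else 0

def OkP : Prop :=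
  (∀ θ t t', |Y.psi0 s ρ θ t - Y.psi0 s ρ θ t'| ≤ |t - t'|) ∧
  (∀ p ∈ s.Pin, Y.psi0 s ρ p.1 p.2 = 0) ∧
  ∀ θ θ' t, Link S (Y.Dp s ρ) θ θ' t → Y.psi0 s ρ θ t = Y.psi0 s ρ θ' t

def psi (θ : ℕ) (t : ℝ) : ℝ := if Y.OkP s ρ then Y.psi0 s ρ θ t else 0

def Psi (θ : ℕ) (t : ℝ) : ℝ := t + sg ρ * Y.psi s ρ θ t

/-- The new label of the image of `(θ, t)`. -/
def lab1 (θ : ℕ) (t : ℝ) : ℝ × ℝ :=
  if Y.deep s ρ (θ, t) then (0, 0) else match s.kick with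
  | none => s.lab θ t
  | some I =>
    if ¬ Y.OkP s ρ ∨ θ ∉ tm I ∨ (Y.hl s ρ I).H θ t - xi0 s ρ ≤ 0 then s.lab θ t
    else if trap s ρ t ≤ (Y.hl s ρ I).H θ t - xi0 s ρ then
      ((1 + sg ρ * trapS s ρ t) * (s.lab θ t).1, (1 + sg ρ * trapS s ρ t) * (s.lab θ t).2)
    else if 0 < ((Y.hl s ρ I).dn θ t).2 then
      ((1 + sg ρ * ((Y.hl s ρ I).dn θ t).1) * (s.lab θ t).1,
        (1 + sg ρ * ((Y.hl s ρ I).dn θ t).1) * min (s.lab θ t).2 ((Y.hl s ρ I).dn θ t).2)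
    else (0, 0)

/-- The state after the operation, before the window is cut. -/
def mid : St where
  D := { L := fun g => Y.Psi s ρ g '' (Y.Dp s ρ).L g, P := fun a => Y.Psi s ρ a '' (Y.Dp s ρ).P a }
  Pin := s.Pin
  lab θ v := Y.lab1 s ρ θ (Function.invFun (Y.Psi s ρ θ) v)
  lo := s.lo
  hi := s.hi
  w := s.w
  pend := none
  kick := none

end Sys

/-- The cell of the grid with mesh `u` and offset `o` that contains `v`. -/
def St.cut (s : St) (u o v : ℝ) : St :=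
  { s with
    lo := max s.lo (o + u * ⌊(v - o) / u⌋)
    hi := min s.hi (o + u * (⌊(v - o) / u⌋ + 1))
    w := u }

/-- Seeds. -/
def Om (S : Sk) (π : Par) : ℕ → Type
  | 0 => Unit
  | n + 1 => Rnd S π × (Option (Fin (S.N + 1)) → Om S π n) × Om S π n

instance Om.fin (S : Sk) (π : Par) : ∀ n, Fintype (Om S π n)
  | 0 => inferInstanceAs (Fintype Unit)
  | n + 1 => by
    have := Om.fin S π n
    exact inferInstanceAs (Fintype (Rnd S π × (Option (Fin (S.N + 1)) → Om S π n) × Om S π n))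

instance Om.ne (S : Sk) (π : Par) : ∀ n, Nonempty (Om S π n)
  | 0 => inferInstanceAs (Nonempty Unit)
  | n + 1 => by
    have := Om.ne S π n
    exact inferInstanceAs (Nonempty (Rnd S π × (Option (Fin (S.N + 1)) → Om S π n) × Om S π n))

/-- The seed index of a child. -/
def cidx (S : Sk) (i : Option (ℕ × ℕ)) : Option (Fin (S.N + 1)) :=
  i.map fun I => Fin.ofNat (S.N + 1) I.1

namespace Sys

/-- The process. -/
def proc : (n : ℕ) → St → Om S π n → ℕ → ℝ → ℝ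
  | 0, _, _, _, t => t
  | n + 1, s, ω, θ, t =>
    if t ∈ Ico s.lo s.hi then
      let v := Y.Psi s ω.1 θ (match Y.ch s ω.1 θ with
        | none => t
        | some i => proc n (Y.cSt s ω.1 i) (ω.2.1 (cidx S i)) θ t)
      proc n ((Y.mid s ω.1).cut (w' s ω.1) (off s ω.1) v) ω.2.2 θ v
    else t

/-- The expected payoff. -/
def val {ι : Type} (n : ℕ) (s : St) (F : (ι → ℝ) → ℝ) (θ : ι → ℕ) (a : ι → ℝ) : ℝ :=
  Finset.expect Finset.univ fun ω : Om S π n => F fun i => Y.proc n s ω (θ i) (a i)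

/-- The descent measure of a node with a pending family. -/
def mes (s : St) : ℕ :=
  2 * Set.ncard {I | I ∈ s.pend.getD ∅ ∧ some I ≠ s.kick} + if s.kick.isSome then 1 else 0

end Sys

end Vale.Agent.P235.Pl
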