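import Vale.Agent.P235P.FDefs

/-! P235 planar case: arithmetic of the renewal argument. -/

open Set Classical

noncomputable section

namespace Vale.Agent.P235.Pl

theorem eta_pos {y : ℕ} (hy : 1 ≤ y) : 0 < eta y := by
  have h : (1 : ℝ) ≤ y := by exact_mod_cast hy
  unfold eta
  positivity

theorem eta_le {y : ℕ} (hy : 1 ≤ y) : eta y ≤ 1 / 16 := by
  have h : (1 : ℝ) ≤ y := by exact_mod_cast hy
  unfold eta
  exact one_div_le_one_div_of_le (by norm_num) (by nlinarith)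

theorem farith_pow {y : ℕ} (hy : 199 ≤ y) : (2 : ℝ) ^ 71 * ((y : ℝ) + 1) ^ 3 ≤ 2 ^ y := by
  induction y, hy using Nat.le_induction with
  | base => norm_num
  | succ n hn ih =>
    have h : (199 : ℝ) ≤ n := by exact_mod_cast hn
    have h2 : ((n : ℝ) + 1 + 1) ^ 3 ≤ 2 * ((n : ℝ) + 1) ^ 3 := by
      nlinarith [mul_nonneg (sub_nonneg.2 h) (sq_nonneg ((n : ℝ) + 1)), sq_nonneg ((n : ℝ) + 1)]
    rw [pow_succ (2 : ℝ) n]
    push_cast
    nlinarith

theorem eta_big {y : ℕ} (hy : 199 ≤ y) : 10 ^ 10 * ((y : ℝ) + 1) * (2 ^ 34 / 2 ^ y) ≤ eta y := by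
  have h : (199 : ℝ) ≤ y := by exact_mod_cast hy
  have h1 := farith_pow hy
  have h2 : (0 : ℝ) < 2 ^ y := by positivity
  unfold eta
  rw [← mul_div_assoc, div_le_div_iff₀ h2 (by positivity), one_mul]
  refine le_trans ?_ h1
  have h3 : (0 : ℝ) ≤ ((y : ℝ) + 1) ^ 2 := by positivity
  have h4 : (y : ℝ) * ((y : ℝ) + 1) ^ 2 ≤ ((y : ℝ) + 1) ^ 3 := by nlinarith
  have h5 : (0 : ℝ) ≤ (y : ℝ) * ((y : ℝ) + 1) ^ 2 := by positivity
  nlinarith

theorem Pm_pos (m0 y : ℕ) : 0 < Pm m0 y := by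
  unfold Pm
  split_ifs <;> positivity

theorem farith_inv {y : ℕ} (hy : 1 ≤ y) : 1 / (y : ℝ) ≤ 1 := by
  have h : (1 : ℝ) ≤ y := by exact_mod_cast hy
  rw [div_le_one (by linarith)]
  exact h

theorem farith_le (m0 : ℕ) {y : ℕ} (hy : 1 ≤ y) :
    Pm m0 y ≤ 1 / 6400 / (2 * (m0 : ℝ) + 2) := by
  have h := farith_inv hy
  have h0 : (0 : ℝ) ≤ 1 / (y : ℝ) := by positivity
  have e : (1 : ℝ) / 6400 / (2 * (m0 : ℝ) + 2) = 4 / (25600 * (2 * (m0 : ℝ) + 2)) := by
    field_simp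
    norm_num
  unfold Pm
  rw [e]
  refine div_le_div_of_nonneg_right ?_ (by positivity)
  split_ifs <;> linarith

theorem Pm_le (m0 : ℕ) {y : ℕ} (hy : 1 ≤ y) : Pm m0 y ≤ 1 / 6400 := by
  refine (farith_le m0 hy).trans (div_le_self (by norm_num) ?_)
  have : (0 : ℝ) ≤ m0 := Nat.cast_nonneg _
  linarith

theorem Pm_ge (m0 y : ℕ) : 1 / (25600 * (2 * (m0 : ℝ) + 2)) ≤ Pm m0 y := by
  have h0 : (0 : ℝ) ≤ 1 / (y : ℝ) := by positivity
  unfold Pm
  refine div_le_div_of_nonneg_right ?_ (by positivity)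
  split_ifs <;> linarith

theorem Pm_anti (m0 : ℕ) {y y' : ℕ} (hy : 1 ≤ y) (h : y ≤ y') : Pm m0 y' ≤ Pm m0 y := by
  have h1 : (1 : ℝ) ≤ y := by exact_mod_cast hy
  have h2 : (y : ℝ) ≤ y' := by exact_mod_cast h
  have h3 : 1 / (y' : ℝ) ≤ 1 / (y : ℝ) := one_div_le_one_div_of_le (by linarith) h2
  have h0 : (0 : ℝ) ≤ 1 / (y' : ℝ) := by positivity
  unfold Pm
  refine div_le_div_of_nonneg_right ?_ (by positivity)
  split_ifs with a b b
  · linarith
  · omega
  · linarith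
  · linarith

theorem farith_key {a y : ℕ} (ha : 1 ≤ a) (h : a + 1 ≤ y) :
    1 + 1 / (y : ℝ) ≤ (1 - 3 * eta a) * (1 + 1 / (a : ℝ)) := by
  have h1 : (1 : ℝ) ≤ a := by exact_mod_cast ha
  have h2 : (a : ℝ) + 1 ≤ y := by exact_mod_cast h
  have h3 : 1 / (y : ℝ) ≤ 1 / ((a : ℝ) + 1) := one_div_le_one_div_of_le (by linarith) h2
  have e : (1 - 3 * eta a) * (1 + 1 / (a : ℝ)) - (1 + 1 / ((a : ℝ) + 1)) =
      (5 * a - 3) / (8 * a ^ 2 * (a + 1)) := by
    unfold eta
    field_simp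
    ring
  have h4 : (0 : ℝ) ≤ (5 * a - 3) / (8 * (a : ℝ) ^ 2 * (a + 1)) :=
    div_nonneg (by linarith) (by positivity)
  linarith

theorem farith_nn {m0 : ℕ} (hm : 1 ≤ m0) (y e : ℕ) : 0 ≤ ren m0 y e := by
  unfold ren
  split_ifs with a b
  · norm_num
  · have := eta_le (y := y - (m0 - 1 + e)) (by omega)
    exact mul_nonneg (by linarith) (Pm_pos _ _).le
  · exact le_rfl

theorem farith_val {m0 y e : ℕ} (hm : 200 ≤ m0) (hy : 3 * m0 < y) (he : m0 - 1 + e + m0 ≤ y) :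
    (if y - (m0 - 1 + e) ≤ 3 * m0 then 2 else 1) * Pm m0 y ≤ ren m0 y e := by
  have hk := farith_key (a := y - (m0 - 1 + e)) (y := y) (by omega) (by omega)
  unfold ren
  rw [if_neg (show ¬ m0 - 1 + e = y by omega), if_pos he]
  unfold Pm
  rw [if_neg (show ¬ y ≤ 3 * m0 by omega), ← mul_div_assoc, ← mul_div_assoc]
  refine div_le_div_of_nonneg_right ?_ (by positivity)
  split_ifs <;> linarith

theorem renew {m0 y : ℕ} (hm : 200 ≤ m0) (hy : m0 - 1 ≤ y) :
    Pm m0 y ≤ Finset.expect Finset.univ fun e : Fin (2 * m0 + 2) => ren m0 y e := by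
  have hc : (0 : ℝ) < 2 * (m0 : ℝ) + 2 := by positivity
  rw [Finset.expect_eq_sum_div_card, Finset.card_univ, Fintype.card_fin]
  push_cast
  rcases le_or_gt y (3 * m0) with h | h
  · refine (farith_le m0 (by omega)).trans (div_le_div_of_nonneg_right ?_ hc.le)
    have h1 := Finset.single_le_sum (f := fun e : Fin (2 * m0 + 2) => ren m0 y e)
      (fun e _ => farith_nn (by omega) y e) (Finset.mem_univ ⟨y - (m0 - 1), by omega⟩)
    refine le_trans (le_of_eq ?_) h1
    simp only [ren]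
    rw [if_pos (by omega)]
  rw [le_div_iff₀ hc, Fin.sum_univ_eq_sum_range (fun e => ren m0 y e)]
  have hP := Pm_pos m0 y
  rcases le_or_gt (4 * m0) y with h4 | h4
  · have h1 : ∀ e ∈ Finset.range (2 * m0 + 2), Pm m0 y ≤ ren m0 y e := fun e he => by
      have h2 := Finset.mem_range.1 he
      refine le_trans ?_ (farith_val hm h (by omega))
      split_ifs <;> linarith
    have h2 := Finset.card_nsmul_le_sum _ _ _ h1
    rw [Finset.card_range, nsmul_eq_mul] at h2
    push_cast at h2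
    linarith
  · have h1 : ∀ e ∈ Finset.range (m0 + 1), 2 * Pm m0 y ≤ ren m0 y e := fun e he => by
      have h2 := Finset.mem_range.1 he
      have h3 := farith_val (e := e) hm h (by omega)
      rwa [if_pos (by omega)] at h3
    have h2 := Finset.card_nsmul_le_sum _ _ _ h1
    rw [Finset.card_range, nsmul_eq_mul] at h2
    push_cast at h2
    have h3 : ∑ e ∈ Finset.range (m0 + 1), ren m0 y e ≤
        ∑ e ∈ Finset.range (2 * m0 + 2), ren m0 y e :=
      Finset.sum_le_sum_of_subset_of_nonneg (Finset.range_mono (by omega))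
        fun e _ _ => farith_nn (by omega) y e
    linarith

theorem exp_good {α : Type} [Fintype α] [Nonempty α] {g : α → ℝ} {good : α → Prop} {B p : ℝ}
    (hB : 0 ≤ B) (h0 : ∀ a, 0 ≤ g a) (hg : ∀ a, good a → B ≤ g a)
    (hp : p ≤ Finset.expect Finset.univ fun a => if good a then (1 : ℝ) else 0) :
    p * B ≤ Finset.expect Finset.univ g := by
  refine (mul_le_mul_of_nonneg_right hp hB).trans ?_
  rw [Finset.expect_mul]
  refine Finset.expect_le_expect fun a _ => ?_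
  split_ifs with h
  · simpa using hg a h
  · simpa using h0 a

theorem exp_bad {α : Type} [Fintype α] [Nonempty α] {g : α → ℝ} {bad : α → Prop} {B ε : ℝ}
    (hB : 0 ≤ B) (h0 : ∀ a, 0 ≤ g a) (hg : ∀ a, ¬ bad a → B ≤ g a)
    (hε : (Finset.expect Finset.univ fun a => if bad a then (1 : ℝ) else 0) ≤ ε) :
    (1 - ε) * B ≤ Finset.expect Finset.univ g := by
  have e : (1 - Finset.expect Finset.univ fun a => if bad a then (1 : ℝ) else 0) * B =
      Finset.expect Finset.univ fun a => (1 - if bad a then (1 : ℝ) else 0) * B := by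
    rw [← Finset.expect_mul, Finset.expect_sub_distrib, Finset.expect_const Finset.univ_nonempty]
  refine (mul_le_mul_of_nonneg_right (sub_le_sub_left hε 1) hB).trans (e.le.trans ?_)
  refine Finset.expect_le_expect fun a _ => ?_
  split_ifs with h
  · simpa using h0 a
  · simpa using hg a h

end Vale.Agent.P235.Pl
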