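import Vale.Agent.P235P.Contracts

/-! P235 planar case: balls around the pair of points and their representation. -/

open Set Classical

noncomputable section

namespace Vale.Agent.P235.Pl

variable {S : Sk} {π : Par}

namespace Ctx
variable {c : Ctx S} {s : St} {V : ℕ → ℝ → ℝ} {A R : ℝ}

theorem r_pos (c : Ctx S) : 0 < c.r :=
  lt_of_lt_of_le (mul_pos (by norm_num) c.rs_pos) c.le_r

theorem x_mem (c : Ctx S) (hR : 0 ≤ R) : c.x ∈ c.ball R :=
  Near.self rfl (mem_univ _) (mul_nonneg hR c.r_pos.le)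

theorem y_mem (c : Ctx S) (hR : 1 ≤ R) : c.y ∈ c.ball R :=
  Near.of_reach rfl c.dist.1 (le_mul_of_one_le_left c.r_pos.le hR)

theorem ball_mono (c : Ctx S) {R' : ℝ} (h : R ≤ R') : c.ball R ⊆ c.ball R' := fun _ hp =>
  Near.mono_R hp (mul_le_mul_of_nonneg_right h c.r_pos.le)

theorem Rep.close_of (h : c.Rep s V A R) {p : ℕ × ℝ} {k : ℝ} (hr : Reach S c.D0 univ c.x p k)
    (hk : k ≤ R * c.r) : |V p.1 p.2 - c.vx V| ≤ 2 * A * k := by
  refine hr.inv (Q := fun p k => k ≤ R * c.r → |V p.1 p.2 - c.vx V| ≤ 2 * A * k)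
    (fun _ => by simp [vx]) (fun θ t t' k h1 _ ih h2 => ?_) (fun θ θ' t k _ hl ih h2 => ?_) hk
  · have h3 : k ≤ R * c.r := le_trans (le_add_of_nonneg_right (abs_nonneg _)) h2
    have h4 := h.lip θ t t' (Near.of_reach rfl h1 h3)
      (Near.of_reach rfl (h1.vert (mem_univ _)) h2)
    have h5 := abs_sub_le (V θ t') (V θ t) (c.vx V)
    have h6 := ih h3
    rw [abs_sub_comm] at h4
    simp only at h6 ⊢
    linarith
  · simp only at ih ⊢
    rw [← (h.r1 θ θ' t hl).2]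
    exact ih h2

theorem Rep.close (h : c.Rep s V A R) {p : ℕ × ℝ} (hp : p ∈ c.ball R) :
    |V p.1 p.2 - c.vx V| ≤ 2 * A * R * c.r := by
  obtain ⟨k, hk, hr⟩ := Near.single.1 hp
  have h1 := mul_le_mul_of_nonneg_left hk (by linarith [h.pos] : 0 ≤ 2 * A)
  linarith [h.close_of hr hk]

theorem Rep.mem_W (h : c.Rep s V A R) (hW : c.Win s V A) (hR : R ≤ 8) {p : ℕ × ℝ}
    (hp : p ∈ c.ball R) : V p.1 p.2 ∈ s.W := by
  have h1 := abs_le.1 (h.close hp)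
  have h2 : 0 < A * c.r := mul_pos h.pos c.r_pos
  have h3 := mul_le_mul_of_nonneg_right hR h2.le
  exact hW ⟨by linarith [h1.1], by linarith [h1.2]⟩

theorem Rep.reach (h : c.Rep s V A R) (hW : c.Win s V A) (hR : R ≤ 8) {p : ℕ × ℝ}
    (hp : p ∈ c.ball R) :
    ∃ k ≤ 2 * A * R * c.r, Reach S s.D s.W (c.x.1, c.vx V) (p.1, V p.1 p.2) k := by
  obtain ⟨k, hk, hr⟩ := Near.single.1 hp
  have key : ∃ k' ≤ 2 * A * k, Reach S s.D s.W (c.x.1, c.vx V) (p.1, V p.1 p.2) k' := by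
    refine hr.inv (Q := fun p k => k ≤ R * c.r →
        ∃ k' ≤ 2 * A * k, Reach S s.D s.W (c.x.1, c.vx V) (p.1, V p.1 p.2) k')
      (fun h0 => ⟨0, by simp, Reach.refl
        (h.mem_W hW hR (p := c.x) (Near.self rfl (mem_univ _) h0))⟩)
      (fun θ t t' k h1 _ ih h2 => ?_) (fun θ θ' t k _ hl ih h2 => ?_) hk
    · have h3 : k ≤ R * c.r := le_trans (le_add_of_nonneg_right (abs_nonneg _)) h2
      have hb : (θ, t') ∈ c.ball R := Near.of_reach rfl (h1.vert (mem_univ _)) h2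
      have h4 := h.lip θ t t' (Near.of_reach rfl h1 h3) hb
      obtain ⟨k', h5, h6⟩ := ih h3
      exact ⟨_, by linarith, h6.vert (h.mem_W hW hR hb)⟩
    · obtain ⟨k', h5, h6⟩ := ih h2
      refine ⟨k', h5, ?_⟩
      simp only
      rw [← (h.r1 θ θ' t hl).2]
      exact h6.link (h.r1 θ θ' t hl).1
  obtain ⟨k', h1, h2⟩ := key
  have h3 := mul_le_mul_of_nonneg_left hk (by linarith [h.pos] : 0 ≤ 2 * A)
  exact ⟨k', by linarith, h2⟩

theorem ball_cross (c : Ctx S) {T : Set ℕ} {p : ℕ × ℝ} (hp : p ∈ c.ball R) (hx : c.x.1 ∈ T)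
    (hT : p.1 ∉ T) : ∃ θ θ' t, Link S c.D0 θ θ' t ∧ θ ∈ T ∧ θ' ∉ T ∧ (θ, t) ∈ c.ball R ∧
      (θ', t) ∈ c.ball R := by
  obtain ⟨k, hk, hr⟩ := Near.single.1 hp
  obtain ⟨θ, θ', t, h1, h2, h3, h4⟩ := hr.cross hx hT
  obtain ⟨k', h5, h6⟩ := h4.left
  have h7 : (θ, t) ∈ c.ball R := Near.of_reach rfl h6 (h5.trans hk)
  exact ⟨θ, θ', t, h3, h1, h2, h7, Near.link h7 h3⟩

theorem Rep.anti (h : c.Rep s V A R) {R' : ℝ} (hR : R' ≤ R) : c.Rep s V A R' :=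
  ⟨h.pos, h.mono, h.cont, h.r1, fun θ θ' t hp => h.r2 θ θ' t (c.ball_mono hR hp),
    fun θ t t' h1 h2 => h.lip θ t t' (c.ball_mono hR h1) (c.ball_mono hR h2),
    fun p hp => h.pf p (c.ball_mono hR hp), fun I hI p hp => h.ink I hI p (c.ball_mono hR hp)⟩

/-- cutting the window -/
theorem Rep.cut (h : c.Rep s V A R) (u o v : ℝ) : c.Rep (s.cut u o v) V A R :=
  ⟨h.pos, h.mono, h.cont, h.r1, h.r2, h.lip,
    fun p hp hn => h.pf p hp (Near.mono_D hn (Icc_subset_Icc (le_max_left _ _) (min_le_left _ _))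
      ⟨fun _ _ _ h => h, fun _ _ _ h => h⟩), h.ink⟩

end Ctx

end Vale.Agent.P235.Pl
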