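import Vale.Agent.P235P.Engine

/-! P235 planar case: counting on the uniform grid. -/

open Set Classical

noncomputable section

namespace Vale.Agent.P235.Pl

variable {S : Sk} {π : Par}

theorem fcount_card (n : ℕ) (P : Fin n → Prop) [DecidablePred P] {x L : ℝ} (hL : 0 ≤ L)
    (h : ∀ k, P k → x ≤ ((k : ℕ) : ℝ) ∧ ((k : ℕ) : ℝ) ≤ x + L) :
    ((Finset.univ.filter P).card : ℝ) ≤ L + 1 := by
  have h1 : (Finset.univ.filter P).card ≤ (Finset.Icc ⌈x⌉ ⌊x + L⌋).card := by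
    refine Finset.card_le_card_of_injOn (fun k => ((k : ℕ) : ℤ)) (fun k hk => ?_)
      fun k _ k' _ e => Fin.ext (Int.natCast_inj.1 e)
    have h2 := h k (Finset.mem_filter.1 hk).2
    exact Finset.mem_coe.2 (Finset.mem_Icc.2
      ⟨Int.ceil_le.2 (by exact_mod_cast h2.1), Int.le_floor.2 (by exact_mod_cast h2.2)⟩)
  rw [Int.card_Icc] at h1
  have h3 := Int.le_ceil x
  have h4 := Int.floor_le (x + L)
  rcases le_total (⌊x + L⌋ + 1 - ⌈x⌉) 0 with h5 | h5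
  · rw [Int.toNat_of_nonpos h5, Nat.le_zero] at h1
    rw [h1, Nat.cast_zero]
    linarith
  · have h6 : ((Finset.univ.filter P).card : ℤ) ≤ ⌊x + L⌋ + 1 - ⌈x⌉ := by omega
    have h7 : ((Finset.univ.filter P).card : ℝ) ≤ ⌊x + L⌋ + 1 - ⌈x⌉ := by exact_mod_cast h6
    linarith

theorem prob_uq (π : Par) {a b c l : ℝ} (hab : a < b) (hl : 0 ≤ l) :
    (Finset.expect Finset.univ fun k : Qn π => if uq k a b ∈ Icc c (c + l) then (1 : ℝ) else 0) ≤
      l / (b - a) + 1 / (π.Nq + 1) := by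
  have hN : (0 : ℝ) < π.Nq + 1 := by positivity
  have hd : 0 < b - a := sub_pos.2 hab
  have h1 := fcount_card (π.Nq + 1) (fun k : Qn π => uq k a b ∈ Icc c (c + l))
    (x := (c - a) * (π.Nq + 1) / (b - a)) (L := l * (π.Nq + 1) / (b - a)) (by positivity)
    fun k hk => by
      have h2 : c - a ≤ (b - a) * ((k : ℕ) : ℝ) / (π.Nq + 1) := by
        have := hk.1
        rw [uq] at this
        linarith
      have h3 : (b - a) * ((k : ℕ) : ℝ) / (π.Nq + 1) ≤ c - a + l := by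
        have := hk.2
        rw [uq] at this
        linarith
      rw [le_div_iff₀ hN] at h2
      rw [div_le_iff₀ hN] at h3
      rw [← add_div, div_le_iff₀ hd, le_div_iff₀ hd]
      constructor <;> linarith
  rw [Finset.expect_eq_sum_div_card, Finset.sum_boole, Finset.card_univ, Fintype.card_fin,
    Nat.cast_add_one, div_le_iff₀ hN]
  refine h1.trans_eq ?_
  field_simp

theorem fcount_three (π : Par) {u c₁ l₁ c₂ l₂ c₃ l₃ : ℝ} (hu : 0 < u) (h₁ : 0 ≤ l₁) (h₂ : 0 ≤ l₂)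
    (h₃ : 0 ≤ l₃) {F : Qn π → ℝ} (hF : ∀ k, F k ≤ 0 ∨ F k ≤ 1 ∧ (uq k 0 u ∈ Icc c₁ (c₁ + l₁) ∨
      uq k 0 u ∈ Icc c₂ (c₂ + l₂) ∨ uq k 0 u ∈ Icc c₃ (c₃ + l₃))) :
    Finset.expect Finset.univ F ≤ (l₁ + l₂ + l₃) / u + 3 / (π.Nq + 1) := by
  have p₁ := prob_uq π (c := c₁) hu h₁
  have p₂ := prob_uq π (c := c₂) hu h₂
  have p₃ := prob_uq π (c := c₃) hu h₃
  have p := add_le_add (add_le_add p₁ p₂) p₃
  rw [← Finset.expect_add_distrib, ← Finset.expect_add_distrib] at p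
  refine (Finset.expect_le_expect fun k _ => ?_).trans (p.trans_eq ?_)
  · rcases hF k with h | ⟨h, h'⟩
    · split_ifs <;> linarith
    · split_ifs with a b c c b c c <;> first | linarith | tauto
  · rw [sub_zero]
    ring

theorem fcount_uq (k : Qn π) {u : ℝ} (hu : 0 < u) : 0 ≤ uq k 0 u ∧ uq k 0 u < u := by
  have hN : (0 : ℝ) < π.Nq + 1 := by positivity
  have hk : ((k : ℕ) : ℝ) < π.Nq + 1 := by exact_mod_cast k.2
  rw [uq, zero_add, sub_zero, div_lt_iff₀ hN]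
  exact ⟨by positivity, mul_lt_mul_of_pos_left hk hu⟩

theorem fcount_fl {u : ℝ} (hu : 0 < u) (v : ℝ) : u * ⌊v / u⌋ ≤ v ∧ v < u * (⌊v / u⌋ + 1) :=
  ⟨(le_div_iff₀' hu).1 (Int.floor_le _), (div_lt_iff₀' hu).1 (Int.lt_floor_add_one _)⟩

theorem fcount_two {u o : ℝ} (hu : 0 < u) (h0 : 0 ≤ o) (h1 : o < u) (v : ℝ) :
    (⌊(v - o) / u⌋ : ℝ) = ⌊v / u⌋ ∨ (⌊(v - o) / u⌋ : ℝ) = ⌊v / u⌋ - 1 := by
  have a := fcount_fl hu v
  have b := fcount_fl hu (v - o)
  have h2 : (⌊(v - o) / u⌋ : ℝ) < ⌊v / u⌋ + 1 := lt_of_mul_lt_mul_left (by linarith) hu.le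
  have h3 : (⌊v / u⌋ : ℝ) < ⌊(v - o) / u⌋ + 2 := lt_of_mul_lt_mul_left (by linarith) hu.le
  have h4 : ⌊(v - o) / u⌋ < ⌊v / u⌋ + 1 := by exact_mod_cast h2
  have h5 : ⌊v / u⌋ < ⌊(v - o) / u⌋ + 2 := by exact_mod_cast h3
  have h6 : ⌊(v - o) / u⌋ = ⌊v / u⌋ ∨ ⌊(v - o) / u⌋ = ⌊v / u⌋ - 1 := by omega
  exact_mod_cast h6

theorem prob_grid (π : Par) {u v δ : ℝ} (hu : 0 < u) (hδ : 0 ≤ δ) :
    (Finset.expect Finset.univ fun k : Qn π =>
      if uq k 0 u + u * ⌊(v - uq k 0 u) / u⌋ < v - δ ∧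
        v + δ < uq k 0 u + u * (⌊(v - uq k 0 u) / u⌋ + 1) then (0 : ℝ) else 1) ≤
      6 * δ / u + 3 / (π.Nq + 1) := by
  have h2 : 0 ≤ 2 * δ := by positivity
  refine (fcount_three π (c₁ := v - u * ⌊v / u⌋ - δ) (c₂ := v - u * ⌊v / u⌋ + u - δ)
    (c₃ := v - u * ⌊v / u⌋ - u - δ) hu h2 h2 h2 fun k => ?_).trans_eq (by ring)
  split_ifs with h
  · exact Or.inl le_rfl
  refine Or.inr ⟨le_rfl, ?_⟩
  have a := fcount_uq k hu
  have b := fcount_fl hu (v - uq k 0 u)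
  rw [not_and_or, not_lt, not_lt] at h
  rcases fcount_two hu a.1 a.2 v with e | e <;> rw [e] at h b <;> rcases h with h | h
  · exact Or.inl ⟨by linarith, by linarith⟩
  · exact Or.inr (Or.inr ⟨by linarith, by linarith⟩)
  · exact Or.inr (Or.inl ⟨by linarith, by linarith⟩)
  · exact Or.inl ⟨by linarith, by linarith⟩

theorem prob_mid (π : Par) (hN : 256 ≤ π.Nq) {u v : ℝ} (hu : 0 < u) :
    (1 : ℝ) / 4 ≤ Finset.expect Finset.univ fun k : Qn π =>
      if uq k 0 u + u * ⌊(v - uq k 0 u) / u⌋ + u / 3 ≤ v ∧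
        v ≤ uq k 0 u + u * (⌊(v - uq k 0 u) / u⌋ + 1) - u / 3 then (1 : ℝ) else 0 := by
  obtain ⟨y, hy⟩ : ∃ y, y = v - u * ⌊v / u⌋ := ⟨_, rfl⟩
  have c := fcount_fl hu v
  have y0 : 0 ≤ y := by linarith
  have y1 : y < u := by linarith
  have h1 := fcount_three π (c₁ := 0) (l₁ := max 0 (y - 2 * u / 3)) (c₂ := max 0 (y - u / 3))
    (l₂ := min u (y + u / 3) - max 0 (y - u / 3)) (c₃ := y + 2 * u / 3) (l₃ := max 0 (u / 3 - y))
    hu (le_max_left _ _) (sub_nonneg.2 (max_le (le_min hu.le (by linarith))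
      (le_min (by linarith) (by linarith)))) (le_max_left _ _)
    (F := fun k => 1 - if uq k 0 u + u * ⌊(v - uq k 0 u) / u⌋ + u / 3 ≤ v ∧
      v ≤ uq k 0 u + u * (⌊(v - uq k 0 u) / u⌋ + 1) - u / 3 then (1 : ℝ) else 0) fun k => by
      split_ifs with h
      · exact Or.inl (sub_self _).le
      refine Or.inr ⟨(sub_zero _).le, ?_⟩
      have a := fcount_uq k hu
      have b := fcount_fl hu (v - uq k 0 u)
      have m : ∀ {o : ℝ}, 0 ≤ o → o < u → y - u / 3 ≤ o → o ≤ y + u / 3 → o ∈ Icc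
          (max 0 (y - u / 3)) (max 0 (y - u / 3) + (min u (y + u / 3) - max 0 (y - u / 3))) :=
        fun o1 o2 o3 o4 => ⟨max_le o1 o3, by
          rw [add_sub_cancel]
          exact le_min o2.le o4⟩
      rw [not_and_or, not_le, not_le] at h
      rcases fcount_two hu a.1 a.2 v with e | e <;> rw [e] at h b <;> rcases h with h | h
      · exact Or.inr (Or.inl (m a.1 a.2 (by linarith) (by linarith)))
      · exact Or.inl ⟨a.1, by linarith [le_max_right 0 (y - 2 * u / 3)]⟩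
      · exact Or.inr (Or.inr ⟨by linarith, by linarith [le_max_right 0 (u / 3 - y)]⟩)
      · exact Or.inr (Or.inl (m a.1 a.2 (by linarith) (by linarith)))
  have h2 : max 0 (y - 2 * u / 3) + (min u (y + u / 3) - max 0 (y - u / 3)) + max 0 (u / 3 - y) =
      2 / 3 * u := by
    simp only [max_def, min_def]
    split_ifs <;> linarith
  have h3 : (3 : ℝ) / (π.Nq + 1) ≤ 1 / 12 := by
    have : (256 : ℝ) ≤ π.Nq := by exact_mod_cast hN
    rw [div_le_iff₀ (by positivity)]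
    linarith
  rw [h2, mul_div_cancel_right₀ _ hu.ne', Finset.expect_sub_distrib,
    Finset.expect_const Finset.univ_nonempty] at h1
  linarith

end Vale.Agent.P235.Pl
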