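import Vale.Agent.P235P.Contracts

/-! P235 planar case: the potential of the renewal argument. -/

open Set Classical

noncomputable section

namespace Vale.Agent.P235.Pl

/-- The loss per step. -/
def eta (y : ℕ) : ℝ := 1 / (8 * y * (y + 1))

/-- The potential. -/
def Pm (m0 y : ℕ) : ℝ := (if y ≤ 3 * m0 then 2 else 1) * (1 + 1 / y) / (25600 * (2 * m0 + 2))

/-- The value of the exponent `e` in the renewal argument. -/
def ren (m0 y e : ℕ) : ℝ :=
  if m0 - 1 + e = y then 1 / 6400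
  else if m0 - 1 + e + m0 ≤ y then (1 - 3 * eta (y - (m0 - 1 + e))) * Pm m0 (y - (m0 - 1 + e)) else 0

/-- The tracked points and the payoff. -/
structure Pay {S : Sk} (c : Ctx S) {ι : Type} (pt : ι → ℕ × ℝ) (F : (ι → ℝ) → ℝ) : Prop where
  conv : ConvexOn ℝ univ F
  mem : ∀ i, pt i ∈ c.ball 1
  ix : ∃ i j, pt i = c.x ∧ pt j = c.y ∧ ∀ a, |a i - a j| ≤ F a

end Vale.Agent.P235.Pl
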