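import Vale.Agent.P235P.FBall
import Vale.Agent.P235P.BEnv

/-! P235 planar case: the descent step of the frame. -/

open Set Classical

noncomputable section

namespace Vale.Agent.P235.Pl

variable {S : Sk} {π : Par}

variable {Y : Sys S π} (N : NodeC Y) {c : Ctx S} {s : St} {V : ℕ → ℝ → ℝ} {A R : ℝ} {ρ : Rnd S π}

theorem fd_uq (k : Qn π) {a b : ℝ} (h : a ≤ b) : a ≤ uq k a b ∧ uq k a b ≤ b := by
  have h1 : (0 : ℝ) < π.Nq + 1 := by positivity
  have h2 : ((k : ℕ) : ℝ) ≤ π.Nq + 1 := by exact_mod_cast k.2.le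
  have h3 : (0 : ℝ) ≤ ((k : ℕ) : ℝ) := by positivity
  have h4 : 0 ≤ (b - a) * ((k : ℕ) : ℝ) / (π.Nq + 1) :=
    div_nonneg (mul_nonneg (sub_nonneg.2 h) h3) h1.le
  have h5 : (b - a) * ((k : ℕ) : ℝ) / (π.Nq + 1) ≤ b - a := by
    rw [div_le_iff₀ h1]
    exact mul_le_mul_of_nonneg_left h2 (sub_nonneg.2 h)
  unfold uq
  constructor <;> linarith

theorem thr_bounds (hw : 0 < s.w) (i : Option (ℕ × ℕ)) :
    low s i + s.w / 20 ≤ thr s ρ i ∧ thr s ρ i + s.w / 20 ≤ high s i := by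
  cases i with
  | none =>
    have h := fd_uq ρ.2.1.2 (a := 9 * s.w) (b := 10 * s.w) (by linarith)
    simp only [low, thr, high, del, Option.isSome_none, Bool.false_eq_true, if_false]
    constructor <;> linarith [h.1, h.2]
  | some I =>
    have h := fd_uq ρ.2.1.1 (a := s.w / 10) (b := s.w / 5) (by linarith)
    simp only [low, thr, high, del', Option.isSome_some, if_true]
    constructor <;> linarith [h.1, h.2]

theorem fd_mem_shal {i : Option (ℕ × ℕ)} {p : ℕ × ℝ} :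
    p ∈ Y.shal s ρ i ↔ Y.DI s (cI s i) p ≤ thr s ρ i := by
  cases i <;> simp [Sys.shal, cI, thr]

theorem fd_DI_reach {I : ℕ × ℕ} {p q : ℕ × ℝ} {k : ℝ} (h : Reach S s.D s.W p q k) :
    Y.DI s I q ≤ Y.DI s I p + k := dc_reach h

/-- Points of the ball are joined to the centre by a short path. -/
theorem fd_reach (h : c.Rep s V A R) (hW : c.Win s V A) (hR : R ≤ 8) {p : ℕ × ℝ}
    (hp : p ∈ c.ball R) :
    ∃ k ≤ 16 * (A * c.r), Reach S s.D s.W (c.x.1, c.vx V) (p.1, V p.1 p.2) k := by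
  obtain ⟨k, hk, hr⟩ := h.reach hW hR hp
  have h0 : 0 < A * c.r := mul_pos h.pos c.r_pos
  refine ⟨k, hk.trans ?_, hr⟩
  nlinarith

theorem fd_near (h : c.Rep s V A R) (hW : c.Win s V A) (hR : R ≤ 8) {p : ℕ × ℝ}
    (hp : p ∈ c.ball R) (I : ℕ × ℕ) :
    Y.DI s I (p.1, V p.1 p.2) ≤ Y.DI s I (c.x.1, c.vx V) + 16 * (A * c.r) ∧
      Y.DI s I (c.x.1, c.vx V) ≤ Y.DI s I (p.1, V p.1 p.2) + 16 * (A * c.r) := by
  obtain ⟨k, hk, hr⟩ := fd_reach h hW hR hp
  have h1 := fd_DI_reach (Y := Y) (I := I) hr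
  have h2 := fd_DI_reach (Y := Y) (I := I) hr.symm
  constructor <;> linarith

/-- A ball that meets a child and its complement contains a low point of that child. -/
theorem fd_low (hs : N.NI s) (h : c.Rep s V A R) (hW : c.Win s V A) (hR : R ≤ 8)
    {i : Option (ℕ × ℕ)} {p : ℕ × ℝ} (hp : p ∈ c.ball R)
    (hx : ¬ (Y.ch s ρ c.x.1 = some i ↔ Y.ch s ρ p.1 = some i)) :
    ∃ q ∈ c.ball R, Y.ch s ρ q.1 = some i ∧ Y.DI s (cI s i) (q.1, V q.1 q.2) ≤ low s i := by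
  by_cases h1 : Y.ch s ρ c.x.1 = some i
  · have h2 : ¬ Y.ch s ρ p.1 = some i := fun h2 => hx ⟨fun _ => h2, fun _ => h1⟩
    obtain ⟨θ, θ', t, hl, ha, hb, hθ, -⟩ :=
      c.ball_cross (T := {θ | Y.ch s ρ θ = some i}) hp h1 h2
    obtain ⟨k, -, hr⟩ := fd_reach h hW hR hθ
    exact ⟨(θ, t), hθ, ha, N.bdry s ρ θ θ' _ i hs (h.r1 θ θ' t hl).1 hr.mem_right ha hb⟩
  · have h2 : Y.ch s ρ p.1 = some i := by
      by_contra h2
      exact hx ⟨fun h => absurd h h1, fun h => absurd h h2⟩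
    obtain ⟨θ, θ', t, hl, ha, hb, -, hθ⟩ :=
      c.ball_cross (T := {θ | Y.ch s ρ θ ≠ some i}) hp h1 (fun h => h h2)
    have hb' : Y.ch s ρ θ' = some i := not_not.1 hb
    obtain ⟨k, -, hr⟩ := fd_reach h hW hR hθ
    exact ⟨(θ', t), hθ, hb', N.bdry s ρ θ' θ _ i hs (h.r1 θ' θ t hl.symm).1 hr.mem_right hb' ha⟩

theorem shal_of (hs : N.NI s) (h : c.Rep s V A R) (hW : c.Win s V A) (hR0 : 0 ≤ R) (hR : R ≤ 8)
    (hw : 10 ^ 4 * A * c.r ≤ s.w)
    (hx : ∀ i, Y.ch s ρ c.x.1 = some i →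
      Y.DI s (cI s i) (c.x.1, c.vx V) ≤ thr s ρ i - 100 * A * c.r) : Shal Y c s ρ V A R := by
  have _ := hR0
  intro p hp i hi
  have h0 : 0 < A * c.r := mul_pos h.pos c.r_pos
  have hpx := (fd_near (Y := Y) h hW hR hp (cI s i)).1
  by_cases h1 : Y.ch s ρ c.x.1 = some i
  · have := hx i h1
    linarith
  · obtain ⟨q, hq, -, hq2⟩ := fd_low N hs h hW hR (i := i) hp (fun e => h1 (e.2 hi))
    have h2 := (fd_near (Y := Y) h hW hR hq (cI s i)).2
    have h3 := (thr_bounds (ρ := ρ) (N.pos s hs).1 i).1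
    linarith

theorem Shal.not_deep (h : Shal Y c s ρ V A R) (hA : 0 ≤ A) {p : ℕ × ℝ} (hp : p ∈ c.ball R) :
    ¬ Y.deep s ρ (p.1, V p.1 p.2) := by
  rintro ⟨-, i, hi, hn⟩
  have h0 : 0 ≤ A * c.r := mul_nonneg hA c.r_pos.le
  have h1 := h p hp i hi
  exact hn (Or.inr (fd_mem_shal.2 (by linarith)))

theorem desc_of (hs : N.NI s) (h : c.Rep s V A R) (hW : c.Win s V A) (hR0 : 0 ≤ R) (hR : R ≤ 8)
    (hw : 10 ^ 4 * A * c.r ≤ s.w) {i : Option (ℕ × ℕ)} (hi : Y.ch s ρ c.x.1 = some i)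
    (hx : thr s ρ i + 100 * A * c.r ≤ Y.DI s (cI s i) (c.x.1, c.vx V)) :
    (∀ p ∈ c.ball R, Y.ch s ρ p.1 = some i) ∧ c.Rep (Y.cSt s ρ i) V A R := by
  have _ := hR0
  have h0 : 0 < A * c.r := mul_pos h.pos c.r_pos
  have h3 := (thr_bounds (ρ := ρ) (N.pos s hs).1 i).1
  have hall : ∀ p ∈ c.ball R, Y.ch s ρ p.1 = some i := by
    intro p hp
    by_contra hn
    obtain ⟨q, hq, -, hq2⟩ := fd_low N hs h hW hR (i := i) hp (fun e => hn (e.1 hi))
    have h2 := (fd_near (Y := Y) h hW hR hq (cI s i)).2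
    linarith
  refine ⟨hall, h.pos, h.mono, h.cont, h.r1, h.r2, h.lip, ?_, ?_⟩
  · rintro p hp ⟨q, hq, k, hk, hr⟩
    have hr' : Reach S s.D s.W q (p.1, V p.1 p.2) k := hr
    have h2 := (fd_near (Y := Y) h hW hR hp (cI s i)).2
    rcases hq with (hq | hq) | hq
    · exact h.pf p hp ⟨q, hq, k, hk, hr'⟩
    · obtain ⟨θ, θ', t, c₁, c₂, ha, hb, hl, ht, hr1, hr2, he⟩ :=
        hr'.symm.exit (A := {θ | Y.ch s ρ θ = some i}) (hall p hp) hq
      have h4 := N.bdry s ρ θ θ' t i hs hl ht ha hb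
      have h5 := fd_DI_reach (Y := Y) (I := cI s i) hr1.of_res.symm
      have h6 := hr2.nonneg
      linarith
    · have h4 := fd_mem_shal.1 hq
      have h5 := fd_DI_reach (Y := Y) (I := cI s i) hr'
      linarith
  · intro I hI p hp
    have hI' : i = some I := hI
    subst hI'
    exact ((N.ch_tm s ρ _ I hs hi).2.2 p.1).1 (hall p hp)

theorem fd_kick {θ : ℕ} (hi : Y.ch s ρ θ = some none) : ∃ I, s.kick = some I := by
  unfold Sys.ch at hi
  split_ifs at hi with h1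
  unfold Sys.ch0 at hi
  split_ifs at hi with h2 h3
  · cases hk : s.kick with
    | none => simp [Sys.Zs, hk] at h2
    | some I => exact ⟨I, rfl⟩
  · simp at hi

/-- young points are far from all sources -/
theorem young_far (hs : N.NI s) {p : ℕ × ℝ} (hp : (s.lab p.1 p.2).2 < s.w) (hpW : p.2 ∈ s.W) {θ : ℕ}
    {i : Option (ℕ × ℕ)} (hi : Y.ch s ρ θ = some i) : 12 * s.w ≤ Y.DI s (cI s i) p := by
  have hw := (N.pos s hs).1
  refine le_dc (fun hn => ?_) (by linarith) hpW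
  refine absurd (N.mature s ρ (cI s i) p hs ?_ hn) (not_le.2 hp)
  cases i with
  | none =>
    obtain ⟨I, hI⟩ := fd_kick hi
    exact Or.inr (by simp [cI, hI])
  | some I => exact Or.inl (N.ch_tm s ρ θ I hs hi).1

theorem non_none (hs : N.NI s) (h : c.Rep s V A 7) (hW : c.Win s V A) (hn : c.NonG s V A)
    (hw : 10 ^ 4 * A * c.r ≤ s.w) (hx : Y.ch s ρ c.x.1 = none) :
    ∀ p ∈ c.ball 7, Y.ch s ρ p.1 = none := by
  intro p hp
  cases hi : Y.ch s ρ p.1 with
  | none => rfl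
  | some i =>
    exfalso
    have hw0 := (N.pos s hs).1
    obtain ⟨q, hq, hq1, hq2⟩ := fd_low N hs h hW (by norm_num) (i := i) hp
      (fun e => by simpa [hx] using e.2 hi)
    obtain ⟨k, -, hr⟩ := fd_reach h hW (by norm_num) hq
    have h1 := hn.young q hq
    have h2 : A * (2 ^ 16 * c.rs) ≤ A * c.r := mul_le_mul_of_nonneg_left c.le_r h.pos.le
    have h3 : 0 < A * c.rs := mul_pos h.pos c.rs_pos
    have h4 := young_far N hs (p := (q.1, V q.1 q.2)) (by dsimp only; linarith) hr.mem_right hq1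
    have h5 : low s i ≤ 8 * s.w := by
      unfold low
      split_ifs <;> linarith
    linarith

theorem fd_sub (hs : N.NI s) :
    Y.PE s ρ ⊆ ↑(Finset.range (S.N + 1) ×ˢ Finset.range (S.N + 1)) := by
  intro I hI
  have := N.bnd s ρ I hs hI
  simp only [Finset.coe_product, Finset.coe_range, mem_prod, mem_Iio]
  omega

/-- the measure drops -/
theorem mes_child (hs : N.NI s) {θ : ℕ} {i : Option (ℕ × ℕ)} (hi : Y.ch s ρ θ = some i) :
    Sys.mes (Y.cSt s ρ i) <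
      if s.pend = none then 2 * (S.N + 1) ^ 2 + 2 else Sys.mes s := by
  have hsub := fd_sub (ρ := ρ) N hs
  have hfin : (Y.PE s ρ).Finite := (Finset.finite_toSet _).subset hsub
  obtain ⟨C, hC⟩ : ∃ C : Set (ℕ × ℕ), C = {I | I ∈ (Y.cSt s ρ i).pend.getD ∅ ∧
      some I ≠ (Y.cSt s ρ i).kick} := ⟨_, rfl⟩
  have hC1 : ∀ I ∈ C, I ∈ Y.PE s ρ ∧ some I ≠ s.kick ∧ some I ≠ i := by
    intro I hI
    rw [hC] at hI
    exact ⟨hI.1.1, hI.1.2.1, hI.2⟩
  have hm : Sys.mes (Y.cSt s ρ i) = 2 * C.ncard + if i.isSome then 1 else 0 := by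
    rw [hC]; rfl
  rw [hm]
  cases hP : s.pend with
  | none =>
    have h1 : C.ncard ≤ (S.N + 1) ^ 2 := by
      have := Set.ncard_le_ncard (fun I hI => hsub (hC1 I hI).1) (Finset.finite_toSet _)
      rwa [Set.ncard_coe_finset, Finset.card_product, Finset.card_range, ← sq] at this
    rw [if_pos (rfl : (none : Option (Set (ℕ × ℕ))) = none)]
    split_ifs <;> omega
  | some P =>
    have hPE : Y.PE s ρ = P := by simp [Sys.PE, hP]
    rw [if_neg (Option.some_ne_none P)]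
    obtain ⟨B, hB⟩ : ∃ B : Set (ℕ × ℕ), B = {I | I ∈ Y.PE s ρ ∧ some I ≠ s.kick} := ⟨_, rfl⟩
    have hBf : B.Finite := hfin.subset (by rw [hB]; exact fun I hI => hI.1)
    have hm' : Sys.mes s = 2 * B.ncard + if s.kick.isSome then 1 else 0 := by
      rw [hB, hPE]; simp only [Sys.mes, hP, Option.getD_some]
    have hCB : C ⊆ B := fun I hI => by rw [hB]; exact ⟨(hC1 I hI).1, (hC1 I hI).2.1⟩
    rw [hm']
    cases i with
    | none =>
      obtain ⟨I, hI⟩ := fd_kick hi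
      have := Set.ncard_le_ncard hCB hBf
      simp only [hI, Option.isSome_none, Option.isSome_some, Bool.false_eq_true, if_false, if_true]
      omega
    | some I =>
      have hI := N.ch_tm s ρ θ I hs hi
      have h1 : C.ncard < B.ncard := by
        refine Set.ncard_lt_ncard ⟨hCB, fun h => ?_⟩ hBf
        exact (hC1 I (h (by rw [hB]; exact ⟨hI.1, hI.2.1⟩))).2.2 rfl
      simp only [Option.isSome_some, if_true]
      omega

end Vale.Agent.P235.Pl
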