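import Vale.Agent.P235P.FBall
import Vale.Agent.P235P.FCount
import Vale.Agent.P235P.FArith
import Vale.Agent.P235P.ELem

/-! P235 planar case: the renewal step of the frame. -/

open Set Classical
open scoped BigOperators

noncomputable section

namespace Vale.Agent.P235.Pl

variable {S : Sk} {π : Par} {Y : Sys S π} {N : NodeC Y} {c : Ctx S} {ι : Type} {pt : ι → ℕ × ℝ}
  {F : (ι → ℝ) → ℝ}

/-- The two kinds of states. -/
def Cl (P : PairC Y N c pt F) (nd : Bool) (s : St) (V : ℕ → ℝ → ℝ) (A : ℝ) : Prop :=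
  (nd = true → c.Rep s V A 7 ∧ c.NonG s V A ∧ P.ND s V A) ∧
    (nd = false → c.Rep s V A 8 ∧ c.AffD s V A)

def kap (nd : Bool) : ℝ := if nd then 1 else 1 / 2 ^ 20

def mes' (S : Sk) (s : St) : ℕ := if s.pend = none then 2 * (S.N + 1) ^ 2 + 2 else Sys.mes s

def EndN (Y : Sys S π) (c : Ctx S) (s : St) (V : ℕ → ℝ → ℝ) : Prop :=
  ∀ ρ i, Y.ch s ρ c.x.1 = some i → Y.DI s (cI s i) (c.x.1, c.vx V) ≤ low s i

/-- The target value. -/
def tv (π : Par) (c : Ctx S) (nd : Bool) (y : ℕ) (A : ℝ) : ℝ :=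
  Pm π.m0 y * (kap nd * A * (c.rs / 1024))

def Claim (P : PairC Y N c pt F) (n : ℕ) : Prop :=
  ∀ s V A y nd, N.NI s → Cl P nd s V A → c.Win s V A → c.Big s A π y →
    mes' S s + 1 + (2 * (S.N + 1) ^ 2 + 3) * y ≤ n →
    (1 - 2 * eta y) * tv π c nd y A ≤ Y.val n s F (fun i => (pt i).1) (fun i => V (pt i).1 (pt i).2) ∧
    (EndN Y c s V →
      (1 - eta y) * tv π c nd y A ≤ Y.val n s F (fun i => (pt i).1) (fun i => V (pt i).1 (pt i).2))

theorem exp_good' {α : Type} [Fintype α] [Nonempty α] {g : α → ℝ} {good : α → Prop}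
    [DecidablePred good] {B p : ℝ} (hB : 0 ≤ B) (h0 : ∀ a, 0 ≤ g a) (hg : ∀ a, good a → B ≤ g a)
    (hp : p ≤ 𝔼 a, if good a then (1 : ℝ) else 0) : p * B ≤ 𝔼 a, g a :=
  exp_good hB h0 hg (by convert hp)

theorem exp_bad' {α : Type} [Fintype α] [Nonempty α] {g : α → ℝ} {good : α → Prop}
    [DecidablePred good] {B ε : ℝ} (hB : 0 ≤ B) (h0 : ∀ a, 0 ≤ g a) (hg : ∀ a, good a → B ≤ g a)
    (hε : (𝔼 a, if good a then (0 : ℝ) else 1) ≤ ε) : (1 - ε) * B ≤ 𝔼 a, g a :=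
  exp_bad (bad := fun a => ¬ good a) hB h0 (fun a h => hg a (not_not.1 h))
    (le_of_eq_of_le (Finset.expect_congr rfl fun a _ => by by_cases h : good a <;> simp [h]) hε)

theorem ar1 {e t : ℝ} (ht : 0 ≤ t) : (1 - 3 * e) * t ≤ (1 - e) * ((1 - 2 * e) * t) := by
  nlinarith [mul_nonneg (mul_self_nonneg e) ht]

theorem ar2 {k a b y e : ℝ} (hk : k ≤ 10 ^ 9) (h0 : 0 ≤ a) (hy : 0 ≤ y) (hb : b ≤ k * a)
    (h : 10 ^ 10 * (y + 1) * a ≤ e) : b ≤ e := by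
  nlinarith [mul_nonneg hy h0]

theorem kap_pos (nd : Bool) : 0 < kap nd := by unfold kap; split_ifs <;> positivity

theorem kap_le (nd : Bool) : kap nd ≤ 1 := by unfold kap; split_ifs <;> norm_num

variable {P : PairC Y N c pt F} {nd : Bool} {s : St} {V : ℕ → ℝ → ℝ} {A : ℝ}

theorem Cl.rep (h : Cl P nd s V A) : c.Rep s V A 7 := by
  cases nd
  · exact (h.2 rfl).1.anti (by norm_num)
  · exact (h.1 rfl).1

theorem Cl.cut (h : Cl P nd s V A) {u : ℝ} (hu : 0 < u) (o : ℝ) (hv : c.vx V ∈ Ico s.lo s.hi) :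
    Cl P nd (s.cut u o (c.vx V)) V A :=
  ⟨fun e => ⟨(h.1 e).1.cut _ _ _, ⟨(h.1 e).2.1.slope, (h.1 e).2.1.dev, (h.1 e).2.1.young⟩,
    P.cut _ _ _ _ _ hu hv (h.1 e).2.2⟩, fun e => ⟨(h.2 e).1.cut _ _ _, (h.2 e).2⟩⟩

theorem Pay.nonneg (hp : Pay c pt F) (a : ι → ℝ) : 0 ≤ F a :=
  let ⟨_, _, _, _, h⟩ := hp.ix
  (abs_nonneg _).trans (h a)

theorem tv_nonneg (hA : 0 < A) (y : ℕ) : 0 ≤ tv π c nd y A := by
  have := Pm_pos π.m0 y
  have := kap_pos nd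
  have := c.rs_pos
  unfold tv
  positivity

theorem win_ico (hA : 0 < A) (hW : c.Win s V A) : c.vx V ∈ Ico s.lo s.hi := by
  have hr := c.r_pos
  have h1 : 0 < 100 * A * c.r := by positivity
  have a := hW (left_mem_Icc.2 (by linarith))
  have b := hW (right_mem_Icc.2 (by linarith))
  exact ⟨by linarith [a.1], by linarith [b.2]⟩

theorem floor_eq_of {u o v v' : ℝ} (hu : 0 < u) (h1 : o + u * ⌊(v - o) / u⌋ ≤ v')
    (h2 : v' < o + u * (⌊(v - o) / u⌋ + 1)) : ⌊(v' - o) / u⌋ = ⌊(v - o) / u⌋ := by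
  rw [Int.floor_eq_iff, le_div_iff₀ hu, div_lt_iff₀ hu]
  constructor <;> linarith

/-- The ratio of the ball and the window. -/
theorem ratio_le {w : ℝ} {y : ℕ} (hA : 0 < A) (hw : w = 2 ^ y * A * (c.rs / 1024)) :
    A * c.r / w ≤ 2 ^ 34 / 2 ^ y := by
  have h1 := c.rs_pos
  have h2 := c.r_le
  rw [hw, div_le_div_iff₀ (by positivity) (by positivity)]
  have : A * c.r ≤ A * (2 ^ 24 * c.rs) := mul_le_mul_of_nonneg_left h2 hA.le
  have h3 : (0 : ℝ) < 2 ^ y := by positivity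
  nlinarith

theorem inv_nq {w : ℝ} (hw : 0 < w) (hq : 256 * w ≤ π.Nq * A * c.r) (hA : 0 < A) :
    1 / ((π.Nq : ℝ) + 1) ≤ A * c.r / w := by
  have hr := c.r_pos
  rw [div_le_div_iff₀ (by positivity) hw]
  nlinarith [mul_pos hA hr]

theorem ratio_eta {w : ℝ} {y : ℕ} (hA : 0 < A) (hw : w = 2 ^ y * A * (c.rs / 1024))
    (hy : 199 ≤ y) : 10 ^ 10 * ((y : ℝ) + 1) * (A * c.r / w) ≤ eta y :=
  le_trans (mul_le_mul_of_nonneg_left (ratio_le hA hw) (by positivity)) (eta_big hy)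

theorem w_big {w : ℝ} {y : ℕ} (hA : 0 < A) (hw : w = 2 ^ y * A * (c.rs / 1024))
    (hy : 199 ≤ y) : 10 ^ 10 * A * c.r ≤ w := by
  have h0 : 0 < w := by have := c.rs_pos; rw [hw]; positivity
  have h1 := (ratio_eta hA hw hy).trans (eta_le (by omega))
  have h2 : 0 ≤ A * c.r / w := by have := c.r_pos; positivity
  have h3 : (0 : ℝ) ≤ y := Nat.cast_nonneg y
  have h4 : 10 ^ 10 * (A * c.r / w) ≤ 1 := by nlinarith
  rw [← mul_div_assoc, div_le_one h0] at h4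
  linarith

variable {n : ℕ} {ρ : Rnd S π}

theorem nval_nonneg (hp : Pay c pt F) (θ : ι → ℕ) (a : ι → ℝ) : 0 ≤ Y.nval n s ρ F θ a :=
  Finset.expect_nonneg fun _ _ => hp.nonneg _

/-- The final step. -/
theorem fin_val (hp : Pay c pt F) (hs : N.NI s) (hcl : Cl P nd (Y.mid s ρ) V A)
    (hW : c.Win (Y.mid s ρ) V A) (hw : w' s ρ = A * (c.rs / 1024))
    (hn : 2 * (S.N + 1) ^ 2 + 3 ≤ n) (hc : |c.vx V - V c.y.1 c.y.2| ≤ w' s ρ / 100)
    (h1 : off s ρ + w' s ρ * ⌊(c.vx V - off s ρ) / w' s ρ⌋ + w' s ρ / 3 ≤ c.vx V)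
    (h2 : c.vx V ≤ off s ρ + w' s ρ * (⌊(c.vx V - off s ρ) / w' s ρ⌋ + 1) - w' s ρ / 3) :
    w' s ρ / 1600 ≤ Y.nval n s ρ F (fun i => (pt i).1) (fun i => V (pt i).1 (pt i).2) := by
  have hA := hcl.rep.pos
  have hu : 0 < w' s ρ := w'_pos ρ (N.pos s hs).1
  have hv := win_ico hA hW
  have hr := c.r_pos
  have hsm : w' s ρ ≤ 100 * A * c.r := by
    have := c.le_r
    have := c.rs_pos
    rw [hw]
    nlinarith
  have a := hW (left_mem_Icc.2 (by linarith))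
  have b := hW (right_mem_Icc.2 (by linarith))
  have hlo : (Y.nxt s ρ (c.vx V)).lo = off s ρ + w' s ρ * ⌊(c.vx V - off s ρ) / w' s ρ⌋ :=
    max_eq_right (by have := a.1; linarith)
  have hhi : (Y.nxt s ρ (c.vx V)).hi = off s ρ + w' s ρ * (⌊(c.vx V - off s ρ) / w' s ρ⌋ + 1) :=
    min_eq_right (by have := b.2; linarith)
  have hF : c.Fin (Y.nxt s ρ (c.vx V)) V A :=
    ⟨hw, by rw [hlo, hhi]; show _ = w' s ρ; ring, by rw [hlo]; exact h1, by rw [hhi]; exact h2, hc,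
      rfl, rfl⟩
  have hN : N.NI (Y.nxt s ρ (c.vx V)) := N.next s ρ _ hs hv
  have hcc := hcl.cut hu (off s ρ) hv
  have e : Y.nxt s ρ (V c.y.1 c.y.2) = Y.nxt s ρ (c.vx V) := by
    have := abs_le.1 hc
    simp only [Sys.nxt, St.cut, floor_eq_of (v := c.vx V) (v' := V c.y.1 c.y.2) (o := off s ρ) hu
      (by linarith) (by linarith)]
  obtain ⟨i, j, hi, hj, hF'⟩ := hp.ix
  have key : w' s ρ / 1600 ≤ 𝔼 ω : Om S π n, |Y.proc n (Y.nxt s ρ (c.vx V)) ω c.x.1 (c.vx V) -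
      Y.proc n (Y.nxt s ρ (c.vx V)) ω c.y.1 (V c.y.1 c.y.2)| := by
    cases nd
    · exact P.finA _ V A n hN (hcc.2 rfl).1 (hcc.2 rfl).2 hF hn
    · exact P.finN _ V A n hN (hcc.1 rfl).1 (hcc.1 rfl).2.1 (hcc.1 rfl).2.2 hF hn
  refine key.trans (exp_mono fun ω => le_of_eq_of_le ?_ (hF' _))
  simp only [hi, hj, e]
  rfl

/-- A step that is not final. -/
theorem cont_val (hC : Claim P n) (hp : Pay c pt F) (hs : N.NI s) (hcl : Cl P nd (Y.mid s ρ) V A)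
    (hW : c.Win (Y.mid s ρ) V A) {y : ℕ} (hb : c.Big (Y.nxt s ρ (c.vx V)) A π y)
    (hn : (2 * (S.N + 1) ^ 2 + 3) * (y + 1) ≤ n)
    (h1 : off s ρ + w' s ρ * ⌊(c.vx V - off s ρ) / w' s ρ⌋ < c.vx V - 100 * A * c.r)
    (h2 : c.vx V + 100 * A * c.r < off s ρ + w' s ρ * (⌊(c.vx V - off s ρ) / w' s ρ⌋ + 1)) :
    (1 - 2 * eta y) * tv π c nd y A ≤
      Y.nval n s ρ F (fun i => (pt i).1) (fun i => V (pt i).1 (pt i).2) := by
  have hA := hcl.rep.pos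
  have hu : 0 < w' s ρ := w'_pos ρ (N.pos s hs).1
  have hv := win_ico hA hW
  have hr := c.r_pos
  rw [Y.nval_cell ρ F _ (v₀ := c.vx V) fun i => ?_]
  · refine (hC _ V A y nd (N.next s ρ _ hs hv) (hcl.cut hu _ hv) (fun t ht => ?_) hb ?_).1
    · exact ⟨max_le (hW ht).1 (by linarith [ht.1]), le_min (hW ht).2 (by linarith [ht.2])⟩
    · have : mes' S (Y.nxt s ρ (c.vx V)) = 2 * (S.N + 1) ^ 2 + 2 := if_pos rfl
      refine le_trans (le_of_eq ?_) hn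
      refine (congrArg (· + 1 + (2 * (S.N + 1) ^ 2 + 3) * y) this).trans ?_
      ring
  · have := abs_le.1 (hcl.rep.close (c.ball_mono (by norm_num) (hp.mem i)))
    have h3 := mul_pos hA hr
    exact floor_eq_of hu (by linarith) (by linarith)

theorem mid_cont (hC : Claim P n) (hp : Pay c pt F) (hs : N.NI s) (co : Coins S)
    (dd : Qn π × Qn π) (u : Qn π × Qn π × HS π) (σ : Bool) (eo0 : Fin (2 * π.m0 + 2) × Qn π)
    (hcl : Cl P nd (Y.mid s (co, dd, u, σ, eo0)) V A) (hW : c.Win (Y.mid s (co, dd, u, σ, eo0)) V A)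
    {y : ℕ} (e : Fin (2 * π.m0 + 2)) (hm : 200 ≤ π.m0)
    (hw1 : s.w / 2 ^ (π.m0 - 1 + (e : ℕ)) = 2 ^ y * A * (c.rs / 1024)) (hy : π.m0 ≤ y)
    (hyn : y ≤ π.nS) (hq : 256 * s.w ≤ π.Nq * A * c.r)
    (hph : ∃ i : ℤ, c.rs = 2 ^ π.b * ((2 ^ π.m0 : ℕ) : ℝ) ^ i)
    (hn : (2 * (S.N + 1) ^ 2 + 3) * (y + 1) ≤ n) :
    (1 - 3 * eta y) * tv π c nd y A ≤ 𝔼 o, Y.nval n s (co, dd, u, σ, (e, o)) F (fun i => (pt i).1)
      (fun i => V (pt i).1 (pt i).2) := by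
  have hA := hcl.rep.pos
  have hw0 := (N.pos s hs).1
  have hr := c.r_pos
  have hu : 0 < s.w / 2 ^ (π.m0 - 1 + (e : ℕ)) := by positivity
  have hle : s.w / 2 ^ (π.m0 - 1 + (e : ℕ)) ≤ s.w := div_le_self hw0.le (one_le_pow₀ one_le_two)
  have he := eta_le (y := y) (by omega)
  have ht := tv_nonneg (π := π) (c := c) (nd := nd) hA y
  have hg := prob_grid π (v := c.vx V) (δ := 100 * A * c.r) hu (by positivity)
  have hre := ratio_eta hA hw1 (by omega)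
  have hq' : 256 * (s.w / 2 ^ (π.m0 - 1 + (e : ℕ))) ≤ π.Nq * A * c.r := by linarith only [hle, hq]
  have hi := inv_nq (π := π) (c := c) hu hq' hA
  have h0 : 0 ≤ A * c.r / (s.w / 2 ^ (π.m0 - 1 + (e : ℕ))) := by positivity
  refine le_trans (ar1 ht) (exp_bad' (B := (1 - 2 * eta y) * tv π c nd y A) (ε := eta y)
    (mul_nonneg (by linarith only [he]) ht) (fun o => nval_nonneg hp _ _) (fun o ho => ?_)
    (hg.trans ?_))
  · exact cont_val (ρ := (co, dd, u, σ, (e, o))) hC hp hs hcl hW ⟨hm, hw1, hy, hyn, hq', hph⟩ hn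
      ho.1 ho.2
  · have : 6 * (100 * A * c.r) / (s.w / 2 ^ (π.m0 - 1 + (e : ℕ))) =
      600 * (A * c.r / (s.w / 2 ^ (π.m0 - 1 + (e : ℕ)))) := by ring
    have h3 : (3 : ℝ) / (π.Nq + 1) = 3 * (1 / (π.Nq + 1)) := by ring
    rw [this, h3]
    exact ar2 (k := 603) (by norm_num) h0 (Nat.cast_nonneg _) (by linarith only [hi]) hre

theorem mid_fin (hp : Pay c pt F) (hs : N.NI s) (co : Coins S)
    (dd : Qn π × Qn π) (u : Qn π × Qn π × HS π) (σ : Bool) (eo0 : Fin (2 * π.m0 + 2) × Qn π)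
    (hcl : Cl P nd (Y.mid s (co, dd, u, σ, eo0)) V A) (hW : c.Win (Y.mid s (co, dd, u, σ, eo0)) V A)
    (e : Fin (2 * π.m0 + 2)) (hNq : 256 ≤ π.Nq)
    (hw1 : s.w / 2 ^ (π.m0 - 1 + (e : ℕ)) = A * (c.rs / 1024))
    (hc : |c.vx V - V c.y.1 c.y.2| ≤ A * (c.rs / 1024) / 100)
    (hn : 2 * (S.N + 1) ^ 2 + 3 ≤ n) :
    1 / 4 * (A * (c.rs / 1024) / 1600) ≤ 𝔼 o, Y.nval n s (co, dd, u, σ, (e, o)) F
      (fun i => (pt i).1) (fun i => V (pt i).1 (pt i).2) := by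
  have hw0 := (N.pos s hs).1
  have hu : 0 < s.w / 2 ^ (π.m0 - 1 + (e : ℕ)) := by positivity
  rw [← hw1] at hc ⊢
  refine exp_good' (by positivity) (fun o => nval_nonneg hp _ _) (fun o ho => ?_)
    (prob_mid π hNq (v := c.vx V) hu)
  exact fin_val (ρ := (co, dd, u, σ, (e, o))) hp hs hcl hW hw1 hn hc ho.1 ho.2

theorem mid_claim (hC : Claim P n) (hp : Pay c pt F) (hs : N.NI s) (co : Coins S)
    (dd : Qn π × Qn π) (u : Qn π × Qn π × HS π) (σ : Bool) (eo0 : Fin (2 * π.m0 + 2) × Qn π)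
    (hcl : Cl P nd (Y.mid s (co, dd, u, σ, eo0)) V A) (hW : c.Win (Y.mid s (co, dd, u, σ, eo0)) V A)
    {y : ℕ} (hm : 200 ≤ π.m0) (hw : s.w = 2 ^ y * A * (c.rs / 1024)) (hy : π.m0 - 1 ≤ y)
    (hyn : y ≤ π.nS) (hq : 256 * s.w ≤ π.Nq * A * c.r)
    (hph : ∃ i : ℤ, c.rs = 2 ^ π.b * ((2 ^ π.m0 : ℕ) : ℝ) ^ i)
    (hn : (2 * (S.N + 1) ^ 2 + 3) * y ≤ n) :
    tv π c nd y A ≤ 𝔼 eo, Y.nval n s (co, dd, u, σ, eo) F (fun i => (pt i).1)
      (fun i => V (pt i).1 (pt i).2) := by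
  have hA := hcl.rep.pos
  have hw0 := (N.pos s hs).1
  have hrs := c.rs_pos
  have hr := c.r_pos
  have hk := kap_pos nd
  have hk1 := kap_le nd
  have hU : 0 < A * (c.rs / 1024) := by positivity
  have hU1 : kap nd * A * (c.rs / 1024) ≤ A * (c.rs / 1024) := by
    rw [mul_assoc]
    exact mul_le_of_le_one_left hU.le hk1
  have hU0 : 0 < kap nd * A * (c.rs / 1024) := by positivity
  by_cases hc : |c.vx V - V c.y.1 c.y.2| ≤ A * (c.rs / 1024) / 100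
  swap
  · refine Finset.le_expect Finset.univ_nonempty fun eo _ => ?_
    refine le_trans ?_ (Y.nval_ge _ hp.conv hw0 _ _)
    obtain ⟨i, j, hi, hj, hF⟩ := hp.ix
    refine le_trans ?_ (hF _)
    simp only [hi, hj]
    have h1 := mul_le_mul_of_nonneg_right (Pm_le π.m0 (y := y) (by omega)) hU0.le
    refine le_trans ?_ (not_le.1 hc).le
    unfold tv
    linarith only [h1, hU1, hU]
  have hNq : 256 ≤ π.Nq := by
    have h1 := w_big hA hw (by omega)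
    have h2 := mul_pos hA hr
    have : (256 : ℝ) ≤ π.Nq := le_of_mul_le_mul_right (by linarith only [h1, h2, hq]) h2
    exact_mod_cast this
  rw [exp_prod]
  refine le_trans (mul_le_mul_of_nonneg_right (renew hm hy) hU0.le) ?_
  rw [Finset.expect_mul]
  refine exp_mono fun e => ?_
  unfold ren
  split_ifs with h1 h2
  · refine le_trans ?_ (mid_fin hp hs co dd u σ eo0 hcl hW e hNq ?_ hc
      (le_trans (Nat.le_mul_of_pos_right _ (by omega)) hn))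
    · linarith only [hU1]
    · rw [h1, hw]
      field_simp
  · obtain ⟨y', hy'⟩ : ∃ y', y = π.m0 - 1 + e + y' := ⟨y - (π.m0 - 1 + e), by omega⟩
    have e1 : y - (π.m0 - 1 + e) = y' := by omega
    rw [e1, mul_assoc]
    refine mid_cont hC hp hs co dd u σ eo0 hcl hW e hm ?_ (by omega) (by omega) hq hph
      (le_trans (Nat.mul_le_mul_left _ (by omega)) hn)
    rw [hw, hy', pow_add]
    field_simp
  · rw [zero_mul]
    exact Finset.expect_nonneg fun _ _ => nval_nonneg hp _ _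

end Vale.Agent.P235.Pl
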