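import Vale.Agent.P235P.FMid2
import Vale.Agent.P235P.FDesc
import Vale.Agent.P235P.FM1

/-! P235 planar case: the nodes at which the descent stops. -/

open Set Classical
open scoped BigOperators

noncomputable section

namespace Vale.Agent.P235.Pl

variable {S : Sk} {π : Par} {Y : Sys S π} {N : NodeC Y} {c : Ctx S} {ι : Type} {pt : ι → ℕ × ℝ}
  {F : (ι → ℝ) → ℝ} {P : PairC Y N c pt F} {nd : Bool} {s : St} {V : ℕ → ℝ → ℝ} {A : ℝ} {n y : ℕ}

/-- The value of a node given all its randomness but the cut. -/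
def gv (Y : Sys S π) (n : ℕ) (s : St) (pt : ι → ℕ × ℝ) (F : (ι → ℝ) → ℝ) (V : ℕ → ℝ → ℝ)
    (co : Coins S) (dd : Qn π × Qn π) (u : Qn π × Qn π × HS π) (σ : Bool) : ℝ :=
  𝔼 eo, Y.cval n s (co, dd, u, σ, eo) F (fun i => (pt i).1) (fun i => V (pt i).1 (pt i).2)

variable {co : Coins S} {dd : Qn π × Qn π} {u : Qn π × Qn π × HS π} {σ : Bool}
  {eo : Fin (2 * π.m0 + 2) × Qn π}

theorem gv_nonneg (hp : Pay c pt F) : 0 ≤ gv Y n s pt F V co dd u σ :=
  Finset.expect_nonneg fun _ _ => Finset.expect_nonneg fun _ _ => nval_nonneg hp _ _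

theorem gv_eq (hp : Pay c pt F) (hw : 0 < s.w) (hA : 0 < A) {R : ℝ} (hR : 1 ≤ R)
    (hsh : Shal Y c s (co, dd, u, σ, eo) V A R) :
    gv Y n s pt F V co dd u σ = 𝔼 eo', Y.nval n s (co, dd, u, σ, eo') F (fun i => (pt i).1)
      (fun i => Y.Vn s (co, dd, u, σ, eo) V (pt i).1 (pt i).2) :=
  Finset.expect_congr rfl fun eo' _ => Y.cval_shal (co, dd, u, σ, eo') hw F fun i =>
    Shal.not_deep (ρ := (co, dd, u, σ, eo')) hsh hA.le (c.ball_mono hR (hp.mem i))

theorem Ctx.Big.w_big (hb : c.Big s A π y) (hA : 0 < A) : 10 ^ 10 * A * c.r ≤ s.w :=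
  Pl.w_big hA hb.w_eq (by have := hb.m0; have := hb.le_y; omega)

theorem mid_two (hC : Claim P n) (hp : Pay c pt F) (hs : N.NI s) (hb : c.Big s A π y) (hA : 0 < A)
    (hn : (2 * (S.N + 1) ^ 2 + 3) * y ≤ n) {R : ℝ} (hR : 1 ≤ R)
    (hsh : Shal Y c s (co, dd, u, σ, eo) V A R) {A' : ℝ} (hA' : A' = A ∨ A' = 2 * A)
    (hcl : Cl P nd (Y.mid s (co, dd, u, σ, eo)) (Y.Vn s (co, dd, u, σ, eo) V) A')
    (hW : c.Win (Y.mid s (co, dd, u, σ, eo)) (Y.Vn s (co, dd, u, σ, eo) V) A') :
    tv π c nd y A' ≤ gv Y n s pt F V co dd u σ := by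
  rw [gv_eq hp (N.pos s hs).1 hA hR hsh]
  have hm := hb.m0
  have hy := hb.le_y
  rcases hA' with rfl | rfl
  · exact mid_claim hC hp hs co dd u σ eo hcl hW hm hb.w_eq (by omega) hb.y_le hb.nq hb.phase hn
  · obtain ⟨y, rfl⟩ : ∃ y', y = y' + 1 := ⟨y - 1, by omega⟩
    have hr := c.r_pos
    refine le_trans ?_ (mid_claim (y := y) hC hp hs co dd u σ eo hcl hW hm ?_ (by omega)
      (by have := hb.y_le; omega) (hb.nq.trans ?_) hb.phase
      (le_trans (Nat.mul_le_mul_left _ (by omega)) hn))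
    · have := kap_pos nd
      have := c.rs_pos
      exact mul_le_mul_of_nonneg_right (Pm_anti _ (by omega) (by omega)) (by positivity)
    · rw [hb.w_eq]
      ring
    · have : (0 : ℝ) ≤ π.Nq * A * c.r := by positivity
      linarith

theorem Ctx.Big.fsmall (hb : c.Big s A π y) (hA : 0 < A) {k b : ℝ} (hk : k ≤ 10 ^ 9)
    (h : b ≤ k * (A * c.r / s.w)) : b ≤ eta y := by
  have hr := c.r_pos
  have h1 := hb.w_big hA
  have h2 := mul_pos hA hr
  have hw : 0 < s.w := by linarith
  exact ar2 hk (by positivity) (Nat.cast_nonneg y) h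
    (ratio_eta hA hb.w_eq (by have := hb.m0; have := hb.le_y; omega))

theorem prob_iv (hb : c.Big s A π y) (hA : 0 < A) {a b : ℝ} (hab : s.w / 40 ≤ b - a) (t : ℝ) :
    (𝔼 k : Qn π, if uq k a b ∈ Icc t (t + 200 * A * c.r) then (1 : ℝ) else 0) ≤
      8001 * (A * c.r / s.w) := by
  have hr := c.r_pos
  have h1 := hb.w_big hA
  have h2 := mul_pos hA hr
  have hw : 0 < s.w := by linarith
  refine (prob_uq π (by linarith) (by positivity)).trans ?_
  have h3 := inv_nq hw hb.nq hA
  have h4 : 200 * A * c.r / (b - a) ≤ 200 * A * c.r / (s.w / 40) :=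
    div_le_div_of_nonneg_left (by positivity) (by positivity) hab
  have h5 : 200 * A * c.r / (s.w / 40) = 8000 * (A * c.r / s.w) := by
    field_simp
    ring
  linarith only [h3, h4, h5]

theorem prob_kink (hb : c.Big s A π y) (hA : 0 < A) :
    (𝔼 u : Qn π × Qn π × HS π, if Kink c s (co, dd, u, σ, eo) V A then (0 : ℝ) else 1) ≤ eta y := by
  rw [exp_prod]
  let f : ℝ → Qn π → ℝ := fun t k =>
    if uq k (s.w / 40) (s.w / 20) ∈ Icc t (t + 200 * A * c.r) then (1 : ℝ) else 0
  have f0 : ∀ t k, 0 ≤ f t k := fun t k => by simp only [f]; split_ifs <;> norm_num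
  have f1 : ∀ t k, |t + 100 * A * c.r - uq k (s.w / 40) (s.w / 20)| < 100 * A * c.r → f t k = 1 :=
    fun t k h => if_pos ⟨by linarith [(abs_lt.1 h).2], by linarith [(abs_lt.1 h).1]⟩
  have hf : ∀ t, 𝔼 k, f t k ≤ 8001 * (A * c.r / s.w) := fun t => prob_iv hb hA (by linarith) t
  refine hb.fsmall hA (k := 32004) (by norm_num) (le_trans (exp_mono (g := fun k =>
    f (c.vx V - s.lo - 100 * A * c.r) k + f (c.vx V - s.lo - s.w / 20 - 100 * A * c.r) k +
    f (s.hi - s.w / 20 - c.vx V - 100 * A * c.r) k + f (s.hi - c.vx V - 100 * A * c.r) k)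
    fun k => Finset.expect_le Finset.univ_nonempty fun x _ => ?_) ?_)
  · have a1 := f0 (c.vx V - s.lo - 100 * A * c.r) k
    have a2 := f0 (c.vx V - s.lo - s.w / 20 - 100 * A * c.r) k
    have a3 := f0 (s.hi - s.w / 20 - c.vx V - 100 * A * c.r) k
    have a4 := f0 (s.hi - c.vx V - 100 * A * c.r) k
    have hz : zz s (co, dd, (k, x), σ, eo) = uq k (s.w / 40) (s.w / 20) := rfl
    split_ifs with h
    · linarith
    · unfold Kink at h
      rw [hz] at h
      simp only [not_and_or, not_le] at h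
      rcases h with h | h | h | h
      · linarith [f1 (c.vx V - s.lo - 100 * A * c.r) k
          (abs_lt.2 ⟨by linarith [(abs_lt.1 h).1], by linarith [(abs_lt.1 h).2]⟩)]
      · linarith [f1 (c.vx V - s.lo - s.w / 20 - 100 * A * c.r) k
          (abs_lt.2 ⟨by linarith [(abs_lt.1 h).1], by linarith [(abs_lt.1 h).2]⟩)]
      · linarith [f1 (s.hi - s.w / 20 - c.vx V - 100 * A * c.r) k
          (abs_lt.2 ⟨by linarith [(abs_lt.1 h).2], by linarith [(abs_lt.1 h).1]⟩)]
      · linarith [f1 (s.hi - c.vx V - 100 * A * c.r) k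
          (abs_lt.2 ⟨by linarith [(abs_lt.1 h).2], by linarith [(abs_lt.1 h).1]⟩)]
  · simp only [Finset.expect_add_distrib]
    linarith [hf (c.vx V - s.lo - 100 * A * c.r), hf (c.vx V - s.lo - s.w / 20 - 100 * A * c.r),
      hf (s.hi - s.w / 20 - c.vx V - 100 * A * c.r), hf (s.hi - c.vx V - 100 * A * c.r)]

theorem tv_mul (β : ℝ) : tv π c nd y (β * A) = β * tv π c nd y A := by
  unfold tv
  ring

theorem beta_nonneg (ρ : Rnd S π) : 0 ≤ beta c s ρ V := by
  unfold beta sg trapS
  split_ifs <;> norm_num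

theorem stop_non (hC : Claim P n) (hp : Pay c pt F) (hs : N.NI s) (hcl : Cl P true s V A)
    (hW : c.Win s V A) (hb : c.Big s A π y) (hn : (2 * (S.N + 1) ^ 2 + 3) * y ≤ n)
    (hx : ∀ u σ eo, Y.ch s (co, dd, u, σ, eo) c.x.1 = none) :
    (1 - eta y) * tv π c true y A ≤ 𝔼 u, 𝔼 σ, gv Y n s pt F V co dd u σ := by
  obtain ⟨hR, hN, hD⟩ := hcl.1 rfl
  have hA := hR.pos
  have hr := c.r_pos
  have h1 := hb.w_big hA
  have h2 := mul_pos hA hr
  obtain ⟨eo⟩ : Nonempty (Fin (2 * π.m0 + 2) × Qn π) := inferInstance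
  refine exp_bad' (tv_nonneg hA y) (fun u => Finset.expect_nonneg fun σ _ => gv_nonneg hp)
    (fun u hK => ?_) (prob_kink (V := V) (co := co) (dd := dd) (σ := true) (eo := eo) hb hA)
  have key : ∀ σ, beta c s (co, dd, u, σ, eo) V * tv π c true y A ≤ gv Y n s pt F V co dd u σ := by
    intro σ
    rcases (beta_nonneg (c := c) (s := s) (V := V) (co, dd, u, σ, eo)).eq_or_lt with h0 | h0
    · rw [← h0, zero_mul]
      exact gv_nonneg hp
    have hnone := non_none N hs hR hW hN (by linarith) (hx u σ eo)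
    have hsh : Shal Y c s (co, dd, u, σ, eo) V A 7 := fun p hp i hi => by
      rw [hnone p hp] at hi
      cases hi
    have ho : AffOp Y c s (co, dd, u, σ, eo) V A 7 (beta c s (co, dd, u, σ, eo) V) := by
      cases hk : s.kick with
      | none =>
        have : beta c s (co, dd, u, σ, eo) V = 1 := by simp [beta, hk]
        rw [this]
        exact (affOp_passive hk hA.le hsh).1
      | some I =>
        exact (affOp_top N hs hR (by norm_num) hsh hk hK h0
          (P.top s _ V A y I hs hk hR hW hN hb hnone)).1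
    have h3 := ho.rep N hs hR hW (by norm_num) (by norm_num) (by linarith) hsh
    rw [← tv_mul]
    refine mid_two hC hp hs hb hA hn (by norm_num) hsh ?_
      ⟨fun _ => ⟨h3.1, ho.non hR hN, P.step s _ V A y hs hR hW hN hD hb hnone hK h0⟩,
        fun e => by cases e⟩ h3.2
    rcases ho.val with e | e <;> rw [e] <;> simp
  have h4 := exp_bool (fun σ => gv Y n s pt F V co dd u σ) true
  have h5 : beta c s (co, dd, u, true, eo) V + beta c s (co, dd, u, false, eo) V = 2 := by
    have : trapS s (co, dd, u, false, eo) (c.vx V) = trapS s (co, dd, u, true, eo) (c.vx V) := rfl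
    unfold beta sg
    rw [this]
    split_ifs <;> simp_all <;> ring
  have h6 := add_le_add (key true) (key false)
  rw [← add_mul, h5] at h6
  simp only [Bool.not_true] at h4
  linarith

theorem stop_aff (hC : Claim P n) (hp : Pay c pt F) (hs : N.NI s) (hcl : Cl P false s V A)
    (hW : c.Win s V A) (hb : c.Big s A π y) (hn : (2 * (S.N + 1) ^ 2 + 3) * y ≤ n)
    (hsh : ∀ u σ eo, Shal Y c s (co, dd, u, σ, eo) V A 8) :
    (1 - eta y) * tv π c false y A ≤ 𝔼 u, 𝔼 σ, gv Y n s pt F V co dd u σ := by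
  obtain ⟨hR, hD⟩ := hcl.2 rfl
  have hA := hR.pos
  have hr := c.r_pos
  have hrs := c.rs_pos
  have h1 := hb.w_big hA
  have h2 := mul_pos hA hr
  have ht := tv_nonneg (π := π) (c := c) (nd := false) hA y
  have hy : 1 ≤ y := by have := hb.m0; have := hb.le_y; omega
  obtain ⟨eo⟩ : Nonempty (Fin (2 * π.m0 + 2) × Qn π) := inferInstance
  cases hk : s.kick with
  | none =>
    refine Finset.le_expect Finset.univ_nonempty fun u _ =>
      Finset.le_expect Finset.univ_nonempty fun σ _ => ?_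
    obtain ⟨ho, hl⟩ := affOp_passive hk hA.le (hsh u σ eo)
    have h3 := ho.rep N hs hR hW (by norm_num) le_rfl (by linarith) (hsh u σ eo)
    have h4 := ho.affD hR hD fun p hp => by
      obtain ⟨b, hb⟩ := hD
      rw [hl p hp, one_mul]
      exact (hb p hp).2
    have h5 := mid_two hC hp hs hb hA hn (by norm_num) (hsh u σ eo) (Or.inl (one_mul A))
      (nd := false) ⟨fun e => (by cases e), fun _ => ⟨h3.1, h4⟩⟩ h3.2
    rw [one_mul] at h5
    exact le_trans (mul_le_of_le_one_left ht (by linarith [eta_pos hy])) h5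
  | some I =>
    have e1 : ∀ A', tv π c false y 1 * A' = tv π c false y A' := fun A' => by unfold tv; ring
    have h3 := P.birth s V A y I co dd eo (tv π c false y 1) (gv Y n s pt F V co dd) hs hk hR hW hD
      hb (fun u σ => hsh u σ eo) (tv_nonneg one_pos y) ?_ (fun u σ => gv_nonneg hp) (fun u σ => ?_)
      (fun u σ A' hA' h1 h2 h3 => ?_) (fun u σ h1 h2 h3 h4 => ?_)
    · rw [e1] at h3
      refine le_trans (mul_le_mul_of_nonneg_right ?_ ht) h3
      have := ratio_eta hA hb.w_eq (by have := hb.m0; have := hb.le_y; omega)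
      have h4 : 0 ≤ ((y : ℝ) + 1) * (A * c.r / s.w) := by
        have : 0 < s.w := by linarith
        positivity
      linarith
    · have h4 := Pm_le π.m0 hy
      have h5 := Pm_pos π.m0 y
      have h6 := kap_le false
      have h7 := kap_pos false
      unfold tv
      have : Pm π.m0 y * kap false ≤ 1 := by nlinarith
      nlinarith
    · rw [gv_eq hp (N.pos s hs).1 hA (by norm_num) (hsh u σ eo)]
      exact Finset.le_expect Finset.univ_nonempty fun eo' _ =>
        Y.nval_ge _ hp.conv (N.pos s hs).1 _ _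
    · rw [e1]
      exact mid_two hC hp hs hb hA hn (by norm_num) (hsh u σ eo) hA'
        ⟨fun e => (by cases e), fun _ => ⟨h1, h3⟩⟩ h2
    · refine le_of_eq_of_le ?_ (mid_two hC hp hs hb hA hn (by norm_num) (hsh u σ eo) (Or.inl rfl)
        (nd := true) ⟨fun _ => ⟨h1, h3, h4⟩, fun e => by cases e⟩ h2)
      simp only [tv, kap]
      norm_num
      ring

end Vale.Agent.P235.Pl
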