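import Vale.Agent.P235P.Contracts
import Vale.Agent.P235P.EA
import Vale.Agent.P235P.BEnv

/-! P235 planar case: the operation, first part. -/

open Set Classical

noncomputable section

namespace Vale.Agent.P235.Pl

variable {S : Sk} {π : Par}

variable {Y : Sys S π} (N : NodeC Y) {c : Ctx S} {s : St} {V : ℕ → ℝ → ℝ} {A R : ℝ} {ρ : Rnd S π}

theorem fmid1_r (c : Ctx S) : 0 < c.r := lt_of_lt_of_le (by have := c.rs_pos; positivity) c.le_r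

theorem fmid1_cont (θ : ℕ) : Continuous (Y.Psi s ρ θ) :=
  continuous_id.add (continuous_const.mul (LipschitzWith.of_dist_le_mul (K := 1) fun t t' => by
    simpa only [NNReal.coe_one, one_mul, Real.dist_eq] using Y.psi_lip ρ θ t t').continuous)

theorem fmid1_inv {θ θ' : ℕ} {t : ℝ} (h : Link S (Y.mid s ρ).D θ θ' t) :
    ∃ u, Link S (Y.Dp s ρ) θ θ' u ∧ Y.Psi s ρ θ u = t := by
  rcases h with ⟨e, u, h, k⟩ | ⟨e, u, h, k⟩ | ⟨e, e', u, h, k⟩ | ⟨e, e', u, h, k⟩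
  · exact ⟨u, .inl ⟨e, h⟩, k⟩
  · exact ⟨u, .inr (.inl ⟨e, h⟩), (Y.Psi_link ρ (.inr (.inl ⟨e, h⟩))).trans k⟩
  · exact ⟨u, .inr (.inr (.inl ⟨e, e', h⟩)), k⟩
  · exact ⟨u, .inr (.inr (.inr ⟨e, e', h⟩)),
      (Y.Psi_link ρ (.inr (.inr (.inr ⟨e, e', h⟩)))).trans k⟩

theorem fmid1_fat {a b θ : ℕ} {B : Set ℝ} {u ε : ℝ} (h : u ∈ B ∪ Y.fat s ρ a b B) (hε : 0 < ε)
    (hθ : θ = a ∨ θ = b) (H : ∀ v ∈ s.W, |v - u| ≤ ε → ¬ Y.deep s ρ (θ, v)) : u ∈ B := by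
  rcases h with h | ⟨hu, t, ht, htW, i, h1, h2, -, h3⟩
  · exact h
  have k : ∀ v, min t u < v → v < max t u → ¬ |v - u| ≤ ε := fun v a1 a2 a3 =>
    H v ⟨(le_min htW.1 hu.1).trans a1.le, a2.le.trans (max_le htW.2 hu.2)⟩ a3
      ⟨⟨(le_min htW.1 hu.1).trans a1.le, a2.le.trans (max_le htW.2 hu.2)⟩, i, by
        rcases hθ with rfl | rfl
        exacts [⟨h1, (h3 v a1 a2).1⟩, ⟨h2, (h3 v a1 a2).2⟩]⟩
  rcases lt_trichotomy t u with l | rfl | l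
  · obtain ⟨v, a1, a2⟩ := exists_between (max_lt l (sub_lt_self u hε))
    rw [max_lt_iff] at a1
    exact absurd (abs_le.2 ⟨by linarith [a1.2], by linarith⟩)
      (k v (min_lt_of_left_lt a1.1) (lt_max_of_lt_right a2))
  · exact ht
  · obtain ⟨v, a1, a2⟩ := exists_between (lt_min l (lt_add_of_pos_right u hε))
    rw [lt_min_iff] at a2
    exact absurd (abs_le.2 ⟨by linarith, by linarith [a2.2]⟩)
      (k v (min_lt_of_right_lt a1) (lt_max_of_lt_left a2.1))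

theorem fmid1_thin {θ θ' : ℕ} {u ε : ℝ} (h : Link S (Y.Dp s ρ) θ θ' u) (hε : 0 < ε)
    (H : ∀ v ∈ s.W, |v - u| ≤ ε → ¬ Y.deep s ρ (θ, v)) : Link S s.D θ θ' u := by
  rcases h with ⟨e, h⟩ | ⟨e, h⟩ | ⟨e, e', h⟩ | ⟨e, e', h⟩
  · exact .inl ⟨e, fmid1_fat h hε (.inl rfl) H⟩
  · exact .inr (.inl ⟨e, fmid1_fat h hε (.inr e) H⟩)
  · exact .inr (.inr (.inl ⟨e, e', fmid1_fat h hε (.inl rfl) H⟩))
  · exact .inr (.inr (.inr ⟨e, e', fmid1_fat h hε (.inr e') H⟩))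

theorem fmid1_q (hs : N.NI s) {k : ℝ} (hk : k ≤ s.w / 200) {θ : ℕ} {t : ℝ}
    (h : Near S s.D s.W s.Pin k (θ, t)) : (∀ u, |u - t| ≤ s.w / 200 → Y.Psi s ρ θ u = u) ∧
      ∀ v ∈ s.W, |v - t| ≤ s.w / 200 → ¬ Y.deep s ρ (θ, v) := by
  have a := fun v (hv : v ∈ s.W) (h' : |v - t| ≤ s.w / 200) => N.quiet s ρ (θ, v) hs
    ((h.vert hv).mono_R (by rw [abs_sub_comm]; linarith))
  refine ⟨fun u hu => ?_, fun v hv h' => (a v hv h').2⟩
  by_cases hW : u ∈ s.W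
  · exact Y.Psi_of_zero ρ (a u hW hu).1
  · exact Y.Psi_out ρ (N.pos s hs).1 θ ((not_and_or.1 hW).imp (fun h => (not_le.1 h).le)
      fun h => (not_le.1 h).le)

theorem fmid1_in {θ : ℕ} {u : ℝ} (h : Y.Psi s ρ θ u ≠ u) :
    (s.lo + zz s ρ ≤ u ∧ u ≤ s.hi - zz s ρ) ∧
      s.lo + zz s ρ ≤ Y.Psi s ρ θ u ∧ Y.Psi s ρ θ u ≤ s.hi - zz s ρ := by
  obtain ⟨h0, h1⟩ := Y.psi_mem (s := s) ρ θ u
  have h2 := h0.lt_of_ne' fun e => h (Y.Psi_of_zero ρ e)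
  have h3 := (le_max_iff.1 h1).resolve_left h2.not_ge
  simp only [le_min_iff] at h3
  have h4 : |sg ρ * Y.psi s ρ θ u| ≤ Y.psi s ρ θ u := by
    rw [abs_mul, abs_sg, one_mul, abs_of_nonneg h0]
  rw [abs_le] at h4
  rw [Sys.Psi]
  refine ⟨⟨?_, ?_⟩, ?_, ?_⟩ <;> linarith [h3.2.1, h3.2.2, h4.1, h4.2]

theorem mid_lab {θ : ℕ} {v : ℝ} (h : ∀ u, Y.Psi s ρ θ u = Y.Psi s ρ θ v → u = v) :
    (Y.mid s ρ).lab θ (Y.Psi s ρ θ v) = Y.lab1 s ρ θ v :=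
  congrArg (Y.lab1 s ρ θ) (h _ (Function.invFun_eq ⟨v, rfl⟩))

theorem pull_pin (hs : N.NI s) {k : ℝ} (hk : k ≤ s.w / 200) {p : ℕ × ℝ}
    (h : Near S (Y.mid s ρ).D s.W s.Pin k p) :
    Near S s.D s.W s.Pin k p ∧ ∀ u, |u - p.2| ≤ s.w / 200 → Y.Psi s ρ p.1 u = u := by
  obtain ⟨q, hq, d, hd, h⟩ := h
  have hw : 0 < s.w / 200 := by have := (N.pos s hs).1; positivity
  have key : d ≤ s.w / 200 → Reach S s.D s.W q p d := by
    clear hd
    induction h with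
    | refl h => exact fun _ => .refl h
    | vert _ h ih => exact fun l => .vert (ih (le_trans (le_add_of_nonneg_right (abs_nonneg _)) l)) h
    | @link θ θ' t d _ h ih =>
      intro l
      obtain ⟨h1, h2⟩ := fmid1_q (ρ := ρ) N hs l ⟨q, hq, d, le_rfl, ih l⟩
      obtain ⟨u, h3, h4⟩ := fmid1_inv h
      obtain rfl : u = t := by
        rcases lt_trichotomy u t with l | l | l
        · obtain ⟨v, a1, a2⟩ := exists_between (max_lt l (sub_lt_self t hw))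
          rw [max_lt_iff] at a1
          have := Y.Psi_mono' (s := s) ρ θ a1.1.le
          rw [h4, h1 v (abs_le.2 ⟨by linarith [a1.2], by linarith⟩)] at this
          exact absurd a2 this.not_gt
        · exact l
        · obtain ⟨v, a1, a2⟩ := exists_between (lt_min l (lt_add_of_pos_right t hw))
          rw [lt_min_iff] at a2
          have := Y.Psi_mono' (s := s) ρ θ a2.1.le
          rw [h4, h1 v (abs_le.2 ⟨by linarith, by linarith [a2.2]⟩)] at this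
          exact absurd a1 this.not_gt
      exact .link (ih l) (fmid1_thin h3 hw h2)
  have n : Near S s.D s.W s.Pin k p := ⟨q, hq, d, hd, key (hd.trans hk)⟩
  exact ⟨n, (fmid1_q N hs hk n).1⟩

theorem rep_mid (hs : N.NI s) (h : c.Rep s V A R) (hW : c.Win s V A) (hR : R ≤ 8)
    (hw : 10 ^ 5 * A * c.r ≤ s.w) (hsh : Shal Y c s ρ V A R) {A' : ℝ} (hA' : 0 < A')
    (hinj : ∀ p ∈ c.ball R, ∀ u, Y.Psi s ρ p.1 u = Y.Psi s ρ p.1 (V p.1 p.2) → u = V p.1 p.2)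
    (hlip : ∀ θ t t', (θ, t) ∈ c.ball R → (θ, t') ∈ c.ball R →
      |Y.Vn s ρ V θ t - Y.Vn s ρ V θ t'| ≤ 2 * A' * |t - t'|)
    (hA : A' ≤ A ∨ (A' ≤ 2 * A ∧
      ∀ p ∈ c.ball R, ∃ u, |u - V p.1 p.2| ≤ A * c.r ∧ Y.Psi s ρ p.1 u ≠ u)) :
    c.Rep (Y.mid s ρ) (Y.Vn s ρ V) A' R := by
  have r0 := fmid1_r c
  have a0 := mul_pos h.pos r0
  refine ⟨hA', fun θ => (Y.Psi_mono' ρ θ).comp (h.mono θ), fun θ => (fmid1_cont θ).comp (h.cont θ),
    fun θ θ' t l => ?_, fun θ θ' t hb l => ?_, hlip, fun p hp n => ?_, fun I e => nomatch e⟩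
  · have k := h.r1 θ θ' t l
    exact ⟨Y.link_mid ρ (Y.link_Dp ρ k.1),
      (Y.Psi_link ρ (Y.link_Dp ρ k.1)).trans (congrArg (Y.Psi s ρ θ') k.2)⟩
  · obtain ⟨u, h1, h2⟩ := fmid1_inv l
    obtain rfl := hinj _ hb u h2
    obtain ⟨t', h3, h4⟩ := h.r2 θ θ' t hb (fmid1_thin (ε := 50 * A * c.r) h1 (by linarith)
      fun v _ hv ⟨_, i, d1, d2⟩ => d2 (.inr (by
        have b1 := hsh _ hb i d1
        have b2 := le_of_abs_le (dc_lip (S := S) (D := s.D) (W := s.W) (A := Y.src s (cI s i))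
          (cap := 20 * s.w) (θ := θ) v (V θ t))
        have b3 : Y.DI s (cI s i) (θ, v) ≤ thr s ρ i := by
          simp only [Sys.DI] at b1 ⊢
          linarith
        cases i <;> exact b3)))
    exact ⟨t', h3, congrArg (Y.Psi s ρ θ) h4⟩
  · have a1 : A' * c.r ≤ 2 * A * c.r :=
      mul_le_mul_of_nonneg_right (hA.elim (fun l => by linarith [h.pos]) And.left) r0.le
    obtain ⟨h1, h2⟩ := pull_pin (ρ := ρ) N hs (k := 50 * A' * c.r) (by linarith) n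
    have e : Y.Vn s ρ V p.1 p.2 = V p.1 p.2 := hinj p hp _ (h2 _ (by
      rw [sub_self, abs_zero]
      linarith))
    rw [e] at h1 h2
    rcases hA with l | ⟨-, l⟩
    · exact h.pf p hp (h1.mono_R (by linarith [mul_le_mul_of_nonneg_right l r0.le]))
    · obtain ⟨u, h3, h4⟩ := l p hp
      exact h4 (h2 u (h3.trans (by linarith)))

theorem win_mid (hA0 : 0 < A) (hW : c.Win s V A) (hw : 10 ^ 5 * A * c.r ≤ s.w) {A' : ℝ}
    (hA : A' ≤ A ∨ (A' ≤ 2 * A ∧ ∃ u, |u - c.vx V| ≤ A * c.r ∧ Y.Psi s ρ c.x.1 u ≠ u)) :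
    c.Win (Y.mid s ρ) (Y.Vn s ρ V) A' := by
  have r0 := fmid1_r c
  have a0 := mul_pos hA0 r0
  have a1 : A' * c.r ≤ 2 * A * c.r :=
    mul_le_mul_of_nonneg_right (hA.elim (fun l => by linarith) And.left) r0.le
  have z := (zz_mem ρ (s := s) (by linarith)).1
  show Icc (Y.Psi s ρ c.x.1 (c.vx V) - _) (Y.Psi s ρ c.x.1 (c.vx V) + _) ⊆ Icc s.lo s.hi
  by_cases e : Y.Psi s ρ c.x.1 (c.vx V) = c.vx V
  · rw [e]
    rcases hA with l | ⟨-, u, h1, h2⟩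
    · have := mul_le_mul_of_nonneg_right l r0.le
      exact (Icc_subset_Icc (by linarith) (by linarith)).trans hW
    · have := (fmid1_in h2).1
      rw [abs_le] at h1
      exact Icc_subset_Icc (by linarith [this.1, h1.2]) (by linarith [this.2, h1.1])
  · have := (fmid1_in e).2
    exact Icc_subset_Icc (by linarith [this.1]) (by linarith [this.2])

end Vale.Agent.P235.Pl
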