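import Vale.Agent.P235P.FMid1
import Vale.Agent.P235P.FDesc

/-! P235 planar case: operations that are affine near the ball. -/

open Set Classical

noncomputable section

namespace Vale.Agent.P235.Pl

variable {S : Sk} {π : Par}

variable {Y : Sys S π} (N : NodeC Y) {c : Ctx S} {s : St} {V : ℕ → ℝ → ℝ} {A R : ℝ} {ρ : Rnd S π}

/-- The operation is one affine map of slope `β` near the ball and multiplies labels by `β`. -/
structure AffOp (Y : Sys S π) (c : Ctx S) (s : St) (ρ : Rnd S π) (V : ℕ → ℝ → ℝ) (A R β : ℝ) :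
    Prop where
  val : β = 1 ∨ β = 2
  aff : ∃ b, ∀ p ∈ c.ball R, ∀ u, |u - V p.1 p.2| ≤ A * c.r → Y.Psi s ρ p.1 u = β * u + b
  lab2 : ∀ p ∈ c.ball R, (Y.lab1 s ρ p.1 (V p.1 p.2)).2 ≤ β * (s.lab p.1 (V p.1 p.2)).2

theorem AffOp.pos {β : ℝ} (ho : AffOp Y c s ρ V A R β) : 0 < β := by
  rcases ho.val with h | h <;> rw [h] <;> norm_num

theorem AffOp.vn {β : ℝ} (ho : AffOp Y c s ρ V A R β) (hA : 0 < A) :
    ∃ b, ∀ p ∈ c.ball R, Y.Vn s ρ V p.1 p.2 = β * V p.1 p.2 + b := by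
  obtain ⟨b, hb⟩ := ho.aff
  refine ⟨b, fun p hp => hb p hp _ ?_⟩
  rw [sub_self, abs_zero]
  exact (mul_pos hA c.r_pos).le

theorem AffOp.inj {β : ℝ} (ho : AffOp Y c s ρ V A R β) (hA : 0 < A) {p : ℕ × ℝ}
    (hp : p ∈ c.ball R) (u : ℝ) (e : Y.Psi s ρ p.1 u = Y.Psi s ρ p.1 (V p.1 p.2)) :
    u = V p.1 p.2 := by
  obtain ⟨b, hb⟩ := ho.aff
  have h0 := mul_pos hA c.r_pos
  have hβ := ho.pos
  have hm := Y.Psi_mono' (s := s) ρ p.1
  rw [hb p hp (V p.1 p.2) (by rw [sub_self, abs_zero]; exact h0.le)] at e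
  by_cases h1 : |u - V p.1 p.2| ≤ A * c.r
  · rw [hb p hp u h1] at e
    exact mul_left_cancel₀ hβ.ne' (add_right_cancel e)
  rcases lt_abs.1 (not_le.1 h1) with h2 | h2
  · have h3 := hm (show V p.1 p.2 + A * c.r ≤ u by linarith)
    rw [e, hb p hp _ (by rw [add_sub_cancel_left, abs_of_pos h0])] at h3
    nlinarith [mul_pos hβ h0]
  · have h3 := hm (show u ≤ V p.1 p.2 - A * c.r by linarith)
    rw [e, hb p hp _ (by rw [sub_sub_cancel_left, abs_neg, abs_of_pos h0])] at h3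
    nlinarith [mul_pos hβ h0]

theorem AffOp.mov (ho : AffOp Y c s ρ V A R 2) (hA : 0 < A) {p : ℕ × ℝ} (hp : p ∈ c.ball R) :
    ∃ u, |u - V p.1 p.2| ≤ A * c.r ∧ Y.Psi s ρ p.1 u ≠ u := by
  obtain ⟨b, hb⟩ := ho.aff
  have h0 := mul_pos hA c.r_pos
  have h1 : |V p.1 p.2 - V p.1 p.2| ≤ A * c.r := by rw [sub_self, abs_zero]; exact h0.le
  have h2 : |V p.1 p.2 + A * c.r - V p.1 p.2| ≤ A * c.r := by
    rw [add_sub_cancel_left, abs_of_pos h0]
  by_contra hc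
  push Not at hc
  have h3 := hc _ h1
  have h4 := hc _ h2
  rw [hb p hp _ h1] at h3
  rw [hb p hp _ h2] at h4
  linarith

theorem AffOp.rep (hs : N.NI s) (h : c.Rep s V A R) (hW : c.Win s V A) (hR0 : 0 ≤ R) (hR : R ≤ 8)
    (hw : 10 ^ 5 * A * c.r ≤ s.w) (hsh : Shal Y c s ρ V A R) {β : ℝ} (ho : AffOp Y c s ρ V A R β) :
    c.Rep (Y.mid s ρ) (Y.Vn s ρ V) (β * A) R ∧ c.Win (Y.mid s ρ) (Y.Vn s ρ V) (β * A) := by
  obtain ⟨b, hb⟩ := ho.vn h.pos
  refine ⟨rep_mid N hs h hW hR hw hsh (mul_pos ho.pos h.pos) (fun p hp => ho.inj h.pos hp)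
    (fun θ t t' ht ht' => ?_) ?_, win_mid h.pos hW hw ?_⟩
  · rw [hb _ ht, hb _ ht', add_sub_add_right_eq_sub, ← mul_sub, abs_mul, abs_of_pos ho.pos]
    have := mul_le_mul_of_nonneg_left (h.lip θ t t' ht ht') ho.pos.le
    linarith
  · rcases ho.val with rfl | rfl
    · exact Or.inl (one_mul A).le
    · exact Or.inr ⟨le_rfl, fun p hp => ho.mov h.pos hp⟩
  · rcases ho.val with rfl | rfl
    · exact Or.inl (one_mul A).le
    · exact Or.inr ⟨le_rfl, ho.mov h.pos (c.x_mem hR0)⟩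

theorem AffOp.non (h : c.Rep s V A 7) (hn : c.NonG s V A) {β : ℝ} (ho : AffOp Y c s ρ V A 7 β) :
    c.NonG (Y.mid s ρ) (Y.Vn s ρ V) (β * A) := by
  obtain ⟨b, hb⟩ := ho.vn h.pos
  refine ⟨fun θ t t' ht ht' htt => ?_, fun p k hk hk' => ?_, fun p hp => ?_⟩
  · rw [hb _ ht, hb _ ht']
    have := mul_le_mul_of_nonneg_left (hn.slope θ t t' ht ht' htt) ho.pos.le
    linarith
  · have h1 : p ∈ c.ball 7 := ⟨c.x, rfl, k, hk', hk⟩
    have h2 := mul_le_mul_of_nonneg_left (hn.dev p k hk hk') ho.pos.le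
    rw [← abs_of_pos ho.pos, ← abs_mul, abs_of_pos ho.pos] at h2
    rw [Ctx.vx, hb p h1, hb _ (c.x_mem (by norm_num)), mul_assoc β A (k / 16 + _)]
    refine le_trans (le_of_eq ?_) h2
    rw [Ctx.vx]
    congr 1
    ring
  · have h1 := mul_le_mul_of_nonneg_left (hn.young p hp) ho.pos.le
    have h2 := ho.lab2 p hp
    rw [Sys.Vn, mid_lab (ho.inj h.pos hp)]
    linarith

theorem AffOp.affD (h : c.Rep s V A 8) (hn : c.AffD s V A) {β : ℝ} (ho : AffOp Y c s ρ V A 8 β)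
    (hl : ∀ p ∈ c.ball 8, (Y.lab1 s ρ p.1 (V p.1 p.2)).1 = β * A ∧
      β * A * c.rs ≤ (Y.lab1 s ρ p.1 (V p.1 p.2)).2) :
    c.AffD (Y.mid s ρ) (Y.Vn s ρ V) (β * A) := by
  obtain ⟨b, hb⟩ := ho.vn h.pos
  obtain ⟨b', hb'⟩ := hn
  refine ⟨β * b' + b, fun p hp => ⟨?_, ?_⟩⟩
  · rw [hb p hp, (hb' p hp).1]
    ring
  · rw [Sys.Vn, mid_lab (ho.inj h.pos hp)]
    exact hl p hp

/-- passive nodes -/
theorem affOp_passive (hk : s.kick = none) (hA : 0 ≤ A) (hsh : Shal Y c s ρ V A R) :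
    AffOp Y c s ρ V A R 1 ∧
      ∀ p ∈ c.ball R, Y.lab1 s ρ p.1 (V p.1 p.2) = s.lab p.1 (V p.1 p.2) := by
  have h1 : ∀ p ∈ c.ball R, Y.lab1 s ρ p.1 (V p.1 p.2) = s.lab p.1 (V p.1 p.2) := fun p hp => by
    simp only [Sys.lab1, if_neg (hsh.not_deep hA hp), hk]
  refine ⟨⟨Or.inl rfl, ⟨0, fun p _ u _ => ?_⟩, fun p hp => by rw [h1 p hp, one_mul]⟩, h1⟩
  simp [Sys.Psi, Sys.psi, Sys.psi0, hk]

theorem fmid2_trap (hw : 0 < s.w) (hh : s.w / 2 ≤ s.hi - s.lo) {v u d : ℝ} (h : |u - v| < d)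
    (h1 : d ≤ |v - (s.lo + zz s ρ)|) (h2 : d ≤ |v - (s.lo + zz s ρ + s.w / 20)|)
    (h3 : d ≤ |v - (s.hi - zz s ρ - s.w / 20)|) (h4 : d ≤ |v - (s.hi - zz s ρ)|) :
    trapS s ρ u = trapS s ρ v ∧ trap s ρ u = trap s ρ v + trapS s ρ v * (u - v) := by
  obtain ⟨z1, z2⟩ := zz_mem (ρ := ρ) hw
  rw [abs_lt] at h
  obtain ⟨a1, a2⟩ := h
  have k : ∀ x, d ≤ |v - x| → (u < x ↔ v < x) := fun x hx => by
    rcases le_abs.1 hx with e | e <;> constructor <;> intro _ <;> linarith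
  have k1 := k _ h1
  have k2 := k _ h2
  have k3 := k _ h3
  have k4 := k _ h4
  refine ⟨by simp only [trapS, k1, k2, k3, k4], ?_⟩
  unfold trapS trap
  split_ifs with b1 b2 b3 b4
  · have := k1.2 b1
    rw [max_eq_left (min_le_of_right_le (min_le_of_left_le (by linarith))),
      max_eq_left (min_le_of_right_le (min_le_of_left_le (by linarith)))]
    ring
  · have := k2.2 b2
    have := mt k1.1 b1
    rw [min_eq_left (a := u - _ - _) (by linarith), min_eq_left (a := v - _ - _) (by linarith),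
      min_eq_right (by linarith), min_eq_right (by linarith), max_eq_right (by linarith),
      max_eq_right (by linarith)]
    ring
  · have := k3.2 b3
    have := mt k2.1 b2
    rw [min_eq_left (le_min (by linarith) (by linarith)),
      min_eq_left (le_min (by linarith) (by linarith))]
    ring
  · have := k4.2 b4
    have := mt k3.1 b3
    rw [min_eq_right (a := u - _ - _) (by linarith), min_eq_right (a := v - _ - _) (by linarith),
      min_eq_right (by linarith), min_eq_right (by linarith), max_eq_right (by linarith),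
      max_eq_right (by linarith)]
    ring
  · have := mt k4.1 b4
    rw [max_eq_left (min_le_of_right_le (min_le_of_right_le (by linarith))),
      max_eq_left (min_le_of_right_le (min_le_of_right_le (by linarith)))]
    ring

/-- kick nodes whose healed function is above the trapezoid near the ball -/
theorem affOp_top (hs : N.NI s) (h : c.Rep s V A R) (hR : R ≤ 8) (hsh : Shal Y c s ρ V A R)
    {I : ℕ × ℕ} (hk : s.kick = some I) (hK : Kink c s ρ V A) (hb : 0 < beta c s ρ V)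
    (ht : ∀ p ∈ c.ball R, ∀ u, |u - V p.1 p.2| ≤ A * c.r →
      trap s ρ u ≤ (Y.hl s ρ I).H p.1 u - xi0 s ρ) :
    AffOp Y c s ρ V A R (beta c s ρ V) ∧ ∀ p ∈ c.ball R, Y.lab1 s ρ p.1 (V p.1 p.2) =
      (beta c s ρ V * (s.lab p.1 (V p.1 p.2)).1, beta c s ρ V * (s.lab p.1 (V p.1 p.2)).2) := by
  have h0 := mul_pos h.pos c.r_pos
  have hok := (N.ok s ρ hs).2
  have hβ : beta c s ρ V = 1 + sg ρ * trapS s ρ (c.vx V) := by simp [beta, hk]
  have tr : ∀ p ∈ c.ball R, ∀ u, |u - V p.1 p.2| ≤ A * c.r → trapS s ρ u = trapS s ρ (c.vx V) ∧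
      trap s ρ u = trap s ρ (c.vx V) + trapS s ρ (c.vx V) * (u - c.vx V) := fun p hp u hu => by
    refine fmid2_trap (N.pos s hs).1 (N.half s I hs hk) ?_ hK.1 hK.2.1 hK.2.2.1 hK.2.2.2
    have h1 := h.close hp
    have h2 := abs_sub_le u (V p.1 p.2) (c.vx V)
    have h3 := mul_le_mul_of_nonneg_left hR h0.le
    linarith
  have h1 : ∀ p ∈ c.ball R, Y.lab1 s ρ p.1 (V p.1 p.2) =
      (beta c s ρ V * (s.lab p.1 (V p.1 p.2)).1, beta c s ρ V * (s.lab p.1 (V p.1 p.2)).2) := by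
    intro p hp
    have a0 : |V p.1 p.2 - V p.1 p.2| ≤ A * c.r := by rw [sub_self, abs_zero]; exact h0.le
    have a1 := tr p hp _ a0
    have a2 := ht p hp _ a0
    simp only [Sys.lab1, if_neg (hsh.not_deep h.pos.le hp), hk, if_pos a2, a1.1, ← hβ]
    refine ite_eq_right_iff.2 fun a3 => ?_
    have a4 := (a3.resolve_left (not_not.2 hok)).resolve_left (not_not.2 (h.ink I hk p hp))
    have a5 := (tr p hp (V p.1 p.2 + A * c.r) (by rw [add_sub_cancel_left, abs_of_pos h0])).2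
    have a6 := (tr p hp (V p.1 p.2 - A * c.r)
      (by rw [sub_sub_cancel_left, abs_neg, abs_of_pos h0])).2
    have a7 := trap_nonneg (s := s) (ρ := ρ) (V p.1 p.2 + A * c.r)
    have a8 := trap_nonneg (s := s) (ρ := ρ) (V p.1 p.2 - A * c.r)
    have a9 : trapS s ρ (c.vx V) * (A * c.r) = 0 := by nlinarith [a1.2]
    rw [hβ, (mul_eq_zero.1 a9).resolve_right h0.ne', mul_zero, add_zero, one_mul, one_mul]
  refine ⟨⟨?_, ⟨sg ρ * (trap s ρ (c.vx V) - trapS s ρ (c.vx V) * c.vx V), fun p hp u hu => ?_⟩,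
    fun p hp => by rw [h1 p hp]⟩, h1⟩
  · rw [hβ] at hb ⊢
    unfold trapS sg at hb ⊢
    split_ifs at hb ⊢ <;> first | (norm_num at hb; done) | norm_num
  · simp only [Sys.Psi, Sys.psi, if_pos hok, Sys.psi0, hk, if_pos (h.ink I hk p hp)]
    rw [min_eq_left (ht p hp u hu), max_eq_right (trap_nonneg _ _), (tr p hp u hu).2, hβ]
    ring

end Vale.Agent.P235.Pl
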