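import Vale.Agent.P235P.Main

/-! P235: planar graphs and graphs of bounded treewidth. -/

namespace Vale.Agent.P235.Pl

theorem planar_or_treewidth_embed
    (h : ∀ k : ℕ, ∃ C : ℝ, ∀ (V : Type) [Fintype V] (G : SimpleGraph V),
      G.Connected → TreewidthLE G k → ∀ ℓ : Sym2 V → ℝ, (∀ e ∈ G.edgeSet, 0 < ℓ e) →
        EmbedsL1 (spDist G ℓ) C) (k : ℕ) :
    ∃ C : ℝ, ∀ (V : Type) [Fintype V] (G : SimpleGraph V),
      G.Connected → (Planar G ∨ TreewidthLE G k) → ∀ ℓ : Sym2 V → ℝ, (∀ e ∈ G.edgeSet, 0 < ℓ e) →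
        EmbedsL1 (spDist G ℓ) C := by
  obtain ⟨C₁, h1⟩ := planar_embed
  obtain ⟨C₂, h2⟩ := h k
  refine ⟨max C₁ C₂, fun V _ G hG hp ℓ hl => ?_⟩
  have key : ∀ C, C ≤ max C₁ C₂ → EmbedsL1 (spDist G ℓ) C → EmbedsL1 (spDist G ℓ) (max C₁ C₂) :=
    fun C hC ⟨Ω, m, μ, f, hf⟩ => ⟨Ω, m, μ, f, fun x y => ⟨(hf x y).1, (hf x y).2.trans
      (mul_le_mul_of_nonneg_right hC ((met hG hl).nonneg x y))⟩⟩
  rcases hp with hp | hp
  · exact key _ (le_max_left _ _) (h1 V G hG hp ℓ hl)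
  · exact key _ (le_max_right _ _) (h2 V G hG hp ℓ hl)

end Vale.Agent.P235.Pl
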