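import Vale.Agent.P235P.HNode

/-! P235 planar case: affine outcomes at a kick node. -/

open Set Classical

noncomputable section

namespace Vale.Agent.P235.Pl

variable {S : Sk} {π : Par} {Y : Sys S π} {N : NodeC Y} {c : Ctx S} {s : St} {V : ℕ → ℝ → ℝ}
  {A : ℝ} {y : ℕ} {I : ℕ × ℕ} {co : Coins S} {dd : Qn π × Qn π} {eo : Fin (2 * π.m0 + 2) × Qn π}

/-- A monotone map that is affine with positive slope near `v` has `v` as only preimage. -/
theorem h_inj_of_aff {f : ℝ → ℝ} (hf : Monotone f) {v d β b0 : ℝ} (hd : 0 < d) (hβ : 0 < β)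
    (h : ∀ u, |u - v| ≤ d → f u = β * u + b0) {t : ℝ} (e : f t = f v) : t = v := by
  have hv := h v (by simpa using hd.le)
  rcases lt_trichotomy t v with h1 | h1 | h1
  · have h2 : max t (v - d) < v := max_lt h1 (by linarith)
    have h3 := h (max t (v - d)) (abs_le.2 ⟨by linarith [le_max_right t (v - d)], by linarith⟩)
    have h4 := hf (le_max_left t (v - d))
    nlinarith
  · exact h1
  · have h2 : v < min t (v + d) := lt_min h1 (by linarith)
    have h3 := h (min t (v + d)) (abs_le.2 ⟨by linarith, by linarith [min_le_right t (v + d)]⟩)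
    have h4 := hf (min_le_left t (v + d))
    nlinarith

/-- An operation that is affine on the thick ball keeps the affine state (`h_rep_next`; for
`β = 1` and `psi = 0` at `vx` the window condition is the old one, otherwise `h_win_of_psi`; the
label of the image is `lab1` at `V p` by `h_inj_of_aff` and `Function.invFun_eq`). -/
theorem At.aff_step (h : At Y c s N V A y I co dd eo) (u : Qn π × Qn π × HS π) (σ : Bool)
    {β b0 : ℝ} (hβ : β = 1 ∨ β = 2)
    (hΨ : ∀ p ∈ c.thick V A, Y.Psi s (co, dd, u, σ, eo) p.1 p.2 = β * p.2 + b0)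
    (hlab : ∀ p ∈ c.ball 8, (Y.lab1 s (co, dd, u, σ, eo) p.1 (V p.1 p.2)).1 = β * A ∧
      β * A * c.rs ≤ (Y.lab1 s (co, dd, u, σ, eo) p.1 (V p.1 p.2)).2) :
    c.Rep (Y.mid s (co, dd, u, σ, eo)) (Y.Vn s (co, dd, u, σ, eo) V) (β * A) 8 ∧
    c.Win (Y.mid s (co, dd, u, σ, eo)) (Y.Vn s (co, dd, u, σ, eo) V) (β * A) ∧
    c.AffD (Y.mid s (co, dd, u, σ, eo)) (Y.Vn s (co, dd, u, σ, eo) V) (β * A) := by
  generalize hρ : ((co, dd, u, σ, eo) : Rnd S π) = ρ at hΨ hlab ⊢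
  have hsh : Shal Y c s ρ V A 8 := hρ ▸ h.shal u σ
  have hA := h.rep.pos
  have hd : 0 < A * c.r := mul_pos hA c.h_r_pos
  have hw := (N.pos s h.ni).1
  have hsm := h.big.small hA
  have hβ0 : 0 < β := by rcases hβ with h1 | h1 <;> linarith
  have hβ2 : β ≤ 2 := by rcases hβ with h1 | h1 <;> linarith
  have hinj : ∀ p ∈ c.ball 8, ∀ v, Y.Psi s ρ p.1 v = Y.Psi s ρ p.1 (V p.1 p.2) → v = V p.1 p.2 :=
    fun p hp v e => h_inj_of_aff (Y.Psi_mono' ρ p.1) hd hβ0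
      (fun u' hu => hΨ (p.1, u') ⟨p.2, hp, hu⟩) e
  have hV : ∀ p ∈ c.ball 8, Y.Vn s ρ V p.1 p.2 = β * V p.1 p.2 + b0 := fun p hp =>
    hΨ _ (h.mem_thick hp)
  have hpf : β = 2 → ∀ p ∈ c.ball 8,
      ∃ v ∈ s.W, |v - V p.1 p.2| ≤ A * c.r ∧ Y.psi s ρ p.1 v ≠ 0 := fun h2 p hp => by
    by_contra hn
    push Not at hn
    have t1 : (p.1, V p.1 p.2) ∈ c.thick V A := h.mem_thick hp
    have a2 : |V p.1 p.2 + A * c.r - V p.1 p.2| ≤ A * c.r := by simp [abs_of_pos hd]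
    have t2 : (p.1, V p.1 p.2 + A * c.r) ∈ c.thick V A := ⟨p.2, hp, a2⟩
    have e1 := Y.Psi_of_zero ρ (hn _ (h.thick_abs t1).2.1 (by simpa using hd.le))
    have e2 := Y.Psi_of_zero ρ (hn _ (h.thick_abs t2).2.1 a2)
    rw [hΨ _ t1, h2] at e1
    rw [hΨ _ t2, h2] at e2
    dsimp only at e1 e2
    linarith
  have hx : c.x ∈ c.ball 8 := c.h_x_mem (by norm_num)
  refine ⟨h_rep_next N h.ni h.rep (fun p hp => (h.thick_abs (h.mem_thick hp)).2.1) (by linarith)
    hsh le_rfl (mul_pos hβ0 hA) (by gcongr) (fun p hp v e => ⟨p.2, hp, (hinj p hp v e).symm⟩)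
    (fun θ t t' h1 h2 => ?_) (hβ.imp (fun h1 => by rw [h1, one_mul]) hpf), ?_, ?_⟩
  · rw [hV _ h1, hV _ h2, add_sub_add_right_eq_sub, ← mul_sub, abs_mul, abs_of_pos hβ0]
    linarith [mul_le_mul_of_nonneg_left (h.rep.lip θ t t' h1 h2) hβ0.le]
  · have key : (∃ v, |v - c.vx V| ≤ A * c.r ∧ Y.psi s ρ c.x.1 v ≠ 0) →
        c.Win (Y.mid s ρ) (Y.Vn s ρ V) (β * A) := fun ⟨v, h1, h2⟩ => by
      have h3 := mul_le_mul_of_nonneg_right hβ2 hd.le
      refine Subset.trans (Icc_subset_Icc ?_ ?_) (h_win_of_psi hw (by linarith) h1 h2)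
      · change Y.Psi s ρ c.x.1 (c.vx V) - _ ≤ Y.Psi s ρ c.x.1 (c.vx V) - _
        linarith
      · change Y.Psi s ρ c.x.1 (c.vx V) + _ ≤ Y.Psi s ρ c.x.1 (c.vx V) + _
        linarith
    rcases hβ with h1 | h1
    · by_cases h0 : Y.psi s ρ c.x.1 (c.vx V) = 0
      · have e : c.vx (Y.Vn s ρ V) = c.vx V := Y.Psi_of_zero ρ h0
        unfold Ctx.Win
        rw [e, h1, one_mul]
        exact h.win
      · exact key ⟨_, by simpa using hd.le, h0⟩
    · obtain ⟨v, -, h2⟩ := hpf h1 _ hx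
      exact key ⟨v, h2⟩
  · obtain ⟨b, hb⟩ := h.aff
    refine ⟨β * b + b0, fun p hp => ⟨by rw [hV p hp, (hb p hp).1]; ring, ?_⟩⟩
    have e : (Y.mid s ρ).lab p.1 (Y.Vn s ρ V p.1 p.2) = Y.lab1 s ρ p.1 (V p.1 p.2) :=
      congrArg (Y.lab1 s ρ p.1) (hinj p hp _ (Function.invFun_eq ⟨V p.1 p.2, rfl⟩))
    rw [e]
    exact hlab p hp

theorem haff_lab (h : At Y c s N V A y I co dd eo) {ρ : Rnd S π} (hsh : Shal Y c s ρ V A 8)
    {p : ℕ × ℝ} (hp : p ∈ c.ball 8) {t : ℝ} (ht : t = V p.1 p.2) :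
    Y.lab1 s ρ p.1 t = if (Y.hl s ρ I).H p.1 t - xi0 s ρ ≤ 0 then s.lab p.1 t
      else if trap s ρ t ≤ (Y.hl s ρ I).H p.1 t - xi0 s ρ then
        ((1 + sg ρ * trapS s ρ t) * (s.lab p.1 t).1, (1 + sg ρ * trapS s ρ t) * (s.lab p.1 t).2)
      else if 0 < ((Y.hl s ρ I).dn p.1 t).2 then
        ((1 + sg ρ * ((Y.hl s ρ I).dn p.1 t).1) * (s.lab p.1 t).1,
          (1 + sg ρ * ((Y.hl s ρ I).dn p.1 t).1) * min (s.lab p.1 t).2 ((Y.hl s ρ I).dn p.1 t).2)
      else (0, 0) := by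
  subst ht
  have h1 : p.1 ∈ tm I := (h.thick_abs (h.mem_thick hp)).2.2
  unfold Sys.lab1
  rw [if_neg (hsh.h_not_deep h.rep.pos.le hp)]
  simp only [h.kick, (N.ok s ρ h.ni).2, h1, not_true, false_or]

theorem haff_sg (ρ : Rnd S π) {g : ℝ} (hg : g = -1 ∨ g = 0 ∨ g = 1) :
    1 + sg ρ * g = 0 ∨ 1 + sg ρ * g = 1 ∨ 1 + sg ρ * g = 2 := by
  unfold sg
  split_ifs <;> rcases hg with h | h | h <;> rw [h] <;> norm_num

/-- The slope and the labels in an affine outcome (`psi_eq`, `h_trap_aff`, unfolding `lab1` with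
`h_not_deep`; if `trap = 0` at a ball point then its slope is `0`). -/
theorem At.naff_slope (h : At Y c s N V A y I co dd eo) (u : Qn π × Qn π × HS π)
    (hk : Kink c s (co, dd, u, true, eo) V A) (ha : NAff Y c s (co, dd, u, true, eo) V A I) :
    ∃ g b0 : ℝ, (g = -1 ∨ g = 0 ∨ g = 1) ∧ ∀ σ,
      (∀ p ∈ c.thick V A, Y.psi s (co, dd, u, σ, eo) p.1 p.2 = g * p.2 + b0) ∧
      ∀ p ∈ c.ball 8,
        (Y.lab1 s (co, dd, u, σ, eo) p.1 (V p.1 p.2)).1 =
          (1 + sg (co, dd, u, σ, eo) * g) * A ∧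
        (1 + sg (co, dd, u, σ, eo) * g) * A * c.rs ≤
          (Y.lab1 s (co, dd, u, σ, eo) p.1 (V p.1 p.2)).2 := by
  obtain ⟨b, hb⟩ := h.aff
  have hA := h.rep.pos
  have hd : 0 < A * c.r := mul_pos hA c.h_r_pos
  have hw := (N.pos s h.ni).1
  have e1 : ∀ σ, Y.hl s (co, dd, u, σ, eo) I = Y.hl s (co, dd, u, true, eo) I := fun _ => rfl
  have e2 : ∀ σ, xi0 s ((co, dd, u, σ, eo) : Rnd S π) = xi0 s ((co, dd, u, true, eo) : Rnd S π) :=
    fun _ => rfl
  have e3 : ∀ σ, trap s ((co, dd, u, σ, eo) : Rnd S π) = trap s ((co, dd, u, true, eo) : Rnd S π) :=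
    fun _ => rfl
  have e4 : ∀ σ, trapS s ((co, dd, u, σ, eo) : Rnd S π) =
    trapS s ((co, dd, u, true, eo) : Rnd S π) := fun _ => rfl
  have ps : ∀ σ, ∀ p ∈ c.thick V A, Y.psi s (co, dd, u, σ, eo) p.1 p.2 =
      max 0 (min (trap s (co, dd, u, true, eo) p.2)
        ((Y.hl s (co, dd, u, true, eo) I).H p.1 p.2 - xi0 s (co, dd, u, true, eo))) :=
    fun σ p hp => h.psi_eq _ (h.thick_abs hp).2.2 _
  have s0 : ∀ σ {g : ℝ}, g = -1 ∨ g = 0 ∨ g = 1 → 0 ≤ 1 + sg ((co, dd, u, σ, eo) : Rnd S π) * g :=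
    fun σ g hg => by rcases haff_sg (co, dd, u, σ, eo) hg with h | h | h <;> rw [h] <;> norm_num
  generalize ((co, dd, u, true, eo) : Rnd S π) = ρ at *
  rcases ha with ha | ha | ⟨g, b0, σ', hg, hσ, ha⟩
  · refine ⟨0, 0, Or.inr (Or.inl rfl), fun σ => ⟨fun p hp => ?_, fun p hp => ?_⟩⟩
    · rw [ps σ p hp, max_eq_left ((min_le_right _ _).trans (ha p hp))]
      ring
    · rw [haff_lab h (h.shal u σ) hp rfl, e1, e2, if_pos (ha _ (h.mem_thick hp)), mul_zero,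
        add_zero, one_mul]
      exact (hb p hp).2
  · have ta := fun v hv => h_trap_aff (v := v) hw (N.half s I h.ni h.kick) hk hv
    have hg := h_trapS_mem (s := s) (ρ := ρ) (c.vx V)
    refine ⟨trapS s ρ (c.vx V), trap s ρ (c.vx V) - trapS s ρ (c.vx V) * c.vx V, hg,
      fun σ => ⟨fun p hp => ?_, fun p hp => ?_⟩⟩
    · rw [ps σ p hp, min_eq_left (ha p hp), max_eq_right (trap_nonneg _ _),
        (ta p.2 (by linarith [(h.thick_abs hp).1])).2]
      ring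
    · have t1 := h.mem_thick hp
      have a1 := abs_le.1 (h.thick_abs t1).1
      dsimp only at a1
      have a2 := ta (V p.1 p.2) (abs_lt.2 ⟨by linarith, by linarith⟩)
      rw [haff_lab h (h.shal u σ) hp rfl, e1, e2, e3, e4]
      split_ifs with h1 h2
      · have a3 := (ta (V p.1 p.2 + A * c.r) (abs_lt.2 ⟨by linarith, by linarith⟩)).2
        have a4 := (ta (V p.1 p.2 - A * c.r) (abs_lt.2 ⟨by linarith, by linarith⟩)).2
        have a5 := (ha _ t1).trans h1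
        have a6 := trap_nonneg (s := s) ρ (V p.1 p.2 + A * c.r)
        have a7 := trap_nonneg (s := s) ρ (V p.1 p.2 - A * c.r)
        have a8 := a2.2
        dsimp only at a5
        have a9 : trapS s ρ (c.vx V) = 0 := by
          rcases hg with h3 | h3 | h3
          · rw [h3] at a3 a8; linarith
          · exact h3
          · rw [h3] at a4 a8; linarith
        rw [a9, mul_zero, add_zero, one_mul]
        exact (hb p hp).2
      · rw [a2.1, (hb p hp).2.1, mul_assoc]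
        exact ⟨rfl, mul_le_mul_of_nonneg_left (hb p hp).2.2 (s0 σ hg)⟩
      all_goals exact absurd (ha _ t1) h2
  · refine ⟨g, b0 - xi0 s ρ, hg, fun σ => ⟨fun p hp => ?_, fun p hp => ?_⟩⟩
    · obtain ⟨a1, -, a3, a4⟩ := ha p hp
      rw [ps σ p hp, min_eq_right a4.le, max_eq_right a3.le, a1]
      ring
    · obtain ⟨-, a2, a3, a4⟩ := ha _ (h.mem_thick hp)
      dsimp only at a2 a3 a4
      rw [haff_lab h (h.shal u σ) hp rfl, e1, e2, e3, if_neg a3.not_ge, if_neg a4.not_ge, a2,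
        if_pos ((mul_pos hA c.rs_pos).trans_le hσ), (hb p hp).2.1, mul_assoc]
      exact ⟨rfl, mul_le_mul_of_nonneg_left (le_min (hb p hp).2.2 hσ) (s0 σ hg)⟩

/-- An affine outcome is worth `B A` on average over the sign. -/
theorem At.naff_value (h : At Y c s N V A y I co dd eo) {ι : Type} {pt : ι → ℕ × ℝ}
    {F : (ι → ℝ) → ℝ} {ND : St → (ℕ → ℝ → ℝ) → ℝ → Prop} {B : ℝ}
    {Gv : Qn π × Qn π × HS π → Bool → ℝ} (hv : Val Y c s pt F ND V A co dd eo B Gv)
    (u : Qn π × Qn π × HS π) (hk : Kink c s (co, dd, u, true, eo) V A)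
    (ha : NAff Y c s (co, dd, u, true, eo) V A I) :
    B * A ≤ Finset.expect Finset.univ fun σ => Gv u σ := by
  obtain ⟨g, b0, hg, hs⟩ := h.naff_slope u hk ha
  have key : ∀ σ, B * ((1 + sg ((co, dd, u, σ, eo) : Rnd S π) * g) * A) ≤ Gv u σ := fun σ => by
    have k : 1 + sg ((co, dd, u, σ, eo) : Rnd S π) * g = 1 ∨
        1 + sg ((co, dd, u, σ, eo) : Rnd S π) * g = 2 →
        B * ((1 + sg ((co, dd, u, σ, eo) : Rnd S π) * g) * A) ≤ Gv u σ := fun hβ => by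
      obtain ⟨h1, h2, h3⟩ := h.aff_step u σ hβ (b0 := sg ((co, dd, u, σ, eo) : Rnd S π) * b0)
        (fun p hp => by rw [Sys.Psi, (hs σ).1 p hp]; ring) (hs σ).2
      exact hv.aff u σ _ (hβ.imp (fun e => by rw [e, one_mul]) fun e => by rw [e]) h1 h2 h3
    rcases haff_sg (co, dd, u, σ, eo) hg with e | e
    · rw [e, zero_mul, mul_zero]
      exact hv.g0 u σ
    · exact k e
  have k1 := key true
  have k2 := key false
  simp only [sg, if_true, Bool.false_eq_true, if_false] at k1 k2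
  rw [Finset.expect_eq_sum_div_card, Fintype.sum_bool, Finset.card_univ, Fintype.card_bool]
  push_cast
  linarith

end Vale.Agent.P235.Pl
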