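import Vale.Agent.P235P.Heal

/-! P235 planar case: probabilities of events on finite uniform spaces. -/

open Set Classical

noncomputable section

namespace Vale.Agent.P235.Pl

/-- The probability of an event. -/
def pr {Ω : Type} [Fintype Ω] (E : Ω → Prop) : ℝ :=
  Finset.expect Finset.univ fun ω => if E ω then (1 : ℝ) else 0

section
variable {Ω Ω' : Type} [Fintype Ω] [Fintype Ω'] {E E' : Ω → Prop}

theorem pr_nonneg : 0 ≤ pr E :=
  Finset.expect_nonneg fun ω _ => by split_ifs <;> norm_num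

theorem pr_le_one : pr E ≤ 1 := by
  rcases isEmpty_or_nonempty Ω with h | h
  · simp [pr]
  · exact Finset.expect_le Finset.univ_nonempty fun ω _ => by split_ifs <;> norm_num

theorem pr_mono (h : ∀ ω, E ω → E' ω) : pr E ≤ pr E' := by
  refine Finset.expect_le_expect fun ω _ => ?_
  by_cases h1 : E ω
  · rw [if_pos h1, if_pos (h ω h1)]
  · rw [if_neg h1]
    split_ifs <;> norm_num

theorem pr_not [Nonempty Ω] : pr (fun ω => ¬ E ω) = 1 - pr E := by
  unfold pr
  rw [← Fintype.expect_const (ι := Ω) (1 : ℝ), ← Finset.expect_sub_distrib]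
  simp only [Fintype.expect_const]
  refine Finset.expect_congr rfl fun ω _ => ?_
  by_cases h1 : E ω <;> simp [h1]

theorem pr_or_le : pr (fun ω => E ω ∨ E' ω) ≤ pr E + pr E' := by
  unfold pr
  rw [← Finset.expect_add_distrib]
  refine Finset.expect_le_expect fun ω _ => ?_
  by_cases h1 : E ω <;> by_cases h2 : E' ω <;> simp [h1, h2]

theorem pr_false (h : ∀ ω, ¬ E ω) : pr E = 0 :=
  Finset.expect_eq_zero fun ω _ => if_neg (h ω)

theorem pr_exists_le {ι : Type} (F : Finset ι) (E : ι → Ω → Prop) {ε : ℝ}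
    (h : ∀ i ∈ F, pr (E i) ≤ ε) : pr (fun ω => ∃ i ∈ F, E i ω) ≤ F.card * ε := by
  induction F using Finset.induction_on with
  | empty => simpa using (pr_false (by simp)).le
  | insert i F hi ih =>
    have h1 := ih fun j hj => h j (Finset.mem_insert_of_mem hj)
    have h2 := h i (Finset.mem_insert_self _ _)
    have h3 : pr (fun ω => ∃ j ∈ insert i F, E j ω) ≤ pr (fun ω => E i ω ∨ ∃ j ∈ F, E j ω) :=
      pr_mono fun ω hω => by simpa using hω
    have h4 := pr_or_le (E := E i) (E' := fun ω => ∃ j ∈ F, E j ω)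
    rw [Finset.card_insert_of_notMem hi]
    push_cast
    linarith

theorem pr_prod (E : Ω × Ω' → Prop) :
    pr E = Finset.expect Finset.univ fun a => pr fun b => E (a, b) := by
  unfold pr
  rw [← Finset.univ_product_univ, Finset.expect_product]

theorem pr_prod' (E : Ω × Ω' → Prop) :
    pr E = Finset.expect Finset.univ fun b => pr fun a => E (a, b) := by
  rw [pr_prod]
  unfold pr
  exact Finset.expect_comm _ _ _

theorem pr_prod_le [Nonempty Ω] {E : Ω × Ω' → Prop} {ε : ℝ} (h : ∀ a, pr (fun b => E (a, b)) ≤ ε) :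
    pr E ≤ ε := by
  rw [pr_prod]
  exact Finset.expect_le Finset.univ_nonempty fun a _ => h a

theorem pr_prod_le' [Nonempty Ω'] {E : Ω × Ω' → Prop} {ε : ℝ} (h : ∀ b, pr (fun a => E (a, b)) ≤ ε) :
    pr E ≤ ε := by
  rw [pr_prod']
  exact Finset.expect_le Finset.univ_nonempty fun a _ => h a

/-- A lower bound for an expectation from a lower bound on an event. -/
theorem le_expect_of_pr {f : Ω → ℝ} {v : ℝ} (h0 : ∀ ω, 0 ≤ f ω) (h : ∀ ω, E ω → v ≤ f ω) :
    v * pr E ≤ Finset.expect Finset.univ f := by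
  unfold pr
  rw [Finset.mul_expect]
  refine Finset.expect_le_expect fun ω _ => ?_
  split_ifs with h1
  · rw [mul_one]
    exact h ω h1
  · rw [mul_zero]
    exact h0 ω

theorem expect_pair (f : Ω × Ω' → ℝ) : Finset.expect Finset.univ f =
    Finset.expect Finset.univ fun a => Finset.expect Finset.univ fun b => f (a, b) := by
  rw [← Finset.univ_product_univ, Finset.expect_product]

/-- Resampling one coordinate. -/
theorem expect_update {ι : Type} [Fintype ι] [DecidableEq ι] [Nonempty Ω] (f : (ι → Ω) → ℝ) (m : ι) :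
    Finset.expect Finset.univ f = Finset.expect Finset.univ fun g : ι → Ω =>
      Finset.expect Finset.univ fun q => f (Function.update g m q) := by
  have hi : Function.Involutive fun p : (ι → Ω) × Ω => (Function.update p.1 m p.2, p.1 m) := by
    intro p
    simp
  rw [← expect_pair fun p : (ι → Ω) × Ω => f (Function.update p.1 m p.2),
    Fintype.expect_equiv hi.toPerm (fun p => f (Function.update p.1 m p.2)) (fun p => f p.1)
      fun p => rfl, expect_pair]
  simp only [Fintype.expect_const]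

end

variable {π : Par}

/-- A uniform grid value is rarely near a lattice: `(k, i) ↦ k - (Nq + 1) i` is injective into the
integers of an interval of length `2 d (Nq + 1) / l`. -/
theorem pr_lattice {a b c d : ℝ} (hl : a < b) (hd : 0 ≤ d) :
    pr (fun k : Qn π => ∃ i : ℤ, |uq k a b - c - (b - a) * i| ≤ d) ≤
      2 * d / (b - a) + 1 / (π.Nq + 1) := by
  have hN : (0 : ℝ) < π.Nq + 1 := by positivity
  have hl0 : 0 < b - a := sub_pos.2 hl
  obtain ⟨x, hx⟩ : ∃ x, x = (c - a - d) * (π.Nq + 1) / (b - a) := ⟨_, rfl⟩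
  obtain ⟨y, hy⟩ : ∃ y, y = (c - a + d) * (π.Nq + 1) / (b - a) := ⟨_, rfl⟩
  have hxy : y - x = 2 * d * (π.Nq + 1) / (b - a) := by
    rw [hx, hy]
    ring
  have hxy0 : 0 ≤ y - x := by
    rw [hxy]
    positivity
  have hs : (Finset.univ.filter fun k : Qn π => ∃ i : ℤ, |uq k a b - c - (b - a) * i| ≤ d) ⊆
      (Finset.Icc ⌈x⌉ ⌊y⌋).image fun j : ℤ => (⟨(j % (π.Nq + 1 : ℕ)).toNat, by
        have h1 := Int.emod_lt_of_pos j (show (0 : ℤ) < (π.Nq + 1 : ℕ) by positivity)
        omega⟩ : Qn π) := by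
    intro k hk
    obtain ⟨i, hi⟩ := (Finset.mem_filter.1 hk).2
    have e : uq k a b - c - (b - a) * i
        = (b - a) * (((k : ℕ) : ℝ) - (π.Nq + 1) * i) / (π.Nq + 1) - (c - a) := by
      unfold uq
      field_simp
      ring
    rw [e, abs_le, le_sub_iff_add_le, sub_le_iff_le_add, le_div_iff₀ hN, div_le_iff₀ hN] at hi
    refine Finset.mem_image.2 ⟨((k : ℕ) : ℤ) - (π.Nq + 1 : ℕ) * i, ?_, Fin.ext ?_⟩
    · rw [Finset.mem_Icc, Int.ceil_le, Int.le_floor, hx, hy, div_le_iff₀ hl0, le_div_iff₀ hl0]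
      push_cast
      constructor <;> linarith [hi.1, hi.2]
    · have h1 := k.2
      show ((((k : ℕ) : ℤ) - (π.Nq + 1 : ℕ) * i) % (π.Nq + 1 : ℕ)).toNat = k
      rw [Int.sub_mul_emod_self_left, Int.emod_eq_of_lt (by omega) (by omega)]
      simp
  have hc := (Finset.card_le_card hs).trans Finset.card_image_le
  have hc2 : ((Finset.Icc ⌈x⌉ ⌊y⌋).card : ℝ) ≤ y - x + 1 := by
    rw [Int.card_Icc]
    rcases le_total (⌊y⌋ + 1 - ⌈x⌉) 0 with h0 | h0
    · rw [Int.toNat_of_nonpos h0, Nat.cast_zero]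
      linarith
    · rw [← Int.cast_natCast, Int.toNat_of_nonneg h0]
      push_cast
      linarith [Int.floor_le y, Int.le_ceil x]
  unfold pr
  rw [Finset.expect_eq_sum_div_card, Finset.sum_boole, Finset.card_univ, Fintype.card_fin]
  push_cast
  rw [div_le_iff₀ hN]
  have e2 : (2 * d / (b - a) + 1 / (π.Nq + 1)) * (π.Nq + 1) = y - x + 1 := by
    rw [hxy]
    field_simp
  rw [e2]
  exact le_trans (by exact_mod_cast hc) hc2

theorem pr_near {a b c d : ℝ} (hl : a < b) (hd : 0 ≤ d) :
    pr (fun k : Qn π => |uq k a b - c| ≤ d) ≤ 2 * d / (b - a) + 1 / (π.Nq + 1) :=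
  (pr_mono fun k hk => ⟨0, by simpa using hk⟩).trans (pr_lattice hl hd)

/-- The complement is the event of `pr_lattice` for the centre `c + d + (l - d) / 2`. -/
theorem le_pr_lattice {a b c d : ℝ} (hl : a < b) (hd : d ≤ b - a) :
    d / (b - a) - 1 / (π.Nq + 1) ≤ pr fun k : Qn π =>
      ∃ i : ℤ, c ≤ uq k a b + (b - a) * i ∧ uq k a b + (b - a) * i ≤ c + d := by
  have hl0 : 0 < b - a := sub_pos.2 hl
  have h1 := pr_lattice (π := π) (c := c + d + (b - a - d) / 2) (d := (b - a - d) / 2) hl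
    (by linarith)
  have h2 := pr_not (E := fun k : Qn π =>
    ∃ i : ℤ, c ≤ uq k a b + (b - a) * i ∧ uq k a b + (b - a) * i ≤ c + d)
  have h3 : pr (fun k : Qn π =>
      ¬ ∃ i : ℤ, c ≤ uq k a b + (b - a) * i ∧ uq k a b + (b - a) * i ≤ c + d) ≤ _ :=
    le_trans (pr_mono fun k hk => ?_) h1
  · have e : 2 * ((b - a - d) / 2) / (b - a) = 1 - d / (b - a) := by field_simp
    rw [e, h2] at h3
    linarith
  · have q1 := Int.le_ceil ((c - uq k a b) / (b - a))
    have q2 := Int.ceil_lt_add_one ((c - uq k a b) / (b - a))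
    rw [div_le_iff₀ hl0] at q1
    rw [← sub_lt_iff_lt_add, lt_div_iff₀ hl0] at q2
    have q3 : c + d < uq k a b + (b - a) * ⌈(c - uq k a b) / (b - a)⌉ := by
      by_contra q4
      exact hk ⟨⌈(c - uq k a b) / (b - a)⌉, by linarith, not_lt.1 q4⟩
    refine ⟨-⌈(c - uq k a b) / (b - a)⌉, ?_⟩
    push_cast
    rw [abs_le]
    constructor <;> linarith

end Vale.Agent.P235.Pl
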