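import Vale.Agent.P235P.HBall
import Vale.Agent.P235P.HProb

/-! P235 planar case: probabilities of the events at one healing scale. -/

open Set Classical Function

noncomputable section

namespace Vale.Agent.P235.Pl

variable {π : Par}

namespace HP
variable {P : HP} {b : HB} {w : ℝ} {X : Cone → Finset ℝ} {ξ T : ℝ}

/-- The values of all cones of one scale at `t` lie in three classes modulo `256 s`. -/
theorem G_class (s1 : ℝ) (hs : HS π) (m : Fin π.nS) (i k : ℤ) (t : ℝ) :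
    ∃ f ∈ ({0, t - (cone s1 hs m 0 0).t - 28 * scl π s1 m,
        (cone s1 hs m 0 0).t - t - 28 * scl π s1 m} : Finset ℝ), ∃ l : ℤ,
      (cone s1 hs m i k).G t = (cone s1 hs m 0 0).a - f + 256 * scl π s1 m * l := by
  rw [Cone.G, cone_t s1 hs m i k, cone_a s1 hs m i k, cone_s]
  simp only [Finset.mem_insert, Finset.mem_singleton, exists_eq_or_imp, exists_eq_left]
  rcases le_total 0 (|t - ((cone s1 hs m 0 0).t + 256 * scl π s1 m * i)| - 28 * scl π s1 m)
    with h | h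
  · rw [max_eq_right h]
    rcases le_total 0 (t - ((cone s1 hs m 0 0).t + 256 * scl π s1 m * i)) with h' | h'
    · exact Or.inr (Or.inl ⟨k + i, by rw [abs_of_nonneg h']; push_cast; ring⟩)
    · exact Or.inr (Or.inr ⟨k - i, by rw [abs_of_nonpos h']; push_cast; ring⟩)
  · exact Or.inl ⟨k, by rw [max_eq_left h]; ring⟩

theorem hbad_vc (hs : HS π) (m : Fin π.nS) (q : Qn π × Qn π × Qn π) :
    P.vc (update hs m q) b m = P.vc hs b m :=
  vc_congr fun _ h => update_of_ne (Fin.ne_of_lt h) _ _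

theorem hbad_Hs (hs : HS π) (m : Fin π.nS) (q : Qn π × Qn π × Qn π) :
    P.Hs (update hs m q) m = P.Hs hs m :=
  Hs_congr fun _ h => update_of_ne (Fin.ne_of_lt h) _ _

theorem hbad_eta (hb : P.Ball π b w) : 1 / ((π.Nq : ℝ) + 1) ≤ 1 / 512 := by
  have h0 := hb.u0
  have h1 := hb.uw
  refine hb.nq'.trans ?_
  rw [div_le_div_iff₀ (by linarith) (by norm_num)]
  linarith

theorem hbad_lat (hb : P.Ball π b w) (m : ℕ) {α β : ℝ} (h : scl π P.s1 m ≤ β - α) (F : Finset ℝ)
    {N : ℕ} (hF : F.card ≤ N) :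
    pr (fun k : Qn π => ∃ c ∈ F, ∃ j : ℤ, |uq k α β - c - (β - α) * j| ≤ 100 * b.u) ≤
      N * (201 * (b.u / scl π P.s1 m)) := by
  have h0 := hb.u0
  have h1 := scl_pos (π := π) hb.good.s1 m
  have h2 := hb.scl_le m
  refine (pr_exists_le F _ (ε := 201 * (b.u / scl π P.s1 m)) fun c _ =>
    (pr_lattice (by linarith) (by linarith)).trans ?_).trans
      (mul_le_mul_of_nonneg_right (by exact_mod_cast hF) (by positivity))
  have a1 : b.u / (256 * w) ≤ b.u / scl π P.s1 m :=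
    div_le_div_of_nonneg_left h0.le h1 (by linarith)
  have a2 : b.u / (β - α) ≤ b.u / scl π P.s1 m := div_le_div_of_nonneg_left h0.le h1 h
  rw [show 2 * (100 * b.u) / (β - α) = 200 * (b.u / (β - α)) by ring]
  linarith [hb.nq']

theorem hbad_g3 (hb : P.Ball π b w) (hX : ∀ κ, (X κ).card ≤ 20) (hs : HS π) (m : Fin π.nS)
    (H : ℕ → ℝ → ℝ) (v : ℝ) : ∃ F : Finset ℝ, F.card ≤ 24 ∧ ∀ (y : ℝ) (i k : ℤ),
      b.x.2 ∈ (cone P.s1 hs m i k).I0 → v < (cone P.s1 hs m i k).G b.x.2 →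
      (cone P.s1 hs m i k).G b.x.2 ≤ v + 100 * scl π P.s1 m →
      (∀ c ∈ F, ∀ j : ℤ, 100 * b.u < |y - c - (2 * scl π P.s1 m - scl π P.s1 m) * j|) →
      ∀ e, e = P.Emax H (cone P.s1 hs m i k) b.TB b.x.1 b.x.2 - y →
      100 * b.u ≤ |e - v| ∧ (∀ i' k', 100 * b.u ≤ |e - (cone P.s1 hs m i' k').G b.x.2|) ∧
        ∀ v ∈ X (cone P.s1 hs m i k), 100 * b.u ≤ |e - v| := by
  by_cases h : ∃ i k, b.x.2 ∈ (cone P.s1 hs m i k).I0 ∧ v < (cone P.s1 hs m i k).G b.x.2 ∧
    (cone P.s1 hs m i k).G b.x.2 ≤ v + 100 * scl π P.s1 m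
  swap
  · exact ⟨∅, by simp, fun y i k h1 h2 h3 => absurd ⟨i, k, h1, h2, h3⟩ h⟩
  obtain ⟨i, k, h1, h2, h3⟩ := h
  have s0 := scl_pos (π := π) hb.good.s1 m
  have hG := fun i' k' => G_class P.s1 hs m i' k' b.x.2
  have hc : ({0, b.x.2 - (cone P.s1 hs m 0 0).t - 28 * scl π P.s1 m,
    (cone P.s1 hs m 0 0).t - b.x.2 - 28 * scl π P.s1 m} : Finset ℝ).card ≤ 3 := Finset.card_le_three
  generalize ({0, b.x.2 - (cone P.s1 hs m 0 0).t - 28 * scl π P.s1 m,
    (cone P.s1 hs m 0 0).t - b.x.2 - 28 * scl π P.s1 m} : Finset ℝ) = Ff at hG hc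
  obtain ⟨E, hE⟩ : ∃ E, E = P.Emax H (cone P.s1 hs m i k) b.TB b.x.1 b.x.2 := ⟨_, rfl⟩
  refine ⟨insert (E - v) (Ff.image (fun f => E - (cone P.s1 hs m 0 0).a + f) ∪
    (X (cone P.s1 hs m i k)).image fun f => E - f), ?_, fun y i₁ k₁ a1 a2 a3 a4 e he => ?_⟩
  · refine (Finset.card_insert_le _ _).trans ?_
    have := (Finset.card_union_le _ _).trans (add_le_add
      ((Finset.card_image_le (f := fun f => E - (cone P.s1 hs m 0 0).a + f)).trans hc)
      ((Finset.card_image_le (f := fun f => E - f)).trans (hX (cone P.s1 hs m i k))))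
    omega
  obtain rfl := I0_unique hb.good.s1 a1 h1
  obtain rfl : k₁ = k := G_unique hb.good.s1 (abs_lt.2 ⟨by linarith, by linarith⟩)
  rw [← hE] at he
  subst he
  refine ⟨?_, fun i' k' => ?_, fun v' hv => ?_⟩
  · refine (a4 _ (Finset.mem_insert_self _ _) 0).le.trans_eq ?_
    rw [← abs_neg]
    congr 1
    push_cast
    ring
  · obtain ⟨f, hf, l, hl⟩ := hG i' k'
    refine (a4 _ (Finset.mem_insert_of_mem (Finset.mem_union_left _
      (Finset.mem_image_of_mem _ hf))) (-256 * l)).le.trans_eq ?_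
    rw [← abs_neg, hl]
    congr 1
    push_cast
    ring
  · refine (a4 _ (Finset.mem_insert_of_mem (Finset.mem_union_right _
      (Finset.mem_image_of_mem _ hv))) 0).le.trans_eq ?_
    rw [← abs_neg]
    congr 1
    push_cast
    ring

theorem hbad_three {Q : Type} [Fintype Q] [Nonempty Q] {E : Q × Q × Q → Prop} {E₁ : Q → Prop}
    {E₂ : Q → Q → Prop} {E₃ : Q → Q → Q → Prop} {a₁ a₂ a₃ : ℝ} (h₁ : pr E₁ ≤ a₁)
    (h₂ : ∀ x, pr (E₂ x) ≤ a₂) (h₃ : ∀ x y, pr (E₃ x y) ≤ a₃)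
    (h : ∀ q, E q → E₁ q.1 ∨ E₂ q.1 q.2.1 ∨ E₃ q.1 q.2.1 q.2.2) : pr E ≤ a₁ + (a₂ + a₃) :=
  (pr_mono h).trans (pr_or_le.trans (add_le_add (pr_prod_le' fun _ => h₁)
    (pr_or_le.trans (add_le_add (pr_prod_le fun x => pr_prod_le' fun _ => h₂ x)
      (pr_prod_le fun x => pr_prod_le fun y => h₃ x y)))))

theorem hbad_abs {x t r d : ℝ} (h1 : d < |t - (x - r)|) (h2 : d < |t - (x + r)|) :
    d ≤ |(|x - t|) - r| := by
  rcases le_total 0 (x - t) with h | h
  · rw [abs_of_nonneg h, ← abs_neg]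
    exact h1.le.trans_eq (by congr 1; ring)
  · rw [abs_of_nonpos h]
    exact h2.le.trans_eq (by congr 1; ring)

/-- `g1` by the first seed (4 lattices), `g2` by the second (9 lattices), `g3` by the third
(at most one relevant cone by `I0_unique`, `G_unique`; `1 + 3 + 20` lattices of mesh `s`).
`Hs m`, `vc m` do not depend on `q` (`Hs_congr`). -/
theorem Ball.pr_bad (hb : P.Ball π b w) (hX : ∀ κ, (X κ).card ≤ 20) (hs : HS π) {m : Fin π.nS}
    (hm : (m : ℕ) < b.n) :
    pr (fun q => ¬ P.Gd (update hs m q) b X ξ T m) ≤ 10 ^ 4 * b.u / scl π P.s1 m := by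
  have s0 := scl_pos (π := π) hb.good.s1 m
  choose F hF hF' using fun a c : Qn π =>
    hbad_g3 hb hX (update hs m (a, c, a)) m (P.Hs hs m) (P.vc hs b m)
  have e1 := hbad_lat hb m (α := 0) (β := 256 * scl π P.s1 m) (by linarith)
    {b.x.2 - 28 * scl π P.s1 m, b.x.2 + 28 * scl π P.s1 m, b.x.2 - 52 * scl π P.s1 m,
      b.x.2 + 52 * scl π P.s1 m} Finset.card_le_four
  have e2 := fun a : Qn π => hbad_lat hb m (α := 0) (β := 256 * scl π P.s1 m) (N := 3 * 3)
    (by linarith) (Finset.image₂ (· + ·) {P.vc hs b m, ξ, ξ + T} {0,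
      b.x.2 - uq a 0 (256 * scl π P.s1 m) - 28 * scl π P.s1 m,
      uq a 0 (256 * scl π P.s1 m) - b.x.2 - 28 * scl π P.s1 m})
    ((Finset.card_image₂_le _ _ _).trans
      (Nat.mul_le_mul Finset.card_le_three Finset.card_le_three))
  have e3 := fun a c : Qn π => hbad_lat hb m (α := scl π P.s1 m) (β := 2 * scl π P.s1 m)
    (by linarith) _ (hF a c)
  refine (hbad_three e1 e2 e3 fun q hq => ?_).trans ?_
  · by_contra hc
    simp only [not_or, not_exists, not_and, not_le] at hc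
    obtain ⟨c1, c2, c3⟩ := hc
    have ht : ∀ i k (c : ℝ), (cone P.s1 (update hs m q) m i k).t - c =
        uq q.1 0 (256 * scl π P.s1 m) - c - (256 * scl π P.s1 m - 0) * (-i : ℤ) := fun i k c => by
      simp only [cone, update_self]
      push_cast
      ring
    have hG : ∀ i k, ∀ v ∈ ({P.vc hs b m, ξ, ξ + T} : Finset ℝ),
        100 * b.u ≤ |(cone P.s1 (update hs m q) m i k).G b.x.2 - v| := fun i k v hv => by
      obtain ⟨f, hf, l, hl⟩ := G_class P.s1 (update hs m q) m i k b.x.2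
      simp only [cone, update_self, Int.cast_zero, mul_zero, add_zero] at hf
      refine (c2 _ (Finset.mem_image₂_of_mem hv hf) (-l)).le.trans_eq ?_
      rw [hl]
      simp only [cone, update_self]
      congr 1
      push_cast
      ring
    refine hq ⟨fun i k => ⟨hbad_abs ?_ ?_, hbad_abs ?_ ?_⟩, fun i k => ⟨?_, hG i k _ (by simp), ?_⟩,
      fun i k => ?_⟩
    · rw [ht]; exact c1 _ (by simp) _
    · rw [ht]; exact c1 _ (by simp) _
    · rw [ht]; exact c1 _ (by simp) _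
    · rw [ht]; exact c1 _ (by simp) _
    · rw [hbad_vc]; exact hG i k _ (by simp)
    · rw [sub_sub]; exact hG i k _ (by simp)
    · have e : cone P.s1 (update hs m q) m = cone P.s1 (update hs m (q.1, q.2.1, q.1)) m := by
        funext i k
        simp only [cone, update_self]
      rw [hbad_vc, hbad_Hs, e, xim, update_self]
      exact fun a1 a2 a3 => hF' _ _ _ i k a1 a2 a3 c3
  · have : 0 ≤ b.u / scl π P.s1 m := div_nonneg hb.u0.le s0.le
    rw [mul_div_assoc]
    push_cast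
    linarith

theorem Ball.pr_nor (hb : P.Ball π b w) (hs : HS π) (m : Fin π.nS) :
    pr (fun q => ¬ P.NoR (update hs m q) b m) ≤ 1 / 2 := by
  have s0 := scl_pos (π := π) hb.good.s1 m
  have e1 := pr_prod_le' (E := fun q : Qn π × Qn π × Qn π => ∃ j : ℤ,
      |uq q.1 0 (256 * scl π P.s1 m) - b.x.2 - (256 * scl π P.s1 m - 0) * j| ≤ 54 * scl π P.s1 m)
    fun _ => pr_lattice (by linarith) (by linarith)
  refine (pr_mono fun q hq => ?_).trans (e1.trans ?_)
  · simp only [NoR, not_forall, not_lt, cone, update_self] at hq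
    obtain ⟨i, hi⟩ := hq
    refine ⟨-i, le_of_eq_of_le ?_ hi⟩
    rw [← abs_neg]
    congr 1
    push_cast
    ring
  · rw [show 2 * (54 * scl π P.s1 m) / (256 * scl π P.s1 m - 0) = 27 / 64 by field_simp; ring]
    linarith [hbad_eta hb]

theorem Ball.pr_suc (hb : P.Ball π b w) (hs : HS π) (m : Fin π.nS) :
    1 / 2 ^ 17 ≤ pr fun q => ∃ i k, P.Suc (update hs m q) b m i k := by
  have s0 := scl_pos (π := π) hb.good.s1 m
  have e1 := le_pr_lattice (π := π) (a := 0) (b := 256 * scl π P.s1 m) (c := b.x.2 - scl π P.s1 m)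
    (d := 2 * scl π P.s1 m) (by linarith) (by linarith)
  have e2 := le_pr_lattice (π := π) (a := 0) (b := 256 * scl π P.s1 m)
    (c := P.vc hs b m + 11 * scl π P.s1 m) (d := scl π P.s1 m) (by linarith) (by linarith)
  rw [show 2 * scl π P.s1 m / (256 * scl π P.s1 m - 0) = 1 / 128 by field_simp; ring] at e1
  rw [show scl π P.s1 m / (256 * scl π P.s1 m - 0) = 1 / 256 by field_simp; ring] at e2
  have e3 := hbad_eta hb
  rw [pr_prod]
  refine le_trans ?_ ((mul_le_mul_of_nonneg_left e1 (by norm_num)).trans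
    (le_expect_of_pr (v := 1 / 512) (fun _ => pr_nonneg) fun a ha => ?_))
  · linarith
  · obtain ⟨i, h1, h2⟩ := ha
    rw [pr_prod']
    refine Finset.le_expect Finset.univ_nonempty fun c _ =>
      le_trans (by linarith) (e2.trans (pr_mono fun a' ⟨k, h3, h4⟩ => ⟨i, k, ?_⟩))
    rw [Suc, hbad_vc]
    simp only [cone, update_self]
    exact ⟨abs_le.2 ⟨by linarith, by linarith⟩, by linarith, by linarith⟩

end HP

end Vale.Agent.P235.Pl
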