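import Vale.Agent.P235P.HBas

/-! P235 planar case: done points of the healing engine, dependence on the seeds. -/

open Set Classical

noncomputable section

namespace Vale.Agent.P235.Pl

variable {π : Par}

namespace HP
variable {P : HP} {hs hs' : HS π}

theorem out_H : (P.out hs).H = P.Hs hs π.nS := rfl

theorem hdone_le (h : 0 < P.s1) {θ : ℕ} {t : ℝ} {m : Fin π.nS} {i k : ℤ} {c : Cell}
    (hc : c ∈ P.act (P.Hs hs m) (cone P.s1 hs m i k))
    (hθ : θ ∈ tm c.1) (ht : t ∈ (cone P.s1 hs m i k).I0)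
    (h1 : P.Hs hs m θ t < (cone P.s1 hs m i k).G t) :
    P.Hs hs (m + 1) θ t ≤ (cone P.s1 hs m i k).G t := by
  rw [Hs_succ]
  refine raise_le h1.le fun i' k' c' _ hc' hθ' ht' => ?_
  rcases le_or_gt ((cone P.s1 hs m i' k').G t) (P.Hs hs m θ t) with h2 | h2
  · exact (min_le_left _ _).trans (h2.trans h1.le)
  obtain rfl : i = i' := I0_unique h ht ht'
  have a1 := hc.2.e12.1 θ hθ t ht
  have a2 := hc'.2.e12.1 θ hθ' t ht'
  rw [cone_s] at a1 a2
  have hp := scl_pos (π := π) h m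
  obtain rfl : k = k' := G_unique h (hs := hs) (m := m) (i := i) (t := t)
    (abs_lt.2 ⟨by linarith, by linarith⟩)
  exact min_le_left _ _

theorem hdone_cases (h : 0 < P.s1) (m : Fin π.nS) (θ : ℕ) (t : ℝ) :
    P.Hs hs (m + 1) θ t = P.Hs hs m θ t ∨ ∃ i k c, Adm P.W P.s1 hs m i k ∧
      c ∈ P.act (P.Hs hs m) (cone P.s1 hs m i k) ∧ θ ∈ tm c.1 ∧ t ∈ (cone P.s1 hs m i k).I0 ∧
      P.Hs hs m θ t < (cone P.s1 hs m i k).G t ∧ P.Hs hs m θ t < c.2 θ t - xim P.s1 hs m ∧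
      P.Hs hs (m + 1) θ t ≤ (cone P.s1 hs m i k).G t := by
  by_cases hx : ∃ i k c, Adm P.W P.s1 hs m i k ∧
      c ∈ P.act (P.Hs hs m) (cone P.s1 hs m i k) ∧ θ ∈ tm c.1 ∧ t ∈ (cone P.s1 hs m i k).I0 ∧
      P.Hs hs m θ t < min ((cone P.s1 hs m i k).G t) (c.2 θ t - xim P.s1 hs m)
  · obtain ⟨i, k, c, ha, hc, hθ, ht, h1⟩ := hx
    have h2 := lt_min_iff.1 h1
    exact Or.inr ⟨i, k, c, ha, hc, hθ, ht, h2.1, h2.2, hdone_le h hc hθ ht h2.1⟩
  · refine Or.inl (le_antisymm ?_ (Hs_mono h (Nat.le_succ _) θ t))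
    rw [Hs_succ]
    exact raise_le le_rfl fun i k c ha hc hθ ht => not_lt.1 fun h1 => hx ⟨i, k, c, ha, hc, hθ, ht, h1⟩

/-- A done point is never raised again: a raising cone `κ'` of a finer scale `s'` has
`G t < κ'.G t ≤ G t + 24 s'` (E1), so `|G κ'.t - κ'.a| ≤ 100 s'`, against admissibility. -/
theorem done_final (h : 0 < P.s1) {θ : ℕ} {t : ℝ} {m : Fin π.nS} {i k : ℤ}
    (hd : P.Done hs θ t m i k) {j : ℕ} (hj : (m : ℕ) < j) :
    P.Hs hs j θ t = (cone P.s1 hs m i k).G t := by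
  induction j, hj using Nat.le_induction with
  | base => exact hd.2.2.2
  | succ j hj ih =>
    rcases lt_or_ge j π.nS with hlt | hge
    swap
    · rw [Hs_of_le (hge.trans (Nat.le_succ j)), ← Hs_of_le hge, ih]
    rcases hdone_cases (hs := hs) h ⟨j, hlt⟩ θ t with e | ⟨i', k', c, ha, hc, hθ, ht, h1, -, -⟩
    · exact e.trans ih
    exfalso
    have hp := scl_pos (π := π) h j
    have a1 := ha.2 m hj i k
    have a2 := hc.2.e12.1 θ hθ t ht
    have a3 := Cone.G_le (cone P.s1 hs ⟨j, hlt⟩ i' k') t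
    have a4 := Cone.le_G (cone P.s1 hs ⟨j, hlt⟩ i' k') hp.le ht
    have a5 := abs_le.1 (Cone.G_lip (cone P.s1 hs m i k) (cone P.s1 hs ⟨j, hlt⟩ i' k').t t)
    have a6 : |(cone P.s1 hs ⟨j, hlt⟩ i' k').t - t| ≤ 52 * scl π P.s1 j := by
      have b1 := ht.1
      have b2 := ht.2
      rw [cone_s] at b1 b2
      exact abs_le.2 ⟨by linarith, by linarith⟩
    rw [cone_s] at a2 a4
    simp only [ih] at h1 a2
    rcases le_abs.1 a1 with a | a <;> linarith [a5.1, a5.2]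

theorem done_unique (h : 0 < P.s1) {θ : ℕ} {t : ℝ} {m m' : Fin π.nS} {i k i' k' : ℤ}
    (hd : P.Done hs θ t m i k) (hd' : P.Done hs θ t m' i' k') : m = m' ∧ i = i' ∧ k = k' := by
  have key : ∀ {m m' : Fin π.nS} {i k i' k' : ℤ}, P.Done hs θ t m i k → P.Done hs θ t m' i' k' →
      ¬ m < m' := by
    intro m m' i k i' k' hd hd' hm
    have e1 := done_final h hd (j := m') hm
    have e2 := done_final h hd (j := m' + 1) (Nat.lt_succ_of_lt hm)
    have e3 := hd'.2.2.1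
    rw [← hd'.2.2.2, e1, e2] at e3
    exact lt_irrefl _ e3
  obtain rfl : m = m' := le_antisymm (not_lt.1 (key hd' hd)) (not_lt.1 (key hd hd'))
  obtain rfl : i = i' := I0_unique h hd.2.1 hd'.2.1
  refine ⟨rfl, rfl, G_unique h (hs := hs) (m := m) (i := i) (t := t) ?_⟩
  rw [← hd.2.2.2, ← hd'.2.2.2, sub_self, abs_zero]
  have := scl_pos (π := π) h m
  positivity

theorem out_done (h : 0 < P.s1) {θ : ℕ} {t : ℝ} {m : Fin π.nS} {i k : ℤ}
    (hd : P.Done hs θ t m i k) : (P.out hs).H θ t = (cone P.s1 hs m i k).G t ∧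
      (P.out hs).dn θ t = ((cone P.s1 hs m i k).slope t, scl π P.s1 m) := by
  refine ⟨done_final h hd m.2, ?_⟩
  have hx : ∃ x : Fin π.nS × ℤ × ℤ, P.Done hs θ t x.1 x.2.1 x.2.2 := ⟨(m, i, k), hd⟩
  obtain ⟨e1, e2, e3⟩ := done_unique h hx.choose_spec hd
  simp only [out, dif_pos hx]
  rw [e2, e3, e1]

theorem out_not_done {θ : ℕ} {t : ℝ} (hd : ∀ m i k, ¬ P.Done hs θ t m i k) :
    (P.out hs).dn θ t = (0, 0) :=
  dif_neg fun ⟨x, hx⟩ => hd x.1 x.2.1 x.2.2 hx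

theorem dn_cases (h : 0 < P.s1) (θ : ℕ) (t : ℝ) : (P.out hs).dn θ t = (0, 0) ∨
    ∃ m i k, P.Done hs θ t m i k ∧ (P.out hs).H θ t = (cone P.s1 hs m i k).G t ∧
      (P.out hs).dn θ t = ((cone P.s1 hs m i k).slope t, scl π P.s1 m) := by
  by_cases hx : ∃ m i k, P.Done hs θ t m i k
  · obtain ⟨m, i, k, hd⟩ := hx
    exact Or.inr ⟨m, i, k, hd, out_done h hd⟩
  · exact Or.inl (out_not_done fun m i k hd => hx ⟨m, i, k, hd⟩)

/-- An active cell above the cone makes the point done: every other term is at most `Hs m` or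
belongs to the same cone (`I0_unique`, `G_unique`, E1). -/
theorem done_of_cell (h : 0 < P.s1) {θ : ℕ} {t : ℝ} {m : Fin π.nS} {i k : ℤ} {c : Cell}
    (ha : Adm P.W P.s1 hs m i k) (hc : c ∈ P.act (P.Hs hs m) (cone P.s1 hs m i k))
    (hθ : θ ∈ tm c.1) (ht : t ∈ (cone P.s1 hs m i k).I0)
    (h1 : P.Hs hs m θ t < (cone P.s1 hs m i k).G t)
    (h2 : (cone P.s1 hs m i k).G t ≤ c.2 θ t - xim P.s1 hs m) : P.Done hs θ t m i k := by
  refine ⟨ha, ht, h1, le_antisymm (hdone_le h hc hθ ht h1) ?_⟩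
  rw [Hs_succ]
  exact (le_min le_rfl h2).trans (term_le_raise h ha hc hθ ht)

/-- A raise at a point comes from one cone. -/
theorem raise_cases (h : 0 < P.s1) (m : Fin π.nS) (θ : ℕ) (t : ℝ) :
    P.Hs hs (m + 1) θ t = P.Hs hs m θ t ∨ ∃ i k c, Adm P.W P.s1 hs m i k ∧
      c ∈ P.act (P.Hs hs m) (cone P.s1 hs m i k) ∧ θ ∈ tm c.1 ∧ t ∈ (cone P.s1 hs m i k).I0 ∧
      P.Hs hs m θ t < (cone P.s1 hs m i k).G t ∧ P.Hs hs m θ t < c.2 θ t - xim P.s1 hs m ∧
      P.Hs hs (m + 1) θ t ≤ (cone P.s1 hs m i k).G t :=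
  hdone_cases h m θ t

theorem cone_congr {s1 : ℝ} {m : Fin π.nS} (h : hs m = hs' m) : cone s1 hs m = cone s1 hs' m := by
  funext i k
  simp only [cone, h]

theorem xim_congr {s1 : ℝ} {m : Fin π.nS} (h : hs m = hs' m) : xim s1 hs m = xim s1 hs' m := by
  simp only [xim, h]

theorem adm_congr {W : Set ℝ} {s1 : ℝ} {m : Fin π.nS} (h : ∀ m' ≤ m, hs m' = hs' m') :
    Adm W s1 hs m = Adm W s1 hs' m := by
  funext i k
  unfold Adm
  rw [cone_congr (h m le_rfl)]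
  refine congrArg _ (propext (forall_congr' fun m' => forall_congr' fun hm => ?_))
  rw [cone_congr (h m' hm.le)]

theorem Hs_congr {j : ℕ} (h : ∀ m : Fin π.nS, (m : ℕ) < j → hs m = hs' m) :
    P.Hs hs j = P.Hs hs' j := by
  induction j with
  | zero => rfl
  | succ j ih =>
    have e := ih fun m hm => h m (Nat.lt_succ_of_lt hm)
    rcases lt_or_ge j π.nS with hlt | hge
    · have e1 : ∀ m' ≤ (⟨j, hlt⟩ : Fin π.nS), hs m' = hs' m' := fun m' hm =>
        h m' (Nat.lt_succ_of_le hm)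
      refine (Hs_succ (hs := hs) ⟨j, hlt⟩).trans (Eq.trans ?_ (Hs_succ (hs := hs') ⟨j, hlt⟩).symm)
      funext θ t
      simp only [raise]
      rw [e, adm_congr e1, cone_congr (e1 _ le_rfl), xim_congr (e1 _ le_rfl)]
    · rw [Hs_of_le (hge.trans (Nat.le_succ j)), Hs_of_le (hge.trans (Nat.le_succ j)),
        ← Hs_of_le hge, e, Hs_of_le hge]

theorem done_congr {m : Fin π.nS} (h : ∀ m' ≤ m, hs m' = hs' m') (θ : ℕ) (t : ℝ) :
    P.Done hs θ t m = P.Done hs' θ t m := by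
  funext i k
  unfold Done
  rw [adm_congr h, cone_congr (h m le_rfl), Hs_congr (hs' := hs') (j := m) fun m' hm => h m' hm.le,
    Hs_congr (hs' := hs') (j := m + 1) fun m' hm => h m' (Nat.lt_succ_iff.1 hm)]

end HP

end Vale.Agent.P235.Pl
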