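import Vale.Agent.P235P.HDefs
import Vale.Agent.P235P.HDone

/-! P235 planar case: functions on the ball of the healing engine. -/

open Set Classical

noncomputable section

namespace Vale.Agent.P235.Pl

variable {π : Par}

namespace HP
variable {P : HP} {b : HB} {w : ℝ} {hs hs' : HS π} {X : Cone → Finset ℝ} {ξ T : ℝ}

theorem Ball.x_mem (hb : P.Ball π b w) : b.x ∈ P.Bl b := by
  have h := hb.u0
  exact ⟨b.x, rfl, 0, by linarith, Reach.refl (hb.win ⟨by linarith, by linarith⟩)⟩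

theorem hball_reach {p : ℕ × ℝ} (hp : p ∈ P.Bl b) :
    ∃ c ≤ 10 * b.u, Reach P.S (P.D.res P.S b.TB) P.W b.x p c := by
  obtain ⟨q, hq, c, hc, h⟩ := hp
  rw [mem_singleton_iff.1 hq] at h
  exact ⟨c, hc, h⟩

theorem Ball.time (hb : P.Ball π b w) {p : ℕ × ℝ} (hp : p ∈ P.Bl b) : p.1 ∈ b.TB := by
  obtain ⟨c, -, h⟩ := hball_reach hp
  exact h.res_mem hb.xT

theorem Bl_abs {p : ℕ × ℝ} (hp : p ∈ P.Bl b) : |p.2 - b.x.2| ≤ 10 * b.u := by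
  obtain ⟨c, hc, h⟩ := hball_reach hp
  exact h.symm.abs_le.trans hc

/-- Scales before the matched one are much larger than the ball. -/
theorem Ball.u_le (hb : P.Ball π b w) {m : ℕ} (hm : m < b.n) : 2 ^ 100 * b.u ≤ scl π P.s1 m := by
  have h1 := scl_lt (π := π) hb.good.s1 hb.m0 hm
  have h2 := hb.le_s
  have h3 := scl_pos (π := π) hb.good.s1 b.n
  norm_num at h1 h2 ⊢
  linarith

theorem Ball.scl_le (hb : P.Ball π b w) (m : ℕ) : 2 ^ 20 * scl π P.s1 m ≤ w := by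
  have h1 := scl_anti (π := π) hb.good.s1 (Nat.zero_le m)
  rw [scl_zero] at h1
  have h2 := hb.top
  linarith

theorem Ball.nq' (hb : P.Ball π b w) : 1 / ((π.Nq : ℝ) + 1) ≤ b.u / (256 * w) := by
  have h0 := hb.u0
  have h1 := hb.uw
  have h2 := hb.nq
  have hw : 0 < w := lt_of_lt_of_le (by positivity) h1
  rw [div_le_div_iff₀ (by positivity) (by positivity)]
  nlinarith

/-- A Lipschitz function that is consistent near the ball varies little on the ball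
(`Reach.shrink`, `Reach.lip` in the restricted diagram, `link_res`). -/
theorem Bl_var {f : ℕ → ℝ → ℝ} {k : ℝ} (hk : 0 ≤ k) (hl : ∀ θ t t', |f θ t - f θ t'| ≤ k * |t - t'|)
    (hc : ∀ θ θ' t, Link P.S P.D θ θ' t → θ ∈ b.TB → θ' ∈ b.TB → t ∈ P.W →
      |t - b.x.2| ≤ 10 * b.u → f θ t = f θ' t) {p : ℕ × ℝ} (hp : p ∈ P.Bl b) :
    |f p.1 p.2 - f b.x.1 b.x.2| ≤ k * (10 * b.u) := by
  obtain ⟨c, hc', h⟩ := hball_reach hp
  have h1 := (h.shrink hc').symm.lip (f := f) (k := k) (fun θ t _ t' _ => hl θ t t')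
    fun θ θ' t ht hk' => by
      have h2 := link_res.1 hk'
      exact hc θ θ' t h2.1 h2.2.1 h2.2.2 ht.1
        (abs_le.2 ⟨by linarith [ht.2.1], by linarith [ht.2.2]⟩)
  exact h1.trans (mul_le_mul_of_nonneg_left hc' hk)

theorem Ball.hball_lip (hb : P.Ball π b w) (j θ : ℕ) (t t' : ℝ) :
    |P.Hs hs j θ t - P.Hs hs j θ t'| ≤ 1 * |t - t'| := by
  rw [one_mul]
  refine Hs_lip hb.good.s1 (fun θ t t' => (hb.good.lip θ t t').trans ?_) j θ t t'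
  linarith [abs_nonneg (t - t')]

theorem Ball.hball_cons (hb : P.Ball π b w) (j : ℕ) {θ θ' : ℕ} {t : ℝ}
    (hl : Link P.S P.D θ θ' t) (h1 : θ ∈ b.TB) (h2 : θ' ∈ b.TB) (ht : t ∈ P.W) :
    P.Hs hs j θ t = P.Hs hs j θ' t :=
  Hs_cons hb.good.s1 hl (hb.good.cons θ θ' t hl ht (hb.sub h1) (hb.sub h2)) j

theorem Ball.Hs_var (hb : P.Ball π b w) (j : ℕ) {p : ℕ × ℝ} (hp : p ∈ P.Bl b) :
    |P.Hs hs j p.1 p.2 - P.vc hs b j| ≤ 10 * b.u := by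
  have h := Bl_var (f := P.Hs hs j) zero_le_one (hb.hball_lip j)
    (fun θ θ' t hl h1 h2 ht _ => hb.hball_cons j hl h1 h2 ht) hp
  rwa [one_mul] at h

theorem le_Emax {H : ℕ → ℝ → ℝ} {κ : Cone} {TB : Set ℕ} {c : Cell} (hc : c ∈ P.act H κ)
    (hT : TB ⊆ tm c.1) (θ : ℕ) (t : ℝ) : c.2 θ t ≤ P.Emax H κ TB θ t := by
  refine le_csSup ⟨κ.a + 2 * κ.s, ?_⟩ ⟨c, hc, hT, rfl⟩
  rintro v ⟨c', hc', -, rfl⟩
  exact hc'.2.cap θ t

theorem Emax_le {H : ℕ → ℝ → ℝ} {κ : Cone} {TB : Set ℕ} (h0 : ∃ c ∈ P.act H κ, TB ⊆ tm c.1)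
    {θ : ℕ} {t v : ℝ} (h : ∀ c ∈ P.act H κ, TB ⊆ tm c.1 → c.2 θ t ≤ v) :
    P.Emax H κ TB θ t ≤ v := by
  obtain ⟨c, hc, hT⟩ := h0
  refine csSup_le ⟨_, c, hc, hT, rfl⟩ ?_
  rintro v' ⟨c', hc', hT', rfl⟩
  exact h c' hc' hT'

theorem exists_lt_Emax {H : ℕ → ℝ → ℝ} {κ : Cone} {TB : Set ℕ} (h0 : ∃ c ∈ P.act H κ, TB ⊆ tm c.1)
    {θ : ℕ} {t v : ℝ} (h : v < P.Emax H κ TB θ t) :
    ∃ c ∈ P.act H κ, TB ⊆ tm c.1 ∧ v < c.2 θ t := by
  by_contra hn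
  exact absurd (Emax_le h0 fun c hc hT => not_lt.1 fun h' => hn ⟨c, hc, hT, h'⟩) (not_le.2 h)

theorem Emax_lip {H : ℕ → ℝ → ℝ} {κ : Cone} {TB : Set ℕ} (h0 : ∃ c ∈ P.act H κ, TB ⊆ tm c.1)
    (θ : ℕ) (t t' : ℝ) : |P.Emax H κ TB θ t - P.Emax H κ TB θ t'| ≤ |t - t'| / 16 := by
  have key : ∀ t t', P.Emax H κ TB θ t ≤ P.Emax H κ TB θ t' + |t - t'| / 16 := fun t t' =>
    Emax_le h0 fun c hc hT => by
      linarith [le_Emax hc hT θ t', (abs_le.1 (hc.2.lip θ t t')).2]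
  have h1 := key t t'
  have h2 := key t' t
  rw [abs_sub_comm] at h2
  exact abs_le.2 ⟨by linarith, by linarith⟩

theorem Emax_cons {H : ℕ → ℝ → ℝ} {κ : Cone} {TB : Set ℕ} {θ θ' : ℕ} {t : ℝ}
    (hl : Link P.S P.D θ θ' t) (ht : t ∈ κ.Ip) (h1 : θ ∈ TB) (h2 : θ' ∈ TB) :
    P.Emax H κ TB θ t = P.Emax H κ TB θ' t := by
  unfold Emax
  refine congrArg sSup (Set.ext fun v => ⟨?_, ?_⟩)
  · rintro ⟨c, hc, hT, rfl⟩
    exact ⟨c, hc, hT, hc.2.cons θ θ' t hl ht (hT h1) (hT h2)⟩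
  · rintro ⟨c, hc, hT, rfl⟩
    exact ⟨c, hc, hT, (hc.2.cons θ θ' t hl ht (hT h1) (hT h2)).symm⟩

/-- A cell whose boundary meets the ball does not raise on the ball: join `p` through the centre to
a ball point with time outside the cell (`hit`), take the first exit (`Reach.exit`), use
`CellOK.bd`, and `E` (`1/16`-Lipschitz) and `Hs` (`1`-Lipschitz) along the part inside the cell. -/
theorem Ball.cell_bd (hb : P.Ball π b w) {j : ℕ} {κ : Cone} {c : Cell}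
    (hc : c ∈ P.act (P.Hs hs j) κ) (hI : Icc (b.x.2 - 100 * b.u) (b.x.2 + 100 * b.u) ⊆ κ.Ip)
    (hT : ¬ b.TB ⊆ tm c.1) {p : ℕ × ℝ} (hp : p ∈ P.Bl b) (hθ : p.1 ∈ tm c.1) :
    c.2 p.1 p.2 ≤ P.Hs hs j p.1 p.2 + 30 * b.u := by
  have hu := hb.u0
  obtain ⟨θ0, h0, h0'⟩ := not_subset.1 hT
  obtain ⟨t0, ht0⟩ := hb.hit θ0 h0
  obtain ⟨c1, hc1, r1⟩ := hball_reach hp
  obtain ⟨c2, hc2, r2⟩ := hball_reach ht0
  have r := (r1.shrink hc1).symm.trans (r2.shrink hc2)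
  obtain ⟨θ, θ', t, d1, d2, k1, k2, k3, k4, k5, k6, k7⟩ := r.exit (A := tm c.1) hθ h0'
  have hIp : ∀ v ∈ P.W ∩ Icc (b.x.2 - 10 * b.u) (b.x.2 + 10 * b.u), v ∈ κ.Ip := fun v hv =>
    hI ⟨by linarith [hv.2.1], by linarith [hv.2.2]⟩
  have e1 := hc.2.bd θ θ' t (link_res.1 k3).1 (hIp t k4) k1 k2
  have e2 := k5.lip (f := c.2) (k := 1 / 16)
    (fun θ t _ t' _ => by linarith [hc.2.lip θ t t']) fun θ θ' t ht hl =>
      hc.2.cons θ θ' t (link_res.1 (link_res.1 hl).1).1 (hIp t ht) (link_res.1 hl).2.1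
        (link_res.1 hl).2.2
  have e3 := k5.of_res.lip (f := P.Hs hs j) (k := 1) (fun θ t _ t' _ => hb.hball_lip j θ t t')
    fun θ θ' t ht hl =>
      hb.hball_cons j (link_res.1 hl).1 (link_res.1 hl).2.1 (link_res.1 hl).2.2 ht.1
  have e4 := k6.nonneg
  have e5 := k5.nonneg
  have e6 := (abs_le.1 e2).2
  have e7 := (abs_le.1 e3).1
  dsimp only at e6 e7
  linarith

/-- On a piece the function agrees on the ball with a `1/16`-Lipschitz consistent function. -/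
theorem Piece.mu (hb : P.Ball π b w) {j : ℕ} (h : P.Piece hs b X j) :
    ∃ μ : ℕ → ℝ → ℝ, (∀ θ t t', |μ θ t - μ θ t'| ≤ |t - t'| / 16) ∧
      (∀ θ θ' t, Link P.S P.D θ θ' t → θ ∈ b.TB → θ' ∈ b.TB → |t - b.x.2| ≤ 100 * b.u →
        μ θ t = μ θ' t) ∧ ∀ p ∈ P.Bl b, P.Hs hs j p.1 p.2 = μ p.1 p.2 := by
  have hI : ∀ t, |t - b.x.2| ≤ 100 * b.u → t ∈ Icc (b.x.2 - 100 * b.u) (b.x.2 + 100 * b.u) :=
    fun t ht => ⟨by linarith [(abs_le.1 ht).1], by linarith [(abs_le.1 ht).2]⟩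
  rcases h.org with h0 | ⟨m, i, k, hB⟩
  · exact ⟨P.H0, hb.good.lip, fun θ θ' t hl h1 h2 ht =>
      hb.good.cons θ θ' t hl (hb.win (hI t ht)) (hb.sub h1) (hb.sub h2), h0⟩
  · refine ⟨fun θ t => P.Emax (P.Hs hs m) (cone P.s1 hs m i k) b.TB θ t - xim P.s1 hs m,
      fun θ t t' => ?_, fun θ θ' t hl h1 h2 ht => ?_, hB.eq⟩
    · have := Emax_lip hB.cell θ t t'
      rwa [sub_sub_sub_cancel_right]
    · have h3 : t ∈ (cone P.s1 hs m i k).Ip :=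
        Cone.I0_sub _ (scl_pos (π := π) hb.good.s1 m).le (hB.ins (hI t ht))
      exact congrArg (· - xim P.s1 hs m) (Emax_cons hl h3 h1 h2)

theorem piece_zero : P.Piece hs b X 0 :=
  ⟨fun _ _ _ _ _ h => absurd h (Nat.not_lt_zero _), fun _ _ _ h => absurd h (Nat.not_lt_zero _),
    Or.inl fun _ _ => rfl⟩

theorem vc_congr {j : ℕ} (h : ∀ m : Fin π.nS, (m : ℕ) < j → hs m = hs' m) :
    P.vc hs b j = P.vc hs' b j := by
  unfold vc
  rw [Hs_congr h]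

theorem hball_le {j : ℕ} (h : ∀ m : Fin π.nS, (m : ℕ) < j → hs m = hs' m) {m : Fin π.nS}
    (hm : (m : ℕ) < j) : ∀ m' ≤ m, hs m' = hs' m' :=
  fun m' h' => h m' (lt_of_le_of_lt (Fin.le_def.1 h') hm)

theorem Beta.hball_congr {j : ℕ} (h : ∀ m : Fin π.nS, (m : ℕ) < j → hs m = hs' m)
    {m : Fin π.nS} {i k : ℤ} (hB : P.Beta hs b X j m i k) : P.Beta hs' b X j m i k := by
  have e1 : cone P.s1 hs m = cone P.s1 hs' m := cone_congr (h m hB.lt)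
  have e2 : xim P.s1 hs m = xim P.s1 hs' m := xim_congr (h m hB.lt)
  have e3 : Adm P.W P.s1 hs m = Adm P.W P.s1 hs' m := adm_congr (hball_le h hB.lt)
  have e4 : P.Hs hs j = P.Hs hs' j := Hs_congr h
  have e5 : P.Hs hs m = P.Hs hs' m := Hs_congr fun m' h' => h m' (h'.trans hB.lt)
  have e6 : P.vc hs b j = P.vc hs' b j := vc_congr h
  have e7 : P.vc hs b m = P.vc hs' b m := vc_congr fun m' h' => h m' (h'.trans hB.lt)
  refine ⟨hB.lt, ?_, ?_, ?_, ?_, ?_, ?_, ?_, ?_⟩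
  · rw [← e3]; exact hB.adm
  · rw [← e1]; exact hB.ins
  · rw [← e1]; exact hB.kink
  · rw [← e1, ← e5]; exact hB.cell
  · rw [← e1, ← e2, ← e4, ← e5]; exact hB.eq
  · rw [← e6, ← e7]; exact hB.up
  · rw [← e1, ← e6]; exact hB.below
  · rw [← e1, ← e6]; exact hB.far

theorem Piece.congr {j : ℕ} (h : ∀ m : Fin π.nS, (m : ℕ) < j → hs m = hs' m)
    (hp : P.Piece hs b X j) : P.Piece hs' b X j := by
  refine ⟨fun p hp' m i k hm => ?_, fun m i k hm => ?_, ?_⟩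
  · rw [← done_congr (hball_le h hm)]
    exact hp.nd p hp' m i k hm
  · rw [← vc_congr h, ← cone_congr (h m hm)]
    exact hp.mg m i k hm
  · rcases hp.org with h0 | ⟨m, i, k, hB⟩
    · rw [← Hs_congr h]
      exact Or.inl h0
    · exact Or.inr ⟨m, i, k, hB.hball_congr h⟩

theorem Mid.congr {j : ℕ} (h : ∀ m : Fin π.nS, (m : ℕ) < j → hs m = hs' m)
    (hp : P.Mid hs b X ξ T j) : P.Mid hs' b X ξ T j := by
  refine ⟨hp.1.congr h, ?_⟩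
  rw [← vc_congr h]
  exact hp.2

theorem DoneB.congr {j : ℕ} (h : ∀ m : Fin π.nS, (m : ℕ) < j → hs m = hs' m)
    (hp : P.DoneB hs b ξ T j) : P.DoneB hs' b ξ T j := by
  obtain ⟨m, i, k, hm, h1, h2⟩ := hp
  refine ⟨m, i, k, hm, fun p hp' => ?_, ?_⟩
  · rw [← done_congr (hball_le h hm)]
    exact h1 p hp'
  · rw [← cone_congr (h m hm)]
    exact h2

/-- The success cone is admissible by the margin of the piece. -/
theorem Ball.suc_adm (hb : P.Ball π b w) (h : P.Piece hs b X b.n) {i k : ℤ}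
    (hk : P.Suc hs b ⟨b.n, hb.nlt⟩ i k) : Adm P.W P.s1 hs ⟨b.n, hb.nlt⟩ i k := by
  have hs0 := scl_pos (π := π) hb.good.s1 b.n
  have hs1 := hb.s_le
  have k1 : |b.x.2 - (cone P.s1 hs ⟨b.n, hb.nlt⟩ i k).t| ≤ scl π P.s1 b.n := hk.1
  have k2 : P.vc hs b b.n + 11 * scl π P.s1 b.n ≤ (cone P.s1 hs ⟨b.n, hb.nlt⟩ i k).a := hk.2.1
  have k3 : (cone P.s1 hs ⟨b.n, hb.nlt⟩ i k).a ≤ P.vc hs b b.n + 12 * scl π P.s1 b.n := hk.2.2
  have k4 := abs_le.1 k1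
  norm_num at hs1
  refine ⟨fun t ht => hb.win ?_, fun m' hm i' k' => ?_⟩
  · have h1 : (cone P.s1 hs ⟨b.n, hb.nlt⟩ i k).t - 60 * scl π P.s1 b.n ≤ t := ht.1
    have h2 : t ≤ (cone P.s1 hs ⟨b.n, hb.nlt⟩ i k).t + 60 * scl π P.s1 b.n := ht.2
    exact ⟨by linarith [k4.2], by linarith [k4.1]⟩
  · have h1 := h.mg m' i' k' (Fin.lt_def.1 hm)
    have h2 := abs_le.1 (((cone P.s1 hs m' i' k').G_lip b.x.2 _).trans k1)
    show 128 * scl π P.s1 b.n ≤ _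
    rcases le_abs'.1 h1 with h3 | h3
    · exact le_abs.2 (Or.inl (by linarith [h2.1, h2.2]))
    · exact le_abs.2 (Or.inr (by linarith [h2.1, h2.2]))

/-- Without a cone near the level, the matched scale and the finer ones change almost nothing. -/
theorem Ball.nor_le (hb : P.Ball π b w) (h : P.NoR hs b ⟨b.n, hb.nlt⟩) (θ : ℕ) {t : ℝ}
    (ht : |t - b.x.2| ≤ 2 * scl π P.s1 b.n) : P.Hs hs b.n θ t ≤ (P.out hs).H θ t ∧
      (P.out hs).H θ t ≤ P.Hs hs b.n θ t + scl π P.s1 b.n / 1024 := by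
  refine ⟨Hs_mono hb.good.s1 hb.nlt.le θ t, ?_⟩
  have e : P.Hs hs (b.n + 1) θ t = P.Hs hs b.n θ t := by
    refine Hs_succ_eq ⟨b.n, hb.nlt⟩ fun i k hI => ?_
    have h1 : 54 * scl π P.s1 b.n < |b.x.2 - (cone P.s1 hs ⟨b.n, hb.nlt⟩ i k).t| := h i
    have h2 : (cone P.s1 hs ⟨b.n, hb.nlt⟩ i k).t - 52 * scl π P.s1 b.n ≤ t := hI.1
    have h3 : t ≤ (cone P.s1 hs ⟨b.n, hb.nlt⟩ i k).t + 52 * scl π P.s1 b.n := hI.2
    have h4 := abs_le.1 ht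
    exact absurd h1 (not_lt.2 (abs_le.2 ⟨by linarith [h4.2], by linarith [h4.1]⟩))
  have h1 := Hs_le_add (hs := hs) hb.good.s1 hb.m0 (b.n + 1) π.nS θ t
  have h2 := scl_lt (π := π) hb.good.s1 hb.m0 (Nat.lt_succ_self b.n)
  have h3 := scl_pos (π := π) hb.good.s1 (b.n + 1)
  rw [out_H]
  norm_num at h2
  linarith

theorem Ball.out_le (hb : P.Ball π b w) (j θ : ℕ) (t : ℝ) (hj : j ≤ π.nS) :
    P.Hs hs j θ t ≤ (P.out hs).H θ t ∧
      (P.out hs).H θ t ≤ P.Hs hs j θ t + 27 * scl π P.s1 j :=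
  ⟨Hs_mono hb.good.s1 hj θ t, Hs_le_add hb.good.s1 hb.m0 j π.nS θ t⟩

end HP

end Vale.Agent.P235.Pl
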