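import Vale.Agent.P235P.Heal

/-! P235 planar case: basic facts on the healing engine. -/

open Set Classical

noncomputable section

namespace Vale.Agent.P235.Pl

variable {π : Par}

theorem scl_pos {s1 : ℝ} (h : 0 < s1) (m : ℕ) : 0 < scl π s1 m :=
  div_pos h (by positivity)

theorem scl_zero (s1 : ℝ) : scl π s1 0 = s1 := by
  simp [scl]

theorem scl_succ (s1 : ℝ) (m : ℕ) : scl π s1 (m + 1) = scl π s1 m / 2 ^ π.m0 := by
  rw [scl, scl, Nat.mul_succ, pow_add, div_div]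

theorem scl_anti {s1 : ℝ} (h : 0 < s1) {m m' : ℕ} (hm : m ≤ m') : scl π s1 m' ≤ scl π s1 m :=
  div_le_div_of_nonneg_left h.le (by positivity)
    (pow_le_pow_right₀ one_le_two (Nat.mul_le_mul_left _ hm))

/-- A finer scale is much smaller. -/
theorem scl_lt {s1 : ℝ} (h : 0 < s1) (h0 : 200 ≤ π.m0) {m m' : ℕ} (hm : m < m') :
    2 ^ 200 * scl π s1 m' ≤ scl π s1 m := by
  have h1 := scl_anti (π := π) h (Nat.succ_le_of_lt hm)
  rw [scl_succ, le_div_iff₀ (by positivity), mul_comm] at h1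
  exact (mul_le_mul_of_nonneg_right (pow_le_pow_right₀ one_le_two h0) (scl_pos h _).le).trans h1

theorem hbas_uq (k : Qn π) {a b : ℝ} (h : a ≤ b) : a ≤ uq k a b ∧ uq k a b ≤ b := by
  have h0 : (0 : ℝ) < π.Nq + 1 := by positivity
  have h1 : ((k : ℕ) : ℝ) ≤ π.Nq + 1 := by exact_mod_cast k.2.le
  have h2 : (b - a) * ((k : ℕ) : ℝ) / (π.Nq + 1) ≤ b - a := by
    rw [div_le_iff₀ h0]
    exact mul_le_mul_of_nonneg_left h1 (sub_nonneg.2 h)
  have h3 : 0 ≤ (b - a) * ((k : ℕ) : ℝ) / (π.Nq + 1) :=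
    div_nonneg (mul_nonneg (sub_nonneg.2 h) (Nat.cast_nonneg _)) h0.le
  unfold uq
  constructor <;> linarith

theorem xim_mem {s1 : ℝ} (h : 0 < s1) (hs : HS π) (m : Fin π.nS) :
    scl π s1 m ≤ xim s1 hs m ∧ xim s1 hs m ≤ 2 * scl π s1 m :=
  hbas_uq _ (by linarith [scl_pos (π := π) h m])

theorem cone_s (s1 : ℝ) (hs : HS π) (m : Fin π.nS) (i k : ℤ) : (cone s1 hs m i k).s = scl π s1 m :=
  rfl

theorem cone_t (s1 : ℝ) (hs : HS π) (m : Fin π.nS) (i k : ℤ) :
    (cone s1 hs m i k).t = (cone s1 hs m 0 0).t + 256 * scl π s1 m * i := by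
  simp [cone]

theorem cone_a (s1 : ℝ) (hs : HS π) (m : Fin π.nS) (i k : ℤ) :
    (cone s1 hs m i k).a = (cone s1 hs m 0 0).a + 256 * scl π s1 m * k := by
  simp [cone]

theorem Cone.G_lip (κ : Cone) (t t' : ℝ) : |κ.G t - κ.G t'| ≤ |t - t'| := by
  have h1 := abs_sub_le t t' κ.t
  have h2 := abs_sub_le t' t κ.t
  rw [abs_sub_comm t' t] at h2
  have h3 := abs_nonneg (t - t')
  unfold Cone.G
  rw [abs_le]
  rcases max_cases 0 (|t - κ.t| - 28 * κ.s) with a | a <;>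
    rcases max_cases 0 (|t' - κ.t| - 28 * κ.s) with b | b <;>
    constructor <;> linarith [a.1, a.2, b.1, b.2]

theorem Cone.G_le (κ : Cone) (t : ℝ) : κ.G t ≤ κ.a := sub_le_self _ (le_max_left _ _)

theorem Cone.le_G (κ : Cone) (h : 0 ≤ κ.s) {t : ℝ} (ht : t ∈ κ.I0) : κ.a - 24 * κ.s ≤ κ.G t := by
  have h1 : |t - κ.t| ≤ 52 * κ.s := abs_le.2 ⟨by linarith [ht.1], by linarith [ht.2]⟩
  exact sub_le_sub_left (max_le (by linarith) (by linarith)) _

theorem Cone.G_core (κ : Cone) {t : ℝ} (ht : |t - κ.t| ≤ 28 * κ.s) : κ.G t = κ.a := by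
  rw [Cone.G, max_eq_left (by linarith), sub_zero]

theorem Cone.I0_sub (κ : Cone) (h : 0 ≤ κ.s) : κ.I0 ⊆ κ.Ip :=
  Icc_subset_Icc (by linarith) (by linarith)

theorem Cone.slope_mem (κ : Cone) (t : ℝ) : κ.slope t = -1 ∨ κ.slope t = 0 ∨ κ.slope t = 1 := by
  unfold Cone.slope
  split_ifs <;> simp

/-- Away from the kinks the cone is affine. -/
theorem Cone.G_aff (κ : Cone) (h : 0 ≤ κ.s) {t t' d : ℝ} (hk : d ≤ |(|t - κ.t|) - 28 * κ.s|)
    (ht : |t' - t| < d) (hd : d ≤ 28 * κ.s) :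
    κ.slope t' = κ.slope t ∧ κ.G t' = κ.G t + κ.slope t * (t' - t) := by
  obtain ⟨h1, h2⟩ := abs_lt.1 ht
  have hd0 : 0 < d := (abs_nonneg _).trans_lt ht
  rcases le_abs'.1 hk with hk | hk
  · obtain ⟨h3, h4⟩ := abs_le.1 (show |t - κ.t| ≤ 28 * κ.s - d by linarith)
    have e1 : κ.slope t = 0 := by
      rw [Cone.slope, if_neg (by linarith), if_pos (by linarith)]
    have e2 : κ.slope t' = 0 := by
      rw [Cone.slope, if_neg (by linarith), if_pos (by linarith)]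
    rw [e1, e2, κ.G_core (t := t) (by linarith),
      κ.G_core (t := t') (abs_le.2 ⟨by linarith, by linarith⟩), zero_mul, add_zero]
    exact ⟨rfl, rfl⟩
  · rcases le_abs'.1 (show 28 * κ.s + d ≤ |t - κ.t| by linarith) with h3 | h3
    · have e1 : κ.slope t = 1 := by rw [Cone.slope, if_pos (by linarith)]
      have e2 : κ.slope t' = 1 := by rw [Cone.slope, if_pos (by linarith)]
      rw [e1, e2, Cone.G, Cone.G, abs_of_neg (a := t - κ.t) (by linarith),
        abs_of_neg (a := t' - κ.t) (by linarith), max_eq_right (by linarith),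
        max_eq_right (by linarith)]
      exact ⟨rfl, by ring⟩
    · have e1 : κ.slope t = -1 := by
        rw [Cone.slope, if_neg (by linarith), if_neg (by linarith)]
      have e2 : κ.slope t' = -1 := by
        rw [Cone.slope, if_neg (by linarith), if_neg (by linarith)]
      rw [e1, e2, Cone.G, Cone.G, abs_of_pos (a := t - κ.t) (by linarith),
        abs_of_pos (a := t' - κ.t) (by linarith), max_eq_right (by linarith),
        max_eq_right (by linarith)]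
      exact ⟨rfl, by ring⟩

theorem hbas_int {s : ℝ} (hs : 0 < s) {i j : ℤ} (h1 : s * i < s * (j + 1))
    (h2 : s * j < s * (i + 1)) : i = j := by
  have a1 : i < j + 1 := by exact_mod_cast lt_of_mul_lt_mul_left h1 hs.le
  have a2 : j < i + 1 := by exact_mod_cast lt_of_mul_lt_mul_left h2 hs.le
  omega

/-- The ranges `I0` of different columns of cones are disjoint (`104 s < 256 s`). -/
theorem I0_unique {s1 : ℝ} (h : 0 < s1) {hs : HS π} {m : Fin π.nS} {i k i' k' : ℤ} {t : ℝ}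
    (h1 : t ∈ (cone s1 hs m i k).I0) (h2 : t ∈ (cone s1 hs m i' k').I0) : i = i' := by
  have h0 := scl_pos (π := π) h m
  obtain ⟨a1, a2⟩ := h1
  obtain ⟨b1, b2⟩ := h2
  rw [cone_t, cone_s] at a1 a2 b1 b2
  exact hbas_int h0 (by linarith) (by linarith)

/-- Cones of one column differ by multiples of `256 s`. -/
theorem G_unique {s1 : ℝ} (h : 0 < s1) {hs : HS π} {m : Fin π.nS} {i k k' : ℤ} {t : ℝ}
    (h1 : |(cone s1 hs m i k).G t - (cone s1 hs m i k').G t| < 256 * scl π s1 m) : k = k' := by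
  have e : (cone s1 hs m i k).G t - (cone s1 hs m i k').G t = 256 * scl π s1 m * (k - k') := by
    simp only [Cone.G, cone]
    ring
  rw [e] at h1
  obtain ⟨a1, a2⟩ := abs_lt.1 h1
  exact hbas_int (scl_pos (π := π) h m) (by linarith) (by linarith)

namespace HP
variable {P : HP} {hs : HS π}

theorem Hs_succ (m : Fin π.nS) : P.Hs hs (m + 1) = P.raise hs (P.Hs hs m) m := by
  rw [Hs, dif_pos m.2]

theorem Hs_of_le {m : ℕ} (h : π.nS ≤ m) : P.Hs hs m = P.Hs hs π.nS := by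
  induction m, h using Nat.le_induction with
  | base => rfl
  | succ n hn ih => rw [Hs, dif_neg (not_lt.2 hn), ih]

theorem hbas_bdd (h : 0 < P.s1) (H : ℕ → ℝ → ℝ) (m : Fin π.nS) (θ : ℕ) (t : ℝ) :
    BddAbove (insert (H θ t) {v | ∃ i k, Adm P.W P.s1 hs m i k ∧
      ∃ c ∈ P.act H (cone P.s1 hs m i k), θ ∈ tm c.1 ∧ t ∈ (cone P.s1 hs m i k).I0 ∧
      v = min ((cone P.s1 hs m i k).G t) (c.2 θ t - xim P.s1 hs m)}) := by
  refine ⟨H θ t + 24 * scl π P.s1 m, ?_⟩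
  rintro _ (rfl | ⟨i, k, -, c, hc, hθ, ht, rfl⟩)
  · linarith [scl_pos (π := π) h m]
  · exact (min_le_left _ _).trans (hc.2.e12.1 θ hθ t ht)

/-- Every term of the supremum is at most `G t ≤ H + 24 s` (E1). -/
theorem le_raise (h : 0 < P.s1) (H : ℕ → ℝ → ℝ) (m : Fin π.nS) (θ : ℕ) (t : ℝ) :
    H θ t ≤ P.raise hs H m θ t :=
  le_csSup (hbas_bdd h H m θ t) (mem_insert _ _)

theorem term_le_raise (h : 0 < P.s1) {H : ℕ → ℝ → ℝ} {m : Fin π.nS} {i k : ℤ} {c : Cell}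
    {θ : ℕ} {t : ℝ} (ha : Adm P.W P.s1 hs m i k) (hc : c ∈ P.act H (cone P.s1 hs m i k))
    (hθ : θ ∈ tm c.1) (ht : t ∈ (cone P.s1 hs m i k).I0) :
    min ((cone P.s1 hs m i k).G t) (c.2 θ t - xim P.s1 hs m) ≤ P.raise hs H m θ t :=
  le_csSup (hbas_bdd h H m θ t) (mem_insert_of_mem _ ⟨i, k, ha, c, hc, hθ, ht, rfl⟩)

theorem raise_le {H : ℕ → ℝ → ℝ} {m : Fin π.nS} {θ : ℕ} {t v : ℝ} (h0 : H θ t ≤ v)
    (h1 : ∀ i k c, Adm P.W P.s1 hs m i k → c ∈ P.act H (cone P.s1 hs m i k) → θ ∈ tm c.1 →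
      t ∈ (cone P.s1 hs m i k).I0 →
      min ((cone P.s1 hs m i k).G t) (c.2 θ t - xim P.s1 hs m) ≤ v) :
    P.raise hs H m θ t ≤ v := by
  refine csSup_le (insert_nonempty _ _) ?_
  rintro _ (rfl | ⟨i, k, ha, c, hc, hθ, ht, rfl⟩)
  · exact h0
  · exact h1 i k c ha hc hθ ht

theorem raise_le_add (h : 0 < P.s1) (H : ℕ → ℝ → ℝ) (m : Fin π.nS) (θ : ℕ) (t : ℝ) :
    P.raise hs H m θ t ≤ H θ t + 24 * scl π P.s1 m :=
  raise_le (by linarith [scl_pos (π := π) h m]) fun _ _ _ _ hc hθ ht =>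
    (min_le_left _ _).trans (hc.2.e12.1 θ hθ t ht)

theorem Hs_mono (h : 0 < P.s1) {m m' : ℕ} (hm : m ≤ m') (θ : ℕ) (t : ℝ) :
    P.Hs hs m θ t ≤ P.Hs hs m' θ t := by
  refine monotone_nat_of_le_succ (f := fun n => P.Hs hs n θ t) (fun n => ?_) hm
  rw [Hs]
  split_ifs with hn
  · exact le_raise h _ _ _ _
  · exact le_rfl

theorem Hs_succ_le (h : 0 < P.s1) (m : ℕ) (θ : ℕ) (t : ℝ) :
    P.Hs hs (m + 1) θ t ≤ P.Hs hs m θ t + 24 * scl π P.s1 m := by
  rw [Hs]
  split_ifs with hn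
  · exact raise_le_add h _ ⟨m, hn⟩ _ _
  · linarith [scl_pos (π := π) h m]

/-- Total raise after the scales `< m` (induct: `Hs m' + 27 scl m'` is nonincreasing in `m'`). -/
theorem Hs_le_add (h : 0 < P.s1) (h0 : 200 ≤ π.m0) (m m' : ℕ) (θ : ℕ) (t : ℝ) :
    P.Hs hs m' θ t ≤ P.Hs hs m θ t + 27 * scl π P.s1 m := by
  rcases le_total m' m with hm | hm
  · linarith [Hs_mono (hs := hs) h hm θ t, scl_pos (π := π) h m]
  · have key : P.Hs hs m' θ t + 27 * scl π P.s1 m' ≤ P.Hs hs m θ t + 27 * scl π P.s1 m := by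
      induction m', hm using Nat.le_induction with
      | base => exact le_rfl
      | succ n hn ih =>
        have h1 : 9 * scl π P.s1 (n + 1) ≤ scl π P.s1 n :=
          (mul_le_mul_of_nonneg_right (by norm_num) (scl_pos h _).le).trans
            (scl_lt h h0 n.lt_succ_self)
        linarith [Hs_succ_le (hs := hs) h n θ t]
    linarith [scl_pos (π := π) h m']

theorem hbas_lip (h : 0 < P.s1) {H : ℕ → ℝ → ℝ} {θ : ℕ}
    (hl : ∀ t t', |H θ t - H θ t'| ≤ |t - t'|) (m : Fin π.nS) (t t' : ℝ) :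
    P.raise hs H m θ t ≤ P.raise hs H m θ t' + |t - t'| := by
  have h0 := le_raise (hs := hs) h H m θ t'
  refine raise_le (by linarith [(abs_le.1 (hl t t')).2]) fun i k c ha hc hθ ht => ?_
  by_cases ht' : t' ∈ (cone P.s1 hs m i k).I0
  · refine le_trans ?_ (add_le_add_left (term_le_raise h ha hc hθ ht') _)
    have a1 := (abs_le.1 ((cone P.s1 hs m i k).G_lip t t')).2
    have a2 := (abs_le.1 (hc.2.lip θ t t')).2
    have a3 := abs_nonneg (t - t')
    rw [← min_add_add_right]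
    exact min_le_min (by linarith) (by linarith)
  · refine (min_le_left _ _).trans ?_
    obtain ⟨e1, e2⟩ := hc.2.e12.2 θ hθ
    obtain ⟨b1, b2⟩ := ht
    rcases not_and_or.1 ht' with g | g
    · have g := not_le.1 g
      have a1 := (abs_le.1 ((cone P.s1 hs m i k).G_lip t
        ((cone P.s1 hs m i k).t - 52 * (cone P.s1 hs m i k).s))).2
      have a2 := (abs_le.1 (hl ((cone P.s1 hs m i k).t - 52 * (cone P.s1 hs m i k).s) t')).2
      rw [abs_of_nonneg (by linarith)] at a1 a2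
      rw [abs_of_nonneg (by linarith)]
      linarith
    · have g := not_le.1 g
      have a1 := (abs_le.1 ((cone P.s1 hs m i k).G_lip t
        ((cone P.s1 hs m i k).t + 52 * (cone P.s1 hs m i k).s))).2
      have a2 := (abs_le.1 (hl ((cone P.s1 hs m i k).t + 52 * (cone P.s1 hs m i k).s) t')).2
      rw [abs_of_nonpos (by linarith)] at a1 a2
      rw [abs_of_nonpos (by linarith)]
      linarith

/-- A term at `t ∈ I0`: if `t' ∈ I0` compare with the term at `t'`; otherwise use E2 at the end of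
`I0` between `t` and `t'`. -/
theorem Hs_lip (h : 0 < P.s1) (hl : ∀ θ t t', |P.H0 θ t - P.H0 θ t'| ≤ |t - t'|) (m θ : ℕ)
    (t t' : ℝ) : |P.Hs hs m θ t - P.Hs hs m θ t'| ≤ |t - t'| := by
  induction m generalizing t t' with
  | zero => exact hl θ t t'
  | succ n ih =>
    rw [Hs]
    split_ifs with hn
    · have a1 := hbas_lip (hs := hs) h ih ⟨n, hn⟩ t t'
      have a2 := hbas_lip (hs := hs) h ih ⟨n, hn⟩ t' t
      rw [abs_sub_comm] at a2
      exact abs_le.2 ⟨by linarith, by linarith⟩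
    · exact ih t t'

/-- The comparison lemma (H star): two times at the same value. -/
theorem hstar (h : 0 < P.s1) {θ θ' : ℕ} {t : ℝ} (h0 : P.H0 θ t ≤ P.H0 θ' t)
    (h1 : ∀ (m : Fin π.nS) i k c, Adm P.W P.s1 hs m i k →
      c ∈ P.act (P.Hs hs m) (cone P.s1 hs m i k) → θ ∈ tm c.1 → t ∈ (cone P.s1 hs m i k).I0 →
      c.2 θ t ≤ P.Hs hs m θ t ∨ (θ' ∈ tm c.1 ∧ c.2 θ t ≤ c.2 θ' t)) (m : ℕ) :
    P.Hs hs m θ t ≤ P.Hs hs m θ' t := by
  induction m with
  | zero => exact h0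
  | succ n ih =>
    rw [Hs]
    split_ifs with hn
    · have a0 := ih.trans (le_raise (hs := hs) h (P.Hs hs n) ⟨n, hn⟩ θ' t)
      refine raise_le a0 fun i k c ha hc hθ ht => ?_
      rcases h1 ⟨n, hn⟩ i k c ha hc hθ ht with g | ⟨g1, g2⟩
      · have a1 := (xim_mem h hs ⟨n, hn⟩).1
        have a2 := scl_pos (π := π) h n
        exact (min_le_right _ _).trans (le_trans (by linarith) (g.trans a0))
      · exact (min_le_min_left _ (sub_le_sub_right g2 _)).trans (term_le_raise h ha hc g1 ht)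
    · exact ih

theorem hbas_cons (h : 0 < P.s1) {θ θ' : ℕ} {t : ℝ} (hl : Link P.S P.D θ θ' t)
    (h0 : P.H0 θ t ≤ P.H0 θ' t) (m : ℕ) : P.Hs hs m θ t ≤ P.Hs hs m θ' t := by
  refine hstar h h0 (fun m i k c _ hc hθ ht => ?_) m
  have ht' := (cone P.s1 hs m i k).I0_sub (scl_pos h _).le ht
  by_cases g : θ' ∈ tm c.1
  · exact Or.inr ⟨g, (hc.2.cons θ θ' t hl ht' hθ g).le⟩
  · exact Or.inl (hc.2.bd θ θ' t hl ht' hθ g)

/-- Consistency along a link (from `hstar` in both directions, `CellOK.cons`, `CellOK.bd`). -/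
theorem Hs_cons (h : 0 < P.s1) {θ θ' : ℕ} {t : ℝ} (hl : Link P.S P.D θ θ' t)
    (h0 : P.H0 θ t = P.H0 θ' t) (m : ℕ) : P.Hs hs m θ t = P.Hs hs m θ' t :=
  le_antisymm (hbas_cons h hl h0.le m) (hbas_cons h hl.symm h0.ge m)

/-- No raise outside the ranges `I0`. -/
theorem Hs_succ_eq (m : Fin π.nS) {θ : ℕ} {t : ℝ} (h : ∀ i k, t ∉ (cone P.s1 hs m i k).I0) :
    P.Hs hs (m + 1) θ t = P.Hs hs m θ t := by
  rw [Hs_succ, raise]
  refine IsGreatest.csSup_eq ⟨mem_insert _ _, ?_⟩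
  rintro _ (rfl | ⟨i, k, -, c, -, -, ht, -⟩)
  · exact le_rfl
  · exact absurd ht (h i k)

end HP

end Vale.Agent.P235.Pl
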