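import Vale.Agent.P235P.HNode

/-! P235 planar case: the state after a birth. -/

open Set Classical

noncomputable section

namespace Vale.Agent.P235.Pl

variable {S : Sk} {π : Par} {Y : Sys S π} {N : NodeC Y} {c : Ctx S} {s : St} {V : ℕ → ℝ → ℝ}
  {A : ℝ} {y : ℕ} {I : ℕ × ℕ} {co : Coins S} {dd : Qn π × Qn π} {eo : Fin (2 * π.m0 + 2) × Qn π}
  {P : HP}

theorem hnon_key (h : At Y c s N V A y I co dd eo) (hP : HealAt Y c s V A I co dd eo P)
    (u : Qn π × Qn π × HS π) (σ : Bool) {X : Cone → Finset ℝ}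
    (hm : P.Mid u.2.2 (c.hb V A I (nIdx π y)) X (xi0 s (co, dd, u, σ, eo))
      (trap s (co, dd, u, σ, eo) (c.vx V)) (nIdx π y)) {p q : ℕ × ℝ} (hp : p ∈ c.thick V A)
    (hq : q ∈ c.thick V A) {k : ℝ}
    (hr : Reach S ((Y.Dp s (co, dd, u, σ, eo)).res S (Prod.fst '' c.ball 8))
      (Icc (c.vx V - 100 * (A * c.r)) (c.vx V + 100 * (A * c.r))) p q k) :
    |Y.psi s (co, dd, u, σ, eo) p.1 p.2 - Y.psi s (co, dd, u, σ, eo) q.1 q.2| ≤
      k / 16 + 27 * (A * c.rs) := by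
  obtain ⟨hb, hsc⟩ := h.ball hP
  obtain ⟨μ, hl, hc, he⟩ := HP.Piece.mu hb hm.1
  have hn := h.big.nIdx_lt.1.le
  have e1 := (h.mid_psi hP u σ hm hp).2.2.2.2
  have e2 := (h.mid_psi hP u σ hm hq).2.2.2.2
  have o1 := hb.out_le (hs := u.2.2) (nIdx π y) p.1 p.2 hn
  have o2 := hb.out_le (hs := u.2.2) (nIdx π y) q.1 q.2 hn
  rw [he p (h.thick_sub hP _ hp), hsc] at o1
  rw [he q (h.thick_sub hP _ hq), hsc] at o2
  have hv : |μ p.1 p.2 - μ q.1 q.2| ≤ 1 / 16 * k := by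
    refine hr.lip (fun θ t _ t' _ => ?_) (fun θ θ' t ht hl' => ?_)
    · have := hl θ t t'
      linarith
    · obtain ⟨a1, a2, a3⟩ := link_res.1 hl'
      refine hc θ θ' t ?_ a2 a3 ?_
      · rw [hP.hS, hP.hD u σ]
        exact a1
      · show |t - c.vx V| ≤ 100 * (A * c.r)
        exact abs_le.2 ⟨by linarith [ht.1], by linarith [ht.2]⟩
  rw [e1, e2]
  obtain ⟨b1, b2⟩ := abs_le.1 hv
  exact abs_le.2 ⟨by linarith [o1.1, o1.2, o2.1, o2.2], by linarith [o1.1, o1.2, o2.1, o2.2]⟩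

theorem hnon_sg (ρ : Rnd S π) (a : ℝ) : |sg ρ * a| = |a| := by
  rw [abs_mul, abs_sg, one_mul]

theorem hnon_slope (h : At Y c s N V A y I co dd eo) (hP : HealAt Y c s V A I co dd eo P)
    (u : Qn π × Qn π × HS π) (σ : Bool) {X : Cone → Finset ℝ}
    (hm : P.Mid u.2.2 (c.hb V A I (nIdx π y)) X (xi0 s (co, dd, u, σ, eo))
      (trap s (co, dd, u, σ, eo) (c.vx V)) (nIdx π y)) {θ : ℕ} {t t' : ℝ}
    (hp : (θ, t) ∈ c.ball 8) (hq : (θ, t') ∈ c.ball 8) (htt : t ≤ t') :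
    A * (15 / 16 * (t' - t) - 27 * c.rs) ≤
      Y.Psi s (co, dd, u, σ, eo) θ (V θ t') - Y.Psi s (co, dd, u, σ, eo) θ (V θ t) := by
  obtain ⟨b, hb⟩ := h.aff
  have hA := h.rep.pos
  have hAr : 0 < A * c.r := mul_pos hA c.h_r_pos
  have e1 : V θ t = A * t + b := (hb _ hp).1
  have e2 : V θ t' = A * t' + b := (hb _ hq).1
  have t1 := h.mem_thick hp
  have t2 := h.mem_thick hq
  have a1 := abs_le.1 (h.thick_abs t1).1
  have a2 := abs_le.1 (h.thick_abs t2).1
  have hk := hnon_key h hP u σ hm t2 t1 (Reach.col _ _ θ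
    ⟨by linarith [a2.1], by linarith [a2.2]⟩ ⟨by linarith [a1.1], by linarith [a1.2]⟩)
  have hd : V θ t' - V θ t = A * (t' - t) := by rw [e1, e2]; ring
  have hd0 : 0 ≤ A * (t' - t) := mul_nonneg hA.le (by linarith)
  simp only at hk
  rw [hd, abs_of_nonneg hd0, ← hnon_sg (co, dd, u, σ, eo)] at hk
  have := (abs_le.1 hk).1
  unfold Sys.Psi
  linarith

theorem hnon_flat (h : At Y c s N V A y I co dd eo) (hP : HealAt Y c s V A I co dd eo P)
    (u : Qn π × Qn π × HS π) (σ : Bool) {X : Cone → Finset ℝ}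
    (hm : P.Mid u.2.2 (c.hb V A I (nIdx π y)) X (xi0 s (co, dd, u, σ, eo))
      (trap s (co, dd, u, σ, eo) (c.vx V)) (nIdx π y)) (p : ℕ × ℝ) (hp : p ∈ c.ball 7) (v : ℝ)
    (e : Y.Psi s (co, dd, u, σ, eo) p.1 v = Y.Psi s (co, dd, u, σ, eo) p.1 (V p.1 p.2)) :
    ∃ t', (p.1, t') ∈ c.ball 8 ∧ V p.1 t' = v := by
  obtain ⟨θ, t⟩ := p
  obtain ⟨b, hb⟩ := h.aff
  have hA := h.rep.pos
  have hr := c.h_r_pos
  have h8 : (θ, t) ∈ c.ball 8 := c.h_ball_mono (by norm_num) hp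
  have hv : ∀ t', |t' - t| ≤ c.r → (θ, t') ∈ c.ball 8 := fun t' ht' => by
    have := Ctx.h_ball_vert (d := 1) (t' := t') hp (by linarith)
    rwa [show (7 : ℝ) + 1 = 8 by norm_num] at this
  have hpos : 0 < A * (15 / 16 * c.r - 27 * c.rs) :=
    mul_pos hA (by linarith [c.le_r, c.rs_pos])
  have hm1 := hv (t + c.r) (by rw [add_sub_cancel_left, abs_of_pos hr])
  have hm2 := hv (t - c.r) (by rw [sub_sub_cancel_left, abs_neg, abs_of_pos hr])
  have s1 := hnon_slope h hP u σ hm h8 hm1 (by linarith)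
  have s2 := hnon_slope h hP u σ hm hm2 h8 (by linarith)
  rw [add_sub_cancel_left] at s1
  rw [sub_sub_cancel] at s2
  have e1 : V θ (t + c.r) = A * (t + c.r) + b := (hb _ hm1).1
  have e2 : V θ (t - c.r) = A * (t - c.r) + b := (hb _ hm2).1
  simp only at e
  have u1 : v < V θ (t + c.r) := by
    by_contra hc
    have := Y.Psi_mono' (s := s) (co, dd, u, σ, eo) θ (not_lt.1 hc)
    linarith
  have u2 : V θ (t - c.r) < v := by
    by_contra hc
    have := Y.Psi_mono' (s := s) (co, dd, u, σ, eo) θ (not_lt.1 hc)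
    linarith
  have hab : |(v - b) / A - t| ≤ c.r := by
    rw [abs_le]
    constructor
    · rw [le_sub_iff_add_le, le_div_iff₀ hA]
      linarith
    · rw [sub_le_iff_le_add, div_le_iff₀ hA]
      linarith
  refine ⟨(v - b) / A, hv _ hab, ?_⟩
  have e3 : V θ ((v - b) / A) = A * ((v - b) / A) + b := (hb _ (hv _ hab)).1
  show V θ ((v - b) / A) = v
  rw [e3]
  field_simp
  ring

theorem hnon_lab (h : At Y c s N V A y I co dd eo) (hP : HealAt Y c s V A I co dd eo P)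
    (u : Qn π × Qn π × HS π) (σ : Bool) {X : Cone → Finset ℝ}
    (hm : P.Mid u.2.2 (c.hb V A I (nIdx π y)) X (xi0 s (co, dd, u, σ, eo))
      (trap s (co, dd, u, σ, eo) (c.vx V)) (nIdx π y)) {θ : ℕ} {v : ℝ}
    (hp : (θ, v) ∈ c.thick V A) : (Y.lab1 s (co, dd, u, σ, eo) θ v).2 ≤ 2 * A * c.rs := by
  have hA := h.rep.pos
  have h0 : 0 < A * c.rs := mul_pos hA c.rs_pos
  obtain ⟨hb, hsc⟩ := h.ball hP
  obtain ⟨e1, e2, e3, e4, -⟩ := h.mid_psi hP u σ hm hp
  simp only at e1 e2 e3 e4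
  have hθ : θ ∈ tm I := (h.thick_abs hp).2.2
  have hok := (N.ok s (co, dd, u, σ, eo) h.ni).2
  unfold Sys.lab1
  split_ifs with hd
  · show (0 : ℝ) ≤ _
    linarith
  rw [h.kick]
  simp only
  rw [if_neg (by rw [e1]; push Not; exact ⟨hok, hθ, e3⟩), if_neg (by rw [e1]; exact not_le.2 e4), e2]
  split_ifs with h3
  · rcases HP.dn_cases (hs := u.2.2) hP.good.s1 θ v with h4 | ⟨m, i, k, hdn, -, h4⟩
    · rw [h4] at h3
      exact absurd h3 (lt_irrefl _)
    · rw [h4]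
      have hmn : nIdx π y ≤ m := by
        by_contra hc
        exact hm.1.nd _ (h.thick_sub hP _ hp) m i k (not_le.1 hc) hdn
      have h5 : scl π P.s1 m ≤ A * c.rs := hsc ▸ scl_anti hP.good.s1 hmn
      have h6 : min (s.lab θ v).2 (scl π P.s1 m) ≤ A * c.rs := (min_le_right _ _).trans h5
      have h7 : |sg (co, dd, u, σ, eo) * (cone P.s1 u.2.2 m i k).slope v| ≤ 1 := by
        rw [hnon_sg]
        rcases (cone P.s1 u.2.2 m i k).slope_mem v with e | e | e <;> rw [e] <;> norm_num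
      obtain ⟨h8, h9⟩ := abs_le.1 h7
      simp only
      calc _ ≤ (1 + sg (co, dd, u, σ, eo) * (cone P.s1 u.2.2 m i k).slope v) * (A * c.rs) :=
            mul_le_mul_of_nonneg_left h6 (by linarith)
        _ ≤ 2 * (A * c.rs) := mul_le_mul_of_nonneg_right (by linarith) h0.le
        _ = _ := by ring
  · show (0 : ℝ) ≤ _
    linarith

/-- In the middle range: on the thick ball `psi = μ - xi0 + [0, 27 A rs]` with `μ` from `Piece.mu`;
flat parts of `Psi` are shorter than `30 A rs`; done points have a scale `≤ A rs` (`Piece.nd`,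
`dn_cases`). -/
theorem At.mid_non (h : At Y c s N V A y I co dd eo) (hP : HealAt Y c s V A I co dd eo P)
    (u : Qn π × Qn π × HS π) (σ : Bool) {X : Cone → Finset ℝ}
    (hm : P.Mid u.2.2 (c.hb V A I (nIdx π y)) X (xi0 s (co, dd, u, σ, eo))
      (trap s (co, dd, u, σ, eo) (c.vx V)) (nIdx π y)) :
    c.Rep (Y.mid s (co, dd, u, σ, eo)) (Y.Vn s (co, dd, u, σ, eo) V) A 7 ∧
    c.Win (Y.mid s (co, dd, u, σ, eo)) (Y.Vn s (co, dd, u, σ, eo) V) A ∧
    c.NonG (Y.mid s (co, dd, u, σ, eo)) (Y.Vn s (co, dd, u, σ, eo) V) A := by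
  have hA := h.rep.pos
  have hr := c.h_r_pos
  have hAr : 0 < A * c.r := mul_pos hA hr
  have hsm := h.big.small hA
  have hw := (N.pos s h.ni).1
  obtain ⟨b, hb⟩ := h.aff
  have h78 : c.ball 7 ⊆ c.ball 8 := c.h_ball_mono (by norm_num)
  have hx : c.x ∈ c.ball 8 := c.h_x_mem (by norm_num)
  refine ⟨?_, ?_, ?_, ?_, ?_⟩
  · refine h_rep_next N h.ni h.rep (fun p hp => (h.thick_abs (h.mem_thick hp)).2.1)
      (by linarith) (h.shal u σ) (by norm_num) hA (by linarith) (hnon_flat h hP u σ hm)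
      (fun θ t t' h1 h2 => ?_) (Or.inl le_rfl)
    have e1 : V θ t = A * t + b := (hb _ (h78 h1)).1
    have e2 : V θ t' = A * t' + b := (hb _ (h78 h2)).1
    refine (h_Psi_lip θ (V θ t) (V θ t')).trans (le_of_eq ?_)
    rw [e1, e2, show A * t + b - (A * t' + b) = A * (t - t') by ring, abs_mul, abs_of_pos hA]
    ring
  · obtain ⟨-, -, e3, -, e5⟩ := h.mid_psi hP u σ hm (h.mem_thick hx)
    have := h_win_of_psi (Y := Y) (ρ := (co, dd, u, σ, eo)) hw (θ := c.x.1) (v := c.vx V)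
      (u := c.vx V) (d := 0) (by linarith) (by simp) (by
        intro h0
        have : Y.psi s (co, dd, u, σ, eo) c.x.1 (V c.x.1 c.x.2) = 0 := h0
        simp only at e3 e5
        linarith)
    refine Subset.trans (Icc_subset_Icc ?_ ?_) this
    · show Y.Psi s (co, dd, u, σ, eo) c.x.1 (c.vx V) - s.w / 200 ≤
        Y.Psi s (co, dd, u, σ, eo) c.x.1 (c.vx V) - 100 * A * c.r
      linarith
    · show Y.Psi s (co, dd, u, σ, eo) c.x.1 (c.vx V) + 100 * A * c.r ≤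
        Y.Psi s (co, dd, u, σ, eo) c.x.1 (c.vx V) + s.w / 200
      linarith
  · intro θ t t' h1 h2 htt
    exact hnon_slope h hP u σ hm (h78 h1) (h78 h2) htt
  · intro p k hk hk7
    have hp8 : p ∈ c.ball 8 := Near.of_reach (mem_singleton _) hk (by linarith)
    have hpush := h.push (co, dd, u, σ, eo) hk (by linarith)
    have hAk : A * k ≤ 100 * (A * c.r) := by
      have := mul_le_mul_of_nonneg_left hk7 hA.le
      linarith
    have hsh := (hpush.shrink hAk).mono_W inter_subset_right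
    have hkey := hnon_key h hP u σ hm (h.mem_thick hx) (h.mem_thick hp8) hsh
    rw [abs_sub_comm, ← hnon_sg (co, dd, u, σ, eo)] at hkey
    have e1 : V p.1 p.2 = A * p.2 + b := (hb _ hp8).1
    have e2 : V c.x.1 c.x.2 = A * c.x.2 + b := (hb _ hx).1
    have e : Y.Vn s (co, dd, u, σ, eo) V p.1 p.2 - c.vx (Y.Vn s (co, dd, u, σ, eo) V) -
        A * (p.2 - c.x.2) = sg (co, dd, u, σ, eo) * (Y.psi s (co, dd, u, σ, eo) p.1 (V p.1 p.2) -
          Y.psi s (co, dd, u, σ, eo) c.x.1 (V c.x.1 c.x.2)) := by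
      simp only [Ctx.vx, Sys.Vn, Sys.Psi]
      linarith
    rw [e]
    simp only at hkey
    linarith
  · intro p hp
    obtain ⟨t', h1, h2⟩ := hnon_flat h hP u σ hm p hp _
      (Function.invFun_eq (f := Y.Psi s (co, dd, u, σ, eo) p.1) ⟨V p.1 p.2, rfl⟩)
    have h3 := hnon_lab h hP u σ hm (h.mem_thick h1)
    simp only at h3
    rw [h2] at h3
    exact h3

end Vale.Agent.P235.Pl
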