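import Vale.Agent.P235P.HTrack
import Vale.Agent.P235P.HBad

/-! P235 planar case: the potential of the healing engine. -/

open Set Classical Function

noncomputable section

namespace Vale.Agent.P235.Pl

variable {π : Par}

theorem hpot_ind {Ω : Type} [Fintype Ω] (E : Ω → Prop) [∀ ω, Decidable (E ω)] (c : ℝ) :
    (Finset.expect Finset.univ fun ω => if E ω then c else 0) = c * pr E := by
  unfold pr
  rw [Finset.mul_expect]
  refine Finset.expect_congr rfl fun ω _ => ?_
  by_cases h : E ω <;> simp [h]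

theorem hpot_scl {s1 : ℝ} (h : 0 < s1) (h0 : 200 ≤ π.m0) (m k : ℕ) :
    scl π s1 (m + k) ≤ (1 / 3) ^ k * scl π s1 m := by
  induction k with
  | zero => simp
  | succ k ih =>
    have h1 := scl_lt h h0 (Nat.lt_succ_self (m + k))
    have h2 := scl_pos (π := π) h (m + k + 1)
    rw [pow_succ, ← add_assoc]
    simp only [Nat.succ_eq_add_one] at h1
    linarith

namespace HP
variable (P : HP) (hs : HS π) (b : HB) (X : Cone → Finset ℝ) (ξ T : ℝ)

/-- Absorbing affine states. -/
def FinE (j : ℕ) : Prop :=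
  P.vc hs b j - ξ + 27 * scl π P.s1 j + 100 * b.u ≤ 0 ∨ T + 100 * b.u ≤ P.vc hs b j - ξ ∨
    P.DoneB hs b ξ T j

/-- The boundary windows. -/
def BdW (j : ℕ) : Prop :=
  |ξ - (P.vc hs b j + 27 / 2 * scl π P.s1 j)| ≤ 27 / 2 * scl π P.s1 j + 100 * b.u ∨
    |ξ - (P.vc hs b j - T + 27 / 2 * scl π P.s1 j)| ≤ 27 / 2 * scl π P.s1 j + 100 * b.u

/-- The potential. -/
def pot (j : ℕ) : ℝ :=
  if P.Mid hs b X ξ T j then 1 + (1 / 3) ^ (b.n - j)
  else if P.FinE hs b ξ T j ∨ P.Piece hs b X j then 1 else 0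

/-- The score of the outcome. -/
def score : ℝ := if P.Mid hs b X ξ T b.n then 2 else if P.Aff hs b ξ T then 1 else 0

variable {P hs b X ξ T} {w : ℝ}

theorem hpot_nonneg (j : ℕ) : 0 ≤ P.pot hs b X ξ T j := by
  unfold pot
  split_ifs <;> positivity

theorem hpot_one {j : ℕ} (h : P.FinE hs b ξ T j ∨ P.Piece hs b X j) : 1 ≤ P.pot hs b X ξ T j := by
  unfold pot
  split_ifs
  · exact le_add_of_nonneg_right (by positivity)
  · exact le_rfl

theorem hpot_bdw {j : ℕ} (h1 : ¬ P.Mid hs b X ξ T j) (h2 : ¬ P.FinE hs b ξ T j)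
    (h3 : P.Piece hs b X j) : P.BdW hs b ξ T j := by
  simp only [FinE, not_or, not_le] at h2
  simp only [Mid, h3, true_and, not_and_or, not_le] at h1
  obtain ⟨h4, h5, -⟩ := h2
  rcases h1 with h1 | h1
  · exact Or.inl (abs_le.2 ⟨by linarith, by linarith⟩)
  · exact Or.inr (abs_le.2 ⟨by linarith, by linarith⟩)

theorem hpot_upd (hs : HS π) (m : Fin π.nS) (q : Qn π × Qn π × Qn π) :
    ∀ m' : Fin π.nS, (m' : ℕ) < m → hs m' = update hs m q m' := fun m' h =>
  (update_of_ne (fun e => by simp [e] at h) _ _).symm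

theorem hpot_vc (hb : P.Ball π b w) (hs : HS π) (m : Fin π.nS) (q : Qn π × Qn π × Qn π) :
    P.vc hs b m ≤ P.vc (update hs m q) b (m + 1) ∧
      P.vc (update hs m q) b (m + 1) + 27 * scl π P.s1 (m + 1) ≤
        P.vc hs b m + 27 * scl π P.s1 m := by
  rw [vc_congr (hpot_upd hs m q)]
  have h1 := scl_lt hb.good.s1 hb.m0 (Nat.lt_succ_self m)
  have h2 := scl_pos (π := π) hb.good.s1 (m + 1)
  have h3 := Hs_succ_le (hs := update hs m q) hb.good.s1 m b.x.1 b.x.2
  simp only [Nat.succ_eq_add_one] at h1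
  refine ⟨Hs_mono hb.good.s1 (Nat.le_succ _) _ _, ?_⟩
  unfold vc
  linarith

theorem hpot_eps (hb : P.Ball π b w) {m : ℕ} (hm : m < b.n) :
    10 ^ 4 * b.u / scl π P.s1 m ≤ (1 / 3) ^ (b.n - (m + 1)) / 12 := by
  have h1 := hpot_scl hb.good.s1 hb.m0 (m + 1) (b.n - (m + 1))
  rw [Nat.add_sub_cancel' hm] at h1
  have h2 := scl_lt hb.good.s1 hb.m0 (Nat.lt_succ_self m)
  have h3 := scl_pos (π := π) hb.good.s1 (m + 1)
  have h4 : (0 : ℝ) < (1 / 3) ^ (b.n - (m + 1)) := by positivity
  simp only [Nat.succ_eq_add_one] at h2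
  have h5 := mul_le_mul_of_nonneg_left h2 h4.le
  have h6 := mul_pos h4 h3
  rw [div_le_iff₀ (scl_pos hb.good.s1 m)]
  linarith [hb.le_s]

theorem Ball.pot_step (hb : P.Ball π b w) (hX : ∀ κ, (X κ).card ≤ 20) {m : Fin π.nS}
    (hm : (m : ℕ) < b.n) :
    P.pot hs b X ξ T m - (if P.BdW hs b ξ T m then 10 ^ 4 * b.u / scl π P.s1 m else 0) ≤
      Finset.expect Finset.univ fun q => P.pot (update hs m q) b X ξ T (m + 1) := by
  have hε : 0 ≤ 10 ^ 4 * b.u / scl π P.s1 m :=
    div_nonneg (by linarith [hb.u0]) (scl_pos hb.good.s1 m).le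
  have h0 : 0 ≤ (if P.BdW hs b ξ T m then 10 ^ 4 * b.u / scl π P.s1 m else 0) := by
    split_ifs
    exacts [hε, le_rfl]
  have hbad := hb.pr_bad (ξ := ξ) (T := T) hX hs hm
  have hv := hpot_vc hb hs m
  by_cases h1 : P.Mid hs b X ξ T m
  · have hnor := hb.pr_nor hs m
    have he := hpot_eps hb hm
    have e1 : P.pot hs b X ξ T m = 1 + (1 / 3) ^ (b.n - (m + 1)) / 3 := by
      rw [pot, if_pos h1, show b.n - m = b.n - (m + 1) + 1 by omega, pow_succ]
      ring
    have a0 : (0 : ℝ) < (1 / 3) ^ (b.n - (m + 1)) := by positivity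
    have a1 : ((1 : ℝ) / 3) ^ (b.n - (m + 1)) ≤ 1 := pow_le_one₀ (by norm_num) (by norm_num)
    have key : ∀ q, 1 + (1 / 3) ^ (b.n - (m + 1)) -
        (if ¬ P.Gd (update hs m q) b X ξ T m then 2 else 0) -
        (if ¬ P.NoR (update hs m q) b m then (1 / 3) ^ (b.n - (m + 1)) else 0) ≤
        P.pot (update hs m q) b X ξ T (m + 1) := fun q => by
      by_cases hg : P.Gd (update hs m q) b X ξ T m
      · rw [if_neg (not_not.2 hg)]
        rcases hb.track hm (h1.1.congr (hpot_upd hs m q)) hg with h2 | h2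
        · have h3 : P.Mid (update hs m q) b X ξ T (m + 1) :=
            ⟨h2, by linarith [h1.2.1, (hv q).1], by linarith [h1.2.2, (hv q).2]⟩
          rw [pot, if_pos h3]
          split_ifs <;> linarith
        · rw [if_pos h2.2]
          linarith [hpot_one (X := X) (Or.inl (Or.inr (Or.inr h2.1)))]
      · rw [if_pos hg]
        have := hpot_nonneg (P := P) (hs := update hs m q) (b := b) (X := X) (ξ := ξ) (T := T)
          (m + 1)
        split_ifs <;> linarith
    refine le_trans ?_ (Finset.expect_le_expect fun q _ => key q)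
    rw [Finset.expect_sub_distrib, Finset.expect_sub_distrib, hpot_ind, hpot_ind,
      Finset.expect_const Finset.univ_nonempty, e1]
    have := mul_le_mul_of_nonneg_left hnor a0.le
    linarith
  by_cases h2 : P.FinE hs b ξ T m
  · have e1 : P.pot hs b X ξ T m = 1 := by rw [pot, if_neg h1, if_pos (Or.inl h2)]
    refine le_trans (by linarith) (Finset.le_expect Finset.univ_nonempty fun q _ =>
      hpot_one (Or.inl ?_))
    rcases h2 with h2 | h2 | h2
    · exact Or.inl (by linarith [(hv q).2])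
    · exact Or.inr (Or.inl (by linarith [(hv q).1]))
    · obtain ⟨m', i, k, h3, h4⟩ := h2.congr (hpot_upd hs m q)
      exact Or.inr (Or.inr ⟨m', i, k, Nat.lt_succ_of_lt h3, h4⟩)
  by_cases h3 : P.Piece hs b X m
  · have e1 : P.pot hs b X ξ T m = 1 := by rw [pot, if_neg h1, if_pos (Or.inr h3)]
    have key : ∀ q, 1 - (if ¬ P.Gd (update hs m q) b X ξ T m then 1 else 0) ≤
        P.pot (update hs m q) b X ξ T (m + 1) := fun q => by
      by_cases hg : P.Gd (update hs m q) b X ξ T m
      · rw [if_neg (not_not.2 hg), sub_zero]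
        rcases hb.track hm (h3.congr (hpot_upd hs m q)) hg with h4 | h4
        · exact hpot_one (Or.inr h4)
        · exact hpot_one (Or.inl (Or.inr (Or.inr h4.1)))
      · rw [if_pos hg, sub_self]
        exact hpot_nonneg _
    refine le_trans ?_ (Finset.expect_le_expect fun q _ => key q)
    rw [Finset.expect_sub_distrib, hpot_ind, Finset.expect_const Finset.univ_nonempty, e1,
      if_pos (hpot_bdw h1 h2 h3)]
    linarith
  · have e1 : P.pot hs b X ξ T m = 0 := by rw [pot, if_neg h1, if_neg (not_or.2 ⟨h2, h3⟩)]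
    exact le_trans (by linarith) (Finset.le_expect Finset.univ_nonempty fun q _ => hpot_nonneg _)

theorem Ball.pot_le (hb : P.Ball π b w) :
    P.pot hs b X ξ T b.n - (if P.BdW hs b ξ T b.n then 1 else 0) ≤ P.score hs b X ξ T := by
  unfold pot score
  by_cases h1 : P.Mid hs b X ξ T b.n
  · rw [if_pos h1, if_pos h1, Nat.sub_self, pow_zero]
    split_ifs <;> norm_num
  rw [if_neg h1, if_neg h1]
  by_cases h2 : P.FinE hs b ξ T b.n
  · have h3 : P.Aff hs b ξ T := by
      rcases h2 with h2 | h2 | h2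
      exacts [hb.aff_of_zero le_rfl h2, hb.aff_of_top le_rfl h2, hb.aff_of_done le_rfl h2]
    rw [if_pos h3]
    split_ifs <;> norm_num
  by_cases h3 : P.Piece hs b X b.n
  · rw [if_pos (hpot_bdw h1 h2 h3)]
    split_ifs <;> norm_num
  · rw [if_neg (not_or.2 ⟨h2, h3⟩)]
    split_ifs <;> norm_num

theorem hpot_w (hb : P.Ball π b w) : 0 < w := by linarith [hb.uw, hb.u0]

theorem Ball.pr_bdw (hb : P.Ball π b w) (hs : HS π) (T : ℝ) (j : ℕ) :
    pr (fun q : Qn π => P.BdW hs b (uq q (w / 20) (w / 10)) T j) ≤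
      10 ^ 4 * max (scl π P.s1 j) b.u / w := by
  have hw := hpot_w hb
  have hu := hb.u0
  have h0 := scl_pos (π := π) hb.good.s1 j
  have hl : w / 20 < w / 10 := by linarith
  have hd : 0 ≤ 27 / 2 * scl π P.s1 j + 100 * b.u := by positivity
  refine pr_or_le.trans ((add_le_add (pr_near hl hd) (pr_near hl hd)).trans ?_)
  have h1 := hb.nq'
  have e1 : 2 * (27 / 2 * scl π P.s1 j + 100 * b.u) / (w / 10 - w / 20) =
      (540 * scl π P.s1 j + 4000 * b.u) / w := by
    field_simp
    ring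
  have e2 : b.u / (256 * w) = b.u / 256 / w := by rw [div_div]
  have h2 : (540 * scl π P.s1 j + 4000 * b.u) / w + b.u / 256 / w +
      ((540 * scl π P.s1 j + 4000 * b.u) / w + b.u / 256 / w) ≤
      10 ^ 4 * max (scl π P.s1 j) b.u / w := by
    rw [← add_div, ← add_div]
    refine div_le_div_of_nonneg_right ?_ hw.le
    linarith [le_max_left (scl π P.s1 j) b.u, le_max_right (scl π P.s1 j) b.u]
  rw [e1]
  rw [e2] at h1
  linarith

theorem hpot_avg (hb : P.Ball π b w) (T : ℝ) (j : ℕ) {c : ℝ} (hc : 0 ≤ c) :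
    (Finset.expect Finset.univ fun q : Qn π => Finset.expect Finset.univ fun hs : HS π =>
      if P.BdW hs b (uq q (w / 20) (w / 10)) T j then c else 0) ≤
      c * (10 ^ 4 * max (scl π P.s1 j) b.u / w) := by
  rw [Finset.expect_comm]
  refine Finset.expect_le Finset.univ_nonempty fun hs _ => ?_
  rw [hpot_ind]
  exact mul_le_mul_of_nonneg_left (hb.pr_bdw hs T j) hc

theorem hpot_main (hb : P.Ball π b w) (X : Qn π → Cone → Finset ℝ)
    (hX : ∀ q κ, (X q κ).card ≤ 20) (T : ℝ) (j : ℕ) (hj : j ≤ b.n) :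
    1 - 10 ^ 8 * j * (b.u / w) ≤ Finset.expect Finset.univ fun q : Qn π =>
      Finset.expect Finset.univ fun hs : HS π => P.pot hs b (X q) (uq q (w / 20) (w / 10)) T j := by
  induction j with
  | zero =>
    rw [Nat.cast_zero, mul_zero, zero_mul, sub_zero]
    exact Finset.le_expect Finset.univ_nonempty fun q _ =>
      Finset.le_expect Finset.univ_nonempty fun hs _ => hpot_one (Or.inr piece_zero)
  | succ j ih =>
    have hj' : j < b.n := hj
    have h0 := scl_pos (π := π) hb.good.s1 j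
    have hu := hb.u0
    have hw := hpot_w hb
    have h1 := hpot_avg hb T j (c := 10 ^ 4 * b.u / scl π P.s1 j) (by positivity)
    rw [max_eq_left (by linarith [hb.u_le hj'])] at h1
    have e : 10 ^ 4 * b.u / scl π P.s1 j * (10 ^ 4 * scl π P.s1 j / w) = 10 ^ 8 * (b.u / w) := by
      field_simp
    refine le_trans ?_ (Finset.expect_le_expect fun q _ => (Finset.expect_le_expect fun hs _ =>
      hb.pot_step (hs := hs) (ξ := uq q (w / 20) (w / 10)) (T := T) (hX q)
        (m := ⟨j, hj'.trans hb.nlt⟩) hj').trans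
      (expect_update (fun hs : HS π => P.pot hs b (X q) (uq q (w / 20) (w / 10)) T (j + 1))
        ⟨j, hj'.trans hb.nlt⟩).ge)
    simp only [Finset.expect_sub_distrib]
    have h2 := ih hj'.le
    push_cast
    linarith

/-- The main estimate of the healing engine. -/
theorem Ball.heal_main (hb : P.Ball π b w) (X : Qn π → Cone → Finset ℝ)
    (hX : ∀ q κ, (X q κ).card ≤ 20) (T : ℝ) :
    1 - 10 ^ 8 * (b.n + 1) * (b.u / w) ≤ Finset.expect Finset.univ fun q : Qn π =>
      Finset.expect Finset.univ fun hs : HS π => P.score hs b (X q) (uq q (w / 20) (w / 10)) T := by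
  have h0 := scl_pos (π := π) hb.good.s1 b.n
  have h1 := hpot_avg hb T b.n zero_le_one
  rw [max_eq_right (by linarith [hb.s_le]), one_mul, mul_div_assoc] at h1
  have h2 := hpot_main hb X hX T b.n le_rfl
  have h3 : 0 < b.u / w := div_pos hb.u0 (hpot_w hb)
  refine le_trans ?_ (Finset.expect_le_expect fun q _ => Finset.expect_le_expect fun hs _ =>
    hb.pot_le (hs := hs) (X := X q) (ξ := uq q (w / 20) (w / 10)) (T := T))
  simp only [Finset.expect_sub_distrib]
  linarith

end HP

end Vale.Agent.P235.Pl
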