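import Vale.Agent.P235P.HAff
import Vale.Agent.P235P.HNon
import Vale.Agent.P235P.HPot

/-! P235 planar case: the generic birth theorem. -/

open Set Classical Function

noncomputable section

namespace Vale.Agent.P235.Pl

variable {S : Sk} {π : Par} {Y : Sys S π} {N : NodeC Y} {c : Ctx S} {s : St} {V : ℕ → ℝ → ℝ}
  {A : ℝ} {y : ℕ} {I : ℕ × ℕ} {co : Coins S} {dd : Qn π × Qn π} {eo : Fin (2 * π.m0 + 2) × Qn π}
  {ι : Type} {pt : ι → ℕ × ℝ} {F : (ι → ℝ) → ℝ} {ND : St → (ℕ → ℝ → ℝ) → ℝ → Prop} {B : ℝ}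
  {Gv : Qn π × Qn π × HS π → Bool → ℝ}

theorem At.pr_kink (h : At Y c s N V A y I co dd eo) (v : Qn π × HS π) :
    pr (fun z : Qn π => ¬ Kink c s (co, dd, (z, v), true, eo) V A) ≤
      10 ^ 5 * (A * c.r / s.w) := by
  have hw := (N.pos s h.ni).1
  have hA := h.rep.pos
  have hu : 0 < A * c.r := mul_pos hA c.h_r_pos
  have hq : 1 / ((π.Nq : ℝ) + 1) ≤ A * c.r / s.w := by
    have := h.big.nq
    rw [div_le_div_iff₀ (by positivity) hw]
    nlinarith
  have one : ∀ e : ℝ, pr (fun z : Qn π => |uq z (s.w / 40) (s.w / 20) - e| ≤ 100 * A * c.r) ≤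
      8001 * (A * c.r / s.w) := by
    intro e
    refine (pr_near (by linarith) (by linarith [mul_assoc 100 A c.r])).trans ?_
    have : 2 * (100 * A * c.r) / (s.w / 20 - s.w / 40) = 8000 * (A * c.r / s.w) := by
      field_simp; ring
    linarith
  have two := pr_exists_le ({c.vx V - s.lo, c.vx V - s.lo - s.w / 20, s.hi - s.w / 20 - c.vx V,
    s.hi - c.vx V} : Finset ℝ) (fun e (z : Qn π) =>
      |uq z (s.w / 40) (s.w / 20) - e| ≤ 100 * A * c.r) fun e _ => one e
  have hc : ((({c.vx V - s.lo, c.vx V - s.lo - s.w / 20, s.hi - s.w / 20 - c.vx V,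
    s.hi - c.vx V} : Finset ℝ).card : ℕ) : ℝ) ≤ 4 := by exact_mod_cast Finset.card_le_four
  have hp : 0 < A * c.r / s.w := by positivity
  refine (pr_mono fun z hz => ?_).trans (two.trans (by nlinarith))
  by_contra hn
  push Not at hn
  simp only [Finset.mem_insert, Finset.mem_singleton, forall_eq_or_imp, forall_eq] at hn
  obtain ⟨a1, a2, a3, a4⟩ := hn
  have e : zz s (co, dd, (z, v), true, eo) = uq z (s.w / 40) (s.w / 20) := rfl
  refine hz ⟨?_, ?_, ?_, ?_⟩ <;> rw [e]
  · rw [abs_sub_comm]; exact a1.le.trans_eq (by congr 1; ring)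
  · rw [abs_sub_comm]; exact a2.le.trans_eq (by congr 1; ring)
  · exact a3.le.trans_eq (by congr 1; ring)
  · exact a4.le.trans_eq (by congr 1; ring)

/-- The loss from the kinks. -/
theorem At.of_kink (h : At Y c s N V A y I co dd eo) (hv : Val Y c s pt F ND V A co dd eo B Gv)
    {e : ℝ} (he0 : 0 ≤ e) (he : e ≤ 10 ^ 8 * (y + 1) * (A * c.r / s.w))
    (hz : ∀ z : Qn π, (∀ v, Kink c s (co, dd, (z, v), true, eo) V A) → (1 - e) * (B * A) ≤
      Finset.expect Finset.univ fun v => Finset.expect Finset.univ fun σ => Gv (z, v) σ) :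
    (1 - 10 ^ 9 * (y + 1) * (A * c.r / s.w)) * (B * A) ≤
      Finset.expect Finset.univ fun u => Finset.expect Finset.univ fun σ => Gv u σ := by
  have hw := (N.pos s h.ni).1
  have hA := h.rep.pos
  have hu : 0 < A * c.r / s.w := div_pos (mul_pos hA c.h_r_pos) hw
  have hB : 0 ≤ B * A := mul_nonneg hv.b0 hA.le
  obtain ⟨v0⟩ : Nonempty (Qn π × HS π) := inferInstance
  have hk := h.pr_kink v0
  obtain ⟨E, hE⟩ : ∃ E : Qn π → Prop, E = fun z => ¬ Kink c s (co, dd, (z, v0), true, eo) V A :=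
    ⟨_, rfl⟩
  rw [← hE] at hk
  rw [expect_pair]
  have h1 : ∀ z : Qn π, (1 - e) * (B * A) - B * A * (if E z then 1 else 0) ≤
      Finset.expect Finset.univ fun v => Finset.expect Finset.univ fun σ => Gv (z, v) σ := by
    intro z
    split_ifs with hz'
    · have : 0 ≤ Finset.expect Finset.univ fun v => Finset.expect Finset.univ fun σ =>
          Gv (z, v) σ := Finset.expect_nonneg fun v _ => Finset.expect_nonneg fun σ _ => hv.g0 _ _
      nlinarith
    · rw [hE] at hz'
      simpa using hz z fun _ => not_not.1 hz'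
  refine le_trans ?_ (Finset.expect_le_expect fun z _ => h1 z)
  rw [Finset.expect_sub_distrib, Finset.expect_const Finset.univ_nonempty, ← Finset.mul_expect]
  have h2 : (1 : ℝ) ≤ y + 1 := by linarith [Nat.cast_nonneg (α := ℝ) y]
  have h3 : B * A * pr E ≤ B * A * (10 ^ 5 * (A * c.r / s.w)) := mul_le_mul_of_nonneg_left hk hB
  have h4 : e + 10 ^ 5 * (A * c.r / s.w) ≤ 10 ^ 9 * (y + 1) * (A * c.r / s.w) := by nlinarith
  have h5 := mul_le_mul_of_nonneg_right h4 hB
  change _ ≤ _ - B * A * pr E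
  linarith

/-- The ball is far from the sources: the trapezoid acts on it. -/
theorem At.birth_far (h : At Y c s N V A y I co dd eo) (hv : Val Y c s pt F ND V A co dd eo B Gv)
    (hfar : ∀ u σ, ∀ p ∈ c.thick V A, 3 * s.w / 20 ≤ (Y.hl s (co, dd, u, σ, eo) I).H p.1 p.2) :
    (1 - 10 ^ 9 * (y + 1) * (A * c.r / s.w)) * (B * A) ≤
      Finset.expect Finset.univ fun u => Finset.expect Finset.univ fun σ => Gv u σ := by
  have hw := (N.pos s h.ni).1
  have hu : 0 < A * c.r / s.w := div_pos (mul_pos h.rep.pos c.h_r_pos) hw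
  refine h.of_kink hv le_rfl (by positivity) fun z hz => ?_
  refine Finset.le_expect Finset.univ_nonempty fun v _ => ?_
  rw [sub_zero, one_mul]
  refine h.naff_value hv (z, v) (hz v) (Or.inr (Or.inl fun p hp => ?_))
  have := hfar (z, v) true p hp
  have := h_trap_le (ρ := (co, dd, (z, v), true, eo)) hw p.2
  have := (h_xi0_mem (ρ := (co, dd, (z, v), true, eo)) hw).2
  linarith

theorem hbirth_sign {g : Bool → ℝ} (h0 : ∀ σ, 0 ≤ g σ) {v : ℝ} (h : ∃ σ, v ≤ g σ) :
    v / 2 ≤ Finset.expect Finset.univ g := by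
  obtain ⟨σ, h⟩ := h
  rw [Finset.expect_eq_sum_div_card]
  have := h0 true
  have := h0 false
  cases σ <;> simp <;> linarith

/-- The ball is near the sources: healing. -/
theorem At.birth_gen (h : At Y c s N V A y I co dd eo) (hv : Val Y c s pt F ND V A co dd eo B Gv)
    {P : HP} (hP : HealAt Y c s V A I co dd eo P) (n : Fin π.nS) (hn : (n : ℕ) = nIdx π y)
    (X : Qn π → Qn π → Cone → Finset ℝ) (hX : ∀ z q κ, (X z q κ).card ≤ 20)
    (Dir : (ℕ → ℝ → ℝ) → Prop)
    (hdir : ∀ u : Qn π × Qn π × HS π, Kink c s (co, dd, u, true, eo) V A →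
      P.Mid u.2.2 (c.hb V A I (nIdx π y)) (X u.1 u.2.1) (xi0 s (co, dd, u, true, eo))
        (trap s (co, dd, u, true, eo) (c.vx V)) (nIdx π y) →
      Dir (P.Hs u.2.2 n) → P.NoR u.2.2 (c.hb V A I (nIdx π y)) n →
      ∃ σ, A * c.rs / 64 ≤ F fun i => Y.Vn s (co, dd, u, σ, eo) V (pt i).1 (pt i).2)
    (hsuc : ∀ (u : Qn π × Qn π × HS π) i k, Kink c s (co, dd, u, true, eo) V A →
      P.Mid u.2.2 (c.hb V A I (nIdx π y)) (X u.1 u.2.1) (xi0 s (co, dd, u, true, eo))
        (trap s (co, dd, u, true, eo) (c.vx V)) (nIdx π y) →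
      ¬ Dir (P.Hs u.2.2 n) → P.Suc u.2.2 (c.hb V A I (nIdx π y)) n i k →
      ∃ σ, ND (Y.mid s (co, dd, u, σ, eo)) (Y.Vn s (co, dd, u, σ, eo) V) A) :
    (1 - 10 ^ 9 * (y + 1) * (A * c.r / s.w)) * (B * A) ≤
      Finset.expect Finset.univ fun u => Finset.expect Finset.univ fun σ => Gv u σ := by
  have hw := (N.pos s h.ni).1
  have hA := h.rep.pos
  have hu : 0 < A * c.r / s.w := div_pos (mul_pos hA c.h_r_pos) hw
  have hB : 0 ≤ B * A := mul_nonneg hv.b0 hA.le
  have hb := (h.ball hP).1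
  have hy : (nIdx π y : ℝ) ≤ y := by exact_mod_cast h.big.nIdx_lt.2
  refine h.of_kink hv (e := 10 ^ 8 * (nIdx π y + 1) * (A * c.r / s.w)) (by positivity)
    (by gcongr) fun z hz => ?_
  obtain ⟨v0⟩ : Nonempty (Qn π × HS π) := inferInstance
  have main := hb.heal_main (X z) (hX z) (trap s (co, dd, (z, v0), true, eo) (c.vx V))
  refine (mul_le_mul_of_nonneg_right main hB).trans ?_
  rw [expect_pair, Finset.expect_mul]
  refine Finset.expect_le_expect fun q _ => ?_
  rw [Finset.expect_mul, expect_update _ n, expect_update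
    (fun hs => Finset.expect Finset.univ fun σ => Gv (z, q, hs) σ) n]
  refine Finset.expect_le_expect fun hs _ => ?_
  have ag : ∀ a, ∀ m : Fin π.nS, (m : ℕ) < nIdx π y → hs m = update hs n a m := fun a m hm =>
    (update_of_ne (fun e => by rw [e, hn] at hm; exact lt_irrefl _ hm) _ _).symm
  have g0 : ∀ a, 0 ≤ Finset.expect Finset.univ fun σ => Gv (z, q, update hs n a) σ :=
    fun a => Finset.expect_nonneg fun σ _ => hv.g0 _ _
  by_cases hm : P.Mid hs (c.hb V A I (nIdx π y)) (X z q) (uq q (s.w / 20) (s.w / 10))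
      (trap s (co, dd, (z, v0), true, eo) (c.vx V)) (nIdx π y)
  · have hm' := fun a => hm.congr (ag a)
    have e : ∀ a, P.Hs (update hs n a) n = P.Hs hs n := fun a =>
      (HP.Hs_congr fun m hm => ag a m (hn ▸ hm)).symm
    have hs2 : (Finset.expect Finset.univ fun a => P.score (update hs n a) (c.hb V A I (nIdx π y))
        (X z q) (uq q (s.w / 20) (s.w / 10)) (trap s (co, dd, (z, v0), true, eo) (c.vx V)) *
          (B * A)) = 2 * (B * A) := by
      rw [← Finset.expect_const (s := Finset.univ (α := Qn π × Qn π × Qn π)) Finset.univ_nonempty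
        (2 * (B * A))]
      exact Finset.expect_congr rfl fun a _ => by rw [HP.score, if_pos (by exact hm' a)]
    rw [hs2]
    by_cases hd : Dir (P.Hs hs n)
    · have h1 := le_expect_of_pr (E := fun a => P.NoR (update hs n a) (c.hb V A I (nIdx π y)) n)
        (v := A * c.rs / 64 / 2) g0 fun a ha => hbirth_sign (hv.g0 _) (by
          obtain ⟨σ, hσ⟩ := hdir (z, q, update hs n a) (hz _) (hm' a) ((e a).symm ▸ hd) ha
          exact ⟨σ, hσ.trans (hv.pay _ σ)⟩)
      have h2 := hb.pr_nor hs n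
      rw [pr_not] at h2
      have h3 : B * A ≤ c.rs / 1024 * A := mul_le_mul_of_nonneg_right hv.b1 hA.le
      have h4 : 0 < A * c.rs := mul_pos hA c.rs_pos
      nlinarith
    · have h1 := le_expect_of_pr
        (E := fun a => ∃ i k, P.Suc (update hs n a) (c.hb V A I (nIdx π y)) n i k)
        (v := 2 ^ 20 * B * A / 2) g0 fun a ⟨i, k, ha⟩ => hbirth_sign (hv.g0 _) (by
          obtain ⟨σ, hσ⟩ := hsuc (z, q, update hs n a) i k (hz _) (hm' a) ((e a).symm ▸ hd) ha
          obtain ⟨a1, a2, a3⟩ := h.mid_non hP (z, q, update hs n a) σ (hm' a)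
          exact ⟨σ, hv.non _ σ a1 a2 a3 hσ⟩)
      have h2 := hb.pr_suc hs n
      nlinarith
  · refine Finset.expect_le_expect fun a _ => ?_
    rw [HP.score, if_neg (by
      exact fun hm' => hm (HP.Mid.congr (fun m hm => (ag a m hm).symm) hm'))]
    split_ifs with ha
    · rw [one_mul]
      exact h.naff_value hv _ (hz _) (h.naff hP (z, q, update hs n a) true ha)
    · rw [zero_mul]; exact g0 a

end Vale.Agent.P235.Pl
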