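import Vale.Agent.P235P.Contracts

/-! P235 planar case: ball tracking in the healing engine (definitions). -/

open Set Classical

noncomputable section

namespace Vale.Agent.P235.Pl

/-- Ball data: ambient times `T`, ball times `TB`, centre `x`, unit `u`, matched scale index `n`. -/
structure HB where
  T : Set ℕ
  TB : Set ℕ
  x : ℕ × ℝ
  u : ℝ
  n : ℕ

variable {π : Par}

namespace HP
variable (P : HP)

/-- A legal input on the times `T`. -/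
structure Good (T : Set ℕ) : Prop where
  s1 : 0 < P.s1
  nonneg : ∀ θ t, 0 ≤ P.H0 θ t
  lip : ∀ θ t t', |P.H0 θ t - P.H0 θ t'| ≤ |t - t'| / 16
  cons : ∀ θ θ' t, Link P.S P.D θ θ' t → t ∈ P.W → θ ∈ T → θ' ∈ T → P.H0 θ t = P.H0 θ' t

/-- The ball. -/
def Bl (b : HB) : Set (ℕ × ℝ) := {p | Near P.S (P.D.res P.S b.TB) P.W {b.x} (10 * b.u) p}

structure Ball (π : Par) (b : HB) (w : ℝ) : Prop where
  good : P.Good b.T
  m0 : 200 ≤ π.m0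
  u0 : 0 < b.u
  xT : b.x.1 ∈ b.TB
  sub : b.TB ⊆ b.T
  win : Icc (b.x.2 - 100 * b.u) (b.x.2 + 100 * b.u) ⊆ P.W
  hit : ∀ θ ∈ b.TB, ∃ t, (θ, t) ∈ P.Bl b
  nlt : b.n < π.nS
  s_le : 2 ^ 16 * scl π P.s1 b.n ≤ b.u
  le_s : b.u ≤ 2 ^ 24 * scl π P.s1 b.n
  top : 2 ^ 20 * P.s1 ≤ w
  uw : 2 ^ 100 * b.u ≤ w
  nq : 256 * w ≤ π.Nq * b.u

/-- The supremum of the active cells that contain the times `TB`. -/
def Emax (H : ℕ → ℝ → ℝ) (κ : Cone) (TB : Set ℕ) (θ : ℕ) (t : ℝ) : ℝ :=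
  sSup {v | ∃ c ∈ P.act H κ, TB ⊆ tm c.1 ∧ v = c.2 θ t}

variable (hs : HS π) (b : HB) (X : Cone → Finset ℝ)

/-- The value at the centre after the scales with index `< j`. -/
def vc (j : ℕ) : ℝ := P.Hs hs j b.x.1 b.x.2

/-- The last change on the ball was made by the cells of the cone `(m, i, k)`. -/
structure Beta (j : ℕ) (m : Fin π.nS) (i k : ℤ) : Prop where
  lt : (m : ℕ) < j
  adm : Adm P.W P.s1 hs m i k
  ins : Icc (b.x.2 - 100 * b.u) (b.x.2 + 100 * b.u) ⊆ (cone P.s1 hs m i k).I0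
  kink : 100 * b.u ≤ |(|b.x.2 - (cone P.s1 hs m i k).t|) - 28 * scl π P.s1 m|
  cell : ∃ c ∈ P.act (P.Hs hs m) (cone P.s1 hs m i k), b.TB ⊆ tm c.1
  eq : ∀ p ∈ P.Bl b, P.Hs hs j p.1 p.2 =
    P.Emax (P.Hs hs m) (cone P.s1 hs m i k) b.TB p.1 p.2 - xim P.s1 hs m
  up : P.vc hs b m + 100 * b.u ≤ P.vc hs b j
  below : P.vc hs b j + 100 * b.u ≤ (cone P.s1 hs m i k).G b.x.2
  far : ∀ v ∈ X (cone P.s1 hs m i k), 100 * b.u ≤ |P.vc hs b j - v|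

/-- A piece after the scales with index `< j`. -/
structure Piece (j : ℕ) : Prop where
  nd : ∀ p ∈ P.Bl b, ∀ (m : Fin π.nS) i k, (m : ℕ) < j → ¬ P.Done hs p.1 p.2 m i k
  mg : ∀ (m : Fin π.nS) i k, (m : ℕ) < j →
    100 * b.u ≤ |P.vc hs b j - (cone P.s1 hs m i k).G b.x.2|
  org : (∀ p ∈ P.Bl b, P.Hs hs j p.1 p.2 = P.H0 p.1 p.2) ∨ ∃ m i k, P.Beta hs b X j m i k

variable (ξ T : ℝ)

/-- The piece lies in the middle range (`ξ` is the shift, `T` the height of the trapezoid). -/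
def Mid (j : ℕ) : Prop :=
  P.Piece hs b X j ∧ 100 * b.u ≤ P.vc hs b j - ξ ∧
    P.vc hs b j - ξ + 27 * scl π P.s1 j + 100 * b.u ≤ T

/-- The affine outcomes. -/
def Aff : Prop :=
  (∀ p ∈ P.Bl b, (P.out hs).H p.1 p.2 - ξ ≤ 0) ∨
  (∀ p ∈ P.Bl b, T + 10 * b.u ≤ (P.out hs).H p.1 p.2 - ξ) ∨
  ∃ g b0 σ : ℝ, (g = -1 ∨ g = 0 ∨ g = 1) ∧ scl π P.s1 b.n ≤ σ ∧ ∀ p ∈ P.Bl b,
    (P.out hs).H p.1 p.2 = g * p.2 + b0 ∧ (P.out hs).dn p.1 p.2 = (g, σ) ∧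
    0 < (P.out hs).H p.1 p.2 - ξ ∧ (P.out hs).H p.1 p.2 - ξ + 10 * b.u < T

/-- The good event at the scale `m`. -/
structure Gd (m : Fin π.nS) : Prop where
  g1 : ∀ i k, 100 * b.u ≤ |(|b.x.2 - (cone P.s1 hs m i k).t|) - 28 * scl π P.s1 m| ∧
    100 * b.u ≤ |(|b.x.2 - (cone P.s1 hs m i k).t|) - 52 * scl π P.s1 m|
  g2 : ∀ i k, 100 * b.u ≤ |(cone P.s1 hs m i k).G b.x.2 - P.vc hs b m| ∧
    100 * b.u ≤ |(cone P.s1 hs m i k).G b.x.2 - ξ| ∧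
    100 * b.u ≤ |(cone P.s1 hs m i k).G b.x.2 - ξ - T|
  g3 : ∀ i k, b.x.2 ∈ (cone P.s1 hs m i k).I0 → P.vc hs b m < (cone P.s1 hs m i k).G b.x.2 →
    (cone P.s1 hs m i k).G b.x.2 ≤ P.vc hs b m + 100 * scl π P.s1 m →
    ∀ e, e = P.Emax (P.Hs hs m) (cone P.s1 hs m i k) b.TB b.x.1 b.x.2 - xim P.s1 hs m →
      100 * b.u ≤ |e - P.vc hs b m| ∧ (∀ i' k', 100 * b.u ≤ |e - (cone P.s1 hs m i' k').G b.x.2|) ∧
        ∀ v ∈ X (cone P.s1 hs m i k), 100 * b.u ≤ |e - v|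

/-- The whole ball is done by one cone, with margins. -/
def DoneB (j : ℕ) : Prop :=
  ∃ (m : Fin π.nS) (i k : ℤ), (m : ℕ) < j ∧ (∀ p ∈ P.Bl b, P.Done hs p.1 p.2 m i k) ∧
    100 * b.u ≤ |(|b.x.2 - (cone P.s1 hs m i k).t|) - 28 * scl π P.s1 m| ∧
    100 * b.u ≤ |(cone P.s1 hs m i k).G b.x.2 - ξ| ∧
    100 * b.u ≤ |(cone P.s1 hs m i k).G b.x.2 - ξ - T|

/-- No cone of the scale `m` is near the level of the centre. -/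
def NoR (m : Fin π.nS) : Prop := ∀ i, 54 * scl π P.s1 m < |b.x.2 - (cone P.s1 hs m i 0).t|

/-- The success event at the scale `m`. -/
def Suc (m : Fin π.nS) (i k : ℤ) : Prop :=
  |b.x.2 - (cone P.s1 hs m i k).t| ≤ scl π P.s1 m ∧
    P.vc hs b m + 11 * scl π P.s1 m ≤ (cone P.s1 hs m i k).a ∧
    (cone P.s1 hs m i k).a ≤ P.vc hs b m + 12 * scl π P.s1 m

end HP

namespace Ctx
variable {S : Sk} (c : Ctx S)

/-- The thick image of the ball. -/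
def thick (V : ℕ → ℝ → ℝ) (A : ℝ) : Set (ℕ × ℝ) :=
  {p | ∃ t, (p.1, t) ∈ c.ball 8 ∧ |p.2 - V p.1 t| ≤ A * c.r}

/-- The ball data at the kick node of `I`. -/
def hb (V : ℕ → ℝ → ℝ) (A : ℝ) (I : ℕ × ℕ) (n : ℕ) : HB where
  T := tm I
  TB := Prod.fst '' c.ball 8
  x := (c.x.1, c.vx V)
  u := A * c.r
  n := n

end Ctx

/-- The index of the matched scale. -/
def nIdx (π : Par) (y : ℕ) : ℕ := (y - 30) / π.m0

variable {S : Sk} (Y : Sys S π) (c : Ctx S) (s : St)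

/-- The healing problem `P` describes the kick node of `I` near the ball. -/
structure HealAt (V : ℕ → ℝ → ℝ) (A : ℝ) (I : ℕ × ℕ) (co : Coins S) (dd : Qn π × Qn π)
    (eo : Fin (2 * π.m0 + 2) × Qn π) (P : HP) : Prop where
  hS : P.S = S
  hD : ∀ u σ, P.D = Y.Dp s (co, dd, u, σ, eo)
  hW : P.W = s.W
  hs1 : P.s1 = sTop π s.w A
  good : P.Good (tm I)
  agree : ∀ u σ, ∀ p ∈ c.thick V A,
    ((Y.hl s (co, dd, u, σ, eo) I).H p.1 p.2 = (P.out u.2.2).H p.1 p.2 ∧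
      (Y.hl s (co, dd, u, σ, eo) I).dn p.1 p.2 = (P.out u.2.2).dn p.1 p.2) ∨
    (3 * s.w / 20 ≤ (Y.hl s (co, dd, u, σ, eo) I).H p.1 p.2 ∧
      3 * s.w / 20 ≤ (P.out u.2.2).H p.1 p.2)

/-- The affine outcomes at a kick node. -/
def NAff (ρ : Rnd S π) (V : ℕ → ℝ → ℝ) (A : ℝ) (I : ℕ × ℕ) : Prop :=
  (∀ p ∈ c.thick V A, (Y.hl s ρ I).H p.1 p.2 - xi0 s ρ ≤ 0) ∨
  (∀ p ∈ c.thick V A, trap s ρ p.2 ≤ (Y.hl s ρ I).H p.1 p.2 - xi0 s ρ) ∨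
  ∃ g b0 σ : ℝ, (g = -1 ∨ g = 0 ∨ g = 1) ∧ A * c.rs ≤ σ ∧ ∀ p ∈ c.thick V A,
    (Y.hl s ρ I).H p.1 p.2 = g * p.2 + b0 ∧ (Y.hl s ρ I).dn p.1 p.2 = (g, σ) ∧
    0 < (Y.hl s ρ I).H p.1 p.2 - xi0 s ρ ∧ (Y.hl s ρ I).H p.1 p.2 - xi0 s ρ < trap s ρ p.2

/-- The standing assumptions at a kick node at which the affine ball stops. -/
structure At (N : NodeC Y) (V : ℕ → ℝ → ℝ) (A : ℝ) (y : ℕ) (I : ℕ × ℕ) (co : Coins S)
    (dd : Qn π × Qn π) (eo : Fin (2 * π.m0 + 2) × Qn π) : Prop where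
  ni : N.NI s
  kick : s.kick = some I
  rep : c.Rep s V A 8
  win : c.Win s V A
  aff : c.AffD s V A
  big : c.Big s A π y
  shal : ∀ u σ, Shal Y c s (co, dd, u, σ, eo) V A 8

/-- The assumptions on the continuation values `Gv`. -/
structure Val {ι : Type} (pt : ι → ℕ × ℝ) (F : (ι → ℝ) → ℝ) (ND : St → (ℕ → ℝ → ℝ) → ℝ → Prop)
    (V : ℕ → ℝ → ℝ) (A : ℝ) (co : Coins S) (dd : Qn π × Qn π) (eo : Fin (2 * π.m0 + 2) × Qn π)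
    (B : ℝ) (Gv : Qn π × Qn π × HS π → Bool → ℝ) : Prop where
  b0 : 0 ≤ B
  b1 : B ≤ c.rs / 1024
  g0 : ∀ u σ, 0 ≤ Gv u σ
  pay : ∀ u σ, F (fun i => Y.Vn s (co, dd, u, σ, eo) V (pt i).1 (pt i).2) ≤ Gv u σ
  aff : ∀ u σ A', A' = A ∨ A' = 2 * A →
    c.Rep (Y.mid s (co, dd, u, σ, eo)) (Y.Vn s (co, dd, u, σ, eo) V) A' 8 →
    c.Win (Y.mid s (co, dd, u, σ, eo)) (Y.Vn s (co, dd, u, σ, eo) V) A' →
    c.AffD (Y.mid s (co, dd, u, σ, eo)) (Y.Vn s (co, dd, u, σ, eo) V) A' → B * A' ≤ Gv u σ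
  non : ∀ u σ, c.Rep (Y.mid s (co, dd, u, σ, eo)) (Y.Vn s (co, dd, u, σ, eo) V) A 7 →
    c.Win (Y.mid s (co, dd, u, σ, eo)) (Y.Vn s (co, dd, u, σ, eo) V) A →
    c.NonG (Y.mid s (co, dd, u, σ, eo)) (Y.Vn s (co, dd, u, σ, eo) V) A →
    ND (Y.mid s (co, dd, u, σ, eo)) (Y.Vn s (co, dd, u, σ, eo) V) A → 2 ^ 20 * B * A ≤ Gv u σ

end Vale.Agent.P235.Pl
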