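import Vale.Agent.P235P.HRep
import Vale.Agent.P235P.HBall

/-! P235 planar case: the healing engine at a kick node. -/

open Set Classical

noncomputable section

namespace Vale.Agent.P235.Pl

variable {S : Sk} {π : Par} {Y : Sys S π} {N : NodeC Y} {c : Ctx S} {s : St} {V : ℕ → ℝ → ℝ}
  {A : ℝ} {y : ℕ} {I : ℕ × ℕ} {co : Coins S} {dd : Qn π × Qn π} {eo : Fin (2 * π.m0 + 2) × Qn π}
  {P : HP}

theorem Ctx.Big.nIdx_lt (h : c.Big s A π y) : nIdx π y < π.nS ∧ nIdx π y ≤ y := by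
  have h1 : nIdx π y ≤ y - 30 := Nat.div_le_self _ _
  have := h.m0
  have := h.le_y
  have := h.y_le
  omega

/-- The matched scale: `w / (2 ^ 20 A 2 ^ b) = 2 ^ (y - 30) (2 ^ m0) ^ i`, so its integer logarithm
is `i + (y - 30) / m0`. -/
theorem Ctx.Big.scl_eq (h : c.Big s A π y) (hA : 0 < A) :
    scl π (sTop π s.w A) (nIdx π y) = A * c.rs ∧ 0 < sTop π s.w A ∧
      2 ^ 20 * sTop π s.w A ≤ s.w := by
  obtain ⟨i, hi⟩ := h.phase
  have m0 := h.m0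
  have ly := h.le_y
  obtain ⟨M, hM⟩ : ∃ M : ℝ, M = ((2 ^ π.m0 : ℕ) : ℝ) := ⟨_, rfl⟩
  have hM2 : M = 2 ^ π.m0 := by rw [hM, Nat.cast_pow, Nat.cast_ofNat]
  have hM0 : 0 < M := by rw [hM2]; positivity
  have hb : (0 : ℝ) < 2 ^ π.b := by positivity
  have h1 : 1 < 2 ^ π.m0 := Nat.one_lt_two_pow (by omega)
  have hy : y = 30 + (π.m0 * nIdx π y + (y - 30) % π.m0) := by
    have := Nat.div_add_mod (y - 30) π.m0
    unfold nIdx
    omega
  have hr : (y - 30) % π.m0 < π.m0 := Nat.mod_lt _ (by omega)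
  obtain ⟨r, hr'⟩ : ∃ r, r = (y - 30) % π.m0 := ⟨_, rfl⟩
  obtain ⟨q, hq⟩ : ∃ q, q = nIdx π y := ⟨_, rfl⟩
  rw [← hr', ← hq] at hy
  rw [← hr'] at hr
  rw [← hM] at hi
  have e0 : M ^ (i + q) = M ^ i * 2 ^ (π.m0 * q) := by
    rw [zpow_add₀ hM0.ne', zpow_natCast, pow_mul, ← hM2]
  have e1 : s.w = 2 ^ 20 * A * 2 ^ π.b * (2 ^ r * M ^ (i + q)) := by
    rw [h.w_eq, hi, e0]
    conv_lhs => rw [hy]
    rw [pow_add, pow_add]
    ring
  have e2 : s.w / (2 ^ 20 * A * 2 ^ π.b) = 2 ^ r * M ^ (i + q) := by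
    rw [e1, mul_div_cancel_left₀ _ (by positivity)]
  have p0 : 0 < M ^ (i + q) := zpow_pos hM0 _
  have r1 : (1 : ℝ) ≤ 2 ^ r := one_le_pow₀ one_le_two
  have r2 : (2 : ℝ) ^ r < M := by
    rw [hM2]
    exact pow_lt_pow_right₀ one_lt_two hr
  have e3 : Int.log (2 ^ π.m0) (2 ^ r * M ^ (i + q)) = i + q := by
    refine le_antisymm (Int.lt_add_one_iff.1 ((Int.lt_zpow_iff_log_lt h1 (by positivity)).1 ?_))
      ((Int.zpow_le_iff_le_log h1 (by positivity)).1 ?_)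
    · rw [← hM, zpow_add_one₀ hM0.ne', mul_comm]
      exact mul_lt_mul_of_pos_left r2 p0
    · rw [← hM]
      exact le_mul_of_one_le_left p0.le r1
  have e4 : sTop π s.w A = A * 2 ^ π.b * M ^ (i + q) := by rw [sTop, e2, e3, ← hM]
  refine ⟨?_, by rw [e4]; positivity, ?_⟩
  · rw [scl, e4, ← hq, e0, hi]
    field_simp
  · rw [e4, e1]
    have : 0 < 2 ^ 20 * (A * 2 ^ π.b * M ^ (i + q)) := by positivity
    nlinarith

theorem Ctx.Big.small (h : c.Big s A π y) (hA : 0 < A) : 2 ^ 100 * (A * c.r) ≤ s.w := by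
  have h1 : (2 : ℝ) ^ 134 ≤ 2 ^ y := pow_le_pow_right₀ one_le_two (by linarith [h.m0, h.le_y])
  have h2 := mul_le_mul_of_nonneg_left c.r_le hA.le
  have h3 := mul_le_mul_of_nonneg_right h1 (mul_pos hA c.rs_pos).le
  rw [h.w_eq]
  linarith

theorem At.thick_abs (h : At Y c s N V A y I co dd eo) {p : ℕ × ℝ} (hp : p ∈ c.thick V A) :
    |p.2 - c.vx V| ≤ 9 * (A * c.r) ∧ p.2 ∈ s.W ∧ p.1 ∈ tm I := by
  obtain ⟨t, h1, h2⟩ := hp
  obtain ⟨b, hb⟩ := h.aff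
  have hA := h.rep.pos
  have h0 := mul_pos hA c.h_r_pos
  have e1 : V p.1 t = A * t + b := (hb _ h1).1
  have e2 : c.vx V = A * c.x.2 + b := (hb _ (c.h_x_mem (by norm_num))).1
  have h3 : |t - c.x.2| ≤ 8 * c.r := Ctx.h_ball_abs h1
  have h4 : |V p.1 t - c.vx V| ≤ A * (8 * c.r) := by
    rw [e1, e2, add_sub_add_right_eq_sub, ← mul_sub, abs_mul, abs_of_pos hA]
    exact mul_le_mul_of_nonneg_left h3 hA.le
  have h5 : |p.2 - c.vx V| ≤ 9 * (A * c.r) := by linarith [abs_sub_le p.2 (V p.1 t) (c.vx V)]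
  have h6 := abs_le.1 h5
  exact ⟨h5, h.win ⟨by linarith, by linarith⟩, h.rep.ink I h.kick (p.1, t) h1⟩

theorem At.mem_thick (h : At Y c s N V A y I co dd eo) {p : ℕ × ℝ} (hp : p ∈ c.ball 8) :
    (p.1, V p.1 p.2) ∈ c.thick V A :=
  ⟨p.2, hp, by rw [sub_self, abs_zero]; exact (mul_pos h.rep.pos c.h_r_pos).le⟩

/-- Paths in the ball are pushed forward (`Reach.inv`, `Rep.r1`, `link_Dp`, `link_res`). -/
theorem At.push (h : At Y c s N V A y I co dd eo) (ρ : Rnd S π) {p : ℕ × ℝ} {k : ℝ}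
    (hp : Reach S c.D0 univ c.x p k) (hk : k ≤ 8 * c.r) :
    Reach S ((Y.Dp s ρ).res S (Prod.fst '' c.ball 8)) s.W (c.x.1, c.vx V) (p.1, V p.1 p.2)
      (A * k) := by
  have hA := h.rep.pos
  obtain ⟨b, hb⟩ := h.aff
  have mem : ∀ q k, Reach S c.D0 univ c.x q k → k ≤ 8 * c.r → q ∈ c.ball 8 := fun q k h1 h2 =>
    Near.of_reach rfl h1 h2
  refine hp.inv (Q := fun q k => k ≤ 8 * c.r → Reach S ((Y.Dp s ρ).res S (Prod.fst '' c.ball 8))
    s.W (c.x.1, c.vx V) (q.1, V q.1 q.2) (A * k)) (fun _ => ?_) (fun θ t t' k h1 h2 ih h3 => ?_)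
    (fun θ θ' t k h1 h2 ih h3 => ?_) hk
  · exact (Reach.refl (h.thick_abs (h.mem_thick (c.h_x_mem (by norm_num)))).2.1).cast
      (mul_zero A).symm
  · have h4 : k ≤ 8 * c.r := by linarith [abs_nonneg (t - t')]
    have m1 := mem _ _ h1 h4
    have m2 := mem _ _ (h1.vert h2) h3
    refine ((ih h4).vert (h.thick_abs (h.mem_thick m2)).2.1).cast ?_
    rw [(hb _ m1).1, (hb _ m2).1, add_sub_add_right_eq_sub, ← mul_sub, abs_mul, abs_of_pos hA,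
      mul_add]
  · obtain ⟨l1, l2⟩ := h.rep.r1 θ θ' t h2
    have h5 := (ih h3).link (link_res.2 ⟨Y.link_Dp ρ l1, ⟨_, mem _ _ h1 h3, rfl⟩,
      ⟨_, mem _ _ (h1.link h2) h3, rfl⟩⟩)
    rwa [show V (θ, t).1 (θ, t).2 = V θ' t from l2] at h5

theorem At.thick_sub (h : At Y c s N V A y I co dd eo) (hP : HealAt Y c s V A I co dd eo P)
    (n : ℕ) : c.thick V A ⊆ P.Bl (c.hb V A I n) := by
  intro p hp
  obtain ⟨t, h1, h2⟩ := id hp
  obtain ⟨k, hk, h3⟩ := Near.single.1 h1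
  have hA := h.rep.pos
  have h4 := (h.push (co, dd, (0, 0, fun _ => (0, 0, 0)), true, eo) h3 hk).vert
    (h.thick_abs hp).2.1
  have h5 := mul_le_mul_of_nonneg_left hk hA.le
  have h0 := mul_pos hA c.h_r_pos
  rw [HP.Bl, hP.hS, hP.hD (0, 0, fun _ => (0, 0, 0)) true, hP.hW]
  refine Near.of_reach rfl h4 ?_
  change A * k + |V p.1 t - p.2| ≤ 10 * (A * c.r)
  rw [abs_sub_comm]
  linarith

theorem At.ball (h : At Y c s N V A y I co dd eo) (hP : HealAt Y c s V A I co dd eo P) :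
    P.Ball π (c.hb V A I (nIdx π y)) s.w ∧ scl π P.s1 (nIdx π y) = A * c.rs := by
  have hA := h.rep.pos
  obtain ⟨e1, -, e3⟩ := h.big.scl_eq hA
  rw [← hP.hs1] at e1 e3
  refine ⟨⟨hP.good, h.big.m0, mul_pos hA c.h_r_pos, ⟨_, c.h_x_mem (by norm_num), rfl⟩, ?_, ?_, ?_,
    h.big.nIdx_lt.1, ?_, ?_, e3, h.big.small hA, ?_⟩, e1⟩
  · rintro _ ⟨p, hp, rfl⟩
    exact h.rep.ink I h.kick p hp
  · rw [hP.hW]
    change Icc (c.vx V - 100 * (A * c.r)) (c.vx V + 100 * (A * c.r)) ⊆ s.W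
    rw [← mul_assoc]
    exact h.win
  · rintro _ ⟨p, hp, rfl⟩
    exact ⟨_, h.thick_sub hP _ (h.mem_thick hp)⟩
  · change 2 ^ 16 * scl π P.s1 (nIdx π y) ≤ A * c.r
    rw [e1]
    linarith [mul_le_mul_of_nonneg_left c.le_r hA.le]
  · change A * c.r ≤ 2 ^ 24 * scl π P.s1 (nIdx π y)
    rw [e1]
    linarith [mul_le_mul_of_nonneg_left c.r_le hA.le]
  · change 256 * s.w ≤ π.Nq * (A * c.r)
    rw [← mul_assoc]
    exact h.big.nq

theorem At.psi_eq (h : At Y c s N V A y I co dd eo) (ρ : Rnd S π) {θ : ℕ} (hθ : θ ∈ tm I) (t : ℝ) :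
    Y.psi s ρ θ t = max 0 (min (trap s ρ t) ((Y.hl s ρ I).H θ t - xi0 s ρ)) := by
  simp only [Sys.psi, Sys.psi0, h.kick, if_pos hθ, if_pos (N.ok s ρ h.ni).2]

theorem At.naff (h : At Y c s N V A y I co dd eo) (hP : HealAt Y c s V A I co dd eo P)
    (u : Qn π × Qn π × HS π) (σ : Bool)
    (ha : P.Aff u.2.2 (c.hb V A I (nIdx π y)) (xi0 s (co, dd, u, σ, eo))
      (trap s (co, dd, u, σ, eo) (c.vx V))) : NAff Y c s (co, dd, u, σ, eo) V A I := by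
  have hw := (N.pos s h.ni).1
  have h0 := mul_pos h.rep.pos c.h_r_pos
  have x1 := (h_xi0_mem (s := s) (ρ := (co, dd, u, σ, eo)) hw).2
  have t1 := fun t => h_trap_le (s := s) (ρ := (co, dd, u, σ, eo)) hw t
  have t2 : ∀ p ∈ c.thick V A, |trap s (co, dd, u, σ, eo) p.2 -
      trap s (co, dd, u, σ, eo) (c.vx V)| ≤ 9 * (A * c.r) := fun p hp =>
    (h_trap_lip _ _).trans (h.thick_abs hp).1
  have sub := h.thick_sub hP (nIdx π y)
  have eu : (c.hb V A I (nIdx π y)).u = A * c.r := rfl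
  rcases ha with ha | ha | ⟨g, b0, τ, hg, hτ, ha⟩
  · refine Or.inl fun p hp => ?_
    have h1 := ha p (sub hp)
    rcases hP.agree u σ p hp with e | e
    · rwa [e.1]
    · linarith [e.2]
  · refine Or.inr (Or.inl fun p hp => ?_)
    have h1 := ha p (sub hp)
    rw [eu] at h1
    rcases hP.agree u σ p hp with e | e
    · rw [e.1]
      linarith [(abs_le.1 (t2 p hp)).2]
    · linarith [e.1, t1 p.2]
  · refine Or.inr (Or.inr ⟨g, b0, τ, hg, (h.ball hP).2 ▸ hτ, fun p hp => ?_⟩)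
    obtain ⟨a1, a2, a3, a4⟩ := ha p (sub hp)
    rw [eu] at a4
    rcases hP.agree u σ p hp with e | e
    · rw [e.1, e.2]
      exact ⟨a1, a2, a3, by linarith [(abs_le.1 (t2 p hp)).1]⟩
    · linarith [e.2, t1 (c.vx V)]

/-- In the middle range the operation on the thick ball is `out.H - xi0`. -/
theorem At.mid_psi (h : At Y c s N V A y I co dd eo) (hP : HealAt Y c s V A I co dd eo P)
    (u : Qn π × Qn π × HS π) (σ : Bool) {X : Cone → Finset ℝ}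
    (hm : P.Mid u.2.2 (c.hb V A I (nIdx π y)) X (xi0 s (co, dd, u, σ, eo))
      (trap s (co, dd, u, σ, eo) (c.vx V)) (nIdx π y)) {p : ℕ × ℝ} (hp : p ∈ c.thick V A) :
    (Y.hl s (co, dd, u, σ, eo) I).H p.1 p.2 = (P.out u.2.2).H p.1 p.2 ∧
    (Y.hl s (co, dd, u, σ, eo) I).dn p.1 p.2 = (P.out u.2.2).dn p.1 p.2 ∧
    0 < (P.out u.2.2).H p.1 p.2 - xi0 s (co, dd, u, σ, eo) ∧
    (P.out u.2.2).H p.1 p.2 - xi0 s (co, dd, u, σ, eo) < trap s (co, dd, u, σ, eo) p.2 ∧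
    Y.psi s (co, dd, u, σ, eo) p.1 p.2 = (P.out u.2.2).H p.1 p.2 - xi0 s (co, dd, u, σ, eo) := by
  have hw := (N.pos s h.ni).1
  have h0 := mul_pos h.rep.pos c.h_r_pos
  have x1 := (h_xi0_mem (s := s) (ρ := (co, dd, u, σ, eo)) hw).2
  have t1 := h_trap_le (s := s) (ρ := (co, dd, u, σ, eo)) hw (c.vx V)
  have t2 := abs_le.1 ((h_trap_lip (s := s) (ρ := (co, dd, u, σ, eo)) _ _).trans
    (h.thick_abs hp).1)
  have hb := (h.ball hP).1
  have eu : (c.hb V A I (nIdx π y)).u = A * c.r := rfl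
  obtain ⟨-, m1, m2⟩ := hm
  have v1 := abs_le.1 (hb.Hs_var (hs := u.2.2) (nIdx π y) (h.thick_sub hP _ hp))
  obtain ⟨o1, o2⟩ := hb.out_le (hs := u.2.2) (nIdx π y) p.1 p.2 h.big.nIdx_lt.1.le
  rw [eu] at m1 m2 v1
  have a1 : 0 < (P.out u.2.2).H p.1 p.2 - xi0 s (co, dd, u, σ, eo) := by linarith [v1.1]
  have a2 : (P.out u.2.2).H p.1 p.2 - xi0 s (co, dd, u, σ, eo) <
      trap s (co, dd, u, σ, eo) p.2 := by linarith [v1.2, t2.1]
  rcases hP.agree u σ p hp with e | e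
  · refine ⟨e.1, e.2, a1, a2, ?_⟩
    rw [h.psi_eq _ (h.thick_abs hp).2.2, e.1, min_eq_right a2.le, max_eq_right a1.le]
  · exfalso
    linarith [e.2, v1.2]

end Vale.Agent.P235.Pl
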