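import Vale.Agent.P235P.HDefs
import Vale.Agent.P235P.EA
import Vale.Agent.P235P.BEnv

/-! P235 planar case: the representation of the ball after an operation. -/

open Set Classical

noncomputable section

namespace Vale.Agent.P235.Pl

variable {S : Sk} {π : Par} {Y : Sys S π} {c : Ctx S} {s : St} {ρ : Rnd S π} {V : ℕ → ℝ → ℝ}
  {A R : ℝ}

theorem Ctx.h_r_pos (c : Ctx S) : 0 < c.r :=
  lt_of_lt_of_le (mul_pos (by norm_num) c.rs_pos) c.le_r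

theorem Ctx.h_ball_mono (c : Ctx S) {R R' : ℝ} (h : R' ≤ R) : c.ball R' ⊆ c.ball R :=
  fun _ hp => Near.mono_R hp (mul_le_mul_of_nonneg_right h c.h_r_pos.le)

theorem Ctx.h_x_mem (c : Ctx S) {R : ℝ} (h : 0 ≤ R) : c.x ∈ c.ball R :=
  Near.self rfl (mem_univ _) (mul_nonneg h c.h_r_pos.le)

theorem Ctx.h_ball_abs {p : ℕ × ℝ} (h : p ∈ c.ball R) : |p.2 - c.x.2| ≤ R * c.r := by
  obtain ⟨k, hk, hr⟩ := Near.single.1 h
  exact (abs_sub_comm _ _).trans_le (hr.abs_le.trans hk)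

theorem Ctx.h_ball_vert {θ : ℕ} {t t' d : ℝ} (h : (θ, t) ∈ c.ball R) (hd : |t' - t| ≤ d * c.r) :
    (θ, t') ∈ c.ball (R + d) :=
  (Near.vert h (mem_univ t')).mono_R (by rw [abs_sub_comm]; linarith)

theorem h_Psi_lip (θ : ℕ) (t t' : ℝ) : |Y.Psi s ρ θ t - Y.Psi s ρ θ t'| ≤ 2 * |t - t'| := by
  have h1 : |sg ρ * (Y.psi s ρ θ t - Y.psi s ρ θ t')| ≤ |t - t'| := by
    rw [abs_mul, abs_sg, one_mul]
    exact Y.psi_lip ρ θ t t'
  have e : Y.Psi s ρ θ t - Y.Psi s ρ θ t' =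
      (t - t') + sg ρ * (Y.psi s ρ θ t - Y.psi s ρ θ t') := by
    unfold Sys.Psi
    ring
  rw [e]
  linarith [abs_add_le (t - t') (sg ρ * (Y.psi s ρ θ t - Y.psi s ρ θ t'))]

theorem h_Psi_cont (θ : ℕ) : Continuous (Y.Psi s ρ θ) :=
  (LipschitzWith.of_dist_le_mul (K := 2) fun t t' => h_Psi_lip θ t t').continuous

theorem h_link_mid {θ θ' : ℕ} {v : ℝ} (h : Link S (Y.mid s ρ).D θ θ' v) :
    ∃ t, Link S (Y.Dp s ρ) θ θ' t ∧ Y.Psi s ρ θ t = v := by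
  rcases h with ⟨e, t, ht, h⟩ | ⟨e, t, ht, h⟩ | ⟨e, e', t, ht, h⟩ | ⟨e, e', t, ht, h⟩
  · exact ⟨t, Or.inl ⟨e, ht⟩, h⟩
  · have l : Link S (Y.Dp s ρ) θ θ' t := Or.inr (Or.inl ⟨e, ht⟩)
    exact ⟨t, l, (Y.Psi_link ρ l).trans h⟩
  · exact ⟨t, Or.inr (Or.inr (Or.inl ⟨e, e', ht⟩)), h⟩
  · have l : Link S (Y.Dp s ρ) θ θ' t := Or.inr (Or.inr (Or.inr ⟨e, e', ht⟩))
    exact ⟨t, l, (Y.Psi_link ρ l).trans h⟩

theorem hrep_fat {θ a b : ℕ} {v d : ℝ} {B : Set ℝ} (hd : 0 < d) (hθ : θ = a ∨ θ = b)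
    (h : ∀ i, Y.ch s ρ θ = some i → ∀ u ∈ s.W, |u - v| ≤ d → (θ, u) ∈ Y.cPin s ρ i)
    (hv : v ∈ B ∪ Y.fat s ρ a b B) : v ∈ B := by
  rcases hv with hv | ⟨hv, t, ht, htW, i, h1, h2, -, h3⟩
  · exact hv
  have key : ∀ u, min t v < u → u < max t v → |u - v| ≤ d → False := fun u u1 u2 u3 => by
    have hu : u ∈ s.W := ⟨(le_min htW.1 hv.1).trans u1.le, u2.le.trans (max_le htW.2 hv.2)⟩
    rcases hθ with rfl | rfl
    · exact (h3 u u1 u2).1 (h i h1 u hu u3)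
    · exact (h3 u u1 u2).2 (h i h2 u hu u3)
  rcases lt_trichotomy t v with e | e | e
  · obtain ⟨u, u1, u2⟩ := exists_between (max_lt e (sub_lt_self v hd))
    rw [max_lt_iff] at u1
    exact (key u (min_lt_of_left_lt u1.1) (lt_max_of_lt_right u2)
      (abs_le.2 ⟨by linarith [u1.2], by linarith⟩)).elim
  · exact e ▸ ht
  · obtain ⟨u, u1, u2⟩ := exists_between (lt_min e (lt_add_of_pos_right v hd))
    rw [lt_min_iff] at u2
    exact (key u (min_lt_of_right_lt u1) (lt_max_of_lt_left u2.1)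
      (abs_le.2 ⟨by linarith, by linarith [u2.2]⟩)).elim

/-- No additional links at a point whose neighbourhood in the column is pinned for its child. -/
theorem h_nofat {θ θ' : ℕ} {v d : ℝ} (hd : 0 < d)
    (h : ∀ i, Y.ch s ρ θ = some i → ∀ u ∈ s.W, |u - v| ≤ d → (θ, u) ∈ Y.cPin s ρ i)
    (hl : Link S (Y.Dp s ρ) θ θ' v) : Link S s.D θ θ' v := by
  rcases hl with ⟨e, ht⟩ | ⟨e, ht⟩ | ⟨e, e', ht⟩ | ⟨e, e', ht⟩
  · exact Or.inl ⟨e, hrep_fat hd (Or.inl rfl) h ht⟩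
  · exact Or.inr (Or.inl ⟨e, hrep_fat hd (Or.inr e) h ht⟩)
  · exact Or.inr (Or.inr (Or.inl ⟨e, e', hrep_fat hd (Or.inl rfl) h ht⟩))
  · exact Or.inr (Or.inr (Or.inr ⟨e, e', hrep_fat hd (Or.inr e') h ht⟩))

/-- Shallow ball points are pinned for their child together with a neighbourhood (`dc_lip`). -/
theorem Shal.h_pin (h : Shal Y c s ρ V A R) {p : ℕ × ℝ} (hp : p ∈ c.ball R) {i : Option (ℕ × ℕ)}
    (hi : Y.ch s ρ p.1 = some i) {u : ℝ} (hu : |u - V p.1 p.2| ≤ 50 * A * c.r) :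
    (p.1, u) ∈ Y.cPin s ρ i := by
  have h1 := h p hp i hi
  have h2 : Y.DI s (cI s i) (p.1, u) - Y.DI s (cI s i) (p.1, V p.1 p.2) ≤ |u - V p.1 p.2| :=
    (le_abs_self _).trans (dc_lip _ _)
  have h3 : Y.DI s (cI s i) (p.1, u) ≤ thr s ρ i := by linarith
  refine Or.inr ?_
  cases i <;> exact h3

theorem Shal.h_not_deep (h : Shal Y c s ρ V A R) (hA : 0 ≤ A) {p : ℕ × ℝ} (hp : p ∈ c.ball R) :
    ¬ Y.deep s ρ (p.1, V p.1 p.2) := by
  rintro ⟨-, i, hi, hn⟩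
  have := c.h_r_pos
  exact hn (h.h_pin hp hi (by rw [sub_self, abs_zero]; positivity))

/-- If `Psi` fixes a neighbourhood of `v` in `W`, then `v` is the only preimage of `v` in `W`. -/
theorem h_Psi_fix {θ : ℕ} {v t d : ℝ} (hd : 0 < d) (hv : v ∈ s.W) (ht : t ∈ s.W)
    (h : ∀ u ∈ s.W, |u - v| ≤ d → Y.psi s ρ θ u = 0) (e : Y.Psi s ρ θ t = v) : t = v := by
  rcases lt_trichotomy t v with h1 | h1 | h1
  · obtain ⟨u, u1, u2⟩ := exists_between (max_lt h1 (sub_lt_self v hd))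
    rw [max_lt_iff] at u1
    have h2 := Y.Psi_mono' (s := s) ρ θ u1.1.le
    rw [e, Y.Psi_of_zero ρ (h u ⟨ht.1.trans u1.1.le, u2.le.trans hv.2⟩
      (abs_le.2 ⟨by linarith [u1.2], by linarith⟩))] at h2
    exact absurd u2 (not_lt.2 h2)
  · exact h1
  · obtain ⟨u, u1, u2⟩ := exists_between (lt_min h1 (lt_add_of_pos_right v hd))
    rw [lt_min_iff] at u2
    have h2 := Y.Psi_mono' (s := s) ρ θ u2.1.le
    rw [e, Y.Psi_of_zero ρ (h u ⟨hv.1.trans u1.le, u2.1.le.trans ht.2⟩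
      (abs_le.2 ⟨by linarith, by linarith [u2.2]⟩))] at h2
    exact absurd u1 (not_lt.2 h2)

theorem hrep_quiet (N : NodeC Y) (hs : N.NI s) {θ : ℕ} {t d : ℝ} (hd : d ≤ s.w / 200)
    (h : Near S s.D s.W s.Pin d (θ, t)) {u : ℝ} (hu : u ∈ s.W) (e : |u - t| ≤ s.w / 200) :
    Y.psi s ρ θ u = 0 ∧ ¬ Y.deep s ρ (θ, u) :=
  N.quiet s ρ (θ, u) hs ((h.vert hu).mono_R (by rw [abs_sub_comm]; linarith))

/-- Short paths from the pins pull back (`NodeC.quiet`, `h_link_mid`, `h_Psi_fix`, `h_nofat`;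
a link value outside `W` is fixed by `Psi_out`). -/
theorem h_near_pin (N : NodeC Y) (hs : N.NI s) {d : ℝ} (hd : d ≤ s.w / 200) {p : ℕ × ℝ}
    (h : Near S (Y.mid s ρ).D s.W s.Pin d p) : Near S s.D s.W s.Pin d p := by
  have hw := (N.pos s hs).1
  have h2 : 0 < s.w / 200 := by linarith
  obtain ⟨p0, hp0, k, hk, hr⟩ := h
  refine ⟨p0, hp0, k, hk, hr.inv (Q := fun q k => k ≤ d → Reach S s.D s.W p0 q k)
    (fun _ => Reach.refl hr.mem_left)
    (fun θ t t' k _ ht' ih h1 => (ih (by linarith [abs_nonneg (t - t')])).vert ht')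
    (fun θ θ' t k _ hl ih h1 => ?_) hk⟩
  have hn : Near S s.D s.W s.Pin d (θ, t) := ⟨p0, hp0, k, h1, ih h1⟩
  obtain ⟨t0, hl0, e⟩ := h_link_mid hl
  have e0 : t0 = t := by
    by_cases h0 : t0 ∈ s.W
    · exact h_Psi_fix h2 hn.mem h0 (fun u hu e => (hrep_quiet N hs hd hn hu e).1) e
    · refine (Y.Psi_out ρ hw θ ?_).symm.trans e
      by_contra h3
      push Not at h3
      exact h0 ⟨h3.1.le, h3.2.le⟩
  subst e0
  refine (ih h1).link (h_nofat h2 (fun i hi u hu e => ?_) hl0)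
  by_contra h3
  exact (hrep_quiet (ρ := ρ) N hs hd hn hu e).2 ⟨hu, i, hi, h3⟩

/-- The representation passes to the next state. -/
theorem h_rep_next (N : NodeC Y) (hs : N.NI s) (hR : c.Rep s V A R)
    (hW : ∀ p ∈ c.ball R, V p.1 p.2 ∈ s.W) (hsm : 40000 * A * c.r ≤ s.w)
    (hsh : Shal Y c s ρ V A R) {R' A' : ℝ} (hRR : R' ≤ R) (hA : 0 < A') (hA2 : A' ≤ 2 * A)
    (hflat : ∀ p ∈ c.ball R', ∀ v, Y.Psi s ρ p.1 v = Y.Psi s ρ p.1 (V p.1 p.2) →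
      ∃ t', (p.1, t') ∈ c.ball R ∧ V p.1 t' = v)
    (hlip : ∀ θ t t', (θ, t) ∈ c.ball R' → (θ, t') ∈ c.ball R' →
      |Y.Vn s ρ V θ t - Y.Vn s ρ V θ t'| ≤ 2 * A' * |t - t'|)
    (hpf : A' ≤ A ∨ ∀ p ∈ c.ball R', ∃ v ∈ s.W, |v - V p.1 p.2| ≤ A * c.r ∧ Y.psi s ρ p.1 v ≠ 0) :
    c.Rep (Y.mid s ρ) (Y.Vn s ρ V) A' R' := by
  have hr := c.h_r_pos
  have hAr := mul_pos hR.pos hr
  have hw := (N.pos s hs).1
  refine ⟨hA, fun θ => (Y.Psi_mono' ρ θ).comp (hR.mono θ),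
    fun θ => (h_Psi_cont θ).comp (hR.cont θ), fun θ θ' t hl => ?_, fun θ θ' t hp hl => ?_, hlip,
    fun p hp hn => ?_, fun I hI => nomatch hI⟩
  · obtain ⟨h1, h2⟩ := hR.r1 θ θ' t hl
    exact ⟨Y.link_mid ρ (Y.link_Dp ρ h1),
      (Y.Psi_link ρ (Y.link_Dp ρ h1)).trans (congrArg (Y.Psi s ρ θ') h2)⟩
  · obtain ⟨v, h1, h2⟩ := h_link_mid hl
    obtain ⟨t', h3, rfl⟩ := hflat (θ, t) hp v h2
    obtain ⟨t'', h4, h5⟩ := hR.r2 θ θ' t' h3 (h_nofat (d := 50 * A * c.r) (by linarith)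
      (fun i hi u _ e => hsh.h_pin h3 hi e) h1)
    exact ⟨t'', h4, (congrArg (Y.Psi s ρ θ) h5).trans h2⟩
  · have hd : 50 * A' * c.r ≤ s.w / 200 := by
      linarith [mul_le_mul_of_nonneg_right hA2 hr.le]
    have h1 := h_near_pin N hs hd hn
    have hp' := c.h_ball_mono hRR hp
    have e : V p.1 p.2 = Y.Vn s ρ V p.1 p.2 := h_Psi_fix (d := s.w / 200) (by linarith) h1.mem
      (hW p hp') (fun u hu e => (hrep_quiet N hs hd h1 hu e).1) rfl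
    rw [← e] at h1
    rcases hpf with h2 | h2
    · exact hR.pf p hp' (h1.mono_R (by linarith [mul_le_mul_of_nonneg_right h2 hr.le]))
    · obtain ⟨v, h3, h4, h5⟩ := h2 p hp
      exact h5 (hrep_quiet N hs hd h1 h3 (by linarith)).1

theorem hrep_zero {t : ℝ} (ht : t ≤ s.lo + zz s ρ ∨ s.hi - zz s ρ ≤ t) : trap s ρ t = 0 := by
  refine max_eq_left ((min_le_right _ _).trans ?_)
  rcases ht with ht | ht
  · exact (min_le_left _ _).trans (by linarith)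
  · exact (min_le_right _ _).trans (by linarith)

/-- If the operation acts at some value near `v`, the image of `v` is far from the ends of the
window: `psi ≤ trap` vanishes within `w / 40` of the ends and `Psi` is monotone. -/
theorem h_win_of_psi (hw : 0 < s.w) {θ : ℕ} {v u d : ℝ} (hd : d ≤ s.w / 200) (hu : |u - v| ≤ d)
    (h : Y.psi s ρ θ u ≠ 0) :
    Icc (Y.Psi s ρ θ v - s.w / 200) (Y.Psi s ρ θ v + s.w / 200) ⊆ s.W := by
  have hz := (zz_mem ρ hw).1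
  have z : ∀ t, t ≤ s.lo + zz s ρ ∨ s.hi - zz s ρ ≤ t → Y.psi s ρ θ t = 0 := fun t ht =>
    le_antisymm ((Y.psi_mem ρ θ t).2.trans_eq (hrep_zero ht)) (Y.psi_mem ρ θ t).1
  have h1 : s.lo + zz s ρ < u := not_le.1 fun h1 => h (z u (Or.inl h1))
  have h2 : u < s.hi - zz s ρ := not_le.1 fun h2 => h (z u (Or.inr h2))
  rw [abs_le] at hu
  have h3 := Y.Psi_mono' (s := s) ρ θ (show s.lo + s.w / 200 ≤ v by linarith [hu.2])
  have h4 := Y.Psi_mono' (s := s) ρ θ (show v ≤ s.hi - s.w / 200 by linarith [hu.1])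
  rw [Y.Psi_of_zero ρ (z _ (Or.inl (by linarith)))] at h3
  rw [Y.Psi_of_zero ρ (z (s.hi - s.w / 200) (Or.inr (by linarith)))] at h4
  exact Icc_subset_Icc (by linarith) (by linarith)

theorem hrep_side {x v k D : ℝ} (h : D ≤ |x - k|) (hv : |v - x| < D) :
    (x < k ∧ v < k) ∨ (k < x ∧ k < v) := by
  rw [abs_lt] at hv
  rcases le_abs.1 h with h | h
  · exact Or.inr ⟨by linarith [hv.1, hv.2], by linarith [hv.1]⟩
  · exact Or.inl ⟨by linarith [hv.1, hv.2], by linarith [hv.2]⟩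

/-- Away from its kinks the trapezoid is affine. -/
theorem h_trap_aff (hw : 0 < s.w) (hh : s.w / 2 ≤ s.hi - s.lo) (hk : Kink c s ρ V A) {v : ℝ}
    (hv : |v - c.vx V| < 100 * A * c.r) : trapS s ρ v = trapS s ρ (c.vx V) ∧
      trap s ρ v = trap s ρ (c.vx V) + trapS s ρ (c.vx V) * (v - c.vx V) := by
  obtain ⟨z1, z2⟩ := zz_mem ρ hw
  obtain ⟨k1, k2, k3, k4⟩ := hk
  rcases hrep_side k1 hv with ⟨a1, b1⟩ | ⟨a1, b1⟩
  · rw [trapS, trapS, if_pos a1, if_pos b1, hrep_zero (Or.inl a1.le), hrep_zero (Or.inl b1.le)]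
    exact ⟨rfl, by ring⟩
  rw [trapS, trapS, if_neg a1.not_gt, if_neg b1.not_gt]
  rcases hrep_side k2 hv with ⟨a2, b2⟩ | ⟨a2, b2⟩
  · have e : ∀ t, s.lo + zz s ρ < t → t < s.lo + zz s ρ + s.w / 20 →
        trap s ρ t = t - s.lo - zz s ρ := fun t h1 h2 => by
      rw [trap, min_eq_left (a := t - s.lo - zz s ρ) (by linarith), min_eq_right (by linarith),
        max_eq_right (by linarith)]
    rw [if_pos a2, if_pos b2, e _ a1 a2, e _ b1 b2]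
    exact ⟨rfl, by ring⟩
  rw [if_neg a2.not_gt, if_neg b2.not_gt]
  rcases hrep_side k3 hv with ⟨a3, b3⟩ | ⟨a3, b3⟩
  · have e : ∀ t, s.lo + zz s ρ + s.w / 20 < t → t < s.hi - zz s ρ - s.w / 20 →
        trap s ρ t = s.w / 20 := fun t h1 h2 => by
      rw [trap, min_eq_left (le_min (by linarith) (by linarith)), max_eq_right (by linarith)]
    rw [if_pos a3, if_pos b3, e _ a2 a3, e _ b2 b3]
    exact ⟨rfl, by ring⟩
  rw [if_neg a3.not_gt, if_neg b3.not_gt]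
  rcases hrep_side k4 hv with ⟨a4, b4⟩ | ⟨a4, b4⟩
  · have e : ∀ t, s.hi - zz s ρ - s.w / 20 < t → t < s.hi - zz s ρ →
        trap s ρ t = s.hi - zz s ρ - t := fun t h1 h2 => by
      rw [trap, min_eq_right (a := t - s.lo - zz s ρ) (by linarith), min_eq_right (by linarith),
        max_eq_right (by linarith)]
    rw [if_pos a4, if_pos b4, e _ a3 a4, e _ b3 b4]
    exact ⟨rfl, by ring⟩
  · rw [if_neg a4.not_gt, if_neg b4.not_gt, hrep_zero (Or.inr a4.le), hrep_zero (Or.inr b4.le)]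
    exact ⟨rfl, by ring⟩

theorem h_trapS_mem (t : ℝ) : trapS s ρ t = -1 ∨ trapS s ρ t = 0 ∨ trapS s ρ t = 1 := by
  unfold trapS
  split_ifs <;> simp

theorem h_trap_lip (t t' : ℝ) : |trap s ρ t - trap s ρ t'| ≤ |t - t'| := by
  refine (abs_max_sub_max_le_max _ _ _ _).trans (max_le (by simp)
    ((abs_min_sub_min_le_max _ _ _ _).trans (max_le (by simp)
      ((abs_min_sub_min_le_max _ _ _ _).trans (max_le (le_of_eq ?_) (le_of_eq ?_))))))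
  · exact congrArg _ (by ring)
  · rw [abs_sub_comm t]
    exact congrArg _ (by ring)

theorem h_trap_le (hw : 0 < s.w) (t : ℝ) : trap s ρ t ≤ s.w / 20 :=
  max_le (by linarith) (min_le_left _ _)

theorem h_xi0_mem (hw : 0 < s.w) : s.w / 20 ≤ xi0 s ρ ∧ xi0 s ρ ≤ s.w / 10 :=
  uq_mem _ (by linarith)

end Vale.Agent.P235.Pl
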