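import Vale.Agent.P235P.HBall

/-! P235 planar case: one scale of ball tracking. -/

open Set Classical

noncomputable section

namespace Vale.Agent.P235.Pl

variable {π : Par}

namespace HP
variable {P : HP} {b : HB} {w : ℝ} {hs : HS π} {X : Cone → Finset ℝ} {ξ T : ℝ}

/-- The relevant cones at the scale `m`. -/
def Rel (P : HP) (hs : HS π) (b : HB) (m : Fin π.nS) (i k : ℤ) : Prop :=
  Adm P.W P.s1 hs m i k ∧ Icc (b.x.2 - 100 * b.u) (b.x.2 + 100 * b.u) ⊆ (cone P.s1 hs m i k).I0 ∧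
    (∃ c ∈ P.act (P.Hs hs m) (cone P.s1 hs m i k), b.TB ⊆ tm c.1) ∧
    P.vc hs b m + 100 * b.u ≤ (cone P.s1 hs m i k).G b.x.2

theorem htr_x (hb : P.Ball π b w) : b.x.2 ∈ Icc (b.x.2 - 100 * b.u) (b.x.2 + 100 * b.u) :=
  ⟨by linarith [hb.u0], by linarith [hb.u0]⟩

theorem htr_p (hb : P.Ball π b w) {p : ℕ × ℝ} (hp : p ∈ P.Bl b) :
    p.2 ∈ Icc (b.x.2 - 100 * b.u) (b.x.2 + 100 * b.u) := by
  have := abs_le.1 (Bl_abs hp)
  exact ⟨by linarith [hb.u0], by linarith [hb.u0]⟩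

theorem htr_G (κ : Cone) {p : ℕ × ℝ} (hp : p ∈ P.Bl b) : |κ.G p.2 - κ.G b.x.2| ≤ 10 * b.u :=
  (κ.G_lip _ _).trans (Bl_abs hp)

theorem Rel.le (hb : P.Ball π b w) {m : Fin π.nS} {i k : ℤ} (h : P.Rel hs b m i k) :
    (cone P.s1 hs m i k).G b.x.2 ≤ P.vc hs b m + 24 * scl π P.s1 m := by
  obtain ⟨-, h1, ⟨c, hc, hT⟩, -⟩ := h
  exact hc.2.e12.1 _ (hT hb.xT) _ (h1 (htr_x hb))

theorem Rel.uniq (hb : P.Ball π b w) {m : Fin π.nS} {i k i' k' : ℤ} (h : P.Rel hs b m i k)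
    (h' : P.Rel hs b m i' k') : i' = i ∧ k' = k := by
  obtain rfl : i' = i := I0_unique hb.good.s1 (h'.2.1 (htr_x hb)) (h.2.1 (htr_x hb))
  refine ⟨rfl, G_unique hb.good.s1 (hs := hs) (m := m) (i := i') (t := b.x.2) ?_⟩
  have := h.le hb
  have := h'.le hb
  have := h.2.2.2
  have := h'.2.2.2
  have := hb.u0
  have := scl_pos (π := π) hb.good.s1 m
  rw [abs_lt]
  constructor <;> linarith

/-- A term that raises at a ball point comes from a relevant cone and a cell around the ball. -/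
theorem htr_term (hb : P.Ball π b w) {m : Fin π.nS} (hm : (m : ℕ) < b.n)
    (hg : P.Gd hs b X ξ T m) {p : ℕ × ℝ} (hp : p ∈ P.Bl b) {i k : ℤ} {c : Cell}
    (ha : Adm P.W P.s1 hs m i k) (hc : c ∈ P.act (P.Hs hs m) (cone P.s1 hs m i k))
    (hθ : p.1 ∈ tm c.1) (ht : p.2 ∈ (cone P.s1 hs m i k).I0)
    (hlt : P.Hs hs m p.1 p.2 < min ((cone P.s1 hs m i k).G p.2) (c.2 p.1 p.2 - xim P.s1 hs m)) :
    b.TB ⊆ tm c.1 ∧ P.Rel hs b m i k := by
  have hu := hb.u0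
  have hs0 := scl_pos (π := π) hb.good.s1 m
  have hus := hb.u_le hm
  have hI : Icc (b.x.2 - 100 * b.u) (b.x.2 + 100 * b.u) ⊆ (cone P.s1 hs m i k).I0 := by
    have h1 := (hg.g1 i k).2
    have h2 := abs_le.1 (Bl_abs hp)
    obtain ⟨h3, h4⟩ := ht
    rw [cone_s] at h3 h4
    have h5 : |b.x.2 - (cone P.s1 hs m i k).t| ≤ 52 * scl π P.s1 m + 10 * b.u :=
      abs_le.2 ⟨by linarith, by linarith⟩
    have h6 : |b.x.2 - (cone P.s1 hs m i k).t| ≤ 52 * scl π P.s1 m - 100 * b.u := by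
      rcases le_abs.1 h1 with h | h <;> linarith
    rw [abs_le] at h6
    intro t ht
    refine ⟨?_, ?_⟩ <;> rw [cone_s] <;> linarith [ht.1, ht.2]
  obtain ⟨h1, h2⟩ := lt_min_iff.1 hlt
  have hT : b.TB ⊆ tm c.1 := by
    by_contra hn
    have := hb.cell_bd hc (hI.trans (Cone.I0_sub _ hs0.le)) hn hp hθ
    have := (xim_mem hb.good.s1 hs m).1
    norm_num at hus
    linarith
  refine ⟨hT, ha, hI, ⟨c, hc, hT⟩, ?_⟩
  have h3 := abs_le.1 (htr_G (cone P.s1 hs m i k) hp)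
  have h4 := abs_le.1 (hb.Hs_var (hs := hs) m hp)
  rcases le_abs.1 (hg.g2 i k).1 with h | h <;> linarith

theorem htr_E (hb : P.Ball π b w) {m : Fin π.nS} {i k : ℤ} (h : P.Rel hs b m i k) {p : ℕ × ℝ}
    (hp : p ∈ P.Bl b) : |P.Emax (P.Hs hs m) (cone P.s1 hs m i k) b.TB p.1 p.2 -
      P.Emax (P.Hs hs m) (cone P.s1 hs m i k) b.TB b.x.1 b.x.2| ≤ b.u := by
  have hu := hb.u0
  have := Bl_var (P := P) (b := b) (f := P.Emax (P.Hs hs m) (cone P.s1 hs m i k) b.TB) (k := 1 / 16)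
    (by norm_num) (fun θ t t' => by linarith [Emax_lip h.2.2.1 θ t t'])
    (fun θ θ' t hl h1 h2 _ ht => Emax_cons hl (Cone.I0_sub _ (scl_pos hb.good.s1 m).le (h.2.1 (by
      rw [abs_le] at ht; exact ⟨by linarith, by linarith⟩))) h1 h2) hp
  linarith

theorem htr_lt {m m' : Fin π.nS} (h : (m' : ℕ) < m + 1) : (m' : ℕ) < m ∨ m' = m := by
  rcases Nat.lt_succ_iff_lt_or_eq.1 h with h | h
  exacts [Or.inl h, Or.inr (Fin.ext h)]

/-- No change on the ball. -/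
theorem htr_gamma (hb : P.Ball π b w) {m : Fin π.nS} (hp : P.Piece hs b X m)
    (hg : P.Gd hs b X ξ T m) (h : ∀ p ∈ P.Bl b, P.Hs hs (m + 1) p.1 p.2 = P.Hs hs m p.1 p.2) :
    P.Piece hs b X (m + 1) := by
  have hv : P.vc hs b (m + 1) = P.vc hs b m := h _ hb.x_mem
  refine ⟨fun p hp' m' i k hm' hd => ?_, fun m' i k hm' => ?_, ?_⟩
  · rcases htr_lt hm' with h' | rfl
    · exact hp.nd p hp' m' i k h' hd
    · have := hd.2.2.1
      rw [← hd.2.2.2, h p hp'] at this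
      exact lt_irrefl _ this
  · rw [hv]
    rcases htr_lt hm' with h' | rfl
    · exact hp.mg m' i k h'
    · rw [abs_sub_comm]; exact (hg.g2 i k).1
  · rcases hp.org with h0 | ⟨m', i, k, h0⟩
    · exact Or.inl fun p hp' => (h p hp').trans (h0 p hp')
    · exact Or.inr ⟨m', i, k, h0.lt.trans (Nat.lt_succ_self _), h0.adm, h0.ins, h0.kink, h0.cell,
        fun p hp' => (h p hp').trans (h0.eq p hp'), hv ▸ h0.up, hv ▸ h0.below, hv ▸ h0.far⟩

/-- On the good event a piece stays a piece or the ball is done. -/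
theorem Ball.track (hb : P.Ball π b w) {m : Fin π.nS} (hm : (m : ℕ) < b.n)
    (hp : P.Piece hs b X m) (hg : P.Gd hs b X ξ T m) :
    P.Piece hs b X (m + 1) ∨ (P.DoneB hs b ξ T (m + 1) ∧ ¬ P.NoR hs b m) := by
  have hu := hb.u0
  have h1 := hb.good.s1
  have hs0 := scl_pos (π := π) h1 m
  have hus := hb.u_le hm
  norm_num at hus
  have key : ∀ p ∈ P.Bl b, ∀ v, P.Hs hs m p.1 p.2 ≤ v → (∀ i k c, P.Rel hs b m i k →
      c ∈ P.act (P.Hs hs m) (cone P.s1 hs m i k) → b.TB ⊆ tm c.1 →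
      c.2 p.1 p.2 - xim P.s1 hs m ≤ v) → P.Hs hs (m + 1) p.1 p.2 ≤ v := by
    intro p hp' v h0 h2
    rw [Hs_succ]
    refine raise_le h0 fun i k c ha hc hθ ht => ?_
    by_cases hlt : P.Hs hs m p.1 p.2 <
        min ((cone P.s1 hs m i k).G p.2) (c.2 p.1 p.2 - xim P.s1 hs m)
    · obtain ⟨hT, hr⟩ := htr_term hb hm hg hp' ha hc hθ ht hlt
      exact (min_le_right _ _).trans (h2 i k c hr hc hT)
    · exact (not_lt.1 hlt).trans h0
  have mono : ∀ p : ℕ × ℝ, P.Hs hs m p.1 p.2 ≤ P.Hs hs (m + 1) p.1 p.2 :=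
    fun p => Hs_mono h1 (Nat.le_succ _) _ _
  by_cases hR : ∃ i k, P.Rel hs b m i k
  swap
  · exact Or.inl (htr_gamma hb hp hg fun p hp' => le_antisymm
      (key p hp' _ le_rfl fun i k c hr _ _ => (hR ⟨i, k, hr⟩).elim) (mono p))
  obtain ⟨i, k, hr⟩ := hR
  have hle := hr.le hb
  have hge := hr.2.2.2
  obtain ⟨g1, g2, g3⟩ := hg.g3 i k (hr.2.1 (htr_x hb)) (by linarith) (by linarith) _ rfl
  have key2 : ∀ p ∈ P.Bl b, ∀ v, P.Hs hs m p.1 p.2 ≤ v →
      P.Emax (P.Hs hs m) (cone P.s1 hs m i k) b.TB p.1 p.2 - xim P.s1 hs m ≤ v →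
      P.Hs hs (m + 1) p.1 p.2 ≤ v := by
    refine fun p hp' v h0 h2 => key p hp' v h0 fun i' k' c hr' hc hT => ?_
    obtain ⟨rfl, rfl⟩ := hr.uniq hb hr'
    linarith [le_Emax hc hT p.1 p.2]
  have hE := fun p hp' => abs_le.1 (htr_E hb hr (p := p) hp')
  have hH := fun p hp' => abs_le.1 (hb.Hs_var (hs := hs) m (p := p) hp')
  have hG := fun p hp' => abs_le.1 (htr_G (P := P) (b := b) (cone P.s1 hs m i k) (p := p) hp')
  rcases le_abs.1 g1 with a1 | a1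
  swap
  · refine Or.inl (htr_gamma hb hp hg fun p hp' => le_antisymm (key2 p hp' _ le_rfl ?_) (mono p))
    linarith [hE p hp', hH p hp']
  rcases le_abs.1 (g2 i k) with a2 | a2
  · refine Or.inr ⟨⟨m, i, k, Nat.lt_succ_self _, fun p hp' => ?_, (hg.g1 i k).1, (hg.g2 i k).2⟩,
      fun hn => ?_⟩
    · obtain ⟨c, hc, hT, hlt⟩ := exists_lt_Emax hr.2.2.1 (θ := p.1) (t := p.2)
        (v := (cone P.s1 hs m i k).G p.2 + xim P.s1 hs m) (by linarith [hE p hp', hG p hp'])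
      exact done_of_cell h1 hr.1 hc (hT (hb.time hp')) (hr.2.1 (htr_p hb hp'))
        (by linarith [hH p hp', hG p hp']) (by linarith)
    · have h2 : 54 * scl π P.s1 m < |b.x.2 - (cone P.s1 hs m i k).t| := hn i
      obtain ⟨h3, h4⟩ := hr.2.1 (htr_x hb)
      rw [cone_s] at h3 h4
      have : |b.x.2 - (cone P.s1 hs m i k).t| ≤ 52 * scl π P.s1 m :=
        abs_le.2 ⟨by linarith, by linarith⟩
      linarith
  have heq : ∀ p ∈ P.Bl b, P.Hs hs (m + 1) p.1 p.2 =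
      P.Emax (P.Hs hs m) (cone P.s1 hs m i k) b.TB p.1 p.2 - xim P.s1 hs m := by
    intro p hp'
    refine le_antisymm (key2 p hp' _ (by linarith [hE p hp', hH p hp']) le_rfl) ?_
    rw [sub_le_iff_le_add]
    refine Emax_le hr.2.2.1 fun c hc hT => ?_
    have h2 := term_le_raise h1 hr.1 hc (hT (hb.time hp')) (hr.2.1 (htr_p hb hp'))
    rw [← Hs_succ, min_eq_right (by linarith [le_Emax hc hT p.1 p.2, hE p hp', hG p hp'])] at h2
    linarith
  have hv : P.vc hs b (m + 1) =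
      P.Emax (P.Hs hs m) (cone P.s1 hs m i k) b.TB b.x.1 b.x.2 - xim P.s1 hs m := heq _ hb.x_mem
  refine Or.inl ⟨fun p hp' m' i' k' hm' hd => ?_, fun m' i' k' hm' => ?_, Or.inr ⟨m, i, k,
    Nat.lt_succ_self _, hr.1, hr.2.1, (hg.g1 i k).1, hr.2.2.1, heq, by linarith, by linarith,
    fun v hv' => hv ▸ g3 v hv'⟩⟩
  · rcases htr_lt hm' with h' | rfl
    · exact hp.nd p hp' m' i' k' h' hd
    · have h2 := hd.2.2.2
      rw [heq p hp'] at h2
      have h3 := abs_le.1 (htr_G (P := P) (b := b) (cone P.s1 hs m' i' k') hp')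
      rcases le_abs.1 (g2 i' k') with h | h <;> linarith [hE p hp']
  · rw [hv]
    rcases htr_lt hm' with h' | rfl
    · have h2 := hr.1.2 m' h' i' k'
      have h3 := (cone P.s1 hs m' i' k').G_lip b.x.2 (cone P.s1 hs m i k).t
      obtain ⟨h4, h5⟩ := hr.2.1 (htr_x hb)
      have h6 := (cone P.s1 hs m i k).G_le b.x.2
      have h7 := (cone P.s1 hs m i k).le_G hs0.le (hr.2.1 (htr_x hb))
      rw [cone_s] at h4 h5 h7
      have h8 : |b.x.2 - (cone P.s1 hs m i k).t| ≤ 52 * scl π P.s1 m :=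
        abs_le.2 ⟨by linarith, by linarith⟩
      have h9 := abs_le.1 (h3.trans h8)
      rw [le_abs]
      rcases le_abs.1 h2 with h | h
      · right; linarith
      · left; linarith
    · exact g2 i' k'

/-- A done ball is an affine outcome (`out_done`, `Cone.G_aff`; compare `G x - ξ` with `0`, `T`). -/
theorem Ball.aff_of_done (hb : P.Ball π b w) {j : ℕ} (hj : j ≤ b.n) (h : P.DoneB hs b ξ T j) :
    P.Aff hs b ξ T := by
  obtain ⟨m, i, k, hm, hd, a1, a2, a3⟩ := h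
  have hu := hb.u0
  have h1 := hb.good.s1
  have hs0 := scl_pos (π := π) h1 m
  have hus := hb.u_le (hm.trans_le hj)
  norm_num at hus
  have ho := fun p hp => out_done h1 (hd p hp)
  have hG := fun p hp' => abs_le.1 (htr_G (P := P) (b := b) (cone P.s1 hs m i k) (p := p) hp')
  rcases le_abs.1 a2 with a2 | a2
  swap
  · exact Or.inl fun p hp => by rw [(ho p hp).1]; linarith [hG p hp]
  rcases le_abs.1 a3 with a3 | a3
  · exact Or.inr (Or.inl fun p hp => by rw [(ho p hp).1]; linarith [hG p hp])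
  refine Or.inr (Or.inr ⟨(cone P.s1 hs m i k).slope b.x.2, (cone P.s1 hs m i k).G b.x.2 -
    (cone P.s1 hs m i k).slope b.x.2 * b.x.2, scl π P.s1 m, Cone.slope_mem _ _,
    scl_anti h1 (hm.le.trans hj), fun p hp => ?_⟩)
  obtain ⟨e1, e2⟩ := (cone P.s1 hs m i k).G_aff hs0.le (t := b.x.2) (t' := p.2) (d := 100 * b.u) a1
    (by linarith [Bl_abs hp]) (by rw [cone_s]; linarith)
  rw [(ho p hp).1, (ho p hp).2, e1]
  exact ⟨by rw [e2]; ring, rfl, by linarith [hG p hp], by linarith [hG p hp]⟩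

theorem Ball.aff_of_zero (hb : P.Ball π b w) {j : ℕ} (hj : j ≤ b.n)
    (h : P.vc hs b j - ξ + 27 * scl π P.s1 j + 100 * b.u ≤ 0) : P.Aff hs b ξ T := by
  refine Or.inl fun p hp => ?_
  have := (hb.out_le (hs := hs) j p.1 p.2 (hj.trans hb.nlt.le)).2
  have := abs_le.1 (hb.Hs_var (hs := hs) j hp)
  linarith [hb.u0]

theorem Ball.aff_of_top (hb : P.Ball π b w) {j : ℕ} (hj : j ≤ b.n)
    (h : T + 100 * b.u ≤ P.vc hs b j - ξ) : P.Aff hs b ξ T := by
  refine Or.inr (Or.inl fun p hp => ?_)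
  have := (hb.out_le (hs := hs) j p.1 p.2 (hj.trans hb.nlt.le)).1
  have := abs_le.1 (hb.Hs_var (hs := hs) j hp)
  linarith [hb.u0]

end HP

end Vale.Agent.P235.Pl
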