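import Vale.Agent.P235P.Engine

/-! P235 planar case: the healing engine (generic). -/

open Set Classical

noncomputable section

namespace Vale.Agent.P235.Pl

structure Cone where
  t : ℝ
  a : ℝ
  s : ℝ

namespace Cone
variable (κ : Cone)
def G (t : ℝ) : ℝ := κ.a - max 0 (|t - κ.t| - 28 * κ.s)
def I0 : Set ℝ := Icc (κ.t - 52 * κ.s) (κ.t + 52 * κ.s)
def Ip : Set ℝ := Icc (κ.t - 60 * κ.s) (κ.t + 60 * κ.s)
def slope (t : ℝ) : ℝ := if t < κ.t - 28 * κ.s then 1 else if t ≤ κ.t + 28 * κ.s then 0 else -1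
end Cone

/-- A cell: an interval of times and a function. -/
abbrev Cell : Type := (ℕ × ℕ) × (ℕ → ℝ → ℝ)

/-- The conditions E1 and E2. -/
def E12 (H : ℕ → ℝ → ℝ) (κ : Cone) (J : ℕ × ℕ) : Prop :=
  (∀ θ ∈ tm J, ∀ t ∈ κ.I0, κ.G t ≤ H θ t + 24 * κ.s) ∧
  ∀ θ ∈ tm J, κ.G (κ.t - 52 * κ.s) ≤ H θ (κ.t - 52 * κ.s) ∧
    κ.G (κ.t + 52 * κ.s) ≤ H θ (κ.t + 52 * κ.s)

/-- A legal cell. -/
structure CellOK (S : Sk) (D : Lk) (H : ℕ → ℝ → ℝ) (κ : Cone) (c : Cell) : Prop where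
  cap : ∀ θ t, c.2 θ t ≤ κ.a + 2 * κ.s
  lip : ∀ θ t t', |c.2 θ t - c.2 θ t'| ≤ |t - t'| / 16
  cons : ∀ θ θ' t, Link S D θ θ' t → t ∈ κ.Ip → θ ∈ tm c.1 → θ' ∈ tm c.1 → c.2 θ t = c.2 θ' t
  bd : ∀ θ θ' t, Link S D θ θ' t → t ∈ κ.Ip → θ ∈ tm c.1 → θ' ∉ tm c.1 → c.2 θ t ≤ H θ t
  e12 : E12 H κ c.1

variable {π : Par}

/-- The top healing scale for the slope `A` and the window size `w`. -/
def sTop (π : Par) (w A : ℝ) : ℝ :=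
  A * 2 ^ π.b * ((2 ^ π.m0 : ℕ) : ℝ) ^ Int.log (2 ^ π.m0) (w / (2 ^ 20 * A * 2 ^ π.b))

/-- The scale with index `m` (index `0` is the top scale). -/
def scl (π : Par) (s1 : ℝ) (m : ℕ) : ℝ := s1 / 2 ^ (π.m0 * m)

def cone (s1 : ℝ) (hs : HS π) (m : Fin π.nS) (i k : ℤ) : Cone where
  t := uq (hs m).1 0 (256 * scl π s1 m) + 256 * scl π s1 m * i
  a := uq (hs m).2.1 0 (256 * scl π s1 m) + 256 * scl π s1 m * k
  s := scl π s1 m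

def xim (s1 : ℝ) (hs : HS π) (m : Fin π.nS) : ℝ := uq (hs m).2.2 (scl π s1 m) (2 * scl π s1 m)

/-- Admissible cones. -/
def Adm (W : Set ℝ) (s1 : ℝ) (hs : HS π) (m : Fin π.nS) (i k : ℤ) : Prop :=
  (cone s1 hs m i k).Ip ⊆ W ∧ ∀ m' < m, ∀ i' k', 128 * scl π s1 m ≤
    |(cone s1 hs m' i' k').G (cone s1 hs m i k).t - (cone s1 hs m i k).a|

/-- The data of a healing problem. -/
structure HP where
  S : Sk
  D : Lk
  W : Set ℝ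
  s1 : ℝ
  H0 : ℕ → ℝ → ℝ
  cells : (ℕ → ℝ → ℝ) → Cone → Set Cell

namespace HP
variable (P : HP) (hs : HS π)

/-- The active cells. -/
def act (H : ℕ → ℝ → ℝ) (κ : Cone) : Set Cell := {c | c ∈ P.cells H κ ∧ CellOK P.S P.D H κ c}

def raise (H : ℕ → ℝ → ℝ) (m : Fin π.nS) (θ : ℕ) (t : ℝ) : ℝ :=
  sSup (insert (H θ t) {v | ∃ i k, Adm P.W P.s1 hs m i k ∧ ∃ c ∈ P.act H (cone P.s1 hs m i k),
    θ ∈ tm c.1 ∧ t ∈ (cone P.s1 hs m i k).I0 ∧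
    v = min ((cone P.s1 hs m i k).G t) (c.2 θ t - xim P.s1 hs m)})

/-- `Hs m` is the function after the scales with index `< m`. -/
def Hs : ℕ → ℕ → ℝ → ℝ
  | 0 => P.H0
  | m + 1 => if h : m < π.nS then P.raise hs (Hs m) ⟨m, h⟩ else Hs m

/-- The point is done by the cone `(m, i, k)`. -/
def Done (θ : ℕ) (t : ℝ) (m : Fin π.nS) (i k : ℤ) : Prop :=
  Adm P.W P.s1 hs m i k ∧ t ∈ (cone P.s1 hs m i k).I0 ∧
    P.Hs hs m θ t < (cone P.s1 hs m i k).G t ∧ P.Hs hs (m + 1) θ t = (cone P.s1 hs m i k).G t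

def out : Hl where
  H := P.Hs hs π.nS
  dn θ t := if h : ∃ x : Fin π.nS × ℤ × ℤ, P.Done hs θ t x.1 x.2.1 x.2.2 then
    ((cone P.s1 hs h.choose.1 h.choose.2.1 h.choose.2.2).slope t, scl π P.s1 h.choose.1)
    else (0, 0)

end HP

end Vale.Agent.P235.Pl
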