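import Vale.Agent.P235.Defs

/-! P235 planar case: tree metrics embed into `ℓ₁`. -/

open Set MeasureTheory

namespace Vale.Agent.P235.Pl

theorem l1_of_fin {V ι : Type} [Fintype ι] (g : V → ι → ℝ) :
    ∃ (Ω : Type) (_ : MeasurableSpace Ω) (μ : Measure Ω) (f : V → Lp ℝ 1 μ),
      ∀ x y, ‖f x - f y‖ = ∑ i, |g x i - g y i| := by
  letI : MeasurableSpace ι := ⊤
  haveI : MeasurableSingletonClass ι := ⟨fun _ => trivial⟩
  have hm : ∀ x, MemLp (g x) 1 (Measure.count : Measure ι) := fun x => MemLp.of_discrete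
  refine ⟨ι, ⊤, Measure.count, fun x => (hm x).toLp _, fun x y => ?_⟩
  rw [← MemLp.toLp_sub, L1.norm_eq_integral_norm, integral_congr_ae
    (g := fun i => |g x i - g y i|), integral_count]
  filter_upwards [((hm x).sub (hm y)).coeFn_toLp] with η h
  rw [h, Pi.sub_apply, Real.norm_eq_abs]

theorem int_lt {lo hi a : ℝ} (h1 : lo ≤ a) (h2 : a ≤ hi) :
    ∫ τ in Ioc lo hi, (if τ < a then (1 : ℝ) else 0) = a - lo := by
  have : (fun τ : ℝ => if τ < a then (1 : ℝ) else 0) = (Iio a).indicator fun _ => 1 := by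
    funext τ
    simp [indicator]
  rw [this, setIntegral_indicator measurableSet_Iio]
  have e : Ioc lo hi ∩ Iio a = Ioo lo a := by
    ext τ
    simp only [mem_inter_iff, mem_Ioc, mem_Iio, mem_Ioo]
    exact ⟨fun h => ⟨h.1.1, h.2⟩, fun h => ⟨⟨h.1, h.2.le.trans h2⟩, h.2⟩⟩
  rw [e]
  simp [sub_nonneg.2 h1]

open Classical in
theorem cls_sum {V : Type} [Fintype V] (R : V → V → Prop) (hs : ∀ x y, R x y → R y x)
    (ht : ∀ x y z, R x y → R y z → R x z) (x y : V) :
    ∑ A : Finset V, (if ∃ v, R v v ∧ ∀ u, u ∈ A ↔ R v u then (1 : ℝ) else 0) *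
      |(if x ∈ A then (1 : ℝ) else 0) - (if y ∈ A then 1 else 0)| =
      (if R x x then (1 : ℝ) else 0) + (if R y y then 1 else 0) - 2 * if R x y then 1 else 0 := by
  have one : ∀ x y : V, ∑ A : Finset V, (if ∃ v, R v v ∧ ∀ u, u ∈ A ↔ R v u then (1 : ℝ) else 0) *
      ((if x ∈ A then (1 : ℝ) else 0) * (if y ∈ A then 1 else 0)) = if R x y then 1 else 0 := by
    intro x y
    rw [Finset.sum_eq_single (Finset.univ.filter (R x))]
    · by_cases h : R x y
      · have hx := ht _ _ _ h (hs _ _ h)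
        rw [if_pos ⟨x, hx, by simp⟩]
        simp [h, hx]
      · simp [h]
    · intro A _ hA
      by_cases h : ∃ v, R v v ∧ ∀ u, u ∈ A ↔ R v u
      · obtain ⟨v, -, hv⟩ := h
        have : x ∉ A := fun hx => hA (by
          ext u
          simp only [Finset.mem_filter, Finset.mem_univ, true_and, hv]
          exact ⟨fun h => ht _ _ _ (hs _ _ ((hv x).1 hx)) h, fun h => ht _ _ _ ((hv x).1 hx) h⟩)
        simp [this]
      · simp [h]
    · simp
  rw [← one x x, ← one y y, ← one x y, Finset.mul_sum, ← Finset.sum_add_distrib,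
    ← Finset.sum_sub_distrib]
  refine Finset.sum_congr rfl fun A _ => ?_
  by_cases hx : x ∈ A <;> by_cases hy : y ∈ A <;> simp [hx, hy]
  split_ifs <;> norm_num

open Classical in
theorem tree_l1 {V : Type} [Fintype V] (m : V → V → ℝ) (hs : ∀ x y, m x y = m y x)
    (ht : ∀ x y z, min (m x y) (m y z) ≤ m x z) :
    ∃ g : V → Finset V → ℝ, ∀ x y, ∑ A, |g x A - g y A| = m x x + m y y - 2 * m x y := by
  obtain ⟨lo, hlo⟩ := (finite_range fun q : V × V => m q.1 q.2).bddBelow
  obtain ⟨hi, hhi⟩ := (finite_range fun q : V × V => m q.1 q.2).bddAbove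
  have l : ∀ x y, lo ≤ m x y := fun x y => hlo ⟨(x, y), rfl⟩
  have u : ∀ x y, m x y ≤ hi := fun x y => hhi ⟨(x, y), rfl⟩
  let χ : Finset V → ℝ → ℝ := fun A τ =>
    if ∃ v, τ < m v v ∧ ∀ u, u ∈ A ↔ τ < m v u then (1 : ℝ) else 0
  have hlt : ∀ a : ℝ, Measurable fun τ : ℝ => τ < a := fun a =>
    measurableSet_setOf.1 measurableSet_Iio
  have hχ : ∀ A, IntegrableOn (χ A) (Ioc lo hi) := fun A => by
    refine Measure.integrableOn_of_bounded (M := 1) (by simp) ?_ ?_
    · refine (Measurable.ite (measurableSet_setOf.2 ?_) measurable_const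
        measurable_const).aestronglyMeasurable
      exact Measurable.exists fun v => (hlt _).and
        (Measurable.forall fun u => measurable_const.iff (hlt _))
    · refine Filter.Eventually.of_forall fun τ => ?_
      simp only [χ]
      split_ifs <;> simp
  have hi1 : ∀ a : ℝ, IntegrableOn (fun τ : ℝ => if τ < a then (1 : ℝ) else 0) (Ioc lo hi) :=
    fun a => by
      refine Measure.integrableOn_of_bounded (M := 1) (by simp) ?_ ?_
      · exact (Measurable.ite measurableSet_Iio measurable_const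
          measurable_const).aestronglyMeasurable
      · refine Filter.Eventually.of_forall fun τ => ?_
        split_ifs <;> simp
  refine ⟨fun x A => (∫ τ in Ioc lo hi, χ A τ) * if x ∈ A then 1 else 0, fun x y => ?_⟩
  have h0 : ∀ A, 0 ≤ ∫ τ in Ioc lo hi, χ A τ := fun A =>
    integral_nonneg fun τ => by
      simp only [χ]
      split_ifs <;> simp
  have e : ∀ A : Finset V, |((∫ τ in Ioc lo hi, χ A τ) * if x ∈ A then 1 else 0) -
      (∫ τ in Ioc lo hi, χ A τ) * if y ∈ A then 1 else 0| = ∫ τ in Ioc lo hi,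
        χ A τ * |(if x ∈ A then (1 : ℝ) else 0) - (if y ∈ A then 1 else 0)| := fun A => by
    rw [← mul_sub, abs_mul, abs_of_nonneg (h0 A), integral_mul_const]
  simp only [e]
  rw [← integral_finset_sum _ fun A _ => (hχ A).mul_const _]
  have e2 : ∀ τ : ℝ, ∑ A : Finset V,
      χ A τ * |(if x ∈ A then (1 : ℝ) else 0) - (if y ∈ A then 1 else 0)| =
      (if τ < m x x then (1 : ℝ) else 0) + (if τ < m y y then 1 else 0) -
        2 * if τ < m x y then 1 else 0 := fun τ => by
    have := cls_sum (fun a b => τ < m a b) (fun a b h => by rwa [hs])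
      (fun a b c h h' => (lt_min h h').trans_le (ht a b c)) x y
    convert this
  simp only [e2]
  have ha : IntegrableOn (fun τ : ℝ => (if τ < m x x then (1 : ℝ) else 0) +
      if τ < m y y then 1 else 0) (Ioc lo hi) := (hi1 _).add (hi1 _)
  rw [integral_sub ha ((hi1 _).const_mul 2), integral_add (hi1 _) (hi1 _),
    integral_const_mul, int_lt (l _ _) (u _ _), int_lt (l _ _) (u _ _), int_lt (l _ _) (u _ _)]
  ring

end Vale.Agent.P235.Pl
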