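import Vale.Agent.P235P.Base
import Vale.Agent.P235P.L1a

/-! P235 planar case: the `L₁` embedding from a random consistent family of monotone maps. -/

open Set MeasureTheory
open scoped BigOperators

namespace Vale.Agent.P235.Pl

/-- The family `Φ` pays at least `v` for the pair `x, y`. -/
def PayGe (S : Sk) (D : Lk) (Φ : ℕ → ℝ → ℝ) (x y : ℕ × ℝ) (v : ℝ) : Prop :=
  v ≤ |Φ x.1 x.2 - Φ y.1 y.2| ∨ ∃ a p, (Sep S a x.1 y.1 ∨ Sep S a y.1 x.1) ∧ p ∈ D.P a ∧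
    (v ≤ Φ x.1 x.2 - Φ a p ∨ v ≤ Φ y.1 y.2 - Φ a p)

variable {S : Sk} {D : Lk} {Φ : ℕ → ℝ → ℝ} {τ τ' : ℝ} {p q z : ℕ × ℝ}

theorem L1_link_symm {θ θ' : ℕ} {t : ℝ} (h : Link S D θ θ' t) : Link S D θ' θ t := by
  unfold Link at *
  tauto

/-- One step above the level `τ`. -/
def USt (S : Sk) (D : Lk) (Φ : ℕ → ℝ → ℝ) (τ : ℝ) (p q : ℕ × ℝ) : Prop :=
  τ ≤ Φ p.1 p.2 ∧ τ ≤ Φ q.1 q.2 ∧ (p.1 = q.1 ∨ (p.2 = q.2 ∧ Link S D p.1 q.1 p.2))

/-- Connected above the level `τ`. -/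
def UCo (S : Sk) (D : Lk) (Φ : ℕ → ℝ → ℝ) (τ : ℝ) (p q : ℕ × ℝ) : Prop :=
  τ ≤ Φ p.1 p.2 ∧ Relation.ReflTransGen (USt S D Φ τ) p q

theorem UCo.right (h : UCo S D Φ τ p q) : τ ≤ Φ q.1 q.2 := by
  rcases h.2.cases_tail with rfl | ⟨_, -, h'⟩
  · exact h.1
  · exact h'.2.1

theorem USt.symm (hab : USt S D Φ τ p q) : USt S D Φ τ q p := by
  refine ⟨hab.2.1, hab.1, ?_⟩
  rcases hab.2.2 with e | ⟨e, l⟩
  · exact Or.inl e.symm
  · exact Or.inr ⟨e.symm, e ▸ L1_link_symm l⟩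

theorem UCo.symm (h : UCo S D Φ τ p q) : UCo S D Φ τ q p := by
  refine ⟨h.right, ?_⟩
  have h2 := h.2
  clear h
  induction h2 with
  | refl => exact .refl
  | tail _ hbc ih => exact .head hbc.symm ih

theorem UCo.trans (h : UCo S D Φ τ p q) (h' : UCo S D Φ τ q z) : UCo S D Φ τ p z :=
  ⟨h.1, h.2.trans h'.2⟩

theorem UCo.mono (h : UCo S D Φ τ p q) (hτ : τ' ≤ τ) : UCo S D Φ τ' p q := by
  refine ⟨hτ.trans h.1, ?_⟩
  have h2 := h.2
  clear h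
  induction h2 with
  | refl => exact .refl
  | tail _ hab ih => exact ih.tail ⟨hτ.trans hab.1, hτ.trans hab.2.1, hab.2.2⟩

theorem UCo.sep (hI : Init S D) (hΦ : Cons S D Φ) (h : UCo S D Φ τ p q) {a : ℕ} {t : ℝ}
    (hs : Sep S a p.1 q.1) (ht : t ∈ D.P a) : τ ≤ Φ a t := by
  obtain ⟨ha, h1, h2, h3⟩ := hs
  have key : ∀ q, Relation.ReflTransGen (USt S D Φ τ) p q →
      (a ≤ q.1 ∧ q.1 ≤ S.mate a) ∨ τ ≤ Φ a t := by
    intro q hq
    induction hq with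
    | refl => exact Or.inl ⟨h1, h2⟩
    | @tail b c _ hbc ih =>
      rcases ih with ⟨i1, i2⟩ | ih
      swap
      · exact Or.inr ih
      obtain ⟨b1, -, e | ⟨-, l⟩⟩ := hbc
      · exact Or.inl (e ▸ ⟨i1, i2⟩)
      have arc : S.mate b.1 = c.1 → (a ≤ c.1 ∧ c.1 ≤ S.mate a) := fun e => by
        rcases i1.eq_or_lt with e1 | e1
        · rw [← e, ← e1]
          exact ⟨ha.le, le_rfl⟩
        rcases i2.eq_or_lt with e2 | e2
        · rw [← e, e2, S.inv]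
          exact ⟨le_rfl, ha.le⟩
        have := S.nc a b.1 e1 e2
        omega
      rcases l with ⟨e, l⟩ | ⟨e, l⟩ | ⟨-, e, -⟩ | ⟨-, e, -⟩
      · by_cases hc : c.1 ≤ S.mate a
        · exact Or.inl ⟨by omega, hc⟩
        have e2 : b.1 = S.mate a := by omega
        refine Or.inr (b1.trans ?_)
        rw [hΦ.2 a (S.mate a) t (Or.inr (Or.inr (Or.inl ⟨ha, rfl, ht⟩))), ← e2]
        exact hΦ.1 _ (hI.top a t ha ht b.1 (Or.inr e2) _ (Or.inl l))
      · by_cases hc : a ≤ c.1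
        · exact Or.inl ⟨hc, by omega⟩
        have e2 : b.1 = a := by omega
        refine Or.inr (b1.trans ?_)
        rw [← e2]
        refine hΦ.1 _ (hI.top a t ha ht b.1 (Or.inl e2) _ (Or.inr ?_))
        rwa [show b.1 - 1 = c.1 by omega]
      · exact Or.inl (arc e.symm)
      · exact Or.inl (arc (by rw [e, S.inv]))
  rcases key q h.2 with h | h
  · omega
  · exact h

theorem L1_path {Ω : Type} [Fintype Ω] {Φ : Ω → ℕ → ℝ → ℝ} (hΦ : ∀ ω, Cons S D (Φ ω))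
    (hE : ∀ θ t, 𝔼 ω, Φ ω θ t = t) {c : ℝ} (h : Reach S D univ p q c) :
    ∃ μ : Ω → ℝ, (∀ ω, UCo S D (Φ ω) (μ ω) p q) ∧
      𝔼 ω, (Φ ω p.1 p.2 + Φ ω q.1 q.2 - 2 * μ ω) ≤ c := by
  induction h with
  | refl _ =>
    refine ⟨fun ω => Φ ω p.1 p.2, fun ω => ⟨le_rfl, .refl⟩, ?_⟩
    refine (Finset.expect_eq_zero fun ω _ => ?_).le
    ring
  | @vert θ t t' c _ _ ih =>
    obtain ⟨μ, h1, h2⟩ := ih
    refine ⟨fun ω => min (μ ω) (Φ ω θ t'), fun ω => ((h1 ω).mono (min_le_left _ _)).trans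
      ⟨(min_le_left _ _).trans (h1 ω).right, .single ⟨(min_le_left _ _).trans (h1 ω).right,
        min_le_right _ _, Or.inl rfl⟩⟩, ?_⟩
    have e : 𝔼 ω, |Φ ω θ t - Φ ω θ t'| = |t - t'| := by
      rcases le_total t t' with hl | hl
      · rw [abs_of_nonpos (sub_nonpos.2 hl), Finset.expect_congr rfl fun ω _ =>
          (abs_of_nonpos (sub_nonpos.2 ((hΦ ω).1 θ hl))).trans (neg_sub _ _),
          Finset.expect_sub_distrib, hE, hE, neg_sub]
      · rw [abs_of_nonneg (sub_nonneg.2 hl), Finset.expect_congr rfl fun ω _ =>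
          abs_of_nonneg (sub_nonneg.2 ((hΦ ω).1 θ hl)), Finset.expect_sub_distrib, hE, hE]
    rw [← e]
    refine le_trans (Finset.expect_le_expect fun ω _ => ?_)
      ((Finset.expect_add_distrib _ _ _).le.trans (add_le_add h2 le_rfl))
    have a := (h1 ω).right
    have b := le_abs_self (Φ ω θ t - Φ ω θ t')
    have b' := neg_abs_le (Φ ω θ t - Φ ω θ t')
    simp only at a ⊢
    rcases le_total (μ ω) (Φ ω θ t') with hl | hl
    · rw [min_eq_left hl]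
      linarith
    · rw [min_eq_right hl]
      linarith
  | @link θ θ' t c _ l ih =>
    obtain ⟨μ, h1, h2⟩ := ih
    refine ⟨μ, fun ω => (h1 ω).trans ⟨(h1 ω).right, .single ⟨(h1 ω).right, ?_,
      Or.inr ⟨rfl, l⟩⟩⟩, ?_⟩
    · exact ((hΦ ω).2 θ θ' t l) ▸ (h1 ω).right
    · refine le_trans (le_of_eq (Finset.expect_congr rfl fun ω _ => ?_)) h2
      simp only [(hΦ ω).2 θ θ' t l]

theorem embed_of_pay {V : Type} [Fintype V] {pt : V → ℕ × ℝ} {d : V → V → ℝ}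
    (hR : Realises S D pt d) {Ω : Type} [Fintype Ω] [Nonempty Ω] (Φ : Ω → ℕ → ℝ → ℝ)
    (hΦ : ∀ ω, Cons S D (Φ ω)) (hE : ∀ θ t, 𝔼 ω, Φ ω θ t = t) (π : Ω → V → V → ℝ)
    (hπ : ∀ ω x y, x ≠ y → PayGe S D (Φ ω) (pt x) (pt y) (π ω x y)) {c : ℝ} (hc : 0 < c)
    (hl : ∀ x y, x ≠ y → c * d x y ≤ 𝔼 ω, π ω x y) : EmbedsL1 d (1 / c) := by
  classical
  obtain ⟨hI, -, hd⟩ := hR
  let m : Ω → V → V → ℝ := fun ω x y => sSup {τ | UCo S D (Φ ω) τ (pt x) (pt y)}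
  have bd : ∀ ω x y, BddAbove {τ | UCo S D (Φ ω) τ (pt x) (pt y)} := fun ω x y =>
    ⟨_, fun τ h => h.1⟩
  have ne : ∀ ω x y, {τ | UCo S D (Φ ω) τ (pt x) (pt y)}.Nonempty := fun ω x y => by
    obtain ⟨μ, h, -⟩ := L1_path hΦ hE (hd x y).1
    exact ⟨_, h ω⟩
  have ms : ∀ ω x y, m ω x y = m ω y x := fun ω x y => by
    simp only [m]
    congr 1
    ext τ
    exact ⟨UCo.symm, UCo.symm⟩
  have mt : ∀ ω x y z, min (m ω x y) (m ω y z) ≤ m ω x z := fun ω x y z => by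
    refine le_of_forall_lt_imp_le_of_dense fun τ hτ => ?_
    obtain ⟨a, ha, ha'⟩ := exists_lt_of_lt_csSup (ne ω x y) (lt_min_iff.1 hτ).1
    obtain ⟨b, hb, hb'⟩ := exists_lt_of_lt_csSup (ne ω y z) (lt_min_iff.1 hτ).2
    exact le_csSup (bd ω x z) ((UCo.mono ha ha'.le).trans (UCo.mono hb hb'.le))
  have m1 : ∀ ω x y, m ω x y ≤ Φ ω (pt x).1 (pt x).2 := fun ω x y =>
    csSup_le (ne ω x y) fun τ h => h.1
  have m2 : ∀ ω x y, m ω x y ≤ Φ ω (pt y).1 (pt y).2 := fun ω x y => ms ω x y ▸ m1 ω y x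
  have mx : ∀ ω x, m ω x x = Φ ω (pt x).1 (pt x).2 := fun ω x =>
    le_antisymm (m1 ω x x) (le_csSup (bd ω x x) ⟨le_rfl, .refl⟩)
  choose g hg using fun ω => tree_l1 (m ω) (ms ω) (mt ω)
  obtain ⟨Ω', mΩ, μ, f, hf⟩ := l1_of_fin (ι := Ω × Finset V)
    fun x i => g i.1 x i.2 / (c * Fintype.card Ω)
  have hN : (0 : ℝ) < Fintype.card Ω := by exact_mod_cast Fintype.card_pos
  have e : ∀ x y, ‖f x - f y‖ = (𝔼 ω, (m ω x x + m ω y y - 2 * m ω x y)) / c := fun x y => by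
    rw [hf, Fintype.sum_prod_type, Fintype.expect_eq_sum_div_card, div_div, mul_comm _ c,
      Finset.sum_div]
    refine Finset.sum_congr rfl fun ω _ => ?_
    rw [← hg, Finset.sum_div]
    refine Finset.sum_congr rfl fun A _ => ?_
    rw [← sub_div, abs_div, abs_of_pos (mul_pos hc hN)]
  refine ⟨Ω', mΩ, μ, f, fun x y => ⟨?_, ?_⟩⟩
  · by_cases hxy : x = y
    · subst hxy
      exact ((hd x x).2 (Reach.refl (mem_univ _))).trans (norm_nonneg _)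
    rw [e, le_div_iff₀' hc]
    refine (hl x y hxy).trans (Finset.expect_le_expect fun ω _ => ?_)
    have a1 := m1 ω x y
    have a2 := m2 ω x y
    rw [mx, mx]
    rcases hπ ω x y hxy with h | ⟨a, t, hs, ht, h⟩
    · exact h.trans (abs_le.2 ⟨by linarith, by linarith⟩)
    · have : m ω x y ≤ Φ ω a t := csSup_le (ne ω x y) fun τ hτ => by
        rcases hs with hs | hs
        · exact UCo.sep hI (hΦ ω) hτ hs ht
        · exact UCo.sep hI (hΦ ω) (UCo.symm hτ) hs ht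
      rcases h with h | h <;> linarith
  · rw [e, one_div, mul_comm, ← div_eq_mul_inv]
    refine div_le_div_of_nonneg_right ?_ hc.le
    obtain ⟨ν, h1, h2⟩ := L1_path hΦ hE (hd x y).1
    refine le_trans (Finset.expect_le_expect fun ω _ => ?_) h2
    have := le_csSup (bd ω x y) (h1 ω)
    rw [mx, mx]
    change ν ω ≤ m ω x y at this
    linarith

end Vale.Agent.P235.Pl
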