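import Vale.Agent.P235P.TBas

/-! P235 planar case: every pair has type A or type B. -/

open Set

noncomputable section

namespace Vale.Agent.P235.Pl

variable {S : Sk}

/-- Four indices of a set of indices, sorted by an injective function. -/
theorem tt_sort {ι : Type} (a : ι → ℕ) (ha : Function.Injective a) (T : Finset ι) (hT : 4 ≤ T.card) :
    ∃ e : Fin 4 → ι, (∀ i, e i ∈ T) ∧ StrictMono fun i => a (e i) := by
  classical
  obtain ⟨T', h1, h2⟩ := Finset.exists_subset_card_eq hT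
  have h3 : (T'.image a).card = 4 := by rw [Finset.card_image_of_injective _ ha, h2]
  choose e e1 e2 using fun i => Finset.mem_image.1 ((T'.image a).orderEmbOfFin_mem h3 i)
  refine ⟨e, fun i => h1 (e1 i), fun i j h => ?_⟩
  simp only [e2]
  exact ((T'.image a).orderEmbOfFin h3).strictMono h

theorem typeAB (cA cB : Ctx S) (hD : cA.D0 = cB.D0) (hx : cA.x = cB.x) (hy : cA.y = cB.y)
    (hr : cA.r = cB.r) (hs : cA.rs = 64 * cB.rs) (hb : 2 ^ 22 * cB.rs ≤ cB.r) :
    (∃ q pk z o, TypeA cA q pk z o) ∨ TypeB cB := by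
  classical
  have h0 := cB.rs_pos
  refine or_iff_not_imp_right.2 fun hB => ?_
  have i0 : ∀ i : Fin 7, (0 : ℝ) ≤ (i : ℕ) * cB.rs ∧ ((i : ℕ) : ℝ) * cB.rs ≤ 6 * cB.rs := fun i =>
    ⟨by positivity, mul_le_mul_of_nonneg_right (by exact_mod_cast Nat.le_of_lt_succ i.2) h0.le⟩
  have key : ∀ i : Fin 7, ∃ a p, (Sep S a cB.x.1 cB.y.1 ∨ Sep S a cB.y.1 cB.x.1) ∧ p ∈ cB.D0.P a ∧
      |p - cB.x.2| ≤ 61 * cB.rs ∧ DGe S cB.D0 cB.x (a, p) ((320000 + 380000 * (i : ℕ)) * cB.rs) ∧
      DLe S cB.D0 cB.x (a, p) ((370001 + 380000 * (i : ℕ)) * cB.rs) := fun i => by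
    obtain ⟨i1, i2⟩ := i0 i
    by_contra h
    refine hB ⟨(320000 + 380000 * (i : ℕ)) * cB.rs, by linarith, by linarith,
      fun a p k h1 h2 h3 h4 => ?_⟩
    by_contra h5
    obtain ⟨h5, h6⟩ := not_or.1 h5
    obtain ⟨k', k1, k2⟩ := (isGLB_lt_iff h4).1
      (show k < (370001 + 380000 * (i : ℕ)) * cB.rs by linarith)
    exact h ⟨a, p, h1, h2, h3, fun k'' hk => le_trans (by linarith) (h4.1 hk), k', k2.le, k1⟩
  choose a p h1 h2 h3 h4 h5 using key
  have far : ∀ i j, i ≠ j → DGe S cB.D0 (a i, p i) (a j, p j) (320000 * cB.rs) := by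
    have : ∀ i j, i < j → DGe S cB.D0 (a i, p i) (a j, p j) (320000 * cB.rs) := fun i j h => by
      have h' : (((i : ℕ) : ℝ) + 1) * cB.rs ≤ (j : ℕ) * cB.rs :=
        mul_le_mul_of_nonneg_right (by exact_mod_cast Nat.succ_le_of_lt h) h0.le
      exact ((h5 i).ge (h4 j)).mono (by linarith)
    exact fun i j h => h.lt_or_gt.elim (this i j) fun h => (this j i h).symm
  have inj : Function.Injective a := fun i j h => by
    by_contra hij
    obtain ⟨q, hq⟩ := cB.init.single (a j) ((h1 j).elim (·.1) (·.1))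
    have e : p i = p j := by
      have k1 := h2 i
      have k2 := h2 j
      rw [h, hq] at k1
      rw [hq] at k2
      exact k1.trans k2.symm
    have := (far i j hij).le (by rw [h, e]; exact .refl _ le_rfl)
    linarith
  have fin : ∀ z o : ℕ × ℝ, ((z = cB.x ∧ o = cB.y) ∨ (z = cB.y ∧ o = cB.x)) → ∀ T : Finset (Fin 7),
      4 ≤ T.card → (∀ i ∈ T, Sep S (a i) z.1 o.1) → ∃ q pk z o, TypeA cA q pk z o := by
    intro z o zo T hT hT'
    obtain ⟨e, e1, e2⟩ := tt_sort a inj T hT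
    refine ⟨fun i => a (e i), fun i => p (e i), z, o, by rwa [hx, hy], fun i => hT' _ (e1 i),
      fun i => hD ▸ h2 _, fun i => ?_, e2, fun i => ?_, fun i j k hij hk => ?_, fun i k hk => ?_⟩
    · rw [hx, hs]
      linarith [h3 (e i)]
    · obtain ⟨k, k1, k2⟩ := h5 (e i)
      exact ⟨_, rfl, k, by linarith [(i0 (e i)).2], by rwa [hD, hx]⟩
    · have := far _ _ (fun h => hij (e2.injective (congrArg a h))) k (hD ▸ hk)
      linarith
    · rw [hD] at hk
      obtain ⟨i1, i2⟩ := i0 (e i)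
      rcases zo with ⟨rfl, -⟩ | ⟨rfl, -⟩
      · linarith [h4 _ k hk]
      · linarith [(h5 (e i)).ge cB.dist.2 k hk.symm]
  have hc := Finset.card_filter_add_card_filter_not (s := (Finset.univ : Finset (Fin 7)))
    fun i => Sep S (a i) cB.x.1 cB.y.1
  rw [Finset.card_univ, Fintype.card_fin] at hc
  by_cases h : 4 ≤ (Finset.univ.filter fun i => Sep S (a i) cB.x.1 cB.y.1).card
  · exact fin _ _ (Or.inl ⟨rfl, rfl⟩) _ h fun i hi => (Finset.mem_filter.1 hi).2
  · exact fin _ _ (Or.inr ⟨rfl, rfl⟩) (Finset.univ.filter fun i => ¬ Sep S (a i) cB.x.1 cB.y.1)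
      (by omega) fun i hi => (h1 i).resolve_left (Finset.mem_filter.1 hi).2

end Vale.Agent.P235.Pl
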