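import Vale.Agent.P235P.YEmb
import Vale.Agent.P235P.TTyp
import Vale.Agent.P235P.EServe
import Vale.Agent.P235P.FBall
import Vale.Agent.P235P.FDefs

/-! P235 planar case: the assembly of the embedding from the lower bounds for pairs. -/

open Set Classical Filter
open scoped BigOperators

noncomputable section

namespace Vale.Agent.P235.Pl

variable {S : Sk}

/-- The conclusion of the frame theorem. -/
def FrameC {π : Par} (Y : Sys S π) (c : Ctx S) {ι : Type} (pt : ι → ℕ × ℝ) (F : (ι → ℝ) → ℝ) :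
    Prop :=
  ∀ (lo w : ℝ) (y n : ℕ), c.Big (st0 c.D0 lo w) 1 π y → c.Win (st0 c.D0 lo w) (fun _ t => t) 1 →
    (2 * (S.N + 1) ^ 2 + 3) * (y + 1) ≤ n → c.rs / (2 ^ 46 * (2 * π.m0 + 2)) ≤
      Y.val n (st0 c.D0 lo w) F (fun i => (pt i).1) fun i => (pt i).2

theorem main_payB (c : Ctx S) : Pay c (ptB c) payB where
  conv := payB_convex
  mem i := by
    cases i
    · exact c.y_mem le_rfl
    · exact c.x_mem zero_le_one
  ix := ⟨true, false, rfl, rfl, fun _ => le_rfl⟩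

theorem main_convA (zx : Bool) : ConvexOn ℝ univ (payA zx) := by
  refine ⟨convex_univ, fun x _ y _ a b ha hb hab => ?_⟩
  have h1 := payB_convex.2 (mem_univ fun i => x (.inl i)) (mem_univ fun i => y (.inl i)) ha hb hab
  simp only [smul_eq_mul] at h1 ⊢
  refine max_le (h1.trans (add_le_add (mul_le_mul_of_nonneg_left (le_max_left _ _) ha)
    (mul_le_mul_of_nonneg_left (le_max_left _ _) hb))) (ciSup_le fun i => ?_)
  have k : ∀ z : Bool ⊕ Fin 4 → ℝ, z (.inl zx) - z (.inr i) ≤ payA zx z := fun z =>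
    (le_ciSup (f := fun i => z (.inl zx) - z (.inr i)) (Finite.bddAbove_range _) i).trans
      (le_max_right _ _)
  have h2 := mul_le_mul_of_nonneg_left (k x) ha
  have h3 := mul_le_mul_of_nonneg_left (k y) hb
  simp only [Pi.add_apply, Pi.smul_apply, smul_eq_mul]
  linarith

theorem main_payA {c : Ctx S} {q : Fin 4 → ℕ} {pk : Fin 4 → ℝ} {z o : ℕ × ℝ}
    (h : TypeA c q pk z o) (zx : Bool) : Pay c (ptA c q pk) (payA zx) where
  conv := main_convA zx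
  mem i := by
    rcases i with i | i
    · exact (main_payB c).mem i
    · exact h.near i
  ix := ⟨.inl true, .inl false, rfl, rfl, fun _ => le_max_left _ _⟩

theorem main_paidA {c : Ctx S} {q : Fin 4 → ℕ} {pk : Fin 4 → ℝ} {z o : ℕ × ℝ}
    (h : TypeA c q pk z o) (zx : Bool) (Φ : ℕ → ℝ → ℝ) :
    Paid S c.D0 Φ c.x c.y (payA zx fun i => Φ (ptA c q pk i).1 (ptA c q pk i).2) := by
  unfold payA
  rcases max_choice |Φ c.x.1 c.x.2 - Φ c.y.1 c.y.2| (⨆ i : Fin 4,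
      Φ (ptA c q pk (.inl zx)).1 (ptA c q pk (.inl zx)).2 -
        Φ (ptA c q pk (.inr i)).1 (ptA c q pk (.inr i)).2) with k | k
  · exact Or.inl k.le
  · obtain ⟨i, hi⟩ := exists_eq_ciSup_of_finite (f := fun i : Fin 4 =>
      Φ (ptA c q pk (.inl zx)).1 (ptA c q pk (.inl zx)).2 -
        Φ (ptA c q pk (.inr i)).1 (ptA c q pk (.inr i)).2)
    refine Or.inr ⟨q i, pk i, ?_, h.pk_mem i, ?_⟩
    · rcases h.zo with ⟨rfl, rfl⟩ | ⟨rfl, rfl⟩
      · exact Or.inl (h.sep i)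
      · exact Or.inr (h.sep i)
    · cases zx
      · exact Or.inr (k.le.trans hi.ge)
      · exact Or.inl (k.le.trans hi.ge)

/-- A uniform mixture of families of the same size. -/
theorem main_mix {V U : Type} [Fintype V] [Fintype U] [Nonempty U] {D : Lk} {pt : V → ℕ × ℝ}
    {d : V → V → ℝ} (hd : Realises S D pt d) {O : U → Type} [∀ u, Fintype (O u)] {K : ℕ}
    (hK : 0 < K) (hO : ∀ u, Fintype.card (O u) = K) {Ψ : ∀ u, O u → ℕ → ℝ → ℝ} {c : ℝ} (hc : 0 < c)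
    (hΨ : ∀ u ω, Cons S D (Ψ u ω)) (hE : ∀ u θ t, 𝔼 ω, Ψ u ω θ t = t)
    (hv : ∀ x y, x ≠ y → ∃ u, ∃ v : O u → ℝ, (∀ ω, Paid S D (Ψ u ω) (pt x) (pt y) (v ω)) ∧
      c * d x y ≤ 𝔼 ω, v ω) : EmbedsL1 d (c / Fintype.card U)⁻¹ := by
  have hK' : (0 : ℝ) < K := Nat.cast_pos.2 hK
  have hU : (0 : ℝ) < Fintype.card U := Nat.cast_pos.2 Fintype.card_pos
  have e : ∀ u (g : O u → ℝ), ∑ ω, g ω = K * 𝔼 ω, g ω := fun u g => by
    rw [← hO u, Fintype.card_mul_expect]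
  refine embed_of_pay (Ω := Σ u, O u) (Ψ := fun z => Ψ z.1 z.2) (n := Fintype.card U * K) hd
    (mul_pos hU hK') (div_pos hc hU) (fun z => hΨ _ _) (fun θ t => ?_) fun x y h => ?_
  · simp only [Fintype.sum_sigma, e, hE, Finset.sum_const, Finset.card_univ, nsmul_eq_mul, mul_assoc]
  · obtain ⟨u, v, v1, v2⟩ := hv x y h
    refine ⟨fun z => Function.update (fun u (_ : O u) => (0 : ℝ)) u v z.1 z.2, fun z => ?_, ?_⟩
    · obtain ⟨u', ω⟩ := z
      by_cases k : u' = u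
      · subst k
        simpa using v1 ω
      · simp only [Function.update_of_ne k]
        exact Or.inl (abs_nonneg _)
    · rw [Fintype.sum_sigma, Finset.sum_eq_single u (fun u' _ k => by simp [Function.update_of_ne k])
        (by simp)]
      simp only [Function.update_self, e]
      refine le_trans (le_of_eq ?_) (mul_le_mul_of_nonneg_left v2 hK'.le)
      field_simp

theorem main_om (m q s : ℕ) (b b' : ℤ) (n : ℕ) : Om S ⟨m, b, q, s⟩ n = Om S ⟨m, b', q, s⟩ n := by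
  induction n with
  | zero => rfl
  | succ n ih =>
    rw [Om, Om, ih]

theorem main_big (c : Ctx S) {k : ℤ} (hk : c.rs = 2 ^ k) {j Nq nS : ℕ} (h1 : k + 190 ≤ j)
    (h2 : j + 10 - k ≤ nS) (h3 : 256 * 2 ^ j ≤ Nq * c.r) (lo : ℝ) :
    ∃ b : Fin 200, ∃ y ≤ nS, c.Big (st0 c.D0 lo (2 ^ j)) 1 ⟨200, b, Nq, nS⟩ y := by
  obtain ⟨y, hy⟩ := Int.eq_ofNat_of_zero_le (a := j + 10 - k) (by omega)
  obtain ⟨b, hb⟩ := Int.eq_ofNat_of_zero_le (a := k % 200) (by omega)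
  refine ⟨⟨b, by omega⟩, y, by omega, le_rfl, ?_, (by omega : 200 ≤ y), (by omega : y ≤ nS),
    by simpa [st0] using h3, k / 200, ?_⟩
  · change (2 : ℝ) ^ j = _
    rw [hk, ← zpow_natCast, ← zpow_natCast, ← hy, zpow_sub₀ two_ne_zero, zpow_add₀ two_ne_zero]
    norm_num
    field_simp
  · change c.rs = 2 ^ (b : ℤ) * ((2 ^ 200 : ℕ) : ℝ) ^ (k / 200)
    rw [hk, Nat.cast_pow, Nat.cast_ofNat, ← zpow_natCast, ← zpow_mul, ← zpow_add₀ two_ne_zero, ← hb]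
    congr 1
    omega

/-- The two systems with all phases. -/
def msys (S : Sk) (Nq nS : ℕ) (u : Bool × Fin 200) : Sys S ⟨200, u.2, Nq, nS⟩ :=
  cond u.1 (sysA S _) (sysB S _)

theorem main_pair
    (hA : ∀ (π : Par), 200 ≤ π.m0 → ∀ (c : Ctx S) q pk z o, TypeA c q pk z o →
      ∃ zx, FrameC (sysA S π) c (ptA c q pk) (payA zx))
    (hB : ∀ (π : Par), 200 ≤ π.m0 → ∀ c : Ctx S, TypeB c → FrameC (sysB S π) c (ptB c) payB)
    {D : Lk} (hD : Init S D) (adj : ∀ a, S.mate a ≠ a + 1) {x y : ℕ × ℝ} (hx : Pt S D x)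
    (hy : Pt S D y) {r : ℝ} (hr : IsLeast {c | Reach S D univ x y c} r) {k : ℤ}
    (k1 : 2 ^ 23 * 2 ^ k ≤ r) (k2 : r ≤ 2 ^ 24 * 2 ^ k) {j Nq nS n : ℕ} (h1 : k + 196 ≤ j)
    (h2 : j + 10 - k ≤ nS) (h3 : 256 * 2 ^ j ≤ Nq * r) (h4 : |x.2| + 100 * r ≤ 2 ^ j / 2)
    (hn : (2 * (S.N + 1) ^ 2 + 3) * (nS + 1) ≤ n) :
    ∃ u : Bool × Fin 200, ∃ v : Om S ⟨200, u.2, Nq, nS⟩ n → ℝ,
      (∀ ω, Paid S D ((msys S Nq nS u).proc n (st0 D (-(2 ^ j / 2)) (2 ^ j)) ω) x y (v ω)) ∧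
      (2 ^ 79)⁻¹ * r ≤ 𝔼 ω, v ω := by
  have p0 : (0 : ℝ) < 2 ^ k := zpow_pos two_pos k
  by_cases hl : 2 ^ k ≤ |x.2 - y.2|
  · refine ⟨(true, 0), _, fun ω => Or.inl le_rfl, le_trans ?_ ((msys S Nq nS (true, 0)).val_ge n
      (st0 D (-(2 ^ j / 2)) (2 ^ j)) (pow_pos two_pos j) payB_convex
      (fun i => cond i x.1 y.1) fun i => cond i x.2 y.2)⟩
    change _ ≤ |x.2 - y.2|
    linarith
  let cB : Ctx S := ⟨D, x, y, r, 2 ^ k, hD, hx, hy, hr, (not_le.1 hl).le, p0, adj, k2, by linarith⟩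
  let cA : Ctx S := ⟨D, x, y, r, 64 * 2 ^ k, hD, hx, hy, hr, by linarith, by linarith, adj,
    by linarith, by linarith⟩
  have hW : ∀ c : Ctx S, c.x = x → c.r = r →
      c.Win (st0 c.D0 (-(2 ^ j / 2)) (2 ^ j)) (fun _ t => t) 1 := fun c e1 e2 t ht => by
    simp only [Ctx.vx, e1, e2, mem_Icc] at ht
    simp only [St.W, st0, mem_Icc]
    constructor <;> linarith [ht.1, ht.2, le_abs_self x.2, neg_abs_le x.2]
  have hn' : ∀ y ≤ nS, (2 * (S.N + 1) ^ 2 + 3) * (y + 1) ≤ n := fun y hy =>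
    (Nat.mul_le_mul_left _ (Nat.succ_le_succ hy)).trans hn
  rcases typeAB cA cB rfl rfl rfl rfl rfl (by change _ * 2 ^ k ≤ r; linarith) with
    ⟨q, pk, z, o, h⟩ | h
  · obtain ⟨b, y', hy', hb⟩ := main_big cA (k := k + 6) (nS := nS)
      (by rw [zpow_add₀ two_ne_zero, mul_comm]; norm_num [cA]) (by omega) (by omega) h3 (-(2 ^ j / 2))
    obtain ⟨zx, hz⟩ := hA ⟨200, b, Nq, nS⟩ le_rfl cA q pk z o h
    refine ⟨(true, b), _, fun ω => main_paidA h zx _,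
      le_trans ?_ (hz _ _ y' n hb (hW cA rfl rfl) (hn' y' hy'))⟩
    change _ ≤ 64 * 2 ^ k / (2 ^ 46 * (2 * ((200 : ℕ) : ℝ) + 2))
    push_cast
    linarith
  · obtain ⟨b, y', hy', hb⟩ := main_big cB rfl (by omega) h2 h3 (-(2 ^ j / 2))
    refine ⟨(false, b), _, fun ω => Or.inl le_rfl,
      le_trans ?_ (hB ⟨200, b, Nq, nS⟩ le_rfl cB h _ _ y' n hb (hW cB rfl rfl) (hn' y' hy'))⟩
    change _ ≤ 2 ^ k / (2 ^ 46 * (2 * ((200 : ℕ) : ℝ) + 2))
    push_cast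
    linarith

theorem diag_embed_of
    (hA : ∀ (S : Sk) (π : Par), 200 ≤ π.m0 → ∀ (c : Ctx S) q pk z o, TypeA c q pk z o →
      ∃ zx, FrameC (sysA S π) c (ptA c q pk) (payA zx))
    (hB : ∀ (S : Sk) (π : Par), 200 ≤ π.m0 → ∀ c : Ctx S, TypeB c →
      FrameC (sysB S π) c (ptB c) payB) :
    ∃ C : ℝ, ∀ (V : Type) [Fintype V] (S : Sk) (D : Lk) (pt : V → ℕ × ℝ) (d : V → V → ℝ),
      (∀ a, S.mate a ≠ a + 1) → Realises S D pt d → (∀ x y, x ≠ y → 0 < d x y) →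
      EmbedsL1 d C := by
  refine ⟨((2 ^ 79)⁻¹ / Fintype.card (Bool × Fin 200))⁻¹, fun V _ S D pt d adj hd hp => ?_⟩
  have hk : ∀ z : {z : V × V // z.1 ≠ z.2}, ∃ k : ℤ,
      2 ^ 23 * 2 ^ k ≤ d z.1.1 z.1.2 ∧ d z.1.1 z.1.2 ≤ 2 ^ 24 * 2 ^ k := fun z => by
    obtain ⟨k, k1, k2⟩ := exists_mem_Ico_zpow (div_pos (hp _ _ z.2) (pow_pos two_pos 23)) one_lt_two
    rw [zpow_add_one₀ two_ne_zero] at k2
    exact ⟨k, by linarith, by linarith⟩
  choose k k1 k2 using hk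
  have t1 : Tendsto (fun j : ℕ => (j : ℤ)) atTop atTop := tendsto_natCast_atTop_atTop
  have t2 : Tendsto (fun j : ℕ => (2 : ℝ) ^ j / 2) atTop atTop :=
    (tendsto_pow_atTop_atTop_of_one_lt one_lt_two).atTop_div_const two_pos
  obtain ⟨j, j1, j2⟩ := ((eventually_all.2 fun z => t1.eventually_ge_atTop (k z + 196)).and
    (eventually_all.2 fun z : {z : V × V // z.1 ≠ z.2} =>
      t2.eventually_ge_atTop (|(pt z.1.1).2| + 100 * d z.1.1 z.1.2))).exists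
  obtain ⟨nS, hS⟩ := (eventually_all.2 fun z => t1.eventually_ge_atTop (j + 10 - k z)).exists
  obtain ⟨Nq, hq⟩ := (eventually_all.2 fun z : {z : V × V // z.1 ≠ z.2} =>
    ((tendsto_natCast_atTop_atTop (R := ℝ)).atTop_mul_const (hp _ _ z.2)).eventually_ge_atTop
      (256 * 2 ^ j)).exists
  have hw : 0 < (st0 D (-(2 ^ j / 2)) (2 ^ j)).w := pow_pos two_pos j
  exact main_mix hd (O := fun u : Bool × Fin 200 =>
      Om S ⟨200, u.2, Nq, nS⟩ ((2 * (S.N + 1) ^ 2 + 3) * (nS + 1))) Fintype.card_pos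
    (fun u => Fintype.card_congr (Equiv.cast (main_om _ _ _ _ 0 _)))
    (Ψ := fun u => (msys S Nq nS u).proc _ (st0 D (-(2 ^ j / 2)) (2 ^ j))) (by positivity)
    (fun u ω => ⟨Sys.proc_mono _ _ _ hw ω, fun _ _ _ h => Sys.proc_cons _ _ _ hw ω h⟩)
    (fun u => Sys.proc_mean _ _ _ hw) fun x y h =>
      main_pair (hA S) (hB S) hd.1 adj (hd.2.1 x) (hd.2.1 y) (hd.2.2 x y) (k1 ⟨(x, y), h⟩)
        (k2 ⟨(x, y), h⟩) (j1 _) (hS _) (hq ⟨(x, y), h⟩) (j2 ⟨(x, y), h⟩) le_rfl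

end Vale.Agent.P235.Pl
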