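import Vale.Agent.P235P.NADefs
import Vale.Agent.P235P.BEnv
import Vale.Agent.P235P.EA

/-! P235 planar case: the children of a node of system A. -/

open Set Classical

noncomputable section

namespace Vale.Agent.P235.Pl

namespace NA

variable {S : Sk} {π : Par} {s : St} {ρ : Rnd S π} {A : Set ℕ} {a a' θ θ' : ℕ} {D : Lk}
  {W : Set ℝ} {p q : ℕ × ℝ} {c R t : ℝ}

theorem mem_iv (ha : a < S.mate a) : θ ∈ tm (iv S a) ↔ a ≤ θ ∧ θ ≤ S.mate a := by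
  have := (S.pos a ha).1
  simp only [tm, iv, mem_Ioc]
  omega

theorem iv_fst (ha : a < S.mate a) : (iv S a).1 + 1 = a := by
  have := (S.pos a ha).1
  simp only [iv]
  omega

theorem iv_inj (ha : a < S.mate a) (ha' : a' < S.mate a') (h : (iv S a).1 = (iv S a').1) :
    a = a' := by
  rw [← iv_fst ha, ← iv_fst ha', h]

theorem cross (h : Reach S D W p q c) (ha : a < S.mate a) (h1 : a ≤ p.1) (h2 : p.1 ≤ S.mate a)
    (h3 : q.1 < a ∨ S.mate a < q.1) : ∃ z ∈ cols S W a, Via S D W p z q c := by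
  obtain ⟨t, ⟨-, h⟩ | ⟨-, h⟩⟩ := h.bar_arc ha h1 h2 h3
  · exact ⟨_, ⟨Or.inl rfl, h.mem⟩, h⟩
  · exact ⟨_, ⟨Or.inr rfl, h.mem⟩, h⟩

theorem cross' (h : Reach S D W p q c) (h1 : a < p.1) (h2 : p.1 < S.mate a)
    (h3 : q.1 ≤ a ∨ S.mate a ≤ q.1) : ∃ z ∈ cols S W a, Via S D W p z q c := by
  obtain ⟨t, ⟨-, h⟩ | ⟨-, h⟩⟩ := h.bar_open h1 h2 h3
  · exact ⟨_, ⟨Or.inl rfl, h.mem⟩, h⟩
  · exact ⟨_, ⟨Or.inr rfl, h.mem⟩, h⟩

/-- A point inside the inner arc close to the outer columns. -/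
theorem rel_of_in (ha : a < S.mate a) (h1 : a' < a) (h2 : S.mate a < S.mate a')
    (h : Near S D W (cols S W a') R p) (h3 : a ≤ p.1) (h4 : p.1 ≤ S.mate a) :
    SA.rel S D W R a' a := by
  obtain ⟨p0, hp0, c, hc, h⟩ := h
  obtain ⟨z, hz, hv⟩ := cross h.symm ha h3 h4 (by rcases hp0.1 with e | e <;> omega)
  obtain ⟨c2, hc2, h⟩ := hv.right
  exact ⟨h2, p0, hp0, z, hz, c2, hc2.trans hc, h⟩

/-- A point outside the outer arc close to the inner columns. -/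
theorem rel_of_out (ha : a < S.mate a) (h1 : a' < a) (h2 : S.mate a < S.mate a')
    (h : Near S D W (cols S W a) R p) (h3 : p.1 ≤ a' ∨ S.mate a' ≤ p.1) :
    SA.rel S D W R a' a := by
  obtain ⟨p0, hp0, c, hc, h⟩ := h
  obtain ⟨z, hz, hv⟩ := cross' (a := a') h (by rcases hp0.1 with e | e <;> omega)
    (by rcases hp0.1 with e | e <;> omega) h3
  obtain ⟨c1, hc1, h⟩ := hv.left
  exact ⟨h2, z, hz, p0, hp0, c1, hc1.trans hc, h⟩

theorem rel_mono {R' : ℝ} (h : SA.rel S D W R a' a) (hR : R ≤ R') : SA.rel S D W R' a' a :=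
  let ⟨h1, p, hp, h2⟩ := h
  ⟨h1, p, hp, h2.mono_R hR⟩

/-- A point near a point inside an arc is inside or near the columns. -/
theorem near_cols (ha : a < S.mate a) (h : Reach S D W p q c) (h1 : p.1 ∉ tm (iv S a))
    (h2 : q.1 ∈ tm (iv S a)) : Near S D W (cols S W a) c q := by
  rw [mem_iv ha] at h1 h2
  obtain ⟨z, hz, hv⟩ := cross h.symm ha h2.1 h2.2 (by omega)
  obtain ⟨c1, hc1, h⟩ := hv.left
  exact ⟨z, hz, c1, hc1, h.symm⟩

/-- The pending family of a node. -/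
structure Good (s : St) (ρ : Rnd S π) (A : Set ℕ) : Prop where
  pe : (sysA S π).PE s ρ = iv S '' A
  fam : Fam S s A
  far : ∀ a ∈ A, some (iv S a) ≠ s.kick → ∀ p ∈ s.Pin,
    ¬ Near S s.D s.W (cols S s.W a) (19 * s.w) p
  kick : ∀ I, s.kick = some I → ∃ a, I = iv S a ∧ Kick S s a A

theorem Kick.lt {a0 : ℕ} (h : Kick S s a0 A) (ha : a ∈ A) (hk : some (iv S a) ≠ s.kick) :
    a0 < a ∧ S.mate a < S.mate a0 := by
  have h1 := h.sub a ha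
  have h2 : a0 ≠ a := fun e => hk (by rw [h.kick, e])
  have h3 : S.mate a ≠ S.mate a0 := fun e => h2 (S.mate_inj e).symm
  omega

theorem F_fam (s : St) : Fam S s {a | SA.F S s a} where
  arc _ h := ((greedy_iff _ _ _).1 h).1.1
  half _ h := ((greedy_iff _ _ _).1 h).1.2.1
  unif _ h := ((greedy_iff _ _ _).1 h).1.2.2.1
  sep _ h a' h' hl := ((greedy_iff _ _ _).1 h).2 a' hl h'

theorem NI.good (h : NI S s) (ρ : Rnd S π) : ∃ A, Good s ρ A := by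
  rcases h.node with ⟨h1, h2⟩ | ⟨a0, A, hk⟩
  · refine ⟨{a | SA.F S s a}, ?_, F_fam s, fun a ha _ p hp hn => ?_, fun I hI => ?_⟩
    · ext I
      simp only [Sys.PE, h1, Option.getD_none, sysA, mem_setOf_eq, mem_image, iv, eq_comm]
    · exact disjoint_left.1 ((greedy_iff _ _ _).1 ha).1.2.2.2
        (hn.mono_R (by linarith [h.w0])) hp
    · rw [h2] at hI
      cases hI
  · refine ⟨A, ?_, hk.fam, fun a ha hne p hp hn => ?_, fun I hI => ⟨a0, ?_, hk⟩⟩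
    · simp only [Sys.PE, hk.pend, Option.getD_some]
    · obtain ⟨h1, h2⟩ := hk.lt ha hne
      have ha0 := hk.fam.arc _ hk.mem
      refine hk.fam.sep a ha a0 hk.mem h1 ?_
      rcases hk.pin p hp hn.mem with h3 | h3
      · rw [mem_iv ha0] at h3
        exact rel_mono (rel_of_out (hk.fam.arc a ha) h1 h2 hn (by omega)) (by linarith [h.w0])
      · obtain ⟨p0, hp0, c, hc, h3⟩ := h3
        exact ⟨h2, p0, hp0, (hn.reach h3.symm).mono_R (by linarith [h.w0])⟩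
    · rw [hk.kick] at hI
      exact (Option.some.inj hI).symm

theorem Good.free (hN : NI S s) (h : Good s ρ A) (ha : a ∈ A) (hk : some (iv S a) ≠ s.kick)
    (hp : p ∈ s.Pin) (hW : p.2 ∈ s.W) : p.1 ∉ tm (iv S a) := by
  rw [mem_iv (h.fam.arc a ha)]
  rintro ⟨h1, h2⟩
  have h0 : 0 ≤ 19 * s.w := by linarith [hN.w0]
  rcases hN.arc a p.1 p.2 h1 h2 hp hW with h3 | h3
  · exact h.far a ha hk _ h3 (Near.self ⟨Or.inl rfl, hW⟩ hW h0)
  · exact h.far a ha hk _ h3 (Near.self ⟨Or.inr rfl, hW⟩ hW h0)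

/-- Maximal members other than the kick. -/
def Mx (S : Sk) (s : St) (A : Set ℕ) (a : ℕ) : Prop :=
  a ∈ A ∧ some (iv S a) ≠ s.kick ∧
    ∀ a' ∈ A, some (iv S a') ≠ s.kick → a' ≤ a → S.mate a ≤ S.mate a' → a' = a

theorem Zs_eq : (sysA S π).Zs s = ∅ := by
  unfold Sys.Zs
  split <;> rfl

theorem tm_sub (ha : a < S.mate a) (ha' : a' < S.mate a') :
    tm (iv S a) ⊆ tm (iv S a') ↔ a' ≤ a ∧ S.mate a ≤ S.mate a' := by
  constructor
  · intro h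
    exact ⟨((mem_iv ha').1 (h ((mem_iv ha).2 ⟨le_rfl, ha.le⟩))).1,
      ((mem_iv ha').1 (h ((mem_iv ha).2 ⟨ha.le, le_rfl⟩))).2⟩
  · intro h θ hθ
    rw [mem_iv ha] at hθ
    rw [mem_iv ha']
    omega

theorem Good.mem_KC (h : Good s ρ A) {I : ℕ × ℕ} :
    I ∈ (sysA S π).KC s ρ ↔ ∃ a, Mx S s A a ∧ I = iv S a := by
  simp only [Sys.KC, h.pe, Zs_eq, disjoint_empty, true_and, mem_setOf_eq, forall_const]
  constructor
  · rintro ⟨⟨a, ha, rfl⟩, h1, h2⟩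
    refine ⟨a, ⟨ha, h1, fun a' ha' h3 h4 h5 => ?_⟩, rfl⟩
    have := h2 _ ⟨a', ha', rfl⟩ h3 ((tm_sub (h.fam.arc a ha) (h.fam.arc a' ha')).2 ⟨h4, h5⟩)
    exact iv_inj (h.fam.arc a' ha') (h.fam.arc a ha) (by rw [this])
  · rintro ⟨a, ⟨ha, h1, h2⟩, rfl⟩
    refine ⟨⟨a, ha, rfl⟩, h1, ?_⟩
    rintro _ ⟨a', ha', rfl⟩ h3 h4
    rw [tm_sub (h.fam.arc a ha) (h.fam.arc a' ha')] at h4
    rw [h2 a' ha' h3 h4.1 h4.2]

theorem Mx.uniq (hf : Fam S s A) (h : Mx S s A a) (h' : Mx S s A a') (h1 : θ ∈ tm (iv S a))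
    (h2 : θ ∈ tm (iv S a')) : a = a' := by
  have ha := hf.arc a h.1
  have ha' := hf.arc a' h'.1
  rw [mem_iv ha] at h1
  rw [mem_iv ha'] at h2
  rcases lt_trichotomy a a' with e | e | e
  · exact h'.2.2 a h.1 h.2.1 e.le (by have := S.nest ha ha' e; omega)
  · exact e
  · exact (h.2.2 a' h'.1 h'.2.1 e.le (by have := S.nest ha' ha e; omega)).symm

theorem exists_Mx (ha : a ∈ A) (hk : some (iv S a) ≠ s.kick) :
    ∃ a', Mx S s A a' ∧ a' ≤ a ∧ S.mate a ≤ S.mate a' := by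
  have hex : ∃ a', a' ∈ A ∧ some (iv S a') ≠ s.kick ∧ a' ≤ a ∧ S.mate a ≤ S.mate a' :=
    ⟨a, ha, hk, le_rfl, le_rfl⟩
  obtain ⟨h1, h2, h3, h4⟩ := Nat.find_spec hex
  exact ⟨_, ⟨h1, h2, fun b hb h5 h6 h7 =>
    le_antisymm h6 (Nat.find_min' hex ⟨hb, h5, h6.trans h3, h4.trans h7⟩)⟩, h3, h4⟩

theorem Good.ch0_iff (h : Good s ρ A) {i : Option (ℕ × ℕ)} : (sysA S π).ch0 s ρ θ = some i ↔
    ∃ a, Mx S s A a ∧ i = some (iv S a) ∧ θ ∈ tm (iv S a) := by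
  unfold Sys.ch0
  rw [if_neg (by simp [Zs_eq])]
  split_ifs with h1
  · obtain ⟨h2, h3⟩ := h1.choose_spec
    obtain ⟨a, ha, e⟩ := h.mem_KC.1 h2
    rw [e] at h3 ⊢
    constructor
    · intro e'
      exact ⟨a, ha, (Option.some.inj e').symm, h3⟩
    · rintro ⟨a', ha', rfl, h4⟩
      rw [ha.uniq h.fam ha' h3 h4]
  · simp only [false_iff]
    rintro ⟨a, ha, -, h2⟩
    exact h1 ⟨_, h.mem_KC.2 ⟨a, ha, rfl⟩, h2⟩

theorem DI_iv (ha : a < S.mate a) :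
    (sysA S π).DI s (iv S a) p = dc S s.D s.W (cols S s.W a) (20 * s.w) p := by
  unfold Sys.DI
  simp only [sysA, iv_fst ha]

theorem exit_cols (ha : a < S.mate a) (hl : Link S D θ θ' t) (ht : t ∈ W) (h1 : θ ∈ tm (iv S a))
    (h2 : θ' ∉ tm (iv S a)) : (θ, t) ∈ cols S W a := by
  rw [mem_iv ha] at h1 h2
  rcases hl.exit_arc ha h1.1 h1.2 (by omega) with h3 | h3
  · exact ⟨Or.inl h3.1, ht⟩
  · exact ⟨Or.inr h3.1, ht⟩

theorem del'_mem (hw : 0 < s.w) : s.w / 10 ≤ del' s ρ ∧ del' s ρ ≤ s.w / 5 :=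
  uq_mem _ (by linarith)

theorem xi0_mem (hw : 0 < s.w) : s.w / 20 ≤ xi0 s ρ ∧ xi0 s ρ ≤ s.w / 10 :=
  uq_mem _ (by linarith)

theorem Good.okC (hN : NI S s) (h : Good s ρ A) : (sysA S π).OkC s ρ := by
  intro θ θ' t i hl ht h1 h2
  obtain ⟨a, ha, rfl, h3⟩ := h.ch0_iff.1 h1
  have h4 : θ' ∉ tm (iv S a) := fun h4 => h2 (h.ch0_iff.2 ⟨a, ha, rfl, h4⟩)
  have ha' := h.fam.arc a ha.1
  show (sysA S π).DI s (iv S a) (θ, t) ≤ del' s ρ
  rw [DI_iv ha', dc_self (by linarith [hN.w0]) (exit_cols ha' hl ht h3 h4) ht]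
  linarith [(del'_mem (ρ := ρ) hN.w0).1, hN.w0]

theorem Good.ch_iff (hN : NI S s) (h : Good s ρ A) {i : Option (ℕ × ℕ)} :
    (sysA S π).ch s ρ θ = some i ↔ ∃ a, Mx S s A a ∧ i = some (iv S a) ∧ θ ∈ tm (iv S a) := by
  rw [Sys.ch, if_pos (h.okC hN), h.ch0_iff]

theorem Good.ch_eq (hN : NI S s) (h : Good s ρ A) (ha : Mx S s A a) :
    (sysA S π).ch s ρ θ = some (some (iv S a)) ↔ θ ∈ tm (iv S a) := by
  rw [h.ch_iff hN]
  constructor
  · rintro ⟨a', ha', e, h1⟩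
    rwa [Option.some.inj e]
  · exact fun h1 => ⟨a, ha, rfl, h1⟩

end NA

end Vale.Agent.P235.Pl
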