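import Vale.Agent.P235P.Heal
import Vale.Agent.P235P.EA

/-! P235 planar case: the basic properties of healed functions. -/

open Set Classical

noncomputable section

namespace Vale.Agent.P235.Pl

namespace NA

variable {π : Par}

theorem G_lip (κ : Cone) (t t' : ℝ) : κ.G t ≤ κ.G t' + |t - t'| := by
  have h1 := abs_max_sub_max_le_max 0 (|t' - κ.t| - 28 * κ.s) 0 (|t - κ.t| - 28 * κ.s)
  have h2 : |(|t' - κ.t| - 28 * κ.s) - (|t - κ.t| - 28 * κ.s)| ≤ |t - t'| := by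
    rw [sub_sub_sub_cancel_right, abs_sub_comm t t']
    exact (abs_abs_sub_abs_le_abs_sub _ _).trans (le_of_eq (by rw [sub_sub_sub_cancel_right]))
  have h3 := (le_abs_self _).trans (h1.trans (max_le (by simp) h2))
  unfold Cone.G
  linarith

theorem raise_facts (P : HP) (hs : HS π) (h1 : 0 < P.s1) (m : Fin π.nS) {H : ℕ → ℝ → ℝ}
    (hl : ∀ θ t t', H θ t ≤ H θ t' + |t - t'|)
    (hc : ∀ θ θ' t, Link P.S P.D θ θ' t → t ∈ P.W → H θ t = H θ' t) :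
    (∀ θ t t', P.raise hs H m θ t ≤ P.raise hs H m θ t' + |t - t'|) ∧
    (∀ θ θ' t, Link P.S P.D θ θ' t → t ∈ P.W → P.raise hs H m θ t = P.raise hs H m θ' t) ∧
    (∀ θ t, H θ t ≤ P.raise hs H m θ t) ∧
    ∀ θ t, P.raise hs H m θ t ≤ H θ t + 24 * scl π P.s1 m := by
  have s0 : 0 < scl π P.s1 m := div_pos h1 (by positivity)
  have x0 : 0 ≤ xim P.s1 hs m := s0.le.trans (uq_mem _ (by linarith)).1
  have ub : ∀ θ t, ∀ v ∈ insert (H θ t) {v | ∃ i k, Adm P.W P.s1 hs m i k ∧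
      ∃ c ∈ P.act H (cone P.s1 hs m i k), θ ∈ tm c.1 ∧ t ∈ (cone P.s1 hs m i k).I0 ∧
      v = min ((cone P.s1 hs m i k).G t) (c.2 θ t - xim P.s1 hs m)},
      v ≤ H θ t + 24 * scl π P.s1 m := by
    rintro θ t v (rfl | ⟨i, k, -, c, hc, h2, h3, rfl⟩)
    · linarith
    · exact (min_le_left _ _).trans (hc.2.e12.1 θ h2 t h3)
  have ge : ∀ θ t, H θ t ≤ P.raise hs H m θ t := fun θ t =>
    le_csSup ⟨_, ub θ t⟩ (mem_insert _ _)
  have ge' : ∀ θ t i k c, Adm P.W P.s1 hs m i k → c ∈ P.act H (cone P.s1 hs m i k) → θ ∈ tm c.1 →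
      t ∈ (cone P.s1 hs m i k).I0 →
      min ((cone P.s1 hs m i k).G t) (c.2 θ t - xim P.s1 hs m) ≤ P.raise hs H m θ t :=
    fun θ t i k c a1 a2 a3 a4 => le_csSup ⟨_, ub θ t⟩ (Or.inr ⟨i, k, a1, c, a2, a3, a4, rfl⟩)
  have lk : ∀ θ θ' t, Link P.S P.D θ θ' t → t ∈ P.W →
      P.raise hs H m θ t ≤ P.raise hs H m θ' t := by
    intro θ θ' t h2 h3
    refine csSup_le (insert_nonempty _ _) ?_
    rintro v (rfl | ⟨i, k, a1, c, a2, a3, a4, rfl⟩)
    · exact (hc θ θ' t h2 h3).trans_le (ge θ' t)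
    have a5 : t ∈ (cone P.s1 hs m i k).Ip :=
      Icc_subset_Icc (by simp only [cone]; linarith) (by simp only [cone]; linarith) a4
    by_cases a6 : θ' ∈ tm c.1
    · rw [a2.2.cons θ θ' t h2 a5 a3 a6]
      exact ge' θ' t i k c a1 a2 a6 a4
    · have := a2.2.bd θ θ' t h2 a5 a3 a6
      exact (min_le_right _ _).trans (by linarith [hc θ θ' t h2 h3, ge θ' t])
  refine ⟨fun θ t t' => csSup_le (insert_nonempty _ _) ?_,
    fun θ θ' t h2 h3 => le_antisymm (lk θ θ' t h2 h3) (lk θ' θ t h2.symm h3), ge,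
    fun θ t => csSup_le (insert_nonempty _ _) (ub θ t)⟩
  rintro v (rfl | ⟨i, k, a1, c, a2, a3, a4, rfl⟩)
  · linarith [hl θ t t', ge θ t']
  set κ := cone P.s1 hs m i k
  by_cases a5 : t' ∈ κ.I0
  · have b1 := ge' θ t' i k c a1 a2 a3 a5
    have b2 := G_lip κ t t'
    have b3 := (le_abs_self _).trans (a2.2.lip θ t t')
    have b4 := abs_nonneg (t - t')
    rcases min_le_iff.1 b1 with b5 | b5
    · exact (min_le_left _ _).trans (by linarith)
    · exact (min_le_right _ _).trans (by linarith)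
  · refine (min_le_left _ _).trans ?_
    have b1 := a2.2.e12.2 θ a3
    have b2 := ge θ t'
    rcases lt_or_ge t' (κ.t - 52 * κ.s) with b3 | b3
    · have b4 := G_lip κ t (κ.t - 52 * κ.s)
      have b5 := hl θ (κ.t - 52 * κ.s) t'
      rw [abs_of_nonneg (by linarith [a4.1])] at b4 b5 ⊢
      linarith [b1.1]
    · have b3' : κ.t + 52 * κ.s < t' := not_le.1 fun b => a5 ⟨b3, b⟩
      have b4 := G_lip κ t (κ.t + 52 * κ.s)
      have b5 := hl θ (κ.t + 52 * κ.s) t'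
      rw [abs_of_nonpos (by linarith [a4.2])] at b4 b5 ⊢
      linarith [b1.2]

theorem heal_facts (P : HP) (hs : HS π) (hm : 200 ≤ π.m0) (h1 : 0 < P.s1)
    (hl : ∀ θ t t', |P.H0 θ t - P.H0 θ t'| ≤ |t - t'| / 16)
    (hc : ∀ θ θ' t, Link P.S P.D θ θ' t → t ∈ P.W → P.H0 θ t = P.H0 θ' t) :
    (∀ θ t t', |(P.out hs).H θ t - (P.out hs).H θ t'| ≤ |t - t'|) ∧
    (∀ θ θ' t, Link P.S P.D θ θ' t → t ∈ P.W → (P.out hs).H θ t = (P.out hs).H θ' t) ∧
    (∀ θ t, P.H0 θ t ≤ (P.out hs).H θ t) ∧ ∀ θ t, (P.out hs).H θ t ≤ P.H0 θ t + 27 * P.s1 := by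
  have s0 : ∀ m, 0 < scl π P.s1 m := fun m => div_pos h1 (by positivity)
  have s1 : ∀ m, 9 * scl π P.s1 (m + 1) ≤ scl π P.s1 m := fun m => by
    have h2 : (2 : ℝ) ^ 4 ≤ 2 ^ π.m0 := pow_le_pow_right₀ one_le_two (by omega)
    have h3 : scl π P.s1 m = 2 ^ π.m0 * scl π P.s1 (m + 1) := by
      unfold scl
      rw [mul_add, mul_one, pow_add]
      field_simp
    nlinarith [s0 (m + 1)]
  have key : ∀ m, (∀ θ t t', P.Hs hs m θ t ≤ P.Hs hs m θ t' + |t - t'|) ∧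
      (∀ θ θ' t, Link P.S P.D θ θ' t → t ∈ P.W → P.Hs hs m θ t = P.Hs hs m θ' t) ∧
      (∀ θ t, P.H0 θ t ≤ P.Hs hs m θ t) ∧
      ∀ θ t, P.Hs hs m θ t ≤ P.H0 θ t + 27 * P.s1 - 27 * scl π P.s1 m := by
    intro m
    induction m with
    | zero =>
      refine ⟨fun θ t t' => ?_, hc, fun _ _ => le_rfl, fun θ t => ?_⟩
      · have := (le_abs_self _).trans (hl θ t t')
        simp only [HP.Hs]
        linarith [abs_nonneg (t - t')]
      · simp [HP.Hs, scl]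
    | succ m ih =>
      rw [HP.Hs]
      split_ifs with h
      · obtain ⟨a1, a2, a3, a4⟩ := raise_facts P hs h1 ⟨m, h⟩ ih.1 ih.2.1
        refine ⟨a1, a2, fun θ t => (ih.2.2.1 θ t).trans (a3 θ t), fun θ t => ?_⟩
        have := a4 θ t
        simp only at this
        linarith [ih.2.2.2 θ t, s1 m]
      · exact ⟨ih.1, ih.2.1, ih.2.2.1, fun θ t => by linarith [ih.2.2.2 θ t, s1 m, s0 (m + 1)]⟩
  obtain ⟨a1, a2, a3, a4⟩ := key π.nS
  refine ⟨fun θ t t' => abs_sub_le_iff.2 ⟨?_, ?_⟩, a2, a3, fun θ t => ?_⟩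
  · exact sub_le_iff_le_add'.2 (a1 θ t t')
  · rw [abs_sub_comm]
    exact sub_le_iff_le_add'.2 (a1 θ t' t)
  · exact (a4 θ t).trans (by linarith [s0 π.nS])

end NA

end Vale.Agent.P235.Pl
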