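import Vale.Agent.P235P.NA1
import Vale.Agent.P235P.NAH

/-! P235 planar case: the kick of system A. -/

open Set Classical

noncomputable section

namespace Vale.Agent.P235.Pl

namespace NA

variable {S : Sk} {π : Par} {s : St} {ρ : Rnd S π} {A : Set ℕ} {a a' θ θ' : ℕ} {D : Lk}
  {W : Set ℝ} {p q : ℕ × ℝ} {c R t : ℝ}

theorem sTop_mem (hm : 200 ≤ π.m0) {w B : ℝ} (hw : 0 < w) (hB : 0 < B) :
    0 < sTop π w B ∧ sTop π w B ≤ w / 2 ^ 20 := by
  have h1 : 1 < 2 ^ π.m0 := Nat.one_lt_two_pow (by omega)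
  have h2 : 0 < w / (2 ^ 20 * B * 2 ^ π.b) := by positivity
  have h3 := Int.zpow_log_le_self h1 h2
  refine ⟨by unfold sTop; positivity, ?_⟩
  unfold sTop
  calc _ ≤ B * 2 ^ π.b * (w / (2 ^ 20 * B * 2 ^ π.b)) :=
        mul_le_mul_of_nonneg_left h3 (by positivity)
    _ = _ := by field_simp

theorem labA_eq (hN : NI S s) {B : ℝ} (h : ∀ p ∈ s.nb S (cols S s.W a) (12 * s.w),
    (s.lab p.1 p.2).1 = B ∧ s.w ≤ (s.lab p.1 p.2).2) : s.labA (cols S s.W a) = B := by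
  have hn : (cols S s.W a).Nonempty := ⟨(a, s.lo), Or.inl rfl, le_rfl, hN.le⟩
  rw [St.labA, dif_pos hn]
  exact (h _ (Near.self hn.some_mem hn.some_mem.2 (by linarith [hN.w0]))).1

/-- The healing problem of the kick node of `a`. -/
abbrev hpk (s : St) (ρ : Rnd S π) (a : ℕ) : HP := SA.hp S π s ((sysA S π).Dp s ρ) (iv S a)

theorem hl_eq : (sysA S π).hl s ρ (iv S a) = (hpk s ρ a).out ρ.2.2.1.2.2 := rfl

theorem H0_eq (ha : a < S.mate a) : (hpk s ρ a).H0 θ t =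
    dc S ((sysA S π).Dp s ρ) s.W (cols S s.W a) (5 * s.w) (θ, t) / 16 := by
  simp only [SA.hp, iv_fst ha]

theorem Kick.s1_mem (hm : 200 ≤ π.m0) (hN : NI S s) (h : Kick S s a A) :
    0 < (hpk s ρ a).s1 ∧ (hpk s ρ a).s1 ≤ s.w / 2 ^ 20 := by
  obtain ⟨B, hB, h1⟩ := h.fam.unif a h.mem
  simp only [SA.hp, iv_fst (h.fam.arc a h.mem), labA_eq hN h1]
  exact sTop_mem hm hN.w0 hB

theorem Kick.H_facts (hm : 200 ≤ π.m0) (hN : NI S s) (h : Kick S s a A) (ρ : Rnd S π) :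
    (∀ θ t t', |((sysA S π).hl s ρ (iv S a)).H θ t - ((sysA S π).hl s ρ (iv S a)).H θ t'| ≤
      |t - t'|) ∧
    (∀ θ θ' t, Link S ((sysA S π).Dp s ρ) θ θ' t → t ∈ s.W →
      ((sysA S π).hl s ρ (iv S a)).H θ t = ((sysA S π).hl s ρ (iv S a)).H θ' t) ∧
    (∀ θ t, (hpk s ρ a).H0 θ t ≤ ((sysA S π).hl s ρ (iv S a)).H θ t) ∧
    ∀ θ t, ((sysA S π).hl s ρ (iv S a)).H θ t ≤ (hpk s ρ a).H0 θ t + 27 * (hpk s ρ a).s1 := by
  have ha := h.fam.arc a h.mem
  refine heal_facts (hpk s ρ a) _ hm (h.s1_mem hm hN).1 (fun θ t t' => ?_) fun θ θ' t hl ht => ?_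
  · rw [H0_eq ha, H0_eq ha, ← sub_div, abs_div, abs_of_pos (by norm_num : (0 : ℝ) < 16)]
    exact div_le_div_of_nonneg_right (dc_lip t t') (by norm_num)
  · rw [H0_eq ha, H0_eq ha]
    exact congrArg (· / 16) (dc_link hl ht)

theorem le_Dp (Y : Sys S π) (s : St) (ρ : Rnd S π) : s.D.LeOn (Y.Dp s ρ) W :=
  ⟨fun _ _ _ h => Or.inl h, fun _ _ _ h => Or.inl h⟩

/-- A new link joins two times of one child. -/
theorem link_Dp_cases (Y : Sys S π) (h : Link S (Y.Dp s ρ) θ θ' t) :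
    Link S s.D θ θ' t ∨ ∃ i, Y.ch s ρ θ = some i ∧ Y.ch s ρ θ' = some i := by
  rcases h with ⟨rfl, h | h⟩ | ⟨rfl, h | h⟩ | ⟨h0, rfl, h | h⟩ | ⟨h0, rfl, h | h⟩
  · exact Or.inl (link_gap S h)
  · obtain ⟨-, _, -, -, i, h1, h2, -⟩ := h
    exact Or.inr ⟨i, h1, h2⟩
  · exact Or.inl (link_gap S h).symm
  · obtain ⟨-, _, -, -, i, h1, h2, -⟩ := h
    exact Or.inr ⟨i, h2, h1⟩
  · exact Or.inl (link_arc h0 h)
  · obtain ⟨-, _, -, -, i, h1, h2, -⟩ := h
    exact Or.inr ⟨i, h1, h2⟩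
  · exact Or.inl (link_arc h0 h).symm
  · obtain ⟨-, _, -, -, i, h1, h2, -⟩ := h
    exact Or.inr ⟨i, h2, h1⟩

theorem Kick.good (hN : NI S s) (h : Kick S s a A) (ρ : Rnd S π) : Good s ρ A := by
  obtain ⟨A', h'⟩ := hN.good ρ
  obtain ⟨a', e, h1⟩ := h'.kick _ h.kick
  have e1 : iv S '' A = iv S '' A' := Option.some.inj (h.pend.symm.trans h1.pend)
  have e2 : A = A' := by
    ext b
    constructor
    · intro hb
      obtain ⟨b', hb', e⟩ := e1 ▸ mem_image_of_mem (iv S) hb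
      rwa [← iv_inj (h'.fam.arc b' hb') (h.fam.arc b hb) (by rw [e])]
    · intro hb
      obtain ⟨b', hb', e⟩ := e1.symm ▸ mem_image_of_mem (iv S) hb
      rwa [← iv_inj (h.fam.arc b' hb') (h'.fam.arc b hb) (by rw [e])]
  rwa [e2]

/-- The times of the children are far from the sources of the kick. -/
theorem Kick.far_child (hN : NI S s) (h : Kick S s a A) {i : Option (ℕ × ℕ)}
    (hi : (sysA S π).ch s ρ p.1 = some i) : ¬ Near S s.D s.W (cols S s.W a) (20 * s.w) p := by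
  obtain ⟨b, hb, -, h1⟩ := ((h.good hN ρ).ch_iff hN).1 hi
  obtain ⟨h2, h3⟩ := h.lt hb.1 hb.2.1
  have hb' := h.fam.arc b hb.1
  rw [mem_iv hb'] at h1
  exact fun hn => h.fam.sep b hb.1 a h.mem h2 (rel_of_in hb' h2 h3 hn h1.1 h1.2)

/-- The new links do not change the distance to the sources of the kick. -/
theorem Kick.dc_Dp (hN : NI S s) (h : Kick S s a A) (hR : R ≤ 20 * s.w) (hq : q.2 ∈ s.W) :
    dc S ((sysA S π).Dp s ρ) s.W (cols S s.W a) R q = dc S s.D s.W (cols S s.W a) R q := by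
  have := dc_extra (S := S) (A := cols S s.W a) (le_Dp (sysA S π) s ρ) hR hq fun θ θ' t ht hl => ?_
  · rwa [min_dc hR, min_dc hR] at this
  · rcases link_Dp_cases _ hl with h1 | ⟨i, h1, -⟩
    · exact Or.inl h1
    · exact Or.inr (hR.trans (le_dc (h.far_child (p := (θ, t)) hN h1) le_rfl ht))

theorem Kick.H_small (hm : 200 ≤ π.m0) (hN : NI S s) (h : Kick S s a A)
    (hp : Near S s.D s.W (cols S s.W a) (s.w / 2) p) :
    ((sysA S π).hl s ρ (iv S a)).H p.1 p.2 - xi0 s ρ ≤ 0 := by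
  have h1 := (h.H_facts hm hN ρ).2.2.2 p.1 p.2
  rw [H0_eq (h.fam.arc a h.mem)] at h1
  have h2 := (hp.mono_D Subset.rfl (le_Dp (sysA S π) s ρ)).dc_le (cap := 5 * s.w)
  have h3 := (h.s1_mem (ρ := ρ) hm hN).2
  have h4 := (xi0_mem (ρ := ρ) hN.w0).1
  have h5 := hN.w0
  linarith

/-- Far from the sources the kick is the trapezoid. -/
theorem Kick.H_top (hm : 200 ≤ π.m0) (hN : NI S s) (h : Kick S s a A) (hW : p.2 ∈ s.W)
    (hp : ¬ Near S s.D s.W (cols S s.W a) (5 * s.w) p) :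
    5 * s.w / 16 ≤ ((sysA S π).hl s ρ (iv S a)).H p.1 p.2 := by
  have h1 := (h.H_facts hm hN ρ).2.2.1 p.1 p.2
  rw [H0_eq (h.fam.arc a h.mem), h.dc_Dp hN (by linarith [hN.w0]) hW] at h1
  have h2 := le_dc hp le_rfl hW
  linarith

theorem trap_le (hw : 0 < s.w) (t : ℝ) : trap s ρ t ≤ s.w / 20 :=
  max_le (by linarith) (min_le_left _ _)

theorem Kick.trap_le_H (hm : 200 ≤ π.m0) (hN : NI S s) (h : Kick S s a A) (hW : p.2 ∈ s.W)
    (hp : ¬ Near S s.D s.W (cols S s.W a) (5 * s.w) p) :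
    trap s ρ p.2 ≤ ((sysA S π).hl s ρ (iv S a)).H p.1 p.2 - xi0 s ρ := by
  linarith [h.H_top (ρ := ρ) hm hN hW hp, trap_le (ρ := ρ) hN.w0 p.2, (xi0_mem (ρ := ρ) hN.w0).2,
    hN.w0]

theorem trap_lip (t t' : ℝ) : |trap s ρ t - trap s ρ t'| ≤ |t - t'| := by
  refine (abs_max_sub_max_le_max _ _ _ _).trans (max_le (by simp) ?_)
  refine (abs_min_sub_min_le_max _ _ _ _).trans (max_le (by simp) ?_)
  refine (abs_min_sub_min_le_max _ _ _ _).trans (max_le (le_of_eq ?_) (le_of_eq ?_))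
  · congr 1; ring
  · rw [abs_sub_comm t]; congr 1; ring

theorem trap_off (hw : 0 < s.w) (ht : t ∉ s.W) : trap s ρ t = 0 := by
  refine trap_out ρ hw ?_
  by_contra hc
  push Not at hc
  exact ht ⟨hc.1.le, hc.2.le⟩

theorem psi0_none (Y : Sys S π) (h : s.kick = none) : Y.psi0 s ρ θ t = 0 := by
  simp only [Sys.psi0, h]

theorem psi0_some (Y : Sys S π) {I : ℕ × ℕ} (h : s.kick = some I) : Y.psi0 s ρ θ t =
    if θ ∈ tm I then max 0 (min (trap s ρ t) ((Y.hl s ρ I).H θ t - xi0 s ρ)) else 0 := by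
  simp only [Sys.psi0, h]

theorem Kick.psi0_zero (hm : 200 ≤ π.m0) (hN : NI S s) (h : Kick S s a A)
    (hp : p.2 ∉ s.W ∨ p.1 ∉ tm (iv S a) ∨ Near S s.D s.W (cols S s.W a) (s.w / 2) p) :
    (sysA S π).psi0 s ρ p.1 p.2 = 0 := by
  rw [psi0_some _ h.kick]
  split_ifs with h1
  · rcases hp with hp | hp | hp
    · exact max_eq_left ((min_le_left _ _).trans (trap_off hN.w0 hp).le)
    · exact absurd h1 hp
    · exact max_eq_left ((min_le_right _ _).trans (h.H_small hm hN hp))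
  · rfl

theorem NI.okP (hm : 200 ≤ π.m0) (hN : NI S s) (ρ : Rnd S π) : (sysA S π).OkP s ρ := by
  rcases hN.node with ⟨-, h⟩ | ⟨a, A, h⟩
  · simp [Sys.OkP, psi0_none _ h]
  have ha := h.fam.arc a h.mem
  have h0 : 0 ≤ s.w / 2 := by linarith [hN.w0]
  refine ⟨fun θ t t' => ?_, fun p hp => ?_, fun θ θ' t hl => ?_⟩
  · rw [psi0_some _ h.kick, psi0_some _ h.kick]
    split_ifs
    · refine (abs_max_sub_max_le_max _ _ _ _).trans (max_le (by simp) ?_)
      refine (abs_min_sub_min_le_max _ _ _ _).trans (max_le (trap_lip t t') ?_)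
      rw [sub_sub_sub_cancel_right]
      exact (h.H_facts hm hN ρ).1 θ t t'
    · simp
  · refine h.psi0_zero hm hN ?_
    by_cases hW : p.2 ∈ s.W
    · exact Or.inr ((h.pin p hp hW).imp_right fun h1 => h1.mono_R (by linarith))
    · exact Or.inl hW
  · by_cases hW : t ∈ s.W
    swap
    · rw [h.psi0_zero (p := (θ, t)) hm hN (Or.inl hW), h.psi0_zero (p := (θ', t)) hm hN (Or.inl hW)]
    by_cases h1 : θ ∈ tm (iv S a) <;> by_cases h2 : θ' ∈ tm (iv S a)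
    · rw [psi0_some _ h.kick, psi0_some _ h.kick, if_pos h1, if_pos h2,
        (h.H_facts hm hN ρ).2.1 θ θ' t hl hW]
    · rw [h.psi0_zero (p := (θ, t)) hm hN (Or.inr (Or.inr
        (Near.self (exit_cols ha hl hW h1 h2) hW h0))),
        h.psi0_zero (p := (θ', t)) hm hN (Or.inr (Or.inl h2))]
    · rw [h.psi0_zero (p := (θ', t)) hm hN (Or.inr (Or.inr
        (Near.self (exit_cols ha hl.symm hW h2 h1) hW h0))),
        h.psi0_zero (p := (θ, t)) hm hN (Or.inr (Or.inl h1))]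
    · rw [h.psi0_zero (p := (θ', t)) hm hN (Or.inr (Or.inl h2)),
        h.psi0_zero (p := (θ, t)) hm hN (Or.inr (Or.inl h1))]

theorem NI.psi_eq (hm : 200 ≤ π.m0) (hN : NI S s) :
    (sysA S π).psi s ρ θ t = (sysA S π).psi0 s ρ θ t := if_pos (hN.okP hm ρ)

/-- On a column that is far from the sources the kick is the trapezoid. -/
theorem Kick.psi_top (hm : 200 ≤ π.m0) (hN : NI S s) (h : Kick S s a A) (hθ : θ ∈ tm (iv S a))
    (hp : t ∈ s.W → ¬ Near S s.D s.W (cols S s.W a) (5 * s.w) (θ, t)) :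
    (sysA S π).psi s ρ θ t = trap s ρ t := by
  by_cases hW : t ∈ s.W
  · rw [hN.psi_eq hm, psi0_some _ h.kick, if_pos hθ,
      min_eq_left (h.trap_le_H (p := (θ, t)) hm hN hW (hp hW)), max_eq_right (trap_nonneg ρ t)]
  · rw [hN.psi_eq hm, h.psi0_zero (p := (θ, t)) hm hN (Or.inl hW), trap_off hN.w0 hW]

end NA

end Vale.Agent.P235.Pl
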