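import Vale.Agent.P235P.NA2

/-! P235 planar case: the node invariant of system A is preserved. -/

open Set Classical

noncomputable section

namespace Vale.Agent.P235.Pl

namespace NA

variable {S : Sk} {π : Par} {s : St} {ρ : Rnd S π} {A : Set ℕ} {a a' θ θ' : ℕ}
  {p q : ℕ × ℝ} {c R t : ℝ}

theorem Good.mem_cPin (hN : NI S s) (h : Good s ρ A) (ha : Mx S s A a) :
    p ∈ (sysA S π).cPin s ρ (some (iv S a)) ↔ p ∈ s.Pin ∨ p.1 ∉ tm (iv S a) ∨
      dc S s.D s.W (cols S s.W a) (20 * s.w) p ≤ del' s ρ := by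
  simp only [Sys.cPin, Sys.shal, mem_union, mem_setOf_eq, ne_eq, h.ch_eq hN ha, or_assoc,
    DI_iv (h.fam.arc a ha.1)]

theorem Good.child_arc (hN : NI S s) (h : Good s ρ A) (ha : Mx S s A a) :
    PinArc S ((sysA S π).cSt s ρ (some (iv S a))) := by
  intro b θ t h1 h2 hp hW
  have ha' := h.fam.arc a ha.1
  have hw := hN.w0
  have hd := del'_mem (ρ := ρ) hw
  change (θ, t) ∈ (sysA S π).cPin s ρ _ at hp
  change t ∈ s.W at hW
  change (b, t) ∈ (sysA S π).cPin s ρ _ ∨ (S.mate b, t) ∈ (sysA S π).cPin s ρ _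
  simp only [h.mem_cPin hN ha, mem_iv ha'] at hp ⊢
  rcases hp with hp | hp | hp
  · exact (hN.arc b θ t h1 h2 hp hW).imp Or.inl Or.inl
  · by_cases e : a ≤ b
    · exact Or.inr (Or.inr (Or.inl (by omega)))
    · exact Or.inl (Or.inr (Or.inl (by omega)))
  by_contra hc
  push Not at hc
  obtain ⟨⟨-, h3, h4⟩, -, h5, h6⟩ := hc
  have h7 : a ≠ b := by
    rintro rfl
    rw [dc_self (A := cols S s.W a) (p := (a, t)) (by linarith) ⟨Or.inl rfl, hW⟩ hW] at h4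
    linarith
  have h8 : b < S.mate b := by
    rcases (h1.trans h2).eq_or_lt with e | e
    · obtain rfl : θ = b := by omega
      linarith
    · exact e
  have h9 : S.mate b ≠ S.mate a := fun e => h7 (S.mate_inj e).symm
  obtain ⟨p0, hp0, c, hc, hr⟩ := exists_of_env1_lt (q := (θ, t))
    (hp.trans_lt (lt_min h4 h6)) ((min_le_left _ _).trans dc_le_cap) hW
  obtain ⟨⟨θz, u⟩, hz, c1, c2, h10, h11, h12⟩ := cross hc.symm h8 h1 h2
    (by rcases hp0.1 with e | e <;> omega)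
  have h13 := ((Near.of_reach hp0 h11.symm le_rfl).vert hW).dc_le (cap := 20 * s.w)
  have h14 : |t - u| ≤ c1 := h10.abs_le
  rw [abs_sub_comm] at h14
  rcases hz.1 with e | e <;> simp only at e <;> subst e
  · linarith [min_le_left (dc S s.D s.W (cols S s.W a) (20 * s.w) (θz, t))
      (dc S s.D s.W (cols S s.W a) (20 * s.w) (S.mate θz, t))]
  · linarith [min_le_right (dc S s.D s.W (cols S s.W a) (20 * s.w) (b, t))
      (dc S s.D s.W (cols S s.W a) (20 * s.w) (S.mate b, t))]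

theorem Good.child_kick (hN : NI S s) (h : Good s ρ A) (ha : Mx S s A a) :
    Kick S ((sysA S π).cSt s ρ (some (iv S a))) a
      {b | b ∈ A ∧ some (iv S b) ≠ s.kick ∧ a ≤ b ∧ S.mate b ≤ S.mate a} where
  kick := rfl
  pend := by
    refine congrArg some ?_
    ext I
    simp only [h.pe, h.ch_eq hN ha, mem_setOf_eq, mem_image]
    constructor
    · rintro ⟨⟨b, hb, rfl⟩, h1, h2⟩
      exact ⟨b, ⟨hb, h1, (tm_sub (h.fam.arc b hb) (h.fam.arc a ha.1)).1 h2⟩, rfl⟩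
    · rintro ⟨b, ⟨hb, h1, h2⟩, rfl⟩
      exact ⟨⟨b, hb, rfl⟩, h1, (tm_sub (h.fam.arc b hb) (h.fam.arc a ha.1)).2 h2⟩
  mem := ⟨ha.1, ha.2.1, le_rfl, le_rfl⟩
  fam := ⟨fun b hb => h.fam.arc b hb.1, fun b hb => h.fam.half b hb.1,
    fun b hb => h.fam.unif b hb.1, fun b hb b' hb' => h.fam.sep b hb.1 b' hb'.1⟩
  sub b hb := hb.2.2
  pin p hp hW := by
    rcases (h.mem_cPin hN ha).1 hp with h1 | h1 | h1
    · exact Or.inl (h.free hN ha.1 ha.2.1 h1 hW)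
    · exact Or.inl h1
    · have hw := hN.w0
      exact Or.inr (near_of_dc_lt (cap := 20 * s.w)
        (h1.trans_lt (by
          show _ < s.w / 4
          linarith [(del'_mem (ρ := ρ) hw).2])) (by
          show s.w / 4 ≤ _
          linarith) hW)

theorem NI.child (hN : NI S s) {i : Option (ℕ × ℕ)} (hi : (sysA S π).ch s ρ θ = some i) :
    NI S ((sysA S π).cSt s ρ i) := by
  obtain ⟨A, h⟩ := hN.good ρ
  obtain ⟨a, ha, rfl, -⟩ := (h.ch_iff hN).1 hi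
  exact ⟨hN.w0, hN.le, hN.len, h.child_arc hN ha, Or.inr ⟨a, _, h.child_kick hN ha⟩⟩

theorem NI.next (hN : NI S s) {v : ℝ} (hv : v ∈ Ico s.lo s.hi) :
    NI S (((sysA S π).mid s ρ).cut (w' s ρ) (off s ρ) v) := by
  have hu := w'_pos ρ hN.w0
  have hc := cell_mem hu (off s ρ) v
  refine ⟨hu, (max_le hv.1 hc.1).trans (le_min hv.2.le hc.2.le), ?_,
    fun a θ t h1 h2 hp hW => hN.arc a θ t h1 h2 hp
      ⟨(le_max_left _ _).trans hW.1, hW.2.trans (min_le_left _ _)⟩, Or.inl ⟨rfl, rfl⟩⟩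
  have h1 := le_max_right s.lo (off s ρ + w' s ρ * ⌊(v - off s ρ) / w' s ρ⌋)
  have h2 := min_le_right s.hi (off s ρ + w' s ρ * (⌊(v - off s ρ) / w' s ρ⌋ + 1))
  show min s.hi _ - max s.lo _ ≤ w' s ρ
  linarith

/-- Points near a pin of a kick node. -/
theorem Kick.near_pin (hN : NI S s) (h : Kick S s a A) (hp : Near S s.D s.W s.Pin (s.w / 100) p) :
    p.1 ∉ tm (iv S a) ∨ Near S s.D s.W (cols S s.W a) (s.w / 2) p := by
  obtain ⟨p0, hp0, c, hc, hr⟩ := hp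
  have hw := hN.w0
  by_cases h1 : p.1 ∈ tm (iv S a)
  · refine Or.inr ?_
    rcases h.pin p0 hp0 hr.mem_left with h2 | h2
    · exact (near_cols (h.fam.arc a h.mem) hr h2 h1).mono_R (by linarith)
    · exact (h2.reach hr).mono_R (by linarith)
  · exact Or.inl h1

theorem NI.quiet (hm : 200 ≤ π.m0) (hN : NI S s) (hp : Near S s.D s.W s.Pin (s.w / 100) p) :
    (sysA S π).psi s ρ p.1 p.2 = 0 ∧ ¬ (sysA S π).deep s ρ p := by
  constructor
  · rw [hN.psi_eq hm]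
    rcases hN.node with ⟨-, h⟩ | ⟨a, A, h⟩
    · exact psi0_none _ h
    · exact h.psi0_zero hm hN (Or.inr (h.near_pin hN hp))
  · rintro ⟨-, i, hi, -⟩
    obtain ⟨A, h⟩ := hN.good ρ
    obtain ⟨a, ha, rfl, h1⟩ := (h.ch_iff hN).1 hi
    obtain ⟨p0, hp0, c, hc, hr⟩ := hp
    have h2 := near_cols (h.fam.arc a ha.1) hr (h.free hN ha.1 ha.2.1 hp0 hr.mem_left) h1
    exact h.far a ha.1 ha.2.1 p0 hp0 ((h2.reach hr.symm).mono_R (by linarith [hN.w0]))

theorem NI.endc (hN : NI S s) {i : Option (ℕ × ℕ)} (ht : t ∈ s.W)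
    (hi : (sysA S π).ch s ρ θ = some i) (hd : (sysA S π).DI s (cI s i) (θ, t) ≤ high s i)
    (ρ' : Rnd S π) (i' : Option (ℕ × ℕ)) : (sysA S π).ch ((sysA S π).cSt s ρ i) ρ' θ ≠ some i' := by
  intro hi'
  have hN' := hN.child hi
  obtain ⟨A, h⟩ := hN.good ρ
  obtain ⟨a, ha, rfl, -⟩ := (h.ch_iff hN).1 hi
  refine (h.child_kick hN ha).far_child (p := (θ, t)) hN' hi' ?_
  change (sysA S π).DI s (iv S a) (θ, t) ≤ s.w / 4 at hd
  rw [DI_iv (h.fam.arc a ha.1)] at hd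
  exact near_of_dc_lt (cap := 20 * s.w) (hd.trans_lt (by
    show _ < 20 * s.w
    linarith [hN.w0])) le_rfl ht

end NA

open NA in
/-- The node contract of system A. -/
def nodeA {S : Sk} {π : Par} (hm : 200 ≤ π.m0) : NodeC (sysA S π) where
  NI := NA.NI S
  pos _ h := ⟨h.w0, h.le, h.len⟩
  ok _ ρ h := ⟨let ⟨_, h'⟩ := h.good ρ; h'.okC h, h.okP hm ρ⟩
  child _ _ _ _ h hi := h.child hi
  next _ _ _ h hv := h.next hv
  quiet _ _ _ h hp := h.quiet hm hp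
  bnd s ρ I h hI := by
    obtain ⟨A, h'⟩ := h.good ρ
    obtain ⟨a, ha, rfl⟩ := h'.pe ▸ hI
    have h1 := h'.fam.arc a ha
    exact ⟨(Nat.sub_le _ _).trans_lt h1, (S.pos a h1).2⟩
  inj s ρ I I' h hI hI' e := by
    obtain ⟨A, h'⟩ := h.good ρ
    obtain ⟨a, ha, rfl⟩ := h'.pe ▸ hI
    obtain ⟨a', ha', rfl⟩ := h'.pe ▸ hI'
    rw [iv_inj (h'.fam.arc a ha) (h'.fam.arc a' ha') e]
  pin_in s ρ I h hI hk := by
    obtain ⟨A, h'⟩ := h.good ρ
    obtain ⟨a, ha, rfl⟩ := h'.pe ▸ hI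
    obtain ⟨b, hb, h1⟩ := exists_Mx ha hk
    exact ⟨_, fun θ hθ => (h'.ch_eq h hb).2
      ((tm_sub (h'.fam.arc a ha) (h'.fam.arc b hb.1)).2 h1 hθ)⟩
  ch_tm s ρ θ I h hi := by
    obtain ⟨A, h'⟩ := h.good ρ
    obtain ⟨a, ha, e, -⟩ := (h'.ch_iff h).1 hi
    obtain rfl := Option.some.inj e
    exact ⟨h'.pe ▸ mem_image_of_mem _ ha.1, ha.2.1, fun θ' => h'.ch_eq h ha⟩
  half s I h hk := by
    rcases h.node with ⟨-, h1⟩ | ⟨a, A, h1⟩
    · rw [h1] at hk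
      cases hk
    · exact h1.fam.half a h1.mem
  start s h hp := by
    rcases h.node with ⟨-, h1⟩ | ⟨a, A, h1⟩
    · exact h1
    · rw [h1.pend] at hp
      cases hp
  mature s ρ I p h hI hp := by
    obtain ⟨A, h'⟩ := h.good ρ
    obtain ⟨a, ha, rfl⟩ : ∃ a ∈ A, iv S a = I := by
      rcases hI with hI | hI
      · rwa [h'.pe] at hI
      · obtain ⟨a, e, h1⟩ := h'.kick I hI
        exact ⟨a, h1.mem, e.symm⟩
    obtain ⟨B, -, hB⟩ := h'.fam.unif a ha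
    refine (hB p ?_).2
    simp only [sysA, iv_fst (h'.fam.arc a ha)] at hp
    exact hp
  bdry s ρ θ θ' t i h hl ht h1 h2 := by
    obtain ⟨A, h'⟩ := h.good ρ
    obtain ⟨a, ha, rfl, h3⟩ := (h'.ch_iff h).1 h1
    have ha' := h'.fam.arc a ha.1
    show (sysA S π).DI s (iv S a) (θ, t) ≤ s.w / 20
    rw [DI_iv ha', dc_self (by linarith [h.w0])
      (exit_cols ha' hl ht h3 fun h4 => h2 ((h'.ch_eq h ha).2 h4)) ht]
    linarith [h.w0]
  endc _ _ _ _ _ h ht hi hd ρ' i' hi' := absurd hi' (h.endc ht hi hd ρ' i')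
  init D0 lo w _ hw := ⟨hw, (le_add_of_nonneg_right hw.le), (add_sub_cancel_left lo w).le,
    fun _ _ _ _ _ h => h.elim, Or.inl ⟨rfl, rfl⟩⟩

end Vale.Agent.P235.Pl
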