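import Vale.Agent.P235P.Contracts

/-! P235 planar case: the data of the non-affine phase of system A. -/

open Set

noncomputable section

namespace Vale.Agent.P235.Pl

variable {S : Sk}

namespace Ctx

/-- The neighbourhood of the core of the columns of the arc `a`, in the initial diagram. -/
def coreA (c : Ctx S) (a : ℕ) (tk : ℝ) : Set (ℕ × ℝ) :=
  {p | Near S c.D0 univ {z | (z.1 = a ∨ z.1 = S.mate a) ∧ |z.2 - tk| ≤ 26 * c.rs} c.rs p}

/-- The data of system A. -/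
def NDA (c : Ctx S) (a : ℕ) (s : St) (V : ℕ → ℝ → ℝ) (A : ℝ) : Prop :=
  ∃ tk b, |tk - c.x.2| ≤ c.rs ∧ |c.vx V - (A * tk + b)| ≤ 17 * A * c.rs ∧
    ∀ p ∈ c.coreA a tk, V p.1 p.2 = A * p.2 + b ∧ (s.lab p.1 (V p.1 p.2)).1 = A ∧
      A * c.rs ≤ (s.lab p.1 (V p.1 p.2)).2

end Ctx

end Vale.Agent.P235.Pl
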