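import Vale.Agent.P235P.NA3
import Vale.Agent.P235P.EServe
import Vale.Agent.P235P.FBall
import Vale.Agent.P235P.PADefs

/-! P235 planar case: system A at a kick node of the non-affine phase and at the final step. -/

open Set Classical

noncomputable section

namespace Vale.Agent.P235.Pl

namespace PA

open NA

variable {S : Sk} {π : Par} {s : St} {c : Ctx S} {V : ℕ → ℝ → ℝ} {A : ℝ}

theorem big_w {y : ℕ} (hA : 0 < A) (hB : c.Big s A π y) : 2 ^ 100 * (A * c.rs) ≤ s.w := by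
  have h1 : (2 : ℝ) ^ 200 ≤ 2 ^ y := pow_le_pow_right₀ one_le_two (hB.m0.trans hB.le_y)
  have h2 : 0 < A * c.rs := mul_pos hA c.rs_pos
  rw [hB.w_eq]
  nlinarith

theorem top (s : St) (ρ : Rnd S π) (V : ℕ → ℝ → ℝ) (A : ℝ) (y : ℕ) (I : ℕ × ℕ) (hN : NI S s)
    (hk : s.kick = some I) (hR : c.Rep s V A 7) (hW : c.Win s V A) (hn : c.NonG s V A)
    (hB : c.Big s A π y) (_ : ∀ p ∈ c.ball 7, (sysA S π).ch s ρ p.1 = none) :
    ∀ p ∈ c.ball 7, ∀ u, |u - V p.1 p.2| ≤ A * c.r →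
      trap s ρ u ≤ ((sysA S π).hl s ρ I).H p.1 u - xi0 s ρ := by
  intro p hp u hu
  obtain ⟨B, hg⟩ := hN.good ρ
  obtain ⟨a, rfl, h⟩ := hg.kick I hk
  have h0 : 0 < A * c.r := mul_pos hR.pos c.r_pos
  have h1 := abs_le.1 (hR.close hp)
  have h2 := abs_le.1 hu
  have huW : u ∈ s.W := hW ⟨by nlinarith, by nlinarith⟩
  have h3 := big_w hR.pos hB
  have h4 : 0 < A * c.rs := mul_pos hR.pos c.rs_pos
  have h5 : A * c.r ≤ 2 ^ 24 * (A * c.rs) := by nlinarith [c.r_le, hR.pos]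
  refine h.trap_le_H (p := (p.1, u)) hB.m0 hN huW fun h6 => ?_
  obtain ⟨A', -, h7⟩ := h.fam.unif a h.mem
  have h8 := (h7 (p.1, V p.1 p.2) ((h6.vert (hR.mem_W hW (by norm_num) hp)).mono_R
    (by linarith))).2
  have h9 := hn.young p hp
  simp only at h8
  linarith

/-- The final step for an eligible arc `a` inside the arc `a'`. -/
theorem serve (hm : 200 ≤ π.m0) (hN : NI S s) (hp : s.pend = none) (hk : s.kick = none) {n : ℕ}
    (hn : 2 * (S.N + 1) ^ 2 + 3 ≤ n) (hfull : s.hi - s.lo = s.w) {θz θo a a' : ℕ} {u v : ℝ}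
    (hu : s.lo + s.w / 4 ≤ u ∧ u ≤ s.hi - s.w / 4) (huv : |u - v| ≤ s.w / 100)
    (he : SA.elig S s a) (ha' : a' < a) (hz : a ≤ θz ∧ θz ≤ S.mate a) (ho : Sep S a' θz θo)
    (hr : ¬ SA.rel S s.D s.W (20 * s.w) a' a)
    (hf : ∀ t, ¬ Near S s.D s.W (cols S s.W a) (5 * s.w) (θz, t)) :
    s.w / 100 ≤ Finset.expect Finset.univ fun ω : Om S π n =>
      |(sysA S π).proc n s ω θz u - (sysA S π).proc n s ω θo v| := by
  have hw := hN.w0
  have h1 : S.mate a < S.mate a' := by have := S.nest ho.1 he.1 ha'; have := ho.2.2.1; omega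
  obtain ⟨b, hb, hb1, hb2, hb3⟩ : ∃ b, SA.F S s b ∧ θz ∈ tm (iv S b) ∧ θo ∉ tm (iv S b) ∧
      ∀ t, ¬ Near S s.D s.W (cols S s.W b) (5 * s.w) (θz, t) := by
    by_cases hF : SA.F S s a
    · refine ⟨a, hF, (mem_iv he.1).2 hz, ?_, hf⟩
      rw [mem_iv he.1]
      have := ho.2.2.2
      omega
    · rw [SA.F, greedy_iff] at hF
      push Not at hF
      obtain ⟨b, hb, hF, h2, p, hp, h3⟩ := hF he
      have hb' : b < S.mate b := ((greedy_iff _ _ _).1 hF).1.1
      have h4 : a' < b := by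
        by_contra h4
        refine hr (rel_of_out he.1 ha' h1 h3 ?_)
        rcases (not_lt.1 h4).eq_or_lt with e | e
        · subst e
          rcases hp.1 with e | e <;> omega
        · have := S.nest hb' ho.1 e
          rcases hp.1 with e | e <;> omega
      have h5 := S.nest ho.1 hb' h4
      refine ⟨b, hF, (mem_iv hb').2 (by omega), ?_, ?_⟩
      · rw [mem_iv hb']
        have := ho.2.2.2
        omega
      · rintro t ⟨p0, hp0, k, hk, h6⟩
        refine hf t ((near_cols he.1 h6 ?_ ((mem_iv he.1).2 hz)).mono_R hk)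
        rw [mem_iv he.1]
        rcases hp0.1 with e | e <;> omega
  have hb' : b < S.mate b := ((greedy_iff _ _ _).1 hb).1.1
  have key := (sysA S π).serve_start (nodeA hm) n s hN hp hk hn hfull θz θo u v hu huv
    (fun _ => some (iv S b)) fun co I e => ?_
  · simpa using key
  obtain rfl := Option.some.inj e
  refine ⟨⟨b, hb, rfl⟩, hb1, hb2, fun s' ρ hN' e1 _ e3 e4 e5 e6 t => ?_⟩
  obtain ⟨B, hg⟩ := NI.good hN' ρ
  obtain ⟨b', e7, h⟩ := hg.kick _ e6
  obtain rfl := iv_inj hb' (h.fam.arc _ h.mem) (by rw [e7])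
  refine h.psi_top hm hN' hb1 fun _ => ?_
  have e8 : s'.W = s.W := by rw [St.W, St.W, e3, e4]
  rw [e1, e8, e5]
  exact hb3 t

/-- Paths near the columns of the core come from the initial diagram. -/
theorem lift_core (hR : c.Rep s V A 7) (hf : c.Fin s V A) {a : ℕ} {tk b : ℝ}
    (hv : |c.vx V - (A * tk + b)| ≤ 17 * A * c.rs) (hc : c.coreA a tk ⊆ c.ball 7)
    (hV : ∀ p ∈ c.coreA a tk, V p.1 p.2 = A * p.2 + b) {q : ℕ × ℝ}
    (hq : Near S s.D s.W (cols S s.W a) (20 * s.w) q) :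
    ∃ θ0 t0 t k, (θ0 = a ∨ θ0 = S.mate a) ∧ |t0 - tk| ≤ 18 * c.rs ∧ q.2 = A * t + b ∧
      k ≤ c.rs / 2 ∧ Reach S c.D0 univ (θ0, t0) (q.1, t) k ∧ (q.1, t) ∈ c.coreA a tk := by
  obtain ⟨⟨θ0, u⟩, ⟨h1, h2⟩, k, hk, hr⟩ := hq
  have hA := hR.pos
  have hs := c.rs_pos
  have hw := hf.w_eq
  have h3 : |(u - b) / A - tk| ≤ 18 * c.rs := by
    have h4 := abs_le.1 hv
    have h5 : |u - c.vx V| ≤ s.w := abs_le.2
      ⟨by nlinarith [h2.1, hf.full, hf.le_hi], by nlinarith [h2.2, hf.full, hf.lo_le]⟩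
    have h6 := abs_le.1 h5
    rw [div_sub' hA.ne', abs_div, abs_of_pos hA, div_le_iff₀ hA, abs_le]
    constructor <;> nlinarith
  have core : ∀ {p : ℕ × ℝ} {k}, Reach S c.D0 univ (θ0, (u - b) / A) p k → k ≤ c.rs →
      p ∈ c.coreA a tk := fun {p k} h hk =>
    ⟨(θ0, (u - b) / A), ⟨h1, h3.trans (by linarith)⟩, k, hk, h⟩
  have hk' : k / A ≤ c.rs / 2 := by
    rw [div_le_iff₀ hA]
    nlinarith
  have key : k / A ≤ c.rs / 2 → Reach S c.D0 univ (θ0, (u - b) / A) (q.1, (q.2 - b) / A) (k / A) := by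
    refine hr.inv (Q := fun q k => k / A ≤ c.rs / 2 →
      Reach S c.D0 univ (θ0, (u - b) / A) (q.1, (q.2 - b) / A) (k / A)) ?_ ?_ ?_
    · exact fun _ => (Reach.refl (mem_univ _)).cast (zero_div _).symm
    · intro θ t t' k _ _ ih h4
      have h5 : k / A ≤ (k + |t - t'|) / A :=
        div_le_div_of_nonneg_right (le_add_of_nonneg_right (abs_nonneg _)) hA.le
      refine ((ih (h5.trans h4)).vert (mem_univ _)).cast ?_
      rw [← sub_div, sub_sub_sub_cancel_right, abs_div, abs_of_pos hA, add_div]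
    · intro θ θ' t k _ hl ih h4
      have h5 := ih h4
      have e : ∀ τ, |(t - b) / A - τ| ≤ c.rs / 2 → V θ τ = A * τ + b := fun τ hτ =>
        hV (θ, τ) (core (h5.vert (mem_univ τ)) (by linarith))
      have e0 := e _ (by rw [sub_self, abs_zero]; linarith)
      have e1 : V θ ((t - b) / A) = t := by rw [e0]; field_simp; ring
      obtain ⟨t', h6, h7⟩ := hR.r2 θ θ' _ (hc (core h5 (by linarith))) (e1.symm ▸ hl)
      have e2 := e ((t - b) / A + c.rs / 2) (by rw [sub_add_cancel_left, abs_neg, abs_of_pos]; linarith)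
      have e3 := e ((t - b) / A - c.rs / 2) (by rw [sub_sub_cancel, abs_of_pos]; linarith)
      have h8 : t' ≤ (t - b) / A + c.rs / 2 := by
        by_contra h8
        have := hR.mono θ (not_le.1 h8).le
        nlinarith
      have h9 : (t - b) / A - c.rs / 2 ≤ t' := by
        by_contra h9
        have := hR.mono θ (not_le.1 h9).le
        nlinarith
      have e4 := e t' (abs_le.2 ⟨by linarith, by linarith⟩)
      have e5 : t' = (t - b) / A := mul_left_cancel₀ hA.ne' (by linarith)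
      exact h5.link (e5 ▸ h6)
  exact ⟨θ0, _, _, _, h1, h3, by field_simp; ring, hk', key hk', core (key hk') (by linarith)⟩

variable {q : Fin 4 → ℕ} {pk : Fin 4 → ℝ} {z o : ℕ × ℝ}

/-- From a column of an arc to its top. -/
theorem to_top (hT : TypeA c q pk z o) (i : Fin 4) {θ : ℕ} (hθ : θ = q i ∨ θ = S.mate (q i))
    (t : ℝ) : Reach S c.D0 univ (q i, pk i) (θ, t) |pk i - t| := by
  rcases hθ with rfl | rfl
  · exact Reach.col S _ _ (mem_univ _) (mem_univ _)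
  · exact ((Reach.of_link (link_arc (hT.sep i).1 (hT.pk_mem i)) (mem_univ _)).vert
      (mem_univ _)).cast (zero_add _)

theorem core_sub (hT : TypeA c q pk z o) (i : Fin 4) {tk : ℝ} (h : |tk - c.x.2| ≤ c.rs) :
    c.coreA (q i) tk ⊆ c.ball 2 := by
  rintro p ⟨⟨θ, t⟩, ⟨h1, h2⟩, k, hk, hr⟩
  refine ((Near.reach (hT.near i) (to_top hT i h1 t)).reach hr).mono_R ?_
  have h3 := abs_le.1 (hT.lev i)
  have h4 := abs_le.1 h
  have h5 := abs_le.1 h2
  have h6 : |pk i - t| ≤ 29 * c.rs := abs_le.2 ⟨by linarith, by linarith⟩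
  linarith [c.le_r, c.rs_pos]

theorem fin_core (hm : 200 ≤ π.m0) (hT : TypeA c q pk z o) {n : ℕ} (hN : NI S s)
    (hR : c.Rep s V A 7) (hD : c.NDA (q 3) s V A) (hf : c.Fin s V A)
    (hn : 2 * (S.N + 1) ^ 2 + 3 ≤ n) :
    s.w / 1600 ≤ Finset.expect Finset.univ fun ω : Om S π n =>
      |(sysA S π).proc n s ω c.x.1 (c.vx V) - (sysA S π).proc n s ω c.y.1 (V c.y.1 c.y.2)| := by
  obtain ⟨tk, b, h1, h2, h3⟩ := hD
  have hc : c.coreA (q 3) tk ⊆ c.ball 7 := (core_sub hT 3 h1).trans (c.ball_mono (by norm_num))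
  have hl := fun {p} => lift_core (q := p) hR hf h2 hc fun p hp => (h3 p hp).1
  have hw := hN.w0
  have hs := c.rs_pos
  have h4 := abs_le.1 h1
  have top : ∀ {θ t}, Near S s.D s.W (cols S s.W (q 3)) (20 * s.w) (θ, t) →
      ∀ τ, |τ - c.x.2| ≤ c.rs → ∃ k < 5000 * c.rs, Reach S c.D0 univ (q 3, pk 3) (θ, τ) k := by
    intro θ t h τ hτ
    obtain ⟨θ0, t0, t', k, h5, h6, -, h7, h8, -⟩ := hl h
    refine ⟨_, ?_, ((to_top hT 3 h5 t0).trans h8).vert (mem_univ τ)⟩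
    have a1 := abs_le.1 (hT.lev 3)
    have a2 := abs_le.1 h6
    have a3 := abs_le.1 (h8.abs_le.trans h7)
    have a4 := abs_le.1 hτ
    have a5 : |pk 3 - t0| ≤ 20 * c.rs := abs_le.2 ⟨by linarith, by linarith⟩
    simp only at a3
    have a6 : |t' - τ| ≤ 30 * c.rs := abs_le.2 ⟨by linarith, by linarith⟩
    linarith
  have he : SA.elig S s (q 3) := by
    refine ⟨(hT.sep 3).1, by linarith [hf.full], ⟨A, hR.pos, fun p hp => ?_⟩,
      disjoint_left.2 fun p hp hP => ?_⟩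
    · obtain ⟨-, -, t, -, -, -, h5, -, -, h6⟩ := hl (Near.mono_R hp (by linarith))
      obtain ⟨e1, e2, e3⟩ := h3 _ h6
      simp only at e1 e2 e3
      rw [e1, ← h5] at e2 e3
      refine ⟨e2, le_trans ?_ e3⟩
      nlinarith [hf.w_eq, mul_pos hR.pos hs]
    · obtain ⟨-, -, t, -, -, -, h5, -, -, h6⟩ := hl hp
      refine hR.pf _ (hc h6) ?_
      simp only
      rw [(h3 _ h6).1, ← h5]
      exact Near.self hP (Near.mem hp) (by have := hR.pos; have := c.r_pos; positivity)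
  have hr : ¬ SA.rel S s.D s.W (20 * s.w) (q 2) (q 3) := by
    rintro ⟨-, ⟨θ, t⟩, h5, h6⟩
    obtain ⟨k, hk, h7⟩ := top h6 (pk 2) (hT.lev 2)
    have h8 := hT.far 3 2 _ (by decide) (h7.trans (to_top hT 2 h5.1 (pk 2)).symm)
    rw [sub_self, abs_zero] at h8
    linarith
  have hz : |z.2 - c.x.2| ≤ c.rs := by
    rcases hT.zo with ⟨rfl, -⟩ | ⟨rfl, -⟩
    · rw [sub_self, abs_zero]
      exact hs.le
    · rw [abs_sub_comm]
      exact c.lev
  have hfar : ∀ t, ¬ Near S s.D s.W (cols S s.W (q 3)) (5 * s.w) (z.1, t) := fun t h => by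
    obtain ⟨k, hk, h7⟩ := top (h.mono_R (by linarith)) z.2 hz
    linarith [hT.farz 3 k h7.symm]
  have hs := fun u v hu huv => serve (π := π) (u := u) (v := v) hm hN hf.pend hf.kick hn hf.full hu
    huv he (hT.nest (by decide : (2 : Fin 4) < 3)) ⟨(hT.sep 3).2.1, (hT.sep 3).2.2.1⟩ (hT.sep 2)
    hr hfar
  have h5 := abs_le.1 hf.close
  rcases hT.zo with ⟨rfl, rfl⟩ | ⟨rfl, rfl⟩
  · exact le_trans (by linarith) (hs _ _ ⟨by linarith [hf.lo_le], by linarith [hf.le_hi]⟩ hf.close)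
  · have h6 := hs (V c.y.1 c.y.2) (c.vx V) ⟨by linarith [hf.lo_le], by linarith [hf.le_hi]⟩
      (by rw [abs_sub_comm]; exact hf.close)
    simp only [abs_sub_comm ((sysA S π).proc n s _ c.y.1 _)] at h6
    exact le_trans (by linarith) h6

theorem finN (hm : 200 ≤ π.m0) (hT : TypeA c q pk z o) (s : St) (V : ℕ → ℝ → ℝ) (A : ℝ) (n : ℕ)
    (hN : NI S s) (hR : c.Rep s V A 7) (_ : c.NonG s V A) (hD : c.NDA (q 3) s V A)
    (hf : c.Fin s V A) (hn : 2 * (S.N + 1) ^ 2 + 3 ≤ n) :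
    s.w / 1600 ≤ Finset.expect Finset.univ fun ω : Om S π n =>
      |(sysA S π).proc n s ω c.x.1 (c.vx V) - (sysA S π).proc n s ω c.y.1 (V c.y.1 c.y.2)| :=
  fin_core hm hT hN hR hD hf hn

theorem finA (hm : 200 ≤ π.m0) (hT : TypeA c q pk z o) (s : St) (V : ℕ → ℝ → ℝ) (A : ℝ) (n : ℕ)
    (hN : NI S s) (hR : c.Rep s V A 8) (hD : c.AffD s V A)
    (hf : c.Fin s V A) (hn : 2 * (S.N + 1) ^ 2 + 3 ≤ n) :
    s.w / 1600 ≤ Finset.expect Finset.univ fun ω : Om S π n =>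
      |(sysA S π).proc n s ω c.x.1 (c.vx V) - (sysA S π).proc n s ω c.y.1 (V c.y.1 c.y.2)| := by
  obtain ⟨b, hb⟩ := hD
  have h0 : |c.x.2 - c.x.2| ≤ c.rs := by
    rw [sub_self, abs_zero]
    exact c.rs_pos.le
  refine fin_core hm hT hN (hR.anti (by norm_num)) ⟨c.x.2, b, h0, ?_, fun p hp =>
    hb p (c.ball_mono (by norm_num) (core_sub hT 3 h0 hp))⟩ hf hn
  rw [Ctx.vx, (hb _ (c.x_mem (by norm_num))).1, sub_self, abs_zero]
  have := hR.pos
  have := c.rs_pos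
  positivity

end PA

end Vale.Agent.P235.Pl
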