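import Vale.Agent.P235P.HNode
import Vale.Agent.P235P.FBall

/-! P235 planar case: the direct payment at birth in system A. -/

open Set Classical

noncomputable section

namespace Vale.Agent.P235.Pl

namespace PA

variable {S : Sk} {π : Par} {Y : Sys S π} {N : NodeC Y} {c : Ctx S} {s : St} {V : ℕ → ℝ → ℝ}
  {A : ℝ} {y : ℕ} {I : ℕ × ℕ} {co : Coins S} {dd : Qn π × Qn π} {eo : Fin (2 * π.m0 + 2) × Qn π}
  {P : HP} {q : Fin 4 → ℕ} {pk : Fin 4 → ℝ} {z o : ℕ × ℝ}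

/-- The healed function is not flat on the tracked points. -/
def DirA (c : Ctx S) (V : ℕ → ℝ → ℝ) (A : ℝ) (q : Fin 4 → ℕ) (pk : Fin 4 → ℝ) (z : ℕ × ℝ)
    (H : ℕ → ℝ → ℝ) : Prop :=
  (∃ i, H (q i) (V (q i) (pk i)) ≤ H z.1 (V z.1 z.2) - 3 * (A * c.rs)) ∨
    2 * (A * c.rs) ≤ |H c.x.1 (c.vx V) - H c.y.1 (V c.y.1 c.y.2)|

theorem dir (h : At Y c s N V A y I co dd eo) (hP : HealAt Y c s V A I co dd eo P)
    (hT : TypeA c q pk z o) {zx : Bool} (hz : z = if zx then c.x else c.y) (n : Fin π.nS)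
    (hn : (n : ℕ) = nIdx π y) (u : Qn π × Qn π × HS π) {X : Cone → Finset ℝ}
    (hm : P.Mid u.2.2 (c.hb V A I (nIdx π y)) X (xi0 s (co, dd, u, true, eo))
      (trap s (co, dd, u, true, eo) (c.vx V)) (nIdx π y))
    (hd : DirA c V A q pk z (P.Hs u.2.2 n)) (hr : P.NoR u.2.2 (c.hb V A I (nIdx π y)) n) :
    ∃ σ, A * c.rs / 64 ≤ payA zx fun i =>
      Y.Vn s (co, dd, u, σ, eo) V (ptA c q pk i).1 (ptA c q pk i).2 := by
  obtain ⟨hb, hs⟩ := h.ball hP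
  obtain ⟨b, hb'⟩ := h.aff
  obtain rfl : n = ⟨nIdx π y, hb.nlt⟩ := Fin.ext hn
  have hA := h.rep.pos
  have h0 : 0 < A * c.rs := mul_pos hA c.rs_pos
  have hx := (hb' _ (c.x_mem (by norm_num))).1
  have key : ∀ p ∈ c.ball 8, |p.2 - c.x.2| ≤ c.rs → ∃ e, 0 ≤ e ∧ e ≤ A * c.rs / 1024 ∧
      |V p.1 p.2 - c.vx V| ≤ A * c.rs ∧ Y.Vn s (co, dd, u, true, eo) V p.1 p.2 = V p.1 p.2 +
        P.Hs u.2.2 (nIdx π y) p.1 (V p.1 p.2) + e - xi0 s (co, dd, u, true, eo) := by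
    intro p hp hl
    have h1 : |V p.1 p.2 - c.vx V| ≤ A * c.rs := by
      rw [(hb' p hp).1, Ctx.vx, hx, add_sub_add_right_eq_sub, ← mul_sub, abs_mul, abs_of_pos hA]
      exact mul_le_mul_of_nonneg_left hl hA.le
    have h2 := hb.nor_le hr p.1 (t := V p.1 p.2) (h1.trans (by
      simp only [Ctx.hb, hs]
      linarith))
    have h3 := (h.mid_psi hP u true hm (h.mem_thick hp)).2.2.2.2
    simp only [Ctx.hb, hs] at h2 h3
    refine ⟨_, sub_nonneg.2 h2.1, by linarith [h2.2], h1, ?_⟩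
    simp only [Sys.Vn, Sys.Psi, h3, sg, if_true]
    ring
  obtain ⟨ex, x1, x2, x3, x4⟩ := key c.x (c.x_mem (by norm_num))
    (by rw [sub_self, abs_zero]; exact c.rs_pos.le)
  obtain ⟨ey, y1, y2, y3, y4⟩ := key c.y (c.y_mem (by norm_num)) (by rw [abs_sub_comm]; exact c.lev)
  have y5 := abs_le.1 y3
  refine ⟨true, ?_⟩
  rcases hd with ⟨i, hd⟩ | hd
  · refine le_max_of_le_right (le_ciSup_of_le (Set.finite_range _).bddAbove i ?_)
    obtain ⟨e, e1, e2, e3, e4⟩ := key (q i, pk i) (c.ball_mono (by norm_num) (hT.near i)) (hT.lev i)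
    have e5 := abs_le.1 e3
    subst hz
    cases zx <;> simp only [ptA, Sum.elim_inl, Sum.elim_inr, if_true, Bool.false_eq_true, if_false,
      Ctx.vx] at hd e4 e5 x4 y4 y5 ⊢ <;> linarith [e5.2, y5.1]
  · refine le_max_of_le_left ?_
    simp only [ptA, Sum.elim_inl, if_true, Bool.false_eq_true, if_false, Ctx.vx] at hd x4 y4 y5 ⊢
    rw [x4, y4]
    rcases le_abs.1 hd with hd | hd
    · exact le_abs.2 (Or.inl (by linarith [y5.2]))
    · exact le_abs.2 (Or.inr (by linarith [y5.1]))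

end PA

end Vale.Agent.P235.Pl
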