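import Vale.Agent.P235P.Contracts

/-! P235 planar case: the node invariant of system A. -/

open Set Classical

noncomputable section

namespace Vale.Agent.P235.Pl

variable (S : Sk)

namespace NA

/-- The interval of times of the arc `a`. -/
def iv (a : ℕ) : ℕ × ℕ := (a - 1, S.mate a)

/-- A pin between the ends of an arc gives a pin on one of its columns. -/
def PinArc (s : St) : Prop :=
  ∀ a θ t, a ≤ θ → θ ≤ S.mate a → (θ, t) ∈ s.Pin → t ∈ s.W →
    (a, t) ∈ s.Pin ∨ (S.mate a, t) ∈ s.Pin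

/-- A family of arcs with mature surroundings whose nested members are far apart. -/
structure Fam (s : St) (A : Set ℕ) : Prop where
  arc : ∀ a ∈ A, a < S.mate a
  half : ∀ a ∈ A, s.w / 2 ≤ s.hi - s.lo
  unif : ∀ a ∈ A, s.Unif (s.nb S (cols S s.W a) (12 * s.w))
  sep : ∀ a ∈ A, ∀ a' ∈ A, a' < a → ¬ SA.rel S s.D s.W (20 * s.w) a' a

/-- A kick node of the arc `a` with the pending family `A`. -/
structure Kick (s : St) (a : ℕ) (A : Set ℕ) : Prop where
  kick : s.kick = some (iv S a)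
  pend : s.pend = some (iv S '' A)
  mem : a ∈ A
  fam : Fam S s A
  sub : ∀ a' ∈ A, a ≤ a' ∧ S.mate a' ≤ S.mate a
  pin : ∀ p ∈ s.Pin, p.2 ∈ s.W → p.1 ∉ tm (iv S a) ∨ Near S s.D s.W (cols S s.W a) (s.w / 4) p

/-- The node invariant. -/
structure NI (s : St) : Prop where
  w0 : 0 < s.w
  le : s.lo ≤ s.hi
  len : s.hi - s.lo ≤ s.w
  arc : PinArc S s
  node : (s.pend = none ∧ s.kick = none) ∨ ∃ a A, Kick S s a A

end NA

end Vale.Agent.P235.Pl
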