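import Vale.Agent.P235P.NA4
import Vale.Agent.P235P.HNode

/-! P235 planar case: the healing problem of system A near the ball. -/

open Set Classical

noncomputable section

namespace Vale.Agent.P235.Pl

namespace PA

open NA

variable {S : Sk} {π : Par}

/-- An envelope from the columns of an arc is nearly minimal at the top of an inner arc. -/
theorem env_top {D : Lk} {W : Set ℝ} {a q θ : ℕ} {f : ℕ × ℝ → ℝ} {k cap m v t : ℝ} (hk : 0 ≤ k)
    (hf : ∀ p ∈ cols S W a, p.2 ∈ W → m ≤ f p) (h1 : a ≤ q) (h2 : S.mate q ≤ S.mate a)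
    (hl : Link S D q (S.mate q) v) (hv : v ∈ W) (ht : t ∈ W) (h3 : q ≤ θ) (h4 : θ ≤ S.mate q) :
    envT S D W (cols S W a) f k (fun θ => {θ}) cap q v ≤
      envT S D W (cols S W a) f k (fun θ => {θ}) cap θ t + k * |t - v| := by
  rw [← sub_le_iff_le_add]
  refine le_env1 (q := (θ, t)) ?_ ht fun p hp c hc => ?_
  · linarith [envT_le_cap (S := S) (D := D) (T := fun θ => {θ}) (cap := cap) (θ := q) (t := v)
      hk hf, mul_nonneg hk (abs_nonneg (t - v))]
  obtain ⟨⟨θz, u⟩, hz, c1, c2, h5, h6, h7⟩ : ∃ z ∈ cols S W q, Via S D W (θ, t) z p c := by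
    by_cases e : θ = q ∨ θ = S.mate q
    · exact ⟨(θ, t), ⟨e, ht⟩, 0, c, Reach.refl ht, hc.symm, zero_add c⟩
    · exact cross' hc.symm (by simp only; omega) (by simp only; omega)
        (by rcases hp.1 with e | e <;> omega)
  have h8 : Reach S D W p (q, v) (c2 + |u - v|) := by
    rcases hz.1 with e | e <;> simp only at e <;> subst e
    · exact h6.symm.vert hv
    · exact (h6.symm.vert hv).link hl.symm
  have h9 := env1_le (cap := cap) hk hf hp h8
  have h10 : |t - u| ≤ c1 := h5.abs_le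
  have h11 := abs_sub_le u t v
  rw [abs_sub_comm u t] at h11
  simp only at h9
  nlinarith

variable {hm : 200 ≤ π.m0} {c : Ctx S} {s : St} {V : ℕ → ℝ → ℝ} {A : ℝ} {y : ℕ} {I : ℕ × ℕ}
  {co : Coins S} {dd : Qn π × Qn π} {eo : Fin (2 * π.m0 + 2) × Qn π}

/-- The healing problem at the node. -/
abbrev hpA (s : St) (I : ℕ × ℕ) (co : Coins S) (dd : Qn π × Qn π)
    (eo : Fin (2 * π.m0 + 2) × Qn π) : HP :=
  SA.hp S π s ((sysA S π).Dp s (co, dd, (0, 0, fun _ => 0), true, eo)) I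

theorem kick_of (h : At (sysA S π) c s (nodeA hm) V A y I co dd eo) :
    ∃ a B, I = iv S a ∧ Kick S s a B := by
  obtain ⟨B, hg⟩ := NI.good h.ni ((co, dd, (0, 0, fun _ => 0), true, eo) : Rnd S π)
  obtain ⟨a, e, h1⟩ := hg.kick I h.kick
  exact ⟨a, B, e, h1⟩

theorem healAt (h : At (sysA S π) c s (nodeA hm) V A y I co dd eo)
    (hn : Near S s.D s.W (cols S s.W (I.1 + 1)) (10 * s.w) (c.x.1, c.vx V)) :
    HealAt (sysA S π) c s V A I co dd eo (hpA s I co dd eo) := by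
  obtain ⟨a, B, rfl, hk⟩ := kick_of h
  have hN : NI S s := h.ni
  have ha := hk.fam.arc a hk.mem
  have hw := hN.w0
  refine ⟨rfl, fun _ _ => rfl, rfl, ?_, ⟨(hk.s1_mem hm hN).1, fun θ t => ?_, fun θ t t' => ?_,
    fun θ θ' t hl ht _ _ => ?_⟩, fun u σ p _ => Or.inl ⟨rfl, rfl⟩⟩
  · obtain ⟨A', -, h1⟩ := hk.fam.unif a hk.mem
    obtain ⟨b, hb⟩ := h.aff
    rw [iv_fst ha] at hn
    have h2 := (h1 _ (hn.mono_R (by linarith))).1
    have h3 := (hb _ (c.x_mem (by norm_num))).2.1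
    simp only [SA.hp, iv_fst ha, labA_eq hN h1]
    rw [← h2, ← h3]
    rfl
  · exact div_nonneg (dc_nonneg (by linarith)) (by norm_num)
  · rw [H0_eq ha, H0_eq ha, ← sub_div, abs_div, abs_of_pos (by norm_num : (0 : ℝ) < 16)]
    exact div_le_div_of_nonneg_right (dc_lip t t') (by norm_num)
  · rw [H0_eq ha, H0_eq ha]
    exact congrArg (· / 16) (dc_link hl ht)

theorem far (h : At (sysA S π) c s (nodeA hm) V A y I co dd eo)
    (hn : ¬ Near S s.D s.W (cols S s.W (I.1 + 1)) (10 * s.w) (c.x.1, c.vx V)) (ρ : Rnd S π)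
    {p : ℕ × ℝ} (hp : p ∈ c.thick V A) : 3 * s.w / 20 ≤ ((sysA S π).hl s ρ I).H p.1 p.2 := by
  have hW := (h.thick_abs hp).2.1
  obtain ⟨a, B, rfl, hk⟩ := kick_of h
  have hN : NI S s := h.ni
  rw [iv_fst (hk.fam.arc a hk.mem)] at hn
  refine le_trans (by linarith [hN.w0]) (hk.H_top hm hN hW fun h1 => hn ?_)
  obtain ⟨t, h2, h3⟩ := hp
  obtain ⟨k, h4, h5⟩ := h.rep.reach h.win le_rfl h2
  have h6 := h.big.small h.rep.pos
  have h7 : 0 < A * c.r := mul_pos h.rep.pos c.r_pos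
  refine ((Near.vert (θ := p.1) (t := p.2) h1 h5.mem_right).reach h5.symm).mono_R ?_
  simp only at h3 ⊢
  nlinarith

variable {hs : HS π} {X : Cone → Finset ℝ} {n j : ℕ}

/-- LB: on the interval of an arc whose top lies in the ball the healed function is nearly
bounded below by its value at the top. -/
theorem lower (h : At (sysA S π) c s (nodeA hm) V A y I co dd eo)
    (hP : HealAt (sysA S π) c s V A I co dd eo (hpA s I co dd eo))
    (hp : (hpA s I co dd eo).Piece hs (c.hb V A I n) X j) {q θ : ℕ} {pk t : ℝ}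
    (hq : q < S.mate q) (hpk : pk ∈ c.D0.P q) (hb : (q, pk) ∈ c.ball 1) (h1 : q ≤ θ) (h2 : θ ≤ S.mate q)
    (ht : |t - c.vx V| ≤ 50 * (A * c.r)) :
    min ((hpA s I co dd eo).vc hs (c.hb V A I n) j + 50 * (A * c.r))
      ((hpA s I co dd eo).Hs hs j q (V q pk) - |t - V q pk| / 16) ≤
      (hpA s I co dd eo).Hs hs j θ t := by
  have hb8 : (q, pk) ∈ c.ball 8 := c.ball_mono (by norm_num) hb
  have hb8' : (S.mate q, pk) ∈ c.ball 8 := Near.link hb8 (link_arc hq hpk)
  have hT := h.mem_thick hb8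
  have hB := h.thick_sub hP n hT
  have hu : 0 < A * c.r := mul_pos h.rep.pos c.r_pos
  have hlk : Link S (hpA s I co dd eo).D q (S.mate q) (V q pk) :=
    (sysA S π).link_Dp _ (h.rep.r1 _ _ _ (link_arc hq hpk)).1
  have hv := (h.thick_abs hT).1
  have s1 := hP.good.s1
  have ht' := abs_le.1 ht
  have hv' := abs_le.1 hv
  rcases hp.org with ho | ⟨m, i, k, ho⟩
  · refine (min_le_right _ _).trans (le_trans ?_ (HP.Hs_mono s1 (Nat.zero_le j) θ t))
    rw [ho _ hB]
    obtain ⟨a, B, rfl, hk⟩ := kick_of h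
    have ha := hk.fam.arc a hk.mem
    have h3 := (mem_iv ha).1 (h.rep.ink _ h.kick _ hb8)
    have h4 := (mem_iv ha).1 (h.rep.ink _ h.kick _ hb8')
    have h5 := env_top (f := fun _ => 0) (cap := 5 * s.w) zero_le_one (fun _ _ _ => le_rfl) h3.1 h4.2
      hlk (h.thick_abs hT).2.1 (h.win ⟨by nlinarith, by nlinarith⟩ : t ∈ s.W) h1 h2
    have e1 : ∀ θ t, (hpA s (iv S a) co dd eo).H0 θ t = envT S (hpA s (iv S a) co dd eo).D s.W
      (cols S s.W a) (fun _ => 0) 1 (fun θ => {θ}) (5 * s.w) θ t / 16 := fun θ t => H0_eq ha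
    rw [HP.Hs, e1, e1]
    simp only at h5 ⊢
    linarith
  · set κ := cone (hpA s I co dd eo).s1 hs m i k
    have i1 : t ∈ κ.I0 := ho.ins ⟨by simp only [Ctx.hb]; linarith, by simp only [Ctx.hb]; linarith⟩
    have i2 : V q pk ∈ κ.I0 :=
      ho.ins ⟨by simp only [Ctx.hb]; linarith, by simp only [Ctx.hb]; linarith⟩
    have i3 := κ.I0_sub (scl_pos s1 m).le
    have g1 := ho.below
    have g2 := abs_le.1 ((κ.G_lip t (c.vx V)).trans ht)
    refine le_of_forall_lt_imp_le_of_dense fun v hv0 => ?_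
    obtain ⟨hv1, hv2⟩ := lt_min_iff.1 hv0
    rw [ho.eq _ hB] at hv2
    obtain ⟨cl, hc, hT1, h3⟩ := HP.exists_lt_Emax ho.cell
      (v := v + |t - V q pk| / 16 + xim (hpA s I co dd eo).s1 hs m) (θ := q) (t := V q pk)
      (by simp only at hv2; linarith)
    obtain ⟨a, ha, rfl⟩ := hc.1
    have ha' := ((greedy_iff _ _ _).1 ha).1.1
    have h4 := (mem_iv ha').1 (hT1 (mem_image_of_mem Prod.fst hb8))
    have h5 := (mem_iv ha').1 (hT1 (mem_image_of_mem Prod.fst hb8'))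
    have h6 := env_top (f := fun p => (hpA s I co dd eo).Hs hs m p.1 p.2) (k := 1 / 16)
      (cap := κ.a + 2 * κ.s) (m := 0) (by norm_num)
      (fun p _ _ => (hP.good.nonneg p.1 p.2).trans (HP.Hs_mono s1 (Nat.zero_le m) _ _)) h4.1 h5.2
      hlk (i3 i2) (i3 i1) h1 h2
    have h7 := HP.term_le_raise s1 ho.adm hc
      ((mem_iv ha').2 ⟨h4.1.trans h1, h2.trans h5.2⟩) i1
    rw [← HP.Hs_succ] at h7
    refine le_trans (le_min ?_ ?_) (h7.trans (HP.Hs_mono s1 ho.lt θ t))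
    · simp only [Ctx.hb] at g1 hv1
      linarith [g2.1]
    · exact le_sub_iff_add_le.2 (le_trans (by linarith) (sub_le_iff_le_add.2 h6 |>.trans'
        (sub_le_sub_right h3.le _)))

end PA

end Vale.Agent.P235.Pl
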