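import Vale.Agent.P235P.NB5

/-! P235 planar case: the node contract of system B. -/

open Set Classical

noncomputable section

namespace Vale.Agent.P235.Pl

variable {S : Sk} {π : Par}

/-- The node contract of system B. -/
def nodeB (hm : 200 ≤ π.m0) : NodeC (sysB S π) where
  NI := NB.NI S
  pos _ h := ⟨h.w0, h.le, h.len⟩
  ok _ ρ h := ⟨h.okC ρ, h.okP (by omega) ρ⟩
  child _ _ _ _ h h1 := h.child h1
  next _ _ _ h hv := h.next (by omega) hv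
  quiet _ ρ _ h h1 := ⟨h.psi_near (by omega) h1, h.not_deep ρ h1⟩
  bnd _ ρ _ h h1 :=
    let ⟨_, _, hA⟩ := h.act ρ
    ⟨(hA.cand h1).1, (hA.cand h1).2.1⟩
  inj _ ρ _ _ h h1 h2 e :=
    let ⟨_, _, hA⟩ := h.act ρ
    NB.cand_inj (hA.cand h1) (hA.cand h2) e
  pin_in _ _ _ h h1 h2 := h.pin_in h1 h2
  ch_tm _ _ _ _ h h1 :=
    have k := (h.ch_kick.1 h1).1
    ⟨k.1, k.2.1, fun _ => h.ch_kick.trans (and_iff_right k)⟩
  half _ _ h hK :=
    let ⟨_, _, hc⟩ := h.kcand hK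
    hc.2.2.2.2.2.2.2
  start s h h0 := by
    rcases h.node with ⟨-, k, -⟩ | ⟨A, P, co, k⟩
    · exact k
    · rw [k.pend] at h0
      exact absurd h0 (by simp)
  mature s ρ I p h h1 h2 := by
    obtain ⟨P, co, hA⟩ := h.act ρ
    obtain ⟨g, k1, A, -, k2⟩ := NB.cand_unif (b := NB.base s P)
      (hA.cand (h1.elim id (hA.kmem I))) h2
    exact (k2 p k1).2
  bdry _ _ _ _ _ _ h hl ht h1 h2 := h.bdry hl ht h1 h2
  endc _ _ _ _ _ h ht h1 h2 ρ' i' h3 := h.endc ht h1 h2 ρ' i' h3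
  init _ _ _ h hw := NB.NI.init h hw

theorem nodeB_NI (hm : 200 ≤ π.m0) (s : St) : (nodeB (S := S) hm).NI s ↔ NB.NI S s := Iff.rfl

end Vale.Agent.P235.Pl
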