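import Vale.Agent.P235P.NBDefs

/-! P235 planar case: the candidate intervals of system B form a laminar family. -/

open Set Classical

noncomputable section

namespace Vale.Agent.P235.Pl

namespace NB

variable {S : Sk} {b : St} {co : Coins S} {I I' K : ℕ × ℕ} {p q : ℕ × ℝ} {a g θ : ℕ} {c : ℝ}

theorem mem_tm : θ ∈ tm I ↔ I.1 < θ ∧ θ ≤ I.2 := Iff.rfl

/-- An arc in the band separates the walls of `I` from the walls of `K`. -/
def Seam (S : Sk) (b : St) (K I : ℕ × ℕ) : Prop :=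
  ∃ a, WArc S b.D b.W a ∧ K.1 < a ∧ a ≤ I.1 ∧ I.2 < S.mate a ∧ S.mate a ≤ K.2

theorem Seam.lt (h : Seam S b K I) : K.1 < I.1 ∧ I.2 < K.2 := by
  obtain ⟨a, -, h1, h2, h3, h4⟩ := h
  omega

theorem Seam.sub (h : Seam S b K I) : tm I ⊆ tm K := fun θ hθ => by
  have := h.lt
  rw [mem_tm] at hθ ⊢
  omega

theorem cand_inj (h : I ∈ SB.cand S b co) (h' : I' ∈ SB.cand S b co) (e : I.1 = I'.1) : I = I' := by
  obtain ⟨h1, -, -, h4, h5, h6, -⟩ := h
  obtain ⟨k1, -, -, k4, k5, k6, -⟩ := h'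
  refine Prod.ext e ?_
  rcases lt_trichotomy I.2 I'.2 with hl | hl | hl
  · exact absurd h4 (k6 _ (by omega) hl (e ▸ h5))
  · exact hl
  · exact absurd k4 (h6 _ (by omega) hl (e ▸ k5))

theorem cand_seam (h : I ∈ SB.cand S b co) (h' : I' ∈ SB.cand S b co) (h1 : I.1 < I'.1)
    (h2 : I'.1 < I.2) : Seam S b I I' := by
  have hn : ¬Mates S b.D b.W I.1 I'.1 := fun hm => h.2.2.2.2.2.1 _ h1 h2 hm h'.2.2.1
  unfold Mates at hn
  push Not at hn
  obtain ⟨a, ha, hn⟩ := hn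
  have k1 := h.2.2.2.2.1 a ha
  have k2 := h'.2.2.2.2.1 a ha
  unfold Enc at hn k1 k2
  exact ⟨a, ha, by omega, by omega, by omega, by omega⟩

theorem cand_lam (h : I ∈ SB.cand S b co) (h' : I' ∈ SB.cand S b co) (h1 : θ ∈ tm I)
    (h2 : θ ∈ tm I') : I = I' ∨ Seam S b I I' ∨ Seam S b I' I := by
  rw [mem_tm] at h1 h2
  rcases lt_trichotomy I.1 I'.1 with hl | hl | hl
  · exact Or.inr (Or.inl (cand_seam h h' hl (by omega)))
  · exact Or.inl (cand_inj h h' hl)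
  · exact Or.inr (Or.inr (cand_seam h' h hl (by omega)))

theorem seam_of_sub (h : I ∈ SB.cand S b co) (hK : K ∈ SB.cand S b co) (hs : tm I ⊆ tm K)
    (hn : I ≠ K) : Seam S b K I := by
  have h1 : I.1 + 1 ∈ tm I := ⟨by omega, h.1⟩
  rcases cand_lam h hK h1 (hs h1) with e | e | e
  · exact absurd e hn
  · have := e.lt
    have h2 := mem_tm.1 (hs h1)
    omega
  · exact e

theorem cand_elig (h : I ∈ SB.cand S b co) (hg : g = I.1 ∨ g = I.2) (hp : p ∈ chain b.D b.W g) :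
    SB.F S b g ∧ SB.elig S b g := by
  have hc : SB.Cut S b co g := by
    rcases hg with rfl | rfl
    exacts [h.2.2.1, h.2.2.2.1]
  rcases hc with hc | hc
  · rw [hc] at hp
    exact absurd hp (notMem_empty _)
  · exact ⟨hc.1, ((greedy_iff _ _ _).1 hc.1).1⟩

/-- A path that enters the interval passes one of the two chains. -/
theorem cand_bar (h : I ∈ SB.cand S b co) (hp : p.1 ∈ tm I) (hq : q.1 ∉ tm I)
    (hr : Reach S b.D b.W p q c) :
    ∃ g z, (g = I.1 ∨ g = I.2) ∧ z ∈ chain b.D b.W g ∧ Via S b.D b.W p z q c := by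
  rw [mem_tm] at hp hq
  rcases hr.bar_mates h.2.2.2.2.1 hp.1 hp.2 (by omega) with ⟨t, h1, h2⟩ | ⟨t, h1, h2⟩
  · exact ⟨_, _, Or.inl rfl, ⟨rfl, h1, h2.mem⟩, h2⟩
  · exact ⟨_, _, Or.inr rfl, ⟨rfl, h1, h2.mem⟩, h2⟩

theorem chain_sub_src (hg : g = I.1 ∨ g = I.2) : chain b.D b.W g ⊆ SB.src b I := by
  rcases hg with rfl | rfl
  exacts [subset_union_left, subset_union_right]

theorem cand_near (h : I ∈ SB.cand S b co) (hp : p.1 ∈ tm I) (hq : q.1 ∉ tm I)
    (hr : Reach S b.D b.W q p c) : Near S b.D b.W (SB.src b I) c p := by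
  obtain ⟨g, z, h1, h2, h3⟩ := cand_bar h hp hq hr.symm
  obtain ⟨c₁, h4, h5⟩ := h3.left
  exact ⟨z, chain_sub_src h1 h2, c₁, h4, h5.symm⟩

/-- Points of an interval are far from the outside of an enclosing arc. -/
theorem cand_deep (h : I ∈ SB.cand S b co) (ha : WArc S b.D b.W a) (h1 : a ≤ I.1)
    (h2 : I.2 < S.mate a) (hp : p.1 ∈ tm I) (hq : q.1 ≤ a ∨ S.mate a ≤ q.1)
    (hr : Reach S b.D b.W q p c) : 20 * b.w < c := by
  by_contra hc
  rw [not_lt] at hc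
  have hI := h.1
  obtain ⟨g, z, k1, k2, k3⟩ := cand_bar h hp (by rw [mem_tm]; omega) hr.symm
  obtain ⟨c₂, k4, k5⟩ := k3.right
  have hF := (cand_elig h k1 k2).2.2.2.2
  have he : Enc S a g := by unfold Enc; omega
  have hz := k2.1
  by_cases hga : g = a
  · exact (hF z (Near.self k2 k2.2.2 (hr.nonneg.trans hc)) a ha he).1 (hz.trans hga)
  · obtain ⟨u, k6 | k6⟩ := k5.bar_open (a := a) (by unfold Enc at he; omega)
      (by unfold Enc at he; omega) hq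
    · obtain ⟨c₃, k7, k8⟩ := k6.2.left
      exact (hF _ (Near.of_reach k2 k8 (by linarith)) a ha he).1 rfl
    · obtain ⟨c₃, k7, k8⟩ := k6.2.left
      exact (hF _ (Near.of_reach k2 k8 (by linarith)) a ha he).2 rfl

theorem src_time (hq : q ∈ SB.src b K) : q.1 = K.1 ∨ q.1 = K.2 := hq.imp (fun h => h.1) fun h => h.1

theorem seam_deep (h : I ∈ SB.cand S b co) (hs : Seam S b K I) (hp : p.1 ∈ tm I)
    (hq : q ∈ SB.src b K) (hr : Reach S b.D b.W q p c) : 20 * b.w < c := by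
  obtain ⟨a, ha, h1, h2, h3, h4⟩ := hs
  exact cand_deep h ha h2 h3 hp (by have := src_time hq; omega) hr

theorem seam_dc (h : I ∈ SB.cand S b co) (hs : Seam S b K I) (hp : p.1 ∈ tm I) (hW : p.2 ∈ b.W) :
    20 * b.w ≤ dc S b.D b.W (SB.src b K) (20 * b.w) p :=
  le_dc' le_rfl hW fun _ hq _ hr => (seam_deep h hs hp hq hr).le

/-- Candidate intervals are far from the pins. -/
theorem cand_far (h : I ∈ SB.cand S b co) (hp : p.1 ∈ tm I) :
    ¬Near S b.D b.W b.Pin (20 * b.w) p := by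
  rintro ⟨z, hz, c, hc, hr⟩
  obtain ⟨g, y, k1, k2, k3⟩ := cand_bar h hp (h.2.2.2.2.2.2.1 z hz hr.mem_left) hr.symm
  obtain ⟨c₂, k4, k5⟩ := k3.right
  exact disjoint_left.1 (cand_elig h k1 k2).2.2.2.1 (Near.of_reach k2 k5 (k4.trans hc)) hz

/-- Points near the sources lie in a uniformly labelled neighbourhood of a chain. -/
theorem cand_unif (h : I ∈ SB.cand S b co) {R : ℝ} (hp : Near S b.D b.W (SB.src b I) R p) :
    ∃ g, Near S b.D b.W (chain b.D b.W g) R p ∧ b.Unif (b.nb S (chain b.D b.W g) (12 * b.w)) := by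
  rcases Near.union.1 hp with h1 | h1
  · obtain ⟨z, hz, -⟩ := id h1
    exact ⟨_, h1, (cand_elig h (Or.inl rfl) hz).2.2.1⟩
  · obtain ⟨z, hz, -⟩ := id h1
    exact ⟨_, h1, (cand_elig h (Or.inr rfl) hz).2.2.1⟩

/-- The data of a node for the family `A` in use. -/
structure Act (S : Sk) (s : St) (A : Set (ℕ × ℕ)) (P : Set (ℕ × ℝ)) (co : Coins S) : Prop where
  sub : P ⊆ s.Pin
  cand : A ⊆ SB.cand S (base s P) co
  kmem : ∀ K, s.kick = some K → K ∈ A
  kin : ∀ K, s.kick = some K → ∀ I ∈ A, tm I ⊆ tm K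
  far : ∀ I ∈ A, some I ≠ s.kick → ∀ p : ℕ × ℝ, p.1 ∈ tm I → ¬ Near S s.D s.W s.Pin (s.w / 100) p
  kpin : ∀ K, s.kick = some K → ∀ p ∈ s.Pin, p.1 ∈ tm K → p.2 ∈ s.W →
    dc S s.D s.W (SB.src s K) (20 * s.w) p ≤ s.w / 5
  out : ∀ K, s.kick = some K → ∀ p : ℕ × ℝ, p.1 ∉ tm K → p ∈ s.Pin

theorem NI.act {π : Par} {s : St} (h : NI S s) (ρ : Rnd S π) :
    ∃ P co, Act S s ((sysB S π).PE s ρ) P co := by
  rcases h.node with ⟨h1, h2, -⟩ | ⟨A, P, co, hI⟩
  · have e : (sysB S π).PE s ρ = SB.cand S s ρ.1 := by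
      unfold Sys.PE
      rw [h1]
      rfl
    rw [e]
    refine ⟨s.Pin, ρ.1, Subset.rfl, Subset.rfl, ?_, ?_, fun I hI _ p hp hn => ?_, ?_, ?_⟩
    any_goals (intro K hK; rw [h2] at hK; exact absurd hK (by simp))
    exact cand_far hI hp (hn.mono_R (by linarith [h.w0]))
  · have e : (sysB S π).PE s ρ = A := by
      unfold Sys.PE
      rw [hI.pend]
      rfl
    rw [e]
    exact ⟨P, co, hI.sub, hI.cand, hI.kmem, hI.kin, hI.far, hI.kpin, hI.out⟩

end NB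

end Vale.Agent.P235.Pl
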