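import Vale.Agent.P235P.NB1

/-! P235 planar case: the children of a node of system B. -/

open Set Classical

noncomputable section

namespace Vale.Agent.P235.Pl

namespace NB

variable {S : Sk} {π : Par} {s : St} {ρ : Rnd S π} {co : Coins S} {P : Set (ℕ × ℝ)}
  {I I' K : ℕ × ℕ} {p q : ℕ × ℝ} {a g θ θ' : ℕ} {c t : ℝ} {i : Option (ℕ × ℕ)}

theorem del'_mem (ρ : Rnd S π) (hw : 0 < s.w) : s.w / 10 ≤ del' s ρ ∧ del' s ρ ≤ s.w / 5 :=
  uq_mem _ (by linarith)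

theorem del_mem (ρ : Rnd S π) (hw : 0 < s.w) : 9 * s.w ≤ del s ρ ∧ del s ρ ≤ 10 * s.w :=
  uq_mem _ (by linarith)

theorem xi0_mem (ρ : Rnd S π) (hw : 0 < s.w) : s.w / 20 ≤ xi0 s ρ ∧ xi0 s ρ ≤ s.w / 10 :=
  uq_mem _ (by linarith)

theorem low_le_thr (ρ : Rnd S π) (hw : 0 < s.w) (i : Option (ℕ × ℕ)) : low s i ≤ thr s ρ i := by
  have := del'_mem ρ hw
  have := del_mem ρ hw
  unfold low thr
  split_ifs <;> linarith

theorem thr_le (ρ : Rnd S π) (hw : 0 < s.w) (i : Option (ℕ × ℕ)) : thr s ρ i ≤ 10 * s.w := by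
  have := del'_mem ρ hw
  have := del_mem ρ hw
  unfold thr
  split_ifs <;> linarith

theorem mem_shal (Y : Sys S π) : p ∈ Y.shal s ρ i ↔ Y.DI s (cI s i) p ≤ thr s ρ i := by
  cases i <;> rfl

theorem NI.abs_le (h : NI S s) {u v : ℝ} (hu : u ∈ s.W) (hv : v ∈ s.W) : |u - v| ≤ s.w :=
  abs_sub_le_iff.2 ⟨by linarith [hu.2, hv.1, h.len], by linarith [hu.1, hv.2, h.len]⟩

theorem mem_Zs : θ ∈ (sysB S π).Zs s ↔ ∃ K, s.kick = some K ∧ ∃ d, θ ∈ SB.Zd S s K d := by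
  unfold Sys.Zs
  cases s.kick with
  | none => simp
  | some K =>
    simp only [Option.some.injEq, exists_eq_left', Bool.exists_bool]
    exact or_comm

theorem mem_Zt : θ ∈ SB.Zd S s K true ↔ θ ∈ tm K ∧ ∃ p : ℕ × ℝ,
    Near S s.D s.W (chain s.D s.W K.1) (5 * s.w) p ∧ p.1 ∈ tm K ∧ θ ≤ p.1 := Iff.rfl

theorem mem_Zf : θ ∈ SB.Zd S s K false ↔ θ ∈ tm K ∧ ∃ p : ℕ × ℝ,
    Near S s.D s.W (chain s.D s.W K.2) (5 * s.w) p ∧ p.1 ∈ tm K ∧ p.1 ≤ θ := Iff.rfl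

theorem Act.seam {A : Set (ℕ × ℕ)} (h : Act S s A P co) (hK : s.kick = some K) (hI : I ∈ A)
    (hn : some I ≠ s.kick) : Seam S (base s P) K I :=
  seam_of_sub (h.cand hI) (h.cand (h.kmem K hK)) (h.kin K hK I hI) fun e => hn (by rw [hK, e])

/-- A pending interval that meets the zone lies in the zone. -/
theorem Act.zone_all {A : Set (ℕ × ℕ)} (h : Act S s A P co) (hw : 0 < s.w) (hI : I ∈ A)
    (hn : some I ≠ s.kick) (h1 : θ ∈ tm I) (h2 : θ ∈ (sysB S π).Zs s) :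
    tm I ⊆ (sysB S π).Zs s := by
  obtain ⟨K, hK, d, hd⟩ := mem_Zs.1 h2
  have hs := h.seam hK hI hn
  intro θ' h3
  refine mem_Zs.2 ⟨K, hK, d, ?_⟩
  have key : ∀ g, g = K.1 ∨ g = K.2 → ∀ p : ℕ × ℝ,
      Near S s.D s.W (chain s.D s.W g) (5 * s.w) p → p.1 ∉ tm I := by
    rintro g hg p ⟨z, hz, c, hc, hr⟩ hp
    have : 20 * s.w < c := seam_deep (b := base s P) (h.cand hI) hs hp
      (chain_sub_src (b := base s P) hg hz) hr
    linarith
  cases d with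
  | true =>
    obtain ⟨-, p, k1, k2, k3⟩ := mem_Zt.1 hd
    have := key _ (Or.inl rfl) p k1
    exact mem_Zt.2 ⟨hs.sub h3, p, k1, k2, by rw [mem_tm] at *; omega⟩
  | false =>
    obtain ⟨-, p, k1, k2, k3⟩ := mem_Zf.1 hd
    have := key _ (Or.inr rfl) p k1
    exact mem_Zf.2 ⟨hs.sub h3, p, k1, k2, by rw [mem_tm] at *; omega⟩

theorem exists_KC (h : Act S s ((sysB S π).PE s ρ) P co) (n : ℕ) : ∀ I, I.1 = n →
    I ∈ (sysB S π).PE s ρ → some I ≠ s.kick → Disjoint (tm I) ((sysB S π).Zs s) →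
    ∃ I' ∈ (sysB S π).KC s ρ, tm I ⊆ tm I' := by
  induction n using Nat.strong_induction_on with
  | _ n ih =>
    intro I e h1 h2 h3
    by_cases hI : I ∈ (sysB S π).KC s ρ
    · exact ⟨I, hI, Subset.rfl⟩
    · have : ¬∀ I' ∈ (sysB S π).PE s ρ, some I' ≠ s.kick → Disjoint (tm I') ((sysB S π).Zs s) →
          tm I ⊆ tm I' → I' = I := fun hh => hI ⟨h1, h2, h3, hh⟩
      push Not at this
      obtain ⟨I', k1, k2, k3, k4, k5⟩ := this
      have := (seam_of_sub (h.cand h1) (h.cand k1) k4 k5.symm).lt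
      obtain ⟨I'', k6, k7⟩ := ih I'.1 (by omega) I' rfl k1 k2 k3
      exact ⟨I'', k6, k4.trans k7⟩

theorem KC_uniq (h : Act S s ((sysB S π).PE s ρ) P co) (h1 : I ∈ (sysB S π).KC s ρ)
    (h2 : I' ∈ (sysB S π).KC s ρ) (h3 : θ ∈ tm I) (h4 : θ ∈ tm I') : I = I' := by
  rcases cand_lam (h.cand h1.1) (h.cand h2.1) h3 h4 with e | e | e
  · exact e
  · exact h2.2.2.2 I h1.1 h1.2.1 h1.2.2.1 e.sub
  · exact (h1.2.2.2 I' h2.1 h2.2.1 h2.2.2.1 e.sub).symm

theorem ch0_zone (Y : Sys S π) : Y.ch0 s ρ θ = some none ↔ θ ∈ Y.Zs s := by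
  unfold Sys.ch0
  split_ifs with h1 h2 <;> simp [h1]

theorem ch0_kick (h : Act S s ((sysB S π).PE s ρ) P co) :
    (sysB S π).ch0 s ρ θ = some (some I) ↔ I ∈ (sysB S π).KC s ρ ∧ θ ∈ tm I := by
  unfold Sys.ch0
  split_ifs with h1 h2
  · exact ⟨fun e => absurd e (by simp), fun e => absurd h1 (disjoint_left.1 e.1.2.2.1 e.2)⟩
  · have := h2.choose_spec
    simp only [Option.some.injEq]
    exact ⟨fun e => e ▸ this, fun e => KC_uniq h this.1 e.1 this.2 e.2⟩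
  · exact ⟨fun e => absurd e (by simp), fun e => absurd ⟨I, e⟩ h2⟩

/-- A link that leaves a candidate interval starts at distance zero from the sources. -/
theorem exit_cand {b : St} (h : I ∈ SB.cand S b co) (hl : Link S b.D θ θ' t) (ht : t ∈ b.W)
    (h1 : θ ∈ tm I) (h2 : θ' ∉ tm I) : Near S b.D b.W (SB.src b I) 0 (θ, t) :=
  cand_near (p := (θ, t)) (q := (θ', t)) h h1 h2 (Reach.of_link hl.symm ht)

/-- EXIT: links that leave the zone inside the interval are close to a wall. -/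
theorem exit_zone (h : NI S s) {d : Bool} (hl : Link S s.D θ θ' t) (ht : t ∈ s.W)
    (h1 : θ ∈ SB.Zd S s K d) (h2 : θ' ∉ SB.Zd S s K d) (h3 : θ' ∈ tm K) :
    Near S s.D s.W (SB.src s K) (6 * s.w) (θ, t) := by
  have fin : ∀ g u, g = K.1 ∨ g = K.2 → Near S s.D s.W (chain s.D s.W g) (5 * s.w) (θ, u) →
      Near S s.D s.W (SB.src s K) (6 * s.w) (θ, t) := fun g u hg hn =>
    (hn.vert ht).mono (chain_sub_src hg) (by linarith [h.abs_le hn.mem ht])
  cases d with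
  | true =>
    obtain ⟨k0, ⟨τ, u⟩, k1, k2, k3⟩ := mem_Zt.1 h1
    have k4 : ∀ p : ℕ × ℝ, Near S s.D s.W (chain s.D s.W K.1) (5 * s.w) p → p.1 ∈ tm K →
        p.1 < θ' := fun p a1 a2 => not_le.1 fun a3 => h2 (mem_Zt.2 ⟨h3, p, a1, a2, a3⟩)
    have k5 := k4 _ k1 k2
    simp only at k2 k3 k5
    by_cases e : τ = θ
    · exact fin _ u (Or.inl rfl) (e ▸ k1)
    · have e' : θ' = S.mate θ := by
        rcases hl with ⟨e, -⟩ | ⟨e, -⟩ | ⟨-, e, -⟩ | ⟨e, e', -⟩ <;> omega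
      obtain ⟨z, hz, c, hc, hr⟩ := k1
      have hz1 := hz.1
      obtain ⟨v, k6 | k6⟩ := hr.symm.bar_open (a := θ) (by simp only; omega) (by simp only; omega)
        (Or.inl (by rw [mem_tm] at k0; omega))
      · obtain ⟨c₂, k7, k8⟩ := k6.2.right
        exact fin _ v (Or.inl rfl) (Near.of_reach hz k8.symm (k7.trans hc))
      · obtain ⟨c₂, k7, k8⟩ := k6.2.right
        have := k4 _ (Near.of_reach hz k8.symm (k7.trans hc)) (e' ▸ h3)
        simp only at this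
        omega
  | false =>
    obtain ⟨k0, ⟨τ, u⟩, k1, k2, k3⟩ := mem_Zf.1 h1
    have k4 : ∀ p : ℕ × ℝ, Near S s.D s.W (chain s.D s.W K.2) (5 * s.w) p → p.1 ∈ tm K →
        θ' < p.1 := fun p a1 a2 => not_le.1 fun a3 => h2 (mem_Zf.2 ⟨h3, p, a1, a2, a3⟩)
    have k5 := k4 _ k1 k2
    simp only at k2 k3 k5
    by_cases e : τ = θ
    · exact fin _ u (Or.inr rfl) (e ▸ k1)
    · have e' : θ = S.mate θ' := by
        rcases hl with ⟨e, -⟩ | ⟨e, -⟩ | ⟨e, e', -⟩ | ⟨-, e, -⟩ <;> omega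
      obtain ⟨z, hz, c, hc, hr⟩ := k1
      have hz1 := hz.1
      obtain ⟨v, k6 | k6⟩ := hr.symm.bar_open (a := θ') (by simp only; omega) (by simp only; omega)
        (Or.inr (by rw [mem_tm] at k0; omega))
      · obtain ⟨c₂, k7, k8⟩ := k6.2.right
        have := k4 _ (Near.of_reach hz k8.symm (k7.trans hc)) h3
        simp only at this
        omega
      · obtain ⟨c₂, k7, k8⟩ := k6.2.right
        exact fin _ v (Or.inr rfl) (e' ▸ Near.of_reach hz k8.symm (k7.trans hc))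

theorem bdry0 (h : NI S s) (hl : Link S s.D θ θ' t) (ht : t ∈ s.W)
    (h1 : (sysB S π).ch0 s ρ θ = some i) (h2 : (sysB S π).ch0 s ρ θ' ≠ some i) :
    (sysB S π).DI s (cI s i) (θ, t) ≤ low s i := by
  obtain ⟨P, co, hA⟩ := h.act ρ
  have hw := h.w0
  cases i with
  | some I =>
    rw [ch0_kick hA] at h1
    rw [Ne, ch0_kick hA] at h2
    have := exit_cand (b := base s P) (hA.cand h1.1.1) hl ht h1.2 fun h3 => h2 ⟨h1.1, h3⟩
    exact this.dc_le.trans (show (0 : ℝ) ≤ s.w / 20 by linarith)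
  | none =>
    rw [ch0_zone] at h1
    rw [Ne, ch0_zone] at h2
    obtain ⟨K, hK, d, hd⟩ := mem_Zs.1 h1
    have e : cI s none = K := by simp [cI, hK]
    rw [e]
    by_cases h3 : θ' ∈ tm K
    · have := exit_zone h hl ht hd (fun h4 => h2 (mem_Zs.2 ⟨K, hK, d, h4⟩)) h3
      exact this.dc_le.trans (show 6 * s.w ≤ 8 * s.w by linarith)
    · have := exit_cand (b := base s P) (hA.cand (hA.kmem K hK)) hl ht hd.1 h3
      exact this.dc_le.trans (show (0 : ℝ) ≤ 8 * s.w by linarith)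

theorem NI.okC (h : NI S s) (ρ : Rnd S π) : (sysB S π).OkC s ρ := fun _ _ _ i hl ht h1 h2 =>
  (mem_shal _).2 ((bdry0 h hl ht h1 h2).trans (low_le_thr ρ h.w0 i))

theorem NI.ch_eq (h : NI S s) (ρ : Rnd S π) (θ : ℕ) :
    (sysB S π).ch s ρ θ = (sysB S π).ch0 s ρ θ := if_pos (h.okC ρ)

theorem NI.bdry (h : NI S s) (hl : Link S s.D θ θ' t) (ht : t ∈ s.W)
    (h1 : (sysB S π).ch s ρ θ = some i) (h2 : (sysB S π).ch s ρ θ' ≠ some i) :
    (sysB S π).DI s (cI s i) (θ, t) ≤ low s i := by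
  rw [h.ch_eq] at h1 h2
  exact bdry0 h hl ht h1 h2

theorem NI.ch_zone (h : NI S s) : (sysB S π).ch s ρ θ = some none ↔ θ ∈ (sysB S π).Zs s := by
  rw [h.ch_eq, ch0_zone]

theorem NI.ch_kick (h : NI S s) :
    (sysB S π).ch s ρ θ = some (some I) ↔ I ∈ (sysB S π).KC s ρ ∧ θ ∈ tm I := by
  obtain ⟨P, co, hA⟩ := h.act ρ
  rw [h.ch_eq, ch0_kick hA]

theorem NI.pin_in (h : NI S s) (h1 : I ∈ (sysB S π).PE s ρ) (h2 : some I ≠ s.kick) :
    ∃ i, ∀ θ ∈ tm I, (sysB S π).ch s ρ θ = some i := by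
  obtain ⟨P, co, hA⟩ := h.act ρ
  by_cases h3 : Disjoint (tm I) ((sysB S π).Zs s)
  · obtain ⟨I', k1, k2⟩ := exists_KC hA _ I rfl h1 h2 h3
    exact ⟨some I', fun θ hθ => h.ch_kick.2 ⟨k1, k2 hθ⟩⟩
  · obtain ⟨θ, k1, k2⟩ := not_disjoint_iff.1 h3
    exact ⟨none, fun θ' hθ => h.ch_zone.2 (hA.zone_all h.w0 h1 h2 k1 k2 hθ)⟩

/-- The interval of a child is in the family and contains the times of the child. -/
theorem NI.ch_cI (h : NI S s) (h1 : (sysB S π).ch s ρ θ = some i) :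
    cI s i ∈ (sysB S π).PE s ρ ∧ θ ∈ tm (cI s i) := by
  cases i with
  | some I => exact ⟨(h.ch_kick.1 h1).1.1, (h.ch_kick.1 h1).2⟩
  | none =>
    obtain ⟨P, co, hA⟩ := h.act ρ
    obtain ⟨K, hK, d, hd⟩ := mem_Zs.1 (h.ch_zone.1 h1)
    have e : cI s none = K := by simp [cI, hK]
    rw [e]
    exact ⟨hA.kmem K hK, hd.1⟩

/-- At a kick node all children are inside the interval. -/
theorem NI.ch_in (h : NI S s) (hK : s.kick = some K) (h1 : (sysB S π).ch s ρ θ = some i) :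
    θ ∈ tm K := by
  obtain ⟨P, co, hA⟩ := h.act ρ
  exact hA.kin K hK _ (h.ch_cI h1).1 (h.ch_cI h1).2

/-- A path into a child from a time outside the child passes a point of small distance. -/
theorem NI.enter (h : NI S s) (h1 : (sysB S π).ch s ρ p.1 = some i)
    (h2 : (sysB S π).ch s ρ q.1 ≠ some i) (hr : Reach S s.D s.W q p c) :
    (sysB S π).DI s (cI s i) p ≤ low s i + c := by
  obtain ⟨θ, θ', t, k1, k2, k3, k4⟩ :=
    hr.symm.cross (A := {θ | (sysB S π).ch s ρ θ = some i}) h1 h2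
  obtain ⟨c₁, k5, k6⟩ := k4.left
  have k7 := h.bdry k3 k4.mem k1 k2
  have k8 := dc_reach (A := (sysB S π).src s (cI s i)) (cap := 20 * s.w) k6.symm
  unfold Sys.DI at k7 ⊢
  linarith

end NB

end Vale.Agent.P235.Pl
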