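import Vale.Agent.P235P.NB1

/-! P235 planar case: basic properties of the healed function and of monotone hulls. -/

open Set Classical

noncomputable section

namespace Vale.Agent.P235.Pl

namespace NB

variable {π : Par} {P : HP} {hs : HS π} {H : ℕ → ℝ → ℝ} {m : Fin π.nS} {θ θ' : ℕ} {t t' : ℝ}

theorem scl_pos {s1 : ℝ} (h : 0 < s1) (m : ℕ) : 0 < scl π s1 m := div_pos h (by positivity)

theorem G_lip (κ : Cone) (t t' : ℝ) : κ.G t ≤ κ.G t' + |t - t'| := by
  unfold Cone.G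
  have h1 := abs_sub_abs_le_abs_sub (t' - κ.t) (t - κ.t)
  rw [sub_sub_sub_cancel_right, abs_sub_comm t' t] at h1
  have h2 := abs_nonneg (t - t')
  have : max 0 (|t' - κ.t| - 28 * κ.s) ≤ max 0 (|t - κ.t| - 28 * κ.s) + |t - t'| :=
    max_le (by linarith [le_max_left 0 (|t - κ.t| - 28 * κ.s)])
      (by linarith [le_max_right 0 (|t - κ.t| - 28 * κ.s)])
  linarith

theorem raise_bdd (h : 0 < P.s1) : ∀ v ∈ insert (H θ t) {v | ∃ i k, Adm P.W P.s1 hs m i k ∧
    ∃ c ∈ P.act H (cone P.s1 hs m i k), θ ∈ tm c.1 ∧ t ∈ (cone P.s1 hs m i k).I0 ∧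
      v = min ((cone P.s1 hs m i k).G t) (c.2 θ t - xim P.s1 hs m)},
    v ≤ H θ t + 24 * scl π P.s1 m := by
  rintro v (rfl | ⟨i, k, -, c, hc, h1, h2, rfl⟩)
  · linarith [scl_pos (π := π) h m]
  · exact (min_le_left _ _).trans (hc.2.e12.1 θ h1 t h2)

theorem le_raise (h : 0 < P.s1) : H θ t ≤ P.raise hs H m θ t :=
  le_csSup ⟨_, raise_bdd h⟩ (mem_insert _ _)

theorem raise_le (h : 0 < P.s1) : P.raise hs H m θ t ≤ H θ t + 24 * scl π P.s1 m :=
  csSup_le (insert_nonempty _ _) (raise_bdd h)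

theorem raise_lip (h : 0 < P.s1) (hH : ∀ t t', H θ t ≤ H θ t' + |t - t'|) :
    P.raise hs H m θ t ≤ P.raise hs H m θ t' + |t - t'| := by
  have h0 := le_raise (hs := hs) (H := H) (m := m) (θ := θ) (t := t') h
  refine csSup_le (insert_nonempty _ _) ?_
  rintro v (rfl | ⟨i, k, ha, c, hc, h1, h2, rfl⟩)
  · linarith [hH t t']
  · set κ := cone P.s1 hs m i k with hκ
    by_cases h3 : t' ∈ κ.I0
    · have h4 : min (κ.G t') (c.2 θ t' - xim P.s1 hs m) ≤ P.raise hs H m θ t' :=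
        le_csSup ⟨_, raise_bdd h⟩ (mem_insert_of_mem _ ⟨i, k, ha, c, hc, h1, h3, rfl⟩)
      have h5 := (abs_le.1 (hc.2.lip θ t t')).2
      have h6 := G_lip κ t t'
      have h7 := abs_nonneg (t - t')
      rcases min_le_iff.1 h4 with h8 | h8
      · exact (min_le_left _ _).trans (by linarith)
      · exact (min_le_right _ _).trans (by linarith)
    · refine (min_le_left _ _).trans ?_
      have h4 := hc.2.e12.2 θ h1
      rw [Cone.I0, mem_Icc] at h2 h3
      by_cases h5 : t' < κ.t - 52 * κ.s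
      · have h6 := G_lip κ t (κ.t - 52 * κ.s)
        have h7 := hH (κ.t - 52 * κ.s) t'
        rw [abs_of_nonneg (by linarith [h2.1])] at h6 h7 ⊢
        linarith [h4.1]
      · have h5' : κ.t + 52 * κ.s < t' := not_le.1 fun h8 => h3 ⟨not_lt.1 h5, h8⟩
        have h6 := G_lip κ t (κ.t + 52 * κ.s)
        have h7 := hH (κ.t + 52 * κ.s) t'
        rw [abs_of_nonpos (by linarith [h2.2])] at h6 h7 ⊢
        linarith [h4.2]

theorem raise_link (h : 0 < P.s1) (hl : Link P.S P.D θ θ' t) (e : H θ t = H θ' t) :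
    P.raise hs H m θ t ≤ P.raise hs H m θ' t := by
  have h0 := le_raise (hs := hs) (H := H) (m := m) (θ := θ') (t := t) h
  have hp := scl_pos (π := π) h m
  refine csSup_le (insert_nonempty _ _) ?_
  rintro v (rfl | ⟨i, k, ha, c, hc, h1, h2, rfl⟩)
  · linarith
  · have h3 : t ∈ (cone P.s1 hs m i k).Ip := by
      have e1 : (cone P.s1 hs m i k).s = scl π P.s1 m := rfl
      rw [Cone.I0, mem_Icc] at h2
      constructor <;> linarith [h2.1, h2.2]
    by_cases h4 : θ' ∈ tm c.1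
    · rw [hc.2.cons θ θ' t hl h3 h1 h4]
      exact le_csSup ⟨_, raise_bdd h⟩ (mem_insert_of_mem _ ⟨i, k, ha, c, hc, h4, h2, rfl⟩)
    · have h5 := hc.2.bd θ θ' t hl h3 h1 h4
      have h6 : scl π P.s1 m ≤ xim P.s1 hs m := (uq_mem _ (by linarith)).1
      exact (min_le_right _ _).trans (by linarith)

theorem Hs_lip (h : 0 < P.s1) (hH : ∀ t t', P.H0 θ t ≤ P.H0 θ t' + |t - t'|) (n : ℕ) :
    ∀ t t', P.Hs hs n θ t ≤ P.Hs hs n θ t' + |t - t'| := by
  induction n with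
  | zero => exact hH
  | succ n ih =>
    intro t t'
    rw [HP.Hs]
    split_ifs
    exacts [raise_lip h ih, ih t t']

theorem Hs_link (h : 0 < P.s1) (hl : Link P.S P.D θ θ' t) (e : P.H0 θ t = P.H0 θ' t) (n : ℕ) :
    P.Hs hs n θ t = P.Hs hs n θ' t := by
  induction n with
  | zero => exact e
  | succ n ih =>
    rw [HP.Hs]
    split_ifs
    exacts [le_antisymm (raise_link h hl ih) (raise_link h hl.symm ih.symm), ih]

theorem le_Hs (h : 0 < P.s1) (n : ℕ) : P.H0 θ t ≤ P.Hs hs n θ t := by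
  induction n with
  | zero => exact le_rfl
  | succ n ih =>
    rw [HP.Hs]
    split_ifs
    exacts [ih.trans (le_raise h), ih]

theorem Hs_le (hm : 4 ≤ π.m0) (h : 0 < P.s1) (n : ℕ) :
    P.Hs hs n θ t + 27 * scl π P.s1 n ≤ P.H0 θ t + 27 * P.s1 := by
  induction n with
  | zero => simp [HP.Hs, scl]
  | succ n ih =>
    have h1 : scl π P.s1 n = 2 ^ π.m0 * scl π P.s1 (n + 1) := by
      unfold scl
      rw [mul_add, mul_one, pow_add]
      field_simp
    have h2 : (2 : ℝ) ^ 4 ≤ 2 ^ π.m0 := pow_le_pow_right₀ one_le_two hm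
    have h3 := scl_pos (π := π) h (n + 1)
    have h4 : 16 * scl π P.s1 (n + 1) ≤ scl π P.s1 n := by rw [h1]; nlinarith
    rw [HP.Hs]
    split_ifs with h5
    · have := raise_le (hs := hs) (H := P.Hs hs n) (m := ⟨n, h5⟩) (θ := θ) (t := t) h
      simp only at this
      linarith
    · linarith

theorem out_le (hm : 4 ≤ π.m0) (h : 0 < P.s1) : (P.out hs).H θ t ≤ P.H0 θ t + 27 * P.s1 := by
  have h1 := Hs_le (hs := hs) (θ := θ) (t := t) hm h π.nS
  have h2 := scl_pos (π := π) h π.nS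
  change P.Hs hs π.nS θ t ≤ _
  linarith

theorem sTop_pos {w A : ℝ} (hA : 0 < A) : 0 < sTop π w A := by
  unfold sTop
  positivity

theorem sTop_le (hm : 1 ≤ π.m0) {w A : ℝ} (hw : 0 < w) (hA : 0 < A) :
    sTop π w A ≤ w / 2 ^ 20 := by
  have h1 : 1 < 2 ^ π.m0 := Nat.one_lt_two_pow (by omega)
  have h2 := Int.zpow_log_le_self h1 (r := w / (2 ^ 20 * A * 2 ^ π.b)) (by positivity)
  unfold sTop
  refine (mul_le_mul_of_nonneg_left h2 (by positivity)).trans_eq ?_
  field_simp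

variable {S : Sk} {D : Lk} {W : Set ℝ} {A : Set (ℕ × ℝ)} {f : ℕ × ℝ → ℝ} {k cap l : ℝ}
  {T : ℕ → Set ℕ} {p z : ℕ × ℝ} {c : ℝ}

/-- A path from outside the open interval of a link to its closed interval can be redirected to
the ends of the link. -/
theorem redirect (hl : Link S D θ θ' t) (ht : t ∈ W) (hlt : θ < θ') (hr : Reach S D W z p c)
    (hz : z.1 ≤ θ ∨ θ' ≤ z.1) (h1 : θ ≤ p.1) (h2 : p.1 ≤ θ') :
    ∃ c' ≤ c + |t - p.2|, Reach S D W z (θ, t) c' := by
  have fin : ∀ τ u c₁ c₂, τ = θ ∨ τ = θ' → Reach S D W z (τ, u) c₁ → |u - p.2| ≤ c₂ →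
      c₁ + c₂ = c → ∃ c' ≤ c + |t - p.2|, Reach S D W z (θ, t) c' := by
    intro τ u c₁ c₂ hτ k1 k2 k3
    have k4 := abs_sub_le u p.2 t
    rw [abs_sub_comm p.2 t] at k4
    rcases hτ with rfl | rfl
    · exact ⟨_, by linarith, k1.vert ht⟩
    · exact ⟨_, by linarith, (k1.vert ht).link hl.symm⟩
  by_cases e : p.1 = θ ∨ p.1 = θ'
  · exact fin p.1 p.2 c 0 e hr (by simp) (add_zero _)
  · have e' : θ' = S.mate θ := by
      rcases hl with ⟨e, -⟩ | ⟨e, -⟩ | ⟨-, e, -⟩ | ⟨e, e', -⟩ <;> omega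
    obtain ⟨u, ⟨-, c₁, c₂, k1, k2, k3⟩ | ⟨-, c₁, c₂, k1, k2, k3⟩⟩ :=
      hr.symm.bar_open (a := θ) (by omega) (by omega) (e' ▸ hz)
    · exact fin θ u c₂ c₁ (Or.inl rfl) k2.symm k1.symm.abs_le (by linarith)
    · exact fin _ u c₂ c₁ (Or.inr e'.symm) k2.symm k1.symm.abs_le (by linarith)

/-- The monotone hull is consistent on links that have all sources on one side. -/
theorem hull_link (hk : 0 ≤ k) (hf : ∀ p ∈ A, p.2 ∈ W → l ≤ f p) (d : Bool) {J : Set ℕ}
    (hl : Link S D θ θ' t) (ht : t ∈ W) (h1 : θ ∈ J) (h2 : θ' ∈ J)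
    (hA : ∀ z ∈ A, (z.1 ≤ θ ∧ z.1 ≤ θ') ∨ (θ ≤ z.1 ∧ θ' ≤ z.1)) :
    envT S D W A f k (fun θ => tgt d θ ∩ J) cap θ t =
      envT S D W A f k (fun θ => tgt d θ ∩ J) cap θ' t := by
  have key : ∀ θ θ', Link S D θ θ' t → θ ∈ J → θ' ∈ J →
      (∀ z ∈ A, (z.1 ≤ θ ∧ z.1 ≤ θ') ∨ (θ ≤ z.1 ∧ θ' ≤ z.1)) →
      envT S D W A f k (fun θ => tgt d θ ∩ J) cap θ' t ≤
        envT S D W A f k (fun θ => tgt d θ ∩ J) cap θ t := by
    intro θ θ' hl h1 h2 hA
    refine le_envT (envT_le_cap hk hf) fun z hz p c hr hp => ?_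
    by_cases h3 : p.1 ∈ tgt d θ'
    · exact envT_le hk hf hz hr ⟨h3, hp.2⟩
    · have h4 := hp.1
      have h5 := hA z hz
      have : ∃ c' ≤ c + |t - p.2|, Reach S D W z (θ', t) c' := by
        cases d with
        | true =>
          simp only [tgt, if_true, mem_Ici] at h3 h4
          obtain ⟨c', k1, k2⟩ := redirect hl ht (by omega) hr (by omega) h4 (by omega)
          exact ⟨c', k1, k2.link hl⟩
        | false =>
          simp only [tgt, Bool.false_eq_true, if_false, mem_Iic] at h3 h4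
          exact redirect hl.symm ht (by omega) hr (by omega) (by omega) h4
      obtain ⟨c', k1, k2⟩ := this
      have k3 := envT_le (T := fun θ => tgt d θ ∩ J) (θ := θ') (t := t) (cap := cap) hk hf hz k2
        ⟨by cases d <;> simp [tgt], h2⟩
      simp only [sub_self, abs_zero, add_zero] at k3
      nlinarith [mul_le_mul_of_nonneg_left k1 hk]
  exact le_antisymm (key θ' θ hl.symm h2 h1 fun z hz => by have := hA z hz; omega)
    (key θ θ' hl h1 h2 hA)

end NB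

end Vale.Agent.P235.Pl
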