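import Vale.Agent.P235P.NB2
import Vale.Agent.P235P.NBH

/-! P235 planar case: the operation of a node of system B is legal and quiet near pins. -/

open Set Classical

noncomputable section

namespace Vale.Agent.P235.Pl

namespace NB

variable {S : Sk} {π : Par} {s : St} {ρ : Rnd S π} {co : Coins S} {P : Set (ℕ × ℝ)}
  {I I' K : ℕ × ℕ} {p q : ℕ × ℝ} {a g θ θ' : ℕ} {c t v : ℝ} {i : Option (ℕ × ℕ)} {d : Bool}

theorem le_Dp (Y : Sys S π) (s : St) (ρ : Rnd S π) (W : Set ℝ) : s.D.LeOn (Y.Dp s ρ) W :=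
  ⟨fun _ _ _ h => Or.inl h, fun _ _ _ h => Or.inl h⟩

/-- The data of an additional link at the value `v`. -/
structure New (Y : Sys S π) (s : St) (ρ : Rnd S π) (θ θ' : ℕ) (v t : ℝ) (i : Option (ℕ × ℕ)) :
    Prop where
  link : Link S s.D θ θ' t
  ne : t ≠ v
  vW : v ∈ s.W
  tW : t ∈ s.W
  ch : Y.ch s ρ θ = some i
  ch' : Y.ch s ρ θ' = some i
  np : (θ, t) ∉ Y.cPin s ρ i ∨ (θ', t) ∉ Y.cPin s ρ i
  btw : ∀ u, min t v < u → u < max t v → (θ, u) ∉ Y.cPin s ρ i ∧ (θ', u) ∉ Y.cPin s ρ i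

theorem New.symm {Y : Sys S π} (h : New Y s ρ θ θ' v t i) : New Y s ρ θ' θ v t i :=
  ⟨h.link.symm, h.ne, h.vW, h.tW, h.ch', h.ch, h.np.symm, fun u h1 h2 => (h.btw u h1 h2).symm⟩

theorem link_Dp_cases (Y : Sys S π) (h : Link S (Y.Dp s ρ) θ θ' v) :
    Link S s.D θ θ' v ∨ ∃ t i, New Y s ρ θ θ' v t i := by
  have key : ∀ {θ θ' : ℕ} {A : Set ℝ}, (∀ t ∈ A, Link S s.D θ θ' t) → v ∈ A ∪ Y.fat s ρ θ θ' A →
      Link S s.D θ θ' v ∨ ∃ t i, New Y s ρ θ θ' v t i := by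
    rintro θ θ' A hA (hv | ⟨h1, t, h2, h3, i, h4, h5, h6, h7⟩)
    · exact Or.inl (hA v hv)
    · by_cases e : t = v
      · exact Or.inl (hA v (e ▸ h2))
      · exact Or.inr ⟨t, i, hA t h2, e, h1, h3, h4, h5, Or.inl h6, h7⟩
  have sy : ∀ {θ θ' : ℕ}, (Link S s.D θ θ' v ∨ ∃ t i, New Y s ρ θ θ' v t i) →
      Link S s.D θ' θ v ∨ ∃ t i, New Y s ρ θ' θ v t i :=
    fun h => h.imp Link.symm fun ⟨t, i, h⟩ => ⟨t, i, h.symm⟩
  rcases h with ⟨rfl, h⟩ | ⟨rfl, h⟩ | ⟨h1, rfl, h⟩ | ⟨h1, rfl, h⟩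
  · exact key (fun t ht => link_gap S ht) h
  · exact sy (key (fun t ht => link_gap S ht) h)
  · exact key (fun t ht => link_arc h1 ht) h
  · exact sy (key (fun t ht => link_arc h1 ht) h)

theorem exists_btw (h : t ≠ v) {ε : ℝ} (hε : 0 < ε) :
    ∃ u, min t v < u ∧ u < max t v ∧ |v - u| ≤ ε := by
  rcases lt_or_gt_of_ne h with h | h
  · refine ⟨max ((t + v) / 2) (v - ε), ?_, ?_, ?_⟩
    · rw [min_eq_left h.le]; exact lt_max_of_lt_left (by linarith)
    · rw [max_eq_right h.le]; exact max_lt (by linarith) (by linarith)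
    · have h1 : max ((t + v) / 2) (v - ε) ≤ v := max_le (by linarith) (by linarith)
      rw [abs_of_nonneg (by linarith)]
      linarith [le_max_right ((t + v) / 2) (v - ε)]
  · refine ⟨min ((t + v) / 2) (v + ε), ?_, ?_, ?_⟩
    · rw [min_eq_right h.le]; exact lt_min (by linarith) (by linarith)
    · rw [max_eq_left h.le]; exact min_lt_of_left_lt (by linarith)
    · have h1 : v ≤ min ((t + v) / 2) (v + ε) := le_min (by linarith) (by linarith)
      rw [abs_of_nonpos (by linarith)]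
      linarith [min_le_right ((t + v) / 2) (v + ε)]

theorem btw_mem {u : ℝ} (ht : t ∈ s.W) (hv : v ∈ s.W) (h1 : min t v < u) (h2 : u < max t v) :
    u ∈ s.W :=
  ⟨(le_min ht.1 hv.1).trans h1.le, h2.le.trans (max_le ht.2 hv.2)⟩

/-- Close to an additional link there are deep points. -/
theorem New.deep {Y : Sys S π} (h : New Y s ρ θ θ' v t i) {ε : ℝ} (hε : 0 < ε) :
    ∃ u, |v - u| ≤ ε ∧ u ∈ s.W ∧ (θ, u) ∉ Y.cPin s ρ i ∧ Y.deep s ρ (θ, u) := by
  obtain ⟨u, h1, h2, h3⟩ := exists_btw h.ne hε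
  have h4 := btw_mem h.tW h.vW h1 h2
  exact ⟨u, h3, h4, (h.btw u h1 h2).1, h4, i, h.ch, (h.btw u h1 h2).1⟩

/-- Additional links are not shallow. -/
theorem New.thr_le {Y : Sys S π} (h : New Y s ρ θ θ' v t i) :
    thr s ρ i ≤ Y.DI s (cI s i) (θ, v) := by
  by_contra hn
  rw [not_le, ← sub_pos] at hn
  obtain ⟨u, h1, -, h3, -⟩ := h.deep hn
  refine h3 (Or.inr ((mem_shal Y).2 ?_))
  have := (abs_le.1 (dc_lip (S := S) (D := s.D) (W := s.W) (A := Y.src s (cI s i))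
    (cap := 20 * s.w) (θ := θ) v u)).1
  unfold Sys.DI at h1 ⊢
  linarith

section g0
variable {D : Lk} {W : Set ℝ} {w R t' : ℝ}

theorem g0_le_cap : SB.g0 S D W w K d θ t ≤ 5 * w :=
  envT_le_cap zero_le_one fun _ _ _ => le_rfl

theorem g0_nonneg (hw : 0 ≤ w) : 0 ≤ SB.g0 S D W w K d θ t :=
  low_le_envT zero_le_one (fun _ _ _ => le_rfl) (by linarith)

theorem g0_lip : |SB.g0 S D W w K d θ t - SB.g0 S D W w K d θ t'| ≤ |t - t'| := by
  simpa [SB.g0] using envT_lip (S := S) (D := D) (W := W) (A := chain D W (SB.wall K d))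
    (f := fun _ => 0) (T := fun θ => tgt d θ ∩ tm K) (cap := 5 * w) (θ := θ) zero_le_one
    (fun _ _ _ => le_rfl) t t'

theorem g0_le (h : Near S D W (chain D W (SB.wall K d)) R p) (h1 : p.1 ∈ tm K)
    (h2 : p.1 ∈ tgt d θ) : SB.g0 S D W w K d θ t ≤ R + |t - p.2| := by
  obtain ⟨z, hz, c, hc, hr⟩ := h
  have := envT_le (f := fun _ => 0) (T := fun θ => tgt d θ ∩ tm K) (θ := θ) (t := t)
    (cap := 5 * w) zero_le_one (fun _ _ _ => le_rfl) hz hr ⟨h2, h1⟩
  unfold SB.g0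
  linarith

theorem g0_anti (h : tgt d θ ⊆ tgt d θ') : SB.g0 S D W w K d θ' t ≤ SB.g0 S D W w K d θ t :=
  envT_anti_T (T := fun θ => tgt d θ ∩ tm K) zero_le_one (fun _ _ _ => le_rfl)
    (inter_subset_inter_left _ h)

theorem g0_link (hl : Link S D θ θ' t) (ht : t ∈ W) (h1 : θ ∈ tm K) (h2 : θ' ∈ tm K) :
    SB.g0 S D W w K d θ t = SB.g0 S D W w K d θ' t := by
  refine hull_link zero_le_one (fun _ _ _ => le_rfl) d hl ht h1 h2 fun z hz => ?_
  have h3 := hz.1
  rw [mem_tm] at h1 h2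
  cases d <;> simp only [SB.wall, if_true, Bool.false_eq_true, if_false] at h3 <;> omega

theorem mem_tgt (d : Bool) (θ : ℕ) : θ ∈ tgt d θ := by cases d <;> simp [tgt]

end g0

theorem wall_eq (K : ℕ × ℕ) (d : Bool) : SB.wall K d = K.1 ∨ SB.wall K d = K.2 := by
  cases d <;> simp [SB.wall]

theorem NI.kcand (h : NI S s) (hK : s.kick = some K) : ∃ P co, K ∈ SB.cand S (base s P) co := by
  rcases h.node with ⟨-, h2, -⟩ | ⟨A, P, co, hI⟩
  · rw [h2] at hK
    exact absurd hK (by simp)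
  · exact ⟨P, co, hI.cand (hI.kmem K hK)⟩

theorem NI.labA_pos (h : NI S s) (hK : s.kick = some K) (d : Bool) :
    0 < s.labA (chain s.D s.W (SB.wall K d)) := by
  obtain ⟨P, co, hc⟩ := h.kcand hK
  unfold St.labA
  split_ifs with h1
  · obtain ⟨A, k1, k2⟩ := (cand_elig (b := base s P) hc (wall_eq K d) h1.some_mem).2.2.1
    have := (k2 _ (Near.self h1.some_mem h1.some_mem.2.2 (show 0 ≤ 12 * s.w by
      linarith [h.w0]))).1
    exact this ▸ k1
  · exact one_pos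

theorem NI.s1_pos (h : NI S s) (hK : s.kick = some K) (D : Lk) (δ : ℝ) (d : Bool) :
    0 < (SB.hp S π s D K δ d).s1 := sTop_pos (h.labA_pos hK d)

theorem NI.s1_le (hm : 1 ≤ π.m0) (h : NI S s) (hK : s.kick = some K) (D : Lk) (δ : ℝ) (d : Bool) :
    (SB.hp S π s D K δ d).s1 ≤ s.w / 2 ^ 20 := sTop_le hm h.w0 (h.labA_pos hK d)

/-- The one sided healed function of a node. -/
def Hd (s : St) (ρ : Rnd S π) (K : ℕ × ℕ) (d : Bool) : ℕ → ℝ → ℝ :=
  ((SB.hp S π s ((sysB S π).Dp s ρ) K (del s ρ) d).out ρ.2.2.1.2.2).H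

theorem H_eq (s : St) (ρ : Rnd S π) (K : ℕ × ℕ) (θ : ℕ) (t : ℝ) :
    ((sysB S π).hl s ρ K).H θ t = min (Hd s ρ K true θ t) (Hd s ρ K false θ t) := rfl

theorem H_le_Hd (d : Bool) : ((sysB S π).hl s ρ K).H θ t ≤ Hd s ρ K d θ t := by
  cases d
  exacts [min_le_right _ _, min_le_left _ _]

theorem NI.le_Hd (h : NI S s) (hK : s.kick = some K) :
    SB.g0 S ((sysB S π).Dp s ρ) s.W s.w K d θ t / 16 ≤ Hd s ρ K d θ t :=
  le_Hs (h.s1_pos hK _ _ d) _

theorem NI.Hd_le (hm : 4 ≤ π.m0) (h : NI S s) (hK : s.kick = some K) :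
    Hd s ρ K d θ t ≤ SB.g0 S ((sysB S π).Dp s ρ) s.W s.w K d θ t / 16 + 27 * (s.w / 2 ^ 20) := by
  have h1 := out_le (hs := ρ.2.2.1.2.2) (θ := θ) (t := t) hm
    (h.s1_pos (π := π) hK ((sysB S π).Dp s ρ) (del s ρ) d)
  have h2 := h.s1_le (π := π) (by omega) hK ((sysB S π).Dp s ρ) (del s ρ) d
  exact h1.trans (add_le_add le_rfl (by linarith))

theorem NI.Hd_lip (h : NI S s) (hK : s.kick = some K) (t t' : ℝ) :
    Hd s ρ K d θ t ≤ Hd s ρ K d θ t' + |t - t'| := by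
  refine Hs_lip (h.s1_pos hK _ _ d) (fun t t' => ?_) _ t t'
  have := (_root_.abs_le.1 (g0_lip (S := S) (D := (sysB S π).Dp s ρ) (W := s.W) (w := s.w) (K := K)
    (d := d) (θ := θ) (t := t) (t' := t'))).2
  change _ / 16 ≤ _ / 16 + _
  linarith [abs_nonneg (t - t')]

theorem NI.Hd_link (h : NI S s) (hK : s.kick = some K) (hl : Link S ((sysB S π).Dp s ρ) θ θ' t)
    (ht : t ∈ s.W) (h1 : θ ∈ tm K) (h2 : θ' ∈ tm K) : Hd s ρ K d θ t = Hd s ρ K d θ' t := by
  refine Hs_link (h.s1_pos hK _ _ d) hl ?_ _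
  exact congrArg (· / 16) (g0_link hl ht h1 h2)

/-- Close to the sources the operation does nothing. -/
theorem NI.H_small (hm : 4 ≤ π.m0) (h : NI S s) (hK : s.kick = some K) (h1 : p.1 ∈ tm K)
    (h2 : p.2 ∈ s.W) (h3 : (sysB S π).DI s K p ≤ s.w / 4) :
    ((sysB S π).hl s ρ K).H p.1 p.2 - xi0 s ρ ≤ 0 := by
  have hw := h.w0
  have h4 : Near S s.D s.W (SB.src s K) (s.w / 3) p :=
    near_of_dc_lt (h3.trans_lt (by linarith)) (by linarith) h2
  have h5 : ∃ d, Near S s.D s.W (chain s.D s.W (SB.wall K d)) (s.w / 3) p :=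
    (Near.union.1 h4).elim (fun k => ⟨true, k⟩) fun k => ⟨false, k⟩
  obtain ⟨d, h5⟩ := h5
  have h6 := g0_le (w := s.w) (θ := p.1) (t := p.2) ((h5.mono_D Subset.rfl
    (le_Dp (sysB S π) s ρ _)).mono (A' := chain ((sysB S π).Dp s ρ) s.W (SB.wall K d))
      (fun z hz => ⟨hz.1, Or.inl hz.2.1, hz.2.2⟩) le_rfl) h1 (mem_tgt d _)
  have h7 := h.Hd_le (ρ := ρ) (d := d) (θ := p.1) (t := p.2) hm hK
  have h8 := H_le_Hd (s := s) (ρ := ρ) (K := K) (θ := p.1) (t := p.2) d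
  have h9 := (xi0_mem ρ hw).1
  rw [sub_self, abs_zero] at h6
  norm_num at h7
  linarith

theorem NI.pin_DI (h : NI S s) (ρ : Rnd S π) (hK : s.kick = some K) (h1 : p.1 ∈ tm K)
    (h2 : Near S s.D s.W s.Pin (s.w / 100) p) : (sysB S π).DI s K p ≤ s.w / 4 := by
  obtain ⟨P, co, hA⟩ := h.act ρ
  obtain ⟨z, hz, c, hc, hr⟩ := h2
  have hw := h.w0
  by_cases h3 : z.1 ∈ tm K
  · have h4 := hA.kpin K hK z hz h3 hr.mem_left
    have h5 := dc_reach (A := SB.src s K) (cap := 20 * s.w) hr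
    change dc S s.D s.W (SB.src s K) (20 * s.w) p ≤ _
    linarith
  · exact (cand_near (b := base s P) (hA.cand (hA.kmem K hK)) h1 h3 hr).dc_le.trans (by linarith)

theorem NI.not_deep (h : NI S s) (ρ : Rnd S π) (h2 : Near S s.D s.W s.Pin (s.w / 100) p) :
    ¬(sysB S π).deep s ρ p := by
  obtain ⟨P, co, hA⟩ := h.act ρ
  rintro ⟨-, i, h3, h4⟩
  cases i with
  | some I =>
    obtain ⟨k1, k2⟩ := h.ch_kick.1 h3
    exact hA.far I k1.1 k1.2.1 p k2 h2
  | none =>
    obtain ⟨K, hK, d, hd⟩ := mem_Zs.1 (h.ch_zone.1 h3)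
    have e : cI s none = K := by simp [cI, hK]
    refine h4 (Or.inr ((mem_shal _).2 ?_))
    rw [e]
    exact (h.pin_DI ρ hK hd.1 h2).trans
      (show s.w / 4 ≤ del s ρ by linarith [(del_mem ρ h.w0).1, h.w0])

theorem psi0_none (Y : Sys S π) (hK : s.kick = none) : Y.psi0 s ρ θ t = 0 := by
  unfold Sys.psi0
  rw [hK]

theorem psi0_some (Y : Sys S π) (hK : s.kick = some K) : Y.psi0 s ρ θ t =
    if θ ∈ tm K then max 0 (min (trap s ρ t) ((Y.hl s ρ K).H θ t - xi0 s ρ)) else 0 := by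
  unfold Sys.psi0
  rw [hK]

theorem psi0_out (Y : Sys S π) (hw : 0 < s.w) (ht : t ∉ s.W) : Y.psi0 s ρ θ t = 0 := by
  cases hK : s.kick with
  | none => exact psi0_none Y hK
  | some K =>
    rw [psi0_some Y hK, trap_out ρ hw (by
      by_contra hn
      push Not at hn
      exact ht ⟨hn.1.le, hn.2.le⟩)]
    split_ifs
    exacts [max_eq_left (min_le_left _ _), rfl]

theorem psi0_small (Y : Sys S π) (hK : s.kick = some K)
    (h : θ ∈ tm K → (Y.hl s ρ K).H θ t - xi0 s ρ ≤ 0) : Y.psi0 s ρ θ t = 0 := by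
  rw [psi0_some Y hK]
  split_ifs with h1
  exacts [max_eq_left ((min_le_right _ _).trans (h h1)), rfl]

theorem NI.psi0_near (hm : 4 ≤ π.m0) (h : NI S s) (h2 : Near S s.D s.W s.Pin (s.w / 100) p) :
    (sysB S π).psi0 s ρ p.1 p.2 = 0 := by
  cases hK : s.kick with
  | none => exact psi0_none _ hK
  | some K => exact psi0_small _ hK fun h1 => h.H_small hm hK h1 h2.mem (h.pin_DI ρ hK h1 h2)

theorem trap_lip (t t' : ℝ) : trap s ρ t ≤ trap s ρ t' + |t - t'| := by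
  unfold trap
  have h1 := le_abs_self (t - t')
  have h2 := neg_abs_le (t - t')
  have h3 := le_max_left 0 (min (s.w / 20) (min (t' - s.lo - zz s ρ) (s.hi - zz s ρ - t')))
  have h4 := le_max_right 0 (min (s.w / 20) (min (t' - s.lo - zz s ρ) (s.hi - zz s ρ - t')))
  refine max_le (by linarith) ?_
  rcases min_le_iff.1 h4 with h5 | h5
  · exact (min_le_left _ _).trans (by linarith)
  · refine (min_le_right _ _).trans ?_
    rcases min_le_iff.1 h5 with h6 | h6
    · exact (min_le_left _ _).trans (by linarith)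
    · exact (min_le_right _ _).trans (by linarith)

theorem NI.okP (hm : 4 ≤ π.m0) (h : NI S s) (ρ : Rnd S π) : (sysB S π).OkP s ρ := by
  have hw := h.w0
  refine ⟨fun θ t t' => ?_, fun p hp => ?_, fun θ θ' t hl => ?_⟩
  · have key : ∀ t t', (sysB S π).psi0 s ρ θ t ≤ (sysB S π).psi0 s ρ θ t' + |t - t'| := by
      intro t t'
      have h0 := abs_nonneg (t - t')
      cases hK : s.kick with
      | none => simp only [psi0_none _ hK]; linarith
      | some K =>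
        simp only [psi0_some _ hK, H_eq]
        split_ifs
        · have h1 := trap_lip (s := s) (ρ := ρ) t t'
          have h2 := h.Hd_lip (ρ := ρ) (d := true) (θ := θ) hK t t'
          have h3 := h.Hd_lip (ρ := ρ) (d := false) (θ := θ) hK t t'
          have h4 := le_max_left 0 (min (trap s ρ t')
            (min (Hd s ρ K true θ t') (Hd s ρ K false θ t') - xi0 s ρ))
          have h5 := le_max_right 0 (min (trap s ρ t')
            (min (Hd s ρ K true θ t') (Hd s ρ K false θ t') - xi0 s ρ))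
          refine max_le (by linarith) ?_
          rcases min_le_iff.1 h5 with h6 | h6
          · exact (min_le_left _ _).trans (by linarith)
          · refine (min_le_right _ _).trans ?_
            rcases min_le_iff.1 (sub_le_iff_le_add.1 h6) with h7 | h7
            · linarith [min_le_left (Hd s ρ K true θ t) (Hd s ρ K false θ t)]
            · linarith [min_le_right (Hd s ρ K true θ t) (Hd s ρ K false θ t)]
        · linarith
    have h1 := key t t'
    have h2 := key t' t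
    rw [abs_sub_comm t' t] at h2
    exact abs_sub_le_iff.2 ⟨by linarith, by linarith⟩
  · by_cases h1 : p.2 ∈ s.W
    · exact h.psi0_near hm (Near.self hp h1 (by linarith))
    · exact psi0_out _ hw h1
  · by_cases ht : t ∈ s.W
    swap
    · rw [psi0_out _ hw ht, psi0_out _ hw ht]
    cases hK : s.kick with
    | none => rw [psi0_none _ hK, psi0_none _ hK]
    | some K =>
      obtain ⟨P, co, hc⟩ := h.kcand hK
      have key : ∀ θ θ', Link S ((sysB S π).Dp s ρ) θ θ' t → θ' ∉ tm K →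
          (sysB S π).psi0 s ρ θ t = 0 := fun θ θ' hl h2 => psi0_small _ hK fun h1 => by
        rcases link_Dp_cases _ hl with h3 | ⟨u, i, h3⟩
        · exact h.H_small (p := (θ, t)) hm hK h1 ht
            ((exit_cand (b := base s P) hc h3 ht h1 h2).dc_le.trans (by linarith))
        · exact absurd (h.ch_in hK h3.ch') h2
      by_cases h1 : θ ∈ tm K <;> by_cases h2 : θ' ∈ tm K
      · simp only [psi0_some _ hK, H_eq, h1, h2, if_true, h.Hd_link hK hl ht h1 h2]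
      · rw [key θ θ' hl h2, psi0_small _ hK fun h3 => absurd h3 h2]
      · rw [key θ' θ hl.symm h1, psi0_small _ hK fun h3 => absurd h3 h1]
      · rw [psi0_small _ hK fun h3 => absurd h3 h1, psi0_small _ hK fun h3 => absurd h3 h2]

theorem NI.psi_eq (hm : 4 ≤ π.m0) (h : NI S s) (ρ : Rnd S π) (θ : ℕ) (t : ℝ) :
    (sysB S π).psi s ρ θ t = (sysB S π).psi0 s ρ θ t := if_pos (h.okP hm ρ)

theorem NI.psi_near (hm : 4 ≤ π.m0) (h : NI S s) (h2 : Near S s.D s.W s.Pin (s.w / 100) p) :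
    (sysB S π).psi s ρ p.1 p.2 = 0 := (h.psi_eq hm ρ _ _).trans (h.psi0_near hm h2)

theorem NI.lab1_near (hm : 4 ≤ π.m0) (h : NI S s) (h2 : Near S s.D s.W s.Pin (s.w / 100) p) :
    (sysB S π).lab1 s ρ p.1 p.2 = s.lab p.1 p.2 := by
  unfold Sys.lab1
  rw [if_neg (h.not_deep ρ h2)]
  cases hK : s.kick with
  | none => rfl
  | some K =>
    refine if_pos (Or.inr ?_)
    by_cases h1 : p.1 ∈ tm K
    · exact Or.inr (h.H_small hm hK h1 h2.mem (h.pin_DI ρ hK h1 h2))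
    · exact Or.inl h1

end NB

end Vale.Agent.P235.Pl
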