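import Vale.Agent.P235P.NB3

/-! P235 planar case: the invariant of system B passes to the children. -/

open Set Classical

noncomputable section

namespace Vale.Agent.P235.Pl

namespace NB

variable {S : Sk} {π : Par} {s : St} {ρ : Rnd S π} {co : Coins S} {P : Set (ℕ × ℝ)}
  {I I' K : ℕ × ℕ} {p q : ℕ × ℝ} {a g θ θ' : ℕ} {c t v R : ℝ} {i : Option (ℕ × ℕ)} {d : Bool}

theorem mem_cPin (Y : Sys S π) : p ∈ Y.cPin s ρ i ↔
    p ∈ s.Pin ∨ Y.ch s ρ p.1 ≠ some i ∨ Y.DI s (cI s i) p ≤ thr s ρ i := by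
  unfold Sys.cPin
  rw [mem_union, mem_union, mem_shal, or_assoc]
  rfl

theorem NI.near_cPin (h : NI S s) (h1 : (sysB S π).ch s ρ p.1 = some i)
    (h2 : Near S s.D s.W ((sysB S π).cPin s ρ i) R p) :
    Near S s.D s.W s.Pin R p ∨ (sysB S π).DI s (cI s i) p ≤ thr s ρ i + R := by
  obtain ⟨z, hz, c, hc, hr⟩ := h2
  rcases (mem_cPin _).1 hz with k | k | k
  · exact Or.inl ⟨z, k, c, hc, hr⟩
  · exact Or.inr ((h.enter h1 k hr).trans (add_le_add (low_le_thr ρ h.w0 i) hc))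
  · have := dc_reach (A := (sysB S π).src s (cI s i)) (cap := 20 * s.w) hr
    unfold Sys.DI at k ⊢
    exact Or.inr (by linarith)

/-- Pending intervals other than the interval of the child are deep in the child. -/
theorem NI.deep_in (h : NI S s) (h1 : I ∈ (sysB S π).PE s ρ) (h2 : some I ≠ s.kick)
    (h3 : ∀ θ ∈ tm I, (sysB S π).ch s ρ θ = some i) (h4 : some I ≠ i) (h5 : p.1 ∈ tm I)
    (h6 : p.2 ∈ s.W) : 20 * s.w ≤ (sysB S π).DI s (cI s i) p := by
  obtain ⟨P, co, hA⟩ := h.act ρ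
  have k1 := (h.ch_cI (h3 _ h5)).1
  refine seam_dc (b := base s P) (hA.cand h1) (seam_of_sub (hA.cand h1) (hA.cand k1)
    (fun θ hθ => (h.ch_cI (h3 θ hθ)).2) fun e => ?_) h5 h6
  cases i with
  | some I' => exact h4 (congrArg some e)
  | none =>
    obtain ⟨K, hK, -⟩ := mem_Zs.1 (h.ch_zone.1 (h3 _ h5))
    exact h2 (by rw [e, hK]; simp [cI, hK])

theorem NI.child_vir (h : NI S s) (hp : p ∈ NB.vir S ((sysB S π).cSt s ρ i) (s.w / 100)) :
    ∃ g, Near S s.D s.W (chain s.D s.W g) (11 * s.w) p ∧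
      s.Unif (s.nb S (chain s.D s.W g) (12 * s.w)) := by
  obtain ⟨P, co, hA⟩ := h.act ρ
  obtain ⟨h1, h2⟩ := hp
  have hw := h.w0
  have h3 : (sysB S π).ch s ρ p.1 = some i := by
    by_contra hn
    exact h1 ((mem_cPin _).2 (Or.inr (Or.inl hn)))
  rcases h.near_cPin h3 h2 with k | k
  · exact absurd ⟨k.mem, i, h3, h1⟩ (h.not_deep ρ k)
  · exact cand_unif (b := base s P) (hA.cand (h.ch_cI h3).1) (near_of_dc_lt
      (k.trans_lt (show _ < 11 * s.w by linarith [thr_le ρ hw i]))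
      (show 11 * s.w ≤ 20 * s.w by linarith) h2.mem)

/-- A path from outside the open interval of an arc to its closed interval gives a path to one
of the columns at the same height. -/
theorem to_cols {D : Lk} {W : Set ℝ} {z : ℕ × ℝ} (hr : Reach S D W z (θ, t) c) (h1 : a ≤ θ)
    (h2 : θ ≤ S.mate a) (hz : z.1 ≤ a ∨ S.mate a ≤ z.1) :
    ∃ τ, (τ = a ∨ τ = S.mate a) ∧ ∃ c' ≤ c, Reach S D W z (τ, t) c' := by
  by_cases e : θ = a ∨ θ = S.mate a
  · exact ⟨θ, e, c, le_rfl, hr⟩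
  · obtain ⟨u, ⟨-, c₁, c₂, k1, k2, k3⟩ | ⟨-, c₁, c₂, k1, k2, k3⟩⟩ :=
      hr.symm.bar_open (a := a) (by simp only; omega) (by simp only; omega) hz
    · exact ⟨_, Or.inl rfl, _, by linarith [k1.symm.abs_le], k2.symm.vert hr.mem_right⟩
    · exact ⟨_, Or.inr rfl, _, by linarith [k1.symm.abs_le], k2.symm.vert hr.mem_right⟩

theorem NI.child_arc (h : NI S s) (ρ : Rnd S π) (i : Option (ℕ × ℕ)) :
    PinArc S ((sysB S π).cSt s ρ i) := by
  intro a θ t h1 h2 h3 ht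
  change (a, t) ∈ (sysB S π).cPin s ρ i ∨ (S.mate a, t) ∈ (sysB S π).cPin s ρ i
  have hw := h.w0
  simp only [mem_cPin]
  by_cases ha : (sysB S π).ch s ρ a = some i
  swap
  · exact Or.inl (Or.inr (Or.inl ha))
  by_cases hb : (sysB S π).ch s ρ (S.mate a) = some i
  swap
  · exact Or.inr (Or.inr (Or.inl hb))
  have ka := mem_tm.1 (h.ch_cI ha).2
  have kb := mem_tm.1 (h.ch_cI hb).2
  rcases (mem_cPin _).1 h3 with k | k | k
  · exact (h.arc a θ t h1 h2 k ht).imp Or.inl Or.inl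
  · cases i with
    | some I =>
      exact absurd (h.ch_kick.2 ⟨(h.ch_kick.1 ha).1, mem_tm.2 ⟨ka.1.trans_le h1, h2.trans kb.2⟩⟩) k
    | none =>
      obtain ⟨K, hK, d, hd⟩ := mem_Zs.1 (h.ch_zone.1 ha)
      have e : cI s none = K := by simp [cI, hK]
      rw [e] at ka kb ⊢
      have hθ : θ ∈ tm K := mem_tm.2 ⟨ka.1.trans_le h1, h2.trans kb.2⟩
      have k0 : θ ∉ SB.Zd S s K d := fun k0 => k (h.ch_zone.2 (mem_Zs.2 ⟨K, hK, d, k0⟩))
      cases d with
      | false =>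
        obtain ⟨-, p, k1, k2, k3⟩ := mem_Zf.1 hd
        exact absurd (mem_Zf.2 ⟨hθ, p, k1, k2, k3.trans h1⟩) k0
      | true =>
        obtain ⟨-, ⟨τ, u⟩, k1, k2, k3⟩ := mem_Zt.1 hd
        have k4 : τ < θ := not_le.1 fun k4 => k0 (mem_Zt.2 ⟨hθ, _, k1, k2, k4⟩)
        obtain ⟨z, hz, c, hc, hr⟩ := k1
        obtain ⟨τ', k5, c', k6, k7⟩ := to_cols (hr.vert ht) k3 (k4.le.trans h2)
          (Or.inl (hz.1.trans_lt ka.1).le)
        have k8 : (sysB S π).DI s K (τ', t) ≤ thr s ρ none :=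
          (Near.of_reach (A := SB.src s K) (Or.inl hz) k7 le_rfl).dc_le.trans
            (show c' ≤ del s ρ by linarith [(del_mem ρ hw).1, h.abs_le hr.mem_right ht])
        rcases k5 with rfl | rfl
        exacts [Or.inl (Or.inr (Or.inr k8)), Or.inr (Or.inr (Or.inr k8))]
  · have k1 : min ((sysB S π).DI s (cI s i) (a, t)) ((sysB S π).DI s (cI s i) (S.mate a, t)) ≤
        (sysB S π).DI s (cI s i) (θ, t) := by
      refine le_dc' ((min_le_left _ _).trans dc_le_cap) ht fun z hz c hr => ?_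
      obtain ⟨τ, k2, c', k3, k4⟩ := to_cols hr h1 h2 (by have := src_time hz; omega)
      have k5 : (sysB S π).DI s (cI s i) (τ, t) ≤ c := (Near.of_reach hz k4 k3).dc_le
      rcases k2 with rfl | rfl
      exacts [(min_le_left _ _).trans k5, (min_le_right _ _).trans k5]
    exact (min_le_iff.1 (k1.trans k)).imp (fun k => Or.inr (Or.inr k)) fun k => Or.inr (Or.inr k)

theorem NI.child_link (h : NI S s) (ρ : Rnd S π) (i : Option (ℕ × ℕ)) :
    PinLink S ((sysB S π).cSt s ρ i) := by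
  intro θ θ' t hl ht h1
  refine (mem_cPin _).2 ?_
  rcases (mem_cPin _).1 h1 with k | k | k
  · exact Or.inl (h.link θ θ' t hl ht k)
  · by_cases k1 : (sysB S π).ch s ρ θ' = some i
    · exact Or.inr (Or.inr ((h.bdry hl.symm ht k1 k).trans (low_le_thr ρ h.w0 i)))
    · exact Or.inr (Or.inl k1)
  · exact Or.inr (Or.inr ((dc_link hl ht).symm.trans_le k))

theorem NI.child (h : NI S s) (h1 : (sysB S π).ch s ρ θ = some i) :
    NI S ((sysB S π).cSt s ρ i) := by
  obtain ⟨P, co, hA⟩ := h.act ρ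
  have hw := h.w0
  refine ⟨h.w0, h.le, h.len, h.l0, h.lN, h.child_arc ρ i, h.child_link ρ i, ⟨fun p hp => ?_,
    fun θ t t' k1 k2 => ?_, fun θ θ' t hl k1 _ => ?_⟩, Or.inr ⟨_, P, co, rfl,
      hA.sub.trans fun p hp => (mem_cPin _).2 (Or.inl hp), fun I hI => hA.cand hI.1,
      fun K hK => ?_, fun K hK I hI θ hθ => ?_, fun I hI hn p hp k => ?_,
      fun K hK p k1 k2 k3 => ?_, fun K hK p hp => ?_⟩⟩
  · obtain ⟨g, k1, A, k2, k3⟩ := h.child_vir hp
    have := k3 p (k1.mono_R (by linarith))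
    exact ⟨this.1.symm ▸ k2, this.2⟩
  · obtain ⟨g, k3, A, -, k4⟩ := h.child_vir k1
    exact (k4 _ (k3.mono_R (by linarith))).1.trans (k4 (θ, t') ((k3.vert k2.2.mem).mono_R
      (by linarith [h.abs_le k3.mem k2.2.mem]))).1.symm
  · obtain ⟨g, k3, A, -, k4⟩ := h.child_vir k1
    exact (k4 _ (k3.mono_R (by linarith))).1.trans
      (k4 (θ', t) ((k3.link hl).mono_R (by linarith))).1.symm
  · obtain rfl : i = some K := hK
    have k := (h.ch_kick.1 h1).1
    exact ⟨k.1, k.2.1, fun θ hθ => h.ch_kick.2 ⟨k, hθ⟩⟩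
  · obtain rfl : i = some K := hK
    exact (h.ch_kick.1 (hI.2.2 θ hθ)).2
  · rcases h.near_cPin (hI.2.2 _ hp) k with k1 | k1
    · exact hA.far I hI.1 hI.2.1 p hp k1
    · have k2 := h.deep_in hI.1 hI.2.1 hI.2.2 hn hp k.mem
      have k3 : (sysB S π).DI s (cI s i) p ≤ thr s ρ i + s.w / 100 := k1
      linarith [thr_le ρ hw i]
  · obtain rfl : i = some K := hK
    have k := (h.ch_kick.1 h1).1
    rcases (mem_cPin _).1 k1 with k4 | k4 | k4
    · exact absurd (Near.self k4 k3 (by linarith)) (hA.far K k.1 k.2.1 p k2)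
    · exact absurd (h.ch_kick.2 ⟨k, k2⟩) k4
    · exact k4.trans (del'_mem ρ hw).2
  · obtain rfl : i = some K := hK
    exact (mem_cPin _).2 (Or.inr (Or.inl fun k => hp (h.ch_kick.1 k).2))

theorem NI.endc (h : NI S s) (ht : t ∈ s.W) (h1 : (sysB S π).ch s ρ θ = some i)
    (h2 : (sysB S π).DI s (cI s i) (θ, t) ≤ high s i) (ρ' : Rnd S π) (i' : Option (ℕ × ℕ))
    (h3 : (sysB S π).ch ((sysB S π).cSt s ρ i) ρ' θ = some i') :
    (sysB S π).DI ((sysB S π).cSt s ρ i) (cI ((sysB S π).cSt s ρ i) i') (θ, t) ≤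
      low ((sysB S π).cSt s ρ i) i' := by
  have hw := h.w0
  have h' := h.child h1
  cases i' with
  | some I' =>
    obtain ⟨k1, k2⟩ := h'.ch_kick.1 h3
    have k3 := h.deep_in (p := (θ, t)) k1.1.1 k1.1.2.1 k1.1.2.2 k1.2.1 k2 ht
    have k4 : high s i ≤ 11 * s.w := by
      unfold high
      split_ifs <;> linarith
    linarith
  | none =>
    obtain ⟨K, hK, -⟩ := mem_Zs.1 (h'.ch_zone.1 h3)
    obtain rfl : i = some K := hK
    exact h2.trans (show s.w / 4 ≤ 8 * s.w by linarith)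

end NB

end Vale.Agent.P235.Pl
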