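import Vale.Agent.P235P.NB4

/-! P235 planar case: the invariant of system B passes to the next state. -/

open Set Classical

noncomputable section

namespace Vale.Agent.P235.Pl

namespace NB

variable {S : Sk} {π : Par} {s : St} {ρ : Rnd S π} {p q : ℕ × ℝ} {θ θ' : ℕ} {c t u v R : ℝ}

theorem link_mid_cases (Y : Sys S π) (h : Link S (Y.mid s ρ).D θ θ' v) :
    ∃ u, Link S (Y.Dp s ρ) θ θ' u ∧ Y.Psi s ρ θ u = v := by
  rcases h with ⟨rfl, u, h, e⟩ | ⟨rfl, u, h, e⟩ | ⟨h1, rfl, u, h, e⟩ | ⟨h1, rfl, u, h, e⟩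
  · exact ⟨u, link_gap S h, e⟩
  · exact ⟨u, (link_gap S h).symm, (Y.Psi_link ρ (link_gap S h)).symm.trans e⟩
  · exact ⟨u, link_arc h1 h, e⟩
  · exact ⟨u, (link_arc h1 h).symm, (Y.Psi_link ρ (link_arc h1 h)).symm.trans e⟩

theorem NI.Psi_near (hm : 4 ≤ π.m0) (h : NI S s) (h1 : Near S s.D s.W s.Pin (s.w / 100) (θ, t)) :
    (sysB S π).Psi s ρ θ t = t := (sysB S π).Psi_of_zero ρ (h.psi_near hm h1)

theorem NI.Psi_inj (hm : 4 ≤ π.m0) (h : NI S s) (h1 : Near S s.D s.W s.Pin (s.w / 200) (θ, v))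
    (e : (sysB S π).Psi s ρ θ u = v) : u = v := by
  have hw := h.w0
  by_cases hu : u ∈ s.W
  swap
  · rw [← e, (sysB S π).Psi_out ρ hw]
    by_contra hn
    push Not at hn
    exact hu ⟨hn.1.le, hn.2.le⟩
  by_contra hn
  obtain ⟨u', k1, k2, k3⟩ := exists_btw hn (show 0 < s.w / 200 by linarith)
  have k4 := h.Psi_near (ρ := ρ) hm ((h1.vert (btw_mem hu h1.mem k1 k2)).mono_R (by linarith))
  have k5 := h.Psi_near (ρ := ρ) hm (h1.mono_R (by linarith))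
  have hM := (sysB S π).Psi_mono' (s := s) ρ θ
  rcases lt_or_gt_of_ne hn with k | k
  · rw [min_eq_left k.le] at k1
    rw [max_eq_right k.le] at k2
    have := hM k1.le
    rw [e, k4] at this
    linarith
  · rw [min_eq_right k.le] at k1
    rw [max_eq_left k.le] at k2
    have := hM k2.le
    rw [e, k4] at this
    linarith

theorem NI.link_Dp_near (h : NI S s) (h1 : Near S s.D s.W s.Pin (s.w / 200) (θ, v))
    (hl : Link S ((sysB S π).Dp s ρ) θ θ' v) : Link S s.D θ θ' v := by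
  have hw := h.w0
  rcases link_Dp_cases _ hl with k | ⟨t, i, k⟩
  · exact k
  · obtain ⟨u, k1, k2, -, k3⟩ := k.deep (show 0 < s.w / 200 by linarith)
    exact absurd k3 (h.not_deep ρ ((h1.vert k2).mono_R (by linarith)))

theorem NI.link_mid_near (hm : 4 ≤ π.m0) (h : NI S s)
    (h1 : Near S s.D s.W s.Pin (s.w / 200) (θ, v)) (hl : Link S ((sysB S π).mid s ρ).D θ θ' v) :
    Link S s.D θ θ' v := by
  obtain ⟨u, k1, k2⟩ := link_mid_cases _ hl
  obtain rfl := h.Psi_inj hm h1 k2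
  exact h.link_Dp_near h1 k1

theorem NI.near_mid (hm : 4 ≤ π.m0) (h : NI S s) {W' : Set ℝ} (hW : W' ⊆ s.W)
    (hR : R ≤ s.w / 200) (h1 : Near S ((sysB S π).mid s ρ).D W' s.Pin R p) :
    Near S s.D s.W s.Pin R p := by
  obtain ⟨z, hz, c, hc, hr⟩ := h1
  refine ⟨z, hz, c, hc, hr.inv (Q := fun q c => c ≤ s.w / 200 → Reach S s.D s.W z q c)
    (fun _ => Reach.refl (hW hr.mem_left)) ?_ ?_ (hc.trans hR)⟩
  · intro θ t t' c _ k2 k3 k4
    exact (k3 (le_trans (le_add_of_nonneg_right (abs_nonneg _)) k4)).vert (hW k2)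
  · intro θ θ' t c _ k2 k3 k4
    exact (k3 k4).link (h.link_mid_near hm (Near.of_reach hz (k3 k4) k4) k2)

theorem NI.lab_mid (hm : 4 ≤ π.m0) (h : NI S s) (h1 : Near S s.D s.W s.Pin (s.w / 200) (θ, v)) :
    ((sysB S π).mid s ρ).lab θ v = s.lab θ v := by
  have hw := h.w0
  have h2 := h1.mono_R (show s.w / 200 ≤ s.w / 100 by linarith)
  have e := h.Psi_inj hm h1 (Function.invFun_eq ⟨v, h.Psi_near (ρ := ρ) hm h2⟩)
  change (sysB S π).lab1 s ρ θ (Function.invFun ((sysB S π).Psi s ρ θ) v) = _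
  rw [e]
  exact h.lab1_near hm h2

theorem w'_le (hm : 16 ≤ π.m0) (hw : 0 < s.w) : 100 * w' s ρ ≤ s.w / 200 := by
  have h1 : (2 : ℝ) ^ 15 ≤ 2 ^ (π.m0 - 1 + (ρ.2.2.2.2.1 : ℕ)) :=
    pow_le_pow_right₀ one_le_two (by omega)
  have h2 : w' s ρ ≤ s.w / 2 ^ 15 := div_le_div_of_nonneg_left hw.le (by norm_num) h1
  norm_num at h2
  linarith

theorem Vir.mono {R' : ℝ} (h : Vir S s R) (hR : R' ≤ R) : Vir S s R' := by
  have k : ∀ {p}, p ∈ vir S s R' → p ∈ vir S s R := fun hp => ⟨hp.1, hp.2.mono_R hR⟩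
  exact ⟨fun p hp => h.mat p (k hp), fun θ t t' h1 h2 => h.col θ t t' (k h1) (k h2),
    fun θ θ' t hl h1 h2 => h.link θ θ' t hl (k h1) (k h2)⟩

theorem mid_L_empty (Y : Sys S π) {g : ℕ} (h : s.D.L g = ∅) : (Y.mid s ρ).D.L g = ∅ := by
  refine eq_empty_of_forall_notMem ?_
  rintro v ⟨u, hu | ⟨-, t, ht, -⟩, -⟩
  · rw [h] at hu; exact hu
  · rw [h] at ht; exact ht

theorem NI.next (hm : 16 ≤ π.m0) (h : NI S s) (hv : v ∈ Ico s.lo s.hi) :
    NI S (((sysB S π).mid s ρ).cut (w' s ρ) (off s ρ) v) := by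
  have hw := h.w0
  have hu := w'_pos ρ hw
  have hc := cell_mem hu (off s ρ) v
  have h100 := w'_le (ρ := ρ) hm hw
  have hm' : 4 ≤ π.m0 := by omega
  have hW : (((sysB S π).mid s ρ).cut (w' s ρ) (off s ρ) v).W ⊆ s.W :=
    Icc_subset_Icc (le_max_left _ _) (min_le_left _ _)
  have hV : Vir S (((sysB S π).mid s ρ).cut (w' s ρ) (off s ρ) v) (100 * w' s ρ) := by
    have k : ∀ {p}, p ∈ NB.vir S (((sysB S π).mid s ρ).cut (w' s ρ) (off s ρ) v) (100 * w' s ρ) →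
        Near S s.D s.W s.Pin (s.w / 200) p ∧ p ∈ NB.vir S s (s.w / 100) := fun hp =>
      have k1 := (h.near_mid hm' hW h100 hp.2).mono_R h100
      ⟨k1, hp.1, k1.mono_R (by linarith)⟩
    refine ⟨fun p hp => ?_, fun θ t t' h1 h2 => ?_, fun θ θ' t hl h1 h2 => ?_⟩
    · have k1 := h.vir.mat p (k hp).2
      rw [← h.lab_mid (ρ := ρ) hm' (k hp).1] at k1
      exact ⟨k1.1, le_trans (show w' s ρ ≤ s.w by linarith) k1.2⟩
    · have k1 := h.vir.col θ t t' (k h1).2 (k h2).2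
      rwa [← h.lab_mid (ρ := ρ) hm' (k h1).1, ← h.lab_mid (ρ := ρ) hm' (k h2).1] at k1
    · have k1 := h.vir.link θ θ' t (h.link_mid_near hm' (k h1).1 hl) (k h1).2 (k h2).2
      rwa [← h.lab_mid (ρ := ρ) hm' (k h1).1, ← h.lab_mid (ρ := ρ) hm' (k h2).1] at k1
  refine ⟨hu, (max_le hv.1 hc.1).trans (le_min hv.2.le hc.2.le), ?_, mid_L_empty _ h.l0,
    fun g hg => mid_L_empty _ (h.lN g hg), fun a θ t h1 h2 h3 h4 => h.arc a θ t h1 h2 h3 (hW h4),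
    fun θ θ' t hl ht h1 => h.link θ θ' t (h.link_mid_near hm'
      (Near.self h1 (hW ht) (by linarith)) hl) (hW ht) h1,
    hV.mono (show w' s ρ / 100 ≤ 100 * w' s ρ by linarith), Or.inl ⟨rfl, rfl, hV⟩⟩
  change min s.hi _ - max s.lo _ ≤ w' s ρ
  linarith [min_le_right s.hi (off s ρ + w' s ρ * (⌊(v - off s ρ) / w' s ρ⌋ + 1)),
    le_max_right s.lo (off s ρ + w' s ρ * ⌊(v - off s ρ) / w' s ρ⌋)]

theorem NI.init {D0 : Lk} {lo w : ℝ} (h : Init S D0) (hw : 0 < w) : NI S (st0 D0 lo w) := by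
  have hV : ∀ R, Vir S (st0 D0 lo w) R := fun R =>
    ⟨fun _ ⟨_, _, hz, _⟩ => hz.elim, fun _ _ _ _ _ => rfl, fun _ _ _ _ _ _ => rfl⟩
  exact ⟨hw, show lo ≤ lo + w by linarith, show lo + w - lo ≤ w by linarith, h.l0, h.lN,
    fun _ _ _ _ _ hz => hz.elim, fun _ _ _ _ _ hz => hz, hV _, Or.inl ⟨rfl, rfl, hV _⟩⟩

/-- At the start of a step a pin free neighbourhood of a chain close to the pins is uniform. -/
theorem NI.unif_of_near (h : NI S s) (h0 : s.pend = none) {e : ℕ} (hq : q ∈ chain s.D s.W e)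
    (h1 : Near S s.D s.W s.Pin (80 * s.w) q)
    (h2 : Disjoint (s.nb S (chain s.D s.W e) (12 * s.w)) s.Pin) :
    s.Unif (s.nb S (chain s.D s.W e) (12 * s.w)) := by
  have hw := h.w0
  have hV : Vir S s (100 * s.w) := by
    rcases h.node with ⟨-, -, k⟩ | ⟨A, P, co, k⟩
    · exact k
    · rw [k.pend] at h0
      exact absurd h0 (by simp)
  have k1 : ∀ p ∈ s.nb S (chain s.D s.W e) (12 * s.w), p ∈ NB.vir S s (100 * s.w) := by
    intro p hp
    refine ⟨disjoint_left.1 h2 hp, ?_⟩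
    obtain ⟨⟨θ, t⟩, hz, c, hc, hr⟩ := hp
    obtain ⟨θ', t'⟩ := q
    obtain rfl : θ = θ' := hz.1.trans hq.1.symm
    exact ((h1.vert hz.2.2).reach hr).mono_R (by linarith [h.abs_le hq.2.2 hz.2.2])
  have k0 : ∀ z ∈ chain s.D s.W e, z ∈ s.nb S (chain s.D s.W e) (12 * s.w) := fun z hz =>
    Near.self hz hz.2.2 (by linarith)
  refine ⟨_, (hV.mat q (k1 q (k0 q hq))).1, fun p hp => ⟨?_, (hV.mat p (k1 p hp)).2⟩⟩
  obtain ⟨z, hz, c, hc, hr⟩ := hp
  refine hr.inv (Q := fun p c => c ≤ 12 * s.w → (s.lab p.1 p.2).1 = (s.lab q.1 q.2).1)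
    (fun _ => ?_) ?_ ?_ hc
  · obtain ⟨θ, t⟩ := z
    obtain ⟨θ', t'⟩ := q
    obtain rfl : θ = θ' := hz.1.trans hq.1.symm
    exact hV.col θ t t' (k1 _ (k0 _ hz)) (k1 _ (k0 _ hq))
  · intro θ t t' c k2 k3 k4 k5
    have k6 : c ≤ 12 * s.w := le_trans (le_add_of_nonneg_right (abs_nonneg _)) k5
    exact (hV.col θ t' t (k1 _ (Near.of_reach hz (k2.vert k3) k5))
      (k1 _ (Near.of_reach hz k2 k6))).trans (k4 k6)
  · intro θ θ' t c k2 k3 k4 k5
    exact (hV.link θ θ' t k3 (k1 _ (Near.of_reach hz k2 k5))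
      (k1 _ (Near.of_reach hz (k2.link k3) k5))).symm.trans (k4 k5)

end NB

end Vale.Agent.P235.Pl
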