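import Vale.Agent.P235P.EA
import Vale.Agent.P235P.Contracts
import Vale.Agent.P235P.BEnv

/-! P235 planar case: the node invariant of system B. -/

open Set Classical

noncomputable section

namespace Vale.Agent.P235.Pl

variable (S : Sk)

namespace NB

/-- A pin between the ends of an arc gives a pin on one of its columns. -/
def PinArc (s : St) : Prop :=
  ∀ a θ t, a ≤ θ → θ ≤ S.mate a → (θ, t) ∈ s.Pin → t ∈ s.W →
    (a, t) ∈ s.Pin ∨ (S.mate a, t) ∈ s.Pin

/-- Pins are closed under links in the band. -/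
def PinLink (s : St) : Prop :=
  ∀ θ θ' t, Link S s.D θ θ' t → t ∈ s.W → (θ, t) ∈ s.Pin → (θ', t) ∈ s.Pin

/-- The points that are not pins and are `R`-close to a pin. -/
def vir (s : St) (R : ℝ) : Set (ℕ × ℝ) := {p | p ∉ s.Pin ∧ Near S s.D s.W s.Pin R p}

/-- Labels near the pins are mature and locally constant. -/
structure Vir (s : St) (R : ℝ) : Prop where
  mat : ∀ p ∈ vir S s R, 0 < (s.lab p.1 p.2).1 ∧ s.w ≤ (s.lab p.1 p.2).2
  col : ∀ θ t t', (θ, t) ∈ vir S s R → (θ, t') ∈ vir S s R → (s.lab θ t).1 = (s.lab θ t').1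
  link : ∀ θ θ' t, Link S s.D θ θ' t → (θ, t) ∈ vir S s R → (θ', t) ∈ vir S s R →
    (s.lab θ t).1 = (s.lab θ' t).1

/-- The state at the start of the step, with the pins `P`. -/
def base (s : St) (P : Set (ℕ × ℝ)) : St := { s with Pin := P, pend := none, kick := none }

/-- A node inside a step with the pending family `A`. -/
structure Ins (s : St) (A : Set (ℕ × ℕ)) (P : Set (ℕ × ℝ)) (co : Coins S) : Prop where
  pend : s.pend = some A
  sub : P ⊆ s.Pin
  cand : A ⊆ SB.cand S (base s P) co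
  kmem : ∀ K, s.kick = some K → K ∈ A
  kin : ∀ K, s.kick = some K → ∀ I ∈ A, tm I ⊆ tm K
  far : ∀ I ∈ A, some I ≠ s.kick → ∀ p : ℕ × ℝ, p.1 ∈ tm I → ¬ Near S s.D s.W s.Pin (s.w / 100) p
  kpin : ∀ K, s.kick = some K → ∀ p ∈ s.Pin, p.1 ∈ tm K → p.2 ∈ s.W →
    dc S s.D s.W (SB.src s K) (20 * s.w) p ≤ s.w / 5
  out : ∀ K, s.kick = some K → ∀ p : ℕ × ℝ, p.1 ∉ tm K → p ∈ s.Pin

/-- The node invariant. -/
structure NI (s : St) : Prop where
  w0 : 0 < s.w
  le : s.lo ≤ s.hi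
  len : s.hi - s.lo ≤ s.w
  l0 : s.D.L 0 = ∅
  lN : ∀ g, S.N ≤ g → s.D.L g = ∅
  arc : PinArc S s
  link : PinLink S s
  vir : Vir S s (s.w / 100)
  node : (s.pend = none ∧ s.kick = none ∧ Vir S s (100 * s.w)) ∨ ∃ A P co, Ins S s A P co

end NB

end Vale.Agent.P235.Pl
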