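import Vale.Agent.P235P.PAStep

/-! P235 planar case: transfer of paths between the initial diagram and an affine ball. -/

open Set Classical

noncomputable section

namespace Vale.Agent.P235.Pl

variable {S : Sk} {π : Par} {c : Ctx S} {s : St} {V : ℕ → ℝ → ℝ} {A b R k : ℝ} {ρ : Rnd S π}
  {Y : Sys S π} {W : Set ℝ} {p q : ℕ × ℝ}

namespace PA

theorem ball_reach (hp : p ∈ c.ball R) (h : Reach S c.D0 univ p q k) {R' : ℝ}
    (hk : R * c.r + k ≤ R' * c.r) : q ∈ c.ball R' := (Near.reach hp h).mono_R hk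

/-- Paths of the initial diagram inside the ball are mapped to paths. -/
theorem push (h : c.Rep s V A 8) (hb : ∀ p ∈ c.ball 8, V p.1 p.2 = A * p.2 + b)
    (hp : p ∈ c.ball R) (hr : Reach S c.D0 univ p q k) (hk : R * c.r + k ≤ 8 * c.r)
    (hW : Icc (A * p.2 + b - A * k) (A * p.2 + b + A * k) ⊆ W) :
    Reach S s.D W (p.1, A * p.2 + b) (q.1, A * q.2 + b) (A * k) := by
  have hA := h.pos
  have mem : ∀ {q k'}, Reach S c.D0 univ p q k' → k' ≤ k → A * q.2 + b ∈ W := fun {q k'} h1 h2 => by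
    have := abs_le.1 h1.abs_le
    exact hW ⟨by nlinarith, by nlinarith⟩
  have key := hr.inv (Q := fun q k' => k' ≤ k →
      Reach S s.D W (p.1, A * p.2 + b) (q.1, A * q.2 + b) (A * k')) ?_ ?_ ?_
  · exact key le_rfl
  · intro h0
    rw [mul_zero]
    exact .refl (mem (.refl (mem_univ _)) h0)
  · intro θ t t' k' h1 _ ih h2
    have h3 := (ih (by linarith [abs_nonneg (t - t')])).vert (mem (h1.vert (mem_univ t')) h2)
    refine h3.cast ?_
    rw [show A * t + b - (A * t' + b) = A * (t - t') by ring, abs_mul, abs_of_pos hA]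
    ring
  · intro θ θ' t k' h1 hl ih h2
    have h3 := (h.r1 θ θ' t hl).1
    rw [hb (θ, t) (ball_reach hp h1 (by linarith))] at h3
    exact (ih h2).link h3

theorem link_lift (h : c.Rep s V A 8) (hb : ∀ p ∈ c.ball 8, V p.1 p.2 = A * p.2 + b)
    (hsh : Shal Y c s ρ V A 8) {θ θ' : ℕ} {t : ℝ} (hp : (θ, t) ∈ c.ball 7)
    (hl : Link S (Y.Dp s ρ) θ θ' (A * t + b)) : Link S c.D0 θ θ' t := by
  have hA := h.pos
  have hr := c.r_pos
  have hv : ∀ u, |u - t| ≤ c.r → (θ, u) ∈ c.ball 8 := fun u hu =>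
    ball_reach hp (Reach.col S c.D0 θ (mem_univ t) (mem_univ u))
      (by rw [abs_sub_comm]; linarith)
  have h8 : (θ, t) ∈ c.ball 8 := hv t (by simpa using hr.le)
  have h1 : Link S s.D θ θ' (A * t + b) := by
    refine fmid1_thin hl (mul_pos hA hr) fun v _ hv' => ?_
    have e : v = A * ((v - b) / A) + b := by field_simp; ring
    have h2 : |(v - b) / A - t| ≤ c.r := by
      rw [show (v - b) / A - t = (v - (A * t + b)) / A by field_simp; ring, abs_div, abs_of_pos hA,
        div_le_iff₀' hA]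
      exact hv'
    have h3 := hsh.not_deep hA.le (hv _ h2)
    rwa [hb _ (hv _ h2), ← e] at h3
  rw [← hb _ h8] at h1
  obtain ⟨t', h2, h3⟩ := h.r2 θ θ' t h8 h1
  rwa [inj_of_aff (h.mono θ) hA hr (fun u hu => hb _ (hv u hu)) t' h3] at h2

/-- Short paths that start in the image of the ball come from the initial diagram. -/
theorem lift (h : c.Rep s V A 8) (hb : ∀ p ∈ c.ball 8, V p.1 p.2 = A * p.2 + b)
    (hsh : Shal Y c s ρ V A 8) (hp : p ∈ c.ball R)
    (hr : Reach S (Y.Dp s ρ) W (p.1, A * p.2 + b) q k) (hk : R * c.r + k / A ≤ 7 * c.r) :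
    Reach S c.D0 univ p (q.1, (q.2 - b) / A) (k / A) := by
  have hA := h.pos
  have key := hr.inv (Q := fun q k' => k' ≤ k → Reach S c.D0 univ p (q.1, (q.2 - b) / A) (k' / A))
    ?_ ?_ ?_
  · exact key le_rfl
  · intro _
    rw [zero_div, show (A * p.2 + b - b) / A = p.2 by field_simp; ring]
    exact .refl (mem_univ _)
  · intro θ t t' k' _ _ ih h2
    refine ((ih (by linarith [abs_nonneg (t - t')])).vert (mem_univ ((t' - b) / A))).cast ?_
    rw [show (t - b) / A - (t' - b) / A = (t - t') / A by ring, abs_div, abs_of_pos hA, add_div]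
  · intro θ θ' t k' _ hl ih h2
    have h3 := ih h2
    refine h3.link (link_lift h hb hsh (ball_reach hp h3 ?_) ?_)
    · linarith [div_le_div_of_nonneg_right h2 hA.le]
    · rwa [show A * ((t - b) / A) + b = t by field_simp; ring]

end PA

end Vale.Agent.P235.Pl
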