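import Vale.Agent.P235P.NA1

/-! P235 planar case: cells of system A. -/

open Set Classical

noncomputable section

namespace Vale.Agent.P235.Pl

variable {S : Sk} {D : Lk} {W : Set ℝ} {H : ℕ → ℝ → ℝ} {κ : Cone} {I : ℕ × ℕ} {a q θ : ℕ}
  {t pk : ℝ}

namespace PA

/-- Envelopes with sources outside of an arc are controlled by the value at the top. -/
theorem env_arc {B : Set (ℕ × ℝ)} {f : ℕ × ℝ → ℝ} {k cap m : ℝ} (hk : 0 ≤ k)
    (hf : ∀ p ∈ B, p.2 ∈ W → m ≤ f p) (hp : Link S D q (S.mate q) pk) (hW : pk ∈ W)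
    (hB : ∀ p ∈ B, p.1 ≤ q ∨ S.mate q ≤ p.1) (h1 : q ≤ θ) (h2 : θ ≤ S.mate q) (t : ℝ) :
    envT S D W B f k (fun θ => {θ}) cap q pk ≤
      envT S D W B f k (fun θ => {θ}) cap θ t + k * |t - pk| := by
  refine envT_le_add hk hf (le_add_of_nonneg_right (by positivity)) fun p hp' z c hr hz => ?_
  have hz' : z.1 = θ := hz
  obtain ⟨y, hy, c₁, c₂, r1, r2, e⟩ : ∃ y ∈ cols S W q, Via S D W p y z c := by
    by_cases h : q < z.1 ∧ z.1 < S.mate q
    · obtain ⟨y, hy, hv⟩ := NA.cross' hr.symm h.1 h.2 (hB p hp')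
      exact ⟨y, hy, hv.symm⟩
    · exact ⟨z, ⟨by omega, hr.mem_right⟩, c, 0, hr, .refl hr.mem_right, add_zero _⟩
  have r3 : Reach S D W p (q, pk) (c₁ + |y.2 - pk|) := by
    obtain ⟨θ', u⟩ := y
    rcases hy.1 with e' | e'
    · obtain rfl : θ' = q := e'
      exact r1.vert hW
    · obtain rfl : θ' = S.mate q := e'
      exact (r1.vert hW).link hp.symm
  refine Or.inr ⟨p, hp', _, _, r3, rfl, ?_⟩
  have a1 := r2.abs_le
  have a2 := abs_sub_le y.2 z.2 pk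
  have a3 := abs_sub_le z.2 t pk
  rw [abs_sub_comm z.2 t] at a3
  have : c₁ + |y.2 - pk| + |pk - pk| ≤ c + |t - z.2| + |t - pk| := by
    rw [sub_self, abs_zero]
    linarith
  nlinarith [mul_le_mul_of_nonneg_left this hk]

theorem fp_arc (h : SA.Fp S D I H κ a) :
    a < S.mate a ∧ I.1 < a ∧ S.mate a ≤ I.2 ∧ E12 H κ (a - 1, S.mate a) :=
  ((greedy_iff _ _ _).1 h).1

theorem cellOK (h0 : ∀ θ t, 0 ≤ H θ t) (h : SA.Fp S D I H κ a) :
    CellOK S D H κ ((a - 1, S.mate a), SA.E S D H κ a) := by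
  obtain ⟨ha, -, -, he⟩ := fp_arc h
  have hf : ∀ p ∈ cols S κ.Ip a, p.2 ∈ κ.Ip → 0 ≤ H p.1 p.2 := fun p _ _ => h0 _ _
  refine ⟨fun θ t => envT_le_cap (by norm_num) hf, fun θ t t' => ?_,
    fun θ θ' t hl ht _ _ => env1_link (by norm_num) hf hl ht, fun θ θ' t hl ht h1 h2 => ?_, he⟩
  · exact (envT_lip (by norm_num) hf t t').trans_eq (by ring)
  · have := env1_le (S := S) (D := D) (cap := κ.a + 2 * κ.s) (k := 1 / 16) (by norm_num) hf
      (NA.exit_cols ha hl ht h1 h2) (Reach.refl ht)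
    rw [mul_zero, add_zero] at this
    exact this

/-- No short path in the band between the columns of two arcs. -/
def Far (S : Sk) (D : Lk) (W : Set ℝ) (a a' : ℕ) (R : ℝ) : Prop :=
  ∀ p ∈ cols S W a, ∀ p' ∈ cols S W a', ∀ k, Reach S D W p p' k → R < k

theorem pick (hq : q < S.mate q) (h3 : I.1 < q) (h4 : S.mate q ≤ I.2)
    (he : E12 H κ (q - 1, S.mate q)) :
    ∃ a, SA.Fp S D I H κ a ∧ a ≤ q ∧ S.mate q ≤ S.mate a := by
  by_cases h : SA.Fp S D I H κ q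
  · exact ⟨q, h, le_rfl, le_rfl⟩
  by_contra hc
  exact h ((greedy_iff _ _ _).2 ⟨⟨hq, h3, h4, he⟩, fun a k1 k2 k3 => hc ⟨a, k2, k1.le, k3.1.le⟩⟩)

theorem E_cap {q' : ℕ} (hs : 0 ≤ κ.s) (hl : ∀ θ t t', |H θ t - H θ t'| ≤ |t - t'|)
    (h : SA.Fp S D I H κ a) (h1 : a ≤ q') (h2 : S.mate q' ≤ S.mate a) (hq : q < S.mate q)
    (h3 : q' < q) (h4 : S.mate q < S.mate q') (hf : Far S D κ.Ip q q' (2000 * κ.s))
    (h5 : q ≤ θ) (h6 : θ ≤ S.mate q) (ht : t ∈ κ.Ip) :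
    κ.a + 2 * κ.s ≤ SA.E S D H κ a θ t := by
  obtain ⟨ha, -, -, he⟩ := fp_arc h
  refine le_env1 (q := (θ, t)) le_rfl ht fun p hp c hr => ?_
  have hp1 : p.1 ≤ q' ∨ S.mate q' ≤ p.1 := by rcases hp.1 with e | e <;> omega
  obtain ⟨z, hz, c₁, c₂, r1, r2, e⟩ := NA.cross hr.symm hq h5 h6 (by omega)
  obtain ⟨z', hz', c₃, c₄, r3, r4, e'⟩ := NA.cross' r2 (a := q')
    (by rcases hz.1 with e | e <;> omega) (by rcases hz.1 with e | e <;> omega) hp1
  have k1 := hf z hz z' hz' c₃ r3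
  have k2 : p.1 ∈ tm (a - 1, S.mate a) := (NA.mem_iv ha).2 (by rcases hp.1 with e | e <;> omega)
  have k3 := (he.2 p.1 k2).1
  have k4 := abs_le.1 (hl p.1 (κ.t - 52 * κ.s) p.2)
  have k5 : |κ.t - 52 * κ.s - p.2| ≤ 112 * κ.s :=
    abs_le.2 ⟨by linarith [hp.2.2], by linarith [hp.2.1]⟩
  have k6 : κ.G (κ.t - 52 * κ.s) = κ.a - 24 * κ.s := by
    unfold Cone.G
    rw [show κ.t - 52 * κ.s - κ.t = -(52 * κ.s) by ring, abs_neg, abs_of_nonneg (by positivity),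
      max_eq_right (by linarith)]
    ring
  have k7 := he.1 p.1 k2
  have k8 : κ.a - 56 * κ.s ≤ H p.1 p.2 := by
    by_cases c1 : p.2 < κ.t - 52 * κ.s
    · have : |κ.t - 52 * κ.s - p.2| ≤ 8 * κ.s := abs_le.2 ⟨by linarith, by linarith [hp.2.1]⟩
      linarith [k4.2]
    by_cases c2 : κ.t + 52 * κ.s < p.2
    · have k9 := (he.2 p.1 k2).2
      have k10 : κ.G (κ.t + 52 * κ.s) = κ.a - 24 * κ.s := by
        unfold Cone.G
        rw [show κ.t + 52 * κ.s - κ.t = 52 * κ.s by ring, abs_of_nonneg (by positivity),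
          max_eq_right (by linarith)]
        ring
      have k11 := abs_le.1 (hl p.1 (κ.t + 52 * κ.s) p.2)
      have : |κ.t + 52 * κ.s - p.2| ≤ 8 * κ.s := abs_le.2 ⟨by linarith [hp.2.2], by linarith⟩
      linarith [k11.2]
    · have k9 := k7 p.2 ⟨not_lt.1 c1, not_lt.1 c2⟩
      have : max 0 (|p.2 - κ.t| - 28 * κ.s) ≤ 24 * κ.s := max_le (by positivity)
        (by linarith [(abs_le (a := p.2 - κ.t) (b := 52 * κ.s)).2 ⟨by linarith, by linarith⟩])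
      unfold Cone.G at k9
      linarith
  linarith [r1.nonneg, r4.nonneg]

end PA

end Vale.Agent.P235.Pl
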