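import Vale.Agent.P235P.PA1
import Vale.Agent.P235P.HBall

/-! P235 planar case: lower bounds for the pieces of system A. -/

open Set Classical

noncomputable section

namespace Vale.Agent.P235.Pl

variable {S : Sk} {π : Par} {s : St} {D : Lk} {a₀ q q' θ : ℕ} {t pk w : ℝ} {b : HB} {hs : HS π}
  {X : Cone → Finset ℝ}

namespace PA

theorem Hs_nonneg {P : HP} (hb : P.Ball π b w) (j θ : ℕ) (t : ℝ) : 0 ≤ P.Hs hs j θ t :=
  (hb.good.nonneg θ t).trans (HP.Hs_mono (hs := hs) hb.good.s1 (Nat.zero_le j) θ t)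

theorem lb {j : ℕ} (ha : a₀ < S.mate a₀) (hb : (SA.hp S π s D (NA.iv S a₀)).Ball π b w)
    (hp : (SA.hp S π s D (NA.iv S a₀)).Piece hs b X j) (h1 : a₀ ≤ q) (h2 : S.mate q ≤ S.mate a₀)
    (hl : Link S D q (S.mate q) pk) (hB : (q, pk) ∈ (SA.hp S π s D (NA.iv S a₀)).Bl b)
    (hq' : S.mate q ∈ b.TB) (h3 : q ≤ θ) (h4 : θ ≤ S.mate q) (ht : |t - b.x.2| ≤ 80 * b.u) :
    (SA.hp S π s D (NA.iv S a₀)).Hs hs j q pk - |t - pk| / 16 ≤
      (SA.hp S π s D (NA.iv S a₀)).Hs hs j θ t := by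
  set P := SA.hp S π s D (NA.iv S a₀) with hP
  have hu := hb.u0
  have k1 := abs_le.1 (HP.Bl_abs hB)
  have k2 := abs_le.1 ht
  have hpk : pk ∈ Icc (b.x.2 - 100 * b.u) (b.x.2 + 100 * b.u) :=
    ⟨by linarith [k1.1], by linarith [k1.2]⟩
  rcases hp.org with ho | ⟨m, i, k, ho⟩
  · have e1 := ho _ hB
    have e2 : P.H0 θ t ≤ P.Hs hs j θ t := HP.Hs_mono (hs := hs) hb.good.s1 (Nat.zero_le j) θ t
    have e3 := env_arc (S := S) (D := D) (W := s.W) (B := cols S s.W ((NA.iv S a₀).1 + 1))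
      (f := fun _ => 0) (k := 1) (cap := 5 * s.w) (m := 0) zero_le_one (fun _ _ _ => le_rfl) hl
      (hb.win hpk) (fun p hp' => by
        rw [NA.iv_fst ha] at hp'
        rcases hp'.1 with e | e <;> omega) h3 h4 t
    have e4 : P.H0 q pk ≤ P.H0 θ t + |t - pk| / 16 := by
      show dc _ _ _ _ _ _ / 16 ≤ dc _ _ _ _ _ _ / 16 + _
      unfold dc
      linarith
    simp only at e1
    linarith
  · by_contra hc
    have e1 := ho.eq _ hB
    obtain ⟨c, c1, c2, c3⟩ := HP.exists_lt_Emax ho.cell (θ := q) (t := pk)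
      (v := P.Hs hs j θ t + xim P.s1 hs m + |t - pk| / 16) (by simp only at e1; linarith)
    obtain ⟨⟨a, ha', rfl⟩, -⟩ := id c1
    have ha1 := (fp_arc ha').1
    have m1 := (NA.mem_iv ha1).1 (c2 (hb.time hB))
    have m2 := (NA.mem_iv ha1).1 (c2 hq')
    have hs0 : 0 ≤ (cone P.s1 hs m i k).s := (scl_pos hb.good.s1 m).le
    have e3 := env_arc (S := S) (D := D) (W := (cone P.s1 hs m i k).Ip)
      (B := cols S (cone P.s1 hs m i k).Ip a) (f := fun p => P.Hs hs m p.1 p.2) (k := 1 / 16)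
      (cap := (cone P.s1 hs m i k).a + 2 * (cone P.s1 hs m i k).s) (m := 0) (by norm_num)
      (fun _ _ _ => Hs_nonneg hb _ _ _) hl ((cone P.s1 hs m i k).I0_sub hs0 (ho.ins hpk))
      (fun p hp' => by rcases hp'.1 with e | e <;> simp only at m1 <;> omega) h3 h4 t
    have e4 := HP.term_le_raise hb.good.s1 ho.adm c1 (θ := θ) (t := t)
      ((NA.mem_iv ha1).2 ⟨by simp only at m1; omega, by omega⟩)
      (ho.ins ⟨by linarith [k2.1], by linarith [k2.2]⟩)
    rw [← HP.Hs_succ] at e4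
    have e5 := HP.Hs_mono (hs := hs) hb.good.s1 (show (m : ℕ) + 1 ≤ j from ho.lt) θ t
    have e6 := abs_le.1 (hb.Hs_var (hs := hs) j hB)
    have e7 := abs_le.1 ((cone P.s1 hs m i k).G_lip t b.x.2)
    have e8 := ho.below
    have e9 := abs_nonneg (t - pk)
    change _ < SA.E S D (P.Hs hs m) (cone P.s1 hs m i k) a q pk at c3
    change SA.E S D (P.Hs hs m) (cone P.s1 hs m i k) a q pk ≤
      SA.E S D (P.Hs hs m) (cone P.s1 hs m i k) a θ t + _ at e3
    rcases min_le_iff.1 (e4.trans e5) with e | e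
    · simp only at e6
      linarith [e6.2, e7.1]
    · change SA.E S D (P.Hs hs m) (cone P.s1 hs m i k) a θ t - _ ≤ _ at e
      linarith

/-- The success event makes the points inside of the inner arc done. -/
theorem done_of_suc {I : ℕ × ℕ} (hb : (SA.hp S π s D I).Ball π b w) {n : Fin π.nS} {i k : ℤ}
    (hadm : Adm s.W (SA.hp S π s D I).s1 hs n i k) (hq' : q' < S.mate q') (h1 : I.1 < q')
    (h2 : S.mate q' ≤ I.2) (hq : q < S.mate q) (h3 : q' < q) (h4 : S.mate q < S.mate q')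
    (hf : Far S D (cone (SA.hp S π s D I).s1 hs n i k).Ip q q'
      (2000 * (cone (SA.hp S π s D I).s1 hs n i k).s))
    (hlow : ∀ θ, q' ≤ θ → θ ≤ S.mate q' → ∀ t ∈ (cone (SA.hp S π s D I).s1 hs n i k).I0,
      (cone (SA.hp S π s D I).s1 hs n i k).a - 24 * (cone (SA.hp S π s D I).s1 hs n i k).s ≤
        (SA.hp S π s D I).Hs hs n θ t)
    (h5 : q ≤ θ) (h6 : θ ≤ S.mate q)
    (ht : |t - (cone (SA.hp S π s D I).s1 hs n i k).t| ≤
      28 * (cone (SA.hp S π s D I).s1 hs n i k).s)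
    (hlt : (SA.hp S π s D I).Hs hs n θ t < (cone (SA.hp S π s D I).s1 hs n i k).a) :
    (SA.hp S π s D I).Done hs θ t n i k := by
  set P := SA.hp S π s D I with hP
  set κ := cone P.s1 hs n i k with hκ
  have hs0 : 0 < κ.s := scl_pos hb.good.s1 n
  have he : E12 (P.Hs hs n) κ (q' - 1, S.mate q') := by
    have g : ∀ t, κ.G t ≤ κ.a - (|t - κ.t| - 28 * κ.s) := fun t =>
      sub_le_sub_left (le_max_right _ _) _
    refine ⟨fun θ hθ t ht => ?_, fun θ hθ => ⟨?_, ?_⟩⟩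
    · have := (NA.mem_iv hq').1 hθ
      linarith [hlow θ this.1 this.2 t ht, κ.G_le t]
    · have := (NA.mem_iv hq').1 hθ
      have k1 := hlow θ this.1 this.2 (κ.t - 52 * κ.s) ⟨le_rfl, by linarith⟩
      have k2 := g (κ.t - 52 * κ.s)
      linarith [neg_le_abs (κ.t - 52 * κ.s - κ.t)]
    · have := (NA.mem_iv hq').1 hθ
      have k1 := hlow θ this.1 this.2 (κ.t + 52 * κ.s) ⟨by linarith, le_rfl⟩
      have k2 := g (κ.t + 52 * κ.s)
      linarith [le_abs_self (κ.t + 52 * κ.s - κ.t)]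
  obtain ⟨a, ha, a1, a2⟩ := pick (D := D) (I := I) hq' h1 h2 he
  have ht0 : t ∈ κ.I0 := ⟨by linarith [(abs_le.1 ht).1], by linarith [(abs_le.1 ht).2]⟩
  have hl : ∀ θ t t', |P.Hs hs n θ t - P.Hs hs n θ t'| ≤ |t - t'| := HP.Hs_lip hb.good.s1
    (fun θ t t' => (hb.good.lip θ t t').trans (by linarith [abs_nonneg (t - t')])) n
  have hc := E_cap hs0.le hl ha a1 a2 hq h3 h4 hf h5 h6 (κ.I0_sub hs0.le ht0)
  refine HP.done_of_cell hb.good.s1 hadm (c := ((a - 1, S.mate a), SA.E S D (P.Hs hs n) κ a))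
    ⟨⟨a, ha, rfl⟩, cellOK (Hs_nonneg hb n) ha⟩
    ((NA.mem_iv (fp_arc ha).1).2 ⟨by omega, by omega⟩) ht0 ?_ ?_
  · rwa [κ.G_core ht]
  · have := (xim_mem hb.good.s1 hs n).2
    rw [κ.G_core ht]
    change xim P.s1 hs n ≤ 2 * κ.s at this
    linarith

end PA

end Vale.Agent.P235.Pl
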