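import Vale.Agent.P235P.PA0
import Vale.Agent.P235P.PA2
import Vale.Agent.P235P.NA4
import Vale.Agent.P235P.HBirth

/-! P235 planar case: the birth step of system A. -/

open Set Classical

noncomputable section

namespace Vale.Agent.P235.Pl

variable {S : Sk} {π : Par} {N : NodeC (sysA S π)} {c : Ctx S} {s : St} {V : ℕ → ℝ → ℝ}
  {A : ℝ} {y : ℕ} {co : Coins S} {dd : Qn π × Qn π} {eo : Fin (2 * π.m0 + 2) × Qn π}
  {q : Fin 4 → ℕ} {pk : Fin 4 → ℝ} {z o : ℕ × ℝ} {a₀ : ℕ} {ρ : Rnd S π}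

namespace PA

theorem nest (hT : TypeA c q pk z o) {i j : Fin 4} (h : i < j) :
    q i < q j ∧ S.mate (q j) < S.mate (q i) := by
  have h1 := hT.nest h
  have h2 := hT.sep i
  have h3 := hT.sep j
  refine ⟨h1, (S.nest h2.1 h3.1 h1).resolve_left ?_⟩
  have := h2.2.2.1
  have := h3.2.1
  omega

theorem z_mem (hT : TypeA c q pk z o) : z ∈ c.ball 1 ∧ |z.2 - c.x.2| ≤ c.rs := by
  rcases hT.zo with ⟨rfl, -⟩ | ⟨rfl, -⟩
  · exact ⟨c.x_mem zero_le_one, by simpa using c.rs_pos.le⟩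
  · exact ⟨c.y_mem le_rfl, by rw [abs_sub_comm]; exact c.lev⟩

theorem col_mem (hT : TypeA c q pk z o) (i : Fin 4) {θ : ℕ} (hθ : θ = q i ∨ θ = S.mate (q i))
    {t : ℝ} (ht : |t - c.x.2| ≤ 100 * c.rs) : (θ, t) ∈ c.ball 2 := by
  refine ball_reach (hT.near i) (to_top hT i hθ t) ?_
  have := abs_le.1 (hT.lev i)
  have := abs_le.1 ht
  have : |pk i - t| ≤ 101 * c.rs := abs_le.2 ⟨by linarith, by linarith⟩
  linarith [c.le_r, c.rs_pos]

theorem far_cols (hT : TypeA c q pk z o) {i j : Fin 4} (hij : i ≠ j) {p p' : ℕ × ℝ} {k : ℝ}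
    (h1 : p.1 = q i ∨ p.1 = S.mate (q i)) (h2 : p'.1 = q j ∨ p'.1 = S.mate (q j))
    (h3 : |p.2 - c.x.2| ≤ 100 * c.rs) (h4 : |p'.2 - c.x.2| ≤ 100 * c.rs)
    (hr : Reach S c.D0 univ p p' k) : 4000 * c.rs ≤ k := by
  have := hT.far i j _ hij (((to_top hT i h1 p.2).trans hr).trans (to_top hT j h2 p'.2).symm)
  have a1 := abs_le.1 (hT.lev i)
  have a2 := abs_le.1 (hT.lev j)
  have a3 := abs_le.1 h3
  have a4 := abs_le.1 h4
  have : |pk i - p.2| ≤ 101 * c.rs := abs_le.2 ⟨by linarith, by linarith⟩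
  have : |pk j - p'.2| ≤ 101 * c.rs := abs_le.2 ⟨by linarith, by linarith⟩
  linarith [c.rs_pos]

theorem core_time (hT : TypeA c q pk z o) {tk : ℝ} (ht : |tk - c.x.2| ≤ c.rs) {p : ℕ × ℝ}
    (hp : p ∈ c.coreA (q 3) tk) :
    (q 2 ≤ p.1 ∧ p.1 ≤ S.mate (q 2)) ∧ |p.2 - tk| ≤ 27 * c.rs ∧
      ∃ k ≤ 29 * c.rs, Reach S c.D0 univ (q 3, pk 3) p k := by
  obtain ⟨p0, ⟨h1, h2⟩, k, hk, hr⟩ := hp
  have a1 := abs_le.1 ht
  have a2 := abs_le.1 h2
  have a3 := abs_le.1 (hT.lev 3)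
  have hs := c.rs_pos
  have hn := nest hT (show (2 : Fin 4) < 3 by decide)
  have h3 := (hT.sep 3).1
  have a0 := abs_le.1 hr.abs_le
  refine ⟨?_, abs_le.2 ⟨by linarith, by linarith⟩, _, ?_, (to_top hT 3 h1 p0.2).trans hr⟩
  · by_contra hc
    obtain ⟨u, hu, c₁, c₂, r1, r2, e⟩ := NA.cross hr (hT.sep 2).1
      (by rcases h1 with e | e <;> omega) (by rcases h1 with e | e <;> omega) (by omega)
    have a4 := abs_le.1 r1.abs_le
    have := far_cols hT (show (3 : Fin 4) ≠ 2 by decide) h1 hu.1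
      (abs_le.2 ⟨by linarith, by linarith⟩)
      (abs_le.2 ⟨by linarith [r2.nonneg], by linarith [r2.nonneg]⟩) r1
    linarith [r2.nonneg]
  · have : |pk 3 - p0.2| ≤ 28 * c.rs := abs_le.2 ⟨by linarith, by linarith⟩
    linarith

theorem healAt (h : At (sysA S π) c s N V A y (NA.iv S a₀) co dd eo) (hN : NA.NI S s)
    {Af : Set ℕ} (K : NA.Kick S s a₀ Af) {p : ℕ × ℝ} (hp : p ∈ c.thick V A)
    (hn : Near S s.D s.W (cols S s.W a₀) (5 * s.w) p) (u : Qn π × Qn π × HS π) :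
    HealAt (sysA S π) c s V A (NA.iv S a₀) co dd eo (NA.hpk s (co, dd, u, true, eo) a₀) := by
  have ha := K.fam.arc _ K.mem
  have hA := h.rep.pos
  have e : (NA.hpk s (co, dd, u, true, eo) a₀ : HP).s1 = sTop π s.w A := by
    obtain ⟨B, -, hB⟩ := K.fam.unif _ K.mem
    obtain ⟨b, hb⟩ := h.aff
    obtain ⟨t, h1, h2⟩ := hp
    have h3 := h.big.small hA
    have h4 := mul_pos hA c.r_pos
    have h5 : Near S s.D s.W (cols S s.W a₀) (12 * s.w) (p.1, V p.1 t) :=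
      (Near.vert hn (h.rep.mem_W h.win le_rfl h1)).mono_R (by linarith)
    have h6 : B = A := (hB _ h5).1.symm.trans (hb _ h1).2.1
    show sTop π s.w (s.labA (cols S s.W ((NA.iv S a₀).1 + 1))) = _
    rw [NA.iv_fst ha, NA.labA_eq hN hB, h6]
  refine ⟨rfl, fun _ _ => rfl, rfl, e, ⟨e ▸ (h.big.scl_eq hA).2.1, fun θ t => ?_,
    fun θ t t' => ?_, fun θ θ' t hl ht _ _ => ?_⟩, fun _ _ _ _ => Or.inl ⟨rfl, rfl⟩⟩
  · rw [NA.H0_eq ha]
    exact div_nonneg (dc_nonneg (by linarith [hN.w0])) (by norm_num)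
  · rw [NA.H0_eq ha, NA.H0_eq ha, ← sub_div, abs_div, abs_of_pos (by norm_num : (0 : ℝ) < 16)]
    exact div_le_div_of_nonneg_right (dc_lip t t') (by norm_num)
  · rw [NA.H0_eq ha, NA.H0_eq ha]
    exact congrArg (· / 16) (dc_link hl ht)

/-- The condition for the direct payment. -/
def Dir (c : Ctx S) (q : Fin 4 → ℕ) (pk : Fin 4 → ℝ) (z : ℕ × ℝ) (V : ℕ → ℝ → ℝ) (A : ℝ)
    (H : ℕ → ℝ → ℝ) : Prop :=
  (∃ i, H (q i) (V (q i) (pk i)) ≤ H z.1 (V z.1 z.2) - 3 * (A * c.rs)) ∨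
    2 * (A * c.rs) ≤ |H c.x.1 (V c.x.1 c.x.2) - H c.y.1 (V c.y.1 c.y.2)|

theorem dir {I : ℕ × ℕ} {P : HP} (h : At (sysA S π) c s N V A y I co dd eo)
    (hP : HealAt (sysA S π) c s V A I co dd eo P) (hT : TypeA c q pk z o) {zx : Bool}
    (hz : z = ptB c zx) (u : Qn π × Qn π × HS π) {X : Cone → Finset ℝ}
    (hm : P.Mid u.2.2 (c.hb V A I (nIdx π y)) X (xi0 s (co, dd, u, true, eo))
      (trap s (co, dd, u, true, eo) (c.vx V)) (nIdx π y))
    (hd : Dir c q pk z V A (P.Hs u.2.2 (nIdx π y)))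
    (hr : P.NoR u.2.2 (c.hb V A I (nIdx π y)) ⟨nIdx π y, h.big.nIdx_lt.1⟩) :
    A * c.rs / 64 ≤ payA zx fun i =>
      (sysA S π).Vn s (co, dd, u, true, eo) V (ptA c q pk i).1 (ptA c q pk i).2 := by
  obtain ⟨hb, hsc⟩ := h.ball hP
  obtain ⟨b, hb'⟩ := h.aff
  have hA := h.rep.pos
  have hs := mul_pos hA c.rs_pos
  have key : ∀ p ∈ c.ball 1, |p.2 - c.x.2| ≤ c.rs → ∃ e, 0 ≤ e ∧ e ≤ A * c.rs / 1024 ∧
      |V p.1 p.2 - c.vx V| ≤ A * c.rs ∧ (sysA S π).Vn s (co, dd, u, true, eo) V p.1 p.2 =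
        V p.1 p.2 + (P.Hs u.2.2 (nIdx π y) p.1 (V p.1 p.2) + e - xi0 s (co, dd, u, true, eo)) := by
    intro p hp hl
    have hp8 := c.ball_mono (by norm_num : (1 : ℝ) ≤ 8) hp
    have e1 : |V p.1 p.2 - c.vx V| ≤ A * c.rs := by
      rw [Ctx.vx, (hb' p hp8).1, (hb' _ (c.x_mem (by norm_num))).1,
        show A * p.2 + b - (A * c.x.2 + b) = A * (p.2 - c.x.2) by ring, abs_mul, abs_of_pos hA]
      exact mul_le_mul_of_nonneg_left hl hA.le
    have e2 := hb.nor_le hr p.1 (t := V p.1 p.2) (by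
      change _ ≤ 2 * scl π P.s1 (nIdx π y)
      rw [hsc]
      exact e1.trans (by linarith))
    have e3 := (h.mid_psi hP u true hm (h.mem_thick hp8)).2.2.2.2
    change P.Hs u.2.2 (nIdx π y) _ _ ≤ _ ∧ _ ≤ P.Hs u.2.2 (nIdx π y) _ _ +
      scl π P.s1 (nIdx π y) / 1024 at e2
    rw [hsc] at e2
    refine ⟨(P.out u.2.2).H p.1 (V p.1 p.2) - P.Hs u.2.2 (nIdx π y) p.1 (V p.1 p.2),
      by linarith [e2.1], by linarith [e2.2], e1, ?_⟩
    simp only [Sys.Vn, Sys.Psi, e3, sg]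
    simp
  rcases hd with ⟨i, hi⟩ | hd
  · obtain ⟨e1, a1, a2, a3, a4⟩ := key z (z_mem hT).1 (z_mem hT).2
    obtain ⟨e2, b1, b2, b3, b4⟩ := key _ (hT.near i) (hT.lev i)
    refine le_max_of_le_right (le_ciSup_of_le (Finite.bddAbove_range _) i ?_)
    have e : ptA c q pk (.inl zx) = z := hz.symm
    change _ ≤ (sysA S π).Vn s (co, dd, u, true, eo) V (ptA c q pk (.inl zx)).1
      (ptA c q pk (.inl zx)).2 - (sysA S π).Vn s (co, dd, u, true, eo) V (q i, pk i).1 (q i, pk i).2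
    rw [e, a4, b4]
    have := abs_le.1 a3
    have := abs_le.1 b3
    simp only at *
    linarith
  · obtain ⟨e1, a1, a2, a3, a4⟩ := key c.x (c.x_mem zero_le_one) (by simpa using c.rs_pos.le)
    obtain ⟨e2, b1, b2, b3, b4⟩ := key c.y (c.y_mem le_rfl) (by rw [abs_sub_comm]; exact c.lev)
    refine le_max_of_le_left ?_
    change _ ≤ |(sysA S π).Vn s (co, dd, u, true, eo) V c.x.1 c.x.2 -
      (sysA S π).Vn s (co, dd, u, true, eo) V c.y.1 c.y.2|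
    rw [a4, b4]
    have := abs_le.1 b3
    unfold Ctx.vx at this
    rcases le_abs.1 hd with hd | hd
    · exact le_abs.2 (Or.inl (by linarith))
    · exact le_abs.2 (Or.inr (by linarith))

end PA

end Vale.Agent.P235.Pl
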