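import Vale.Agent.P235P.PA3

/-! P235 planar case: the success event of system A. -/

open Set Classical

noncomputable section

namespace Vale.Agent.P235.Pl

variable {S : Sk} {π : Par} {N : NodeC (sysA S π)} {c : Ctx S} {s : St} {V : ℕ → ℝ → ℝ}
  {A : ℝ} {y : ℕ} {co : Coins S} {dd : Qn π × Qn π} {eo : Fin (2 * π.m0 + 2) × Qn π}
  {q : Fin 4 → ℕ} {pk : Fin 4 → ℝ} {z o : ℕ × ℝ} {a₀ : ℕ} {ρ : Rnd S π}

namespace PA

theorem mu_var {b : ℝ} (h : c.Rep s V A 8) (hb : ∀ p ∈ c.ball 8, V p.1 p.2 = A * p.2 + b)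
    {μ : ℕ → ℝ → ℝ} (hl : ∀ θ t t', |μ θ t - μ θ t'| ≤ |t - t'| / 16)
    (hc : ∀ θ θ' t, Link S s.D θ θ' t → θ ∈ Prod.fst '' c.ball 8 → θ' ∈ Prod.fst '' c.ball 8 →
      |t - c.vx V| ≤ 100 * (A * c.r) → μ θ t = μ θ' t)
    {p p' : ℕ × ℝ} {k : ℝ} (hp : p ∈ c.ball 1) (hr : Reach S c.D0 univ p p' k) (hk : k ≤ c.r) :
    μ p'.1 (A * p'.2 + b) ≤ μ p.1 (A * p.2 + b) + A * k / 16 := by
  have hA := h.pos
  have hr0 := c.r_pos
  have key := hr.inv (Q := fun p' k' => k' ≤ c.r →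
    μ p'.1 (A * p'.2 + b) ≤ μ p.1 (A * p.2 + b) + A * k' / 16) ?_ ?_ ?_
  · exact key hk
  · intro _
    simp
  · intro θ t t' k' _ _ ih h2
    have a1 := ih (by linarith [abs_nonneg (t - t')])
    have a2 := (abs_le.1 (hl θ (A * t + b) (A * t' + b))).1
    rw [show A * t + b - (A * t' + b) = A * (t - t') by ring, abs_mul, abs_of_pos hA] at a2
    simp only at a1 ⊢
    linarith
  · intro θ θ' t k' h1 hlk ih h2
    have m1 : (θ, t) ∈ c.ball 8 := ball_reach hp h1 (by linarith)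
    have m2 : (θ', t) ∈ c.ball 8 := ball_reach hp (h1.link hlk) (by linarith)
    have a1 := hc θ θ' _ (h.r1 θ θ' t hlk).1 ⟨_, m1, rfl⟩ ⟨_, m2, rfl⟩
      ((h.close m1).trans (by nlinarith [mul_pos hA hr0]))
    rw [hb _ m1] at a1
    simp only at a1 ⊢
    rw [← a1]
    exact ih h2

theorem far_band {b : ℝ} (h : c.Rep s V A 8) (hb : ∀ p ∈ c.ball 8, V p.1 p.2 = A * p.2 + b)
    (hsh : Shal (sysA S π) c s ρ V A 8) (hT : TypeA c q pk z o) {W : Set ℝ}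
    (hW : ∀ v ∈ W, |v - c.vx V| ≤ 100 * (A * c.rs)) {i j : Fin 4} (hij : i ≠ j) :
    Far S ((sysA S π).Dp s ρ) W (q i) (q j) (2000 * (A * c.rs)) := by
  intro p hp p' hp' k hr
  have hA := h.pos
  have hs := c.rs_pos
  have e : ∀ v ∈ W, |(v - b) / A - c.x.2| ≤ 100 * c.rs := fun v hv => by
    have := hW v hv
    rw [Ctx.vx, hb _ (c.x_mem (by norm_num))] at this
    rw [show (v - b) / A - c.x.2 = (v - (A * c.x.2 + b)) / A by field_simp; ring, abs_div,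
      abs_of_pos hA, div_le_iff₀ hA]
    linarith
  by_contra hc
  have hk : k / A ≤ 2000 * c.rs := by
    rw [div_le_iff₀ hA]
    linarith
  have m1 := col_mem hT i hp.1 (e _ hp.2)
  have h1 : p = (p.1, A * ((p.2 - b) / A) + b) := Prod.ext rfl (by field_simp; ring)
  rw [h1] at hr
  have h2 := lift (p := (p.1, (p.2 - b) / A)) h hb hsh m1 hr (by linarith [c.le_r])
  have := far_cols hT hij (p := (p.1, (p.2 - b) / A)) (p' := (p'.1, (p'.2 - b) / A)) hp.1 hp'.1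
    (e _ hp.2) (e _ hp'.2) h2
  linarith

theorem suc_done (h : At (sysA S π) c s N V A y (NA.iv S a₀) co dd eo) (ha : a₀ < S.mate a₀)
    {u₀ : Qn π × Qn π × HS π} (hP : HealAt (sysA S π) c s V A (NA.iv S a₀) co dd eo
      (NA.hpk s (co, dd, u₀, true, eo) a₀)) (hT : TypeA c q pk z o) {hs : HS π}
    {X : Cone → Finset ℝ} {i k : ℤ} {b tk : ℝ} (hb' : ∀ p ∈ c.ball 8, V p.1 p.2 = A * p.2 + b)
    (hm : (NA.hpk s (co, dd, u₀, true, eo) a₀).Piece hs (c.hb V A (NA.iv S a₀) (nIdx π y)) X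
      (nIdx π y))
    (hd : ¬ Dir c q pk z V A ((NA.hpk s (co, dd, u₀, true, eo) a₀).Hs hs (nIdx π y)))
    (hk : (NA.hpk s (co, dd, u₀, true, eo) a₀).Suc hs (c.hb V A (NA.iv S a₀) (nIdx π y))
      ⟨nIdx π y, h.big.nIdx_lt.1⟩ i k)
    (htk : A * tk + b = (cone (NA.hpk s (co, dd, u₀, true, eo) a₀).s1 hs
      ⟨nIdx π y, h.big.nIdx_lt.1⟩ i k).t) (ht : |tk - c.x.2| ≤ c.rs)
    {p : ℕ × ℝ} (hp : p ∈ c.coreA (q 3) tk) {τ : ℝ} (hτ : |p.2 - τ| ≤ c.rs) :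
    (NA.hpk s (co, dd, u₀, true, eo) a₀).Done hs p.1 (A * τ + b)
      ⟨nIdx π y, h.big.nIdx_lt.1⟩ i k := by
  obtain ⟨hb, hsc⟩ := h.ball hP
  set P := NA.hpk s (co, dd, u₀, true, eo) a₀ with hPe
  set κ := cone P.s1 hs ⟨nIdx π y, h.big.nIdx_lt.1⟩ i k with hκ
  have hA := h.rep.pos
  have hs0 := c.rs_pos
  have hAs := mul_pos hA hs0
  have hr : 2 ^ 16 * (A * c.rs) ≤ A * c.r := by nlinarith [c.le_r]
  have hκs : κ.s = A * c.rs := hsc
  obtain ⟨s1, s2, s3⟩ := id hk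
  change |c.vx V - κ.t| ≤ scl π P.s1 (nIdx π y) at s1
  change P.Hs hs (nIdx π y) c.x.1 (c.vx V) + 11 * scl π P.s1 (nIdx π y) ≤ κ.a at s2
  change κ.a ≤ P.Hs hs (nIdx π y) c.x.1 (c.vx V) + 12 * scl π P.s1 (nIdx π y) at s3
  rw [hsc] at s1 s2 s3
  have s1' := abs_le.1 s1
  have m8 : ∀ {p}, p ∈ c.ball 1 → p ∈ c.ball 8 := fun hp => c.ball_mono (by norm_num) hp
  have lev : ∀ p ∈ c.ball 1, |p.2 - c.x.2| ≤ c.rs → |V p.1 p.2 - c.vx V| ≤ A * c.rs :=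
    fun p hp hl => by
      rw [Ctx.vx, hb' p (m8 hp), hb' _ (c.x_mem (by norm_num)),
        show A * p.2 + b - (A * c.x.2 + b) = A * (p.2 - c.x.2) by ring, abs_mul, abs_of_pos hA]
      exact mul_le_mul_of_nonneg_left hl hA.le
  have mm : ∀ j, (S.mate (q j), pk j) ∈ c.ball 8 := fun j =>
    Near.link (m8 (hT.near j)) (link_arc (hT.sep j).1 (hT.pk_mem j))
  have ins : ∀ j, a₀ ≤ q j ∧ S.mate (q j) ≤ S.mate a₀ := fun j =>
    ⟨((NA.mem_iv ha).1 (h.rep.ink _ h.kick _ (m8 (hT.near j)))).1,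
      ((NA.mem_iv ha).1 (h.rep.ink _ h.kick _ (mm j))).2⟩
  have LB : ∀ j θ t, q j ≤ θ → θ ≤ S.mate (q j) → |t - c.vx V| ≤ 100 * (A * c.rs) →
      P.Hs hs (nIdx π y) (q j) (V (q j) (pk j)) - |t - V (q j) (pk j)| / 16 ≤
        P.Hs hs (nIdx π y) θ t := fun j θ t h1 h2 h3 =>
    lb ha hb hm (ins j).1 (ins j).2
      ((sysA S π).link_Dp _ (h.rep.r1 _ _ _ (link_arc (hT.sep j).1 (hT.pk_mem j))).1)
      (h.thick_sub hP _ (h.mem_thick (m8 (hT.near j)))) ⟨_, mm j, rfl⟩ h1 h2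
      (h3.trans (by change _ ≤ 80 * (A * c.r); linarith))
  have hz : |P.Hs hs (nIdx π y) z.1 (V z.1 z.2) - P.Hs hs (nIdx π y) c.x.1 (c.vx V)| ≤
      2 * (A * c.rs) := by
    have := not_le.1 fun h' => hd (Or.inr h')
    rcases hT.zo with ⟨rfl, -⟩ | ⟨rfl, -⟩
    · rw [Ctx.vx, sub_self, abs_zero]
      linarith
    · rw [abs_sub_comm]
      exact this.le
  have hz' := abs_le.1 hz
  have lz := abs_le.1 (lev z (z_mem hT).1 (z_mem hT).2)
  have lq := fun j => abs_le.1 (lev _ (hT.near j) (hT.lev j))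
  have hn := nest hT (show (1 : Fin 4) < 2 by decide)
  obtain ⟨⟨c1, c2⟩, c3, k', c4, c5⟩ := core_time hT ht hp
  have c6 : |A * τ + b - κ.t| ≤ 28 * κ.s := by
    have := abs_le.1 c3
    have := abs_le.1 hτ
    rw [← htk, hκs, show A * τ + b - (A * tk + b) = A * (τ - tk) by ring, abs_mul, abs_of_pos hA]
    nlinarith [(abs_le (a := τ - tk) (b := 28 * c.rs)).2 ⟨by linarith, by linarith⟩]
  refine done_of_suc hb (hb.suc_adm hm hk) (hT.sep 1).1 ?_ (ins 1).2 (hT.sep 2).1 hn.1 hn.2 ?_ ?_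
    c1 c2 c6 ?_
  · have := NA.iv_fst ha
    have := (ins 1).1
    omega
  · change Far S _ κ.Ip _ _ (2000 * κ.s)
    rw [hκs]
    refine far_band h.rep hb' (h.shal u₀ true) hT (fun v hv => ?_) (by decide)
    have := hv.1
    have := hv.2
    rw [hκs] at *
    exact abs_le.2 ⟨by linarith, by linarith⟩
  · intro θ h1 h2 t ht'
    change κ.a - 24 * κ.s ≤ P.Hs hs (nIdx π y) θ t
    have t1 : κ.t - 52 * κ.s ≤ t := ht'.1
    have t2 : t ≤ κ.t + 52 * κ.s := ht'.2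
    rw [hκs] at t1 t2 ⊢
    have a1 := LB 1 θ t h1 h2 (abs_le.2 ⟨by linarith, by linarith⟩)
    have a2 := not_le.1 fun h' => hd (Or.inl ⟨1, h'⟩)
    have a3 : |t - V (q 1) (pk 1)| ≤ 54 * (A * c.rs) :=
      abs_le.2 ⟨by linarith [(lq 1).2], by linarith [(lq 1).1]⟩
    linarith
  · change P.Hs hs (nIdx π y) p.1 (A * τ + b) < κ.a
    obtain ⟨μ, u1, u2, u3⟩ := hm.mu hb
    have r1 : Reach S c.D0 univ (q 3, pk 3) (p.1, τ) (k' + |p.2 - τ|) := Reach.vert c5 (mem_univ τ)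
    have m1 : (p.1, τ) ∈ c.ball 8 := ball_reach (hT.near 3) r1 (by linarith [c.le_r])
    have a1 := mu_var h.rep hb' u1 (fun θ θ' t hl => u2 θ θ' t ((sysA S π).link_Dp _ hl))
      (hT.near 3) r1 (by linarith [c.le_r])
    have a2 := u3 _ (h.thick_sub hP _ (h.mem_thick m1))
    have a3 := u3 _ (h.thick_sub hP _ (h.mem_thick (m8 (hT.near 3))))
    have a4 := LB 3 z.1 (V z.1 z.2) (hT.sep 3).2.1 (hT.sep 3).2.2.1
      (abs_le.2 ⟨by linarith, by linarith⟩)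
    have a5 : |V z.1 z.2 - V (q 3) (pk 3)| ≤ 2 * (A * c.rs) :=
      abs_le.2 ⟨by linarith [(lq 3).2], by linarith [(lq 3).1]⟩
    have a6 : A * (k' + |p.2 - τ|) ≤ 30 * (A * c.rs) := by nlinarith
    simp only at a1 a2 a3
    rw [hb' _ m1] at a2
    rw [← hb' _ (m8 (hT.near 3))] at a1
    simp only at a1 a2
    linarith

end PA

end Vale.Agent.P235.Pl
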