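import Vale.Agent.P235P.PADefs
import Vale.Agent.P235P.FMid2
import Vale.Agent.P235P.FDesc
import Vale.Agent.P235P.FBall
import Vale.Agent.P235P.ELem

/-! P235 planar case: the data of system A persist. -/

open Set Classical

noncomputable section

namespace Vale.Agent.P235.Pl

variable {S : Sk} {π : Par} {c : Ctx S} {s : St} {V : ℕ → ℝ → ℝ} {A : ℝ} {ρ : Rnd S π}

namespace PA

theorem core_ball {a : ℕ} {pk tk : ℝ} (ha : a < S.mate a) (hp : pk ∈ c.D0.P a)
    (hl : |pk - c.x.2| ≤ c.rs) (hn : (a, pk) ∈ c.ball 1) (ht : |tk - c.x.2| ≤ c.rs) :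
    c.coreA a tk ⊆ c.ball 2 := by
  intro p h
  have h1 : Near S c.D0 univ {c.x} (1 * c.r + 29 * c.rs + c.rs) p := by
    refine Near.trans h ?_
    rintro ⟨θ, t⟩ ⟨h1, h2⟩ -
    have hd : |pk - t| ≤ 29 * c.rs := by
      have := abs_le.1 hl
      have := abs_le.1 ht
      have := abs_le.1 h2
      exact abs_le.2 ⟨by linarith [c.rs_pos], by linarith [c.rs_pos]⟩
    rcases h1 with h1 | h1
    · obtain rfl : θ = a := h1
      exact (Near.vert hn (mem_univ t)).mono_R (by linarith)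
    · obtain rfl : θ = S.mate a := h1
      exact (Near.vert (Near.link hn (link_arc ha hp)) (mem_univ t)).mono_R (by linarith)
  exact h1.mono_R (by linarith [c.le_r, c.rs_pos])

theorem inj_of_aff {f : ℝ → ℝ} (hf : Monotone f) {v β b η : ℝ} (hβ : 0 < β) (hη : 0 < η)
    (h : ∀ u, |u - v| ≤ η → f u = β * u + b) (u : ℝ) (hu : f u = f v) : u = v := by
  have h0 := h v (by simpa using hη.le)
  by_contra hne
  rcases lt_or_gt_of_ne hne with hl | hl
  · have h1 := h (max u (v - η)) (abs_le.2 ⟨by linarith [le_max_right u (v - η)],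
      by linarith [max_le hl.le (by linarith : v - η ≤ v)]⟩)
    have h2 := hf (le_max_left u (v - η))
    have h3 : max u (v - η) < v := max_lt hl (by linarith)
    nlinarith
  · have h1 := h (min u (v + η)) (abs_le.2 ⟨by linarith [le_min hl.le (by linarith : v ≤ v + η)],
      by linarith [min_le_right u (v + η)]⟩)
    have h2 := hf (min_le_left u (v + η))
    have h3 : v < min u (v + η) := lt_min hl (by linarith)
    nlinarith

/-- The operation at the end of a step of the non-affine phase. -/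
theorem op_step {Y : Sys S π} (N : NodeC Y) (hs : N.NI s) (h : c.Rep s V A 7)
    (hch : ∀ p ∈ c.ball 7, Y.ch s ρ p.1 = none) (hK : Kink c s ρ V A) (hb : 0 < beta c s ρ V)
    (ht : ∀ I, s.kick = some I → ∀ p ∈ c.ball 7, ∀ u, |u - V p.1 p.2| ≤ A * c.r →
      trap s ρ u ≤ (Y.hl s ρ I).H p.1 u - xi0 s ρ) :
    AffOp Y c s ρ V A 7 (beta c s ρ V) ∧ ∀ p ∈ c.ball 7,
      (Y.mid s ρ).lab p.1 (Y.Vn s ρ V p.1 p.2) =
        (beta c s ρ V * (s.lab p.1 (V p.1 p.2)).1, beta c s ρ V * (s.lab p.1 (V p.1 p.2)).2) := by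
  have hsh : Shal Y c s ρ V A 7 := fun p hp i hi => by
    rw [hch p hp] at hi
    exact absurd hi (by simp)
  have key : AffOp Y c s ρ V A 7 (beta c s ρ V) ∧ ∀ p ∈ c.ball 7, Y.lab1 s ρ p.1 (V p.1 p.2) =
      (beta c s ρ V * (s.lab p.1 (V p.1 p.2)).1, beta c s ρ V * (s.lab p.1 (V p.1 p.2)).2) := by
    rcases hk : s.kick with _ | I
    · have e : beta c s ρ V = 1 := by simp [beta, hk]
      obtain ⟨h1, h2⟩ := affOp_passive hk h.pos.le hsh
      rw [e]
      exact ⟨h1, fun p hp => by rw [h2 p hp, one_mul, one_mul]⟩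
    · exact affOp_top N hs h (by norm_num) hsh hk hK hb (ht I hk)
  refine ⟨key.1, fun p hp => ?_⟩
  obtain ⟨b, hb'⟩ := key.1.aff
  rw [← key.2 p hp]
  exact mid_lab (inj_of_aff (Y.Psi_mono s ρ p.1) hb (mul_pos h.pos c.r_pos) (hb' p hp))

theorem nda_step {Y : Sys S π} {a : ℕ} {pk β : ℝ} (ha : a < S.mate a) (hp : pk ∈ c.D0.P a)
    (hl : |pk - c.x.2| ≤ c.rs) (hn : (a, pk) ∈ c.ball 1) (hA : 0 < A) (hβ : 0 < β)
    (ho : AffOp Y c s ρ V A 7 β) (hlab : ∀ p ∈ c.ball 7,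
      (Y.mid s ρ).lab p.1 (Y.Vn s ρ V p.1 p.2) =
        (β * (s.lab p.1 (V p.1 p.2)).1, β * (s.lab p.1 (V p.1 p.2)).2))
    (h : c.NDA a s V A) : c.NDA a (Y.mid s ρ) (Y.Vn s ρ V) (β * A) := by
  obtain ⟨tk, b, h1, h2, h3⟩ := h
  obtain ⟨b', hb'⟩ := ho.aff
  have h0 : 0 ≤ A * c.r := (mul_pos hA c.r_pos).le
  have e : ∀ p ∈ c.ball 7, Y.Vn s ρ V p.1 p.2 = β * V p.1 p.2 + b' := fun p hp =>
    hb' p hp _ (by simpa using h0)
  refine ⟨tk, β * b + b', h1, ?_, fun p hp' => ?_⟩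
  · have e1 : c.vx (Y.Vn s ρ V) = β * c.vx V + b' := e c.x (c.x_mem (by norm_num))
    rw [e1, show β * c.vx V + b' - (β * A * tk + (β * b + b')) = β * (c.vx V - (A * tk + b)) by ring,
      abs_mul, abs_of_pos hβ]
    nlinarith
  · have hb7 := c.ball_mono (by norm_num : (2 : ℝ) ≤ 7) (core_ball ha hp hl hn h1 hp')
    obtain ⟨k1, k2, k3⟩ := h3 p hp'
    rw [hlab p hb7, e p hb7, k2]
    refine ⟨by rw [k1]; ring, rfl, ?_⟩
    show β * A * c.rs ≤ β * _
    nlinarith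

theorem nda_child {Y : Sys S π} {a : ℕ} (i : Option (ℕ × ℕ)) (h : c.NDA a s V A) :
    c.NDA a (Y.cSt s ρ i) V A := h

theorem nda_cut {a : ℕ} (u o v : ℝ) (h : c.NDA a s V A) : c.NDA a (s.cut u o v) V A := h

end PA

end Vale.Agent.P235.Pl
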