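import Vale.Agent.P235P.PBZone

/-! P235 planar case, birth in system B: basic facts on the ball. -/

open Set Classical

noncomputable section

namespace Vale.Agent.P235.Pl.Pb

variable {S : Sk} {π : Par} {X : Dat S π} {p : ℕ × ℝ} {θ : ℕ} {t : ℝ}

namespace Dat

theorem Sit.num (h : X.Sit) : 0 < X.A ∧ 0 < X.u ∧ 2 ^ 16 * X.u ≤ X.A * X.c.r ∧
    X.A * X.c.r ≤ 2 ^ 24 * X.u ∧ 2 ^ 100 * (X.A * X.c.r) ≤ X.s.w ∧
    X.vx = X.A * X.c.x.2 + X.b ∧ X.s.w / 2 ≤ X.s.hi - X.s.lo := by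
  have h1 := mul_le_mul_of_nonneg_left X.c.le_r h.rep.pos.le
  have h2 := mul_le_mul_of_nonneg_left X.c.r_le h.rep.pos.le
  exact ⟨h.rep.pos, mul_pos h.rep.pos X.c.rs_pos, (mul_left_comm _ _ _).trans_le h1,
    h2.trans_eq (mul_left_comm _ _ _), h.ball.uw, (h.aff _ (X.c.x_mem (by norm_num))).1,
    X.N.half _ _ h.nd.ni h.nd.kick⟩

theorem Sit.mid' (h : X.Sit) : 100 * (X.A * X.c.r) ≤ X.mx - xi0 X.s X.ρ ∧
    X.mx - xi0 X.s X.ρ + 27 * X.u + 100 * (X.A * X.c.r) ≤ trap X.s X.ρ X.vx := by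
  rw [← h.scl]
  exact h.mid.2

theorem Sit.x_mem (h : X.Sit) : (X.c.x.1, X.vx) ∈ X.B ∧ (X.c.y.1, X.V X.c.y.1 X.c.y.2) ∈ X.B ∧
    |X.V X.c.y.1 X.c.y.2 - X.vx| ≤ X.u := by
  have e : X.c.vx X.V = X.A * X.c.x.2 + X.b := h.num.2.2.2.2.2.1
  have hW := h.win
  rw [Ctx.Win, e] at hW
  rw [vx, e, (h.aff _ (X.c.y_mem (by norm_num))).1]
  refine ⟨h.lift.hb hW le_rfl (X.c.x_mem (by norm_num)),
    h.lift.hb hW le_rfl (X.c.y_mem (by norm_num)), ?_⟩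
  rw [add_sub_add_right_eq_sub, ← mul_sub, abs_mul, abs_of_pos h.rep.pos, abs_sub_comm]
  exact mul_le_mul_of_nonneg_left X.c.lev h.rep.pos.le

theorem Sit.bl (h : X.Sit) (hp : p ∈ X.B) : p ∈ X.c.thick X.V X.A ∧ p ∈ X.P.Bl X.hb ∧
    p.1 ∈ tm X.I ∧ p.2 ∈ X.s.W ∧ p.1 ∈ SB.Zd S X.s X.I X.d ∧
    dc S X.s.D X.s.W (SB.src X.s X.I) (20 * X.s.w) p ≤ del X.s X.ρ := by
  have hq := X.c.ball_mono (by norm_num : (4 : ℝ) ≤ 8) (h.lift.ball hp)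
  have a0 := mul_pos h.rep.pos X.c.r_pos
  have hw := (X.N.pos _ h.nd.ni).1
  have e : X.V p.1 ((p.2 - X.b) / X.A) = p.2 := by
    rw [(h.aff _ hq).1, mul_div_cancel₀ _ h.rep.pos.ne', sub_add_cancel]
  have h1 : p ∈ X.c.thick X.V X.A := ⟨_, hq, by rw [e, sub_self, abs_zero]; exact a0.le⟩
  have h2 := h.thick h1
  have h3 : p.1 ∈ tm X.I := (h.rep.ink _ h.nd.kick _ hq :)
  have h4 : p.1 ∈ SB.Zd S X.s X.I X.d := by
    have k1 : |X.H X.n p.1 p.2 - X.mx| ≤ 10 * (X.A * X.c.r) := h.ball.Hs_var X.n h2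
    have k2 := (h.nd.H_nonneg X.ρ X.d X.n p.1 p.2).2
    have k3 := h_trap_le (ρ := X.ρ) hw X.vx
    have k4 := (h_xi0_mem (ρ := X.ρ) hw).2
    exact h.nd.zone (ρ := X.ρ) (t := p.2) h3
      (by linarith [h.mid'.2, h.num.2.1, (abs_le.1 k1).2])
  have h5 := h.shal _ hq none (h.nd.nb.ch_zone.2 (by
    simp only [Sys.Zs, h.nd.kick]
    revert h4
    cases X.d
    exacts [Or.inr, Or.inl]))
  simp only [cI, thr, h.nd.kick, e, Option.getD_none, Option.getD_some, Option.isSome_none,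
    Bool.false_eq_true, if_false] at h5
  exact ⟨h1, h2, h3, Near.mem hp, h4, le_trans h5 (by linarith)⟩

theorem Sit.fin (h : X.Sit) (θ : ℕ) (t : ℝ) :
    X.H X.n θ t ≤ X.H π.nS θ t ∧ X.H π.nS θ t ≤ X.H X.n θ t + 27 * X.u := by
  rw [← h.scl]
  exact h.ball.out_le X.n θ t X.n.2.le

/-- The new value of `x`. -/
theorem Sit.vx_new (h : X.Sit) :
    X.c.vx X.Vn = X.vx + sg X.ρ * (X.H π.nS X.c.x.1 X.vx - xi0 X.s X.ρ) := by
  obtain ⟨-, -, h1, -, h2, -⟩ := h.bl h.x_mem.1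
  have h3 := h.nd.other h2 X.ρ X.vx
  have hw := (X.N.pos _ h.nd.ni).1
  have a0 := mul_pos h.rep.pos X.c.r_pos
  obtain ⟨h4, h5⟩ := h.fin X.c.x.1 X.vx
  obtain ⟨h6, h7⟩ := h.mid'
  refine (h.nd.psi (t := X.vx) h1 (le_trans (by linarith) h3)).trans ?_
  rw [PsiD, min_eq_right (by linarith), max_eq_right (by linarith)]

theorem Sit.band (h : X.Sit) (ht : |t - X.vx| ≤ 100 * (X.A * X.c.r)) : t ∈ X.s.W :=
  h.win ⟨by linarith [(abs_le.1 ht).1], by linarith [(abs_le.1 ht).2]⟩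

end Dat

end Vale.Agent.P235.Pl.Pb
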