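import Vale.Agent.P235P.PBDefs

/-! P235 planar case, birth in system B: cells. -/

open Set Classical

noncomputable section

namespace Vale.Agent.P235.Pl.Pb

variable {S : Sk} {D : Lk} {H : ℕ → ℝ → ℝ} {κ : Cone} {J : ℕ × ℕ} {η m η' θ θ' a : ℕ} {t : ℝ}

theorem pbc_join {W : Set ℝ} {w R R' c : ℝ} {A : Set (ℕ × ℝ)} {p : ℕ × ℝ} {t' : ℝ}
    (hW : ∀ t ∈ W, ∀ t' ∈ W, |t - t'| ≤ w) (h : Near S D W A R (θ, t))
    (h' : Reach S D W p (θ, t') c) (hc : c ≤ R') : Near S D W A (R + w + R') p :=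
  ((h.vert h'.mem_right).reach h'.symm).mono_R
    (by linarith [hW t h.mem t' h'.mem_right])

/-- A path from outside to a time between the ends of an arc meets a column. -/
theorem pbc_col {W : Set ℝ} {c : ℝ} {p q : ℕ × ℝ} (h : Reach S D W p q c)
    (hp : p.1 ≤ a ∨ S.mate a ≤ p.1) (h1 : a ≤ q.1) (h2 : q.1 ≤ S.mate a) :
    ∃ θ t, (θ = a ∨ θ = S.mate a) ∧ Via S D W p (θ, t) q c := by
  rcases h1.eq_or_lt with e | h1
  · exact ⟨q.1, q.2, Or.inl e.symm, c, 0, h, .refl h.mem_right, add_zero c⟩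
  rcases h2.eq_or_lt with e | h2
  · exact ⟨q.1, q.2, Or.inr e, c, 0, h, .refl h.mem_right, add_zero c⟩
  obtain ⟨t, ⟨-, h3⟩ | ⟨-, h3⟩⟩ := h.symm.bar_open h1 h2 hp
  · exact ⟨_, t, Or.inl rfl, h3.symm⟩
  · exact ⟨_, t, Or.inr rfl, h3.symm⟩

theorem pbc_arc {W : Set ℝ} {c : ℝ} {p q : ℕ × ℝ} (ha : a < S.mate a) (ht : t ∈ D.P a)
    (h : Via S D W p (a, t) q c) (hθ : θ = a ∨ θ = S.mate a) : Via S D W p (θ, t) q c := by
  rcases hθ with rfl | rfl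
  · exact h
  · exact h.link (link_arc ha ht)

theorem sep_right {W : Set ℝ} {w R₀ R₁ R₂ : ℝ} {g g' : ℕ} {p : ℕ × ℝ}
    (hW : ∀ t ∈ W, ∀ t' ∈ W, |t - t'| ≤ w) (hm : Mates S D W g g') (hf : FarArc S D W g R₀)
    (h1 : Near S D W (chain D W g) R₁ p) (hp : θ ≤ p.1) (hg : g < θ) (hg' : θ ≤ g')
    (h2 : Near S D W (chain D W g') R₂ (θ, t)) (hR : R₁ ≤ R₀) :
    ∃ q ∈ chain D W g, Near S D W (chain D W g') (R₁ + R₂ + w) q := by
  obtain ⟨p0, hp0, c, hc, hr⟩ := h1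
  refine ⟨p0, hp0, ?_⟩
  have e : p0.1 = g := hp0.1
  obtain ⟨θ, rfl⟩ : ∃ k, θ = k + 1 := ⟨θ - 1, by omega⟩
  rcases hr.bar_gap (g := θ) (by omega) (by omega) with ⟨t', ht', hv⟩ | ⟨a, t', a1, a2, ht', hv⟩
  · obtain ⟨c₁, h3, r⟩ := (hv.link (link_gap S ht')).left
    exact (pbc_join hW h2 r (h3.trans hc)).mono_R (by linarith)
  · have ha : WArc S D W a := ⟨by omega, t', ht', hv.mem⟩
    obtain ⟨c₁, h3, r⟩ := hv.left
    have h4 : ¬ Enc S a g' := fun h =>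
      (hf (a, t') (.of_reach hp0 r (by linarith)) a ha ((hm a ha).2 h)).1 rfl
    obtain ⟨q0, hq0, c', hc', hr'⟩ := h2
    have e' : q0.1 = g' := hq0.1
    have h5 : S.mate a ≤ q0.1 := by
      unfold Enc at h4
      omega
    obtain ⟨θ₀, t₀, h6, hv'⟩ := pbc_col hr' (Or.inr h5) (by simp only; omega) (by simp only; omega)
    obtain ⟨c₂, h7, r'⟩ := hv'.left
    obtain ⟨c₃, h8, r''⟩ := (pbc_arc ha.1 ht' hv h6).left
    exact (pbc_join hW (.of_reach hq0 r' (h7.trans hc')) r'' (h8.trans hc)).mono_R (by linarith)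

theorem sep_left {W : Set ℝ} {w R₀ R₁ R₂ : ℝ} {g g' : ℕ} {p : ℕ × ℝ}
    (hW : ∀ t ∈ W, ∀ t' ∈ W, |t - t'| ≤ w) (hm : Mates S D W g g') (hf : FarArc S D W g' R₀)
    (h1 : Near S D W (chain D W g') R₁ p) (hp : p.1 ≤ θ) (hg : g < θ) (hg' : θ ≤ g')
    (h2 : Near S D W (chain D W g) R₂ (θ, t)) (hR : R₁ ≤ R₀) :
    ∃ q ∈ chain D W g, Near S D W (chain D W g') (R₁ + R₂ + w) q := by
  obtain ⟨p0, hp0, c, hc, hr⟩ := h1
  obtain ⟨q0, hq0, c', hc', hr'⟩ := h2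
  refine ⟨q0, hq0, ?_⟩
  have e : p0.1 = g' := hp0.1
  have e' : q0.1 = g := hq0.1
  rcases hg'.eq_or_lt with h3 | h3
  · have h4 : Near S D W (chain D W g') R₁ (θ, p0.2) :=
      .self ⟨h3, hp0.2⟩ hr.mem_left (hr.nonneg.trans hc)
    exact (pbc_join hW h4 hr' hc').mono_R (by linarith)
  rcases hr.bar_gap' (g := θ) (by omega) hp with ⟨t', ht', hv⟩ | ⟨a, t', a1, a2, ht', hv⟩
  · obtain ⟨c₁, h4, r⟩ := hv.left
    exact (pbc_join hW (.of_reach hp0 r (h4.trans hc)) hr' hc').mono_R (by linarith)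
  · have ha : WArc S D W a := ⟨by omega, t', ht', hv.mem⟩
    obtain ⟨c₁, h3, r⟩ := hv.left
    have h4 : ¬ Enc S a g := fun h =>
      (hf (a, t') (.of_reach hp0 r (by linarith)) a ha ((hm a ha).1 h)).1 rfl
    have h5 : q0.1 ≤ a := by
      unfold Enc at h4
      omega
    obtain ⟨θ₀, t₀, h6, hv'⟩ := pbc_col hr' (Or.inl h5) a1 a2.le
    obtain ⟨c₂, h7, r'⟩ := hv'.left
    obtain ⟨c₃, h8, r''⟩ := (pbc_arc ha.1 ht' hv h6).left
    exact (pbc_join hW (.of_reach hp0 r'' (h8.trans hc)) r' (h7.trans hc')).mono_R (by linarith)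

theorem tr_of {s : St} {I : ℕ × ℕ} {δ : ℝ} (hs : 0 < κ.s)
    (h : SB.Triple S D κ.Ip (SB.Fp S s D I δ H κ) η m η') : Tr S D κ η m η' ∧
      SB.eligP S s D I δ H κ η ∧ SB.eligP S s D I δ H κ m ∧ SB.eligP S s D I δ H κ η' := by
  obtain ⟨l1, l2, f1, f2, f3, m1, m2, -, -⟩ := h
  have g1 := (greedy_iff _ _ _).1 f1
  have g2 := (greedy_iff _ _ _).1 f2
  have g3 := (greedy_iff _ _ _).1 f3
  refine ⟨⟨hs, l1, l2, m1, m2, g2.1.1, ?_, fun p hp hn => g2.2 η l1 f1 ⟨m1, p, hp, hn⟩,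
    fun p hp hn => g3.2 m l2 f2 ⟨m1.symm.trans m2, p, hp, hn⟩⟩, g1.1, g2.1, g3.1⟩
  rintro e (rfl | rfl | rfl)
  exacts [g1.1.2.2.2.1, g2.1.2.2.2.1, g3.1.2.2.2.1]

theorem pbc_reroute {W : Set ℝ} {c : ℝ} {p q : ℕ × ℝ} (hl : Link S D θ θ' t) (ht : t ∈ W)
    (hlt : θ < θ') (h : Reach S D W p q c) (hp : p.1 ≤ θ ∨ θ' ≤ p.1) (h1 : θ ≤ q.1)
    (h2 : q.1 ≤ θ') :
    ∃ c' ≤ c + |t - q.2|, Reach S D W p (θ, t) c' ∧ Reach S D W p (θ', t) c' := by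
  have key : ∃ θ₀ t', (θ₀ = θ ∨ θ₀ = θ') ∧ Via S D W p (θ₀, t') q c := by
    rcases hl with ⟨e, -⟩ | ⟨e, -⟩ | ⟨-, e, -⟩ | ⟨e, e', -⟩
    · exact ⟨q.1, q.2, by omega, c, 0, h, .refl h.mem_right, add_zero c⟩
    · omega
    · subst e
      exact pbc_col h hp h1 h2
    · omega
  obtain ⟨θ₀, t', e, c₁, c₂, r₁, r₂, hc⟩ := key
  have a1 := r₂.abs_le
  have a2 : |t' - t| ≤ |t' - q.2| + |t - q.2| := by
    rw [abs_sub_comm t q.2]
    exact abs_sub_le _ _ _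
  refine ⟨c₁ + |t' - t|, by simp only at a1; linarith, ?_⟩
  rcases e with rfl | rfl
  · exact ⟨r₁.vert ht, (r₁.vert ht).link hl⟩
  · exact ⟨(r₁.vert ht).link hl.symm, r₁.vert ht⟩

theorem E_mono (hH : ∀ θ t, 0 ≤ H θ t) (h : θ ≤ θ') :
    SB.E S D H κ J true θ t ≤ SB.E S D H κ J true θ' t ∧
      SB.E S D H κ J false θ' t ≤ SB.E S D H κ J false θ t := by
  exact ⟨envT_anti_T (m := 0) (by norm_num) (fun p _ _ => hH _ _)
    fun u hu => ⟨h.trans hu.1, hu.2⟩, envT_anti_T (m := 0) (by norm_num) (fun p _ _ => hH _ _)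
    fun u hu => ⟨le_trans hu.1 h, hu.2⟩⟩

theorem E_le (hH : ∀ θ t, 0 ≤ H θ t) (d : Bool) : SB.E S D H κ J d θ t ≤ κ.a + 2 * κ.s := by
  exact envT_le_cap (m := 0) (by norm_num) fun p _ _ => hH _ _

theorem pbc_link (hH : ∀ θ t, 0 ≤ H θ t) (hl : Link S D θ θ' t) (ht : t ∈ κ.Ip) (h1 : θ ∈ tm J)
    (h2 : θ' ∈ tm J) (hlt : θ < θ') (d : Bool) :
    SB.E S D H κ J d θ t = SB.E S D H κ J d θ' t := by
  have hm := E_mono (S := S) (D := D) (κ := κ) (J := J) (t := t) hH hlt.le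
  cases d
  · refine le_antisymm ((envT_le_add (m := 0) (δ := 0) (by norm_num) (fun p _ _ => hH _ _)
      (add_zero _).ge fun p hp q c hr hq => Or.inr ?_).trans (add_zero _).le) hm.2
    rcases le_or_gt q.1 θ with h3 | h3
    · exact ⟨p, hp, q, c, hr, ⟨h3, hq.2⟩, (add_zero _).ge⟩
    · have e : p.1 = J.2 := hp.1
      obtain ⟨c', hc, r, -⟩ := pbc_reroute hl ht hlt hr (Or.inr (e ▸ h2.2)) h3.le hq.1
      refine ⟨p, hp, (θ, t), c', r, ⟨le_refl θ, h1⟩, ?_⟩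
      simp only [sub_self, abs_zero]
      linarith
  · refine le_antisymm hm.1 ((envT_le_add (m := 0) (δ := 0) (by norm_num) (fun p _ _ => hH _ _)
      (add_zero _).ge fun p hp q c hr hq => Or.inr ?_).trans (add_zero _).le)
    rcases le_or_gt θ' q.1 with h3 | h3
    · exact ⟨p, hp, q, c, hr, ⟨h3, hq.2⟩, (add_zero _).ge⟩
    · have e : p.1 = J.1 := hp.1
      obtain ⟨c', hc, -, r⟩ := pbc_reroute hl ht hlt hr (Or.inl (e ▸ h1.1.le)) hq.1 h3.le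
      refine ⟨p, hp, (θ', t), c', r, ⟨le_refl θ', h2⟩, ?_⟩
      simp only [sub_self, abs_zero]
      linarith

theorem E_link (hH : ∀ θ t, 0 ≤ H θ t) (hl : Link S D θ θ' t) (ht : t ∈ κ.Ip) (h1 : θ ∈ tm J)
    (h2 : θ' ∈ tm J) (d : Bool) : SB.E S D H κ J d θ t = SB.E S D H κ J d θ' t := by
  rcases lt_trichotomy θ θ' with h | h | h
  · exact pbc_link hH hl ht h1 h2 h d
  · rw [h]
  · exact (pbc_link hH hl.symm ht h2 h1 h d).symm

theorem cellE_arc (hH : ∀ θ t, 0 ≤ H θ t) (ha : a < S.mate a) (hp : t ∈ D.P a) (ht : t ∈ κ.Ip)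
    (h1 : a ∈ tm J) (h2 : S.mate a ∈ tm J) (h3 : a ≤ θ) (h4 : θ ≤ S.mate a) :
    cellE S D H κ J θ t = cellE S D H κ J a t := by
  have e1 := E_link hH (link_arc ha hp) ht h1 h2 true
  have e2 := E_link hH (link_arc ha hp) ht h1 h2 false
  have m1 := E_mono (S := S) (D := D) (κ := κ) (J := J) (t := t) hH h3
  have m2 := E_mono (S := S) (D := D) (κ := κ) (J := J) (t := t) hH h4
  unfold cellE
  rw [le_antisymm (m2.1.trans e1.ge) m1.1, le_antisymm m1.2 (e2.le.trans m2.2)]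

theorem Tr.near_in (h : Tr S D κ η m η') {p : ℕ × ℝ}
    (hp : Near S D κ.Ip (chain D κ.Ip m) (2 * κ.s) p) : p.1 ∈ tm (η, η') := by
  obtain ⟨p0, hp0, c, hc, hr⟩ := hp
  have e : p0.1 = m := hp0.1
  have hs := h.pos
  have l1 := h.lt1
  have l2 := h.lt2
  by_contra hn
  have h3 : p.1 ≤ η ∨ η' < p.1 := by
    simp only [tm, mem_Ioc] at hn
    omega
  rcases hr.bar_mates h.m2 (by omega) (by omega) h3 with ⟨t, ht, hv⟩ | ⟨t, ht, hv⟩
  · obtain ⟨c₁, h4, r⟩ := hv.left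
    exact h.s1 (η, t) ⟨rfl, ht, hv.mem⟩ (.of_reach hp0 r (by linarith))
  · obtain ⟨c₁, h4, r⟩ := hv.left
    exact h.s2 p0 hp0 (.of_reach (p := (η', t)) ⟨rfl, ht, hv.mem⟩ r.symm (by linarith))

/-- An arc of the band with an end inside the cell lies on one side of the middle gap. -/
theorem Tr.arc (h : Tr S D κ η m η') (ha : WArc S D κ.Ip a) :
    (a ∈ tm (η, m) ↔ S.mate a ∈ tm (η, m)) ∧ (a ∈ tm (m, η') ↔ S.mate a ∈ tm (m, η')) := by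
  have a1 := h.m1 a ha
  have a2 := h.m2 a ha
  have a3 := ha.1
  have l1 := h.lt1
  have l2 := h.lt2
  simp only [Enc] at a1 a2
  simp only [tm, mem_Ioc]
  omega

theorem pbc_wd (κ : Cone) : ∀ t ∈ κ.Ip, ∀ t' ∈ κ.Ip, |t - t'| ≤ 120 * κ.s := fun t h t' h' =>
  abs_le.2 ⟨by linarith [h.1, h'.2], by linarith [h.2, h'.1]⟩

theorem pbc_capR (h : Tr S D κ η m η') (hH : ∀ θ t, 0 ≤ H θ t) (hl : Low D H κ (η, η'))
    {θ₀ : ℕ} {t₀ : ℝ} (h1 : η < θ₀) (h2 : θ₀ ≤ m) (h3 : θ₀ ≤ θ)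
    (hn : Near S D κ.Ip (chain D κ.Ip m) (2 * κ.s) (θ₀, t₀)) :
    SB.E S D H κ (η, η') true θ t = κ.a + 2 * κ.s := by
  refine le_antisymm (E_le hH true) (le_envT le_rfl fun p hp q c hr hq => ?_)
  have hs := h.pos
  have h4 := hl p (Or.inl hp)
  have h5 := abs_nonneg (t - q.2)
  rcases le_or_gt (800 * κ.s) c with hc | hc
  · linarith
  obtain ⟨u, hu, h6⟩ := sep_right (pbc_wd κ) h.m1 (h.far η (Or.inl rfl)) (.of_reach hp hr hc.le)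
    (h3.trans hq.1) h1 h2 hn (by linarith)
  exact absurd (h6.mono_R (by linarith)) (h.s1 u hu)

theorem pbc_capL (h : Tr S D κ η m η') (hH : ∀ θ t, 0 ≤ H θ t) (hl : Low D H κ (η, η'))
    {θ₀ : ℕ} {t₀ : ℝ} (h1 : m < θ₀) (h2 : θ₀ ≤ η') (h3 : θ ≤ θ₀)
    (hn : Near S D κ.Ip (chain D κ.Ip m) (2 * κ.s) (θ₀, t₀)) :
    SB.E S D H κ (η, η') false θ t = κ.a + 2 * κ.s := by
  refine le_antisymm (E_le hH false) (le_envT le_rfl fun p hp q c hr hq => ?_)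
  have hs := h.pos
  have h4 := hl p (Or.inr hp)
  have h5 := abs_nonneg (t - q.2)
  rcases le_or_gt (800 * κ.s) c with hc | hc
  · linarith
  obtain ⟨u, hu, h6⟩ := sep_left (pbc_wd κ) (h.m1.symm.trans h.m2)
    (h.far η' (Or.inr (Or.inr rfl))) (.of_reach hp hr hc.le) (le_trans hq.1 h3) h1 h2 hn
    (by linarith)
  exact absurd (h6.mono_R (by linarith)) (h.s2 u hu)

theorem Tr.cap (h : Tr S D κ η m η') (hH : ∀ θ t, 0 ≤ H θ t) (hl : Low D H κ (η, η')) :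
    (m ≤ θ → SB.E S D H κ (η, η') true θ t = κ.a + 2 * κ.s) ∧
      (θ ≤ m + 1 → SB.E S D H κ (η, η') false θ t = κ.a + 2 * κ.s) ∧
      (Near S D κ.Ip (chain D κ.Ip m) (2 * κ.s) (θ, t) →
        cellE S D H κ (η, η') θ t = κ.a + 2 * κ.s) := by
  obtain ⟨q, hq⟩ := h.ne
  have hn : Near S D κ.Ip (chain D κ.Ip m) (2 * κ.s) (m, q.2) :=
    .self ⟨rfl, hq.2⟩ hq.2.2 (by linarith [h.pos])
  have c1 : m ≤ θ → SB.E S D H κ (η, η') true θ t = κ.a + 2 * κ.s := fun h1 =>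
    pbc_capR h hH hl h.lt1 le_rfl h1 hn
  have c2 : θ ≤ m + 1 → SB.E S D H κ (η, η') false θ t = κ.a + 2 * κ.s := fun h1 =>
    pbc_capL h hH hl (Nat.lt_succ_self m) h.lt2 h1 (hn.link (link_gap S hq.2.1))
  refine ⟨c1, c2, fun hp => ?_⟩
  have hθ : η < θ ∧ θ ≤ η' := h.near_in hp
  unfold cellE
  rcases le_or_gt θ m with h1 | h1
  · rw [pbc_capR h hH hl hθ.1 h1 le_rfl hp, c2 (by omega), min_self]
  · rw [pbc_capL h hH hl h1 hθ.2 le_rfl hp, c1 h1.le, min_self]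

theorem pbc_G (κ : Cone) (hs : 0 < κ.s) (h : |t - κ.t| ≤ 52 * κ.s) : κ.a - 24 * κ.s ≤ κ.G t := by
  have : max 0 (|t - κ.t| - 28 * κ.s) ≤ 24 * κ.s := max_le (by linarith) (by linarith)
  unfold Cone.G
  linarith

theorem pbc_low (hs : 0 < κ.s) (hlip : ∀ θ t t', |H θ t - H θ t'| ≤ |t - t'|) (he : E12 H κ J)
    (hθ : θ ∈ tm J) (ht : t ∈ κ.Ip) : κ.a - 48 * κ.s ≤ H θ t := by
  rcases lt_or_ge t (κ.t - 52 * κ.s) with h1 | h1
  · have a1 := (he.2 θ hθ).1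
    have a2 := pbc_G (t := κ.t - 52 * κ.s) κ hs (abs_le.2 ⟨by linarith, by linarith⟩)
    have a3 := (abs_le.1 ((hlip θ t (κ.t - 52 * κ.s)).trans
      (abs_le.2 ⟨by linarith [ht.1], by linarith⟩ : _ ≤ 8 * κ.s))).1
    linarith
  rcases lt_or_ge (κ.t + 52 * κ.s) t with h2 | h2
  · have a1 := (he.2 θ hθ).2
    have a2 := pbc_G (t := κ.t + 52 * κ.s) κ hs (abs_le.2 ⟨by linarith, by linarith⟩)
    have a3 := (abs_le.1 ((hlip θ t (κ.t + 52 * κ.s)).trans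
      (abs_le.2 ⟨by linarith, by linarith [ht.2]⟩ : _ ≤ 8 * κ.s))).1
    linarith
  have a1 := he.1 θ hθ t ⟨h1, h2⟩
  have a2 := pbc_G (t := t) κ hs (abs_le.2 ⟨by linarith, by linarith⟩)
  linarith

theorem low_of (hs : 0 < κ.s) (hJ : J.1 < J.2) (hlip : ∀ θ t t', |H θ t - H θ t'| ≤ |t - t'|)
    (hc : ∀ t ∈ κ.Ip, t ∈ D.L J.1 → H J.1 t = H (J.1 + 1) t) (he : E12 H κ J) : Low D H κ J := by
  rintro ⟨θ, t⟩ (hp | hp)
  · obtain rfl : θ = J.1 := hp.1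
    rw [show H (J.1, t).1 (J.1, t).2 = H (J.1 + 1) t from hc t hp.2.2 hp.2.1]
    exact pbc_low hs hlip he ⟨Nat.lt_succ_self _, hJ⟩ hp.2.2
  · obtain rfl : θ = J.2 := hp.1
    exact pbc_low hs hlip he ⟨hJ, le_rfl⟩ hp.2.2

theorem Tr.ok (h : Tr S D κ η m η') (hH : ∀ θ t, 0 ≤ H θ t)
    (hc : ∀ t ∈ κ.Ip, t ∈ D.L η → H η t = H (η + 1) t) (he : E12 H κ (η, η')) :
    CellOK S D H κ ((η, η'), cellE S D H κ (η, η')) := by
  have l : η < η' := h.lt1.trans h.lt2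
  refine ⟨fun θ t => (min_le_left _ _).trans (E_le hH true), fun θ t t' => ?_,
    fun θ θ' t hl ht h1 h2 => ?_, fun θ θ' t hl ht h1 h2 => ?_, he⟩
  · refine (abs_min_sub_min_le_max _ _ _ _).trans (max_le ?_ ?_) <;>
      exact (envT_lip (m := 0) (by norm_num) (fun p _ _ => hH _ _) t t').trans_eq (by ring)
  · simp only [cellE, E_link hH hl ht h1 h2]
  · have h3 : θ' ≤ η ∨ η' < θ' := by
      simp only [tm, mem_Ioc] at h2
      omega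
    rcases hl.exit_mates ht h.m2 h1.1 h1.2 h3 with ⟨rfl, -, h4⟩ | ⟨rfl, -, h4⟩
    · refine (min_le_left _ _).trans (le_trans (envT_le (m := 0) (p := (η, t)) (by norm_num)
        (fun p _ _ => hH _ _) ⟨rfl, h4, ht⟩ (.of_link (link_gap S h4) ht)
        ⟨le_refl (η + 1), h1⟩) (le_of_eq ?_))
      simp only [sub_self, abs_zero, add_zero, mul_zero]
      exact hc t ht h4
    · refine (min_le_right _ _).trans (le_trans (envT_le (m := 0) (p := (θ, t)) (by norm_num)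
        (fun p _ _ => hH _ _) ⟨rfl, h4, ht⟩ (.refl ht) ⟨le_refl θ, h1⟩) (le_of_eq ?_))
      simp only [sub_self, abs_zero, add_zero, mul_zero]

end Vale.Agent.P235.Pl.Pb
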