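import Vale.Agent.P235P.PBDefs

/-! P235 planar case, birth in system B: five consecutive members of the greedy family. -/

open Set Classical

noncomputable section

namespace Vale.Agent.P235.Pl.Pb

variable {S : Sk} {D : Lk} {B : Set ℝ} {u : ℝ}


/-- All points of the chain of `e` are close to the chain of `g`. -/
def pbw_Dep (S : Sk) (D : Lk) (B : Set ℝ) (g e : ℕ) (R : ℝ) : Prop :=
  ∀ p ∈ chain D B e, Near S D B (chain D B g) R p

/-- `b` is the first member after `a`. -/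
def pbw_Nx (Fm M : ℕ → Prop) (f a b : ℕ) : Prop :=
  a < b ∧ b < f ∧ Fm b ∧ M b ∧ ∀ e, a < e → e < b → Fm e → ¬ M e

theorem pbw_rel {g e m : ℕ} {R R' : ℝ} (h : pbw_Dep S D B g e R) (h' : relB S D B R' e m) :
    ∃ q ∈ chain D B m, Near S D B (chain D B g) (R + R') q := by
  obtain ⟨-, p, hp, q, hq, c, hc, h1⟩ := h'
  exact ⟨q, hq, ((h p hp).reach h1.symm).mono_R (by linarith)⟩

theorem pbw_long {g f : ℕ} {R : ℝ} (hL : Long S D B u g f) (hR : R ≤ 8000 * u) {q : ℕ × ℝ}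
    (hq : q ∈ chain D B f) : ¬ Near S D B (chain D B g) R q := by
  rintro ⟨p, hp, c, hc, h⟩
  exact hL.2.2.2 p hp ⟨q, hq, c, hc.trans hR, h.symm⟩

theorem pbw_step (hu : 0 < u) (hB : ∀ t ∈ B, ∀ t' ∈ B, |t - t'| ≤ 120 * u) {el : ℕ → Prop}
    {g f : ℕ} (hL : Long S D B u g f) (hel : ∀ e, g ≤ e → e < f → Mates S D B g e →
      el e ∧ (chain D B e).Nonempty ∧ FarArc S D B e (1000 * u)) {e : ℕ} {R : ℝ} (h1 : g ≤ e)
    (h2 : e < f) (hm : Mates S D B g e) (hd : pbw_Dep S D B g e R) (hR : R + 1240 * u ≤ 8000 * u) :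
    ∃ m, pbw_Nx (greedy el (relB S D B (1000 * u))) (Mates S D B g) f e m ∧
      pbw_Dep S D B g m (R + 1240 * u) := by
  have hf : e < f ∧ Mates S D B g f ∧ ¬ relB S D B (1000 * u) e f := by
    refine ⟨h2, hL.2.1, fun h => ?_⟩
    obtain ⟨q, hq, h3⟩ := pbw_rel hd h
    exact pbw_long hL (by linarith) hq h3
  have ex : ∃ k, e < k ∧ Mates S D B g k ∧ ¬ relB S D B (1000 * u) e k := ⟨f, hf⟩
  obtain ⟨k, ⟨k1, k2, k3⟩, k4⟩ : ∃ k, (e < k ∧ Mates S D B g k ∧ ¬ relB S D B (1000 * u) e k) ∧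
      ∀ j, (e < j ∧ Mates S D B g j ∧ ¬ relB S D B (1000 * u) e j) → k ≤ j :=
    ⟨_, Nat.find_spec ex, fun j hj => Nat.find_min' ex hj⟩
  have kf := k4 f hf
  have a1 : ∀ j, e ≤ j → j < k → Mates S D B g j →
      ∃ q ∈ chain D B j, Near S D B (chain D B g) (R + 1000 * u) q := by
    intro j j1 j2 j3
    rcases j1.eq_or_lt with rfl | j1
    · obtain ⟨q, hq⟩ := (hel _ h1 h2 hm).2.1
      exact ⟨q, hq, (hd q hq).mono_R (by linarith)⟩
    · refine pbw_rel hd (by_contra fun h => ?_)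
      exact absurd (k4 j ⟨j1, j3, h⟩) (not_le.2 j2)
  have a2 : ∀ j, e < j → j ≤ k → Mates S D B g j → pbw_Dep S D B g j (R + 1240 * u) := by
    rintro j j1 j2 j3 ⟨j', t'⟩ ⟨hj, -, ht'⟩
    obtain rfl : j = j' := hj.symm
    have i1 := Nat.findGreatest_spec (P := Mates S D B g) (n := j - 1) (by omega : e ≤ j - 1) hm
    have i2 := Nat.le_findGreatest (P := Mates S D B g) (n := j - 1) (by omega : e ≤ j - 1) hm
    have i3 := Nat.findGreatest_le (P := Mates S D B g) (j - 1)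
    have i4 := fun i (a : Nat.findGreatest (Mates S D B g) (j - 1) < i) (b : i ≤ j - 1) =>
      Nat.findGreatest_is_greatest (P := Mates S D B g) a b
    generalize Nat.findGreatest (Mates S D B g) (j - 1) = i at i1 i2 i3 i4
    obtain ⟨⟨i', t⟩, ⟨hi, ht1, ht2⟩, hq⟩ := a1 i i2 (by omega) i1
    obtain rfl : i = i' := hi.symm
    obtain ⟨c, hc, h⟩ := succ_near hB (i1.symm.trans j3) (by omega)
      (fun x x1 x2 x3 => i4 x x1 (by omega) (i1.trans x3)) ht1 ht2 ht'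
    exact (hq.reach h).mono_R (by linarith)
  have kf' : k < f := by
    refine lt_of_le_of_ne kf fun h => ?_
    obtain ⟨q, hq⟩ := hL.2.2.1
    exact pbw_long hL hR hq (a2 f h2 h.ge hL.2.1 q hq)
  have ex2 : ∃ m, e < m ∧ m ≤ k ∧ greedy el (relB S D B (1000 * u)) m ∧ Mates S D B g m := by
    by_cases hk : greedy el (relB S D B (1000 * u)) k
    · exact ⟨k, k1, le_rfl, hk, k2⟩
    · obtain ⟨b1, -, b3⟩ := hel k (by omega) kf' k2
      rw [greedy_iff, not_and] at hk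
      have b4 := hk b1
      push Not at b4
      obtain ⟨m, m1, m2, m3, p, hp, q, hq, c, hc, h⟩ := b4
      refine ⟨m, not_le.1 fun m4 => ?_, m1.le, m2, k2.trans m3.symm⟩
      rcases h.bar_gap' (g := e) (hq.1 ▸ k1) (hp.1 ▸ m4) with ⟨t, ht, hv⟩ | ⟨a, t, c1, c2, c3, hv⟩
      · obtain ⟨c', hc', h'⟩ := hv.left
        exact k3 ⟨hm.symm.trans k2, (e, t), ⟨rfl, ht, hv.mem⟩, q, hq, c', hc'.trans hc, h'⟩
      · obtain ⟨c', hc', h'⟩ := hv.left
        have wa : WArc S D B a := ⟨by omega, t, c3, hv.mem⟩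
        exact (b3 (a, t) ⟨q, hq, c', hc'.trans hc, h'⟩ a wa
          ((hm.symm.trans k2 a wa).1 ⟨c1, c2⟩)).1 rfl
  obtain ⟨m1, m2, m3, m4⟩ := Nat.find_spec ex2
  refine ⟨_, ⟨m1, m2.trans_lt kf', m3, m4, fun j j1 j2 j3 j4 => ?_⟩, a2 _ m1 m2 m4⟩
  exact Nat.find_min ex2 j2 ⟨j1, j2.le.trans m2, j3, j4⟩

theorem pbw_rank {Fm M : ℕ → Prop} {f a b : ℕ} (h : pbw_Nx Fm M f a b) (h1 : Fm a) (h2 : M a) :
    Set.ncard {e | e < b ∧ Fm e ∧ M e} = Set.ncard {e | e < a ∧ Fm e ∧ M e} + 1 := by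
  have e : {e | e < b ∧ Fm e ∧ M e} = insert a {e | e < a ∧ Fm e ∧ M e} := by
    ext e
    constructor
    · rintro ⟨k1, k2, k3⟩
      rcases lt_trichotomy e a with k | k | k
      · exact Or.inr ⟨k, k2, k3⟩
      · exact Or.inl k
      · exact absurd k3 (h.2.2.2.2 e k k1 k2)
    · rintro (rfl | ⟨k1, k2⟩)
      · exact ⟨h.1, h1, h2⟩
      · exact ⟨k1.trans h.1, k2⟩
  rw [e]
  exact ncard_insert_of_notMem (fun k => lt_irrefl _ k.1) ((finite_Iio a).subset fun _ k => k.1)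

theorem pbw_tri {Fm : ℕ → Prop} {g f z a b c : ℕ} (h0 : pbw_Nx Fm (Mates S D B g) f z a)
    (h1 : pbw_Nx Fm (Mates S D B g) f a b) (h2 : pbw_Nx Fm (Mates S D B g) f b c) (hz : g ≤ z)
    (hr : Set.ncard {e | e < a ∧ Fm e ∧ Mates S D B g e} % 3 = 0) :
    ∃ η m η', SB.Triple S D B Fm η m η' ∧ g ≤ η ∧ η' < f ∧ Mates S D B g η := by
  have ha := h0.2.2.2.1
  refine ⟨a, b, c, ⟨h1.1, h2.1, h0.2.2.1, h1.2.2.1, h2.2.2.1, ha.symm.trans h1.2.2.2.1,
    ha.symm.trans h2.2.2.2.1, fun e k1 k2 k3 k4 => ?_, ?_⟩, hz.trans h0.1.le, h2.2.1, ha⟩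
  · rcases lt_trichotomy e b with k | k | k
    · exact absurd (ha.trans k4) (h1.2.2.2.2 e k1 k k3)
    · exact k
    · exact absurd (ha.trans k4) (h2.2.2.2.2 e k k2 k3)
  · rw [← hr]
    congr 2
    ext e
    exact and_congr_right fun _ => and_congr_right fun _ => ⟨ha.trans, ha.symm.trans⟩

theorem walk (hu : 0 < u) (hB : ∀ t ∈ B, ∀ t' ∈ B, |t - t'| ≤ 120 * u) {el : ℕ → Prop} {g f : ℕ}
    (hL : Long S D B u g f) (hel : ∀ e, g ≤ e → e < f → Mates S D B g e →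
      el e ∧ (chain D B e).Nonempty ∧ FarArc S D B e (1000 * u)) :
    ∃ η m η', SB.Triple S D B (greedy el (relB S D B (1000 * u))) η m η' ∧ g ≤ η ∧ η' < f ∧
      Mates S D B g η := by

  obtain ⟨a, a1, a2⟩ := pbw_step hu hB hL hel (R := 0) le_rfl hL.1 (Mates.refl S D B g)
    (fun p hp => Near.self hp hp.2.2 le_rfl) (by linarith)
  have ga := a1.1.le
  obtain ⟨b, b1, b2⟩ := pbw_step hu hB hL hel ga a1.2.1 a1.2.2.2.1 a2 (by linarith)
  have gb := ga.trans b1.1.le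
  obtain ⟨c, c1, c2⟩ := pbw_step hu hB hL hel gb b1.2.1 b1.2.2.2.1 b2 (by linarith)
  have gc := gb.trans c1.1.le
  obtain ⟨d, d1, d2⟩ := pbw_step hu hB hL hel gc c1.2.1 c1.2.2.2.1 c2 (by linarith)
  obtain ⟨e, e1, -⟩ := pbw_step hu hB hL hel (gc.trans d1.1.le) d1.2.1 d1.2.2.2.1 d2 (by linarith)
  have r1 := pbw_rank b1 a1.2.2.1 a1.2.2.2.1
  have r2 := pbw_rank c1 b1.2.2.1 b1.2.2.2.1
  by_cases k1 : Set.ncard {e | e < a ∧ greedy el (relB S D B (1000 * u)) e ∧ Mates S D B g e} % 3 = 0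
  · exact pbw_tri a1 b1 c1 le_rfl k1
  · by_cases k2 :
        Set.ncard {e | e < b ∧ greedy el (relB S D B (1000 * u)) e ∧ Mates S D B g e} % 3 = 0
    · exact pbw_tri b1 c1 d1 ga k2
    · exact pbw_tri c1 d1 e1 gb (by omega)

end Vale.Agent.P235.Pl.Pb
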