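import Vale.Agent.P235P.PBBas
import Vale.Agent.P235P.PBWalk

/-! P235 planar case, birth in system B: core stops. -/

open Set Classical

noncomputable section

namespace Vale.Agent.P235.Pl.Pb

variable {S : Sk} {π : Par} {X : Dat S π} {dir : Bool} {Im : ℕ × ℕ} {mu : ℕ → ℝ → ℝ}

/-- The value near the chain of a flat inner gap. -/
theorem pbk_mu (hp : X.PD dir Im mu) {κ : Cone} (hu : κ.s = X.u) (ht : |X.vx - κ.t| ≤ X.u) {e : ℕ}
    (hi : Inner X.c X.D X.s.W X.A X.b κ e) (h0 : X.Flat Im mu e) {R : ℝ} (hR : R ≤ 2 * X.u)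
    {p : ℕ × ℝ} (hn : Near S X.D κ.Ip (chain X.D κ.Ip e) R p) :
    X.H X.n p.1 p.2 ≤ X.mx + 8 * X.u + (|p.2 - X.vx| + 2 * R) / 16 := by
  have hB : ∀ q, Near S X.D κ.Ip (chain X.D κ.Ip e) R q → q ∈ X.B := fun q hq =>
    hi.nb q (Or.inl (hq.mono_R (by rw [hu]; exact hR)))
  rw [(hp.ball p (hB p hn)).2]
  obtain ⟨⟨θ0, t0⟩, hp0, c, hc, hr⟩ := hn
  have key : c ≤ R → mu p.1 p.2 ≤ mu θ0 t0 + c / 16 := by
    refine hr.inv (Q := fun q c => c ≤ R → mu q.1 q.2 ≤ mu θ0 t0 + c / 16)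
      (fun _ => by simp) ?_ ?_
    · intro θ t t' c _ _ ih h1
      have a1 := abs_nonneg (t - t')
      have a2 := (abs_le.1 (hp.lip θ t t')).1
      have a3 : mu θ t ≤ mu θ0 t0 + c / 16 := ih (by linarith)
      show mu θ t' ≤ _
      linarith
    · intro θ θ' t c hr hl ih h1
      have n1 : Near S X.D κ.Ip (chain X.D κ.Ip e) R (θ, t) := .of_reach hp0 hr h1
      have n2 : t ∈ κ.Ip := n1.mem
      have n3 := abs_le.1 ht
      have n4 : κ.t - 60 * κ.s ≤ t := n2.1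
      have n5 : t ≤ κ.t + 60 * κ.s := n2.2
      rw [hu] at n4 n5
      have e1 := hp.cons θ θ' t hl (hp.ball _ (hB _ n1)).1 (hp.ball _ (hB _ (n1.link hl))).1
        (abs_le.2 ⟨by linarith, by linarith⟩)
      show mu θ' t ≤ _
      rw [← e1]
      exact ih h1
  obtain rfl : θ0 = e := hp0.1
  have a1 : |t0 - p.2| ≤ c := hr.abs_le
  have a2 := (abs_le.1 (hp.lip θ0 t0 X.vx)).2
  have a3 := (abs_le.1 h0.2).2
  have a4 : |t0 - X.vx| ≤ |t0 - p.2| + |p.2 - X.vx| := abs_sub_le _ _ _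
  linarith [key hc]

/-- The value in the core range of a flat inner gap. -/
theorem pbk_up (hp : X.PD dir Im mu) {κ : Cone} (hu : κ.s = X.u) (u0 : 0 < X.u)
    (ht : |X.vx - κ.t| ≤ X.u) {e : ℕ} (hi : Inner X.c X.D X.s.W X.A X.b κ e)
    (h0 : X.Flat Im mu e) (h1 : X.Flat Im mu (e + 1)) {R : ℝ} (hR0 : 0 ≤ R) (hR : R ≤ 2 * X.u)
    {p : ℕ × ℝ} (hn : Near S X.D κ.Ip (chain X.D κ.Ip e) R p ∨ p.1 = e ∨ p.1 = e + 1)
    (hc : |p.2 - κ.t| ≤ 28 * κ.s) :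
    p ∈ X.B ∧ X.H X.n p.1 p.2 ≤ X.mx + 8 * X.u + (29 * X.u + 2 * R) / 16 := by
  have a1 := abs_le.1 hc
  have a2 := abs_le.1 ht
  have a3 : |p.2 - X.vx| ≤ 29 * X.u := by
    rw [hu] at a1
    exact abs_le.2 ⟨by linarith, by linarith⟩
  rcases hn with hn | hn
  · exact ⟨hi.nb p (Or.inl (hn.mono_R (by rw [hu]; exact hR))),
      (pbk_mu hp hu ht hi h0 hR hn).trans (by linarith)⟩
  · have s0 : 0 < κ.s := hu ▸ u0
    have hB : p ∈ X.B := hi.nb p (Or.inr ⟨hn, by linarith, by linarith⟩)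
    have hf : X.Flat Im mu p.1 := by
      rcases hn with hn | hn <;> rw [hn]
      exacts [h0, h1]
    refine ⟨hB, ?_⟩
    rw [(hp.ball p hB).2]
    have a4 := (abs_le.1 (hp.lip p.1 p.2 X.vx)).2
    have a5 := (abs_le.1 hf.2).2
    linarith

/-- Flat inner gaps are eligible. -/
theorem pbk_elig (h : X.Sit) (hp : X.PD dir Im mu) {κ : Cone} (hu : κ.s = X.u)
    (ht : |X.vx - κ.t| ≤ X.u) (ha : X.mx + 11 * X.u ≤ κ.a) {e : ℕ}
    (hi : Inner X.c X.D X.s.W X.A X.b κ e) (h0 : X.Flat Im mu e) (h1 : X.Flat Im mu (e + 1)) :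
    SB.eligP S X.s X.D X.I (del X.s X.ρ) (X.H X.n) κ e := by
  have u0 := h.num.2.1
  refine ⟨hi.ne, (hp.sub h0.1).1, (hp.sub h1.1).2, hi.far, fun p hn => ?_, fun p hn hc => ?_⟩
  · exact (h.bl (hi.nb p (Or.inl (hn.mono_R (by rw [hu]; linarith))))).2.2.2.2.2
  · have a1 := (pbk_up hp hu u0 ht hi h0 h1 (R := κ.s) (by rw [hu]; exact u0.le)
      (by rw [hu]; linarith) hn hc).2
    rw [hu] at a1 ⊢
    linarith

/-- The conditions E1, E2 on flat times. -/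
theorem pbk_e12 (hp : X.PD dir Im mu) {κ : Cone} (hu : κ.s = X.u) (u0 : 0 < X.u)
    (ht : |X.vx - κ.t| ≤ X.u) (ha : κ.a ≤ X.mx + 12 * X.u) {J : ℕ × ℕ}
    (hJ : ∀ θ ∈ tm J, X.Flat Im mu θ) : E12 (X.H X.n) κ J := by
  have a2 := abs_le.1 ht
  have key : ∀ θ ∈ tm J, ∀ t ∈ κ.I0, κ.a - 24 * κ.s ≤ X.H X.n θ t := by
    intro θ hθ t h1
    have b1 : κ.t - 52 * κ.s ≤ t := h1.1
    have b2 : t ≤ κ.t + 52 * κ.s := h1.2
    rw [hu] at b1 b2 ⊢
    have b3 : |t - X.vx| ≤ 53 * X.u := abs_le.2 ⟨by linarith, by linarith⟩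
    refine le_trans (le_min (by linarith) ?_) (hp.low θ (hJ θ hθ).1 t (by linarith))
    have b4 := (abs_le.1 (hp.lip θ t X.vx)).1
    have b5 := (abs_le.1 (hJ θ hθ).2).1
    linarith
  have s0 : 0 < κ.s := hu ▸ u0
  have g1 : ∀ t, 52 * κ.s ≤ |t - κ.t| → κ.G t ≤ κ.a - 24 * κ.s := fun t h1 =>
    sub_le_sub_left (le_max_of_le_right (by linarith)) _
  refine ⟨fun θ hθ t h1 => by linarith [key θ hθ t h1, κ.G_le t], fun θ hθ => ⟨?_, ?_⟩⟩
  · refine (g1 _ (le_abs.2 (Or.inr (by linarith)))).trans (key θ hθ _ ⟨le_rfl, by linarith⟩)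
  · refine (g1 _ (le_abs.2 (Or.inl (by linarith)))).trans (key θ hθ _ ⟨by linarith, le_rfl⟩)

/-- The operation and the label at a point of the ball that is done in the core of the cone. -/
theorem pbk_done (h : X.Sit) {i k : ℤ} (hs : X.P.Suc (sd X.ρ) X.hb X.n i k) {θ : ℕ} {v : ℝ}
    (hB : (θ, v) ∈ X.B) (hd : X.P.Done (sd X.ρ) θ v X.n i k)
    (hc : |v - (X.K X.n i k).t| ≤ 28 * (X.K X.n i k).s) :
    X.Psi θ v = v + sg X.ρ * ((X.K X.n i k).a - xi0 X.s X.ρ) ∧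
      (sysB S π).lab1 X.s X.ρ θ v =
        ((X.s.lab θ v).1, min (X.s.lab θ v).2 (X.K X.n i k).s) := by
  have hu : (X.K X.n i k).s = X.u := h.scl
  obtain ⟨A0, u0, n1, -⟩ := h.num
  have k1 : |X.vx - (X.K X.n i k).t| ≤ X.u := hs.1.trans_eq h.scl
  have k2 : X.mx + 11 * X.u ≤ (X.K X.n i k).a := by
    have := hs.2.1
    rwa [h.scl] at this
  have k3 : (X.K X.n i k).a ≤ X.mx + 12 * X.u := by
    have := hs.2.2
    rwa [h.scl] at this
  obtain ⟨-, -, b1, b2, b3, b4⟩ := h.bl hB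
  have w0 := h.nd.nb.w0
  have g3 : 3 * X.s.w ≤ GG X.s X.ρ X.I (!X.d) θ v := by
    linarith [h.nd.other b3 X.ρ v]
  obtain ⟨m1, m2⟩ := h.mid'
  have a1 := abs_le.1 k1
  have a2 := abs_le.1 (hc.trans_eq (by rw [hu]))
  have a3 := (abs_le.1 ((h_trap_lip (s := X.s) (ρ := X.ρ) v X.vx).trans
    (abs_le.2 ⟨by linarith, by linarith⟩ : _ ≤ 29 * X.u))).1
  norm_num at n1
  have p0 : 0 < (X.K X.n i k).a - xi0 X.s X.ρ := by linarith
  have p1 : (X.K X.n i k).a - xi0 X.s X.ρ < trap X.s X.ρ v := by linarith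
  have e1 : X.H π.nS θ v = (X.K X.n i k).a :=
    (HP.done_final h.ball.good.s1 hd X.n.2).trans (Cone.G_core _ hc)
  refine ⟨?_, h.nd.lab_core b1 g3 (h.nd.shal b3 b2 b4).1 hd hc p0 p1⟩
  refine (h.nd.psi b1 g3).trans ?_
  unfold PsiD
  rw [show HH X.s X.ρ X.I X.d π.nS θ v = (X.K X.n i k).a from e1, min_eq_right p1.le,
    max_eq_right p0.le]

theorem Dat.Sit.core_stop (h : X.Sit) (hp : X.PD dir Im mu) {i k : ℤ}
    (hs : X.P.Suc (sd X.ρ) X.hb X.n i k) {g f : ℕ}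
    (hL : Long S X.D (X.K X.n i k).Ip (X.K X.n i k).s g f)
    (hin : ∀ e, g ≤ e → e < f → Mates S X.D (X.K X.n i k).Ip g e →
      Inner X.c X.D X.s.W X.A X.b (X.K X.n i k) e)
    (hfl : ∀ θ, g ≤ θ → θ ≤ f → X.Flat Im mu θ) (hx : X.c.x.1 ∉ Ioc g f)
    (hy : X.c.y.1 ∉ Ioc g f) : ∃ e, g < e ∧ e < f ∧ Mates S X.D (X.K X.n i k).Ip g e ∧
      X.c.CoreStop X.mid X.Vn X.A e := by
  have hu : (X.K X.n i k).s = X.u := h.scl
  obtain ⟨A0, u0, -⟩ := h.num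
  have s0 : 0 < (X.K X.n i k).s := hu ▸ u0
  have k1 : |X.vx - (X.K X.n i k).t| ≤ X.u := hs.1.trans_eq h.scl
  have k2 : X.mx + 11 * X.u ≤ (X.K X.n i k).a := by
    have := hs.2.1
    rwa [h.scl] at this
  have k3 : (X.K X.n i k).a ≤ X.mx + 12 * X.u := by
    have := hs.2.2
    rwa [h.scl] at this
  have adm : Adm X.P.W X.P.s1 (sd X.ρ) X.n i k := h.ball.suc_adm h.mid.1 hs
  obtain ⟨η, m, η', tri, l1, l2, mg⟩ := walk s0 (pbc_wd _)
    (el := SB.eligP S X.s X.D X.I (del X.s X.ρ) (X.H X.n) (X.K X.n i k)) hL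
    fun e e1 e2 e3 => ⟨pbk_elig h hp hu k1 k2 (hin e e1 e2 e3) (hfl e e1 e2.le)
      (hfl (e + 1) (by omega) e2), (hin e e1 e2 e3).ne, (hin e e1 e2 e3).far⟩
  have tr : Tr S X.D (X.K X.n i k) η m η' := (tr_of s0 tri).1
  have t1 := tr.lt1
  have t2 := tr.lt2
  have mm : Mates S X.D (X.K X.n i k).Ip g m := mg.trans tr.m1
  have hi := hin m (by omega) (by omega) mm
  have hH : ∀ θ t, 0 ≤ X.H X.n θ t := fun θ t => (h.nd.H_nonneg X.ρ X.d X.n θ t).1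
  have hc : ∀ t ∈ (X.K X.n i k).Ip, t ∈ X.D.L η → X.H X.n η t = X.H X.n (η + 1) t :=
    fun t h1 h2 => h.nd.H_link X.n (link_gap S h2) (adm.1 h1) (hp.sub (hfl η l1 (by omega)).1)
      (hp.sub (hfl (η + 1) (by omega) (by omega)).1)
  have he : E12 (X.H X.n) (X.K X.n i k) (η, η') :=
    pbk_e12 hp hu u0 k1 k3 fun θ hθ => hfl θ (l1.trans hθ.1.le) (le_trans hθ.2 l2.le)
  have hl : Low X.D (X.H X.n) (X.K X.n i k) (η, η') :=
    low_of s0 (t1.trans t2) (h.nd.H_lip X.ρ X.d X.n) hc he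
  have act : ((η, η'), cellE S X.D (X.H X.n) (X.K X.n i k) (η, η')) ∈
      X.P.act (X.H X.n) (X.K X.n i k) := ⟨⟨η, m, η', tri, rfl⟩, tr.ok hH hc he⟩
  have key : ∀ θ v, (θ = m ∨ Near S X.D (X.K X.n i k).Ip (chain X.D (X.K X.n i k).Ip m)
      (2 * (X.K X.n i k).s) (θ, v)) → |v - (X.K X.n i k).t| ≤ 28 * (X.K X.n i k).s →
      θ ∈ Ioc η η' ∧ X.Psi θ v = v + sg X.ρ * ((X.K X.n i k).a - xi0 X.s X.ρ) ∧
      (sysB S π).lab1 X.s X.ρ θ v =
        ((X.s.lab θ v).1, min (X.s.lab θ v).2 (X.K X.n i k).s) := by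
    intro θ v hn hv
    have c1 : θ ∈ Ioc η η' ∧ cellE S X.D (X.H X.n) (X.K X.n i k) (η, η') θ v =
        (X.K X.n i k).a + 2 * (X.K X.n i k).s := by
      rcases hn with rfl | hn
      · refine ⟨⟨t1, t2.le⟩, ?_⟩
        unfold cellE
        rw [(tr.cap hH hl).1 le_rfl, (tr.cap hH hl).2.1 (Nat.le_succ _), min_self]
      · exact ⟨tr.near_in hn, (tr.cap hH hl).2.2 hn⟩
    obtain ⟨c2, c3⟩ := pbk_up hp hu u0 k1 hi (hfl m (by omega) (by omega))
      (hfl (m + 1) (by omega) (by omega)) (R := 2 * (X.K X.n i k).s) (by linarith)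
      (by rw [hu]) (p := (θ, v)) (hn.symm.imp_right Or.inl) hv
    have c4 : (X.K X.n i k).G v = (X.K X.n i k).a := Cone.G_core _ hv
    have c5 := abs_le.1 hv
    have c6 : xim X.P.s1 (sd X.ρ) X.n ≤ 2 * (X.K X.n i k).s := (xim_mem h.ball.good.s1 _ _).2
    have c7 : X.H X.n θ v < (X.K X.n i k).G v := by
      rw [c4]
      rw [hu] at c3
      exact c3.trans_lt (by linarith)
    have c8 : (X.K X.n i k).G v ≤ cellE S X.D (X.H X.n) (X.K X.n i k) (η, η') θ v -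
        xim X.P.s1 (sd X.ρ) X.n := by
      rw [c4, c1.2]
      linarith
    exact ⟨c1.1, pbk_done h hs c2 (HP.done_of_cell h.ball.good.s1 adm act c1.1
      ⟨by linarith, by linarith⟩ c7 c8) hv⟩
  refine ⟨m, by omega, by omega, mm, ((X.K X.n i k).t - X.b) / X.A,
    X.b + sg X.ρ * ((X.K X.n i k).a - xi0 X.s X.ρ), η, η', ?_,
    fun hh => hx ⟨l1.trans_lt hh.1, hh.2.trans l2.le⟩,
    fun hh => hy ⟨l1.trans_lt hh.1, hh.2.trans l2.le⟩, fun p hq => ?_⟩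
  · obtain ⟨f1, f2⟩ := h.fin X.c.x.1 X.vx
    have e1 : X.A * (((X.K X.n i k).t - X.b) / X.A) +
        (X.b + sg X.ρ * ((X.K X.n i k).a - xi0 X.s X.ρ)) - X.c.vx X.Vn =
        ((X.K X.n i k).t - X.vx) + sg X.ρ * ((X.K X.n i k).a - X.H π.nS X.c.x.1 X.vx) := by
      rw [h.vx_new, mul_div_cancel₀ _ A0.ne']
      ring
    have e2 : |sg X.ρ * ((X.K X.n i k).a - X.H π.nS X.c.x.1 X.vx)| ≤ 16 * X.u := by
      rw [abs_mul, abs_sg, one_mul]
      exact abs_le.2 ⟨by linarith, by linarith⟩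
    rw [e1, mul_assoc]
    refine (abs_add_le _ _).trans ?_
    rw [abs_sub_comm] at k1
    linarith
  · obtain ⟨q1, q2, q3⟩ := hi.core p hq
    obtain ⟨r1, r2, r3⟩ := h.aff p (q1.mono_R (by linarith [fmid1_r X.c]))
    rw [r1] at r2 r3
    generalize hv : X.A * p.2 + X.b = v at q2 q3 r1 r2 r3
    have q4 := abs_le.1 q2
    have loc : ∀ v', |v - v'| ≤ (X.K X.n i k).s → p.1 ∈ Ioc η η' ∧
        X.Psi p.1 v' = v' + sg X.ρ * ((X.K X.n i k).a - xi0 X.s X.ρ) ∧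
        (sysB S π).lab1 X.s X.ρ p.1 v' =
          ((X.s.lab p.1 v').1, min (X.s.lab p.1 v').2 (X.K X.n i k).s) := by
      intro v' hv'
      have q5 := abs_le.1 hv'
      refine key p.1 v' (q3.imp_right fun hn => (hn.vert ⟨by linarith, by linarith⟩).mono_R
        (by linarith)) (abs_le.2 ⟨by linarith, by linarith⟩)
    obtain ⟨o1, o2, o3⟩ := loc v (by rw [sub_self, abs_zero]; exact s0.le)
    have e1 : X.Vn p.1 p.2 = X.Psi p.1 v := congrArg (X.Psi p.1) r1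
    have e2 : X.mid.lab p.1 (X.Psi p.1 v) = (sysB S π).lab1 X.s X.ρ p.1 v := by
      refine mid_lab fun z hz => ?_
      have hm := (sysB S π).Psi_mono' (s := X.s) X.ρ p.1
      rcases lt_trichotomy z v with z1 | z1 | z1
      · have z2 : max z (v - (X.K X.n i k).s) < v := max_lt z1 (by linarith)
        have z3 := le_max_right z (v - (X.K X.n i k).s)
        have z4 := (loc _ (abs_le.2 ⟨by linarith, by linarith⟩ :
          |v - max z (v - (X.K X.n i k).s)| ≤ _)).2.1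
        have z5 : X.Psi p.1 z ≤ X.Psi p.1 (max z (v - (X.K X.n i k).s)) := hm (le_max_left _ _)
        have z6 : X.Psi p.1 z = X.Psi p.1 v := hz
        linarith
      · exact z1
      · have z2 : v < min z (v + (X.K X.n i k).s) := lt_min z1 (by linarith)
        have z3 := min_le_right z (v + (X.K X.n i k).s)
        have z4 := (loc _ (abs_le.2 ⟨by linarith, by linarith⟩ :
          |v - min z (v + (X.K X.n i k).s)| ≤ _)).2.1
        have z5 : X.Psi p.1 (min z (v + (X.K X.n i k).s)) ≤ X.Psi p.1 z := hm (min_le_left _ _)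
        have z6 : X.Psi p.1 z = X.Psi p.1 v := hz
        linarith
    refine ⟨q1, o1, ?_, ?_, ?_⟩
    · rw [e1, o2, ← hv]
      ring
    · rw [e1, e2, o3]
      exact r2
    · rw [e1, e2, o3]
      exact le_min r3 hu.ge

end Vale.Agent.P235.Pl.Pb
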