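import Vale.Agent.P235P.Contracts
import Vale.Agent.P235P.BBar

/-! P235 planar case: types of pairs and the structure around a pair (definitions). -/

open Set

noncomputable section

namespace Vale.Agent.P235.Pl

variable (S : Sk) (D : Lk)

/-- The distance of `p` and `q` is at most `R`. -/
def DLe (p q : ℕ × ℝ) (R : ℝ) : Prop := ∃ c ≤ R, Reach S D univ p q c

/-- The distance of `p` and `q` is at least `R`. -/
def DGe (p q : ℕ × ℝ) (R : ℝ) : Prop := ∀ c, Reach S D univ p q c → R ≤ c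

/-- The branch of `z` between the consecutive class mates `gm < gp`, with its anchor `E`. -/
def Branch (W : Set ℝ) (z E : ℕ × ℝ) (gm gp : ℕ) : Prop :=
  gm < z.1 ∧ z.1 ≤ gp ∧ Mates S D W gm gp ∧ E.2 ∈ W ∧
    ((gp = gm + 1 ∧ E = z) ∨ (WArc S D W (gm + 1) ∧ S.mate (gm + 1) = gp ∧ E.1 = gm + 1 ∧
      E.2 ∈ D.P (gm + 1)))

/-- The conclusion of the structure lemma in the band `W` of height at most `β`, depth `γ`. -/
structure Str (W : Set ℝ) (x y : ℕ × ℝ) (r γ β : ℝ) (z o E : ℕ × ℝ) (gm gp fm fp : ℕ) : Prop where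
  zo : (z = x ∧ o = y) ∨ (z = y ∧ o = x)
  near : DLe S D x E (2 * r + β)
  br : Branch S D W z E gm gp
  next : ∀ e, gm < e → e < gp → ¬ Mates S D W gm e
  lm : fm ≤ gm
  lp : gp ≤ fp
  lN : fp ≤ S.N
  mm : Mates S D W gm fm
  mp : Mates S D W gm fp
  out : o.1 ≤ fm ∨ fp < o.1
  inner : ∀ e, fm < e → e < fp → Mates S D W gm e →
    (chain D W e).Nonempty ∧ ∀ p ∈ chain D W e, DLe S D E p γ
  stop : ∀ f, f = fm ∨ f = fp → ∀ p ∈ chain D W f, DGe S D E p (γ - β) ∧ DLe S D E p (γ + 2 * β)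
  seam : ∀ a, WArc S D W a → Enc S a gm → ∀ p ∈ cols S W a, DGe S D E p (2 * γ)
  faro : DGe S D E o (2 * γ)
  farb : ∀ b k, WArc S D W b → k ∈ D.P b → Sep S b o.1 z.1 → Mates S D W gm (b - 1) →
    DGe S D E (b, k) (2 * γ)

end Vale.Agent.P235.Pl
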