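import Vale.Agent.P235P.QBDefs
import Vale.Agent.P235P.TDefs
import Vale.Agent.P235P.NBDefs

/-! P235 planar case, birth in system B: definitions. -/

open Set

noncomputable section

namespace Vale.Agent.P235.Pl.Pb

variable {S : Sk}

/-- On the ball the links of `D` are the images of the initial links. -/
structure Lift (c : Ctx S) (D : Lk) (A b : ℝ) : Prop where
  pos : 0 < A
  L : ∀ g t, (g, t) ∈ c.ball 7 ∨ (g + 1, t) ∈ c.ball 7 → (A * t + b ∈ D.L g ↔ t ∈ c.D0.L g)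
  P : ∀ a t, a < S.mate a → (a, t) ∈ c.ball 7 ∨ (S.mate a, t) ∈ c.ball 7 →
    (A * t + b ∈ D.P a ↔ t ∈ c.D0.P a)

/-- The ball in the diagram `D`. -/
def HB (c : Ctx S) (D : Lk) (W : Set ℝ) (A b : ℝ) : Set (ℕ × ℝ) :=
  {p | Near S D W {(c.x.1, A * c.x.2 + b)} (4 * A * c.r) p}

/-- Two class mates with distant chains. -/
def Long (S : Sk) (D : Lk) (B : Set ℝ) (u : ℝ) (g f : ℕ) : Prop :=
  g < f ∧ Mates S D B g f ∧ (chain D B f).Nonempty ∧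
    ∀ p ∈ chain D B g, ¬ Near S D B (chain D B f) (8000 * u) p

/-- A gap strictly inside the range of the structure. -/
structure Inner (c : Ctx S) (D : Lk) (W : Set ℝ) (A b : ℝ) (κ : Cone) (e : ℕ) : Prop where
  ne : (chain D κ.Ip e).Nonempty
  far : FarArc S D κ.Ip e (1000 * κ.s)
  nb : ∀ p : ℕ × ℝ, Near S D κ.Ip (chain D κ.Ip e) (2 * κ.s) p ∨
    ((p.1 = e ∨ p.1 = e + 1) ∧ p.2 ∈ κ.Ip) → p ∈ HB c D W A b
  core : ∀ p ∈ c.core e ((κ.t - b) / A), p ∈ c.ball 7 ∧ |A * p.2 + b - κ.t| ≤ 27 * κ.s ∧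
    (p.1 = e ∨ Near S D κ.Ip (chain D κ.Ip e) κ.s (p.1, A * p.2 + b))

/-- The structure around the pair, in the band of the cone. -/
structure SD (c : Ctx S) (D : Lk) (W : Set ℝ) (A b : ℝ) (κ : Cone) (z o gm gp fm fp : ℕ) :
    Prop where
  zo : (z = c.x.1 ∧ o = c.y.1) ∨ (z = c.y.1 ∧ o = c.x.1)
  lm : fm ≤ gm
  l1 : gm < z
  l2 : z ≤ gp
  lp : gp ≤ fp
  out : o ≤ fm ∨ fp < o
  mm : Mates S D κ.Ip gm fm
  mg : Mates S D κ.Ip gm gp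
  mp : Mates S D κ.Ip gm fp
  colm : ∀ t ∈ κ.Ip, (fm + 1, t) ∈ HB c D W A b
  colp : ∀ t ∈ κ.Ip, (fp, t) ∈ HB c D W A b
  bgm : c.BG fm
  bgp : c.BG fp
  inner : ∀ e, fm < e → e < fp → Mates S D κ.Ip gm e → Inner c D W A b κ e
  longm : (chain D κ.Ip fm).Nonempty →
    ∃ g f, fm < g ∧ f ≤ gm ∧ Mates S D κ.Ip gm g ∧ Long S D κ.Ip κ.s g f
  longp : (chain D κ.Ip fp).Nonempty → Long S D κ.Ip κ.s gp fp

/-- Three separated class mates. -/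
structure Tr (S : Sk) (D : Lk) (κ : Cone) (η m η' : ℕ) : Prop where
  pos : 0 < κ.s
  lt1 : η < m
  lt2 : m < η'
  m1 : Mates S D κ.Ip η m
  m2 : Mates S D κ.Ip η η'
  ne : (chain D κ.Ip m).Nonempty
  far : ∀ e, e = η ∨ e = m ∨ e = η' → FarArc S D κ.Ip e (1000 * κ.s)
  s1 : ∀ p ∈ chain D κ.Ip η, ¬ Near S D κ.Ip (chain D κ.Ip m) (1000 * κ.s) p
  s2 : ∀ p ∈ chain D κ.Ip m, ¬ Near S D κ.Ip (chain D κ.Ip η') (1000 * κ.s) p

/-- The function of a cell. -/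
def cellE (S : Sk) (D : Lk) (H : ℕ → ℝ → ℝ) (κ : Cone) (J : ℕ × ℕ) (θ : ℕ) (t : ℝ) : ℝ :=
  min (SB.E S D H κ J true θ t) (SB.E S D H κ J false θ t)

/-- The data on the walls of a cell are not too low. -/
def Low (D : Lk) (H : ℕ → ℝ → ℝ) (κ : Cone) (J : ℕ × ℕ) : Prop :=
  ∀ p ∈ chain D κ.Ip J.1 ∪ chain D κ.Ip J.2, κ.a - 48 * κ.s ≤ H p.1 p.2

end Vale.Agent.P235.Pl.Pb
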