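import Vale.Agent.P235P.QBSe2
import Vale.Agent.P235P.NBDefs
import Vale.Agent.P235P.FBall

/-! P235 planar case: lifting paths to the initial diagram, labels near the pins. -/

open Set

noncomputable section

namespace Vale.Agent.P235.Pl

variable {S : Sk}

namespace Qb

theorem gap_iff (adj : ∀ a, S.mate a ≠ a + 1) {D : Lk} {g : ℕ} {t : ℝ} :
    Link S D g (g + 1) t ↔ t ∈ D.L g := by
  refine ⟨?_, fun h => Or.inl ⟨rfl, h⟩⟩
  rintro (⟨-, h⟩ | ⟨h, -⟩ | ⟨-, h, -⟩ | ⟨h, h', -⟩)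
  · exact h
  · omega
  · exact absurd h.symm (adj g)
  · omega

theorem arc_iff (adj : ∀ a, S.mate a ≠ a + 1) {D : Lk} {a : ℕ} {t : ℝ} (ha : a < S.mate a) :
    Link S D a (S.mate a) t ↔ t ∈ D.P a := by
  refine ⟨?_, fun h => Or.inr (Or.inr (Or.inl ⟨ha, rfl, h⟩))⟩
  rintro (⟨h, -⟩ | ⟨h, -⟩ | ⟨-, -, h⟩ | ⟨h, -⟩)
  · exact absurd h (adj a)
  · omega
  · exact h
  · rw [S.inv] at h
    omega

variable {c : Ctx S} {s : St} {V : ℕ → ℝ → ℝ} {A R b ε : ℝ}

/-- A link of the current diagram at a point where `V` is affine is a link of the initial one. -/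
theorem link_lift (h : c.Rep s V A R) (hε : 0 < ε) {θ θ' : ℕ} {t : ℝ} (hp : (θ, t) ∈ c.ball R)
    (ha : ∀ u, |t - u| ≤ ε → V θ u = A * u + b) (hl : Link S s.D θ θ' (A * t + b)) :
    Link S c.D0 θ θ' t := by
  have h0 := ha t (by simpa using hε.le)
  obtain ⟨t', h1, h2⟩ := h.r2 θ θ' t hp (h0 ▸ hl)
  have hA := h.pos
  obtain rfl : t' = t := by
    by_contra hne
    rcases lt_or_gt_of_ne hne with k | k
    · have k1 := h.mono θ (le_max_left t' (t - ε))
      have k2 : max t' (t - ε) < t := max_lt k (by linarith)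
      rw [ha (max t' (t - ε)) (abs_le.2 ⟨by linarith, by linarith [le_max_right t' (t - ε)]⟩)] at k1
      have k3 := h.mono θ k2.le
      rw [ha (max t' (t - ε)) (abs_le.2 ⟨by linarith, by linarith [le_max_right t' (t - ε)]⟩)] at k3
      linarith [mul_lt_mul_of_pos_left k2 hA]
    · have k1 := h.mono θ (min_le_left t' (t + ε))
      have k2 : t < min t' (t + ε) := lt_min k (by linarith)
      rw [ha (min t' (t + ε)) (abs_le.2 ⟨by linarith [min_le_right t' (t + ε)], by linarith⟩)] at k1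
      linarith [mul_lt_mul_of_pos_left k2 hA]
  exact h1

/-- LIFT: a path of cost `k ≤ A ρ` from the image of a point of `X` lifts, when `V` is affine on the
neighbourhood of radius `ρ + ε` of `X`. -/
theorem lift (h : c.Rep s V A R) (hε : 0 < ε) {X : Set (ℕ × ℝ)} {ρ : ℝ}
    (hz : ∀ p, Near S c.D0 univ X (ρ + ε) p → p ∈ c.ball R ∧ V p.1 p.2 = A * p.2 + b)
    {W : Set ℝ} {q p : ℕ × ℝ} {k : ℝ} (hq : q ∈ X) (hr : Reach S s.D W (q.1, A * q.2 + b) p k)
    (hk : k ≤ A * ρ) : Reach S c.D0 univ q (p.1, (p.2 - b) / A) (k / A) := by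
  have hA := h.pos
  induction hr with
  | refl _ =>
    rw [zero_div, add_sub_cancel_right, mul_div_cancel_left₀ _ hA.ne']
    exact .refl trivial
  | @vert θ t t' k _ _ ih =>
    refine ((ih (by linarith [abs_nonneg (t - t')])).vert (t' := (t' - b) / A) trivial).cast ?_
    rw [← sub_div, abs_div, abs_of_pos hA, add_div, sub_sub_sub_cancel_right]
  | @link θ θ' t k _ hl ih =>
    have h1 := ih hk
    have h2 : k / A ≤ ρ := (div_le_iff₀' hA).2 hk
    refine h1.link (link_lift (b := b) h hε (hz _ ⟨q, hq, _, by linarith, h1⟩).1 (fun u hu =>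
      (hz (θ, u) ⟨q, hq, _, add_le_add h2 hu, h1.vert trivial⟩).2) ?_)
    rwa [mul_div_cancel₀ _ hA.ne', sub_add_cancel]

/-- Labels at a moderate distance from the pins are uniform at the start of a step. -/
theorem uni_pin (hs : NB.NI S s) (hp : s.pend = none) {e : ℕ}
    (h1 : Cl S s.D s.W s.Pin (chain s.D s.W e) (80 * s.w))
    (h2 : ¬ Cl S s.D s.W s.Pin (chain s.D s.W e) (12 * s.w)) :
    s.Unif (s.nb S (chain s.D s.W e) (12 * s.w)) := by
  have hw := hs.w0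
  have hW : Wd s.W s.w := fun t ht t' ht' =>
    abs_le.2 ⟨by linarith [ht.1, ht'.2, hs.len], by linarith [ht.2, ht'.1, hs.len]⟩
  have hv : NB.Vir S s (100 * s.w) := by
    rcases hs.node with h | ⟨_, _, _, h⟩
    · exact h.2.2
    · exact absurd (hp ▸ h.pend) (by simp)
  have key : ∀ p, Near S s.D s.W (chain s.D s.W e) (12 * s.w) p → p ∈ NB.vir S s (100 * s.w) :=
    fun p hp => ⟨fun k => h2 (Cl.symm ⟨p, k, hp⟩), (h1.near hW hp).mono_R (by linarith)⟩
  obtain ⟨⟨θ₀, t₀⟩, q1, -⟩ := h1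
  obtain rfl : θ₀ = e := q1.1
  have k0 := key _ (Near.self q1 q1.2.2 (by linarith))
  refine ⟨(s.lab θ₀ t₀).1, (hv.mat _ k0).1, fun p hp => ⟨?_, (hv.mat _ (key p hp)).2⟩⟩
  obtain ⟨⟨θ, t⟩, p1, k, p2, p3⟩ := hp
  obtain rfl : θ = θ₀ := p1.1
  induction p3 with
  | refl _ => exact hv.col _ _ _ (key _ (Near.self p1 p1.2.2 (by linarith))) k0
  | @vert θ' u u' k r hu ih =>
    have k1 : k ≤ 12 * s.w := by linarith [abs_nonneg (u - u')]
    exact (hv.col _ _ _ (key _ ⟨_, p1, _, p2, r.vert hu⟩) (key _ ⟨_, p1, _, k1, r⟩)).trans (ih k1)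
  | link r hl ih =>
    exact (hv.link _ _ _ hl (key _ ⟨_, p1, _, p2, r⟩) (key _ ⟨_, p1, _, p2, r.link hl⟩)).symm.trans
      (ih p2)

end Qb

end Vale.Agent.P235.Pl
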