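import Vale.Agent.P235P.TStr
import Vale.Agent.P235P.QBLift

/-! P235 planar case: transfer of the structure to a diagram that is an affine image near `x`. -/

open Set

noncomputable section

namespace Vale.Agent.P235.Pl

variable {S : Sk} {D : Lk} {x y z o E : ℕ × ℝ} {r γ β b₁ b₂ t : ℝ} {gm gp fm fp e e₀ e₁ : ℕ}

theorem Branch.col (hβ : b₂ - b₁ ≤ β) (h : Branch S D (Icc b₁ b₂) z E gm gp) (ht : t ∈ Icc b₁ b₂) :
    DLe S D E (gm + 1, t) β ∧ DLe S D E (gp, t) β := by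
  obtain ⟨h1, h2, -, h3, h4⟩ := h
  obtain ⟨θ, k⟩ := E
  rcases h4 with ⟨rfl, rfl⟩ | ⟨h4, rfl, rfl, h5⟩
  · obtain rfl : θ = gm + 1 := le_antisymm h2 h1
    exact ⟨.vert _ (band_abs hβ h3 ht), .vert _ (band_abs hβ h3 ht)⟩
  · exact ⟨col_top hβ h4.1 h5 h3 ⟨Or.inl rfl, ht⟩, col_top hβ h4.1 h5 h3 ⟨Or.inr rfl, ht⟩⟩

namespace Str

variable (H : Str S D (Icc b₁ b₂) x y r γ β z o E gm gp fm fp) (hβ : b₂ - b₁ ≤ β) (hγ : 0 ≤ γ)
include H hβ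

theorem col_in (he : Mates S D (Icc b₁ b₂) gm e) (h1 : fm < e) (h2 : e < fp) (ht : t ∈ Icc b₁ b₂) :
    DLe S D E (e, t) (γ + β) ∧ DLe S D E (e + 1, t) (γ + β) := by
  obtain ⟨⟨⟨θ, u⟩, p1⟩, p2⟩ := H.inner e h1 h2 he
  obtain rfl : θ = e := p1.1
  exact ⟨(p2 _ p1).trans (.vert _ (band_abs hβ p1.2.2 ht)),
    (((p2 _ p1).trans (chain_link p1)).trans (.vert _ (band_abs hβ p1.2.2 ht))).mono (by simp)⟩

include hγ

/-- The column to the right of a mate in the range is close to the anchor. -/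
theorem col_lo (he : Mates S D (Icc b₁ b₂) gm e) (h1 : fm ≤ e) (h2 : e < fp) (ht : t ∈ Icc b₁ b₂) :
    DLe S D E (e + 1, t) (γ + 2 * β) := by
  have h0 : 0 ≤ β := (abs_nonneg _).trans (band_abs hβ ht ht)
  rcases h1.eq_or_lt with rfl | h1
  swap
  · exact (H.col_in hβ he h1 h2 ht).2.mono (by linarith)
  rcases H.lm.eq_or_lt with rfl | h3
  · exact (H.br.col hβ ht).1.mono (by linarith)
  obtain ⟨e, e', c1, c2, c3, c4, -, c6, c7⟩ := tw_around he (Mates.refl S D _ gm)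
    (θ := fm + 1) (by omega) h3
  obtain rfl : e = fm := by omega
  have h4 := H.br.1.trans_le (H.br.2.1.trans H.lp)
  rcases c7 with rfl | ⟨⟨c7, k, k1, k2⟩, rfl⟩
  · exact (H.col_in hβ c6 c3 (by omega) ht).1.mono (by linarith)
  · exact (((H.col_in hβ c6 c3 (by omega) k2).1.trans (DLe.link (link_arc c7 k1)).symm).trans
      (.vert _ (band_abs hβ k2 ht))).mono (by linarith)

/-- The column to the left of a mate in the range is close to the anchor. -/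
theorem col_hi (he : Mates S D (Icc b₁ b₂) gm e) (h1 : fm < e) (h2 : e ≤ fp) (ht : t ∈ Icc b₁ b₂) :
    DLe S D E (e, t) (γ + 2 * β) := by
  have h0 : 0 ≤ β := (abs_nonneg _).trans (band_abs hβ ht ht)
  rcases h2.eq_or_lt with rfl | h2
  swap
  · exact (H.col_in hβ he h1 h2 ht).1.mono (by linarith)
  rcases H.lp.eq_or_lt with rfl | h3
  · exact (H.br.col hβ ht).2.mono (by linarith)
  obtain ⟨e', e'', c1, c2, c3, c4, c5, -, c7⟩ := tw_around H.br.2.2.1 he (θ := e) h3 le_rfl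
  obtain rfl : e'' = e := by omega
  have h4 := H.lm.trans_lt (H.br.1.trans_le H.br.2.1)
  rcases c7 with rfl | ⟨⟨c7, k, k1, k2⟩, rfl⟩
  · exact (H.col_in hβ c5 (by omega) c2 ht).2.mono (by linarith)
  · exact (((H.col_in hβ c5 (by omega) c2 k2).2.trans (DLe.link (link_arc c7 k1))).trans
      (.vert _ (band_abs hβ k2 ht))).mono (by linarith)

end Str

/-- The links of `D₁` at images of points of the ball are the links of the initial diagram. -/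
structure Eqv (c : Ctx S) (D₁ : Lk) (A b R : ℝ) : Prop where
  pos : 0 < A
  iff : ∀ θ θ' t, (θ, t) ∈ c.ball R → (Link S D₁ θ θ' (A * t + b) ↔ Link S c.D0 θ θ' t)

variable {c : Ctx S} {D₁ : Lk} {A b R : ℝ} {s : St} {V : ℕ → ℝ → ℝ}

theorem ball_of_dle {p : ℕ × ℝ} {k : ℝ} (h : DLe S c.D0 c.x p k) (hk : k ≤ R * c.r) : p ∈ c.ball R :=
  let ⟨k', h1, h2⟩ := h
  ⟨_, rfl, k', h1.trans hk, h2⟩

theorem dle_of_ball {p : ℕ × ℝ} (h : p ∈ c.ball R) : DLe S c.D0 c.x p (R * c.r) := by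
  obtain ⟨_, rfl, k, h1, h2⟩ := h
  exact ⟨k, h1, h2⟩

theorem eqv_of_rep (h : c.Rep s V A 8) (ha : ∀ p ∈ c.ball 8, V p.1 p.2 = A * p.2 + b) :
    Eqv c s.D A b 7 := by
  refine ⟨h.pos, fun θ θ' t hp => ⟨fun hl => ?_, fun hl => ?_⟩⟩
  · exact Qb.link_lift h c.r_pos (c.ball_mono (by norm_num) hp) (fun u hu => ha (θ, u)
      (ball_of_dle ((dle_of_ball hp).trans (.vert _ hu)) (by linarith))) hl
  · rw [← ha (θ, t) (c.ball_mono (by norm_num) hp)]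
    exact (h.r1 θ θ' t hl).1

theorem aff_mem (hA : 0 < A) : A * t + b ∈ Icc (A * b₁ + b) (A * b₂ + b) ↔ t ∈ Icc b₁ b₂ := by
  simp [mem_Icc, hA]

theorem aff_surj (hA : 0 < A) {v : ℝ} (hv : v ∈ Icc (A * b₁ + b) (A * b₂ + b)) :
    ∃ t ∈ Icc b₁ b₂, v = A * t + b := by
  have e : v = A * ((v - b) / A) + b := by rw [mul_div_cancel₀ _ hA.ne', sub_add_cancel]
  exact ⟨_, (aff_mem hA).1 (e ▸ hv), e⟩

theorem Eqv.gap (Q : Eqv c D₁ A b R) {g : ℕ} (h : (g, t) ∈ c.ball R ∨ (g + 1, t) ∈ c.ball R) :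
    A * t + b ∈ D₁.L g ↔ t ∈ c.D0.L g := by
  rw [← Qb.gap_iff c.adj, ← Qb.gap_iff c.adj]
  rcases h with h | h
  · exact Q.iff _ _ _ h
  · exact ⟨fun k => ((Q.iff _ _ _ h).1 k.symm).symm, fun k => ((Q.iff _ _ _ h).2 k.symm).symm⟩

theorem Eqv.arc (Q : Eqv c D₁ A b R) {a : ℕ} (ha : a < S.mate a)
    (h : (a, t) ∈ c.ball R ∨ (S.mate a, t) ∈ c.ball R) : A * t + b ∈ D₁.P a ↔ t ∈ c.D0.P a := by
  rw [← Qb.arc_iff c.adj ha, ← Qb.arc_iff c.adj ha]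
  rcases h with h | h
  · exact Q.iff _ _ _ h
  · exact ⟨fun k => ((Q.iff _ _ _ h).1 k.symm).symm, fun k => ((Q.iff _ _ _ h).2 k.symm).symm⟩

/-- An arc with a column in the ball is an arc of the band in both diagrams or in none. -/
theorem Eqv.warc (Q : Eqv c D₁ A b R) {a θ : ℕ} (hθ : θ = a ∨ θ = S.mate a)
    (h : ∀ t ∈ Icc b₁ b₂, (θ, t) ∈ c.ball R) :
    WArc S D₁ (Icc (A * b₁ + b) (A * b₂ + b)) a ↔ WArc S c.D0 (Icc b₁ b₂) a := by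
  have h' : ∀ t ∈ Icc b₁ b₂, (a, t) ∈ c.ball R ∨ (S.mate a, t) ∈ c.ball R := fun t ht => by
    rcases hθ with rfl | rfl
    exacts [Or.inl (h t ht), Or.inr (h t ht)]
  constructor
  · rintro ⟨h1, v, h2, h3⟩
    obtain ⟨t, t1, rfl⟩ := aff_surj Q.pos h3
    exact ⟨h1, t, (Q.arc h1 (h' t t1)).1 h2, t1⟩
  · rintro ⟨h1, t, h2, h3⟩
    exact ⟨h1, _, (Q.arc h1 (h' t h3)).2 h2, (aff_mem Q.pos).2 h3⟩

namespace Str

variable (H : Str S c.D0 (Icc b₁ b₂) c.x c.y c.r γ β z o E gm gp fm fp) (hβ : b₂ - b₁ ≤ β)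
  (hγ : 0 ≤ γ) (hr : γ + 3 * β ≤ c.r)
include H hβ hγ hr

theorem ball_lo (he : Mates S c.D0 (Icc b₁ b₂) gm e) (h1 : fm ≤ e) (h2 : e < fp)
    (ht : t ∈ Icc b₁ b₂) : (e + 1, t) ∈ c.ball 3 :=
  ball_of_dle (H.near.trans (H.col_lo hβ hγ he h1 h2 ht)) (by linarith)

theorem ball_hi (he : Mates S c.D0 (Icc b₁ b₂) gm e) (h1 : fm < e) (h2 : e ≤ fp)
    (ht : t ∈ Icc b₁ b₂) : (e, t) ∈ c.ball 3 :=
  ball_of_dle (H.near.trans (H.col_hi hβ hγ he h1 h2 ht)) (by linarith)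

variable (Q : Eqv c D₁ A b R) (hR : 3 ≤ R)
include Q hR

/-- The chains of the mates in the range correspond. -/
theorem gap_iff (he : Mates S c.D0 (Icc b₁ b₂) gm e) (h1 : fm ≤ e) (h2 : e ≤ fp)
    (ht : t ∈ Icc b₁ b₂) : A * t + b ∈ D₁.L e ↔ t ∈ c.D0.L e := by
  have h3 := H.lm.trans_lt (H.br.1.trans_le (H.br.2.1.trans H.lp))
  rcases h2.eq_or_lt with rfl | h2
  · exact Q.gap (Or.inl (c.ball_mono hR (H.ball_hi hβ hγ hr he h3 le_rfl ht)))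
  · exact Q.gap (Or.inr (c.ball_mono hR (H.ball_lo hβ hγ hr he h1 h2 ht)))

theorem chain_lift (he : Mates S c.D0 (Icc b₁ b₂) gm e) (h1 : fm ≤ e) (h2 : e ≤ fp) {p : ℕ × ℝ}
    (hp : p ∈ chain D₁ (Icc (A * b₁ + b) (A * b₂ + b)) e) :
    ∃ t, p = (e, A * t + b) ∧ (e, t) ∈ chain c.D0 (Icc b₁ b₂) e := by
  obtain ⟨t, t1, t2⟩ := aff_surj Q.pos hp.2.2
  exact ⟨t, Prod.ext hp.1 t2, rfl, (H.gap_iff hβ hγ hr Q hR he h1 h2 t1).1 (t2 ▸ hp.2.1), t1⟩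

theorem mates_of_le (h0 : Mates S c.D0 (Icc b₁ b₂) gm e₀) (h1 : Mates S c.D0 (Icc b₁ b₂) gm e₁)
    (l0 : fm ≤ e₀) (l : e₀ ≤ e₁) (l1 : e₁ ≤ fp) :
    Mates S D₁ (Icc (A * b₁ + b) (A * b₂ + b)) e₀ e₁ := by
  intro a ha
  by_contra hne
  have a0 := ha.1
  obtain ⟨θ, t1, t2, t3, t4⟩ : ∃ θ, (θ = a ∨ θ = S.mate a) ∧ e₀ < θ ∧ θ ≤ e₁ ∧
      (S.mate θ ≤ e₀ ∨ e₁ < S.mate θ) := by
    unfold Enc at hne
    by_cases h : a ≤ e₀
    · exact ⟨_, Or.inr rfl, by omega, by omega, by rw [S.inv]; omega⟩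
    · exact ⟨_, Or.inl rfl, by omega, by omega, by omega⟩
  obtain ⟨e, e', c1, c2, c3, c4, c5, -, c7⟩ := tw_around h0 h1 t2 t3
  rcases c7 with rfl | ⟨c7, rfl⟩
  · obtain rfl : θ = e + 1 := by omega
    exact hne ((h0.symm.trans h1) a ((Q.warc t1 fun t ht =>
      c.ball_mono hR (H.ball_lo hβ hγ hr c5 (by omega) (by omega) ht)).1 ha))
  · rcases (show e + 1 ≤ θ from c2).eq_or_lt with rfl | k1
    · omega
    rcases c3.eq_or_lt with rfl | k2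
    · rw [S.inv] at t4
      omega
    · have := S.nc _ _ k1 k2
      omega

/-- The classes agree in the range. -/
theorem mates_iff (h1 : fm ≤ e) (h2 : e ≤ fp) :
    Mates S D₁ (Icc (A * b₁ + b) (A * b₂ + b)) gm e ↔ Mates S c.D0 (Icc b₁ b₂) gm e := by
  have l1 := H.lm
  have l2 := H.br.1.trans_le (H.br.2.1.trans H.lp)
  have key : ∀ e, fm ≤ e → e ≤ fp → Mates S c.D0 (Icc b₁ b₂) gm e →
      Mates S D₁ (Icc (A * b₁ + b) (A * b₂ + b)) gm e := fun e h1 h2 h => by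
    rcases le_total gm e with k | k
    · exact H.mates_of_le hβ hγ hr Q hR (Mates.refl _ _ _ _) h l1 k h2
    · exact (H.mates_of_le hβ hγ hr Q hR h (Mates.refl _ _ _ _) h1 k l2.le).symm
  refine ⟨fun h => ?_, key e h1 h2⟩
  rcases h1.eq_or_lt with rfl | h1
  · exact H.mm
  obtain ⟨e', e'', c1, c2, c3, c4, c5, c6, c7⟩ := tw_around H.mm H.mp h1 h2
  rcases c3.eq_or_lt with rfl | c3
  · exact c6
  rcases c7 with rfl | ⟨c7, rfl⟩
  · omega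
  have k1 := (Q.warc (Or.inl rfl) fun t ht =>
    c.ball_mono hR (H.ball_lo hβ hγ hr c5 c1 (by omega) ht)).2 c7
  have k2 := (((key e' c1 (by omega) c5).symm.trans h) _ k1).2 ⟨c2, c3⟩
  exact absurd k2.1 (by omega)

end Str

end Vale.Agent.P235.Pl
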