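import Vale.Agent.P235P.PBDefs
import Vale.Agent.P235P.TTrans

/-! P235 planar case, birth in system B: the structure in the band of the cone. -/

open Set Classical

noncomputable section

namespace Vale.Agent.P235.Pl.Pb

variable {S : Sk} {c : Ctx S} {D : Lk} {W W₀ : Set ℝ} {A b k k₀ ρ : ℝ} {p q : ℕ × ℝ}

theorem Lift.eqv (hL : Lift c D A b) : Eqv c D A b 7 := by
  refine ⟨hL.pos, fun θ θ' t hp => ?_⟩
  unfold Link
  refine or_congr (and_congr_right fun _ => hL.L _ _ (Or.inl hp)) (or_congr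
    (and_congr_right fun h => hL.L _ _ (Or.inr (h ▸ hp))) (or_congr
    (and_congr_right fun h => and_congr_right fun _ => hL.P _ _ h (Or.inl hp))
    (and_congr_right fun h => and_congr_right fun h' => hL.P _ _ h (Or.inr (h' ▸ hp)))))

theorem pbg_push (Q : Eqv c D A b 7) (hW : ∀ t ∈ W₀, A * t + b ∈ W) (h : Reach S c.D0 W₀ p q k)
    (hp : DLe S c.D0 c.x p k₀) (hk : k₀ + k ≤ 7 * c.r) :
    Reach S D W (p.1, A * p.2 + b) (q.1, A * q.2 + b) (A * k) := by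
  induction h with
  | refl h => exact (Reach.refl (hW _ h)).cast (mul_zero _).symm
  | @vert θ t t' k _ h ih =>
    refine ((ih (by linarith [abs_nonneg (t - t')])).vert (hW _ h)).cast ?_
    rw [add_sub_add_right_eq_sub, ← mul_sub, abs_mul, abs_of_pos Q.pos, mul_add]
  | link r h ih =>
    exact (ih hk).link ((Q.iff _ _ _ (ball_of_dle
      (hp.trans ⟨_, le_rfl, r.mono_W (subset_univ _)⟩) hk)).2 h)

theorem pbg_lift (Q : Eqv c D A b 7) (hq : DLe S c.D0 c.x q k₀)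
    (h : Reach S D W (q.1, A * q.2 + b) p k) (hk : k ≤ A * ρ) (hρ : k₀ + ρ ≤ 7 * c.r) :
    Reach S c.D0 univ q (p.1, (p.2 - b) / A) (k / A) := by
  have hA := Q.pos
  induction h with
  | refl _ =>
    rw [zero_div, add_sub_cancel_right, mul_div_cancel_left₀ _ hA.ne']
    exact .refl trivial
  | @vert θ t t' k _ _ ih =>
    refine ((ih (by linarith [abs_nonneg (t - t')])).vert (t' := (t' - b) / A) trivial).cast ?_
    rw [← sub_div, abs_div, abs_of_pos hA, add_div, sub_sub_sub_cancel_right]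
  | @link θ θ' t k _ hl ih =>
    refine (ih hk).link ((Q.iff _ _ _ (ball_of_dle
      (hq.trans ⟨_, (div_le_iff₀' hA).2 hk, ih hk⟩) hρ)).1 ?_)
    rwa [mul_div_cancel₀ _ hA.ne', sub_add_cancel]

theorem pbg_hb (Q : Eqv c D A b 7)
    (hW : Icc (A * c.x.2 + b - 100 * A * c.r) (A * c.x.2 + b + 100 * A * c.r) ⊆ W)
    (hp : p ∈ c.ball 4) : (p.1, A * p.2 + b) ∈ HB c D W A b := by
  obtain ⟨k, h1, h2⟩ := dle_of_ball hp
  have hA := Q.pos
  have hr := c.r_pos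
  have hAr := mul_pos hA hr
  refine ⟨_, rfl, _, ?_, pbg_push Q (fun t ht => hW ⟨?_, ?_⟩) (h2.shrink h1) (.refl _ le_rfl)
    (by linarith)⟩
  · linarith [mul_le_mul_of_nonneg_left h1 hA.le]
  · linarith [mul_le_mul_of_nonneg_left ht.2.1 hA.le]
  · linarith [mul_le_mul_of_nonneg_left ht.2.2 hA.le]

theorem sd_ex {c : Ctx S} {D : Lk} {W : Set ℝ} {A b : ℝ} {κ : Cone} (hB : TypeB c)
    (hL : Lift c D A b) (hs : κ.s = A * c.rs) (ht : |A * c.x.2 + b - κ.t| ≤ κ.s)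
    (hW : Icc (A * c.x.2 + b - 100 * A * c.r) (A * c.x.2 + b + 100 * A * c.r) ⊆ W) :
    ∃ z o gm gp fm fp, SD c D W A b κ z o gm gp fm fp := by
  have Q := hL.eqv
  have hA := Q.pos
  have h0 := c.rs_pos
  have h1 := c.le_r
  obtain ⟨tk, e0⟩ : ∃ tk, κ.t = A * tk + b :=
    ⟨(κ.t - b) / A, by rw [mul_div_cancel₀ _ hA.ne', sub_add_cancel]⟩
  have e1 : (κ.t - b) / A = tk := by rw [e0, add_sub_cancel_right, mul_div_cancel_left₀ _ hA.ne']
  have eW : κ.Ip = Icc (A * (tk - 60 * c.rs) + b) (A * (tk + 60 * c.rs) + b) := by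
    rw [Cone.Ip, e0, hs]
    congr 1 <;> ring
  have ea : ∀ t, |A * t + b - κ.t| = A * |t - tk| := fun t => by
    rw [e0, add_sub_add_right_eq_sub, ← mul_sub, abs_mul, abs_of_pos hA]
  have hx : |c.x.2 - tk| ≤ c.rs := le_of_mul_le_mul_left (by rwa [← ea, ← hs]) hA
  obtain ⟨x1, x2⟩ := abs_le.1 hx
  obtain ⟨y1, y2⟩ := abs_le.1 c.lev
  have hβ : tk + 60 * c.rs - (tk - 60 * c.rs) ≤ 120 * c.rs := by linarith
  have bx : c.x.2 ∈ Icc (tk - 60 * c.rs) (tk + 60 * c.rs) := ⟨by linarith, by linarith⟩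
  obtain ⟨z, o, E, gm, gp, fm, fp, H⟩ := structure_gen (γ := 10000 * c.rs) c hB (by linarith)
    (by linarith) (by linarith) bx ⟨by linarith, by linarith⟩ (by linarith) (by linarith) hβ
  have hγ : 0 ≤ 10000 * c.rs := by linarith
  have hr : 10000 * c.rs + 3 * (120 * c.rs) ≤ c.r := by linarith
  have l1 := H.lm
  have l2 := H.br.1.trans_le H.br.2.1
  have l3 := H.lp
  have mi := fun e => H.mates_iff (e := e) hβ hγ hr Q (by norm_num)
  have cl := fun e he k1 k2 p => H.chain_lift (e := e) (p := p) hβ hγ hr Q (by norm_num) he k1 k2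
  have cp : ∀ e, Mates S c.D0 (Icc (tk - 60 * c.rs) (tk + 60 * c.rs)) gm e → fm ≤ e → e ≤ fp →
      ∀ p ∈ chain c.D0 (Icc (tk - 60 * c.rs) (tk + 60 * c.rs)) e,
        (e, A * p.2 + b) ∈ chain D κ.Ip e := fun e he k1 k2 p hp =>
    ⟨rfl, (H.gap_iff hβ hγ hr Q (by norm_num) he k1 k2 hp.2.2).2 hp.2.1,
      eW ▸ (aff_mem hA).2 hp.2.2⟩
  have su : ∀ v ∈ κ.Ip, ∃ t ∈ Icc (tk - 60 * c.rs) (tk + 60 * c.rs), v = A * t + b :=
    fun v hv => aff_surj hA (eW ▸ hv)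
  rw [← eW] at mi cl
  have lf : ∀ e, Mates S c.D0 (Icc (tk - 60 * c.rs) (tk + 60 * c.rs)) gm e → fm ≤ e → e ≤ fp →
      ∀ θ t ρ, ρ ≤ 10000 * c.rs → Near S D κ.Ip (chain D κ.Ip e) (A * ρ) (θ, A * t + b) →
      ∃ p ∈ chain c.D0 (Icc (tk - 60 * c.rs) (tk + 60 * c.rs)) e, DLe S c.D0 p (θ, t) ρ := by
    rintro e he k1 k2 θ t ρ hρ ⟨p, p1, k, k3, k4⟩
    obtain ⟨u, rfl, u1⟩ := cl e he k1 k2 p p1
    have u2 : DLe S c.D0 E (e, u) (11000 * c.rs) := by
      by_cases k5 : e = fm ∨ e = fp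
      · exact (H.stop e k5 _ u1).2.mono (by linarith)
      · exact ((H.inner e (by omega) (by omega) he).2 _ u1).mono (by linarith)
    have u3 := pbg_lift (q := (e, u)) Q (H.near.trans u2) k4 k3 (by linarith)
    rw [add_sub_cancel_right, mul_div_cancel_left₀ _ hA.ne'] at u3
    exact ⟨_, u1, _, (div_le_iff₀' hA).2 k3, u3⟩
  have hb : ∀ θ t k, DLe S c.D0 E (θ, t) k → k ≤ 20000 * c.rs → (θ, A * t + b) ∈ HB c D W A b :=
    fun θ t k k1 k2 => pbg_hb (p := (θ, t)) Q hW (ball_of_dle (H.near.trans k1) (by linarith))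
  have lg : ∀ g f, fm ≤ g → g < f → f ≤ fp → Mates S c.D0 (Icc (tk - 60 * c.rs) (tk + 60 * c.rs)) gm g →
      Mates S c.D0 (Icc (tk - 60 * c.rs) (tk + 60 * c.rs)) gm f → (chain D κ.Ip f).Nonempty →
      (∀ p ∈ chain c.D0 (Icc (tk - 60 * c.rs) (tk + 60 * c.rs)) f,
        ∀ q ∈ chain c.D0 (Icc (tk - 60 * c.rs) (tk + 60 * c.rs)) g, DGe S c.D0 p q (9000 * c.rs)) →
      Long S D κ.Ip κ.s g f := fun g f k1 k2 k3 k4 k5 k6 k7 =>
    ⟨k2, ((mi g k1 (by omega)).2 k4).symm.trans ((mi f (by omega) k3).2 k5), k6, fun q hq hn => by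
      obtain ⟨t, rfl, t1⟩ := cl g k4 k1 (by omega) q hq
      obtain ⟨p, p1, p2⟩ := lf f k5 (by omega) k3 g t (8000 * c.rs) (by linarith)
        (hn.mono_R (by rw [hs]; linarith))
      have := (k7 p p1 _ t1).le p2
      linarith⟩
  refine ⟨z.1, o.1, gm, gp, fm, fp, ?_, l1, H.br.1, H.br.2.1, l3, H.out,
    (mi fm le_rfl (by omega)).2 H.mm, (mi gp (by omega) l3).2 H.br.2.2.1,
    (mi fp (by omega) le_rfl).2 H.mp, fun v hv => ?_, fun v hv => ?_,
    ⟨(fm + 1, c.x.2), c.ball_mono (by norm_num) (H.ball_lo hβ hγ hr H.mm le_rfl (by omega) bx),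
      Or.inr rfl⟩,
    ⟨(fp, c.x.2), c.ball_mono (by norm_num) (H.ball_hi hβ hγ hr H.mp (by omega) le_rfl bx),
      Or.inl rfl⟩, fun e k1 k2 k3 => ?_, fun ⟨p, hp⟩ => ?_, fun ⟨p, hp⟩ => ?_⟩
  · rcases H.zo with ⟨rfl, rfl⟩ | ⟨rfl, rfl⟩
    exacts [Or.inl ⟨rfl, rfl⟩, Or.inr ⟨rfl, rfl⟩]
  · obtain ⟨t, t1, rfl⟩ := su v hv
    exact hb _ _ _ (H.col_lo hβ hγ H.mm le_rfl (by omega) t1) (by linarith)
  · obtain ⟨t, t1, rfl⟩ := su v hv
    exact hb _ _ _ (H.col_hi hβ hγ H.mp (by omega) le_rfl t1) (by linarith)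
  · have he := (mi e k1.le k2.le).1 k3
    obtain ⟨⟨p₀, i1⟩, i2⟩ := H.inner e k1 k2 he
    refine ⟨⟨_, cp e he k1.le k2.le p₀ i1⟩, fun ⟨θ, v⟩ hp a a1 a2 => ?_, fun ⟨θ, v⟩ hp => ?_,
      fun ⟨θ, t⟩ hp => ?_⟩
    · obtain ⟨t, t1, rfl⟩ := su v hp.mem
      obtain ⟨p, p1, p2⟩ := lf e he k1.le k2.le θ t (1000 * c.rs) (by linarith)
        (hp.mono_R (by rw [hs]; linarith))
      have p3 := (i2 p p1).trans p2
      by_contra hne
      have a3 : θ = a ∨ θ = S.mate a := by tauto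
      have a4 := (Q.warc a3 fun t' ht' => ball_of_dle ((H.near.trans p3).trans
        (.vert _ (band_abs hβ t1 ht'))) (by linarith)).1 (eW ▸ a1)
      have := (H.seam a a4 ((he a a4).2 a2) (θ, t) ⟨a3, t1⟩).le p3
      linarith
    · rcases hp with hp | ⟨hp, hv⟩
      · obtain ⟨t, t1, rfl⟩ := su v hp.mem
        obtain ⟨p, p1, p2⟩ := lf e he k1.le k2.le θ t (2 * c.rs) (by linarith)
          (hp.mono_R (by rw [hs]; linarith))
        exact hb _ _ _ ((i2 p p1).trans p2) (by linarith)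
      · obtain ⟨t, t1, rfl⟩ := su v hv
        rcases hp with rfl | rfl
        · exact hb _ _ _ (H.col_in hβ he k1 k2 t1).1 (by linarith)
        · exact hb _ _ _ (H.col_in hβ he k1 k2 t1).2 (by linarith)
    · rw [e1] at hp
      rw [ea, hs]
      rcases hp with ⟨rfl, hp⟩ | ⟨⟨θ', u⟩, ⟨rfl, u1, u2⟩, k, k4, k5⟩
      · obtain ⟨p1, p2⟩ := abs_le.1 hp
        exact ⟨ball_of_dle (H.near.trans (H.col_in hβ he k1 k2 (t := t)
          ⟨by linarith, by linarith⟩).1) (by linarith),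
          by linarith [mul_le_mul_of_nonneg_left hp hA.le], Or.inl rfl⟩
      · obtain ⟨u3, u4⟩ := abs_le.1 u2
        dsimp only at u3 u4
        have u5 : (θ', u) ∈ chain c.D0 (Icc (tk - 60 * c.rs) (tk + 60 * c.rs)) θ' :=
          ⟨rfl, u1, by linarith, by linarith⟩
        obtain ⟨u6, u7⟩ := abs_le.1 (k5.abs_le.trans k4)
        have u8 : |t - tk| ≤ 27 * c.rs := abs_le.2 ⟨by linarith, by linarith⟩
        refine ⟨ball_of_dle ((H.near.trans (i2 _ u5)).trans ⟨k, k4, k5⟩) (by linarith),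
          by linarith [mul_le_mul_of_nonneg_left u8 hA.le], Or.inr ⟨_, cp _ he k1.le k2.le _ u5, _,
          mul_le_mul_of_nonneg_left k4 hA.le, pbg_push Q (fun t' ht' => eW ▸ (aff_mem hA).2
            ⟨by linarith [ht'.2.1], by linarith [ht'.2.2]⟩) (k5.shrink k4) (H.near.trans (i2 _ u5))
            (by linarith)⟩⟩
  · obtain ⟨t, -, t1⟩ := cl fm H.mm le_rfl (by omega) p hp
    have t2 := (H.stop fm (Or.inl rfl) _ t1).1
    have t3 : fm < gm := l1.lt_of_ne fun h => by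
      have := t2.le (H.br.anchor hβ (Or.inl h) t1)
      linarith
    obtain ⟨e, g, c1, c2, c3, c4, -, c6, c7⟩ := tw_around H.mm (Mates.refl S _ _ gm)
      (θ := fm + 1) (by omega) t3
    obtain rfl : e = fm := by omega
    have t4 : ∀ q ∈ chain c.D0 (Icc (tk - 60 * c.rs) (tk + 60 * c.rs)) g,
        DGe S c.D0 E q (9640 * c.rs) := fun q hq =>
      ((succ_dle hβ c7 t1 hq).ge t2.symm).symm.mono (by linarith)
    obtain ⟨q, q1⟩ := (H.inner g c3 (by omega) c6).1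
    have t5 : g < gm := c4.lt_of_ne fun h => by
      have := (t4 q q1).le (H.br.anchor hβ (Or.inl h) q1)
      linarith
    obtain ⟨q', q2⟩ := (H.inner gm t3 (by omega) (Mates.refl _ _ _ _)).1
    exact ⟨g, gm, c3, le_rfl, (mi g (by omega) (by omega)).2 c6, lg g gm (by omega) t5 (by omega) c6
      (Mates.refl _ _ _ _) ⟨_, cp gm (Mates.refl _ _ _ _) l1 (by omega) _ q2⟩ fun p p1 q q1 =>
      ((H.br.anchor hβ (Or.inl rfl) p1).ge (t4 q q1)).mono (by linarith)⟩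
  · obtain ⟨t, -, t1⟩ := cl fp H.mp (by omega) le_rfl p hp
    have t3 : gp < fp := l3.lt_of_ne fun h => by
      have := (H.stop fp (Or.inr rfl) _ t1).1.le (H.br.anchor hβ (Or.inr h.symm) t1)
      linarith
    exact lg gp fp (by omega) t3 le_rfl H.br.2.2.1 H.mp ⟨p, hp⟩ fun p p1 q q1 =>
      ((H.br.anchor hβ (Or.inr rfl) q1).ge (H.stop fp (Or.inr rfl) p p1).1).symm.mono (by linarith)

end Vale.Agent.P235.Pl.Pb
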