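import Vale.Agent.P235P.QB0
import Vale.Agent.P235P.NBDefs
import Vale.Agent.P235P.FMid1

/-! System B: where the operation sees the trapezoid. -/

open Set

noncomputable section

namespace Vale.Agent.P235.Pl.Qb

variable {S : Sk} {π : Par} {s : St} {ρ : Rnd S π} {I I' : ℕ × ℕ} {θ θ' : ℕ} {t t' R w k : ℝ}
  {D : Lk} {W : Set ℝ} {p q : ℕ × ℝ} {d : Bool} {co : Coins S}

theorem raise_ge (P : HP) (hs : HS π) (H : ℕ → ℝ → ℝ) (m : Fin π.nS) (θ : ℕ) (t : ℝ) :
    H θ t ≤ P.raise hs H m θ t := by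
  refine le_csSup ⟨H θ t + 24 * |scl π P.s1 m|, ?_⟩ (mem_insert _ _)
  rintro v (rfl | ⟨i, k, -, c, hc, h1, h2, rfl⟩)
  · have := abs_nonneg (scl π P.s1 m)
    linarith
  · have h3 : _ ≤ H θ t + 24 * scl π P.s1 m := hc.2.e12.1 θ h1 t h2
    have := le_abs_self (scl π P.s1 m)
    exact (min_le_left _ _).trans (by linarith)

theorem out_ge (P : HP) (hs : HS π) (θ : ℕ) (t : ℝ) : P.H0 θ t ≤ (P.out hs).H θ t := by
  have : ∀ n, P.H0 θ t ≤ P.Hs hs n θ t := fun n => by
    induction n with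
    | zero => exact le_rfl
    | succ n ih =>
      rw [HP.Hs]
      split_ifs
      · exact ih.trans (raise_ge P hs _ _ θ t)
      · exact ih
  exact this _

theorem wd (hs : NB.NI S s) : Wd s.W s.w := fun t ht t' ht' => by
  have := hs.len
  rw [abs_le]
  constructor <;> linarith [ht.1, ht.2, ht'.1, ht'.2]

theorem cut_far {g : ℕ} (h : SB.Cut S s co g) (hq : q ∈ chain s.D s.W g) : SB.elig S s g := by
  rcases h with h | h
  · rw [h] at hq
    exact hq.elim
  · exact ((greedy_iff _ _ _).1 h.1).1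

/-- Intervals inside another one are far from its walls. -/
theorem inner_far (h : I ∈ SB.cand S s co) (h' : I' ∈ SB.cand S s co) (hne : I' ≠ I)
    (hsub : tm I' ⊆ tm I) (hp : p.1 ∈ tm I') : ¬ Near S s.D s.W (SB.src s I) (20 * s.w) p := by
  obtain ⟨a1, -, -, -, a5, a6, -⟩ := h
  obtain ⟨b1, -, b3, b4, b5, -⟩ := h'
  have k1 := hsub (show I'.1 + 1 ∈ tm I' from ⟨by omega, by omega⟩)
  have k2 := hsub (show I'.2 ∈ tm I' from ⟨by omega, le_rfl⟩)
  simp only [tm, mem_Ioc] at k1 k2 hp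
  have h1 : ¬ Mates S s.D s.W I.1 I'.1 := fun hm => by
    have k3 := a6 I'.1
    have k4 := a6 I'.2
    simp only [hm, hm.trans b5, b3, b4, forall_const, not_true_eq_false, imp_false] at k3 k4
    exact hne (Prod.ext (by omega) (by omega))
  unfold Mates at h1
  push Not at h1
  obtain ⟨a, ha, h2⟩ := h1
  have k5 := a5 a ha
  have k6 := b5 a ha
  rintro ⟨p0, hp0, c, hc, hr⟩
  have k7 : p0.1 = I.1 ∨ p0.1 = I.2 := hp0.imp (fun h => h.1) fun h => h.1
  unfold Enc at h2 k5 k6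
  obtain ⟨z, c₁, c₂, hz, h3, h4, h5⟩ := bar_mates b5 (r_symm hr) (by omega) (by omega)
  have k8 : z.1 = I'.1 ∨ z.1 = I'.2 := hz.imp (fun h => h.1) fun h => h.1
  obtain ⟨z', c₃, c₄, hz', h6, h7, h8⟩ := bar_cols ha.1 h4 (by omega) (by omega)
  have := r_nonneg h3
  have := r_nonneg h7
  rcases hz with hz | hz
  · have := (cut_far b3 hz).2.2.2 z' ⟨z, hz, c₃, by linarith, h6⟩ a ha ⟨by omega, by omega⟩
    exact hz'.1.elim this.1 this.2
  · have := (cut_far b4 hz).2.2.2 z' ⟨z, hz, c₃, by linarith, h6⟩ a ha ⟨by omega, by omega⟩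
    exact hz'.1.elim this.1 this.2

theorem kick_ins (hs : NB.NI S s) (hk : s.kick = some I) : ∃ A P co, NB.Ins S s A P co := by
  rcases hs.node with h | h
  · rw [h.2.1] at hk
    exact absurd hk (by simp)
  · exact h

theorem kick_cand (hs : NB.NI S s) (hk : s.kick = some I) :
    ∃ P co, I ∈ SB.cand S (NB.base s P) co := by
  obtain ⟨A, P, co, h⟩ := kick_ins hs hk
  exact ⟨P, co, h.cand (h.kmem I hk)⟩

theorem pe_cand (hs : NB.NI S s) (h : I ∈ (sysB S π).PE s ρ) :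
    ∃ P co, I ∈ SB.cand S (NB.base s P) co := by
  unfold Sys.PE at h
  rcases hs.node with ⟨h1, h2, -⟩ | ⟨A, P, co, h1⟩
  · rw [h1] at h
    refine ⟨s.Pin, ρ.1, ?_⟩
    have e : NB.base s s.Pin = s := by
      cases s
      simp only at h1 h2
      simp [NB.base, h1, h2]
    rw [e]
    exact h
  · rw [h1.pend] at h
    exact ⟨P, co, h1.cand h⟩

theorem ch_zone (h : (sysB S π).ch s ρ θ = some none) : θ ∈ (sysB S π).Zs s := by
  unfold Sys.ch Sys.ch0 at h
  split_ifs at h <;> simp_all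

theorem ch_none (ho : (sysB S π).OkC s ρ) (h : (sysB S π).ch s ρ θ = none) :
    θ ∉ (sysB S π).Zs s := fun h1 => by
  simp [Sys.ch, Sys.ch0, ho, h1] at h

theorem zs_kick (hk : s.kick = some I) :
    (sysB S π).Zs s = SB.Zd S s I true ∪ SB.Zd S s I false := by
  unfold Sys.Zs
  rw [hk]
  rfl

theorem zs_none (hk : s.kick = none) : (sysB S π).Zs s = ∅ := by
  unfold Sys.Zs
  rw [hk]

variable (N : NodeC (sysB S π))

theorem ch_sub (hN : N.NI s) (hs : NB.NI S s) (hk : s.kick = some I) {i : Option (ℕ × ℕ)}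
    (h : (sysB S π).ch s ρ θ = some i) : θ ∈ tm I := by
  cases i with
  | none =>
    have := ch_zone h
    rw [zs_kick hk] at this
    exact this.elim (fun h => h.1) fun h => h.1
  | some J =>
    obtain ⟨A, P, co, hI⟩ := kick_ins hs hk
    obtain ⟨h1, -, h2⟩ := N.ch_tm s ρ θ J hN h
    unfold Sys.PE at h1
    rw [hI.pend] at h1
    exact hI.kin I hk J h1 ((h2 θ).1 h)

/-- Points near the walls of the kick interval are not deep. -/
theorem nd_near (hN : N.NI s) (hs : NB.NI S s) (hk : s.kick = some I) (hR : R ≤ 9 * s.w)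
    (h : Near S s.D s.W (SB.src s I) R p) : ¬ (sysB S π).deep s ρ p := by
  rintro ⟨-, i, h1, h2⟩
  have hw := hs.w0
  cases i with
  | none =>
    refine h2 (Or.inr ?_)
    show dc S s.D s.W (SB.src s (s.kick.getD (0, 0))) (20 * s.w) p ≤ del s ρ
    rw [hk]
    exact h.dc_le.trans (hR.trans (uq_mem _ (by linarith)).1)
  | some J =>
    obtain ⟨A, P, co, hI⟩ := kick_ins hs hk
    obtain ⟨h3, h4, h5⟩ := N.ch_tm s ρ p.1 J hN h1
    unfold Sys.PE at h3
    rw [hI.pend] at h3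
    exact inner_far (s := NB.base s P) (hI.cand (hI.kmem I hk)) (hI.cand h3)
      (fun e => h4 (by rw [e, hk])) (hI.kin I hk J h3) ((h5 _).1 h1)
      (near_mono h Subset.rfl (show R ≤ 20 * s.w by linarith))

theorem reach_Dp (hN : N.NI s) (hs : NB.NI S s) (hk : s.kick = some I) (hp : p ∈ SB.src s I)
    (h : Reach S ((sysB S π).Dp s ρ) s.W p q k) (hc : k ≤ 8 * s.w) : Reach S s.D s.W p q k := by
  have hw := hs.w0
  induction h with
  | refl h => exact .refl h
  | @vert θ t t' c h1 h2 ih => exact (ih (by linarith [abs_nonneg (t - t')])).vert h2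
  | @link θ θ' t c h1 h2 ih =>
    refine (ih hc).link (fmid1_thin h2 hw fun v hv hv' => nd_near N hN hs hk le_rfl
      ⟨p, hp, _, ?_, (ih hc).vert hv⟩)
    rw [abs_sub_comm] at hv'
    linarith

theorem chain_Dp (hN : N.NI s) (hs : NB.NI S s) (hk : s.kick = some I)
    (hp : p ∈ chain ((sysB S π).Dp s ρ) s.W (SB.wall I d)) : p ∈ chain s.D s.W (SB.wall I d) := by
  refine ⟨hp.1, hp.2.1.resolve_right ?_, hp.2.2⟩
  rintro ⟨-, t, -, -, i, h1, h2, -⟩
  have k1 := ch_sub N hN hs hk h1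
  have k2 := ch_sub N hN hs hk h2
  cases d <;> simp only [tm, SB.wall, mem_Ioc, if_true, Bool.false_eq_true, if_false] at k1 k2 <;>
    omega

theorem wall_src (d : Bool) : chain s.D s.W (SB.wall I d) ⊆ SB.src s I := by
  cases d
  · exact subset_union_right
  · exact subset_union_left

theorem g0_le (hp : p ∈ chain D W (SB.wall I d)) (h : Reach S D W p q k) (h1 : q.1 ∈ tgt d θ)
    (h2 : q.1 ∈ tm I) : SB.g0 S D W w I d θ t ≤ k + |t - q.2| := by
  simpa [SB.g0] using envT_le (f := fun _ => 0) (k := 1) (m := 0) (T := fun θ => tgt d θ ∩ tm I)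
    (cap := 5 * w) (θ := θ) (t := t) zero_le_one (fun _ _ _ => le_rfl) hp h ⟨h1, h2⟩

theorem le_g0 {m : ℝ} (hm : m ≤ 5 * w) (h : ∀ p ∈ chain D W (SB.wall I d), ∀ q k,
    Reach S D W p q k → q.1 ∈ tgt d θ → q.1 ∈ tm I → m ≤ k + |t - q.2|) :
    m ≤ SB.g0 S D W w I d θ t :=
  le_envT hm fun p hp q k h1 h2 => by simpa using h p hp q k h1 h2.1 h2.2

theorem g0_cap : SB.g0 S D W w I d θ t ≤ 5 * w :=
  envT_le_cap (m := 0) zero_le_one fun _ _ _ => le_rfl

theorem g0_lip (t t' : ℝ) : SB.g0 S D W w I d θ t ≤ SB.g0 S D W w I d θ t' + |t - t'| := by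
  simpa [SB.g0] using envT_le_lip (S := S) (D := D) (W := W) (A := chain D W (SB.wall I d))
    (f := fun _ => 0) (k := 1) (m := 0) (T := fun θ => tgt d θ ∩ tm I)
    (cap := 5 * w) (θ := θ) zero_le_one (fun _ _ _ => le_rfl) t t'

theorem g0_mono (h : θ' ∈ tgt d θ) : SB.g0 S D W w I d θ t ≤ SB.g0 S D W w I d θ' t := by
  refine le_g0 g0_cap fun p hp q k h1 h2 h3 => g0_le hp h1 ?_ h3
  cases d <;> simp only [tgt, if_true, Bool.false_eq_true, if_false, mem_Ici, mem_Iic] at * <;>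
    omega

theorem g0_link (h : Link S D θ θ' t) (ht : t ∈ W) (h1 : θ ∈ tm I) (h2 : θ' ∈ tm I) :
    SB.g0 S D W w I d θ t ≤ SB.g0 S D W w I d θ' t := by
  refine le_g0 g0_cap fun p hp q k h3 h4 h5 => ?_
  by_cases h6 : q.1 ∈ tgt d θ
  · exact g0_le hp h3 h6 h5
  have h7 : θ ∈ tgt d θ := by cases d <;> simp [tgt]
  have key : ∀ z : ℕ × ℝ, ∀ c₁ c₂, (z.1 = θ ∨ z.1 = θ') → Reach S D W p z c₁ → Reach S D W z q c₂ →
      c₁ + c₂ = k → SB.g0 S D W w I d θ t ≤ k + |t - q.2| := by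
    rintro ⟨z, u⟩ c₁ c₂ hz a1 a2 a3
    have a4 : Reach S D W p (θ, t) (c₁ + |u - t|) := by
      rcases hz with rfl | rfl
      · exact a1.vert ht
      · exact (a1.vert ht).link (link_symm h)
    have a5 := g0_le (w := w) (t := t) hp a4 h7 h1
    have a6 := r_abs a2
    have a7 := abs_sub_le u q.2 t
    rw [abs_sub_comm q.2 t] at a7
    simp only [sub_self, abs_zero] at a5 a6
    linarith
  have h8 : p.1 = SB.wall I d := hp.1
  rcases link_cases h ht with ⟨g, -, h9⟩ | ⟨a, ha, -, h9⟩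
  · refine key q k 0 (Or.inr ?_) h3 (.refl (r_mem h3).2) (add_zero _)
    cases d <;> simp only [tgt, if_true, Bool.false_eq_true, if_false, mem_Ici, mem_Iic] at * <;>
      omega
  · have := ha.1
    obtain ⟨z, c₁, c₂, hz, a1, a2, a3⟩ := bar_cols ha.1 (r_symm h3)
      (by cases d <;>
        simp only [tgt, if_true, Bool.false_eq_true, if_false, mem_Ici, mem_Iic] at * <;> omega)
      (by cases d <;>
        simp only [tm, SB.wall, if_true, Bool.false_eq_true, if_false, mem_Ioc] at * <;> omega)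
    exact key z c₂ c₁ (by have := hz.1; omega) (r_symm a2) (r_symm a1) (by linarith)

theorem g0_top (hθ : θ ∈ tm I) (hZ : θ ∉ SB.Zd S s I d) (t : ℝ) :
    5 * s.w ≤ SB.g0 S s.D s.W s.w I d θ t := by
  refine le_g0 le_rfl fun p hp q k h1 h2 h3 => ?_
  by_contra h
  exact hZ ⟨hθ, q, ⟨p, hp, k, by linarith [abs_nonneg (t - q.2)], h1⟩, h3, h2⟩

/-- The hull along a path. -/
theorem g0_path (hm : Mates S D W I.1 I.2) (h : Reach S D W p q k) (hp : p.1 ∈ tm I) {m : ℝ}
    (hg : ∀ d, m ≤ SB.g0 S D W w I d p.1 p.2) (hk : k < m) :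
    q.1 ∈ tm I ∧ ∀ d, m - k ≤ SB.g0 S D W w I d q.1 q.2 := by
  induction h with
  | refl h => exact ⟨hp, by simpa using hg⟩
  | @vert θ t t' c h1 h2 ih =>
    obtain ⟨a1, a2⟩ := ih (by linarith [abs_nonneg (t - t')])
    refine ⟨a1, fun d => ?_⟩
    have := a2 d
    have := g0_lip (S := S) (D := D) (W := W) (w := w) (I := I) (d := d) (θ := θ) t t'
    simp only at *
    linarith
  | @link θ θ' t c h1 h2 ih =>
    obtain ⟨a1, a2⟩ := ih hk
    have ht : t ∈ W := (r_mem h1).2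
    have a3 : θ' ∈ tm I := by
      by_contra a3
      simp only [tm, mem_Ioc] at a1 a3
      obtain ⟨e, b1, b2, b3, b4⟩ := link_mates hm h2 ht (by omega) (by omega)
      rcases b1 with rfl | rfl
      · have := g0_le (S := S) (w := w) (t := t) (d := true) (θ := θ) (p := (I.1, t)) ⟨rfl, b2, ht⟩
          (r_link ht (link_gap b2)) (show θ ≤ I.1 + 1 by omega) ⟨by omega, by omega⟩
        have := a2 true
        simp only [sub_self, abs_zero] at *
        linarith
      · have := g0_le (S := S) (w := w) (t := t) (d := false) (θ := θ) (p := (I.2, t)) ⟨rfl, b2, ht⟩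
          (.refl ht) (show I.2 ≤ θ by omega) ⟨by omega, by omega⟩
        have := a2 false
        simp only [sub_self, abs_zero] at *
        linarith
    exact ⟨a3, fun d => (a2 d).trans (g0_link h2 ht a1 a3)⟩

theorem H_ge (hN : N.NI s) (hs : NB.NI S s) (hk : s.kick = some I) {m : ℝ}
    (hg : ∀ d, m ≤ SB.g0 S s.D s.W s.w I d θ t) : m / 16 ≤ ((sysB S π).hl s ρ I).H θ t := by
  have hw := hs.w0
  have key : ∀ d, m / 16 ≤ ((SB.hp S π s ((sysB S π).Dp s ρ) I (del s ρ) d).out ρ.2.2.1.2.2).H θ t :=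
    fun d => by
      refine le_trans ?_ (out_ge _ _ θ t)
      refine div_le_div_of_nonneg_right (le_g0 ((hg d).trans g0_cap) fun p hp q k h1 h2 h3 => ?_)
        (by norm_num)
      by_cases h4 : k ≤ 8 * s.w
      · have h5 := chain_Dp N hN hs hk hp
        exact (hg d).trans (g0_le h5 (reach_Dp N hN hs hk (wall_src d h5) h1 h4) h2 h3)
      · have := (hg d).trans g0_cap
        have := abs_nonneg (t - q.2)
        linarith
  exact le_min (key true) (key false)

theorem trap_le (t : ℝ) (hw : 0 < s.w) : trap s ρ t ≤ s.w / 20 :=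
  max_le (by linarith) (min_le_left _ _)

theorem H_top (hN : N.NI s) (hs : NB.NI S s) (hk : s.kick = some I)
    (hg : ∀ d, 3 * s.w ≤ SB.g0 S s.D s.W s.w I d θ t) :
    s.w / 20 < ((sysB S π).hl s ρ I).H θ t - xi0 s ρ := by
  have hw := hs.w0
  have h1 := H_ge (ρ := ρ) N hN hs hk hg
  have h2 : xi0 s ρ ≤ s.w / 10 := (uq_mem _ (by linarith)).2
  linarith

theorem psi_top (hN : N.NI s) (hs : NB.NI S s) (hk : s.kick = some I) (hθ : θ ∈ tm I)
    (hg : ∀ d, 3 * s.w ≤ SB.g0 S s.D s.W s.w I d θ t) : (sysB S π).psi s ρ θ t = trap s ρ t := by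
  have h1 := H_top (ρ := ρ) N hN hs hk hg
  have h2 := trap_le (ρ := ρ) t hs.w0
  unfold Sys.psi Sys.psi0
  rw [if_pos (N.ok s ρ hN).2, hk]
  simp only [if_pos hθ]
  rw [min_eq_left (by linarith), max_eq_right (trap_nonneg ρ t)]

theorem psi_trap (hN : N.NI s) (hs : NB.NI S s) (hk : s.kick = some I) (hθ : θ ∈ tm I)
    (hZ : ∀ d, θ ∉ SB.Zd S s I d) (t : ℝ) : (sysB S π).psi s ρ θ t = trap s ρ t :=
  psi_top N hN hs hk hθ fun d => le_trans (by linarith [hs.w0]) (g0_top hθ (hZ d) t)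

end Vale.Agent.P235.Pl.Qb
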