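import Vale.Agent.P235P.NB3
import Vale.Agent.P235P.QBTop
import Vale.Agent.P235P.HBirth
import Vale.Agent.P235P.FBall

/-! P235 planar case, birth in system B: the healing problem near the ball. -/

open Set Classical

noncomputable section

namespace Vale.Agent.P235.Pl.Pb

variable {S : Sk} {π : Par} {s : St} {I : ℕ × ℕ} {d : Bool} {θ : ℕ} {t : ℝ}

section
variable {co : Coins S}

/-- The two walls are far apart. -/
theorem walls_far (h : I ∈ SB.cand S s co) {q : ℕ × ℝ} {R R' : ℝ} (hR : R + R' ≤ 20 * s.w)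
    (h1 : Near S s.D s.W (chain s.D s.W I.1) R q) (h2 : Near S s.D s.W (chain s.D s.W I.2) R' q) :
    False := by
  obtain ⟨z, hz, k, hk, hr⟩ := h1
  obtain ⟨z', hz', k', hk', hr'⟩ := h2
  have f1 := (NB.cand_elig h (Or.inl rfl) hz).1
  have f2 := (NB.cand_elig h (Or.inr rfl) hz').1
  exact ((greedy_iff _ _ _).1 f2).2 I.1 h.1 f1
    ⟨h.2.2.2.2.1, z, hz, z', hz', k' + k, by linarith, hr'.trans hr.symm⟩

theorem cols_near (hW : Qb.Wd s.W s.w) {B : Set (ℕ × ℝ)} {a : ℕ} {R : ℝ} (ha : a < S.mate a)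
    (ht : t ∈ s.D.P a) (h : Near S s.D s.W B R (a, t)) {q : ℕ × ℝ} (hq : q ∈ cols S s.W a) :
    Near S s.D s.W B (R + s.w) q := by
  obtain ⟨θ, u⟩ := q
  rcases hq with ⟨rfl | rfl, hu⟩
  · exact Qb.near_col hW h hu
  · exact Qb.near_col hW (h.link (link_arc ha ht)) hu

/-- The columns of a zone are far from the other wall. -/
theorem zone_far (h : I ∈ SB.cand S s co) (hW : Qb.Wd s.W s.w) (hw : 0 < s.w)
    (hθ : θ ∈ SB.Zd S s I d) :
    ¬ Near S s.D s.W (chain s.D s.W (SB.wall I (!d))) (12 * s.w) (θ, t) := by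
  intro hn
  have hm := h.2.2.2.2.1
  cases d with
  | true =>
    obtain ⟨⟨h1, h2⟩, p, ⟨z, hz, k, hk, hr⟩, -, h3⟩ := NB.mem_Zt.1 hθ
    have hn' : Near S s.D s.W (chain s.D s.W I.2) (12 * s.w) (θ, t) := hn
    have hz1 : z.1 = I.1 := hz.1
    rcases hr.bar_gap (g := θ - 1) (by omega) (by omega) with ⟨u, hu, hv⟩ | ⟨a, u, a1, a2, hu, hv⟩
    · obtain ⟨k', hk', hr'⟩ := hv.left
      have h4 := (Near.of_reach hz hr' (hk'.trans hk)).link (link_gap S hu)
      rw [show θ - 1 + 1 = θ by omega] at h4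
      exact walls_far h (by linarith) (Qb.near_col hW h4 hn'.mem) hn'
    · obtain ⟨k', hk', hr'⟩ := hv.left
      have h4 := Near.of_reach hz hr' (hk'.trans hk)
      have ha : WArc S s.D s.W a := ⟨by omega, u, hu, hv.mem⟩
      have h5 : ¬ Enc S a I.2 := fun he => ((NB.cand_elig h (Or.inl rfl) hz).2.2.2.2 _
        (h4.mono_R (by linarith)) a ha ((hm a ha).2 he)).1 rfl
      obtain ⟨z', hz', k2, hk2, hr2⟩ := hn'
      have hz2 : z'.1 = I.2 := hz'.1
      obtain ⟨q, c1, c2, hq, r1, r2, e⟩ := Qb.bar_cols ha.1 hr2.symm (by simp only; omega)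
        (by unfold Enc at h5; omega)
      exact walls_far h (R' := 12 * s.w) (by linarith) (cols_near hW ha.1 hu h4 hq)
        (Near.of_reach hz' r2.symm (by linarith [r1.nonneg]))
  | false =>
    obtain ⟨⟨h1, h2⟩, p, ⟨z, hz, k, hk, hr⟩, -, h3⟩ := NB.mem_Zf.1 hθ
    have hn' : Near S s.D s.W (chain s.D s.W I.1) (12 * s.w) (θ, t) := hn
    have hz1 : z.1 = I.2 := hz.1
    rcases h2.eq_or_lt with h2 | h2
    · have h4 : Near S s.D s.W (chain s.D s.W I.2) 0 (θ, z.2) := by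
        rw [show (θ, z.2) = z from Prod.ext (by simp only; omega) rfl]
        exact Near.self hz hz.2.2 le_rfl
      exact walls_far h (by linarith) hn' (Qb.near_col hW h4 hn'.mem)
    rcases hr.bar_gap' (g := θ) (by omega) h3 with ⟨u, hu, hv⟩ | ⟨a, u, a1, a2, hu, hv⟩
    · obtain ⟨k', hk', hr'⟩ := hv.left
      exact walls_far h (by linarith) hn'
        (Qb.near_col hW (Near.of_reach hz hr' (hk'.trans hk)) hn'.mem)
    · obtain ⟨k', hk', hr'⟩ := hv.left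
      have h4 := Near.of_reach hz hr' (hk'.trans hk)
      have ha : WArc S s.D s.W a := ⟨by omega, u, hu, hv.mem⟩
      have h5 : ¬ Enc S a I.1 := fun he => ((NB.cand_elig h (Or.inr rfl) hz).2.2.2.2 _
        (h4.mono_R (by linarith)) a ha ((hm a ha).1 he)).1 rfl
      obtain ⟨z', hz', k2, hk2, hr2⟩ := hn'
      have hz2 : z'.1 = I.1 := hz'.1
      obtain ⟨q, c1, c2, hq, r1, r2, e⟩ := Qb.bar_cols ha.1 hr2.symm (by simp only; omega)
        (by unfold Enc at h5; omega)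
      exact walls_far h (R := 12 * s.w) (by linarith)
        (Near.of_reach hz' r2.symm (by linarith [r1.nonneg])) (cols_near hW ha.1 hu h4 hq)

theorem zone_disj (h : I ∈ SB.cand S s co) (hW : Qb.Wd s.W s.w) (hw : 0 < s.w)
    (hθ : θ ∈ SB.Zd S s I d) : θ ∉ SB.Zd S s I (!d) := by
  rintro ⟨-, p, hp, h1, h2⟩
  obtain ⟨h3, q, hq, h4, h5⟩ := hθ
  refine zone_far h hW hw (d := d) (θ := p.1) (t := p.2) ⟨h1, q, hq, h4, ?_⟩
    (Near.mono_R hp (by linarith))
  cases d <;> simp [tgt] at h2 h5 ⊢ <;> omega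

end

variable {N : NodeC (sysB S π)} {ρ : Rnd S π}

theorem mem_Zd (hN : N.NI s) (hs : NB.NI S s) (hk : s.kick = some I) (hθ : θ ∈ tm I)
    (h : SB.g0 S ((sysB S π).Dp s ρ) s.W s.w I d θ t < 5 * s.w) : θ ∈ SB.Zd S s I d := by
  obtain ⟨z, hz, q, k, hr, ⟨h1, h2⟩, h3⟩ := exists_of_envT_lt h le_rfl
  have hz' := Qb.chain_Dp N hN hs hk hz
  have h4 : k ≤ 5 * s.w := by linarith [abs_nonneg (t - q.2)]
  exact ⟨hθ, q, Near.of_reach hz'
    (Qb.reach_Dp N hN hs hk (Qb.wall_src d hz') hr (by linarith [hs.w0])) h4, h2, h1⟩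

theorem zone_far' (hs : NB.NI S s) (hk : s.kick = some I) (hθ : θ ∈ SB.Zd S s I d) :
    ¬ Near S s.D s.W (chain s.D s.W (SB.wall I (!d))) (12 * s.w) (θ, t) := by
  obtain ⟨P, co, hc⟩ := hs.kcand hk
  exact zone_far (s := NB.base s P) hc (Qb.wd (s := s) hs) hs.w0 hθ

/-- On the zone of one side the function of the other side is large. -/
theorem other_ge (hN : N.NI s) (hs : NB.NI S s) (hk : s.kick = some I) (hθ : θ ∈ SB.Zd S s I d) :
    5 * s.w / 16 ≤ NB.Hd s ρ I (!d) θ t := by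
  obtain ⟨P, co, hc⟩ := hs.kcand hk
  have h1 : θ ∉ SB.Zd S s I (!d) := zone_disj (s := NB.base s P) hc (Qb.wd (s := s) hs) hs.w0 hθ
  have h2 := not_lt.1 fun h => h1 (mem_Zd (ρ := ρ) (t := t) hN hs hk hθ.1 h)
  linarith [hs.le_Hd (ρ := ρ) (d := !d) (θ := θ) (t := t) hk]

/-- On the zone of one side the healed function is the function of that side. -/
theorem hl_eq (hN : N.NI s) (hs : NB.NI S s) (hk : s.kick = some I) (hθ : θ ∈ SB.Zd S s I d)
    (h : NB.Hd s ρ I d θ t < 5 * s.w / 16) :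
    ((sysB S π).hl s ρ I).H θ t = NB.Hd s ρ I d θ t ∧ ((sysB S π).hl s ρ I).dn θ t =
      ((SB.hp S π s ((sysB S π).Dp s ρ) I (del s ρ) d).out ρ.2.2.1.2.2).dn θ t := by
  have h1 := other_ge (ρ := ρ) (t := t) hN hs hk hθ
  cases d with
  | true =>
    have h2 : NB.Hd s ρ I true θ t ≤ NB.Hd s ρ I false θ t := h.le.trans h1
    exact ⟨min_eq_left h2, if_pos h2⟩
  | false =>
    have h2 : NB.Hd s ρ I false θ t < NB.Hd s ρ I true θ t := h.trans_le h1
    exact ⟨min_eq_right h2.le, if_neg (not_le.2 h2)⟩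

/-- On the zone of one side the healed function is at least `min (5 w / 16)` of that side. -/
theorem le_hl (hN : N.NI s) (hs : NB.NI S s) (hk : s.kick = some I) (hθ : θ ∈ SB.Zd S s I d) :
    min (5 * s.w / 16) (NB.Hd s ρ I d θ t) ≤ ((sysB S π).hl s ρ I).H θ t := by
  have h1 := other_ge (ρ := ρ) (t := t) hN hs hk hθ
  rw [NB.H_eq]
  cases d
  exacts [min_le_min h1 le_rfl, le_min (min_le_right _ _) ((min_le_left _ _).trans h1)]

variable {c : Ctx S} {V : ℕ → ℝ → ℝ} {A : ℝ} {y : ℕ} {co : Coins S} {dd : Qn π × Qn π}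
  {eo : Fin (2 * π.m0 + 2) × Qn π}

/-- The randomness of the node with arbitrary healing seeds and sign. -/
def rho0 (co : Coins S) (dd : Qn π × Qn π) (eo : Fin (2 * π.m0 + 2) × Qn π) : Rnd S π :=
  (co, dd, (0, 0, fun _ => (0, 0, 0)), true, eo)

/-- The healing problem of the side `d`. -/
abbrev hpB (s : St) (I : ℕ × ℕ) (co : Coins S) (dd : Qn π × Qn π)
    (eo : Fin (2 * π.m0 + 2) × Qn π) (d : Bool) : HP :=
  SB.hp S π s ((sysB S π).Dp s (rho0 co dd eo)) I (del s (rho0 co dd eo)) d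

theorem g0_thick (h : At (sysB S π) c s N V A y I co dd eo) (ρ : Rnd S π) {p : ℕ × ℝ}
    (hp : p ∈ c.thick V A) : |SB.g0 S ((sysB S π).Dp s ρ) s.W s.w I d p.1 p.2 -
      SB.g0 S ((sysB S π).Dp s ρ) s.W s.w I d c.x.1 (c.vx V)| ≤ 9 * (A * c.r) := by
  obtain ⟨t, ht, h1⟩ := hp
  obtain ⟨k, hk, hr⟩ := Near.single.1 ht
  have h2 := (h.push ρ hr hk).lip (f := SB.g0 S ((sysB S π).Dp s ρ) s.W s.w I d) (k := 1)
    (fun θ t _ t' _ => by rw [one_mul]; exact NB.g0_lip) fun θ θ' t ht hl => by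
      obtain ⟨l1, ⟨p1, hp1, rfl⟩, ⟨p2, hp2, rfl⟩⟩ := link_res.1 hl
      exact NB.g0_link l1 ht (h.rep.ink I h.kick p1 hp1) (h.rep.ink I h.kick p2 hp2)
  have h3 := NB.g0_lip (S := S) (D := (sysB S π).Dp s ρ) (W := s.W) (w := s.w) (K := I) (d := d)
    (θ := p.1) (t := p.2) (t' := V p.1 t)
  have h4 := mul_le_mul_of_nonneg_left hk h.rep.pos.le
  simp only at h2
  rw [abs_le] at h2 h3 ⊢
  constructor <;> linarith [h2.1, h2.2, h3.1, h3.2]

/-- The ball lies in the zone of the side `d`. -/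
structure Side (c : Ctx S) (s : St) (V : ℕ → ℝ → ℝ) (A : ℝ) (I : ℕ × ℕ) (co : Coins S)
    (dd : Qn π × Qn π) (eo : Fin (2 * π.m0 + 2) × Qn π) (d : Bool) : Prop where
  heal : HealAt (sysB S π) c s V A I co dd eo (hpB s I co dd eo d)
  zone : ∀ p ∈ c.ball 8, p.1 ∈ SB.Zd S s I d
  near : Near S s.D s.W (chain s.D s.W (SB.wall I d)) (11 * s.w) (c.x.1, c.vx V)

theorem heal_or_far (h : At (sysB S π) c s N V A y I co dd eo) (hs : NB.NI S s) :
    (∀ u σ, ∀ p ∈ c.thick V A,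
      3 * s.w / 20 ≤ ((sysB S π).hl s (co, dd, u, σ, eo) I).H p.1 p.2) ∨
    ∃ d, Side c s V A I co dd eo d := by
  have hw := hs.w0
  have hu : 0 < A * c.r := mul_pos h.rep.pos c.h_r_pos
  have hsm := h.big.small h.rep.pos
  norm_num at hsm
  by_cases h0 : ∀ d, 4 * s.w ≤
      SB.g0 S ((sysB S π).Dp s (rho0 co dd eo)) s.W s.w I d c.x.1 (c.vx V)
  · refine Or.inl fun u σ p hp => ?_
    have h1 : ∀ d, 3 * s.w / 20 ≤ NB.Hd s (co, dd, u, σ, eo) I d p.1 p.2 := fun d => by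
      have h2 : 4 * s.w ≤ SB.g0 S ((sysB S π).Dp s (co, dd, u, σ, eo)) s.W s.w I d c.x.1 (c.vx V) :=
        h0 d
      have h3 := abs_le.1 (g0_thick (d := d) h (co, dd, u, σ, eo) hp)
      linarith [hs.le_Hd (ρ := (co, dd, u, σ, eo)) (d := d) (θ := p.1) (t := p.2) h.kick]
    exact le_min (h1 true) (h1 false)
  push Not at h0
  obtain ⟨d, hd⟩ := h0
  have hZ : ∀ p ∈ c.thick V A, p.1 ∈ SB.Zd S s I d := fun p hp =>
    mem_Zd (ρ := rho0 co dd eo) (t := p.2) h.ni hs h.kick (h.thick_abs hp).2.2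
      (by linarith [abs_le.1 (g0_thick (d := d) h (rho0 co dd eo) hp)])
  have hx := c.h_x_mem (R := 8) (by norm_num)
  have hn : Near S s.D s.W (chain s.D s.W (SB.wall I d)) (11 * s.w) (c.x.1, c.vx V) := by
    have h1 := h.shal (0, 0, fun _ => (0, 0, 0)) true c.x hx none
      (hs.ch_zone.2 (NB.mem_Zs.2 ⟨I, h.kick, d, hZ (c.x.1, c.vx V) (h.mem_thick hx)⟩))
    have h2 : dc S s.D s.W (SB.src s I) (20 * s.w) (c.x.1, c.vx V) < 11 * s.w := by
      have h3 := NB.thr_le (s := s) (co, dd, (0, 0, fun _ => (0, 0, 0)), true, eo) hw none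
      simp only [Sys.DI, cI, h.kick, Option.getD_none, Option.getD_some] at h1
      have h4 : dc S s.D s.W (SB.src s I) (20 * s.w) (c.x.1, c.vx V) ≤ _ := h1
      linarith [mul_assoc 50 A c.r]
    have h5 := zone_far' (t := c.vx V) hs h.kick (hZ (c.x.1, c.vx V) (h.mem_thick hx))
    rcases Near.union.1 (near_of_dc_lt h2 (by linarith) (h.thick_abs (h.mem_thick hx)).2.1)
      with h6 | h6 <;> cases d
    · exact (h5 (h6.mono_R (by linarith))).elim
    · exact h6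
    · exact h6
    · exact (h5 (h6.mono_R (by linarith))).elim
  refine Or.inr ⟨d, ⟨rfl, fun _ _ => rfl, rfl, ?_, ⟨hs.s1_pos h.kick _ _ _, fun θ t => ?_,
    fun θ t t' => ?_, fun θ θ' t hl ht h1 h2 => ?_⟩, fun u σ p hp => ?_⟩,
    fun p hp => hZ (p.1, V p.1 p.2) (h.mem_thick hp), hn⟩
  · obtain ⟨P, co', hc⟩ := hs.kcand h.kick
    obtain ⟨z, hz, -⟩ := id hn
    have hne : (chain s.D s.W (SB.wall I d)).Nonempty := ⟨z, hz⟩
    obtain ⟨A', -, h1⟩ := (NB.cand_elig (b := NB.base s P) hc (NB.wall_eq I d) hz).2.2.1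
    obtain ⟨b, hb⟩ := h.aff
    have h2 : (s.lab c.x.1 (c.vx V)).1 = A' := (h1 _ (hn.mono_R (show 11 * s.w ≤ 12 * s.w by
      linarith))).1
    have h3 : (s.lab hne.some.1 hne.some.2).1 = A' := (h1 _ (Near.self hne.some_mem
      hne.some_mem.2.2 (show 0 ≤ 12 * s.w by linarith))).1
    have h4 : (s.lab c.x.1 (c.vx V)).1 = A := (hb _ hx).2.1
    change sTop π s.w (s.labA (chain s.D s.W (SB.wall I d))) = _
    rw [St.labA, dif_pos hne, h3, ← h2, h4]
  · exact div_nonneg (NB.g0_nonneg hw.le) (by norm_num)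
  · change |_ / 16 - _ / 16| ≤ _
    rw [← sub_div, abs_div, abs_of_pos (by norm_num : (0 : ℝ) < 16)]
    exact div_le_div_of_nonneg_right NB.g0_lip (by norm_num)
  · exact congrArg (· / 16) (NB.g0_link hl ht h1 h2)
  · by_cases h1 : NB.Hd s (co, dd, u, σ, eo) I d p.1 p.2 < 3 * s.w / 20
    · exact Or.inl (hl_eq h.ni hs h.kick (hZ p hp) (by linarith))
    · refine Or.inr ⟨le_trans (le_min (by linarith) (not_lt.1 h1))
        (le_hl h.ni hs h.kick (hZ p hp)), not_lt.1 h1⟩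

/-- The healed function is not flat on the pair. -/
def DirB (c : Ctx S) (V : ℕ → ℝ → ℝ) (A : ℝ) (H : ℕ → ℝ → ℝ) : Prop :=
  2 * (A * c.rs) ≤ |H c.x.1 (c.vx V) - H c.y.1 (V c.y.1 c.y.2)|

/-- The direct payment at birth. -/
theorem dir {Y : Sys S π} {N : NodeC Y} {P : HP} (h : At Y c s N V A y I co dd eo)
    (hP : HealAt Y c s V A I co dd eo P) (n : Fin π.nS)
    (hn : (n : ℕ) = nIdx π y) (u : Qn π × Qn π × HS π) {X : Cone → Finset ℝ}
    (hm : P.Mid u.2.2 (c.hb V A I (nIdx π y)) X (xi0 s (co, dd, u, true, eo))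
      (trap s (co, dd, u, true, eo) (c.vx V)) (nIdx π y))
    (hd : DirB c V A (P.Hs u.2.2 n)) (hr : P.NoR u.2.2 (c.hb V A I (nIdx π y)) n) :
    ∃ σ, A * c.rs / 64 ≤ payB fun i =>
      Y.Vn s (co, dd, u, σ, eo) V (ptB c i).1 (ptB c i).2 := by
  obtain ⟨hb, hs⟩ := h.ball hP
  obtain ⟨b, hb'⟩ := h.aff
  obtain rfl : n = ⟨nIdx π y, hb.nlt⟩ := Fin.ext hn
  have hA := h.rep.pos
  have h0 : 0 < A * c.rs := mul_pos hA c.rs_pos
  have hx := (hb' _ (c.x_mem (by norm_num))).1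
  have key : ∀ p ∈ c.ball 8, |p.2 - c.x.2| ≤ c.rs → ∃ e, 0 ≤ e ∧ e ≤ A * c.rs / 1024 ∧
      |V p.1 p.2 - c.vx V| ≤ A * c.rs ∧ Y.Vn s (co, dd, u, true, eo) V p.1 p.2 = V p.1 p.2 +
        P.Hs u.2.2 (nIdx π y) p.1 (V p.1 p.2) + e - xi0 s (co, dd, u, true, eo) := by
    intro p hp hl
    have h1 : |V p.1 p.2 - c.vx V| ≤ A * c.rs := by
      rw [(hb' p hp).1, Ctx.vx, hx, add_sub_add_right_eq_sub, ← mul_sub, abs_mul, abs_of_pos hA]
      exact mul_le_mul_of_nonneg_left hl hA.le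
    have h2 := hb.nor_le hr p.1 (t := V p.1 p.2) (h1.trans (by
      simp only [Ctx.hb, hs]
      linarith))
    have h3 := (h.mid_psi hP u true hm (h.mem_thick hp)).2.2.2.2
    simp only [Ctx.hb, hs] at h2 h3
    refine ⟨_, sub_nonneg.2 h2.1, by linarith [h2.2], h1, ?_⟩
    simp only [Sys.Vn, Sys.Psi, h3, sg, if_true]
    ring
  obtain ⟨ex, x1, x2, x3, x4⟩ := key c.x (c.x_mem (by norm_num))
    (by rw [sub_self, abs_zero]; exact c.rs_pos.le)
  obtain ⟨ey, y1, y2, y3, y4⟩ := key c.y (c.y_mem (by norm_num)) (by rw [abs_sub_comm]; exact c.lev)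
  have y5 := abs_le.1 y3
  refine ⟨true, ?_⟩
  simp only [DirB, payB, ptB, if_true, Bool.false_eq_true, if_false, Ctx.vx] at hd x4 y4 y5 ⊢
  rw [x4, y4]
  rcases le_abs.1 hd with hd | hd
  · exact le_abs.2 (Or.inl (by linarith [y5.2]))
  · exact le_abs.2 (Or.inr (by linarith [y5.1]))

/-- The birth field of system B follows from the success lemma. -/
theorem birth_of (h : At (sysB S π) c s N V A y I co dd eo) (hs : NB.NI S s) {B : ℝ}
    {Gv : Qn π × Qn π × HS π → Bool → ℝ} {ND : St → (ℕ → ℝ → ℝ) → ℝ → Prop}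
    (hv : Val (sysB S π) c s (ptB c) payB ND V A co dd eo B Gv)
    (X : Qn π → Qn π → Cone → Finset ℝ) (hX : ∀ z q κ, (X z q κ).card ≤ 20)
    (hsuc : ∀ d, Side c s V A I co dd eo d → ∀ n : Fin π.nS, (n : ℕ) = nIdx π y →
      ∀ (u : Qn π × Qn π × HS π) i k, Kink c s (co, dd, u, true, eo) V A →
      (hpB s I co dd eo d).Mid u.2.2 (c.hb V A I (nIdx π y)) (X u.1 u.2.1)
        (xi0 s (co, dd, u, true, eo)) (trap s (co, dd, u, true, eo) (c.vx V)) (nIdx π y) →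
      ¬ DirB c V A ((hpB s I co dd eo d).Hs u.2.2 n) →
      (hpB s I co dd eo d).Suc u.2.2 (c.hb V A I (nIdx π y)) n i k →
      ∃ σ, ND ((sysB S π).mid s (co, dd, u, σ, eo)) ((sysB S π).Vn s (co, dd, u, σ, eo) V) A) :
    (1 - 10 ^ 9 * (y + 1) * (A * c.r / s.w)) * (B * A) ≤
      Finset.expect Finset.univ fun u => Finset.expect Finset.univ fun σ => Gv u σ := by
  rcases heal_or_far h hs with hf | ⟨d, hd⟩
  · exact h.birth_far hv hf
  · exact h.birth_gen hv hd.heal ⟨_, h.big.nIdx_lt.1⟩ rfl X hX (DirB c V A)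
      (fun u _ hm h1 h2 => dir h hd.heal _ rfl u hm h1 h2) (hsuc d hd _ rfl)

end Vale.Agent.P235.Pl.Pb
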