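import Vale.Agent.P235P.PBDefs
import Vale.Agent.P235P.FBall
import Vale.Agent.P235P.FMid1

/-! P235 planar case, birth in system B: lifting and pulling back. -/

open Set Classical

noncomputable section

namespace Vale.Agent.P235.Pl.Pb

variable {S : Sk} {π : Par} {Y : Sys S π} {c : Ctx S} {s : St} {V : ℕ → ℝ → ℝ} {A b : ℝ}
  {ρ : Rnd S π}

theorem pbl_gap (c : Ctx S) {D : Lk} {g : ℕ} {t : ℝ} : Link S D g (g + 1) t ↔ t ∈ D.L g := by
  refine ⟨fun h => ?_, link_gap S⟩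
  rcases h with ⟨-, h⟩ | ⟨e, -⟩ | ⟨-, e, -⟩ | ⟨e, e', -⟩
  · exact h
  · omega
  · exact absurd e.symm (c.adj g)
  · omega

theorem pbl_arc (c : Ctx S) {D : Lk} {a : ℕ} {t : ℝ} (ha : a < S.mate a) :
    Link S D a (S.mate a) t ↔ t ∈ D.P a := by
  refine ⟨fun h => ?_, link_arc ha⟩
  rcases h with ⟨e, -⟩ | ⟨e, -⟩ | ⟨-, -, h⟩ | ⟨e, -, -⟩
  · exact absurd e (c.adj a)
  · omega
  · exact h
  · rw [S.inv] at e
    omega

theorem pbl_key (h : c.Rep s V A 8) (ha : ∀ p ∈ c.ball 8, V p.1 p.2 = A * p.2 + b)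
    (hsh : Shal Y c s ρ V A 8) {θ θ' : ℕ} {t : ℝ} (hb : (θ, t) ∈ c.ball 7) :
    Link S (Y.Dp s ρ) θ θ' (A * t + b) ↔ Link S c.D0 θ θ' t := by
  have r0 := fmid1_r c
  have a0 := mul_pos h.pos r0
  have nb : ∀ v, |t - v| ≤ c.r → V θ v = A * v + b := fun v hv =>
    ha (θ, v) ((Near.vert hb (mem_univ v)).mono_R (by linarith))
  have hb8 : (θ, t) ∈ c.ball 8 := Near.mono_R hb (by linarith)
  have e : V θ t = A * t + b := ha _ hb8
  rw [← e]
  refine ⟨fun l => ?_, fun l => Y.link_Dp ρ (h.r1 θ θ' t l).1⟩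
  obtain ⟨t', h3, h4⟩ := h.r2 θ θ' t hb8 (fmid1_thin (ε := 50 * A * c.r) l (by linarith)
    fun v _ hv ⟨_, i, d1, d2⟩ => d2 (.inr (by
      have b1 := hsh _ hb8 i d1
      have b2 := le_of_abs_le (dc_lip (S := S) (D := s.D) (W := s.W) (A := Y.src s (cI s i))
        (cap := 20 * s.w) (θ := θ) v (V θ t))
      have b3 : Y.DI s (cI s i) (θ, v) ≤ thr s ρ i := by
        simp only [Sys.DI] at b1 ⊢
        linarith
      cases i <;> exact b3)))
  obtain rfl : t' = t := by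
    rcases lt_trichotomy t' t with l | l | l
    · obtain ⟨v, a1, a2⟩ := exists_between (max_lt l (sub_lt_self t r0))
      rw [max_lt_iff] at a1
      have := h.mono θ a1.1.le
      rw [h4, e, nb v (abs_le.2 ⟨by linarith, by linarith [a1.2]⟩)] at this
      linarith [mul_lt_mul_of_pos_left a2 h.pos]
    · exact l
    · obtain ⟨v, a1, a2⟩ := exists_between (lt_min l (lt_add_of_pos_right t r0))
      rw [lt_min_iff] at a2
      have := h.mono θ a2.1.le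
      rw [h4, e, nb v (abs_le.2 ⟨by linarith [a2.2], by linarith⟩)] at this
      linarith [mul_lt_mul_of_pos_left a1 h.pos]
  exact h3

theorem pbl_link {D : Lk} (h : Lift c D A b) {θ θ' : ℕ} {t : ℝ} (hb : (θ, t) ∈ c.ball 7) :
    Link S D θ θ' (A * t + b) ↔ Link S c.D0 θ θ' t :=
  or_congr (and_congr_right fun _ => h.L θ t (.inl hb))
    (or_congr (and_congr_right fun e => h.L θ' t (.inr (e ▸ hb)))
      (or_congr (and_congr_right fun l => and_congr_right fun _ => h.P θ t l (.inl hb))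
        (and_congr_right fun l => and_congr_right fun e => h.P θ' t l (.inr (e ▸ hb)))))

theorem lift_of (h : c.Rep s V A 8) (_hW : c.Win s V A)
    (ha : ∀ p ∈ c.ball 8, V p.1 p.2 = A * p.2 + b) (hsh : Shal Y c s ρ V A 8) :
    Lift c (Y.Dp s ρ) A b := by
  have k : ∀ {θ θ' : ℕ} {t : ℝ}, (θ, t) ∈ c.ball 7 ∨ (θ', t) ∈ c.ball 7 →
      (Link S (Y.Dp s ρ) θ θ' (A * t + b) ↔ Link S c.D0 θ θ' t) := fun hb =>
    hb.elim (pbl_key h ha hsh) fun hb => ⟨fun l => ((pbl_key h ha hsh hb).1 l.symm).symm,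
      fun l => ((pbl_key h ha hsh hb).2 l.symm).symm⟩
  exact ⟨h.pos, fun g t hb => by rw [← pbl_gap c, ← pbl_gap c, k hb],
    fun a t l hb => by rw [← pbl_arc c l, ← pbl_arc c l, k hb]⟩

/-- Points of the ball of `D` come from the initial ball. -/
theorem Lift.ball {D : Lk} {W : Set ℝ} (h : Lift c D A b) {p : ℕ × ℝ} (hp : p ∈ HB c D W A b) :
    (p.1, (p.2 - b) / A) ∈ c.ball 4 := by
  obtain ⟨k, hk, hr⟩ := Near.single.1 hp
  have r0 := fmid1_r c
  have a0 := h.pos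
  have key : k ≤ 4 * A * c.r → Reach S c.D0 univ c.x (p.1, (p.2 - b) / A) (k / A) := by
    refine hr.inv (Q := fun q k => k ≤ 4 * A * c.r →
      Reach S c.D0 univ c.x (q.1, (q.2 - b) / A) (k / A)) (fun _ => ?_)
      (fun θ t t' k _ _ ih l => ?_) fun θ θ' t k _ hl ih l => ?_
    · simp only [add_sub_cancel_right, mul_div_cancel_left₀ _ a0.ne', zero_div]
      exact .refl (mem_univ _)
    · refine ((ih (le_trans (le_add_of_nonneg_right (abs_nonneg _)) l)).vert (mem_univ _)).cast ?_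
      rw [← sub_div, sub_sub_sub_cancel_right, abs_div, abs_of_pos a0, add_div]
    · refine (ih l).link ((pbl_link h (Near.of_reach rfl (ih l) ?_)).1 ?_)
      · rw [div_le_iff₀ a0]
        linarith [mul_pos a0 r0]
      · rwa [mul_div_cancel₀ _ a0.ne', sub_add_cancel]
  refine Near.of_reach rfl (key hk) ?_
  rw [div_le_iff₀ a0]
  linarith

theorem Lift.hb {D : Lk} {W : Set ℝ} (h : Lift c D A b)
    (hW : Icc (A * c.x.2 + b - 100 * A * c.r) (A * c.x.2 + b + 100 * A * c.r) ⊆ W) {p : ℕ × ℝ}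
    {R : ℝ} (hR : R ≤ 4) (hp : p ∈ c.ball R) :
    Near S D W {(c.x.1, A * c.x.2 + b)} (R * A * c.r) (p.1, A * p.2 + b) := by
  obtain ⟨k, hk, hr⟩ := Near.single.1 hp
  have r0 := fmid1_r c
  have a0 := h.pos
  have ar := mul_pos a0 r0
  have key : k ≤ 4 * c.r → Reach S D W (c.x.1, A * c.x.2 + b) (p.1, A * p.2 + b) (A * k) := by
    refine hr.inv (Q := fun q k => k ≤ 4 * c.r →
      Reach S D W (c.x.1, A * c.x.2 + b) (q.1, A * q.2 + b) (A * k)) (fun _ => ?_)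
      (fun θ t t' k hq _ ih l => ?_) fun θ θ' t k hq hl ih l => ?_
    · rw [mul_zero]
      exact .refl (hW ⟨by linarith, by linarith⟩)
    · have h1 := abs_le.1 ((hq.vert (mem_univ t')).abs_le.trans l)
      have h2 := mul_le_mul_of_nonneg_left h1.1 a0.le
      have h3 := mul_le_mul_of_nonneg_left h1.2 a0.le
      refine ((ih (le_trans (le_add_of_nonneg_right (abs_nonneg _)) l)).vert
        (hW ⟨by linarith, by linarith⟩)).cast ?_
      rw [add_sub_add_right_eq_sub, ← mul_sub, abs_mul, abs_of_pos a0, mul_add]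
    · exact (ih l).link ((pbl_link h (Near.of_reach rfl hq (by linarith))).2 hl)
  refine Near.of_reach rfl (key (hk.trans (mul_le_mul_of_nonneg_right hR r0.le))) ?_
  linarith [mul_le_mul_of_nonneg_left hk a0.le]

theorem pbl_col {f : ℝ → ℝ} (hf : Monotone f) {β b₀ ta tb t u : ℝ} (hβ : 0 < β)
    (h : ∀ t ∈ Icc ta tb, f t = β * t + b₀) (ht : t ∈ Ioo ta tb) (e : f u = β * t + b₀) :
    u = t := by
  have l := ht.1.le.trans ht.2.le
  rcases lt_or_ge u ta with a | a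
  · have := hf a.le
    rw [e, h ta ⟨le_rfl, l⟩] at this
    linarith [mul_lt_mul_of_pos_left ht.1 hβ]
  rcases lt_or_ge tb u with a' | a'
  · have := hf a'.le
    rw [e, h tb ⟨l, le_rfl⟩] at this
    linarith [mul_lt_mul_of_pos_left ht.2 hβ]
  · rw [h u ⟨a, a'⟩] at e
    exact mul_left_cancel₀ hβ.ne' (add_right_cancel e)

/-- A neighbourhood after an affine operation is the image of a neighbourhood. -/
theorem pull {B W : Set ℝ} {τ : ℕ} {β b₀ ta tb v R R' : ℝ} (hβ : 1 ≤ β) (hB : Icc ta tb ⊆ B)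
    (h1 : β * ta + b₀ < v - 2 * R) (h2 : v + 2 * R < β * tb + b₀) (hR : R + (tb - ta) ≤ R')
    (haff : ∀ θ t, t ∈ Icc ta tb →
      θ = τ ∨ Near S (Y.Dp s ρ) B (chain (Y.Dp s ρ) B τ) R' (θ, t) → Y.Psi s ρ θ t = β * t + b₀)
    {p : ℕ × ℝ} (hp : Near S (Y.mid s ρ).D W
      {q | q.1 = τ ∧ q.2 ∈ (Y.mid s ρ).D.L τ ∧ |q.2 - v| ≤ R} R p) :
    ∃ t ∈ Icc ta tb, Near S (Y.Dp s ρ) B (chain (Y.Dp s ρ) B τ) R (p.1, t) ∧
      (Y.mid s ρ).lab p.1 p.2 = Y.lab1 s ρ p.1 t := by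
  obtain ⟨⟨τ', w⟩, ⟨rfl, ⟨u, hu, hw⟩, hv⟩, k, hk, hr⟩ := hp
  have β0 : 0 < β := by linarith
  have R0 : 0 ≤ R := hr.nonneg.trans hk
  have hv' := abs_le.1 hv
  have ex : ∀ w', |w - w'| ≤ R → ∃ t ∈ Ioo ta tb, β * t + b₀ = w' := fun w' h => by
    have h3 := abs_le.1 h
    refine ⟨(w' - b₀) / β, ⟨?_, ?_⟩, by rw [mul_div_cancel₀ _ β0.ne', sub_add_cancel]⟩
    · rw [lt_div_iff₀' β0]
      linarith [hv'.1]
    · rw [div_lt_iff₀' β0]
      linarith [hv'.2]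
  have col : ∀ {θ t k}, k ≤ R → t ∈ Ioo ta tb →
      Near S (Y.Dp s ρ) B (chain (Y.Dp s ρ) B τ') k (θ, t) →
      ∀ t' ∈ Icc ta tb, Y.Psi s ρ θ t' = β * t' + b₀ := fun {θ t k} l ht n t' ht' =>
    haff θ t' ht' (.inr ((n.vert (hB ht')).mono_R (by
      linarith [abs_le.2 (⟨by linarith [ht.1, ht'.2], by linarith [ht.2, ht'.1]⟩ :
        -(tb - ta) ≤ t - t' ∧ t - t' ≤ tb - ta)])))
  have key : k ≤ R → ∃ t ∈ Ioo ta tb, β * t + b₀ = p.2 ∧
      Near S (Y.Dp s ρ) B (chain (Y.Dp s ρ) B τ') k (p.1, t) := by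
    refine hr.inv (Q := fun q k => k ≤ R → ∃ t ∈ Ioo ta tb, β * t + b₀ = q.2 ∧
      Near S (Y.Dp s ρ) B (chain (Y.Dp s ρ) B τ') k (q.1, t)) (fun _ => ?_)
      (fun θ w₁ w₂ k hq hW ih l => ?_) fun θ θ' w₁ k _ hl ih l => ?_
    · obtain ⟨t, ht, e⟩ := ex w (by rwa [sub_self, abs_zero])
      obtain rfl : u = t := pbl_col (Y.Psi_mono' ρ τ') β0 (fun t ht => haff τ' t ht (.inl rfl)) ht
        (hw.trans e.symm)
      have m := hB (Ioo_subset_Icc_self ht)
      exact ⟨u, ht, e, Near.self ⟨rfl, hu, m⟩ m le_rfl⟩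
    · obtain ⟨t, ht, e, n⟩ := ih (le_trans (le_add_of_nonneg_right (abs_nonneg _)) l)
      obtain ⟨t', ht', e'⟩ := ex w₂ ((hq.vert hW).abs_le.trans l)
      refine ⟨t', ht', e', (n.vert (hB (Ioo_subset_Icc_self ht'))).mono_R ?_⟩
      have e2 : w₁ - w₂ = β * (t - t') := by
        simp only at e e'
        linarith
      rw [e2, abs_mul, abs_of_pos β0]
      linarith [le_mul_of_one_le_left (abs_nonneg (t - t')) hβ]
    · obtain ⟨t, ht, e, n⟩ := ih l
      obtain ⟨u', h3, h4⟩ := fmid1_inv hl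
      obtain rfl : u' = t := pbl_col (Y.Psi_mono' ρ θ) β0 (col l ht n) ht (h4.trans e.symm)
      exact ⟨u', ht, e, n.link h3⟩
  obtain ⟨t, ht, e, n⟩ := key hk
  have e' := col hk ht n t (Ioo_subset_Icc_self ht)
  refine ⟨t, Ioo_subset_Icc_self ht, n.mono_R hk, ?_⟩
  rw [← e, ← e']
  exact mid_lab fun u hu => pbl_col (Y.Psi_mono' ρ p.1) β0 (col hk ht n) ht (hu.trans e')

end Vale.Agent.P235.Pl.Pb
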