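import Vale.Agent.P235P.PBOff
import Vale.Agent.P235P.PBCore
import Vale.Agent.P235P.PBGeo

/-! P235 planar case, birth in system B: the data after a success. -/

open Set Classical

noncomputable section

namespace Vale.Agent.P235.Pl.Pb

variable {S : Sk} {π : Par} {X : Dat S π} {dir : Bool} {Im : ℕ × ℕ} {mu : ℕ → ℝ → ℝ}
  {κ : Cone} {z o gm gp fm fp θ a : ℕ} {t : ℝ}

namespace Dat

/-- Values at intermediate times. -/
theorem pbd_btw (hp : X.PD dir Im mu) {b : ℕ} (ha : a ∈ tm Im) (hb : b ∈ tm Im) (h1 : a ≤ θ)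
    (h2 : θ ≤ b) {v R : ℝ} (h3 : |mu a t - v| ≤ R) (h4 : |mu b t - v| ≤ R) :
    θ ∈ tm Im ∧ |mu θ t - v| ≤ R := by
  have hθ : θ ∈ tm Im := ⟨ha.1.trans_le h1, h2.trans hb.2⟩
  refine ⟨hθ, ?_⟩
  obtain ⟨a1, a2⟩ := abs_le.1 h3
  obtain ⟨b1, b2⟩ := abs_le.1 h4
  cases dir
  · have m1 := hp.mono θ a t hθ ha h1
    have m2 := hp.mono b θ t hb hθ h2
    exact abs_le.2 ⟨by linarith, by linarith⟩
  · have m1 := hp.mono a θ t ha hθ h1
    have m2 := hp.mono θ b t hθ hb h2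
    exact abs_le.2 ⟨by linarith, by linarith⟩

/-- The values at the two points. -/
theorem pbd_xy (h : X.Sit) (hp : X.PD dir Im mu)
    (hd : |X.mx - X.H X.n X.c.y.1 (X.V X.c.y.1 X.c.y.2)| < 2 * X.u)
    (hθ : θ = X.c.x.1 ∨ θ = X.c.y.1) : θ ∈ tm Im ∧ |mu θ X.vx - X.mx| ≤ 33 / 16 * X.u := by
  obtain ⟨-, u0, -⟩ := h.num
  obtain ⟨h1, h2, h3⟩ := h.x_mem
  rcases hθ with rfl | rfl
  · obtain ⟨b1, b2⟩ := hp.ball _ h1
    refine ⟨b1, ?_⟩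
    have e : mu X.c.x.1 X.vx = X.mx := b2.symm
    rw [e, sub_self, abs_zero]
    linarith
  · obtain ⟨b1, b2⟩ := hp.ball _ h2
    refine ⟨b1, ?_⟩
    have e : X.H X.n X.c.y.1 (X.V X.c.y.1 X.c.y.2) = mu X.c.y.1 (X.V X.c.y.1 X.c.y.2) := b2
    rw [e] at hd
    have l := abs_le.1 (hp.lip X.c.y.1 (X.V X.c.y.1 X.c.y.2) X.vx)
    have d := abs_lt.1 hd
    exact abs_le.2 ⟨by linarith [l.1, l.2, d.1, d.2], by linarith [l.1, l.2, d.1, d.2]⟩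

theorem pbd_ip (h : X.Sit) (hs : κ.s = X.u) (hκ : |X.vx - κ.t| ≤ X.u)
    (ht : |t - X.vx| ≤ 45 * X.u) : t ∈ κ.Ip := by
  obtain ⟨-, u0, -⟩ := h.num
  have h2 := abs_le.1 ht
  have h3 := abs_le.1 hκ
  exact ⟨by rw [hs]; linarith [h2.1, h3.1], by rw [hs]; linarith [h2.2, h3.2]⟩

/-- An arc over a flat column with an end in the piece. -/
theorem pbd_arc (h : X.Sit) (hp : X.PD dir Im mu) (ha : a < S.mate a) (hl : t ∈ X.D.P a)
    (hW : t ∈ X.s.W) (ht : 45 * X.u ≤ |t - X.vx|) (hc : X.Col θ) (hf : X.Flat Im mu θ)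
    (h3 : a ≤ θ) (h4 : θ ≤ S.mate a) {e : ℕ} (he : e = a ∨ e = S.mate a) (hI : e ∈ tm Im)
    (hm : X.mx - 8 * X.u ≤ mu e X.vx) : X.c.Off X.Vn X.A (X.Psi a t) := by
  rcases h.nd.arc ha hl hW (hp.sub hf.1) h3 h4 with ⟨i1, i2⟩ | ⟨o1, o2, -⟩
  · exact h.off_arc hp ha i1 i2 hl hW ht hc hf h3 h4 he hI hm
  · have b := hp.sub hI
    simp only [tm, mem_Ioc] at b
    omega

/-- A stop with a flat column next to it. -/
def PStop (X : Dat S π) (Im : ℕ × ℕ) (mu : ℕ → ℝ → ℝ) (κ : Cone) (g e : ℕ) : Prop :=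
  Mates S X.D κ.Ip g e ∧ X.c.Stop X.mid X.Vn X.A e ∧
    ∃ θ, e ≤ θ ∧ θ ≤ e + 1 ∧ X.Col θ ∧ X.Flat Im mu θ

theorem pbd_right (h : X.Sit) (hp : X.PD dir Im mu) {i k : ℤ}
    (hs : X.P.Suc (sd X.ρ) X.hb X.n i k)
    (Q : SD X.c X.D X.s.W X.A X.b (X.K X.n i k) z o gm gp fm fp)
    (hf : ∀ θ, gp ≤ θ → θ ≤ fp → X.Flat Im mu θ) :
    ∃ e, gp ≤ e ∧ e ≤ fp ∧ X.PStop Im mu (X.K X.n i k) gm e := by
  have ks : (X.K X.n i k).s = X.u := h.scl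
  have kt : |X.vx - (X.K X.n i k).t| ≤ X.u := hs.1.trans_eq h.scl
  have l1 := Q.lm
  have l2 := Q.l1
  have l3 := Q.l2
  have l4 := Q.lp
  have l5 := Q.out
  have l6 := Q.zo
  by_cases hc : (chain X.D (X.K X.n i k).Ip fp).Nonempty
  · have hin : ∀ e, gp ≤ e → e < fp → Mates S X.D (X.K X.n i k).Ip gp e →
        Inner X.c X.D X.s.W X.A X.b (X.K X.n i k) e := fun e h1 h2 h3 =>
      Q.inner e (by omega) h2 (Q.mg.trans h3)
    obtain ⟨e, e1, e2, e3, e4⟩ := h.core_stop hp hs (Q.longp hc) hin hf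
      (by simp only [mem_Ioc]; omega) (by simp only [mem_Ioc]; omega)
    exact ⟨e, e1.le, e2.le, Q.mg.trans e3, Or.inr e4, e, le_rfl, Nat.le_succ _,
      fun t ht => (hin e e1.le e2 e3).nb (e, t) (Or.inr ⟨Or.inl rfl, pbd_ip h ks kt ht⟩),
      hf e e1.le e2.le⟩
  · have c1 : X.Col fp := fun t ht => Q.colp t (pbd_ip h ks kt ht)
    have c2 := hf fp l4 le_rfl
    exact ⟨fp, l4, le_rfl, Q.mp, Or.inl (h.free_stop hp ks kt hc Q.bgp (Or.inl rfl) c1 c2), fp,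
      le_rfl, Nat.le_succ _, c1, c2⟩

theorem pbd_left (h : X.Sit) (hp : X.PD dir Im mu) {i k : ℤ}
    (hs : X.P.Suc (sd X.ρ) X.hb X.n i k)
    (Q : SD X.c X.D X.s.W X.A X.b (X.K X.n i k) z o gm gp fm fp)
    (hf : ∀ θ, fm < θ → θ ≤ gm + 1 → X.Flat Im mu θ) :
    ∃ e, fm ≤ e ∧ e ≤ gm ∧ X.PStop Im mu (X.K X.n i k) gm e := by
  have ks : (X.K X.n i k).s = X.u := h.scl
  have kt : |X.vx - (X.K X.n i k).t| ≤ X.u := hs.1.trans_eq h.scl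
  have l1 := Q.lm
  have l2 := Q.l1
  have l3 := Q.l2
  have l4 := Q.lp
  have l5 := Q.out
  have l6 := Q.zo
  by_cases hc : (chain X.D (X.K X.n i k).Ip fm).Nonempty
  · obtain ⟨g, f, g1, g2, g3, g4⟩ := Q.longm hc
    have hin : ∀ e, g ≤ e → e < f → Mates S X.D (X.K X.n i k).Ip g e →
        Inner X.c X.D X.s.W X.A X.b (X.K X.n i k) e := fun e h1 h2 h3 =>
      Q.inner e (by omega) (by omega) (g3.trans h3)
    obtain ⟨e, e1, e2, e3, e4⟩ := h.core_stop hp hs g4 hin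
      (fun θ h1 h2 => hf θ (by omega) (by omega))
      (by simp only [mem_Ioc]; omega) (by simp only [mem_Ioc]; omega)
    exact ⟨e, by omega, by omega, g3.trans e3, Or.inr e4, e, le_rfl, Nat.le_succ _,
      fun t ht => (hin e e1.le e2 e3).nb (e, t) (Or.inr ⟨Or.inl rfl, pbd_ip h ks kt ht⟩),
      hf e (by omega) (by omega)⟩
  · have c1 : X.Col (fm + 1) := fun t ht => Q.colm t (pbd_ip h ks kt ht)
    have c2 := hf (fm + 1) (Nat.lt_succ_self _) (by omega)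
    exact ⟨fm, le_rfl, l1, Q.mm, Or.inl (h.free_stop hp ks kt hc Q.bgm (Or.inr rfl) c1 c2),
      fm + 1, Nat.le_succ _, le_rfl, c1, c2⟩

/-- The flat case. -/
theorem pbd_fl (h : X.Sit) (hp : X.PD dir Im mu) {i k : ℤ}
    (hs : X.P.Suc (sd X.ρ) X.hb X.n i k)
    (Q : SD X.c X.D X.s.W X.A X.b (X.K X.n i k) z o gm gp fm fp)
    (hf : ∀ θ, fm < θ → θ ≤ fp → X.Flat Im mu θ) : X.c.FL X.mid X.Vn X.A := by
  have ks : (X.K X.n i k).s = X.u := h.scl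
  have kt : |X.vx - (X.K X.n i k).t| ≤ X.u := hs.1.trans_eq h.scl
  have l1 := Q.lm
  have l2 := Q.l1
  have l3 := Q.l2
  have l4 := Q.lp
  have l5 := Q.out
  obtain ⟨cp, p1, p2, p3, p4, θp, p5, p6, p7, p8⟩ :=
    pbd_right h hp hs Q fun θ h1 h2 => hf θ (by omega) h2
  obtain ⟨cm, m1, m2, m3, m4, θm, m5, m6, m7, m8⟩ :=
    pbd_left h hp hs Q fun θ h1 h2 => hf θ h1 (by omega)
  refine ⟨cm, cp, z, o, Q.zo, ⟨by omega, by omega⟩, by simp only [mem_Ioc]; omega, m4, p4, ?_⟩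
  rintro a _ hE ⟨t, hl, rfl⟩ hW
  have hW0 : t ∈ X.s.W := h.nd.mem_W hW
  have ha : a < S.mate a := by
    simp only [Enc] at hE
    omega
  have ht : 45 * X.u ≤ |t - X.vx| := by
    by_contra hn
    have w : WArc S X.D (X.K X.n i k).Ip a := ⟨ha, t, hl, pbd_ip h ks kt (not_le.1 hn).le⟩
    exact hE ((m3 a w).symm.trans (p3 a w))
  simp only [Enc] at hE
  by_cases hm : a ≤ cm ∧ cm < S.mate a
  · have f := hf (S.mate a) (by omega) (by omega)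
    exact pbd_arc h hp ha hl hW0 ht m7 m8 (by omega) (by omega) (Or.inr rfl) f.1
      (by linarith [(abs_le.1 f.2).1])
  · have f := hf a (by omega) (by omega)
    exact pbd_arc h hp ha hl hW0 ht p7 p8 (by omega) (by omega) (Or.inl rfl) f.1
      (by linarith [(abs_le.1 f.2).1])

/-- Arcs over a stop in the non-flat case. -/
theorem pbd_nf (h : X.Sit) (hp : X.PD dir Im mu) {τ : ℕ}
    (ht : X.c.Term X.mid X.Vn X.A τ) (hτ : Im = X.I ∨ τ = if dir then Im.2 else Im.1)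
    (hd : |X.mx - X.H X.n X.c.y.1 (X.V X.c.y.1 X.c.y.2)| < 2 * X.u)
    (ks : κ.s = X.u) (kt : |X.vx - κ.t| ≤ X.u)
    (Q : SD X.c X.D X.s.W X.A X.b κ z o gm gp fm fp)
    (hf : ¬ ∀ θ, fm < θ → θ ≤ fp → X.Flat Im mu θ) {e : ℕ} (he : X.PStop Im mu κ gm e)
    (hE : Enc S a e) (hl : t ∈ X.mid.D.P a) (hW : t ∈ X.mid.W) :
    X.c.Off X.Vn X.A t ∨ (X.c.Both a ∧ ((a, t) ∈ X.mid.Pin ∨ Enc S a τ)) := by
  obtain ⟨e1, -, θ, e2, e3, e4, e5⟩ := he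
  have hl' := hl
  obtain ⟨t₀, hl0, rfl⟩ := hl'
  have hW0 : t₀ ∈ X.s.W := h.nd.mem_W hW
  have ha : a < S.mate a := hE.1.trans_lt hE.2
  have h3 : a ≤ θ := hE.1.trans e2
  have h4 : θ ≤ S.mate a := e3.trans hE.2
  obtain ⟨-, u0, -⟩ := h.num
  rcases h.nd.arc ha hl0 hW0 (hp.sub e5.1) h3 h4 with ⟨i1, i2⟩ | ⟨o1, o2, o3, o4⟩
  swap
  · have b1 := hp.sub (pbd_xy h hp hd (Or.inl rfl)).1
    have b2 := hp.sub (pbd_xy h hp hd (Or.inr rfl)).1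
    refine Or.inr ⟨⟨o1.trans b1.1.le, b1.2.trans o2.le, o1.trans b2.1.le, b2.2.trans o2.le⟩,
      Or.inl ?_⟩
    rw [o4]
    exact o3
  obtain ⟨e', k1, k2, k3⟩ : ∃ e', (e' = a ∨ e' = S.mate a) ∧ e' ∈ tgt dir θ ∧
      (e' ∉ tm Im → Enc S a (if dir then Im.2 else Im.1)) := by
    have b := e5.1
    cases dir
    · refine ⟨a, Or.inl rfl, h3, fun hn => ?_⟩
      simp only [tm, mem_Ioc, Enc, Bool.false_eq_true, if_false] at b hn ⊢
      omega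
    · refine ⟨S.mate a, Or.inr rfl, h4, fun hn => ?_⟩
      simp only [tm, mem_Ioc, Enc, if_true] at b hn ⊢
      omega
  by_cases hI : e' ∈ tm Im
  swap
  · rcases hτ with hτ | hτ
    · rw [hτ] at hI
      rcases k1 with rfl | rfl
      exacts [absurd i1 hI, absurd i2 hI]
    · have k4 := k3 hI
      rw [← hτ] at k4
      exact (ht.arc a _ k4 hl hW).elim (fun b => Or.inr ⟨b, Or.inr k4⟩) Or.inl
  have m1 := hp.mono θ e' X.vx e5.1 hI k2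
  by_cases hfar : 45 * X.u ≤ |t₀ - X.vx|
  · exact Or.inl (h.off_arc hp ha i1 i2 hl0 hW0 hfar e4 e5 h3 h4 k1 hI
      (by linarith [(abs_le.1 e5.2).1]))
  have hn := (not_le.1 hfar).le
  have h61 : |t₀ - X.vx| ≤ 61 * X.u := by linarith
  have w : WArc S X.D κ.Ip a := ⟨ha, t₀, hl0, pbd_ip h ks kt hn⟩
  have g0 := (e1 a w).2 hE
  have g1 := ((Q.mm a w).1 g0).1
  have g2 := ((Q.mp a w).1 g0).2
  have j := hp.arcs a t₀ ha hl0 h61
  have j1 : a ∈ tm Im := by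
    rcases k1 with rfl | rfl
    exacts [hI, j.2 hI]
  have j2 := j.1 j1
  have c := hp.cons a _ t₀ (link_arc ha hl0) j1 j2 h61
  have key : ∀ θ, fm < θ → θ ≤ fp → θ ∈ tm Im ∧ |mu θ t₀ - mu a t₀| ≤ 0 := fun θ h1 h2 =>
    pbd_btw hp j1 j2 (g1.trans h1.le) (h2.trans g2.le) (by rw [sub_self, abs_zero])
      (by rw [c, sub_self, abs_zero])
  refine absurd (fun θ h1 h2 => ?_) hf
  obtain ⟨n1, n2⟩ := key θ h1 h2
  have n3 := (key z (Q.lm.trans_lt Q.l1) (Q.l2.trans Q.lp)).2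
  have n4 := (pbd_xy h hp hd (θ := z) (Q.zo.imp And.left And.left)).2
  have n5 := abs_le.1 (hp.lip θ t₀ X.vx)
  have n6 := abs_le.1 (hp.lip z t₀ X.vx)
  rw [abs_le] at n2 n3 n4
  exact ⟨n1, abs_le.2 ⟨by linarith [n2.1, n2.2, n3.1, n3.2, n4.1, n5.1, n5.2, n6.1, n6.2],
    by linarith [n2.1, n2.2, n3.1, n3.2, n4.2, n5.1, n5.2, n6.1, n6.2]⟩⟩

end Dat

theorem Dat.Sit.nd_of (h : X.Sit) (hB : TypeB X.c) (hp : X.PD dir Im mu) {τ : ℕ}
    (ht : X.c.Term X.mid X.Vn X.A τ) (hτ : Im = X.I ∨ τ = if dir then Im.2 else Im.1)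
    (hd : |X.mx - X.H X.n X.c.y.1 (X.V X.c.y.1 X.c.y.2)| < 2 * X.u) {i k : ℤ}
    (hs : X.P.Suc (sd X.ρ) X.hb X.n i k) : X.c.NDB X.mid X.Vn X.A := by
  have ks : (X.K X.n i k).s = X.u := h.scl
  have kt : |X.vx - (X.K X.n i k).t| ≤ X.u := hs.1.trans_eq h.scl
  obtain ⟨-, u0, -, -, -, e0, -⟩ := h.num
  have hW := h.win
  rw [Ctx.Win, show X.c.vx X.V = _ from e0] at hW
  obtain ⟨z, o, gm, gp, fm, fp, Q⟩ := sd_ex (κ := X.K X.n i k) hB h.lift ks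
    (by rw [← e0, ks]; exact kt) hW
  by_cases hf : ∀ θ, fm < θ → θ ≤ fp → X.Flat Im mu θ
  · exact Or.inl (Dat.pbd_fl h hp hs Q hf)
  right
  have hz := Dat.pbd_xy h hp hd (θ := z) (Q.zo.imp And.left And.left)
  have ho := Dat.pbd_xy h hp hd (θ := o) (Q.zo.symm.imp And.right And.right)
  have l1 := Q.lm
  have l2 := Q.l1
  have l3 := Q.l2
  have l4 := Q.lp
  have l6 := Q.zo
  obtain ⟨e, e1, e2⟩ : ∃ e, ¬ (X.c.x.1 ≤ e ↔ X.c.y.1 ≤ e) ∧ X.PStop Im mu (X.K X.n i k) gm e := by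
    rcases Q.out with l5 | l5
    · obtain ⟨e, e1, e2, e3⟩ := Dat.pbd_left h hp hs Q fun θ h1 h2 =>
        (Dat.pbd_btw hp ho.1 hz.1 (by omega) (by omega) ho.2 hz.2).imp_right
          fun b => b.trans (by linarith)
      exact ⟨e, by omega, e3⟩
    · obtain ⟨e, e1, e2, e3⟩ := Dat.pbd_right h hp hs Q fun θ h1 h2 =>
        (Dat.pbd_btw hp hz.1 ho.1 (by omega) (by omega) hz.2 ho.2).imp_right
          fun b => b.trans (by linarith)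
      exact ⟨e, by omega, e3⟩
  exact ⟨e, τ, e1, e2.2.1, ht, fun a t hE hl hW =>
    Dat.pbd_nf h hp ht hτ hd ks kt Q hf e2 hE hl hW⟩

end Vale.Agent.P235.Pl.Pb
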