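import Vale.Agent.P235P.BBar

/-! Paths in a band: elementary facts, barriers. -/

open Set

namespace Vale.Agent.P235.Pl.Qb

variable {S : Sk} {D : Lk} {W : Set ℝ} {p q r : ℕ × ℝ} {c c' w R R' : ℝ} {a e e' g g' θ θ' : ℕ}
  {t t' : ℝ} {A B C : Set (ℕ × ℝ)}

/-- Two sets at distance at most `R`. -/
def Cl (S : Sk) (D : Lk) (W : Set ℝ) (A B : Set (ℕ × ℝ)) (R : ℝ) : Prop :=
  ∃ q ∈ B, Near S D W A R q

/-- The band has width at most `w`. -/
def Wd (W : Set ℝ) (w : ℝ) : Prop := ∀ t ∈ W, ∀ t' ∈ W, |t - t'| ≤ w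

theorem link_symm (h : Link S D θ θ' t) : Link S D θ' θ t := by
  unfold Link at h ⊢
  tauto

theorem r_mem (h : Reach S D W p q c) : p.2 ∈ W ∧ q.2 ∈ W := by
  induction h with
  | refl h => exact ⟨h, h⟩
  | vert _ h ih => exact ⟨ih.1, h⟩
  | link _ _ ih => exact ih

theorem r_abs (h : Reach S D W p q c) : |p.2 - q.2| ≤ c := by
  induction h with
  | refl h => simp
  | vert _ _ ih => exact (abs_sub_le _ _ _).trans (add_le_add_left ih _)
  | link _ _ ih => exact ih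

theorem r_nonneg (h : Reach S D W p q c) : 0 ≤ c := (abs_nonneg _).trans (r_abs h)

theorem r_cast (h : Reach S D W p q c) (e : c = c') : Reach S D W p q c' := e ▸ h

theorem r_trans (h : Reach S D W p q c) (h' : Reach S D W q r c') : Reach S D W p r (c + c') := by
  induction h' with
  | refl _ => simpa using h
  | vert _ h2 ih => exact r_cast (ih.vert h2) (add_assoc _ _ _)
  | link _ h2 ih => exact ih.link h2

theorem r_vert (θ : ℕ) (h : t ∈ W) (h' : t' ∈ W) : Reach S D W (θ, t) (θ, t') |t - t'| :=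
  r_cast ((Reach.refl (p := (θ, t)) h).vert h') (zero_add _)

theorem r_link (h : t ∈ W) (hl : Link S D θ θ' t) : Reach S D W (θ, t) (θ', t) 0 :=
  (Reach.refl (p := (θ, t)) h).link hl

theorem r_symm (h : Reach S D W p q c) : Reach S D W q p c := by
  induction h with
  | refl h => exact .refl h
  | vert h1 h2 ih =>
    exact r_cast (r_trans (r_vert _ h2 (r_mem h1).2) ih) (by rw [abs_sub_comm, add_comm])
  | link h1 h2 ih => exact r_cast (r_trans (r_link (r_mem h1).2 (link_symm h2)) ih) (zero_add _)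

/-- A path that leaves a set of times uses a link that leaves it. -/
theorem r_exit {T : Set ℕ} (h : Reach S D W p q c) (hp : p.1 ∈ T) (hq : q.1 ∉ T) :
    ∃ θ θ' t c₁ c₂, θ ∈ T ∧ θ' ∉ T ∧ t ∈ W ∧ Link S D θ θ' t ∧ Reach S D W p (θ, t) c₁ ∧
      Reach S D W (θ', t) q c₂ ∧ c₁ + c₂ = c := by
  induction h with
  | refl h => exact absurd hp hq
  | vert _ h2 ih =>
    obtain ⟨θ, θ', t, c₁, c₂, a1, a2, a3, a4, a5, a6, rfl⟩ := ih hq
    exact ⟨θ, θ', t, c₁, _, a1, a2, a3, a4, a5, a6.vert h2, (add_assoc _ _ _).symm⟩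
  | @link θ θ' t c h1 h2 ih =>
    by_cases h3 : θ ∈ T
    · exact ⟨θ, θ', t, c, 0, h3, hq, (r_mem h1).2, h2, h1, .refl (r_mem h1).2, add_zero _⟩
    · obtain ⟨θ₁, θ₂, t₁, c₁, c₂, a1, a2, a3, a4, a5, a6, rfl⟩ := ih h3
      exact ⟨θ₁, θ₂, t₁, c₁, c₂, a1, a2, a3, a4, a5, a6.link h2, rfl⟩

theorem near_mono (h : Near S D W A R q) (hA : A ⊆ B) (hR : R ≤ R') : Near S D W B R' q := by
  obtain ⟨p, hp, c, hc, h⟩ := h
  exact ⟨p, hA hp, c, hc.trans hR, h⟩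

theorem near_step (h : Near S D W A R q) (h' : Reach S D W q r c) : Near S D W A (R + c) r := by
  obtain ⟨p, hp, c', hc, h⟩ := h
  exact ⟨p, hp, _, add_le_add_left hc _, r_trans h h'⟩

theorem near_self (h : q ∈ A) (hq : q.2 ∈ W) (hR : 0 ≤ R) : Near S D W A R q :=
  ⟨q, h, 0, hR, .refl hq⟩

theorem near_mem (h : Near S D W A R q) : q.2 ∈ W := by
  obtain ⟨p, -, c, -, h⟩ := h
  exact (r_mem h).2

theorem near_col (hW : Wd W w) (h : Near S D W A R (θ, t)) (ht : t' ∈ W) :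
    Near S D W A (R + w) (θ, t') :=
  near_mono (near_step h (r_vert θ (near_mem h) ht)) Subset.rfl
    (add_le_add_right (hW _ (near_mem h) _ ht) _)

theorem near_link (h : Near S D W A R (θ, t)) (hl : Link S D θ θ' t) : Near S D W A R (θ', t) := by
  simpa using near_step h (r_link (near_mem h) hl)

theorem Cl.symm (h : Cl S D W A B R) : Cl S D W B A R := by
  obtain ⟨q, hq, p, hp, c, hc, h⟩ := h
  exact ⟨p, hp, q, hq, c, hc, r_symm h⟩

theorem Cl.mono (h : Cl S D W A B R) (hR : R ≤ R') : Cl S D W A B R' := by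
  obtain ⟨q, hq, h⟩ := h
  exact ⟨q, hq, near_mono h Subset.rfl hR⟩

theorem Cl.sub (h : Cl S D W A B R) (hA : A ⊆ C) : Cl S D W C B R := by
  obtain ⟨q, hq, h⟩ := h
  exact ⟨q, hq, near_mono h hA le_rfl⟩

theorem Cl.sub' (h : Cl S D W A B R) (hB : B ⊆ C) : Cl S D W A C R := (h.symm.sub hB).symm

/-- Passing through a chain costs at most the width. -/
theorem Cl.near (hW : Wd W w) (h : Cl S D W A (chain D W e) R) (h' : Near S D W (chain D W e) R' q) :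
    Near S D W A (R + w + R') q := by
  obtain ⟨⟨θ, t⟩, hs, h⟩ := h
  obtain ⟨⟨θ', t'⟩, hs', c, hc, h'⟩ := h'
  obtain rfl : θ = e := hs.1
  obtain rfl : θ' = θ := hs'.1
  exact near_mono (near_step (near_col hW h hs'.2.2) h') Subset.rfl (add_le_add_right hc _)

theorem Cl.trans (hW : Wd W w) (h : Cl S D W A (chain D W e) R) (h' : Cl S D W (chain D W e) B R') :
    Cl S D W A B (R + w + R') := by
  obtain ⟨q, hq, h'⟩ := h'
  exact ⟨q, hq, h.near hW h'⟩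

theorem link_gap (h : t ∈ D.L g) : Link S D g (g + 1) t := Or.inl ⟨rfl, h⟩

theorem link_arc (ha : a < S.mate a) (h : t ∈ D.P a) : Link S D a (S.mate a) t :=
  Or.inr (Or.inr (Or.inl ⟨ha, rfl, h⟩))

/-- The shape of a link. -/
theorem link_cases (h : Link S D θ θ' t) (ht : t ∈ W) :
    (∃ g, t ∈ D.L g ∧ ((θ = g ∧ θ' = g + 1) ∨ (θ' = g ∧ θ = g + 1))) ∨
      ∃ a, WArc S D W a ∧ t ∈ D.P a ∧ ((θ = a ∧ θ' = S.mate a) ∨ (θ' = a ∧ θ = S.mate a)) := by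
  rcases h with h | h | h | h
  · exact Or.inl ⟨θ, h.2, Or.inl ⟨rfl, h.1⟩⟩
  · exact Or.inl ⟨θ', h.2, Or.inr ⟨rfl, h.1⟩⟩
  · exact Or.inr ⟨θ, ⟨h.1, t, h.2.2, ht⟩, h.2.2, Or.inl ⟨rfl, h.2.1⟩⟩
  · exact Or.inr ⟨θ', ⟨h.1, t, h.2.2, ht⟩, h.2.2, Or.inr ⟨rfl, h.2.1⟩⟩

/-- A path through a link of the gap `g` passes the chain. -/
theorem via_gap (h : t ∈ D.L g) (ht : t ∈ W) (hθ : θ = g ∨ θ = g + 1)
    (h1 : Reach S D W p (θ, t) c) : ∃ s ∈ chain D W g, s.2 = t ∧ Reach S D W p s c := by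
  rcases hθ with rfl | rfl
  · exact ⟨_, ⟨rfl, h, ht⟩, rfl, h1⟩
  · exact ⟨(g, t), ⟨rfl, h, ht⟩, rfl, h1.link (link_symm (link_gap h))⟩

/-- A link between the two sides of a pair of mates. -/
theorem link_mates (hm : Mates S D W g g') (h : Link S D θ θ' t) (ht : t ∈ W)
    (h1 : ¬ (θ ≤ g ↔ θ ≤ g')) (h2 : θ' ≤ g ↔ θ' ≤ g') :
    ∃ e, (e = g ∨ e = g') ∧ t ∈ D.L e ∧ (θ = e ∨ θ = e + 1) ∧ (θ' = e ∨ θ' = e + 1) := by
  rcases link_cases h ht with ⟨e, he, h3⟩ | ⟨a, ha, -, h3⟩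
  · exact ⟨e, by omega, he, by omega, by omega⟩
  · have := hm a ha
    have := ha.1
    unfold Enc at *
    omega

/-- BAR for a pair of mates. -/
theorem bar_mates (hm : Mates S D W g g') (h : Reach S D W p q c) (h1 : ¬ (p.1 ≤ g ↔ p.1 ≤ g'))
    (h2 : q.1 ≤ g ↔ q.1 ≤ g') : ∃ s c₁ c₂, (s ∈ chain D W g ∨ s ∈ chain D W g') ∧
      Reach S D W p s c₁ ∧ Reach S D W s q c₂ ∧ c₁ + c₂ = c := by
  obtain ⟨θ, θ', t, c₁, c₂, a1, a2, a3, a4, a5, a6, a7⟩ :=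
    r_exit (T := {θ | ¬ (θ ≤ g ↔ θ ≤ g')}) h h1 (not_not.2 h2)
  obtain ⟨e, he, b1, b2, b3⟩ := link_mates hm a4 a3 a1 (not_not.1 a2)
  obtain ⟨⟨x, y⟩, hs, rfl, b4⟩ := via_gap b1 a3 b2 a5
  obtain ⟨⟨x', y'⟩, hs', rfl, b5⟩ := via_gap b1 a3 b3 (r_symm a6)
  obtain rfl : x = e := hs.1
  obtain rfl : x' = x := hs'.1
  exact ⟨_, c₁, c₂, by rcases he with rfl | rfl <;> simp [hs], b4, r_symm b5, a7⟩

/-- BAR for one gap. -/
theorem bar_gap (h : Reach S D W p q c) (h1 : ¬ (p.1 ≤ g ↔ q.1 ≤ g)) : ∃ s c₁ c₂,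
    (s ∈ chain D W g ∨ ∃ a, WArc S D W a ∧ Enc S a g ∧ s ∈ cols S W a ∧ s.2 ∈ D.P a) ∧
      Reach S D W p s c₁ ∧ Reach S D W s q c₂ ∧ c₁ + c₂ = c := by
  obtain ⟨θ, θ', t, c₁, c₂, a1, a2, a3, a4, a5, a6, a7⟩ :=
    r_exit (T := {θ | θ ≤ g ↔ p.1 ≤ g}) h Iff.rfl (fun h => h1 (Iff.symm h))
  simp only [mem_ofPred_eq] at a1 a2
  rcases link_cases a4 a3 with ⟨e, he, h3⟩ | ⟨a, ha, hP, h3⟩
  · obtain rfl : e = g := by omega
    obtain ⟨⟨x, y⟩, hs, rfl, b4⟩ := via_gap he a3 (by omega) a5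
    obtain ⟨⟨x', y'⟩, hs', rfl, b5⟩ := via_gap he a3 (by omega) (r_symm a6)
    obtain rfl : x = e := hs.1
    obtain rfl : x' = x := hs'.1
    exact ⟨_, c₁, c₂, Or.inl hs, b4, r_symm b5, a7⟩
  · have := ha.1
    refine ⟨(θ, t), c₁, c₂, Or.inr ⟨a, ha, ⟨by omega, by omega⟩, ⟨by simp only; omega, a3⟩, hP⟩, a5,
      r_cast (r_trans (r_link a3 a4) a6) (zero_add _), a7⟩

/-- BAR for the columns of an arc. -/
theorem bar_cols (ha : a < S.mate a) (h : Reach S D W p q c) (h1 : a ≤ p.1 ∧ p.1 ≤ S.mate a)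
    (h2 : ¬ (a < q.1 ∧ q.1 < S.mate a)) : ∃ s c₁ c₂, s ∈ cols S W a ∧
      Reach S D W p s c₁ ∧ Reach S D W s q c₂ ∧ c₁ + c₂ = c := by
  by_cases h0 : a < p.1 ∧ p.1 < S.mate a
  · obtain ⟨θ, θ', t, c₁, c₂, a1, a2, a3, a4, a5, a6, a7⟩ :=
      r_exit (T := {θ | a < θ ∧ θ < S.mate a}) h h0 h2
    simp only [mem_ofPred_eq] at a1 a2
    refine ⟨(θ', t), c₁, c₂, ⟨?_, a3⟩, a5.link a4, a6, a7⟩
    rcases link_cases a4 a3 with ⟨e, -, h3⟩ | ⟨b, hb, -, h3⟩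
    · simp only
      omega
    · exfalso
      have k1 := hb.1
      have k2 := S.nc a b
      have k3 := S.nc b a
      have k4 := S.inv a
      have k5 := S.inv b
      rcases h3 with ⟨rfl, rfl⟩ | ⟨rfl, rfl⟩
      · omega
      · by_cases k6 : θ' = a
        · subst k6
          omega
        · omega
  · exact ⟨p, 0, c, ⟨by omega, (r_mem h).1⟩, .refl (r_mem h).1, h, zero_add _⟩

/-- Arcs that share a gap are nested. -/
theorem enc_nest {b : ℕ} (h1 : Enc S a g) (h2 : Enc S b g) (hab : a < b) : S.mate b < S.mate a :=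
  (S.nc a b hab (lt_of_le_of_lt h2.1 h1.2)).2

/-- SUCC: consecutive mates. -/
theorem succ_mates (hm : Mates S D W e e') (hlt : e < e')
    (hc : ∀ g, e < g → g < e' → ¬ Mates S D W e g) :
    e' = e + 1 ∨ (WArc S D W (e + 1) ∧ S.mate (e + 1) = e') := by
  by_cases h0 : e' = e + 1
  · exact Or.inl h0
  right
  have h1 := hc (e + 1) (by omega) (by omega)
  unfold Mates at h1
  push Not at h1
  obtain ⟨a, ha, h2⟩ := h1
  have h3 := hm a ha
  have k := ha.1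
  have hae : a = e + 1 := by
    unfold Enc at h2 h3
    omega
  subst hae
  refine ⟨ha, ?_⟩
  have h4 : S.mate (e + 1) ≤ e' := by
    unfold Enc at h3
    omega
  by_contra h5
  refine hc (S.mate (e + 1)) (by omega) (by omega) fun b hb => ?_
  have h6 := hm b hb
  have k1 := hb.1
  have k2 := S.nc b (e + 1)
  have k3 := S.nc (e + 1) b
  have k4 := S.inv b
  have k5 := S.inv (e + 1)
  unfold Enc at h6 ⊢
  by_cases k6 : b = S.mate (e + 1)
  · subst k6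
    omega
  by_cases k7 : b = e + 1
  · subst k7
    omega
  omega

end Vale.Agent.P235.Pl.Qb
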