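import Vale.Agent.P235P.PBCell
import Vale.Agent.P235P.QB0

/-! P235 planar case, birth in system B: nested cells. -/

open Set Classical

noncomputable section

namespace Vale.Agent.P235.Pl.Pb

variable {S : Sk} {D : Lk} {H : ℕ → ℝ → ℝ} {κ : Cone}

theorem pbn_far {W : Set ℝ} {R c : ℝ} {g a : ℕ} {p q : ℕ × ℝ} (hf : FarArc S D W g R)
    (ha : WArc S D W a) (he : Enc S a g) (hp : p ∈ chain D W g) (h : Reach S D W p q c)
    (hq : ¬ (a < q.1 ∧ q.1 < S.mate a)) : R ≤ c := by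
  have hg : p.1 = g := hp.1
  obtain ⟨s, c₁, c₂, hs, h1, h2, rfl⟩ := Qb.bar_cols ha.1 h (by rw [hg]; exact ⟨he.1, he.2.le⟩) hq
  by_contra hc
  have h3 := hf s ⟨p, hp, c₁, by linarith [Qb.r_nonneg h2, not_le.1 hc], h1⟩ a ha he
  rcases hs.1 with h4 | h4
  · exact h3.1 h4
  · exact h3.2 h4

theorem pbn_cost {η m η' a : ℕ} {c : ℝ} {p q : ℕ × ℝ} (r1 : Tr S D κ η m η')
    (ha : WArc S D κ.Ip a) (he : Enc S a η) (h : Reach S D κ.Ip p q c) (hq : q.1 ∈ tm (η, η'))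
    (hp : p.1 < a ∨ S.mate a ≤ p.1) : 1000 * κ.s ≤ c := by
  have he' := (r1.m2 a ha).1 he
  have k1 := he.1
  have k2 := he'.2
  have hp' : ¬ (a < p.1 ∧ p.1 < S.mate a) := by omega
  rcases h.symm.bar_mates r1.m2 hq.1 hq.2 (by omega) with ⟨t, ht, hv⟩ | ⟨t, ht, hv⟩
  · obtain ⟨c₂, h1, h2⟩ := hv.right
    exact (pbn_far (r1.far η (Or.inl rfl)) ha he ⟨rfl, ht, hv.mem⟩ h2 hp').trans h1
  · obtain ⟨c₂, h1, h2⟩ := hv.right
    exact (pbn_far (r1.far η' (Or.inr (Or.inr rfl))) ha he' ⟨rfl, ht, hv.mem⟩ h2 hp').trans h1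

theorem pbn_le {η m η' η₂ η₂' a θ θ' : ℕ} (hH : ∀ θ t, 0 ≤ H θ t) (r1 : Tr S D κ η m η')
    (l2 : Low D H κ (η₂, η₂')) (ha : WArc S D κ.Ip a) (he : Enc S a η) (h1 : η₂ < a)
    (h2 : S.mate a ≤ η₂') (hθ : θ ∈ tm (η, η')) (hθ' : θ' ∈ tm (η, η')) (d : Bool) (t : ℝ) :
    SB.E S D H κ (η₂, η₂') d θ t ≤ SB.E S D H κ (η₂, η₂') d θ' t := by
  rw [← add_zero (SB.E S D H κ (η₂, η₂') d θ' t)]
  refine envT_le_add (m := 0) (by norm_num) (fun p _ _ => hH _ _) (by simp) ?_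
  intro p hp q c h hq
  by_cases hJ : q.1 ∈ tm (η, η')
  · left
    have hp1 : p.1 = SB.wall (η₂, η₂') d := hp.1
    have k1 := pbn_cost r1 ha he h hJ (by cases d <;> simp only [SB.wall] at hp1 <;> simp_all)
    have k2 : κ.a - 48 * κ.s ≤ H p.1 p.2 := by
      refine l2 p ?_
      cases d
      · exact Or.inr hp
      · exact Or.inl hp
    have k3 := abs_nonneg (t - q.2)
    have k4 := r1.pos
    linarith
  · right
    refine ⟨p, hp, q, c, h, ⟨?_, hq.2⟩, by simp⟩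
    have k1 := hq.1
    simp only [tm, mem_Ioc] at hJ hθ hθ'
    cases d <;> simp only [tgt, if_true, Bool.false_eq_true, if_false, mem_Ici, mem_Iic] at k1 ⊢ <;>
      omega

theorem nest {Fm : ℕ → Prop} {η m η' η₂ m₂ η₂' θ₀ : ℕ} (hH : ∀ θ t, 0 ≤ H θ t)
    (t1 : SB.Triple S D κ.Ip Fm η m η') (t2 : SB.Triple S D κ.Ip Fm η₂ m₂ η₂')
    (r1 : Tr S D κ η m η') (l2 : Low D H κ (η₂, η₂')) (h1 : θ₀ ∈ tm (η, η'))
    (h2 : θ₀ ∈ tm (η₂, η₂')) (hlt : η₂ ≤ η) : (η₂, η₂') = (η, η') ∨ (η' ≤ η₂' ∧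
      ∀ θ ∈ tm (η, η'), ∀ θ' ∈ tm (η, η'), ∀ t,
        cellE S D H κ (η₂, η₂') θ t = cellE S D H κ (η₂, η₂') θ' t) := by
  obtain ⟨a1, a2, a3, a4, a5, a6, a7, a8, a9⟩ := t1
  obtain ⟨b1, b2, b3, b4, b5, b6, b7, b8, b9⟩ := t2
  have k1 : η < θ₀ := h1.1
  have k2 : θ₀ ≤ η' := h1.2
  have k3 : θ₀ ≤ η₂' := h2.2
  by_cases hm : Mates S D κ.Ip η₂ η
  · left
    rcases hlt.eq_or_lt with rfl | hlt
    · rcases lt_trichotomy η₂' η' with h | h | h
      · have e1 := a8 η₂' (by omega) h b5 b7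
        have e2 := a8 m₂ b1 (by omega) b4 b6
        omega
      · rw [h]
      · have e1 := b8 η' (by omega) h a5 a7
        have e2 := b8 m a1 (by omega) a4 a6
        omega
    · exfalso
      obtain rfl := b8 η hlt (by omega) a3 hm
      have e : {e | e < η ∧ Fm e ∧ Mates S D κ.Ip η e} =
          insert η₂ {e | e < η₂ ∧ Fm e ∧ Mates S D κ.Ip η₂ e} := by
        ext e
        simp only [mem_ofPred_eq, mem_insert_iff]
        constructor
        · rintro ⟨c1, c2, c3⟩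
          rcases lt_trichotomy e η₂ with h | h | h
          · exact Or.inr ⟨h, c2, hm.trans c3⟩
          · exact Or.inl h
          · have := b8 e h (by omega) c2 (hm.trans c3)
            omega
        · rintro (rfl | ⟨c1, c2, c3⟩)
          · exact ⟨hlt, b3, hm.symm⟩
          · exact ⟨c1.trans hlt, c2, hm.symm.trans c3⟩
      rw [e, Set.ncard_insert_of_notMem (fun h => lt_irrefl _ h.1)
        ((Set.finite_lt_nat η₂).subset fun e he => he.1)] at a9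
      omega
  · right
    unfold Mates at hm
    push Not at hm
    obtain ⟨a, ha, hne⟩ := hm
    have c1 := a7 a ha
    have c2 := b7 a ha
    have he : Enc S a η := by
      unfold Enc at *
      omega
    have c3 : η₂ < a ∧ S.mate a ≤ η₂' ∧ η' < S.mate a := by
      unfold Enc at *
      omega
    refine ⟨by omega, fun θ hθ θ' hθ' t => ?_⟩
    have key : ∀ d, SB.E S D H κ (η₂, η₂') d θ t = SB.E S D H κ (η₂, η₂') d θ' t := fun d =>
      le_antisymm (pbn_le hH r1 l2 ha he c3.1 c3.2.1 hθ hθ' d t)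
        (pbn_le hH r1 l2 ha he c3.1 c3.2.1 hθ' hθ d t)
    rw [cellE, cellE, key, key]

end Vale.Agent.P235.Pl.Pb
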