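import Vale.Agent.P235P.PBBas

/-! P235 planar case, birth in system B: links that stay away from the value of the centre. -/

open Set Classical

noncomputable section

namespace Vale.Agent.P235.Pl.Pb

variable {S : Sk} {π : Par} {X : Dat S π} {dir : Bool} {Im : ℕ × ℕ} {mu : ℕ → ℝ → ℝ} {θ a : ℕ}
  {t : ℝ}

namespace Dat

theorem pbo_trap (s : St) (ρ : Rnd S π) (t t' : ℝ) : trap s ρ t ≤ trap s ρ t' + |t - t'| := by
  have h1 := le_abs_self (t - t')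
  have h2 := neg_abs_le (t - t')
  have h3 := abs_nonneg (t - t')
  unfold trap
  rw [← max_add_add_right, ← min_add_add_right, ← min_add_add_right]
  exact max_le_max (by linarith) (min_le_min (by linarith) (min_le_min (by linarith) (by linarith)))

theorem pbo_up (h : X.Sit) (hp : X.PD dir Im mu) (hc : X.Col θ) (hf : X.Flat Im mu θ) {v : ℝ}
    (hv : |v - X.vx| ≤ 45 * X.u) : max 0 (min (trap X.s X.ρ v) (X.H π.nS θ v - xi0 X.s X.ρ)) ≤
      X.mx - xi0 X.s X.ρ + 38 * X.u := by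
  obtain ⟨-, u0, u1, -⟩ := h.num
  have a1 := h.mid'.1
  have a2 := (h.fin θ v).2
  have a3 : X.H X.n θ v = mu θ v := (hp.ball _ (hc v hv)).2
  have a4 := (abs_le.1 (hp.lip θ v X.vx)).2
  have a5 := (abs_le.1 hf.2).2
  exact max_le (by linarith) ((min_le_right _ _).trans (by linarith))

theorem pbo_low (h : X.Sit) (hp : X.PD dir Im mu) {e : ℕ} (hI : e ∈ tm Im)
    (hm : X.mx - 8 * X.u ≤ mu e X.vx) {v : ℝ} (hv : |v - X.vx| ≤ 45 * X.u) :
    X.mx - xi0 X.s X.ρ - 11 * X.u ≤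
      max 0 (min (trap X.s X.ρ v) (X.H π.nS e v - xi0 X.s X.ρ)) := by
  obtain ⟨-, u0, u1, -⟩ := h.num
  have a1 := h.mid'.2
  have a2 := (h.fin e v).1
  have a3 := hp.low e hI v (by linarith)
  have a4 := (abs_le.1 (hp.lip e v X.vx)).1
  have a5 := pbo_trap X.s X.ρ X.vx v
  rw [abs_sub_comm] at a5
  have a6 : X.mx - 11 * X.u ≤ min X.mx (mu e v) := le_min (by linarith) (by linarith)
  exact le_max_of_le_right (le_min (by linarith) (by linarith))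

theorem pbo_core (h : X.Sit) (hp : X.PD dir Im mu) (hc : X.Col θ) (hf : X.Flat Im mu θ)
    (ht : 45 * X.u ≤ |t - X.vx|) {e : ℕ} (hI : e ∈ tm Im) (hm : X.mx - 8 * X.u ≤ mu e X.vx)
    (hle : X.H π.nS e t ≤ X.H π.nS θ t) :
    X.c.Off X.Vn X.A (PsiD X.s X.ρ (X.H π.nS) e t) := by
  obtain ⟨-, u0, -⟩ := h.num
  have m1 := psiD_mono (s := X.s) (ρ := X.ρ) (h.nd.H_lip X.ρ X.d π.nS θ)
  have m2 := psiD_mono (s := X.s) (ρ := X.ρ) (h.nd.H_lip X.ρ X.d π.nS e)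
  have f1 : X.mx ≤ X.H π.nS X.c.x.1 X.vx := (h.fin X.c.x.1 X.vx).1
  have f2 : X.H π.nS X.c.x.1 X.vx ≤ X.mx + 27 * X.u := (h.fin X.c.x.1 X.vx).2
  have c1 : max 0 (min (trap X.s X.ρ t) (X.H π.nS e t - xi0 X.s X.ρ)) ≤
      max 0 (min (trap X.s X.ρ t) (X.H π.nS θ t - xi0 X.s X.ρ)) :=
    max_le_max le_rfl (min_le_min le_rfl (by linarith))
  have p1 : |X.vx + 45 * X.u - X.vx| ≤ 45 * X.u := abs_le.2 ⟨by linarith, by linarith⟩
  have p2 : |X.vx - 45 * X.u - X.vx| ≤ 45 * X.u := abs_le.2 ⟨by linarith, by linarith⟩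
  have u1 := pbo_up h hp hc hf p1
  have u2 := pbo_up h hp hc hf p2
  have l1 := pbo_low h hp hI hm p1
  have l2 := pbo_low h hp hI hm p2
  unfold Ctx.Off
  rw [h.vx_new]
  have hs : sg X.ρ = 1 ∨ sg X.ρ = -1 := by
    unfold sg
    split_ifs <;> simp
  rcases le_abs.1 ht with h1 | h1
  · have b1 := m1 (show X.vx + 45 * X.u ≤ t by linarith)
    have b2 := m2 (show X.vx + 45 * X.u ≤ t by linarith)
    refine le_abs.2 (Or.inl ?_)
    unfold PsiD at b1 b2 ⊢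
    rcases hs with e | e <;> rw [e] at b1 b2 ⊢ <;> linarith
  · have b1 := m1 (show t ≤ X.vx - 45 * X.u by linarith)
    have b2 := m2 (show t ≤ X.vx - 45 * X.u by linarith)
    refine le_abs.2 (Or.inr ?_)
    unfold PsiD at b1 b2 ⊢
    rcases hs with e | e <;> rw [e] at b1 b2 ⊢ <;> linarith

theorem pbo_zone (h : X.Sit) (hc : X.Col θ) (t : ℝ) :
    θ ∈ tm X.I ∧ 3 * X.s.w ≤ GG X.s X.ρ X.I (!X.d) θ t := by
  obtain ⟨-, u0, u1, -, u2, -⟩ := h.num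
  have b := h.bl (hc X.vx (by rw [sub_self, abs_zero]; linarith))
  have := h.nd.other b.2.2.2.2.1 X.ρ t
  exact ⟨b.2.2.1, by linarith⟩

theorem Sit.off_col (h : X.Sit) (hp : X.PD dir Im mu) (hc : X.Col θ) (hf : X.Flat Im mu θ)
    (ht : 45 * X.u ≤ |t - X.vx|) : X.c.Off X.Vn X.A (X.Psi θ t) := by
  obtain ⟨h1, h2⟩ := pbo_zone h hc t
  rw [show X.Psi θ t = _ from h.nd.psi h1 h2]
  exact pbo_core h hp hc hf ht hf.1 (by linarith [(abs_le.1 hf.2).1]) le_rfl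

theorem Sit.off_arc (h : X.Sit) (hp : X.PD dir Im mu) (ha : a < S.mate a) (h1 : a ∈ tm X.I)
    (h2 : S.mate a ∈ tm X.I) (hl : t ∈ X.D.P a) (hW : t ∈ X.s.W) (ht : 45 * X.u ≤ |t - X.vx|)
    (hc : X.Col θ) (hf : X.Flat Im mu θ) (h3 : a ≤ θ) (h4 : θ ≤ S.mate a) {e : ℕ}
    (he : e = a ∨ e = S.mate a) (hI : e ∈ tm Im) (hm : X.mx - 8 * X.u ≤ mu e X.vx) :
    X.c.Off X.Vn X.A (X.Psi a t) := by
  have h5 := (pbo_zone h hc t).2
  rw [← (h.nd.star ha h1 h2 hl hW h3 h4 (!X.d) 0).1] at h5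
  have h6 := (h.nd.star ha h1 h2 hl hW h3 h4 X.d π.nS).2
  have h7 : X.H π.nS e t = X.H π.nS a t := by
    rcases he with rfl | rfl
    · rfl
    · exact (h.nd.H_link π.nS (link_arc ha hl) hW h1 h2).symm
  have h8 := pbo_core h hp hc hf ht hI hm (h7.trans_le h6)
  rw [show X.Psi a t = _ from h.nd.psi h1 h5]
  unfold PsiD at h8 ⊢
  rwa [h7] at h8

theorem Sit.free_stop (h : X.Sit) (hp : X.PD dir Im mu) {κ : Cone} (hs : κ.s = X.u)
    (hκ : |X.vx - κ.t| ≤ X.u) {f : ℕ} (hf : ¬ (chain X.D κ.Ip f).Nonempty) (hb : X.c.BG f)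
    (hθ : θ = f ∨ θ = f + 1) (hc : X.Col θ) (hfl : X.Flat Im mu θ) :
    X.c.FreeStop X.mid X.Vn X.A f := by
  obtain ⟨-, u0, -⟩ := h.num
  refine ⟨hb, ?_⟩
  rintro _ - ⟨t, ht, rfl⟩
  have h1 : 45 * X.u ≤ |t - X.vx| := by
    by_contra hn
    have h2 := abs_lt.1 (not_le.1 hn)
    have h3 := abs_le.1 hκ
    exact hf ⟨(f, t), rfl, ht, by rw [hs]; linarith, by rw [hs]; linarith⟩
  have h2 := h.off_col hp hc hfl h1
  rcases hθ with rfl | rfl
  · exact h2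
  · rw [(sysB S π).Psi_link X.ρ (link_gap S ht)]
    exact h2

end Dat

end Vale.Agent.P235.Pl.Pb
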