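import Vale.Agent.P235P.PBBas
import Vale.Agent.P235P.PBNest

/-! P235 planar case, birth in system B: the data of a piece. -/

open Set Classical

noncomputable section

namespace Vale.Agent.P235.Pl.Pb

variable {S : Sk} {π : Par} {X : Dat S π}

/-- The triples of the cone `(m, i, k)`. -/
abbrev pbp_T (X : Dat S π) (m : Fin π.nS) (i k : ℤ) (η τ η' : ℕ) : Prop :=
  SB.Triple S X.D (X.K m i k).Ip
    (SB.Fp S X.s X.D X.I (del X.s X.ρ) (X.H m) (X.K m i k)) η τ η'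

/-- The cell with the given walls. -/
abbrev pbp_C (X : Dat S π) (m : Fin π.nS) (i k : ℤ) (η η' : ℕ) : Cell :=
  ((η, η'), cellE S X.D (X.H m) (X.K m i k) (η, η'))

variable {m : Fin π.nS} {i k : ℤ} {η τ η' : ℕ}

theorem pbp_act {c : Cell} (hc : c ∈ X.P.act (X.H m) (X.K m i k)) :
    ∃ η τ η', pbp_T X m i k η τ η' ∧ c = pbp_C X m i k η η' := hc.1

theorem pbp_mk (tri : pbp_T X m i k η τ η')
    (ok : CellOK S X.D (X.H m) (X.K m i k) (pbp_C X m i k η η')) :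
    pbp_C X m i k η η' ∈ X.P.act (X.H m) (X.K m i k) := ⟨⟨η, τ, η', tri, rfl⟩, ok⟩

theorem pbp_low (h : X.Sit) (ha : Adm X.P.W X.P.s1 (sd X.ρ) m i k) (tri : pbp_T X m i k η τ η')
    (ok : CellOK S X.D (X.H m) (X.K m i k) (pbp_C X m i k η η')) :
    Tr S X.D (X.K m i k) η τ η' ∧ Low X.D (X.H m) (X.K m i k) (η, η') ∧
      tm (η, η') ⊆ tm X.I := by
  have hs : 0 < (X.K m i k).s := scl_pos h.ball.good.s1 m
  obtain ⟨r, e1, -, e3⟩ := tr_of hs tri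
  have a1 := e1.2.1
  have a2 := e1.2.2.1
  have a3 := e3.2.2.1
  refine ⟨r, low_of hs (r.lt1.trans r.lt2) (h.nd.H_lip _ _ _) (fun t ht hl => ?_) ok.e12,
    fun θ hθ => ⟨a1.trans hθ.1, hθ.2.trans a3.le⟩⟩
  exact h.nd.H_link m (link_gap S hl) (ha.1 ht) ⟨a1, a2.le⟩ ⟨Nat.lt_succ_of_lt a1, a2⟩

theorem pbp_wall (h : X.Sit) (he : ∀ p ∈ X.P.Bl X.hb, X.H X.n p.1 p.2 = X.P.H0 p.1 p.2) :
    X.PD X.d X.I X.P.H0 := by
  have g := h.ball.good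
  obtain ⟨n1, n2, n3, -⟩ := h.num
  refine ⟨Subset.rfl, fun p hp => ⟨(h.bl hp).2.2.1, he p (h.bl hp).2.1⟩, g.lip,
    fun θ θ' t _ _ h3 => ?_, fun θ θ' t hl h1 h2 ht => g.cons θ θ' t hl (h.band (by linarith)) h1 h2,
    fun θ _ t _ => (min_le_right _ _).trans (HP.Hs_mono g.s1 (Nat.zero_le _) θ t),
    fun a t ha hp ht => ?_⟩
  · exact div_le_div_of_nonneg_right (Qb.g0_mono h3) (by norm_num)
  · have a1 := (h.nd.mates X.ρ).2 a ⟨ha, t, hp, h.band (by linarith)⟩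
    simp only [Enc] at a1
    simp only [tm, mem_Ioc]
    omega

theorem pbp_side (h : X.Sit) (hb : X.P.Beta (sd X.ρ) X.hb X.Xs X.n m i k)
    (tri : pbp_T X m i k η τ η') (ok : CellOK S X.D (X.H m) (X.K m i k) (pbp_C X m i k η η'))
    (hT : X.hb.TB ⊆ tm (η, η')) :
    ∃ dir : Bool, ∀ p ∈ X.P.Bl X.hb, p.1 ∈ tm (if dir then (η, τ) else (τ, η')) := by
  obtain ⟨r, l, -⟩ := pbp_low h hb.adm tri ok
  have hH : ∀ θ t, 0 ≤ X.H m θ t := fun θ t => (h.nd.H_nonneg _ _ _ _ _).1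
  have hu : 0 < X.hb.u := h.ball.u0
  have key : ∀ d, SB.E S X.D (X.H m) (X.K m i k) (η, η') d X.hb.x.1 X.hb.x.2 ≤
      (X.K m i k).a + 2 * (X.K m i k).s - 100 * X.hb.u → ∀ p ∈ X.P.Bl X.hb,
      SB.E S X.D (X.H m) (X.K m i k) (η, η') d p.1 p.2 ≠ (X.K m i k).a + 2 * (X.K m i k).s := by
    intro d hd p hp
    have := HP.Bl_var (P := X.P) (f := SB.E S X.D (X.H m) (X.K m i k) (η, η') d) (k := 1 / 16)
      (by norm_num) (fun θ t t' => envT_lip (m := 0) (by norm_num) (fun p _ _ => hH _ _) t t')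
      (fun θ θ' t hl h1 h2 _ ht => E_link hH hl (Cone.I0_sub _ r.pos.le (hb.ins
        ⟨by linarith [(abs_le.1 ht).1], by linarith [(abs_le.1 ht).2]⟩)) (hT h1) (hT h2) d) hp
    exact ne_of_lt (by linarith [(abs_le.1 this).2])
  have e1 : cellE S X.D (X.H m) (X.K m i k) (η, η') X.hb.x.1 X.hb.x.2 ≤ _ :=
    HP.le_Emax (pbp_mk tri ok) hT X.hb.x.1 X.hb.x.2
  have e2 : X.P.vc (sd X.ρ) X.hb X.n = _ := hb.eq _ h.ball.x_mem
  have e3 := hb.below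
  have e4 : xim X.P.s1 (sd X.ρ) m ≤ 2 * (X.K m i k).s := (xim_mem h.ball.good.s1 _ m).2
  have e5 := (X.K m i k).G_le X.hb.x.2
  have e6 : cellE S X.D (X.H m) (X.K m i k) (η, η') X.hb.x.1 X.hb.x.2 ≤
      (X.K m i k).a + 2 * (X.K m i k).s - 100 * X.hb.u := by linarith
  rcases min_le_iff.1 e6 with h1 | h1
  · refine ⟨true, fun p hp => ⟨(hT (h.ball.time hp)).1, ?_⟩⟩
    by_contra hc
    exact key true h1 p hp ((r.cap hH l).1 (not_le.1 hc).le)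
  · refine ⟨false, fun p hp => ⟨?_, (hT (h.ball.time hp)).2⟩⟩
    by_contra hc
    exact key false h1 p hp ((r.cap hH l).2.1 ((not_lt.1 hc).trans (Nat.le_succ τ)))

theorem pbp_mono {D : Lk} {H : ℕ → ℝ → ℝ} {κ : Cone} (r : Tr S D κ η τ η')
    (hH : ∀ θ t, 0 ≤ H θ t) (l : Low D H κ (η, η')) {dir : Bool} {θ θ' : ℕ}
    (h1 : θ ∈ tm (if dir then (η, τ) else (τ, η'))) (h2 : θ' ∈ tm (if dir then (η, τ) else (τ, η')))
    (h3 : θ' ∈ tgt dir θ) (t : ℝ) : cellE S D H κ (η, η') θ t ≤ cellE S D H κ (η, η') θ' t := by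
  unfold cellE
  cases dir
  · rw [(r.cap hH l).1 (le_of_lt h1.1), (r.cap hH l).1 (le_of_lt h2.1)]
    exact min_le_min le_rfl (E_mono hH h3).2
  · rw [(r.cap hH l).2.1 (Nat.le_succ_of_le h1.2), (r.cap hH l).2.1 (Nat.le_succ_of_le h2.2)]
    exact min_le_min (E_mono hH h3).1 le_rfl

theorem pbp_cell (h : X.Sit) (hb : X.P.Beta (sd X.ρ) X.hb X.Xs X.n m i k)
    (tri : pbp_T X m i k η τ η') (ok : CellOK S X.D (X.H m) (X.K m i k) (pbp_C X m i k η η'))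
    (hT : X.hb.TB ⊆ tm (η, η'))
    (hmax : ∀ c ∈ X.P.act (X.H m) (X.K m i k), X.hb.TB ⊆ tm c.1 → c.1.1 ≤ η) {dir : Bool}
    (hd : ∀ p ∈ X.P.Bl X.hb, p.1 ∈ tm (if dir then (η, τ) else (τ, η'))) :
    X.PD dir (if dir then (η, τ) else (τ, η')) fun θ t =>
      X.P.Emax (X.H m) (X.K m i k) X.hb.TB θ t - xim X.P.s1 (sd X.ρ) m := by
  obtain ⟨r, l, hI⟩ := pbp_low h hb.adm tri ok
  have hH : ∀ θ t, 0 ≤ X.H m θ t := fun θ t => (h.nd.H_nonneg _ _ _ _ _).1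
  obtain ⟨n1, n2, n3, -⟩ := h.num
  have s1 := h.ball.good.s1
  have hsub : tm (if dir then (η, τ) else (τ, η')) ⊆ tm (η, η') := by
    cases dir
    · exact fun θ hθ => ⟨r.lt1.trans hθ.1, hθ.2⟩
    · exact fun θ hθ => ⟨hθ.1, le_trans hθ.2 r.lt2.le⟩
  have hn : ∀ c ∈ X.P.act (X.H m) (X.K m i k), X.hb.TB ⊆ tm c.1 → tm (η, η') ⊆ tm c.1 ∧
      (c = pbp_C X m i k η η' ∨ ∀ θ ∈ tm (η, η'), ∀ θ' ∈ tm (η, η'), ∀ t, c.2 θ t = c.2 θ' t) := by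
    intro c hc hcT
    have hle := hmax c hc hcT
    obtain ⟨η₂, τ₂, η₂', tri₂, rfl⟩ := pbp_act hc
    rcases nest hH tri tri₂ r (pbp_low h hb.adm tri₂ hc.2).2.1 (hT h.ball.xT) (hcT h.ball.xT) hle
      with e | ⟨e1, e2⟩
    · obtain ⟨rfl, rfl⟩ := Prod.mk.inj e
      exact ⟨Subset.rfl, Or.inl rfl⟩
    · exact ⟨fun θ hθ => ⟨lt_of_le_of_lt hle hθ.1, le_trans hθ.2 e1⟩, Or.inr e2⟩
  have hle : ∀ θ θ' t, (∀ c ∈ X.P.act (X.H m) (X.K m i k), X.hb.TB ⊆ tm c.1 →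
      c.2 θ t ≤ c.2 θ' t) → X.P.Emax (X.H m) (X.K m i k) X.hb.TB θ t ≤
        X.P.Emax (X.H m) (X.K m i k) X.hb.TB θ' t := fun θ θ' t hc =>
    HP.Emax_le hb.cell fun c h1 h2 => (hc c h1 h2).trans (HP.le_Emax h1 h2 θ' t)
  have h0 : ∀ t, |t - X.vx| ≤ 61 * X.u → t ∈ (X.K m i k).I0 := fun t ht => hb.ins
    ⟨show X.vx - 100 * (X.A * X.c.r) ≤ t by linarith [(abs_le.1 ht).1],
      show t ≤ X.vx + 100 * (X.A * X.c.r) by linarith [(abs_le.1 ht).2]⟩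
  have hp : ∀ t, |t - X.vx| ≤ 61 * X.u → t ∈ (X.K m i k).Ip := fun t ht =>
    Cone.I0_sub _ r.pos.le (h0 t ht)
  refine ⟨hsub.trans hI, fun p hp => ⟨hd p (h.bl hp).2.1, hb.eq p (h.bl hp).2.1⟩,
    fun θ t t' => ?_, fun θ θ' t h1 h2 h3 => sub_le_sub_right (hle θ θ' t fun c c1 c2 => ?_) _,
    fun θ θ' t hl h1 h2 ht => ?_, fun θ h1 t ht => ?_, fun a t ha hP ht => ?_⟩
  · rw [sub_sub_sub_cancel_right]
    exact HP.Emax_lip hb.cell θ t t'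
  · rcases (hn c c1 c2).2 with rfl | e
    · exact pbp_mono r hH l h1 h2 h3 t
    · exact (e θ (hsub h1) θ' (hsub h2) t).le
  · have key : ∀ c ∈ X.P.act (X.H m) (X.K m i k), X.hb.TB ⊆ tm c.1 → c.2 θ t = c.2 θ' t :=
      fun c c1 c2 => c1.2.cons θ θ' t hl (hp t ht) ((hn c c1 c2).1 (hsub h1))
        ((hn c c1 c2).1 (hsub h2))
    rw [le_antisymm (hle θ θ' t fun c c1 c2 => (key c c1 c2).le)
      (hle θ' θ t fun c c1 c2 => (key c c1 c2).ge)]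
  · rcases le_or_gt X.mx (X.H X.n θ t) with h2 | h2
    · exact (min_le_left _ _).trans h2
    refine (min_le_right _ _).trans (sub_le_iff_le_add.2 (HP.Emax_le hb.cell fun c c1 c2 => ?_))
    have e1 := HP.term_le_raise s1 hb.adm c1 ((hn c c1 c2).1 (hsub h1)) (h0 t ht)
    rw [← HP.Hs_succ] at e1
    have e2 := e1.trans (HP.Hs_mono (hs := sd X.ρ) s1 (Nat.succ_le_of_lt hb.lt) θ t)
    have e3 : X.mx + 100 * (X.A * X.c.r) ≤ (X.K m i k).G X.vx := hb.below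
    have e4 := (abs_le.1 (((X.K m i k).G_lip t X.vx).trans ht)).1
    rcases min_le_iff.1 e2 with e5 | e5
    · exact absurd (e5.trans_lt h2) (not_lt.2 (by linarith))
    · exact sub_le_iff_le_add.1 e5
  · have := r.arc ⟨ha, t, hP, hp t ht⟩
    cases dir
    · exact this.2
    · exact this.1

theorem Dat.Sit.piece (h : X.Sit) : ∃ dir Im mu, X.PD dir Im mu ∧
    (Im = X.I ∨ ∃ m i k η τ η', X.CD dir Im m i k η τ η') := by
  rcases h.mid.1.org with he | ⟨m, i, k, hb⟩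
  · exact ⟨_, _, _, pbp_wall h he, Or.inl rfl⟩
  obtain ⟨n, ⟨c, hc, hT, rfl⟩, hmax⟩ := Set.exists_max_image
    {n | ∃ c ∈ X.P.act (X.H m) (X.K m i k), X.hb.TB ⊆ tm c.1 ∧ c.1.1 = n} id
    ((Set.finite_lt_nat X.hb.x.1).subset (by
      rintro n ⟨c, -, hT, rfl⟩
      exact (hT h.ball.xT).1))
    (by
      obtain ⟨c, h1, h2⟩ := hb.cell
      exact ⟨_, c, h1, h2, rfl⟩)
  obtain ⟨η, τ, η', tri, rfl⟩ := pbp_act hc
  obtain ⟨dir, hd⟩ := pbp_side h hb tri hc.2 hT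
  have pd := pbp_cell h hb tri hc.2 hT (fun c c1 c2 => hmax _ ⟨c, c1, c2, rfl⟩) hd
  exact ⟨dir, _, _, pd, Or.inr ⟨m, i, k, η, τ, η', hb, tri, hc.2, rfl, (pd.ball _ h.x_mem.1).1,
    (pd.ball _ h.x_mem.2.1).1⟩⟩

end Vale.Agent.P235.Pl.Pb
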