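import Vale.Agent.P235P.PBCell
import Vale.Agent.P235P.PBLift
import Vale.Agent.P235P.HBall
import Vale.Agent.P235P.HRep
import Vale.Agent.P235P.QBTop
import Vale.Agent.P235P.NB2

/-! P235 planar case, birth in system B: the setting. -/

open Set Classical

noncomputable section

namespace Vale.Agent.P235.Pl.Pb

variable {S : Sk} {π : Par}

/-- The diagram with the additional links. -/
abbrev DP (s : St) (ρ : Rnd S π) : Lk := (sysB S π).Dp s ρ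

/-- The healing problem of the side `d`. -/
abbrev PP (s : St) (ρ : Rnd S π) (I : ℕ × ℕ) (d : Bool) : HP :=
  SB.hp S π s (DP s ρ) I (del s ρ) d

/-- The healing seeds. -/
abbrev sd (ρ : Rnd S π) : HS π := ρ.2.2.1.2.2

/-- The function of the side `d` after the scales with index `< j`. -/
abbrev HH (s : St) (ρ : Rnd S π) (I : ℕ × ℕ) (d : Bool) (j : ℕ) : ℕ → ℝ → ℝ :=
  (PP s ρ I d).Hs (sd ρ) j

/-- The cones of the side `d`. -/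
abbrev KK (s : St) (ρ : Rnd S π) (I : ℕ × ℕ) (d : Bool) (m : Fin π.nS) (i k : ℤ) : Cone :=
  cone (PP s ρ I d).s1 (sd ρ) m i k

/-- The hull of the side `d`. -/
abbrev GG (s : St) (ρ : Rnd S π) (I : ℕ × ℕ) (d : Bool) : ℕ → ℝ → ℝ :=
  SB.g0 S (DP s ρ) s.W s.w I d

/-- The operation defined by the function `H`. -/
def PsiD (s : St) (ρ : Rnd S π) (H : ℕ → ℝ → ℝ) (θ : ℕ) (t : ℝ) : ℝ :=
  t + sg ρ * max 0 (min (trap s ρ t) (H θ t - xi0 s ρ))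

/-- The values that lead to the image of a kink. -/
def XR (s : St) (v z ξ : ℝ) (κ : Cone) : Finset ℝ :=
  {v + ξ - (s.hi - z - 2 * min (s.w / 20) (κ.a - ξ)),
    s.lo + z + 2 * min (s.w / 20) (κ.a - ξ) - v + ξ}

/-- A kick node. -/
structure Nd (N : NodeC (sysB S π)) (s : St) (I : ℕ × ℕ) : Prop where
  ni : N.NI s
  nb : NB.NI S s
  kick : s.kick = some I
  m0 : 200 ≤ π.m0

/-- The data of a birth. -/
structure Dat (S : Sk) (π : Par) where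
  N : NodeC (sysB S π)
  c : Ctx S
  s : St
  ρ : Rnd S π
  V : ℕ → ℝ → ℝ
  A : ℝ
  b : ℝ
  I : ℕ × ℕ
  d : Bool
  n : Fin π.nS

namespace Dat
variable (X : Dat S π)

abbrev D : Lk := DP X.s X.ρ
abbrev P : HP := PP X.s X.ρ X.I X.d
abbrev H (j : ℕ) : ℕ → ℝ → ℝ := HH X.s X.ρ X.I X.d j
abbrev K (m : Fin π.nS) (i k : ℤ) : Cone := KK X.s X.ρ X.I X.d m i k
abbrev hb : Pl.HB := X.c.hb X.V X.A X.I X.n
abbrev Xs : Cone → Finset ℝ := XR X.s (X.c.vx X.V) (zz X.s X.ρ) (xi0 X.s X.ρ)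
/-- the matched scale -/
abbrev u : ℝ := X.A * X.c.rs
abbrev vx : ℝ := X.c.vx X.V
/-- the value at the centre before the matched scale -/
abbrev mx : ℝ := X.H X.n X.c.x.1 X.vx
abbrev B : Set (ℕ × ℝ) := HB X.c X.D X.s.W X.A X.b
abbrev Psi : ℕ → ℝ → ℝ := (sysB S π).Psi X.s X.ρ
abbrev mid : St := (sysB S π).mid X.s X.ρ
abbrev Vn : ℕ → ℝ → ℝ := (sysB S π).Vn X.s X.ρ X.V

/-- The situation at a birth. -/
structure Sit : Prop where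
  nd : Nd X.N X.s X.I
  rep : X.c.Rep X.s X.V X.A 8
  win : X.c.Win X.s X.V X.A
  aff : ∀ p ∈ X.c.ball 8, X.V p.1 p.2 = X.A * p.2 + X.b ∧ (X.s.lab p.1 (X.V p.1 p.2)).1 = X.A ∧
    X.A * X.c.rs ≤ (X.s.lab p.1 (X.V p.1 p.2)).2
  shal : Shal (sysB S π) X.c X.s X.ρ X.V X.A 8
  ball : X.P.Ball π X.hb X.s.w
  scl : scl π X.P.s1 X.n = X.u
  mid : X.P.Mid (sd X.ρ) X.hb X.Xs (xi0 X.s X.ρ) (trap X.s X.ρ X.vx) X.n
  thick : X.c.thick X.V X.A ⊆ X.P.Bl X.hb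
  lift : Lift X.c X.D X.A X.b

/-- The data of a piece. -/
structure PD (dir : Bool) (Im : ℕ × ℕ) (mu : ℕ → ℝ → ℝ) : Prop where
  sub : tm Im ⊆ tm X.I
  ball : ∀ p ∈ X.B, p.1 ∈ tm Im ∧ X.H X.n p.1 p.2 = mu p.1 p.2
  lip : ∀ θ t t', |mu θ t - mu θ t'| ≤ |t - t'| / 16
  mono : ∀ θ θ' t, θ ∈ tm Im → θ' ∈ tm Im → θ' ∈ tgt dir θ → mu θ t ≤ mu θ' t
  cons : ∀ θ θ' t, Link S X.D θ θ' t → θ ∈ tm Im → θ' ∈ tm Im → |t - X.vx| ≤ 61 * X.u →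
    mu θ t = mu θ' t
  low : ∀ θ ∈ tm Im, ∀ t, |t - X.vx| ≤ 61 * X.u → min X.mx (mu θ t) ≤ X.H X.n θ t
  arcs : ∀ a t, a < S.mate a → t ∈ X.D.P a → |t - X.vx| ≤ 61 * X.u →
    (a ∈ tm Im ↔ S.mate a ∈ tm Im)

/-- The cell of a piece. -/
structure CD (dir : Bool) (Im : ℕ × ℕ) (m : Fin π.nS) (i k : ℤ) (η τ η' : ℕ) : Prop where
  beta : X.P.Beta (sd X.ρ) X.hb X.Xs X.n m i k
  tri : SB.Triple S X.D (X.K m i k).Ip
    (SB.Fp S X.s X.D X.I (del X.s X.ρ) (X.H m) (X.K m i k)) η τ η'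
  ok : CellOK S X.D (X.H m) (X.K m i k) ((η, η'), cellE S X.D (X.H m) (X.K m i k) (η, η'))
  im : Im = if dir then (η, τ) else (τ, η')
  xin : X.c.x.1 ∈ tm Im
  yin : X.c.y.1 ∈ tm Im

/-- A column of the ball. -/
def Col (θ : ℕ) : Prop := ∀ t, |t - X.vx| ≤ 45 * X.u → (θ, t) ∈ X.B

/-- A flat time. -/
def Flat (Im : ℕ × ℕ) (mu : ℕ → ℝ → ℝ) (θ : ℕ) : Prop :=
  θ ∈ tm Im ∧ |mu θ X.vx - X.mx| ≤ 8 * X.u

end Dat

end Vale.Agent.P235.Pl.Pb
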