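import Vale.Agent.P235P.PBBas

/-! P235 planar case, birth in system B: arcs over the terminal. -/

open Set Classical

noncomputable section

namespace Vale.Agent.P235.Pl.Pb

variable {S : Sk} {π : Par} {X : Dat S π} {dir : Bool} {Im : ℕ × ℕ} {m : Fin π.nS} {i k : ℤ}
  {η τ η' θ : ℕ} {t : ℝ}

namespace Dat

theorem pbt_s (h : X.Sit) : 0 < (X.K m i k).s := scl_pos h.ball.good.s1 m

theorem pbt_tr (h : X.Sit) (hc : X.CD dir Im m i k η τ η') : Tr S X.D (X.K m i k) η τ η' :=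
  (tr_of (pbt_s h) hc.tri).1

theorem pbt_im (h : X.Sit) (hc : X.CD dir Im m i k η τ η') (hθ : θ ∈ tm Im) :
    θ ∈ tm (η, η') := by
  have h1 := (pbt_tr h hc).lt1
  have h2 := (pbt_tr h hc).lt2
  rw [hc.im] at hθ
  cases dir <;> simp only [tm, mem_Ioc, if_true, Bool.false_eq_true, if_false] at hθ ⊢ <;> omega

theorem pbt_in (h : X.Sit) (hc : X.CD dir Im m i k η τ η') (h1 : η ≤ θ) (h2 : θ ≤ η') :
    θ ∈ tm X.I := by
  obtain ⟨-, e1, -, e2⟩ := tr_of (pbt_s h) hc.tri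
  exact ⟨e1.2.1.trans_le h1, h2.trans e2.2.2.1.le⟩

theorem pbt_clip {T v v' : ℝ} (h : v ≤ v') : max 0 (min T v) ≤ max 0 (min T v') :=
  max_le_max le_rfl (min_le_min le_rfl h)

theorem CD.num (h : X.Sit) (hc : X.CD dir Im m i k η τ η') :
    2 ^ 100 * (X.A * X.c.r) ≤ (X.K m i k).s ∧ 2 ^ 20 * (X.K m i k).s ≤ X.s.w ∧
      (X.K m i k).Ip ⊆ X.s.W ∧ X.vx ∈ (X.K m i k).I0 ∧
      X.mx + 100 * (X.A * X.c.r) ≤ (X.K m i k).G X.vx ∧
      (X.K m i k).G X.vx - 24 * (X.K m i k).s ≤ X.mx := by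
  have hU : 0 < X.A * X.c.r := h.ball.u0
  have hI : X.vx ∈ (X.K m i k).I0 := hc.beta.ins ⟨sub_le_self _ (by positivity),
    le_add_of_nonneg_right (by positivity)⟩
  refine ⟨h.ball.u_le hc.beta.lt, h.ball.scl_le m, hc.beta.adm.1, hI, hc.beta.below, ?_⟩
  have h1 := hc.ok.e12.1 _ (pbt_im h hc hc.xin) _ hI
  have h2 : X.H m X.c.x.1 X.vx ≤ X.mx := HP.Hs_mono h.ball.good.s1 hc.beta.lt.le _ _
  linarith

/-- The times of the cell lie in the zone of the side. -/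
theorem CD.zone (h : X.Sit) (hc : X.CD dir Im m i k η τ η') (hθ : θ ∈ tm (η, η')) :
    θ ∈ SB.Zd S X.s X.I X.d := by
  obtain ⟨-, e1, -, e2⟩ := tr_of (pbt_s h) hc.tri
  obtain ⟨-, n2, -, n4, -, n6⟩ := hc.num h
  have hs : 0 < (X.K m i k).s := pbt_s h
  have hw := h.nd.nb.w0
  obtain ⟨-, u0, u1, -⟩ := h.num
  have a1 := (X.K m i k).le_G hs.le n4
  have a2 := h.mid'.2
  have a3 : trap X.s X.ρ X.vx ≤ X.s.w / 20 := h_trap_le hw _
  have a4 := (h_xi0_mem (ρ := X.ρ) hw).2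
  have key : ∀ e, e ∈ tgt X.d θ → X.H m e (X.K m i k).t ≤ (X.K m i k).a - (X.K m i k).s →
      θ ∈ SB.Zd S X.s X.I X.d := by
    intro e he hH
    refine h.nd.zone (ρ := X.ρ) (t := (X.K m i k).t) (pbt_in h hc hθ.1.le hθ.2) ?_
    have b1 := (h.nd.H_nonneg X.ρ X.d m e (X.K m i k).t).2
    have b2 : GG X.s X.ρ X.I X.d θ (X.K m i k).t ≤ GG X.s X.ρ X.I X.d e (X.K m i k).t :=
      Qb.g0_mono he
    have b3 : X.H m e (X.K m i k).t = HH X.s X.ρ X.I X.d m e (X.K m i k).t := rfl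
    norm_num at n2 u1
    linarith
  have hz : |(X.K m i k).t - (X.K m i k).t| ≤ 28 * (X.K m i k).s := by
    rw [sub_self, abs_zero]
    positivity
  cases hd : X.d
  · rw [← hd]
    exact key (η + 1) (by rw [hd]; exact hθ.1)
      (e1.2.2.2.2.2 (η + 1, (X.K m i k).t) (Or.inr (Or.inr rfl)) hz)
  · rw [← hd]
    exact key η' (by rw [hd]; exact hθ.2)
      (e2.2.2.2.2.2 (η', (X.K m i k).t) (Or.inr (Or.inl rfl)) hz)

/-- The middle column and the points near its chain reach the cone, and are done in the core. -/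
theorem CD.top (h : X.Sit) (hc : X.CD dir Im m i k η τ η') (ht : t ∈ (X.K m i k).I0)
    (hθ : θ = τ ∨ Near S X.D (X.K m i k).Ip (chain X.D (X.K m i k).Ip τ) (X.K m i k).s (θ, t)) :
    θ ∈ tm (η, η') ∧ (X.K m i k).G t ≤ X.H π.nS θ t ∧
      (|t - (X.K m i k).t| ≤ 28 * (X.K m i k).s →
        X.P.Done (sd X.ρ) θ t m i k ∧ X.H π.nS θ t = (X.K m i k).a) := by
  obtain ⟨tr, -, e2, -⟩ := tr_of (pbt_s h) hc.tri
  have hs : 0 < (X.K m i k).s := pbt_s h
  have s1 := h.ball.good.s1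
  have hlt := tr.lt1.trans tr.lt2
  have hl : Low X.D (X.H m) (X.K m i k) (η, η') :=
    low_of hs hlt (h.nd.H_lip X.ρ X.d m) (fun t ht hL => h.nd.H_link m (link_gap S hL)
      (hc.beta.adm.1 ht) (pbt_in h hc le_rfl hlt.le) (pbt_in h hc (Nat.le_succ _) hlt)) hc.ok.e12
  have cap := tr.cap (θ := θ) (t := t) (fun θ t => (h.nd.H_nonneg X.ρ X.d m θ t).1) hl
  have h1 : θ ∈ tm (η, η') := by
    rcases hθ with rfl | hθ
    · exact ⟨tr.lt1, tr.lt2.le⟩
    · exact tr.near_in (hθ.mono_R (by linarith))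
  have h2 : cellE S X.D (X.H m) (X.K m i k) (η, η') θ t = (X.K m i k).a + 2 * (X.K m i k).s := by
    rcases hθ with rfl | hθ
    · rw [cellE, cap.1 le_rfl, cap.2.1 (Nat.le_succ _), min_self]
    · exact cap.2.2 (hθ.mono_R (by linarith))
  have hact : ((η, η'), cellE S X.D (X.H m) (X.K m i k) (η, η')) ∈
      X.P.act (X.H m) (X.K m i k) := ⟨⟨η, τ, η', hc.tri, rfl⟩, hc.ok⟩
  have h3 : (X.K m i k).G t ≤
      cellE S X.D (X.H m) (X.K m i k) (η, η') θ t - xim X.P.s1 (sd X.ρ) m := by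
    have b1 : xim X.P.s1 (sd X.ρ) m ≤ 2 * (X.K m i k).s := (xim_mem s1 (sd X.ρ) m).2
    have b2 := (X.K m i k).G_le t
    rw [h2]
    linarith
  refine ⟨h1, ?_, fun hcore => ?_⟩
  · have b1 := HP.term_le_raise s1 hc.beta.adm hact h1 ht
    rw [← HP.Hs_succ] at b1
    exact ((le_min le_rfl h3).trans b1).trans (HP.Hs_mono s1 m.2 _ _)
  · have b1 := (X.K m i k).G_core hcore
    have b2 : X.H m θ t ≤ (X.K m i k).a - (X.K m i k).s :=
      e2.2.2.2.2.2 (θ, t) (hθ.elim (fun e => Or.inr (Or.inl e)) Or.inl) hcore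
    have hd : X.P.Done (sd X.ρ) θ t m i k :=
      HP.done_of_cell s1 hc.beta.adm hact h1 ht (b2.trans_lt (by rw [← b1]; linarith)) h3
    exact ⟨hd, (HP.done_final s1 hd m.2).trans b1⟩

theorem CD.term_arc (h : X.Sit) (hc : X.CD dir Im m i k η τ η')
    (hσ : sg X.ρ = if X.vx ≤ (X.K m i k).t then -1 else 1) {a : ℕ} (ha : Enc S a τ)
    (ht : t ∈ X.mid.D.P a) (hW : t ∈ X.mid.W) : X.c.Both a ∨ X.c.Off X.Vn X.A t := by
  obtain ⟨t₀, hp, rfl⟩ := ht
  have tr := pbt_tr h hc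
  have hs : 0 < (X.K m i k).s := pbt_s h
  have s1 := h.ball.good.s1
  have hW0 : t₀ ∈ X.s.W := h.nd.mem_W hW
  have hlt : a < S.mate a := ha.1.trans_lt ha.2
  have hτ : τ ∈ tm (η, η') := ⟨tr.lt1, tr.lt2.le⟩
  have hx := pbt_im h hc hc.xin
  have hy := pbt_im h hc hc.yin
  by_cases hB : X.c.Both a
  · exact Or.inl hB
  right
  rcases h.nd.arc hlt hp hW0 (pbt_in h hc hτ.1.le hτ.2) ha.1 ha.2.le with ⟨i1, i2⟩ | ⟨o1, o2, -⟩
  swap
  · have b1 := pbt_in h hc hx.1.le hx.2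
    have b2 := pbt_in h hc hy.1.le hy.2
    exact absurd ⟨o1.trans b1.1.le, b1.2.trans o2.le, o1.trans b2.1.le, b2.2.trans o2.le⟩ hB
  have hend : a ∈ tm (η, τ) ∨ S.mate a ∈ tm (τ, η') := by
    have := ha.1
    have := ha.2
    simp only [Ctx.Both, tm, mem_Ioc] at hB hx hy ⊢
    omega
  have hout : t₀ ∉ (X.K m i k).Ip := by
    intro hI
    have b := tr.arc (a := a) ⟨hlt, t₀, hp, hI⟩
    rcases hend with e | e
    · exact absurd (b.1.1 e).2 (not_le.2 ha.2)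
    · exact absurd (b.2.2 e).1 (not_lt.2 ha.1)
  obtain ⟨e, he, hea⟩ : ∃ e ∈ tm (η, η'), X.H π.nS e t₀ = X.H π.nS a t₀ := by
    rcases hend with e | e
    · exact ⟨a, ⟨e.1, e.2.trans tr.lt2.le⟩, rfl⟩
    · exact ⟨S.mate a, ⟨tr.lt1.trans e.1, e.2⟩,
        (h.nd.H_link π.nS (link_arc hlt hp) hW0 i1 i2).symm⟩
  have hg := (h.nd.star hlt i1 i2 hp hW0 ha.1 ha.2.le (!X.d) 0).1
  have hst : X.H π.nS a t₀ ≤ X.H π.nS τ t₀ :=
    (h.nd.star hlt i1 i2 hp hW0 ha.1 ha.2.le X.d π.nS).2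
  have ho := h.nd.other (hc.zone h hτ) X.ρ t₀
  have hw := h.nd.nb.w0
  have hpsi := h.nd.psi (ρ := X.ρ) (d := X.d) (t := t₀) i1 (by linarith)
  obtain ⟨n1, -, -, n4, n5, n6⟩ := hc.num h
  obtain ⟨-, u0, u1, -⟩ := h.num
  obtain ⟨m1, m2⟩ := h.mid'
  obtain ⟨f1, f2⟩ := h.fin X.c.x.1 X.vx
  have hvx := h.vx_new
  have mon : ∀ θ, Monotone (PsiD X.s X.ρ (X.H π.nS) θ) := fun θ =>
    psiD_mono (h.nd.H_lip X.ρ X.d π.nS θ)
  have monG : Monotone (PsiD X.s X.ρ (fun _ => (X.K m i k).G) 0) := psiD_mono (X.K m i k).G_lip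
  have up : ∀ v, X.H m e v ≤ X.H π.nS e v := fun v => HP.Hs_mono s1 m.2.le e v
  have e2 := hc.ok.e12.2 e he
  have hGa := (X.K m i k).G_le X.vx
  have c1 : X.mx - xi0 X.s X.ρ + 100 * (X.A * X.c.r) ≤
      max 0 (min (trap X.s X.ρ X.vx) ((X.K m i k).G X.vx - xi0 X.s X.ρ)) :=
    le_max_of_le_right (le_min (by linarith) (by linarith))
  have c2 : ∀ v, |v - (X.K m i k).t| ≤ 28 * (X.K m i k).s →
      max 0 (min (trap X.s X.ρ v) (X.H π.nS τ v - xi0 X.s X.ρ)) ≤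
        (X.K m i k).a - xi0 X.s X.ρ := by
    intro v hv
    have b := abs_le.1 hv
    rw [((hc.top h (t := v) ⟨by linarith [b.1], by linarith [b.2]⟩ (Or.inl rfl)).2.2 hv).2]
    exact max_le (by linarith) (min_le_right _ _)
  have c3 : (X.K m i k).a - |X.vx - (X.K m i k).t| ≤ (X.K m i k).G X.vx :=
    sub_le_sub_left (max_le (abs_nonneg _) (by linarith)) _
  have c4 := pbt_clip (T := trap X.s X.ρ t₀) (sub_le_sub_right hst (xi0 X.s X.ρ))
  have hmx : X.mx = X.H X.n X.c.x.1 X.vx := rfl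
  have hu : X.u = X.A * X.c.rs := rfl
  have hout' : t₀ < (X.K m i k).t - 60 * (X.K m i k).s ∨
      (X.K m i k).t + 60 * (X.K m i k).s < t₀ := by
    simpa only [Cone.Ip, mem_Icc, not_and_or, not_le] using hout
  norm_num at n1 u1
  change X.A * X.c.rs ≤ |(sysB S π).Psi X.s X.ρ a t₀ - X.c.vx X.Vn|
  rw [hpsi, hvx, le_abs]
  split_ifs at hσ with hv
  · rw [abs_of_nonpos (sub_nonpos.2 hv)] at c3
    rcases hout' with o | o
    · right
      have d1 := mon e (show t₀ ≤ (X.K m i k).t - 52 * (X.K m i k).s by linarith)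
      have d2 := monG n4.1
      have d3 := pbt_clip (T := trap X.s X.ρ ((X.K m i k).t - 52 * (X.K m i k).s))
        (sub_le_sub_right (e2.1.trans (up _)) (xi0 X.s X.ρ))
      simp only [PsiD, hσ, hea] at d1 d2 ⊢
      linarith
    · left
      have d1 := mon τ (show (X.K m i k).t + 28 * (X.K m i k).s ≤ t₀ by linarith)
      have d2 := c2 ((X.K m i k).t + 28 * (X.K m i k).s)
        (by rw [add_sub_cancel_left, abs_of_pos (by positivity)])
      simp only [PsiD, hσ] at d1 ⊢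
      linarith
  · rw [abs_of_pos (sub_pos.2 (not_le.1 hv))] at c3
    rcases hout' with o | o
    · right
      have d1 := mon τ (show t₀ ≤ (X.K m i k).t - 28 * (X.K m i k).s by linarith)
      have d2 := c2 ((X.K m i k).t - 28 * (X.K m i k).s)
        (by rw [sub_sub_cancel_left, abs_neg, abs_of_pos (by positivity)])
      simp only [PsiD, hσ] at d1 ⊢
      linarith
    · left
      have d1 := mon e (show (X.K m i k).t + 52 * (X.K m i k).s ≤ t₀ by linarith)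
      have d2 := monG n4.2
      have d3 := pbt_clip (T := trap X.s X.ρ ((X.K m i k).t + 52 * (X.K m i k).s))
        (sub_le_sub_right (e2.2.trans (up _)) (xi0 X.s X.ρ))
      simp only [PsiD, hσ, hea] at d1 d2 ⊢
      linarith

end Dat

end Vale.Agent.P235.Pl.Pb
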