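import Vale.Agent.P235P.PBTerm1

/-! P235 planar case, birth in system B: labels near the terminal. -/

open Set Classical

noncomputable section

namespace Vale.Agent.P235.Pl.Pb

variable {S : Sk} {π : Par} {X : Dat S π} {dir : Bool} {Im : ℕ × ℕ} {m : Fin π.nS} {i k : ℤ}
  {η τ η' : ℕ}

theorem pbu_pure {lo hi W kt a s vx y m u r : ℝ} (hu : 0 < u) (hr : 1000 * u ≤ r) (hs : r ≤ s)
    (hv : vx ≤ kt) (hI : kt - 52 * s ≤ vx) (g1 : m + 100 * r ≤ a - max 0 (|vx - kt| - 28 * s))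
    (g2 : a - max 0 (|vx - kt| - 28 * s) - 24 * s ≤ m) (m1 : 100 * r ≤ m)
    (m2 : m + 27 * u + 100 * r ≤ W) (m3 : m + 27 * u + 100 * r ≤ vx - lo)
    (m4 : m + 27 * u + 100 * r ≤ hi - vx) (y1 : m ≤ y) (y2 : y ≤ m + 27 * u)
    (far : 100 * r ≤ |m - (vx - (hi - 2 * min W a))|) :
    ∃ β b₀ ta tb : ℝ, 1 ≤ β ∧ β * ta + b₀ < vx - y - 2 * (u / 5) ∧
      vx - y + 2 * (u / 5) < β * tb + b₀ ∧ tb - ta ≤ 2 * u ∧ ∀ t ∈ Icc ta tb, |t - kt| ≤ 52 * s ∧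
      ((β = 1 ∧ b₀ = -W ∧ lo + W < t ∧ t < hi - W ∧ W ≤ a - max 0 (|t - kt| - 28 * s)) ∨
        (β = 1 ∧ b₀ = -a ∧ |t - kt| ≤ 28 * s ∧ 0 < a ∧ a < W ∧ a < t - lo ∧ a < hi - t) ∨
        (β = 2 ∧ b₀ = -hi ∧ hi - W < t ∧ t < hi ∧ hi - t ≤ a - max 0 (|t - kt| - 28 * s))) := by
  obtain ⟨gv, e⟩ : ∃ gv, gv = max 0 (|vx - kt| - 28 * s) := ⟨_, rfl⟩
  rw [← e] at g1 g2
  rw [abs_of_nonpos (by linarith)] at e
  have e0 : 0 ≤ gv := e ▸ le_max_left _ _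
  have e1 : -(vx - kt) - 28 * s ≤ gv := e ▸ le_max_right _ _
  have e2 : gv ≤ kt - vx := e ▸ max_le (by linarith) (by linarith)
  have key : ∀ t, vx ≤ t → t ≤ kt + 28 * s → |t - kt| ≤ 52 * s ∧
      ((|t - kt| ≤ 28 * s ∧ max 0 (|t - kt| - 28 * s) = 0) ∨
        (0 ≤ max 0 (|t - kt| - 28 * s) ∧ max 0 (|t - kt| - 28 * s) ≤ gv - (t - vx))) := by
    intro t h1 h2
    refine ⟨abs_le.2 ⟨by linarith, by linarith⟩, ?_⟩
    rcases le_total (kt - 28 * s) t with h3 | h3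
    · have : |t - kt| ≤ 28 * s := abs_le.2 ⟨by linarith, by linarith⟩
      exact .inl ⟨this, max_eq_left (by linarith)⟩
    · rw [abs_of_nonpos (by linarith)]
      exact .inr ⟨le_max_left _ _, max_le (by linarith) (by linarith)⟩
  have hW := min_le_left W a
  have ha := min_le_right W a
  have hl : m + 100 * r ≤ min W a := le_min (by linarith) (by linarith)
  rcases le_abs.1 far with f | f
  · rcases le_or_gt W a with c | c
    · rw [min_eq_left c] at f hl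
      refine ⟨1, -W, vx - y + W - u, vx - y + W + u, le_rfl, by linarith, by linarith,
        by linarith, fun t ht => ?_⟩
      obtain ⟨k1, k2⟩ := key t (by linarith [ht.1]) (by linarith [ht.2])
      refine ⟨k1, .inl ⟨rfl, rfl, by linarith [ht.1], by linarith [ht.2], ?_⟩⟩
      rcases k2 with k | k
      · linarith [k.2]
      · linarith [k.2, ht.1]
    · rw [min_eq_right c.le] at f hl
      refine ⟨1, -a, vx - y + a - u, vx - y + a + u, le_rfl, by linarith, by linarith,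
        by linarith, fun t ht => ?_⟩
      obtain ⟨k1, k2⟩ := key t (by linarith [ht.1]) (by linarith [ht.2])
      refine ⟨k1, .inr (.inl ⟨rfl, rfl, ?_, by linarith, c, by linarith [ht.1],
        by linarith [ht.2]⟩)⟩
      rcases k2 with k | k
      · exact k.1
      · linarith [k.1, k.2, ht.1]
  · refine ⟨2, -hi, (vx - y + hi) / 2 - u / 2, (vx - y + hi) / 2 + u / 2, by norm_num, by linarith,
      by linarith, by linarith, fun t ht => ?_⟩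
    obtain ⟨k1, k2⟩ := key t (by linarith [ht.1]) (by linarith [ht.2])
    refine ⟨k1, .inr (.inr ⟨rfl, rfl, by linarith [ht.1], by linarith [ht.2], ?_⟩)⟩
    rcases k2 with k | k
    · linarith [k.2, ht.1]
    · linarith [k.2, ht.1]

theorem pbu_top {s : St} {ρ : Rnd S π} {t : ℝ} (hw : 0 < s.w)
    (h1 : s.lo + zz s ρ + s.w / 20 < t) (h2 : t < s.hi - zz s ρ - s.w / 20) :
    trap s ρ t = s.w / 20 ∧ trapS s ρ t = 0 := by
  refine ⟨?_, ?_⟩
  · rw [trap, min_eq_left (le_min (by linarith) (by linarith)), max_eq_right (by linarith)]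
  · rw [trapS, if_neg (by linarith), if_neg (by linarith), if_pos h2]

theorem pbu_right {s : St} {ρ : Rnd S π} {t : ℝ} (hw : 0 < s.w) (hh : s.w / 2 ≤ s.hi - s.lo)
    (h1 : s.hi - zz s ρ - s.w / 20 < t) (h2 : t < s.hi - zz s ρ) :
    trap s ρ t = s.hi - zz s ρ - t ∧ trapS s ρ t = -1 := by
  have z := zz_mem ρ hw
  refine ⟨?_, ?_⟩
  · rw [trap, min_eq_right (a := t - s.lo - zz s ρ) (by linarith), min_eq_right (by linarith),
      max_eq_right (by linarith)]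
  · rw [trapS, if_neg (by linarith), if_neg (by linarith), if_neg (by linarith), if_pos h2]

theorem pbu_left {s : St} {ρ : Rnd S π} {t : ℝ} (hw : 0 < s.w) (hh : s.w / 2 ≤ s.hi - s.lo)
    (h1 : s.lo + zz s ρ < t) (h2 : t < s.lo + zz s ρ + s.w / 20) :
    trap s ρ t = t - s.lo - zz s ρ ∧ trapS s ρ t = 1 := by
  have z := zz_mem ρ hw
  refine ⟨?_, ?_⟩
  · rw [trap, min_eq_left (a := t - s.lo - zz s ρ) (by linarith), min_eq_right (by linarith),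
      max_eq_right (by linarith)]
  · rw [trapS, if_neg (by linarith), if_pos h2]

theorem pbu_real (s : St) (ρ : Rnd S π) (κ : Cone) {vx mx H u r : ℝ} (hu : 0 < u)
    (hr : 1000 * u ≤ r) (hs : r ≤ κ.s) (hw : 0 < s.w) (hh : s.w / 2 ≤ s.hi - s.lo)
    (hI : vx ∈ κ.I0) (g1 : mx + 100 * r ≤ κ.G vx) (g2 : κ.G vx - 24 * κ.s ≤ mx)
    (m1 : 100 * r ≤ mx - xi0 s ρ) (m2 : mx - xi0 s ρ + 27 * u + 100 * r ≤ trap s ρ vx)
    (y1 : mx ≤ H) (y2 : H ≤ mx + 27 * u)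
    (far : ∀ v ∈ XR s vx (zz s ρ) (xi0 s ρ) κ, 100 * r ≤ |mx - v|)
    (hσ : sg ρ = if vx ≤ κ.t then -1 else 1) :
    ∃ β b₀ ta tb : ℝ, 1 ≤ β ∧ β * ta + b₀ < vx + sg ρ * (H - xi0 s ρ) - 2 * (u / 5) ∧
      vx + sg ρ * (H - xi0 s ρ) + 2 * (u / 5) < β * tb + b₀ ∧ tb - ta ≤ 2 * u ∧
      ∀ t ∈ Icc ta tb, t ∈ κ.I0 ∧
        ((0 < trap s ρ t ∧ trap s ρ t ≤ κ.G t - xi0 s ρ ∧ 1 + sg ρ * trapS s ρ t = β ∧
          t + sg ρ * trap s ρ t = β * t + b₀) ∨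
        (|t - κ.t| ≤ 28 * κ.s ∧ 0 < κ.a - xi0 s ρ ∧ κ.a - xi0 s ρ < trap s ρ t ∧ β = 1 ∧
          t + sg ρ * (κ.a - xi0 s ρ) = β * t + b₀)) := by
  have m3 : mx - xi0 s ρ + 27 * u + 100 * r ≤
      min (s.w / 20) (min (vx - s.lo - zz s ρ) (s.hi - zz s ρ - vx)) :=
    (le_max_iff.1 m2).resolve_left (by linarith)
  obtain ⟨m4, m5⟩ := le_min_iff.1 m3
  obtain ⟨m5, m6⟩ := le_min_iff.1 m5
  have lt : ∀ t c, c < s.w / 20 → c < t - s.lo - zz s ρ → c < s.hi - zz s ρ - t → c < trap s ρ t :=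
    fun t c a1 a2 a3 => (lt_min a1 (lt_min a2 a3)).trans_le (le_max_right _ _)
  have mI : ∀ t, |t - κ.t| ≤ 52 * κ.s → t ∈ κ.I0 := fun t ht =>
    ⟨by linarith [(abs_le.1 ht).1], by linarith [(abs_le.1 ht).2]⟩
  simp only [Cone.G] at g1 g2 ⊢
  split_ifs at hσ with hv
  · have f := far (vx + xi0 s ρ - (s.hi - zz s ρ - 2 * min (s.w / 20) (κ.a - xi0 s ρ)))
      (Finset.mem_insert_self _ _)
    obtain ⟨β, b₀, ta, tb, b1, b2, b3, b4, b5⟩ := pbu_pure (lo := s.lo + zz s ρ)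
      (hi := s.hi - zz s ρ) (W := s.w / 20) (a := κ.a - xi0 s ρ) (y := H - xi0 s ρ)
      (m := mx - xi0 s ρ) hu hr hs hv hI.1 (by linarith) (by linarith) m1 m4 (by linarith) m6
      (by linarith) (by linarith) (f.trans_eq (congrArg abs (by ring)))
    rw [hσ]
    refine ⟨β, b₀, ta, tb, b1, by linarith, by linarith, b4, fun t ht => ?_⟩
    obtain ⟨c0, c | c | c⟩ := b5 t ht
    · obtain ⟨rfl, rfl, c1, c2, c3⟩ := c
      obtain ⟨d1, d2⟩ := pbu_top hw c1 c2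
      exact ⟨mI t c0, .inl ⟨by linarith, by linarith, by rw [d2]; ring, by linarith⟩⟩
    · obtain ⟨rfl, rfl, c1, c2, c3, c4, c5⟩ := c
      exact ⟨mI t c0, .inr ⟨c1, c2, lt t _ c3 (by linarith) c5, rfl, by linarith⟩⟩
    · obtain ⟨rfl, rfl, c1, c2, c3⟩ := c
      obtain ⟨d1, d2⟩ := pbu_right hw hh c1 c2
      exact ⟨mI t c0, .inl ⟨by linarith, by linarith, by rw [d2]; ring, by linarith⟩⟩
  · have f := far (s.lo + zz s ρ + 2 * min (s.w / 20) (κ.a - xi0 s ρ) - vx + xi0 s ρ)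
      (Finset.mem_insert_of_mem (Finset.mem_singleton_self _))
    have ab : ∀ t : ℝ, |-t - -κ.t| = |t - κ.t| := fun t => by
      rw [← abs_neg]
      exact congrArg abs (by ring)
    obtain ⟨β, b₀, ta, tb, b1, b2, b3, b4, b5⟩ := pbu_pure (lo := -(s.hi - zz s ρ))
      (hi := -(s.lo + zz s ρ)) (W := s.w / 20) (a := κ.a - xi0 s ρ) (y := H - xi0 s ρ)
      (m := mx - xi0 s ρ) (vx := -vx) (kt := -κ.t) hu hr hs (by linarith) (by linarith [hI.2])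
      (by rw [ab]; linarith) (by rw [ab]; linarith) m1 m4 (by linarith) (by linarith)
      (by linarith) (by linarith) (f.trans_eq (congrArg abs (by ring)))
    rw [hσ]
    refine ⟨β, -b₀, -tb, -ta, b1, by linarith, by linarith, by linarith, fun t ht => ?_⟩
    have b6 := b5 (-t) ⟨by linarith [ht.2], by linarith [ht.1]⟩
    rw [ab] at b6
    obtain ⟨c0, c | c | c⟩ := b6
    · obtain ⟨rfl, rfl, c1, c2, c3⟩ := c
      obtain ⟨d1, d2⟩ := pbu_top (ρ := ρ) (t := t) hw (by linarith) (by linarith)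
      exact ⟨mI t c0, .inl ⟨by linarith, by linarith, by rw [d2]; ring, by linarith⟩⟩
    · obtain ⟨rfl, rfl, c1, c2, c3, c4, c5⟩ := c
      exact ⟨mI t c0, .inr ⟨c1, c2, lt t _ c3 (by linarith) (by linarith), rfl, by linarith⟩⟩
    · obtain ⟨rfl, rfl, c1, c2, c3⟩ := c
      obtain ⟨d1, d2⟩ := pbu_left (ρ := ρ) (t := t) hw hh (by linarith) (by linarith)
      exact ⟨mI t c0, .inl ⟨by linarith, by linarith, by rw [d2]; ring, by linarith⟩⟩

theorem Dat.CD.term_old (h : X.Sit) (hc : X.CD dir Im m i k η τ η')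
    (hσ : sg X.ρ = if X.vx ≤ (X.K m i k).t then -1 else 1) :
    ∃ A0, 0 < A0 ∧ ∀ p, Near S X.mid.D X.mid.W
      {q | q.1 = τ ∧ q.2 ∈ X.mid.D.L τ ∧ |q.2 - X.c.vx X.Vn| ≤ X.A * X.c.rs / 5}
      (X.A * X.c.rs / 5) p →
      (X.mid.lab p.1 p.2).1 = A0 ∧ 4 * X.A * X.c.rs ≤ (X.mid.lab p.1 p.2).2 := by
  obtain ⟨n1, n2, n3, -, n5, -, n7⟩ := h.num
  obtain ⟨c1, c2, c3, c4, c5, c6⟩ := hc.num h
  obtain ⟨m1, m2⟩ := h.mid'
  obtain ⟨y1, y2⟩ := h.fin X.c.x.1 X.vx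
  have hr : 1000 * X.u ≤ X.A * X.c.r := by linarith
  have hs : X.A * X.c.r ≤ (X.K m i k).s := by linarith
  have hw : 0 < X.s.w := by linarith
  obtain ⟨β, b₀, ta, tb, b1, b2, b3, b4, b5⟩ := pbu_real X.s X.ρ (X.K m i k) n2 hr hs hw n7 c4 c5
    c6 m1 m2 y1 y2 hc.beta.far hσ
  rw [← h.vx_new] at b2 b3
  have sub : (X.K m i k).I0 ⊆ (X.K m i k).Ip := Icc_subset_Icc (by linarith) (by linarith)
  have oth : ∀ θ ∈ tm (η, η'), ∀ t, θ ∈ tm X.I ∧ 3 * X.s.w ≤ GG X.s X.ρ X.I (!X.d) θ t :=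
    fun θ hθ t => ⟨(hc.zone h hθ).1, by linarith [h.nd.other (hc.zone h hθ) X.ρ t]⟩
  obtain ⟨-, -, -, x1, x2, x3⟩ := h.bl h.x_mem.1
  obtain ⟨-, x4, x5, -⟩ := h.nd.shal x2 x1 x3
  refine ⟨β * X.s.labA (chain X.s.D X.s.W (SB.wall X.I X.d)), mul_pos (by linarith) (x4 ▸ x5),
    fun p hp => ?_⟩
  obtain ⟨t, ht, hn, e⟩ := pull (Y := sysB S π) (B := (X.K m i k).Ip) (R' := (X.K m i k).s) b1
    (fun t ht => sub (b5 t ht).1) b2 b3 (by linarith) (fun θ t ht hθ => by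
      obtain ⟨t1, t2, t3⟩ := hc.top h (b5 t ht).1 hθ
      rw [h.nd.psi (oth θ t1 t).1 (oth θ t1 t).2, PsiD]
      rcases (b5 t ht).2 with c | c
      · rw [min_eq_left (c.2.1.trans (sub_le_sub_right t2 _)), max_eq_right c.1.le]
        exact c.2.2.2
      · rw [show HH X.s X.ρ X.I X.d π.nS θ t = (X.K m i k).a from (t3 c.1).2,
          min_eq_right c.2.2.1.le, max_eq_right c.2.1.le]
        exact c.2.2.2.2) hp
  have hn' := hn.mono_R (R' := (X.K m i k).s) (by linarith)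
  obtain ⟨t1, t2, t3⟩ := hc.top h (b5 t ht).1 (.inr hn')
  obtain ⟨s1, s2, -, s4⟩ := h.nd.shal (hc.zone h t1) (c3 (sub (b5 t ht).1))
    ((tr_of (by linarith) hc.tri).2.2.1.2.2.2.2.1 _ hn')
  have e4 : 4 * X.A * X.c.rs = 4 * X.u := mul_assoc _ _ _
  rw [e, e4]
  rcases (b5 t ht).2 with c | c
  · have l := c.2.1.trans (sub_le_sub_right t2 _)
    rw [h.nd.lab_top (oth _ t1 t).1 (oth _ t1 t).2 s1 (c.1.trans_le l) l, c.2.2.1, s2]
    exact ⟨rfl, le_trans (by linarith) (le_mul_of_one_le_left (hw.le.trans s4) b1)⟩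
  · rw [h.nd.lab_core (oth _ t1 t).1 (oth _ t1 t).2 s1 (t3 c.1).1 c.1 c.2.1 c.2.2.1, c.2.2.2.1,
      one_mul]
    exact ⟨s2, le_min (by linarith) (by linarith)⟩

end Vale.Agent.P235.Pl.Pb
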