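import Vale.Agent.P235P.PBSet

/-! P235 planar case, birth in system B: the two sides of a kick node. -/

open Set Classical

noncomputable section

namespace Vale.Agent.P235.Pl.Pb

variable {S : Sk} {π : Par} {N : NodeC (sysB S π)} {s : St} {I : ℕ × ℕ} {d : Bool} {θ a : ℕ}
  {t : ℝ} {ρ : Rnd S π}

theorem pbz_wall (I : ℕ × ℕ) (d : Bool) : SB.wall I d = I.1 ∨ SB.wall I d = I.2 := by
  cases d
  exacts [Or.inr rfl, Or.inl rfl]

theorem pbz_lab (h : Nd N s I) {p : ℕ × ℝ}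
    (hp : Near S s.D s.W (chain s.D s.W (SB.wall I d)) (12 * s.w) p) :
    (s.lab p.1 p.2).1 = s.labA (chain s.D s.W (SB.wall I d)) ∧ 0 < (s.lab p.1 p.2).1 ∧
      s.w ≤ (s.lab p.1 p.2).2 := by
  obtain ⟨P, co, hI⟩ := Qb.kick_cand h.nb h.kick
  have hn : (chain s.D s.W (SB.wall I d)).Nonempty := ⟨_, hp.choose_spec.1⟩
  obtain ⟨A, hA, h1⟩ := (NB.cand_elig hI (pbz_wall I d) hn.some_mem).2.2.1
  have h2 := h1 p hp
  have h3 := h1 _ (Near.self hn.some_mem hn.some_mem.2.2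
    (mul_nonneg (by norm_num) h.nb.w0.le))
  rw [St.labA, dif_pos hn]
  exact ⟨h2.1.trans h3.1.symm, hA.trans_eq h2.1.symm, h2.2⟩

theorem pbz_pos (h : Nd N s I) (d : Bool) : 0 < s.labA (chain s.D s.W (SB.wall I d)) := by
  by_cases hn : (chain s.D s.W (SB.wall I d)).Nonempty
  · obtain ⟨p, hp⟩ := hn
    have := pbz_lab h (Near.self hp hp.2.2 (mul_nonneg (by norm_num) h.nb.w0.le))
    exact this.2.1.trans_eq this.1
  · rw [St.labA, dif_neg hn]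
    exact one_pos

theorem Nd.good (h : Nd N s I) (ρ : Rnd S π) (d : Bool) : (PP s ρ I d).Good (tm I) := by
  have hw := h.nb.w0
  refine ⟨?_, fun θ t => div_nonneg (Qb.le_g0 (by positivity) fun _ _ _ _ hr _ _ =>
    add_nonneg hr.nonneg (abs_nonneg _)) (by norm_num), fun θ t t' => ?_,
    fun θ θ' t hl ht h1 h2 => congrArg (· / 16)
      ((Qb.g0_link hl ht h1 h2).antisymm (Qb.g0_link hl.symm ht h2 h1))⟩
  · have := pbz_pos h d
    change 0 < sTop π s.w _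
    unfold sTop
    positivity
  · have h1 : GG s ρ I d θ t ≤ _ := Qb.g0_lip t t'
    have h2 : GG s ρ I d θ t' ≤ _ := Qb.g0_lip t' t
    rw [abs_sub_comm t' t] at h2
    change |GG s ρ I d θ t / 16 - GG s ρ I d θ t' / 16| ≤ _
    exact abs_le.2 ⟨by linarith, by linarith⟩

theorem Nd.H_nonneg (h : Nd N s I) (ρ : Rnd S π) (d : Bool) (j θ : ℕ) (t : ℝ) :
    0 ≤ HH s ρ I d j θ t ∧ GG s ρ I d θ t / 16 ≤ HH s ρ I d j θ t := by
  have h1 : GG s ρ I d θ t / 16 ≤ HH s ρ I d j θ t :=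
    HP.Hs_mono (hs := sd ρ) (h.good ρ d).s1 (Nat.zero_le j) θ t
  exact ⟨((h.good ρ d).nonneg θ t).trans h1, h1⟩

theorem Nd.H_lip (h : Nd N s I) (ρ : Rnd S π) (d : Bool) (j θ : ℕ) (t t' : ℝ) :
    |HH s ρ I d j θ t - HH s ρ I d j θ t'| ≤ |t - t'| := by
  exact HP.Hs_lip (h.good ρ d).s1 (fun θ t t' => ((h.good ρ d).lip θ t t').trans
    (div_le_self (abs_nonneg _) (by norm_num))) j θ t t'

theorem Nd.H_link (h : Nd N s I) (j : ℕ) {θ' : ℕ} (hl : Link S (DP s ρ) θ θ' t) (ht : t ∈ s.W)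
    (h1 : θ ∈ tm I) (h2 : θ' ∈ tm I) : HH s ρ I d j θ t = HH s ρ I d j θ' t := by
  exact HP.Hs_cons (h.good ρ d).s1 hl ((h.good ρ d).cons θ θ' t hl ht h1 h2) j

theorem Nd.mates (h : Nd N s I) (ρ : Rnd S π) : I.1 < I.2 ∧ Mates S (DP s ρ) s.W I.1 I.2 := by
  obtain ⟨P, co, hI⟩ := Qb.kick_cand h.nb h.kick
  refine ⟨hI.1, fun a ⟨ha, t, h1, h2⟩ => hI.2.2.2.2.1 a ⟨ha, ?_⟩⟩
  rcases h1 with h1 | ⟨-, u, h3, h4, -⟩
  exacts [⟨t, h1, h2⟩, ⟨u, h3, h4⟩]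

theorem Nd.zone (h : Nd N s I) (hθ : θ ∈ tm I) (hg : GG s ρ I d θ t < 5 * s.w) :
    θ ∈ SB.Zd S s I d := by
  obtain ⟨p, hp, q, c, hr, hq, hc⟩ := exists_of_envT_lt hg le_rfl
  have h1 := Qb.chain_Dp N h.ni h.nb h.kick hp
  have h2 := abs_nonneg (t - q.2)
  have hw := h.nb.w0
  exact ⟨hθ, q, .of_reach h1 (Qb.reach_Dp N h.ni h.nb h.kick (Qb.wall_src d h1) hr (by linarith))
    (by linarith), hq.2, hq.1⟩

theorem Nd.far_wall (h : Nd N s I) (hθ : θ ∈ SB.Zd S s I d) :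
    ¬ Near S s.D s.W (chain s.D s.W (SB.wall I (!d))) (11 * s.w) (θ, t) := by
  intro h2
  obtain ⟨P, co, hI⟩ := Qb.kick_cand h.nb h.kick
  obtain ⟨hθ, p, h1, -, h3⟩ := hθ
  have hw := h.nb.w0
  have hm : Mates S s.D s.W I.1 I.2 := hI.2.2.2.2.1
  have k : ∀ d R p, Near S s.D s.W (chain s.D s.W (SB.wall I d)) R p →
      SB.F S (NB.base s P) (SB.wall I d) ∧ FarArc S s.D s.W (SB.wall I d) (20 * s.w) :=
    fun d R p ⟨_, hq, _⟩ => (NB.cand_elig hI (pbz_wall I d) hq).imp id fun e => e.2.2.2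
  have k1 := k _ _ _ h1
  have k2 := k _ _ _ h2
  cases d
  · obtain ⟨q, h4, h5⟩ := sep_left (fun _ a _ b => h.nb.abs_le a b) hm k1.2 h1 h3 hθ.1 hθ.2 h2
      (by linarith)
    exact ((greedy_iff _ _ _).1 k1.1).2 I.1 hI.1 k2.1
      ⟨hm, q, h4, h5.mono_R (R' := 20 * s.w) (by linarith)⟩
  · obtain ⟨q, h4, h5⟩ := sep_right (fun _ a _ b => h.nb.abs_le a b) hm k1.2 h1 h3 hθ.1 hθ.2 h2
      (by linarith)
    exact ((greedy_iff _ _ _).1 k2.1).2 I.1 hI.1 k1.1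
      ⟨hm, q, h4, h5.mono_R (R' := 20 * s.w) (by linarith)⟩

theorem Nd.other (h : Nd N s I) (hθ : θ ∈ SB.Zd S s I d) (ρ : Rnd S π) (t : ℝ) :
    5 * s.w ≤ GG s ρ I (!d) θ t := by
  by_contra h1
  obtain ⟨-, q, h2, h3, h4⟩ := h.zone hθ.1 (not_le.1 h1)
  obtain ⟨-, p, h5, h6, h7⟩ := hθ
  refine h.far_wall (θ := q.1) (t := q.2) ⟨h3, p, h5, h6, ?_⟩
    (Near.mono_R h2 (by linarith [h.nb.w0]))
  cases d
  exacts [Nat.le_trans h7 h4, Nat.le_trans h4 h7]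

/-- Points of the zone within the threshold are shallow, with the label of the wall. -/
theorem Nd.shal (h : Nd N s I) (hθ : θ ∈ SB.Zd S s I d) (ht : t ∈ s.W)
    (hd : dc S s.D s.W (SB.src s I) (20 * s.w) (θ, t) ≤ del s ρ) :
    ¬ (sysB S π).deep s ρ (θ, t) ∧ (s.lab θ t).1 = s.labA (chain s.D s.W (SB.wall I d)) ∧
      0 < (s.lab θ t).1 ∧ s.w ≤ (s.lab θ t).2 := by
  have hw := h.nb.w0
  refine ⟨fun ⟨_, i, h1, h2⟩ => h2 (Or.inr ?_), pbz_lab h (p := (θ, t)) ?_⟩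
  · rw [h.nb.ch_zone.2 (NB.mem_Zs.2 ⟨I, h.kick, d, hθ⟩)] at h1
    obtain rfl := Option.some.inj h1
    change (sysB S π).DI s (s.kick.getD (0, 0)) _ ≤ _
    rw [h.kick]
    exact hd
  · have h1 := Near.union.1 (near_of_dc_lt (R := 11 * s.w)
      (by linarith [(NB.del_mem ρ hw).2]) (by linarith) ht : Near S s.D s.W (SB.src s I) _ (θ, t))
    have h2 := h.far_wall (t := t) hθ
    refine Near.mono_R (R := 11 * s.w) ?_ (by linarith)
    cases d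
    exacts [h1.resolve_left h2, h1.resolve_right h2]

theorem pbz_hl (s : St) (ρ : Rnd S π) (I : ℕ × ℕ) (d : Bool) (θ : ℕ) (t : ℝ) :
    ((sysB S π).hl s ρ I).H θ t = min (HH s ρ I d π.nS θ t) (HH s ρ I (!d) π.nS θ t) := by
  cases d
  exacts [min_comm _ _, rfl]

theorem pbz_oth (h : Nd N s I) (hg : 3 * s.w ≤ GG s ρ I d θ t) :
    0 < HH s ρ I d π.nS θ t - xi0 s ρ ∧ trap s ρ t < HH s ρ I d π.nS θ t - xi0 s ρ := by
  have hw := h.nb.w0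
  have h1 := (h.H_nonneg ρ d π.nS θ t).2
  have h2 := (NB.xi0_mem ρ hw).2
  have h3 := Qb.trap_le (ρ := ρ) t hw
  exact ⟨by linarith, by linarith⟩

theorem Nd.psi (h : Nd N s I) (hθ : θ ∈ tm I) (hg : 3 * s.w ≤ GG s ρ I (!d) θ t) :
    (sysB S π).Psi s ρ θ t = PsiD s ρ (HH s ρ I d π.nS) θ t := by
  have h1 := (pbz_oth h hg).2
  unfold Sys.Psi Sys.psi Sys.psi0 PsiD
  rw [if_pos (N.ok s ρ h.ni).2, h.kick]
  simp only [if_pos hθ]
  rw [pbz_hl s ρ I d]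
  rcases le_total (HH s ρ I d π.nS θ t) (HH s ρ I (!d) π.nS θ t) with h2 | h2
  · rw [min_eq_left h2]
  · rw [min_eq_right h2, min_eq_left h1.le, min_eq_left (by linarith)]

theorem Nd.lab_top (h : Nd N s I) (hθ : θ ∈ tm I) (hg : 3 * s.w ≤ GG s ρ I (!d) θ t)
    (hn : ¬ (sysB S π).deep s ρ (θ, t)) (h0 : 0 < HH s ρ I d π.nS θ t - xi0 s ρ)
    (h1 : trap s ρ t ≤ HH s ρ I d π.nS θ t - xi0 s ρ) : (sysB S π).lab1 s ρ θ t =
      ((1 + sg ρ * trapS s ρ t) * (s.lab θ t).1, (1 + sg ρ * trapS s ρ t) * (s.lab θ t).2) := by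
  obtain ⟨h2, h3⟩ := pbz_oth h hg
  unfold Sys.lab1
  rw [if_neg hn, h.kick]
  simp only [pbz_hl s ρ I d, ← min_sub_sub_right]
  rw [if_neg, if_pos (le_min h1 h3.le)]
  rintro (h4 | h4 | h4)
  exacts [h4 (N.ok s ρ h.ni).2, h4 hθ, h4.not_gt (lt_min h0 h2)]

theorem Nd.lab_core (h : Nd N s I) (hθ : θ ∈ tm I) (hg : 3 * s.w ≤ GG s ρ I (!d) θ t)
    (hn : ¬ (sysB S π).deep s ρ (θ, t)) {m : Fin π.nS} {i k : ℤ}
    (hd : (PP s ρ I d).Done (sd ρ) θ t m i k)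
    (hc : |t - (KK s ρ I d m i k).t| ≤ 28 * (KK s ρ I d m i k).s)
    (h0 : 0 < (KK s ρ I d m i k).a - xi0 s ρ) (h1 : (KK s ρ I d m i k).a - xi0 s ρ < trap s ρ t) :
    (sysB S π).lab1 s ρ θ t = ((s.lab θ t).1, min (s.lab θ t).2 (KK s ρ I d m i k).s) := by
  obtain ⟨h2, h3⟩ := pbz_oth h hg
  obtain ⟨e1, e2⟩ := HP.out_done (h.good ρ d).s1 hd
  have e3 : HH s ρ I d π.nS θ t = (KK s ρ I d m i k).a := e1.trans (Cone.G_core _ hc)
  have e4 : HH s ρ I d π.nS θ t < HH s ρ I (!d) π.nS θ t := by linarith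
  have e5 : ((sysB S π).hl s ρ I).dn θ t = ((PP s ρ I d).out (sd ρ)).dn θ t := by
    cases d
    exacts [if_neg e4.not_ge, if_pos e4.le]
  have e6 : (KK s ρ I d m i k).slope t = 0 := by
    have := abs_le.1 hc
    rw [Cone.slope, if_neg (by linarith), if_pos (by linarith)]
  unfold Sys.lab1
  rw [if_neg hn, h.kick]
  simp only [(pbz_hl s ρ I d θ t).trans ((min_eq_left e4.le).trans e3), e5, e2]
  rw [if_neg, if_neg h1.not_ge, if_pos (scl_pos (h.good ρ d).s1 m), e6, mul_zero, add_zero,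
    one_mul, one_mul]
  · rfl
  rintro (h4 | h4 | h4)
  exacts [h4 (N.ok s ρ h.ni).2, h4 hθ, h4.not_gt h0]

/-- The ends of an arc are below the times under the arc. -/
theorem Nd.star (h : Nd N s I) (ha : a < S.mate a) (h1 : a ∈ tm I) (h2 : S.mate a ∈ tm I)
    (hp : t ∈ (DP s ρ).P a) (ht : t ∈ s.W) (h3 : a ≤ θ) (h4 : θ ≤ S.mate a) (d : Bool) (j : ℕ) :
    GG s ρ I d a t = GG s ρ I d θ t ∧ HH s ρ I d j a t ≤ HH s ρ I d j θ t := by
  have hl := link_arc ha hp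
  have e : GG s ρ I d a t = GG s ρ I d θ t := by
    cases d
    · exact ((Qb.g0_link hl ht h1 h2).trans (Qb.g0_mono h4)).antisymm (Qb.g0_mono h3)
    · exact (Qb.g0_mono h3).antisymm ((Qb.g0_mono h4).trans (Qb.g0_link hl.symm ht h2 h1))
  refine ⟨e, HP.hstar (h.good ρ d).s1 (congrArg (· / 16) e).le
    (fun m i k c _ hc h5 h6 => ?_) j⟩
  have h7 := Cone.I0_sub _ (scl_pos (h.good ρ d).s1 m).le h6
  by_cases h8 : S.mate a ∈ tm c.1
  · obtain ⟨⟨η, e, η', -, rfl⟩, -⟩ := hc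
    exact Or.inr ⟨⟨h5.1.trans_le h3, h4.trans h8.2⟩,
      (cellE_arc (fun θ t => (h.H_nonneg ρ d m θ t).1) ha hp h7 h5 h8 h3 h4).ge⟩
  · exact Or.inl (hc.2.bd _ _ t hl h7 h5 h8)

/-- An arc over a time of the interval lies inside the interval or is pinned around it. -/
theorem Nd.arc (h : Nd N s I) (ha : a < S.mate a) (hp : t ∈ (DP s ρ).P a) (ht : t ∈ s.W)
    (hθ : θ ∈ tm I) (h3 : a ≤ θ) (h4 : θ ≤ S.mate a) : (a ∈ tm I ∧ S.mate a ∈ tm I) ∨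
      (a ≤ I.1 ∧ I.2 < S.mate a ∧ (a, t) ∈ s.Pin ∧ (sysB S π).Psi s ρ a t = t) := by
  have h1 := (h.mates ρ).2 a ⟨ha, t, hp, ht⟩
  obtain ⟨A, P, co, h2⟩ := Qb.kick_ins h.nb h.kick
  simp only [Enc] at h1
  simp only [tm, mem_Ioc] at hθ ⊢
  rcases le_or_gt a I.1 with h5 | h5
  · have h6 := h2.out I h.kick (a, t) fun k => h5.not_gt k.1
    exact Or.inr ⟨h5, by omega, h6, Sys.Psi_of_zero _ ρ (Sys.psi_pin _ ρ h6)⟩
  · exact Or.inl (by omega)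

theorem psiD_mono {H : ℕ → ℝ → ℝ} (hl : ∀ t t', |H θ t - H θ t'| ≤ |t - t'|) :
    Monotone (PsiD s ρ H θ) := by
  intro t t' h
  have h1 : |max 0 (min (trap s ρ t) (H θ t - xi0 s ρ)) -
      max 0 (min (trap s ρ t') (H θ t' - xi0 s ρ))| ≤ |t - t'| := by
    rw [max_comm, max_comm 0]
    refine (abs_max_sub_max_le_abs _ _ _).trans ((abs_min_sub_min_le_max _ _ _ _).trans
      (max_le (h_trap_lip t t') ?_))
    rw [sub_sub_sub_cancel_right]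
    exact hl t t'
  rw [← one_mul |max _ _ - _|, ← abs_sg ρ, ← abs_mul, abs_of_nonpos (sub_nonpos.2 h)] at h1
  unfold PsiD
  linarith [(abs_le.1 h1).2]

/-- Values in the band after the operation come from the band. -/
theorem Nd.mem_W (h : Nd N s I) (ht : (sysB S π).Psi s ρ θ t ∈ s.W) : t ∈ s.W := by
  by_contra h1
  rw [Sys.Psi_out _ ρ h.nb.w0 θ ((not_and_or.1 h1).imp (fun k => (not_le.1 k).le)
    fun k => (not_le.1 k).le)] at ht
  exact h1 ht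

end Vale.Agent.P235.Pl.Pb
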