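import Vale.Agent.P235P.PBNd
import Vale.Agent.P235P.PBTerm2
import Vale.Agent.P235P.PBPiece
import Vale.Agent.P235P.PBHeal

/-! P235 planar case, birth in system B. -/

open Set Classical

noncomputable section

namespace Vale.Agent.P235.Pl.Pb

variable {S : Sk} {π : Par}

/-- The same data with the sign `σ`. -/
def Dat.flip (X : Dat S π) (σ : Bool) : Dat S π :=
  { X with ρ := (X.ρ.1, X.ρ.2.1, X.ρ.2.2.1, σ, X.ρ.2.2.2.2) }

theorem Dat.PD.flip {X : Dat S π} {dir : Bool} {Im : ℕ × ℕ} {mu : ℕ → ℝ → ℝ}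
    (h : X.PD dir Im mu) (σ : Bool) : (X.flip σ).PD dir Im mu :=
  ⟨h.1, h.2, h.3, h.4, h.5, h.6, h.7⟩

theorem Dat.CD.flip {X : Dat S π} {dir : Bool} {Im : ℕ × ℕ} {m : Fin π.nS} {i k : ℤ} {η τ η' : ℕ}
    (h : X.CD dir Im m i k η τ η') (σ : Bool) : (X.flip σ).CD dir Im m i k η τ η' :=
  ⟨h.1, h.2, h.3, h.4, h.5, h.6⟩

theorem term_zero {X : Dat S π} (h : X.Sit) : X.c.Term X.mid X.Vn X.A 0 := by
  have hx := X.c.ptx.1
  have hy := X.c.pty.1
  refine ⟨by omega, ⟨1, one_pos, ?_⟩, fun a t ha => ?_⟩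
  · rintro p ⟨q, ⟨-, ⟨t, ht, -⟩, -⟩, -⟩
    rcases ht with ht | ⟨-, t', ht, -⟩ <;> rw [h.nd.nb.l0] at ht <;> exact absurd ht (notMem_empty _)
  · have := S.pos a (lt_of_le_of_lt ha.1 ha.2)
    have := ha.1
    omega

theorem suc_B {X : Dat S π} (h : ∀ σ, (X.flip σ).Sit) (hB : TypeB X.c)
    (hd : |X.mx - X.H X.n X.c.y.1 (X.V X.c.y.1 X.c.y.2)| < 2 * X.u) {i k : ℤ}
    (hs : X.P.Suc (sd X.ρ) X.hb X.n i k) :
    ∃ σ, X.c.NDB (X.flip σ).mid (X.flip σ).Vn X.A := by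
  obtain ⟨dir, Im, mu, hp, hI | ⟨m, i', k', η, τ, η', hc⟩⟩ := (h true).piece
  · exact ⟨true, (h true).nd_of hB hp (term_zero (h true)) (.inl hI) hd hs⟩
  · set σ : Bool := decide (¬ X.vx ≤ (X.K m i' k').t) with hσ
    have hc' : (X.flip σ).CD dir Im m i' k' η τ η' := hc.flip σ
    have hp' : (X.flip σ).PD dir Im mu := hp.flip σ
    have e : sg (X.flip σ).ρ = if (X.flip σ).vx ≤ ((X.flip σ).K m i' k').t then -1 else 1 := by
      show (if σ = true then (1 : ℝ) else -1) = if X.vx ≤ (X.K m i' k').t then -1 else 1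
      by_cases h1 : X.vx ≤ (X.K m i' k').t <;> simp [hσ, h1]
    refine ⟨σ, (h σ).nd_of (τ := τ) hB hp' ⟨?_, hc'.term_old (h σ) e,
      fun a t ha ht hW => hc'.term_arc (h σ) e ha ht hW⟩ (.inr ?_) hd hs⟩
    · have h1 := hc'.xin
      have h2 := hc'.yin
      rw [hc'.im] at h1 h2
      cases dir
      · exact iff_of_false (not_le.2 h1.1) (not_le.2 h2.1)
      · exact iff_of_true h1.2 h2.2
    · rw [hc'.im]
      cases dir <;> rfl

variable {N : NodeC (sysB S π)} {c : Ctx S} {s : St} {V : ℕ → ℝ → ℝ} {A : ℝ} {y : ℕ} {I : ℕ × ℕ}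
  {co : Coins S} {dd : Qn π × Qn π} {eo : Fin (2 * π.m0 + 2) × Qn π}

/-- The birth statement of system B. -/
theorem birthB (hB : TypeB c) (h : At (sysB S π) c s N V A y I co dd eo) (hs : NB.NI S s) {B : ℝ}
    {Gv : Qn π × Qn π × HS π → Bool → ℝ}
    (hv : Val (sysB S π) c s (ptB c) payB c.NDB V A co dd eo B Gv) :
    (1 - 10 ^ 9 * (y + 1) * (A * c.r / s.w)) * (B * A) ≤
      Finset.expect Finset.univ fun u => Finset.expect Finset.univ fun σ => Gv u σ := by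
  refine birth_of h hs hv
    (fun z q => XR s (c.vx V) (uq z (s.w / 40) (s.w / 20)) (uq q (s.w / 20) (s.w / 10)))
    (fun _ _ _ => Finset.card_le_two.trans (by norm_num)) fun d hd n hn u i k _ hm hD hS => ?_
  obtain ⟨b, hb⟩ := h.aff
  obtain ⟨h1, h2⟩ := h.ball hd.heal
  have h3 := h.thick_sub hd.heal n
  rw [← hn] at h1 h2 hm hS
  exact suc_B (X := ⟨N, c, s, (co, dd, u, true, eo), V, A, b, I, d, n⟩)
    (fun σ => ⟨⟨h.ni, hs, h.kick, h.big.m0⟩, h.rep, h.win, hb, h.shal u σ, h1, h2, hm, h3,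
      lift_of h.rep h.win (fun p hp => (hb p hp).1) (h.shal u σ)⟩) hB (not_le.1 hD) hS

end Vale.Agent.P235.Pl.Pb
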