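import Vale.Agent.P235P.Contracts

/-! P235 planar case: the data of the non-affine phase of system B. -/

open Set

noncomputable section

namespace Vale.Agent.P235.Pl

variable {S : Sk}

namespace Ctx
variable (c : Ctx S) (s : St) (V : ℕ → ℝ → ℝ) (A : ℝ)

/-- Values far from the value of `x`. -/
def Off (t : ℝ) : Prop := A * c.rs ≤ |t - c.vx V|

/-- The arc encloses both times. -/
def Both (a : ℕ) : Prop := a ≤ c.x.1 ∧ c.x.1 ≤ S.mate a ∧ a ≤ c.y.1 ∧ c.y.1 ≤ S.mate a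

/-- A gap next to a time of the ball. -/
def BG (e : ℕ) : Prop := ∃ p ∈ c.ball 7, p.1 = e ∨ p.1 = e + 1

/-- The core of a gap, in the initial diagram. -/
def core (e : ℕ) (tk : ℝ) : Set (ℕ × ℝ) :=
  {p | (p.1 = e ∧ |p.2 - tk| ≤ 27 * c.rs) ∨
    Near S c.D0 univ {q | q.1 = e ∧ q.2 ∈ c.D0.L e ∧ |q.2 - tk| ≤ 26 * c.rs} c.rs p}

def CoreStop (e : ℕ) : Prop :=
  ∃ (tk b : ℝ) (l h : ℕ), |A * tk + b - c.vx V| ≤ 20 * A * c.rs ∧ c.x.1 ∉ Ioc l h ∧ c.y.1 ∉ Ioc l h ∧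
    ∀ p ∈ c.core e tk, p ∈ c.ball 7 ∧ p.1 ∈ Ioc l h ∧ V p.1 p.2 = A * p.2 + b ∧
      (s.lab p.1 (V p.1 p.2)).1 = A ∧ A * c.rs ≤ (s.lab p.1 (V p.1 p.2)).2

def FreeStop (e : ℕ) : Prop := c.BG e ∧ ∀ t ∈ s.W, t ∈ s.D.L e → c.Off V A t

def Stop (e : ℕ) : Prop := c.FreeStop s V A e ∨ c.CoreStop s V A e

/-- Two stops. -/
def FL : Prop :=
  ∃ cm cp z o, ((z = c.x.1 ∧ o = c.y.1) ∨ (z = c.y.1 ∧ o = c.x.1)) ∧ z ∈ Ioc cm cp ∧ o ∉ Ioc cm cp ∧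
    c.Stop s V A cm ∧ c.Stop s V A cp ∧
    ∀ a t, ¬ (Enc S a cm ↔ Enc S a cp) → t ∈ s.D.P a → t ∈ s.W → c.Off V A t

/-- The terminal invariant. -/
structure Term (τ : ℕ) : Prop where
  ext : c.x.1 ≤ τ ↔ c.y.1 ≤ τ
  old : ∃ A0, 0 < A0 ∧ ∀ p, Near S s.D s.W
    {q | q.1 = τ ∧ q.2 ∈ s.D.L τ ∧ |q.2 - c.vx V| ≤ A * c.rs / 5} (A * c.rs / 5) p →
      (s.lab p.1 p.2).1 = A0 ∧ 4 * A * c.rs ≤ (s.lab p.1 p.2).2
  arc : ∀ a t, Enc S a τ → t ∈ s.D.P a → t ∈ s.W → c.Both a ∨ c.Off V A t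

/-- One stop between the two points and a terminal (the terminal `0` means none). -/
def NF : Prop :=
  ∃ e τ, ¬ (c.x.1 ≤ e ↔ c.y.1 ≤ e) ∧ c.Stop s V A e ∧ c.Term s V A τ ∧
    ∀ a t, Enc S a e → t ∈ s.D.P a → t ∈ s.W →
      c.Off V A t ∨ (c.Both a ∧ ((a, t) ∈ s.Pin ∨ Enc S a τ))

/-- The data of system B. -/
def NDB : Prop := c.FL s V A ∨ c.NF s V A

end Ctx

end Vale.Agent.P235.Pl
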