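import Vale.Agent.P235P.TTrans

/-! P235 planar case: the search situation at a final step in the affine phase. -/

open Set

noncomputable section

namespace Vale.Agent.P235.Pl.Qb

variable {S : Sk} {c : Ctx S} {s : St} {V : ℕ → ℝ → ℝ} {A : ℝ}

theorem sit_aff (hB : TypeB c) (hs : NB.NI S s) (h : c.Rep s V A 8) (ha : c.AffD s V A)
    (hf : c.Fin s V A) : ∃ (z o : ℕ × ℝ) (bL gm gp bR : ℕ),
      ((z = c.x ∧ o = c.y) ∨ (z = c.y ∧ o = c.x)) ∧
      Sit S s (s.Pin ∪ chain s.D s.W bL ∪ chain s.D s.W bR) bL gm z.1 gp bR ∧ o.1 ∉ Ioc bL bR := by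
  obtain ⟨b, hb⟩ := ha
  have hA := h.pos
  have h0 := c.rs_pos
  have h1 := c.le_r
  have hw := hs.w0
  have hw' := hf.w_eq
  have hAr : 2 ^ 16 * (A * c.rs) ≤ A * c.r := by
    linarith [mul_le_mul_of_nonneg_left h1 hA.le]
  have Q := eqv_of_rep h fun p hp => (hb p hp).1
  obtain ⟨b₁, e1⟩ : ∃ b₁, s.lo = A * b₁ + b :=
    ⟨(s.lo - b) / A, by rw [mul_div_cancel₀ _ hA.ne', sub_add_cancel]⟩
  obtain ⟨b₂, e2⟩ : ∃ b₂, s.hi = A * b₂ + b :=
    ⟨(s.hi - b) / A, by rw [mul_div_cancel₀ _ hA.ne', sub_add_cancel]⟩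
  have eW : s.W = Icc (A * b₁ + b) (A * b₂ + b) := by rw [St.W, e1, e2]
  have hβ : b₂ - b₁ ≤ c.rs / 1024 := le_of_mul_le_mul_left (by linarith [hf.full]) hA
  have ex : c.vx V = A * c.x.2 + b := (hb _ (c.x_mem (by norm_num))).1
  have ey : V c.y.1 c.y.2 = A * c.y.2 + b := (hb _ (c.y_mem (by norm_num))).1
  have bx : c.x.2 ∈ Icc b₁ b₂ := (aff_mem (b := b) hA).1
    ⟨by linarith [hf.lo_le], by linarith [hf.le_hi]⟩
  have by' : c.y.2 ∈ Icc b₁ b₂ := (aff_mem (b := b) hA).1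
    ⟨by linarith [hf.lo_le, (abs_le.1 hf.close).2], by linarith [hf.le_hi, (abs_le.1 hf.close).1]⟩
  obtain ⟨z, o, E, gm, gp, fm, fp, H⟩ := structure_gen (γ := c.rs) c hB h0 (by linarith)
    (by linarith) bx by' (by linarith [bx.2]) (by linarith [bx.1]) hβ
  have hr : c.rs + 3 * (c.rs / 1024) ≤ c.r := by linarith
  have l1 := H.lm
  have l2 := H.br.1.trans_le H.br.2.1
  have l3 := H.lp
  have mi := fun e => H.mates_iff (e := e) hβ h0.le hr Q (by norm_num)
  have cl := fun e he k1 k2 p => H.chain_lift (e := e) (p := p) hβ h0.le hr Q (by norm_num) he k1 k2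
  rw [← eW] at mi cl
  have pf : ∀ θ t, (θ, t) ∈ c.ball 8 → ¬ Near S s.D s.W s.Pin (80 * s.w) (θ, A * t + b) :=
    fun θ t hp k => h.pf _ hp (by rw [(hb _ hp).1]; exact k.mono_R (by linarith))
  have lf : ∀ f, f = fm ∨ f = fp → ∀ q k, k ≤ 80 * s.w → Near S s.D s.W (chain s.D s.W f) k q →
      ∃ p ∈ chain c.D0 (Icc b₁ b₂) f, DLe S c.D0 p (q.1, (q.2 - b) / A) (c.rs / 10) := by
    rintro f hf' q k hk ⟨p, p1, k', k1, k2⟩
    obtain ⟨t, rfl, t1⟩ := cl f (by rcases hf' with rfl | rfl; exacts [H.mm, H.mp]) (by omega)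
      (by omega) p p1
    refine ⟨_, t1, _, (div_le_iff₀' hA).2 (by linarith), lift (X := {(f, t)}) (ρ := c.rs / 10) h h0
      (fun p hp => ?_) rfl k2 (by linarith)⟩
    have p2 : p ∈ c.ball 8 := ball_of_dle ((H.near.trans (H.stop f hf' _ t1).2).trans
      (Near.single.1 hp)) (by linarith)
    exact ⟨p2, (hb p p2).1⟩
  have far : ∀ g, g = gm ∨ g = gp →
      ¬ Cl S s.D s.W (s.Pin ∪ chain s.D s.W fm ∪ chain s.D s.W fp) (chain s.D s.W g) (80 * s.w) := by
    rintro g hg ⟨q, q1, q2⟩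
    obtain ⟨t, rfl, t1⟩ := cl g (by
      rcases hg with rfl | rfl; exacts [Mates.refl _ _ _ _, H.br.2.2.1]) (by omega) (by omega) q q1
    have t2 := H.br.anchor hβ hg t1
    have t3 : ∀ f, f = fm ∨ f = fp → ¬ Near S s.D s.W (chain s.D s.W f) (80 * s.w) (g, A * t + b) :=
      fun f hf' k => by
        obtain ⟨p, p1, p2⟩ := lf f hf' _ _ le_rfl k
        rw [add_sub_cancel_right, mul_div_cancel_left₀ _ hA.ne'] at p2
        have := (H.stop f hf' p p1).1.le (t2.trans p2.symm)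
        linarith
    rcases Near.union.1 q2 with q2 | q2
    · rcases Near.union.1 q2 with q2 | q2
      · exact pf _ _ (ball_of_dle (H.near.trans t2) (by linarith)) q2
      · exact t3 _ (Or.inl rfl) q2
    · exact t3 _ (Or.inr rfl) q2
  refine ⟨z, o, fm, gm, gp, fp, H.zo, ⟨fun _ k => Or.inl (Or.inl k), fun _ k => Or.inl (Or.inr k),
    fun _ k => Or.inr k, l1, H.br.1, H.br.2.1, l3, H.lN, (mi fm le_rfl (by omega)).2 H.mm,
    (mi gp (by omega) l3).2 H.br.2.2.1, (mi fp (by omega) le_rfl).2 H.mp,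
    fun e k1 k2 k3 => H.next e k1 k2 ((mi e (by omega) (by omega)).1 k3), far _ (Or.inl rfl),
    far _ (Or.inr rfl), fun p p1 p2 p3 => ?_, fun e k1 k2 => ?_⟩, fun k => ?_⟩
  · obtain ⟨θ, v⟩ := p
    obtain ⟨t, t1, rfl⟩ := aff_surj hA (eW ▸ p2)
    have np : ∀ θ', θ' = gm + 1 ∨ θ' = gp → (θ', A * t + b) ∉ s.Pin := fun θ' k1 k2 =>
      pf θ' t (ball_of_dle (H.near.trans (by
        rcases k1 with rfl | rfl; exacts [(H.br.col hβ t1).1, (H.br.col hβ t1).2])) (by linarith))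
        (Near.self k2 p2 (by linarith))
    rcases H.br.2.2.2.2 with ⟨k, -⟩ | ⟨-, k, -⟩
    · exact np θ (Or.inr (by have := p3.1; have := p3.2; dsimp only at *; omega)) p1
    · rcases hs.arc (gm + 1) θ _ p3.1 (k ▸ p3.2) p1 p2 with k' | k'
      · exact np _ (Or.inl rfl) k'
      · exact np _ (Or.inr k) k'
  · have hW : Wd s.W s.w := fun t ht t' ht' =>
      abs_le.2 ⟨by linarith [ht.1, ht'.2, hs.len], by linarith [ht.2, ht'.1, hs.len]⟩
    have un : ∀ f, f = fm ∨ f = fp → Cl S s.D s.W (chain s.D s.W f) (chain s.D s.W e) (40 * s.w) →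
        s.Unif (s.nb S (chain s.D s.W e) (12 * s.w)) := fun f hf' k => ⟨A, hA, fun q hq => by
      obtain ⟨p, p1, p2⟩ := lf f hf' q _ (by linarith) (k.near hW hq)
      have p3 := hb _ (ball_of_dle (R := 8) ((H.near.trans (H.stop f hf' p p1).2).trans p2)
        (by linarith))
      dsimp only at p3
      rw [p3.1, mul_div_cancel₀ _ hA.ne', sub_add_cancel] at p3
      exact ⟨p3.2.1, le_trans (by linarith) p3.2.2⟩⟩
    obtain ⟨q, q1, q2⟩ := k1
    rcases Near.union.1 q2 with q2 | q2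
    · rcases Near.union.1 q2 with q2 | q2
      · exact uni_pin hs hf.pend ⟨q, q1, q2.mono_R (by linarith)⟩ fun k =>
          k2 ((k.mono (by linarith)).sub fun _ k => Or.inl (Or.inl k))
      · exact un _ (Or.inl rfl) ⟨q, q1, q2⟩
    · exact un _ (Or.inr rfl) ⟨q, q1, q2⟩
  · have := H.out
    have := k.1
    have := k.2
    omega

end Vale.Agent.P235.Pl.Qb
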