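import Vale.Agent.P235P.QBSv
import Vale.Agent.P235P.QBFa0

/-! P235 planar case: the final step of the affine phase of system B. -/

open Set

namespace Vale.Agent.P235.Pl.Qb

variable {S : Sk} {π : Par}

/-- The field `finA` for system B. -/
theorem finA_B (N : NodeC (sysB S π)) (hN : ∀ s, N.NI s ↔ NB.NI S s) {c : Ctx S} (hB : TypeB c) :
    ∀ s V A n, N.NI s → c.Rep s V A 8 → c.AffD s V A → c.Fin s V A →
    2 * (S.N + 1) ^ 2 + 3 ≤ n → s.w / 1600 ≤ Finset.expect Finset.univ fun ω : Om S π n =>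
      |(sysB S π).proc n s ω c.x.1 (c.vx V) - (sysB S π).proc n s ω c.y.1 (V c.y.1 c.y.2)| := by
  intro s V A n hs hR hA hF hn
  obtain ⟨z, o, bL, gm, gp, bR, h1, H, h2⟩ := sit_aff hB ((hN s).1 hs) hR hA hF
  refine serve_of_sit N hN hs hF hn ?_ H h2
  rcases h1 with ⟨rfl, rfl⟩ | ⟨rfl, rfl⟩
  exacts [.inl ⟨rfl, rfl⟩, .inr ⟨rfl, rfl⟩]

end Vale.Agent.P235.Pl.Qb
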