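import Vale.Agent.P235P.TDefs

/-! P235 planar case: basic facts on distances, arcs and classes. -/

open Set

noncomputable section

namespace Vale.Agent.P235.Pl

variable {S : Sk} {D : Lk} {W : Set ℝ} {p q u : ℕ × ℝ} {R R' c k t t' β b₁ b₂ : ℝ}
  {a b e e' g θ θ' : ℕ}

theorem DLe.refl (p : ℕ × ℝ) (h : 0 ≤ R) : DLe S D p p R := ⟨0, h, .refl trivial⟩

theorem DLe.mono (h : DLe S D p q R) (h' : R ≤ R') : DLe S D p q R' :=
  let ⟨c, h1, h2⟩ := h
  ⟨c, h1.trans h', h2⟩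

theorem DLe.symm (h : DLe S D p q R) : DLe S D q p R :=
  let ⟨c, h1, h2⟩ := h
  ⟨c, h1, h2.symm⟩

theorem DLe.trans (h : DLe S D p q R) (h' : DLe S D q u R') : DLe S D p u (R + R') :=
  let ⟨_, h1, h2⟩ := h
  let ⟨_, h3, h4⟩ := h'
  ⟨_, add_le_add h1 h3, h2.trans h4⟩

theorem DGe.mono (h : DGe S D p q R) (h' : R' ≤ R) : DGe S D p q R' := fun c k => h'.trans (h c k)

theorem DGe.symm (h : DGe S D p q R) : DGe S D q p R := fun c k => h c k.symm

theorem DGe.le (h : DGe S D p q R) (h' : DLe S D p q R') : R ≤ R' :=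
  let ⟨c, h1, h2⟩ := h'
  (h c h2).trans h1

theorem DGe.of_not (h : ¬ DLe S D p q R) : DGe S D p q R := fun c k =>
  (not_le.1 fun l => h ⟨c, l, k⟩).le

theorem DLe.of_not (h : ¬ DGe S D p q R) : DLe S D p q R := by
  by_contra k
  exact h (.of_not k)

/-- The triangle inequality, backwards. -/
theorem DLe.ge (h : DLe S D p q R) (h' : DGe S D p u R') : DGe S D q u (R' - R) := fun c k => by
  have := h'.le (h.trans ⟨c, le_rfl, k⟩)
  linarith

theorem DLe.vert (θ : ℕ) (h : |t - t'| ≤ R) : DLe S D (θ, t) (θ, t') R :=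
  ⟨_, by simpa using h, (Reach.refl (p := (θ, t)) (mem_univ _)).vert (t' := t') trivial⟩

theorem DLe.link (h : Link S D θ θ' t) : DLe S D (θ, t) (θ', t) 0 :=
  ⟨0, le_rfl, (Reach.refl (p := (θ, t)) (mem_univ _)).link h⟩

theorem band_abs (hβ : b₂ - b₁ ≤ β) (h : t ∈ Icc b₁ b₂) (h' : t' ∈ Icc b₁ b₂) : |t - t'| ≤ β :=
  abs_le.2 ⟨by linarith [h.1, h'.2], by linarith [h.2, h'.1]⟩

/-- Two arcs around one time are nested. -/
theorem arc_nest (hb : b < S.mate b) (hab : a < b) (h1 : b ≤ θ) (h2 : θ ≤ S.mate a) :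
    S.mate b < S.mate a := by
  refine (S.nc a b hab ((h1.trans h2).lt_of_ne fun h => ?_)).2
  rw [h, S.inv] at hb
  omega

theorem sep_nest (ha : Sep S a θ θ') (hb : Sep S b θ θ') (hab : a < b) : S.mate b < S.mate a :=
  arc_nest hb.1 hab hb.2.1 ha.2.2.1

/-- A path that leaves the times of an arc passes a column of the arc below the top. -/
theorem reach_cross (hD : Init S D) (hk : k ∈ D.P a) (h : Reach S D univ p q c)
    (hs : Sep S a p.1 q.1) : ∃ θ t c₁ c₂, (θ = a ∨ θ = S.mate a) ∧ t ≤ k ∧ c₁ + c₂ = c ∧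
      Reach S D univ p (θ, t) c₁ ∧ Reach S D univ (θ, t) q c₂ :=
  let ⟨θ, t, h1, h2, c₁, c₂, h3, h4, h5⟩ := h.bar_sep hs
  ⟨θ, t, c₁, c₂, h1, hD.top a k hs.1 hk θ h1 t h2, h5, h3, h4⟩

theorem WArc.mem (hD : Init S D) (ha : WArc S D W a) (hk : k ∈ D.P a) : k ∈ W := by
  obtain ⟨h1, t, h2, h3⟩ := ha
  obtain ⟨p, hp⟩ := hD.single a h1
  rw [hp] at hk h2
  rwa [hk.trans h2.symm]

/-- The columns of an arc are close to its top. -/
theorem col_top (hβ : b₂ - b₁ ≤ β) (ha : a < S.mate a) (hk : k ∈ D.P a) (hW : k ∈ Icc b₁ b₂)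
    (hp : p ∈ cols S (Icc b₁ b₂) a) : DLe S D (a, k) p β := by
  obtain ⟨θ, t⟩ := p
  obtain ⟨rfl | rfl, h⟩ := hp
  · exact .vert _ (band_abs hβ hW h)
  · exact ((DLe.link (Or.inr (Or.inr (Or.inl ⟨ha, rfl, hk⟩)))).trans
      (.vert _ (band_abs hβ hW h))).mono (zero_add _).le

/-- The crossing point can be taken in the band. -/
theorem cross_band (hD : Init S D) (ha : WArc S D (Icc b₁ b₂) a) (hp : a ≤ p.1 ∧ p.1 ≤ S.mate a)
    (hq : q.1 < a ∨ S.mate a < q.1) (hW : q.2 ∈ Icc b₁ b₂) (h : DLe S D p q R) :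
    ∃ u ∈ cols S (Icc b₁ b₂) a, DLe S D p u R := by
  obtain ⟨c, hc, h⟩ := h
  obtain ⟨ha, k, hk, hb⟩ := ha
  obtain ⟨θ, t, c₁, c₂, h1, h2, rfl, h3, h4⟩ := reach_cross hD hk h ⟨ha, hp.1, hp.2, hq⟩
  have h5 := h4.nonneg
  by_cases ht : b₁ ≤ t
  · exact ⟨(θ, t), ⟨h1, ht, h2.trans hb.2⟩, c₁, by linarith, h3⟩
  · refine ⟨(θ, b₁), ⟨h1, le_rfl, hb.1.trans hb.2⟩, _, ?_, h3.vert trivial⟩
    have h6 := (abs_le.1 h4.abs_le).1
    rw [abs_of_nonpos (by linarith)]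
    dsimp only at h6
    linarith [hW.1]

theorem chain_link (h : p ∈ chain D W e) : DLe S D p (e + 1, p.2) 0 := by
  obtain ⟨θ, t⟩ := p
  obtain ⟨rfl, h, -⟩ := h
  exact .link (Or.inl ⟨rfl, h⟩)

/-- The chains of consecutive mates are close. -/
theorem succ_dle (hβ : b₂ - b₁ ≤ β) (h : e' = e + 1 ∨ (WArc S D (Icc b₁ b₂) (e + 1) ∧
    e' = S.mate (e + 1))) (hp : p ∈ chain D (Icc b₁ b₂) e) (hq : q ∈ chain D (Icc b₁ b₂) e') :
    DLe S D p q (2 * β) := by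
  have h0 : 0 ≤ β := (abs_nonneg _).trans (band_abs hβ hp.2.2 hp.2.2)
  rcases h with rfl | ⟨⟨h1, k, h2, h3⟩, rfl⟩
  · obtain ⟨θ, t⟩ := q
    obtain rfl : θ = e + 1 := hq.1
    exact ((chain_link hp).trans (.vert _ (band_abs hβ hp.2.2 hq.2.2))).mono (by linarith)
  · exact (((chain_link hp).trans
      (col_top (p := (e + 1, p.2)) hβ h1 h2 h3 ⟨Or.inl rfl, hp.2.2⟩).symm).trans
      (col_top hβ h1 h2 h3 ⟨Or.inr hq.1, hq.2.2⟩)).mono (by linarith)

/-- The innermost arc around a gap: the gaps next to it, inside, are mates of the gap. -/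
theorem mates_in (ha : Enc S a g) (hm : ∀ b, WArc S D W b → Enc S b g → b ≤ a) :
    Mates S D W g a ∧ Mates S D W g (S.mate a - 1) := by
  have h0 : a < S.mate a := ha.1.trans_lt ha.2
  obtain ⟨a1, a2⟩ := ha
  have key : ∀ b, b < a → a ≤ S.mate b → S.mate a < S.mate b := fun b h1 h2 =>
    arc_nest h0 h1 le_rfl h2
  refine ⟨fun b hb => ⟨fun h => ⟨hm b hb h, a1.trans_lt h.2⟩, fun h => ?_⟩,
    fun b hb => ⟨fun h => ?_, fun h => ?_⟩⟩
  · rcases h.1.eq_or_lt with rfl | h1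
    · exact ⟨a1, a2⟩
    · exact ⟨by omega, a2.trans (key b h1 h.2.le)⟩
  · rcases (hm b hb h).eq_or_lt with rfl | h1
    · exact ⟨by omega, by omega⟩
    · have := key b h1 (a1.trans h.2.le)
      exact ⟨by omega, by omega⟩
  · obtain ⟨h1, h2⟩ := h
    by_cases h3 : S.mate a = S.mate b
    · obtain rfl : a = b := by rw [← S.inv a, h3, S.inv]
      exact ⟨a1, a2⟩
    · have h4 := (S.nc b (S.mate a) (by omega) (by omega)).1
      rw [S.inv] at h4
      exact ⟨by omega, by omega⟩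

end Vale.Agent.P235.Pl
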