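import Vale.Agent.P235P.QBSv
import Vale.Agent.P235P.QBLift
import Vale.Agent.P235P.QBDefs
import Vale.Agent.P235P.TBas

/-! P235 planar case: the final step of the non-affine phase of system B. -/

open Set

namespace Vale.Agent.P235.Pl.Qb

variable {S : Sk} {π : Par} {c : Ctx S} {s : St} {V : ℕ → ℝ → ℝ} {A : ℝ}

/-- The whole column in the band consists of images of the ball. -/
def FnGood (c : Ctx S) (s : St) (V : ℕ → ℝ → ℝ) (θ : ℕ) : Prop :=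
  ∀ u ∈ s.W, ∃ t, (θ, t) ∈ c.ball 7 ∧ V θ t = u

/-- Possible walls of the search. -/
def FnWall (c : Ctx S) (s : St) (A : ℝ) (b : ℕ) : Prop :=
  (∀ q ∈ chain s.D s.W b, Near S s.D s.W s.Pin s.w q) ∨
    (s.Unif (s.nb S (chain s.D s.W b) (100 * s.w)) ∧
      ((∃ l h, c.x.1 ∉ Ioc l h ∧ c.y.1 ∉ Ioc l h ∧
        ∀ p, Near S s.D s.W (chain s.D s.W b) (100 * s.w) p → p.1 ∈ Ioc l h) ∨
      ∀ p, Near S s.D s.W (chain s.D s.W b) (100 * s.w) p → 4 * A * c.rs ≤ (s.lab p.1 p.2).2))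

theorem fn_le {p : ℕ × ℝ} {R : ℝ} (hp : p ∈ c.ball R) : p.1 ≤ S.N := by
  obtain ⟨k, hk, h⟩ := Near.single.1 hp
  clear hk hp
  induction h with
  | refl _ => exact c.ptx.2.1
  | vert _ _ ih => exact ih
  | @link θ θ' t k _ hl ih =>
    rcases hl with ⟨e, h⟩ | ⟨e, -⟩ | ⟨h, e, -⟩ | ⟨h, e, -⟩
    · by_contra hc
      rw [c.init.lN θ (by simp only at hc; omega)] at h
      exact h
    · simp only at ih ⊢
      omega
    · exact e ▸ (S.pos θ h).2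
    · simp only at ih ⊢
      omega

theorem fn_W (hF : c.Fin s V A) {u : ℝ} (hu : u ∈ s.W) : |u - c.vx V| ≤ s.w := by
  have h1 := hF.lo_le
  have h2 := hF.le_hi
  have h3 := hF.full
  exact abs_le.2 ⟨by linarith [hu.1, hu.2], by linarith [hu.1, hu.2]⟩

section
variable (hR : c.Rep s V A 7) (hF : c.Fin s V A)
include hR hF

theorem fn_off {u : ℝ} (hu : u ∈ s.W) : ¬ c.Off V A u := fun h => by
  have h1 := fn_W hF hu
  have h2 := mul_pos hR.pos c.rs_pos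
  rw [hF.w_eq] at h1
  unfold Ctx.Off at h
  linarith

theorem fn_pin {θ : ℕ} (h : FnGood c s V θ) {u : ℝ} :
    ¬ Near S s.D s.W s.Pin (100 * s.w) (θ, u) := fun hn => by
  obtain ⟨t, h1, h2⟩ := h u (near_mem hn)
  refine hR.pf _ h1 (near_mono (by simpa only [h2] using hn) Subset.rfl ?_)
  rw [hF.w_eq]
  linarith [mul_le_mul_of_nonneg_left c.le_r hR.pos.le, mul_pos hR.pos c.rs_pos]

theorem fn_stop {e : ℕ} (h : c.Stop s V A e) : e ≤ S.N ∧ FnWall c s A e := by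
  have hA := hR.pos
  have hr := c.rs_pos
  have hw := hF.w_eq
  have h0 := mul_pos hA hr
  rcases h with ⟨⟨p, hp, h1⟩, h2⟩ | ⟨tk, b, l, h, h1, h2, h3, h4⟩
  · refine ⟨by have := fn_le hp; omega, .inl fun q hq => ?_⟩
    exact absurd (h2 _ hq.2.2 hq.2.1) (fn_off hR hF hq.2.2)
  refine ⟨fn_le (h4 (e, tk) (.inl ⟨rfl, by simpa using hr.le⟩)).1, .inr ?_⟩
  have key : ∀ p, Near S s.D s.W (chain s.D s.W e) (100 * s.w) p →
      p.1 ∈ Ioc l h ∧ (s.lab p.1 p.2).1 = A ∧ s.w ≤ (s.lab p.1 p.2).2 := by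
    rintro p ⟨⟨θ, u⟩, ⟨rfl, q2, q3⟩, k, hk, hp⟩
    obtain ⟨t, rfl⟩ : ∃ t, u = A * t + b := ⟨(u - b) / A, by field_simp; ring⟩
    have a1 := abs_le.1 (fn_W hF q3)
    have a2 := abs_le.1 h1
    simp only at a1 q2 h4
    have a3 : |t - tk| ≤ 21 * c.rs := abs_le.2 ⟨by nlinarith [a1.1, a2.2], by nlinarith [a1.2, a2.1]⟩
    have a4 : t ∈ c.D0.L θ := (gap_iff c.adj).1 (link_lift (b := b) hR hr
      (h4 (θ, t) (.inl ⟨rfl, by linarith⟩)).1 (fun v hv => (h4 (θ, v) (.inl ⟨rfl, by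
        linarith [abs_sub_le v t tk, abs_sub_comm v t]⟩)).2.2.1) (link_gap q2))
    have a5 := lift (b := b) (ρ := c.rs / 2) (q := (θ, t)) hR (half_pos hr)
      (X := {q | q.1 = θ ∧ q.2 ∈ c.D0.L θ ∧ |q.2 - tk| ≤ 26 * c.rs})
      (fun p hp => ⟨(h4 p (.inr (by rwa [add_halves] at hp))).1,
        (h4 p (.inr (by rwa [add_halves] at hp))).2.2.1⟩) ⟨rfl, a4, by linarith⟩ hp (by linarith)
    obtain ⟨-, b1, b2, b3, b4⟩ := h4 (p.1, (p.2 - b) / A) (.inr ⟨(θ, t), ⟨rfl, a4, by linarith⟩, _,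
      (div_le_iff₀' hA).2 (by linarith), a5⟩)
    simp only at b1 b2 b3 b4
    rw [b2, mul_div_cancel₀ _ hA.ne', sub_add_cancel] at b3 b4
    exact ⟨b1, b3, by linarith⟩
  exact ⟨⟨A, hA, fun p hp => (key p hp).2⟩, .inl ⟨l, h, h2, h3, fun p hp => (key p hp).1⟩⟩

theorem fn_term {τ : ℕ} (h : c.Term s V A τ) : FnWall c s A τ := by
  obtain ⟨A0, h0, h1⟩ := h.old
  have hw := hF.w_eq
  have h2 := mul_pos hR.pos c.rs_pos
  have key := fun p (hp : Near S s.D s.W (chain s.D s.W τ) (100 * s.w) p) => h1 p (near_mono hp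
    (fun q hq => ⟨hq.1, hq.2.1, (fn_W hF hq.2.2).trans (by linarith)⟩) (by linarith))
  exact .inr ⟨⟨A0, h0, fun p hp => ⟨(key p hp).1, le_trans (by linarith) (key p hp).2⟩⟩,
    .inr fun p hp => (key p hp).2⟩

variable (hG : c.NonG s V A)
include hG

theorem fn_col {θ : ℕ} {t₀ k : ℝ} (h : Reach S c.D0 univ c.x (θ, t₀) k)
    (hk : k + |t₀ - c.x.2| ≤ 5 * c.r) {u : ℝ} (hu : u ∈ s.W) : ∃ t, |t - c.x.2| ≤ c.r ∧ V θ t = u ∧
      ∃ k' ≤ k + |t₀ - c.x.2| + c.r, Reach S c.D0 univ c.x (θ, t) k' := by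
  have hr := c.r_pos
  have hA := hR.pos
  have h1 : ∀ t, |t - c.x.2| ≤ c.r → k + |t₀ - t| ≤ k + |t₀ - c.x.2| + c.r := fun t ht => by
    linarith [abs_sub_le t₀ c.x.2 t, abs_sub_comm c.x.2 t]
  have h2 := abs_le.1 (fn_W hF hu)
  have h3 := mul_le_mul_of_nonneg_left c.le_r hA.le
  have h4 := mul_pos hA c.rs_pos
  have h5 : ∀ t, |t - c.x.2| ≤ c.r →
      |V θ t - c.vx V - A * (t - c.x.2)| ≤ A * (6 * c.r / 16 + 27 * c.rs) := fun t ht =>
    (hG.dev _ _ (h.vert (mem_univ t)) (by linarith [h1 t ht])).trans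
      (mul_le_mul_of_nonneg_left (by linarith [h1 t ht]) hA.le)
  have h6 := (abs_le.1 (h5 (c.x.2 - c.r) (by simpa using (abs_of_pos hr).le))).2
  have h7 := (abs_le.1 (h5 (c.x.2 + c.r) (by simpa using (abs_of_pos hr).le))).1
  rw [hF.w_eq] at h2
  obtain ⟨t, ht, e⟩ := intermediate_value_Icc (by linarith : c.x.2 - c.r ≤ c.x.2 + c.r)
    (hR.cont θ).continuousOn (show u ∈ _ from ⟨by linarith [h2.1], by linarith [h2.2]⟩)
  have h8 : |t - c.x.2| ≤ c.r := abs_le.2 ⟨by linarith [ht.1], by linarith [ht.2]⟩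
  exact ⟨t, h8, e, _, h1 t h8, h.vert (mem_univ t)⟩

theorem fn_good {θ : ℕ} {t₀ k : ℝ} (h : Reach S c.D0 univ c.x (θ, t₀) k)
    (hk : k + |t₀ - c.x.2| ≤ 5 * c.r) : FnGood c s V θ := fun u hu => by
  obtain ⟨t, -, h1, k', h2, h3⟩ := fn_col hR hF hG h hk hu
  exact ⟨t, Near.of_reach rfl h3 (by linarith [c.r_pos]), h1⟩

theorem fn_other {θ θ' : ℕ} {t₀ k v : ℝ} (h : Reach S c.D0 univ c.x (θ, t₀) k) (hk : k ≤ c.r)
    (hl : Link S s.D θ θ' v) (hv : v ∈ s.W) : FnGood c s V θ ∧ FnGood c s V θ' := by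
  have hr := c.r_pos
  have hs := c.rs_pos
  have h0 := c.le_r
  have hA := mul_pos hR.pos hs
  have h1 : |t₀ - c.x.2| ≤ k := by rw [abs_sub_comm]; exact r_abs h
  refine ⟨fn_good hR hF hG h (by linarith), ?_⟩
  obtain ⟨t, h2, rfl, k', h3, h4⟩ := fn_col hR hF hG h (by linarith) hv
  have hb : ∀ u, |t - u| ≤ 30 * c.rs → (θ, u) ∈ c.ball 7 := fun u hu =>
    Near.of_reach rfl (h4.vert (mem_univ u)) (by linarith)
  have hb0 := hb t (by simpa using hs.le)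
  obtain ⟨t', h5, h6⟩ := hR.r2 θ θ' t hb0 hl
  have h7 : |t - t'| ≤ 30 * c.rs := by
    by_contra hc
    rcases lt_abs.1 (not_le.1 hc) with h8 | h8
    · have := hG.slope θ (t - 30 * c.rs) t (hb _ (by simpa using (abs_of_pos hs).le)) hb0
        (by linarith)
      linarith [hR.mono θ (show t' ≤ t - 30 * c.rs by linarith)]
    · have := hG.slope θ t (t + 30 * c.rs) hb0 (hb _ (by simpa using (abs_of_pos hs).le))
        (by linarith)
      linarith [hR.mono θ (show t + 30 * c.rs ≤ t' by linarith)]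
  refine fn_good hR hF hG ((h4.vert (mem_univ t')).link h5) ?_
  linarith [abs_sub_le t' t c.x.2, abs_sub_comm t' t]

theorem fn_x : FnGood c s V c.x.1 :=
  fn_good hR hF hG (t₀ := c.x.2) (.refl (mem_univ _)) (by simpa using c.r_pos.le)

theorem fn_y : FnGood c s V c.y.1 :=
  fn_good hR hF hG (t₀ := c.y.2) c.dist.1 (by
    linarith [r_abs c.dist.1, abs_sub_comm c.x.2 c.y.2, c.r_pos])

theorem fn_arc {a : ℕ} (ha : WArc S s.D s.W a) (h : Sep S a c.x.1 c.y.1 ∨ Sep S a c.y.1 c.x.1) :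
    FnGood c s V a ∧ FnGood c s V (S.mate a) := by
  obtain ⟨θ, t, k, h1, h2, h3⟩ : ∃ θ t k, (θ = a ∨ θ = S.mate a) ∧ k ≤ c.r ∧
      Reach S c.D0 univ c.x (θ, t) k := by
    rcases h with h | h
    · obtain ⟨θ, t, h1, -, h2⟩ := c.dist.1.bar_sep h
      obtain ⟨k, h3, h4⟩ := h2.left
      exact ⟨θ, t, k, h1, h3, h4⟩
    · obtain ⟨θ, t, h1, -, h2⟩ := c.dist.1.symm.bar_sep h
      obtain ⟨k, h3, h4⟩ := h2.symm.left
      exact ⟨θ, t, k, h1, h3, h4⟩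
  obtain ⟨h4, v, h5, h6⟩ := ha
  rcases h1 with rfl | rfl
  · exact fn_other hR hF hG h3 h2 (link_arc h4 h5) h6
  · exact (fn_other hR hF hG h3 h2 (link_symm (link_arc h4 h5)) h6).symm

theorem fn_sit (hs : NB.NI S s) {bL bR z o : ℕ}
    (hz : (z = c.x.1 ∧ o = c.y.1) ∨ (z = c.y.1 ∧ o = c.x.1)) (h1 : z ∈ Ioc bL bR)
    (h2 : o ∉ Ioc bL bR) (hm : Mates S s.D s.W bL bR) (hN : bR ≤ S.N) (wL : FnWall c s A bL)
    (wR : FnWall c s A bR) : ∃ gm gp,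
      Sit S s (s.Pin ∪ (chain s.D s.W bL ∪ chain s.D s.W bR)) bL gm z gp bR := by
  have hw := hs.w0
  have hW := qbsv_wd hs
  rw [mem_Ioc] at h1 h2
  obtain ⟨gm, gp, a1, a2, a3, -, a4, a5, a6⟩ := branch (θ := z) hm (by omega)
  obtain ⟨a7, a8⟩ := a3 (by omega)
  unfold Bt at a1 a2
  have m2 := a4.symm.trans a5
  have hc : ∀ x, gm < x → x < gp → ¬ Mates S s.D s.W gm x := fun x x1 x2 x3 =>
    a6 x (.inl ⟨x1, x2⟩) (a4.trans x3)
  have hb := succ_mates m2 (by omega) hc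
  have g1 : FnGood c s V (gm + 1) ∧ FnGood c s V gp := by
    rcases hb with e | ⟨e1, e2⟩
    · obtain rfl : z = gp := by omega
      rw [← e, and_self]
      rcases hz with ⟨e, -⟩ | ⟨e, -⟩ <;> rw [e]
      exacts [fn_x hR hF hG, fn_y hR hF hG]
    · rw [← e2]
      refine fn_arc hR hF hG e1 ?_
      have : Sep S (gm + 1) z o := ⟨e1.1, by omega, by omega, by omega⟩
      rcases hz with ⟨rfl, rfl⟩ | ⟨rfl, rfl⟩
      exacts [.inl this, .inr this]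
  have g2 : ∀ θ u X R, θ = gm + 1 ∨ θ = gp → Near S s.D s.W X R (θ, u) →
      (∃ v, Near S s.D s.W X (R + s.w) (gm + 1, v)) ∧ ∃ v, Near S s.D s.W X (R + s.w) (gp, v) := by
    intro θ u X R hθ hn
    have hn' := near_mono hn Subset.rfl (by linarith : R ≤ R + s.w)
    rcases hb with e | ⟨⟨e1, v, e3, e4⟩, e2⟩
    · rw [← e, or_self] at hθ
      rw [← e, ← hθ]
      exact ⟨⟨u, hn'⟩, u, hn'⟩
    · have hl := e2 ▸ link_arc e1 e3
      rcases hθ with rfl | rfl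
      · exact ⟨⟨u, hn'⟩, v, near_link (near_col hW hn e4) hl⟩
      · exact ⟨⟨v, near_link (near_col hW hn e4) (link_symm hl)⟩, u, hn'⟩
  have g3 : ∀ b θ u, FnWall c s A b → θ = gm + 1 ∨ θ = gp →
      ¬ Near S s.D s.W (chain s.D s.W b) (80 * s.w) (θ, u) := by
    intro b θ u hb hθ hn
    have hg : FnGood c s V θ := by rcases hθ with rfl | rfl; exacts [g1.1, g1.2]
    rcases hb with hb | ⟨-, ⟨l, h, b1, b2, b3⟩ | hb⟩
    · exact fn_pin hR hF hg ((hn.trans fun p hp _ => hb p hp).mono_R (by linarith))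
    · obtain ⟨⟨v, c1⟩, v', c2⟩ := g2 θ u _ _ hθ hn
      have c3 := b3 _ (c1.mono_R (by linarith))
      have c4 := b3 _ (c2.mono_R (by linarith))
      simp only [mem_Ioc] at b1 b2 c3 c4
      omega
    · obtain ⟨t, c1, rfl⟩ := hg u (near_mem hn)
      linarith [hG.young _ c1, hb _ (hn.mono_R (by linarith)), mul_pos hR.pos c.rs_pos]
  have g4 : ∀ θ u, θ = gm + 1 ∨ θ = gp → ¬ Near S s.D s.W
      (s.Pin ∪ (chain s.D s.W bL ∪ chain s.D s.W bR)) (80 * s.w) (θ, u) := by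
    intro θ u hθ hn
    rcases Near.union.1 hn with hn | hn
    · refine fn_pin hR hF ?_ (hn.mono_R (by linarith))
      rcases hθ with rfl | rfl; exacts [g1.1, g1.2]
    · exact (Near.union.1 hn).elim (g3 _ θ u wL hθ) (g3 _ θ u wR hθ)
  have g5 : ∀ b e, FnWall c s A b → Cl S s.D s.W (chain s.D s.W b) (chain s.D s.W e) (40 * s.w) →
      ¬ Cl S s.D s.W s.Pin (chain s.D s.W e) (12 * s.w) →
      s.Unif (s.nb S (chain s.D s.W e) (12 * s.w)) := by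
    rintro b e (hb | ⟨⟨A0, b1, b2⟩, -⟩) h3 h4
    · obtain ⟨q, q1, q2⟩ := h3
      exact uni_pin hs hF.pend ⟨q, q1, (q2.trans fun p hp _ => hb p hp).mono_R (by linarith)⟩ h4
    · exact ⟨A0, b1, fun p hp => b2 p ((h3.near hW hp).mono_R (by linarith))⟩
  refine ⟨gm, gp, subset_union_left, fun _ h => .inr (.inl h), fun _ h => .inr (.inr h), by omega,
    a7, a8, by omega, hN, a4.symm, m2, a4.symm.trans hm, hc, ?_, ?_, ?_, fun e h3 h4 => ?_⟩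
  · rintro ⟨⟨θ, u⟩, ⟨rfl, q2, -⟩, q4⟩
    exact g4 _ u (.inl rfl) (near_link q4 (link_gap q2))
  · rintro ⟨⟨θ, u⟩, ⟨rfl, -⟩, q4⟩
    exact g4 _ u (.inr rfl) q4
  · rintro ⟨θ, u⟩ p1 p2 ⟨p3, p4⟩
    have k : ∀ θ, FnGood c s V θ → (θ, u) ∉ s.Pin := fun θ hg h =>
      fn_pin hR hF hg (near_self h p2 (by linarith))
    rcases hb with e | ⟨-, e⟩
    · obtain rfl : θ = gp := by simp only at p3 p4; omega
      exact k _ g1.2 p1
    · exact (hs.arc (gm + 1) θ u p3 (e ▸ p4) p1 p2).elim (k _ g1.1) (k _ (e ▸ g1.2))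
  · have h5 : ¬ Cl S s.D s.W s.Pin (chain s.D s.W e) (12 * s.w) := fun h =>
      h4 ((h.sub subset_union_left).mono (by linarith))
    obtain ⟨q, q1, q2⟩ := h3
    rcases Near.union.1 q2 with q2 | q2
    · exact uni_pin hs hF.pend ⟨q, q1, q2.mono_R (by linarith)⟩ h5
    · exact (Near.union.1 q2).elim (fun h => g5 _ e wL ⟨q, q1, h⟩ h5) fun h => g5 _ e wR ⟨q, q1, h⟩ h5

/-- The choice of the walls. -/
theorem fn_walls (hs : NB.NI S s) (hD : c.NDB s V A) : ∃ bL bR z o,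
    ((z = c.x.1 ∧ o = c.y.1) ∨ (z = c.y.1 ∧ o = c.x.1)) ∧ z ∈ Ioc bL bR ∧ o ∉ Ioc bL bR ∧
      Mates S s.D s.W bL bR ∧ bR ≤ S.N ∧ FnWall c s A bL ∧ FnWall c s A bR := by
  classical
  rcases hD with ⟨cm, cp, z, o, h1, h2, h3, h4, h5, h6⟩ | ⟨e, τ, h1, h2, h3, h4⟩
  · refine ⟨cm, cp, z, o, h1, h2, h3, fun a ⟨_, t, t1, t2⟩ => ?_, (fn_stop hR hF h5).1,
      (fn_stop hR hF h4).2, (fn_stop hR hF h5).2⟩
    by_contra hc
    exact fn_off hR hF t2 (h6 a t hc t1 t2)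
  obtain ⟨eN, eW⟩ := fn_stop hR hF h2
  obtain ⟨l, r, hlr, l1, l2, l3, l4, l5⟩ : ∃ l r, ((l = c.x.1 ∧ r = c.y.1) ∨ (l = c.y.1 ∧ r = c.x.1)) ∧
      l ≤ e ∧ e < r ∧ 1 ≤ l ∧ FnGood c s V l ∧ ∀ a, c.Both a → a ≤ l ∧ r ≤ S.mate a := by
    by_cases h : c.x.1 ≤ e
    · exact ⟨_, _, .inl ⟨rfl, rfl⟩, h, by omega, c.ptx.1, fn_x hR hF hG, fun a h => ⟨h.1, h.2.2.2⟩⟩
    · exact ⟨_, _, .inr ⟨rfl, rfl⟩, by omega, by omega, c.pty.1, fn_y hR hF hG,
        fun a h => ⟨h.2.2.1, h.2.1⟩⟩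
  have hr : ∀ b, r ∉ Ioc b e := fun b h => absurd h.2 (by omega)
  by_cases hQ : ∃ a, WArc S s.D s.W a ∧ Enc S a e
  swap
  · refine ⟨0, e, l, r, hlr, ⟨l3, l1⟩, hr _, fun a ha => ⟨fun h => ?_, fun h => absurd ⟨a, ha, h⟩ hQ⟩,
      eN, .inl fun q hq => ?_, eW⟩
    · have := (S.pos a ha.1).1
      have := h.1
      omega
    · exact absurd hq.2.1 (by rw [hs.l0]; exact id)
  obtain ⟨a, a1, a2⟩ := hQ
  obtain ⟨⟨q1, t, t1, t2⟩, q2⟩ := Nat.findGreatest_spec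
    (P := fun a => WArc S s.D s.W a ∧ Enc S a e) a2.1 ⟨a1, a2⟩
  have q3 : ∀ b, WArc S s.D s.W b → Enc S b e →
      b ≤ Nat.findGreatest (fun a => WArc S s.D s.W a ∧ Enc S a e) e := fun b b1 b2 =>
    Nat.le_findGreatest b2.1 ⟨b1, b2⟩
  generalize Nat.findGreatest (fun a => WArc S s.D s.W a ∧ Enc S a e) e = Q at q1 t1 q2 q3
  obtain ⟨k1, k2 | k2⟩ := (h4 Q t q2 t1 t2).resolve_left (fn_off hR hF t2)
  · refine ⟨Q, e, l, r, hlr, ⟨lt_of_le_of_ne (l5 Q k1).1 ?_, l1⟩, hr _, (mates_in q2 q3).1.symm, eN,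
      .inl ?_, eW⟩
    · rintro rfl
      exact fn_pin hR hF l4 (near_self k2 t2 (by linarith [hs.w0]))
    · rintro ⟨θ, u⟩ ⟨rfl, -, hu⟩
      simpa using near_col (qbsv_wd hs) (near_self k2 t2 le_rfl) hu
  have hm : Mates S s.D s.W e τ := fun b hb => ⟨fun h => ?_, fun h => ?_⟩
  rotate_left
  · rcases (q3 b hb h).eq_or_lt with rfl | h'
    · exact k2
    · exact ⟨h'.le.trans k2.1, k2.2.trans (enc_nest h q2 h')⟩
  · obtain ⟨-, v, v1, v2⟩ := hb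
    have := l5 b ((h3.arc b v h v1 v2).resolve_right (fn_off hR hF v2))
    exact ⟨this.1.trans l1, l2.trans_le this.2⟩
  by_cases h : τ < l
  · exact ⟨τ, e, l, r, hlr, ⟨h, l1⟩, hr _, hm.symm, eN, fn_term hR hF h3, eW⟩
  · have := h3.ext
    exact ⟨e, τ, r, l, hlr.symm.imp And.symm And.symm, ⟨l2, by omega⟩, fun h => absurd h.1 (by omega),
      hm, k2.2.le.trans (S.pos Q q1).2, eW, fn_term hR hF h3⟩

end

/-- The field `finN` for system B. -/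
theorem finN_B (N : NodeC (sysB S π)) (hN : ∀ s, N.NI s ↔ NB.NI S s) (c : Ctx S) :
    ∀ s V A n, N.NI s → c.Rep s V A 7 → c.NonG s V A → c.NDB s V A → c.Fin s V A →
    2 * (S.N + 1) ^ 2 + 3 ≤ n → s.w / 1600 ≤ Finset.expect Finset.univ fun ω : Om S π n =>
      |(sysB S π).proc n s ω c.x.1 (c.vx V) - (sysB S π).proc n s ω c.y.1 (V c.y.1 c.y.2)| := by
  intro s V A n hs hR hG hD hF hn
  obtain ⟨bL, bR, z, o, h1, h2, h3, h4, h5, h6, h7⟩ := fn_walls hR hF hG ((hN s).1 hs) hD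
  obtain ⟨gm, gp, H⟩ := fn_sit hR hF hG ((hN s).1 hs) h1 h2 h3 h4 h5 h6 h7
  exact serve_of_sit N hN hs hF hn h1 H h3

end Vale.Agent.P235.Pl.Qb
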