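import Vale.Agent.P235P.QBUp4
import Vale.Agent.P235P.QBFa
import Vale.Agent.P235P.QBFn
import Vale.Agent.P235P.NB
import Vale.Agent.P235P.HDefs

/-! P235 planar case: the pair statements of system B, given the birth estimate. -/

open Set

noncomputable section

namespace Vale.Agent.P235.Pl

variable {S : Sk} {π : Par} {c : Ctx S}

/-- The birth estimate of system B. -/
def BirthB (hm : 200 ≤ π.m0) (c : Ctx S) : Prop :=
  ∀ (s : St) (V : ℕ → ℝ → ℝ) (A : ℝ) (y : ℕ) (I : ℕ × ℕ) (co : Coins S) (dd : Qn π × Qn π)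
    (eo : Fin (2 * π.m0 + 2) × Qn π) (B : ℝ) (Gv : Qn π × Qn π × HS π → Bool → ℝ),
    At (sysB S π) c s (nodeB hm) V A y I co dd eo →
    Val (sysB S π) c s (ptB c) payB c.NDB V A co dd eo B Gv →
    (1 - 10 ^ 9 * (y + 1) * (A * c.r / s.w)) * (B * A) ≤
      Finset.expect Finset.univ fun u => Finset.expect Finset.univ fun σ => Gv u σ

/-- The pair statements of system B from the birth estimate. -/
def pairB_of (hm : 200 ≤ π.m0) (hB : TypeB c) (hb : BirthB hm c) :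
    PairC (sysB S π) (nodeB hm) c (ptB c) payB where
  ND := c.NDB
  birth s V A y I co dd eo B Gv h1 h2 h3 h4 h5 h6 h7 b0 b1 g0 g1 g2 g3 :=
    hb s V A y I co dd eo B Gv ⟨h1, h2, h3, h4, h5, h6, h7⟩ ⟨b0, b1, g0, g1, g2, g3⟩
  top _ _ _ _ _ I h1 hk hrep _ _ _ hch p hp u _ :=
    Qb.top_B (N := nodeB hm) h1 h1 hk (hrep.ink I hk p hp) (hch p hp) u
  step _ _ _ _ _ h1 h2 h3 h4 h5 h6 h7 h8 h9 :=
    Qb.Up.step (N := nodeB hm) ⟨h1, h1, h2, h3, h4, h6, h7, h8, h9⟩ h5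
  child _ _ _ _ _ i _ _ _ _ h _ _ := Qb.ndb_child i h
  cut _ _ _ u o _ _ h := Qb.ndb_cut u o _ h
  finA := Qb.finA_B (nodeB hm) (nodeB_NI hm) hB
  finN := Qb.finN_B (nodeB hm) (nodeB_NI hm) c

end Vale.Agent.P235.Pl
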