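import Vale.Agent.P235P.SysA

/-! P235 planar case: system B (kicks between two gaps of one class). -/

open Set Classical

noncomputable section

namespace Vale.Agent.P235.Pl

variable (S : Sk) (π : Par)

/-- The gap is `R`-far from the columns of the arcs that enclose it. -/
def FarArc (D : Lk) (W : Set ℝ) (g : ℕ) (R : ℝ) : Prop :=
  ∀ p, Near S D W (chain D W g) R p → ∀ a, WArc S D W a → Enc S a g → p.1 ≠ a ∧ p.1 ≠ S.mate a

/-- Close class mates. -/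
def relB (D : Lk) (W : Set ℝ) (R : ℝ) (g' g : ℕ) : Prop :=
  Mates S D W g' g ∧ ∃ p ∈ chain D W g', Near S D W (chain D W g) R p

/-- The target times: `true` looks to the right. -/
def tgt (d : Bool) (θ : ℕ) : Set ℕ := if d then Ici θ else Iic θ

namespace SB

def elig (s : St) (g : ℕ) : Prop :=
  (chain s.D s.W g).Nonempty ∧ s.Unif (s.nb S (chain s.D s.W g) (12 * s.w)) ∧
    Disjoint (s.nb S (chain s.D s.W g) (20 * s.w)) s.Pin ∧ FarArc S s.D s.W g (20 * s.w)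

def F (s : St) : ℕ → Prop := greedy (elig S s) (relB S s.D s.W (20 * s.w))

def Cut (s : St) (co : Coins S) (g : ℕ) : Prop :=
  chain s.D s.W g = ∅ ∨ (F S s g ∧ co (Fin.ofNat (S.N + 1) g) = true)

def cand (s : St) (co : Coins S) : Set (ℕ × ℕ) :=
  {I | I.1 < I.2 ∧ I.2 ≤ S.N ∧ Cut S s co I.1 ∧ Cut S s co I.2 ∧ Mates S s.D s.W I.1 I.2 ∧
    (∀ g, I.1 < g → g < I.2 → Mates S s.D s.W I.1 g → ¬ Cut S s co g) ∧
    (∀ p ∈ s.Pin, p.2 ∈ s.W → p.1 ∉ tm I) ∧ s.w / 2 ≤ s.hi - s.lo}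

/-- The wall of the side `d` (`true`: left wall, looking to the right). -/
def wall (I : ℕ × ℕ) (d : Bool) : ℕ := if d then I.1 else I.2

def src (s : St) (I : ℕ × ℕ) : Set (ℕ × ℝ) := chain s.D s.W I.1 ∪ chain s.D s.W I.2

def Zd (s : St) (I : ℕ × ℕ) (d : Bool) : Set ℕ :=
  {θ | θ ∈ tm I ∧ ∃ p ∈ s.nb S (chain s.D s.W (wall I d)) (5 * s.w), p.1 ∈ tm I ∧ p.1 ∈ tgt d θ}

/-- The monotone hull of the distance to a wall. -/
def g0 (D : Lk) (W : Set ℝ) (w : ℝ) (I : ℕ × ℕ) (d : Bool) : ℕ → ℝ → ℝ :=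
  envT S D W (chain D W (wall I d)) (fun _ => 0) 1 (fun θ => tgt d θ ∩ tm I) (5 * w)

/-- The one sided function of a cell. -/
def E (D : Lk) (H : ℕ → ℝ → ℝ) (κ : Cone) (J : ℕ × ℕ) (d : Bool) : ℕ → ℝ → ℝ :=
  envT S D κ.Ip (chain D κ.Ip (wall J d)) (fun p => H p.1 p.2) (1 / 16)
    (fun θ => tgt d θ ∩ tm J) (κ.a + 2 * κ.s)

def eligP (s : St) (D : Lk) (I : ℕ × ℕ) (δ : ℝ) (H : ℕ → ℝ → ℝ) (κ : Cone) (e : ℕ) : Prop :=
  (chain D κ.Ip e).Nonempty ∧ I.1 < e ∧ e < I.2 ∧ FarArc S D κ.Ip e (1000 * κ.s) ∧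
    (∀ p, Near S D κ.Ip (chain D κ.Ip e) κ.s p → dc S s.D s.W (src s I) (20 * s.w) p ≤ δ) ∧
    ∀ p : ℕ × ℝ, (Near S D κ.Ip (chain D κ.Ip e) κ.s p ∨ p.1 = e ∨ p.1 = e + 1) →
      |p.2 - κ.t| ≤ 28 * κ.s → H p.1 p.2 ≤ κ.a - κ.s

def Fp (s : St) (D : Lk) (I : ℕ × ℕ) (δ : ℝ) (H : ℕ → ℝ → ℝ) (κ : Cone) : ℕ → Prop :=
  greedy (eligP S s D I δ H κ) (relB S D κ.Ip (1000 * κ.s))

/-- `η < c < η'` are consecutive members of one class and `η` has rank divisible by three. -/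
def Triple (D : Lk) (W : Set ℝ) (Fm : ℕ → Prop) (η c η' : ℕ) : Prop :=
  η < c ∧ c < η' ∧ Fm η ∧ Fm c ∧ Fm η' ∧ Mates S D W η c ∧ Mates S D W η η' ∧
    (∀ e, η < e → e < η' → Fm e → Mates S D W η e → e = c) ∧
    Set.ncard {e | e < η ∧ Fm e ∧ Mates S D W η e} % 3 = 0

def hp (s : St) (D : Lk) (I : ℕ × ℕ) (δ : ℝ) (d : Bool) : HP where
  S := S
  D := D
  W := s.W
  s1 := sTop π s.w (s.labA (chain s.D s.W (wall I d)))
  H0 θ t := g0 S D s.W s.w I d θ t / 16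
  cells H κ := {x | ∃ η c η', Triple S D κ.Ip (Fp S s D I δ H κ) η c η' ∧
    x = ((η, η'), fun θ t => min (E S D H κ (η, η') true θ t) (E S D H κ (η, η') false θ t))}

end SB

def sysB : Sys S π where
  cand := SB.cand S
  src := SB.src
  Z s I := SB.Zd S s I true ∪ SB.Zd S s I false
  heal s D I δ hs :=
    { H := fun θ t => min (((SB.hp S π s D I δ true).out hs).H θ t)
        (((SB.hp S π s D I δ false).out hs).H θ t)
      dn := fun θ t => if ((SB.hp S π s D I δ true).out hs).H θ t ≤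
          ((SB.hp S π s D I δ false).out hs).H θ t
        then ((SB.hp S π s D I δ true).out hs).dn θ t
        else ((SB.hp S π s D I δ false).out hs).dn θ t }

end Vale.Agent.P235.Pl
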