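import Vale.Agent.P235P.QB0
import Vale.Agent.P235P.SysB

/-! The search for a cut in one direction. -/

open Set

namespace Vale.Agent.P235.Pl.Qb

variable {S : Sk} {D : Lk} {W : Set ℝ} {p q : ℕ × ℝ} {w R : ℝ} {e e' e₁ e₂ g b b' c θ : ℕ}
  {B X Pin : Set (ℕ × ℝ)} {s : St}

/-- Strictly between. -/
def SBt (a b e : ℕ) : Prop := (a < e ∧ e < b) ∨ (b < e ∧ e < a)

/-- Weakly between. -/
def Bt (a b e : ℕ) : Prop := (a ≤ e ∧ e ≤ b) ∨ (b ≤ e ∧ e ≤ a)

/-- A pin between the ends of an arc gives a pin on one of its columns. -/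
def PArc (S : Sk) (W : Set ℝ) (Pin : Set (ℕ × ℝ)) : Prop :=
  ∀ a θ t, a ≤ θ → θ ≤ S.mate a → (θ, t) ∈ Pin → t ∈ W → (a, t) ∈ Pin ∨ (S.mate a, t) ∈ Pin

theorem cl_mid (hm : Mates S D W e₁ e₂) (he : SBt e₁ e₂ e)
    (hX : ∀ q ∈ X, (q.1 ≤ e₁ ↔ q.1 ≤ e₂) ∨ q ∈ chain D W e₁ ∨ q ∈ chain D W e₂)
    (h : Cl S D W (chain D W e) X R) :
    Cl S D W (chain D W e) (chain D W e₁) R ∨ Cl S D W (chain D W e) (chain D W e₂) R := by
  obtain ⟨q, hq, p, hp, k, hk, h⟩ := h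
  rcases hX q hq with h1 | h1 | h1
  · have h2 : p.1 = e := hp.1
    obtain ⟨z, c₁, c₂, hz, h3, h4, h5⟩ := bar_mates hm h (by unfold SBt at he; omega) h1
    have := r_nonneg h4
    exact hz.imp (fun hz => ⟨z, hz, p, hp, c₁, by linarith, h3⟩)
      fun hz => ⟨z, hz, p, hp, c₁, by linarith, h3⟩
  · exact Or.inl ⟨q, h1, p, hp, k, hk, h⟩
  · exact Or.inr ⟨q, h1, p, hp, k, hk, h⟩

theorem cl_mid' (hm : Mates S D W e₁ e₂) (he : SBt e₁ e₂ e) (he' : ¬ SBt e₁ e₂ e')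
    (h : Cl S D W (chain D W e) (chain D W e') R) :
    Cl S D W (chain D W e) (chain D W e₁) R ∨ Cl S D W (chain D W e) (chain D W e₂) R := by
  refine cl_mid hm he (fun q hq => ?_) h
  have h1 : q.1 = e' := hq.1
  by_cases h2 : e' = e₁
  · exact Or.inr (Or.inl (h2 ▸ hq))
  by_cases h3 : e' = e₂
  · exact Or.inr (Or.inr (h3 ▸ hq))
  left
  unfold SBt at he'
  omega

/-- The branch of a time. -/
theorem branch (hm : Mates S D W g c) (hθ : ¬ (θ ≤ g ↔ θ ≤ c)) : ∃ e e', Bt g c e ∧ Bt g c e' ∧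
    (g < c → e < θ ∧ θ ≤ e') ∧ (c < g → e' < θ ∧ θ ≤ e) ∧ Mates S D W g e ∧ Mates S D W g e' ∧
    ∀ x, SBt e e' x → ¬ Mates S D W g x := by
  classical
  have h1 : ∃ x, θ ≤ x ∧ Mates S D W g x := by
    by_cases h : θ ≤ g
    · exact ⟨g, h, Mates.refl _ _ _ _⟩
    · exact ⟨c, by omega, hm⟩
  have h2 : ∃ x, x < θ ∧ Mates S D W g x ∧ ∀ y, y < θ → Mates S D W g y → y ≤ x := by
    have h3 : ∃ x, x ≤ θ ∧ (x < θ ∧ Mates S D W g x) := by
      by_cases h : θ ≤ g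
      · exact ⟨c, by omega, by omega, hm⟩
      · exact ⟨g, by omega, by omega, Mates.refl _ _ _ _⟩
    obtain ⟨x, hx, hx'⟩ := h3
    have h4 := Nat.findGreatest_spec (P := fun x => x < θ ∧ Mates S D W g x) hx hx'
    exact ⟨_, h4.1, h4.2, fun y hy hy' => Nat.le_findGreatest hy.le ⟨hy, hy'⟩⟩
  obtain ⟨lo, l1, l2, l3⟩ := h2
  have u1 := (Nat.find_spec h1).1
  have u2 := (Nat.find_spec h1).2
  have u3 : ∀ y, θ ≤ y → Mates S D W g y → Nat.find h1 ≤ y := fun y a b => Nat.find_min' h1 ⟨a, b⟩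
  generalize Nat.find h1 = hi at u1 u2 u3
  have k1 := l3 g
  have k2 := l3 c
  have k3 := u3 g
  have k4 := u3 c
  simp only [Mates.refl, hm, forall_const] at k1 k2 k3 k4
  have hc : ∀ x, SBt lo hi x ∨ SBt hi lo x → ¬ Mates S D W g x := fun x hx h => by
    have := l3 x
    have := u3 x
    simp only [h, forall_const] at *
    unfold SBt at hx
    omega
  by_cases h : g < c
  · exact ⟨lo, hi, by unfold Bt; omega, by unfold Bt; omega, by omega, by omega, l2, u2,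
      fun x hx => hc x (Or.inl hx)⟩
  · exact ⟨hi, lo, by unfold Bt; omega, by unfold Bt; omega, by omega, by omega, u2, l2,
      fun x hx => hc x (Or.inr hx)⟩

/-- A pin in a branch is close to the chains at its ends. -/
theorem pin_branch (hW : Wd W w) (hP : PArc S W Pin) (hm : Mates S D W e e')
    (hc : ∀ x, SBt e e' x → ¬ Mates S D W e x) (hq : q ∈ chain D W e) (hp : p ∈ Pin) (hp2 : p.2 ∈ W)
    (hb : ¬ (p.1 ≤ e ↔ p.1 ≤ e')) : Near S D W Pin (2 * w) q := by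
  obtain ⟨x, t⟩ := q
  obtain ⟨y, u⟩ := p
  obtain ⟨rfl, h1, h2⟩ : x = e ∧ t ∈ D.L e ∧ t ∈ W := hq
  have hw : 0 ≤ w := (abs_nonneg _).trans (hW _ h2 _ h2)
  have k1 : ∀ z, (z, u) ∈ Pin → ∀ v ∈ W, Near S D W Pin w (z, v) := fun z hz v hv => by
    simpa using near_col hW (near_self hz hp2 le_rfl) hv
  have k2 : ∀ z z' v, (z, u) ∈ Pin → v ∈ W → Link S D z z' v → Near S D W Pin (2 * w) (z', t) :=
    fun z z' v hz hv hl => near_mono (near_col hW (near_link (k1 z hz v hv) hl) h2) Subset.rfl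
      (by linarith)
  have k3 : ∀ z, (z, u) ∈ Pin → Near S D W Pin (2 * w) (z, t) := fun z hz =>
    near_mono (k1 z hz t h2) Subset.rfl (by linarith)
  simp only at hb
  rcases lt_or_gt_of_ne (show x ≠ e' by rintro rfl; exact hb Iff.rfl) with h | h
  · refine near_link ?_ (link_symm (link_gap h1))
    rcases succ_mates hm h (fun g a b => hc g (Or.inl ⟨a, b⟩)) with h3 | ⟨⟨h3, v, hv, hv'⟩, h4⟩
    · exact k3 _ ((show y = x + 1 by omega) ▸ hp)
    · rcases hP (x + 1) y u (by omega) (by omega) hp hp2 with h5 | h5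
      · exact k3 _ h5
      · exact k2 _ _ v h5 hv' (link_symm (link_arc h3 hv))
  · rcases succ_mates hm.symm h (fun g a b hg => hc g (Or.inr ⟨a, b⟩) (hm.trans hg)) with
      h3 | ⟨⟨h3, v, hv, hv'⟩, h4⟩
    · exact k3 _ ((show y = x by omega) ▸ hp)
    · rcases hP (e' + 1) y u (by omega) (by omega) hp hp2 with h5 | h5
      · exact h4 ▸ k2 _ _ v h5 hv' (link_arc h3 hv)
      · exact k3 _ (h4 ▸ h5)

theorem succ_cl (hW : Wd W w) (hm : Mates S D W e e') (hne : e ≠ e')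
    (hc : ∀ x, SBt e e' x → ¬ Mates S D W e x) (hq : q ∈ chain D W e) (hp : p ∈ chain D W e') :
    Cl S D W (chain D W e') (chain D W e) (2 * w) := by
  obtain ⟨x, t⟩ := q
  obtain ⟨y, u⟩ := p
  obtain rfl : x = e := hq.1
  obtain rfl : y = e' := hp.1
  rcases lt_or_gt_of_ne hne with h | h
  · obtain ⟨k, hk, h1⟩ := succ_near hW hm h (fun g a b => hc g (Or.inl ⟨a, b⟩)) hq.2.1 hq.2.2 hp.2.2
    exact ⟨_, hq, _, hp, k, hk, r_symm h1⟩
  · obtain ⟨k, hk, h1⟩ := succ_near hW hm.symm h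
      (fun g a b hg => hc g (Or.inr ⟨a, b⟩) (hm.trans hg)) hp.2.1 hp.2.2 hq.2.2
    exact ⟨_, hq, _, hp, k, hk, h1⟩

/-- The neighbourhood of the chain of `e` reaches the side of `g` on which `θ` lies. -/
def Harm (S : Sk) (s : St) (g θ e : ℕ) : Prop :=
  ∃ q, Near S s.D s.W (chain s.D s.W e) (5 * s.w) q ∧ (q.1 ≤ g ↔ θ ≤ g)

theorem search1 (hW : Wd s.W s.w) (hw : 0 < s.w) (hP : PArc S s.W s.Pin) (hPB : s.Pin ⊆ B)
    (hb : chain s.D s.W b ⊆ B) (hb' : chain s.D s.W b' ⊆ B) (hm : Mates S s.D s.W g b)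
    (hm' : Mates S s.D s.W g b') (ho : (θ ≤ g ∧ g ≤ b ∧ b' < θ) ∨ (g < θ ∧ b ≤ g ∧ θ ≤ b'))
    (hG : ¬ Cl S s.D s.W B (chain s.D s.W g) (80 * s.w))
    (hV : ∀ e, Mates S s.D s.W g e → Cl S s.D s.W B (chain s.D s.W e) (40 * s.w) →
      ¬ Cl S s.D s.W B (chain s.D s.W e) (30 * s.w) →
      s.Unif (s.nb S (chain s.D s.W e) (12 * s.w))) :
    ∃ c, Bt g b c ∧ Mates S s.D s.W g c ∧ (chain s.D s.W c = ∅ ∨ SB.F S s c) ∧
      (∀ p ∈ s.Pin, p.2 ∈ s.W → (p.1 ≤ g ↔ p.1 ≤ c)) ∧ ¬ Harm S s g θ c := by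
  obtain ⟨e1, ⟨a1, a2, a3⟩, hmin⟩ :=
    (InvImage.wf (fun e : ℕ => ((e : ℤ) - g).natAbs) wellFounded_lt).has_min
    {e | Bt g b e ∧ Mates S s.D s.W g e ∧
      (chain s.D s.W e = ∅ ∨ Cl S s.D s.W B (chain s.D s.W e) (30 * s.w))}
    ⟨b, by unfold Bt; omega, hm, (chain s.D s.W b).eq_empty_or_nonempty.imp_right
      fun ⟨q, hq⟩ => ⟨q, hq, near_self (hb hq) hq.2.2 (by linarith)⟩⟩
  have hA : ∀ e, Bt g e1 e → e ≠ e1 → Mates S s.D s.W g e → (chain s.D s.W e).Nonempty ∧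
      ¬ Cl S s.D s.W B (chain s.D s.W e) (30 * s.w) := fun e h1 h2 h3 => by
    have h4 : ¬ (chain s.D s.W e = ∅ ∨ Cl S s.D s.W B (chain s.D s.W e) (30 * s.w)) := fun h =>
      hmin e ⟨by unfold Bt at *; omega, h3, h⟩ (by
        show ((e : ℤ) - g).natAbs < ((e1 : ℤ) - g).natAbs
        unfold Bt at h1
        omega)
    exact ⟨nonempty_iff_ne_empty.2 fun h => h4 (Or.inl h), fun h => h4 (Or.inr h)⟩
  have hpin : ∀ e e' q, Mates S s.D s.W g e → Mates S s.D s.W g e' →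
      (∀ x, SBt e e' x → ¬ Mates S s.D s.W g x) → q ∈ chain s.D s.W e → ∀ p ∈ s.Pin, p.2 ∈ s.W →
      ¬ (p.1 ≤ e ↔ p.1 ≤ e') → Cl S s.D s.W B (chain s.D s.W e) (2 * s.w) :=
    fun e e' q h1 h2 h3 hq p hp hp2 h4 => ⟨q, hq, near_mono (pin_branch hW hP (h1.symm.trans h2)
      (fun x hx h => h3 x hx (h1.trans h)) hq hp hp2 h4) hPB le_rfl⟩
  rcases a3 with a3 | a3
  · refine ⟨e1, a1, a2, Or.inl a3, fun p hp hp2 => ?_, ?_⟩
    · by_contra h
      obtain ⟨e, e', b1, b2, b3, b4, b5, b6, b7⟩ := branch a2 h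
      obtain ⟨⟨q, hq⟩, h2⟩ := hA e b1 (by omega) b5
      exact h2 ((hpin e e' q b5 b6 b7 hq p hp hp2 (by omega)).mono (by linarith))
    · rintro ⟨q, ⟨p, hp, -⟩, -⟩
      rw [a3] at hp
      exact hp
  have hne : e1 ≠ g := fun h => hG ((h ▸ a3).mono (by linarith))
  obtain ⟨e0, e', b1, b2, b3, b4, b5, b6, b7⟩ :=
    branch (θ := if g < e1 then e1 else e1 + 1) a2 (by split_ifs <;> omega)
  have h01 : e' = e1 ∧ e0 ≠ e1 := by
    unfold Bt at b2
    split_ifs at b3 b4 <;> omega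
  obtain ⟨rfl, h01⟩ := h01
  obtain ⟨⟨q0, hq0⟩, hn0⟩ := hA e0 b1 h01 b5
  have h33 : Cl S s.D s.W B (chain s.D s.W e0) (33 * s.w) := by
    obtain ⟨q1, hq1, -⟩ := id a3
    exact (a3.trans hW (succ_cl hW (b5.symm.trans b6) h01
      (fun x hx h => b7 x hx (b5.trans h)) hq0 hq1)).mono (by linarith)
  have hg0 : e0 ≠ g := fun h => hG ((h ▸ h33).mono (by linarith))
  have hnb : ∀ {X}, X ⊆ B → ¬ Cl S s.D s.W (chain s.D s.W e0) X (30 * s.w) :=
    fun hX h => hn0 (h.symm.sub hX)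
  have hng : ¬ Cl S s.D s.W (chain s.D s.W e0) (chain s.D s.W g) (30 * s.w) :=
    fun h => hG ((h33.trans hW h).mono (by linarith))
  have hel : SB.elig S s e0 := by
    refine ⟨⟨q0, hq0⟩, hV e0 b5 (h33.mono (by linarith)) hn0, disjoint_left.2 fun p h1 h2 =>
      hnb hPB (Cl.mono ⟨p, h2, h1⟩ (by linarith)), fun p hp a ha h1 => ?_⟩
    by_contra h2
    have h3 := (b5.symm.trans hm a ha).1 h1
    have h4 := (b5.symm.trans hm' a ha).1 h1
    rcases cl_mid (X := {p}) (hm.symm.trans hm') (e := e0) (by unfold SBt Bt at *; omega)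
      (fun q hq => Or.inl (by rw [hq]; unfold Enc at h3 h4; omega)) ⟨p, rfl, hp⟩ with h | h
    · exact hnb hb (h.mono (by linarith))
    · exact hnb hb' (h.mono (by linarith))
  obtain ⟨c, c1, c2, c3⟩ : ∃ c, SB.F S s c ∧ Mates S s.D s.W g c ∧
      Cl S s.D s.W (chain s.D s.W e0) (chain s.D s.W c) (20 * s.w) := by
    by_cases h : SB.F S s e0
    · exact ⟨e0, h, b5, q0, hq0, near_self hq0 hq0.2.2 (by linarith)⟩
    · unfold SB.F at h
      rw [greedy_iff] at h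
      push Not at h
      obtain ⟨c, -, h1, h2, h3⟩ := h hel
      exact ⟨c, h1, b5.trans h2.symm, h3⟩
  have hs0 : SBt g b e0 := by
    unfold SBt Bt at *
    omega
  have hsc : SBt g b c := by
    by_contra h
    rcases cl_mid' hm hs0 h c3 with h | h
    · exact hng (h.mono (by linarith))
    · exact hnb hb (h.mono (by linarith))
  refine ⟨c, by unfold SBt Bt at *; omega, c2, Or.inr c1, fun p hp hp2 => ?_, ?_⟩
  · by_contra h
    obtain ⟨e, e'', d1, d2, d3, d4, d5, d6, d7⟩ := branch c2 h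
    by_cases h1 : Bt g e' e ∧ e ≠ e'
    · obtain ⟨⟨q, hq⟩, h2⟩ := hA e h1.1 h1.2 d5
      exact h2 ((hpin e e'' q d5 d6 d7 hq p hp hp2 (by omega)).mono (by linarith))
    · rcases cl_mid' d5 (e := e0) (by unfold SBt Bt at *; omega) (by unfold SBt Bt at *; omega) c3
        with h2 | h2
      · exact hng (h2.mono (by linarith))
      · obtain ⟨q, hq, -⟩ := id h2
        exact hn0 (((hpin e e'' q d5 d6 d7 hq p hp hp2 (by omega)).trans hW h2.symm).mono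
          (by linarith))
  · rintro ⟨q, h1, h2⟩
    rcases cl_mid (X := {q}) hm hsc (fun q' hq => Or.inl (by rw [hq]; omega)) ⟨q, rfl, h1⟩ with h | h
    · exact hng ((c3.trans hW h).mono (by linarith))
    · exact hnb hb ((c3.trans hW h).mono (by linarith))

end Vale.Agent.P235.Pl.Qb
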