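import Vale.Agent.P235P.QBSe1

/-! The search for a served interval. -/

open Set

namespace Vale.Agent.P235.Pl.Qb

variable {S : Sk} {e e' g bL bR gm gp θ : ℕ} {B : Set (ℕ × ℝ)} {s : St}

theorem coin_prob {ι : Type} [Fintype ι] [DecidableEq ι] (T : Finset ι) (pat : ι → Bool) :
    Finset.expect Finset.univ (fun co : ι → Bool => if ∀ i ∈ T, co i = pat i then (1 : ℝ) else 0) =
      (1 / 2) ^ T.card := by
  have h1 : ∀ co : ι → Bool, (if ∀ i ∈ T, co i = pat i then (1 : ℝ) else 0) =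
      ∏ i, if i ∈ T then (if co i = pat i then 1 else 0) else 1 := fun co => by
    rw [Finset.prod_ite_mem, Finset.univ_inter, Finset.prod_boole]
    by_cases h : ∀ i ∈ T, co i = pat i
    · rw [if_pos h, if_pos h]
    · rw [if_neg h, if_neg h]
  have h2 : ∀ i, (∑ b : Bool, if i ∈ T then (if b = pat i then (1 : ℝ) else 0) else 1) =
      2 * if i ∈ T then 1 / 2 else 1 := fun i => by
    by_cases h : i ∈ T <;> simp [h]
  simp only [h1]
  rw [Finset.expect_eq_sum_div_card, ← Fintype.piFinset_univ, ← Finset.prod_univ_sum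
    (fun _ => Finset.univ) fun i b => if i ∈ T then (if b = pat i then (1 : ℝ) else 0) else 1]
  simp only [h2]
  rw [Finset.prod_mul_distrib, Finset.prod_ite_mem, Finset.univ_inter]
  simp

/-- A harmful member of the family is close to the chain of `g`. -/
theorem harm_cl (hw : 0 < s.w) (hF : SB.F S s e) (hm : Mates S s.D s.W g e)
    (ho : (θ ≤ g ∧ g ≤ e) ∨ (g < θ ∧ e ≤ g)) (h : Harm S s g θ e) :
    Cl S s.D s.W (chain s.D s.W e) (chain s.D s.W g) (5 * s.w) := by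
  obtain ⟨q, ⟨p, hp, k, hk, h1⟩, h2⟩ := h
  by_cases h0 : e = g
  · exact ⟨p, h0 ▸ hp, near_self hp hp.2.2 (by linarith)⟩
  have h3 : p.1 = e := hp.1
  obtain ⟨z, c₁, c₂, hz, h4, h5, h6⟩ := bar_gap (g := g) h1 (by omega)
  have := r_nonneg h5
  rcases hz with hz | ⟨a, ha, h7, h8, -⟩
  · exact ⟨z, hz, p, hp, c₁, by linarith, h4⟩
  · have h9 := ((greedy_iff _ _ _).1 hF).1.2.2.2 z ⟨p, hp, c₁, by linarith, h4⟩ a ha ((hm a ha).1 h7)
    exact (h8.1.elim h9.1 h9.2).elim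

theorem harm_sub (hW : Wd s.W s.w) (hw : 0 < s.w) : Set.Subsingleton {e | SB.F S s e ∧
    Mates S s.D s.W g e ∧ ((θ ≤ g ∧ g ≤ e) ∨ (g < θ ∧ e ≤ g)) ∧ Harm S s g θ e} := by
  have key : ∀ e e', e' < e → SB.F S s e → SB.F S s e' → Mates S s.D s.W e' e →
      ¬ Cl S s.D s.W (chain s.D s.W e) (chain s.D s.W e') (11 * s.w) := fun e e' h h1 h2 h3 h4 =>
    ((greedy_iff _ _ _).1 h1).2 e' h h2 ⟨h3, h4.mono (by linarith)⟩
  rintro e ⟨a1, a2, a3, a4⟩ e' ⟨b1, b2, b3, b4⟩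
  have h := ((harm_cl hw a1 a2 a3 a4).trans hW (harm_cl hw b1 b2 b3 b4).symm).mono
    (show 5 * s.w + s.w + 5 * s.w ≤ 11 * s.w by linarith)
  rcases lt_trichotomy e e' with h1 | h1 | h1
  · exact absurd h.symm (key e' e h1 b1 a1 (a2.symm.trans b2))
  · exact h1
  · exact absurd h (key e e' h1 a1 b1 (b2.symm.trans a2))

/-- The hypotheses of the search. -/
structure Sit (S : Sk) (s : St) (B : Set (ℕ × ℝ)) (bL gm θ gp bR : ℕ) : Prop where
  pin : s.Pin ⊆ B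
  cL : chain s.D s.W bL ⊆ B
  cR : chain s.D s.W bR ⊆ B
  o1 : bL ≤ gm
  o2 : gm < θ
  o3 : θ ≤ gp
  o4 : gp ≤ bR
  o5 : bR ≤ S.N
  m1 : Mates S s.D s.W gm bL
  m2 : Mates S s.D s.W gm gp
  m3 : Mates S s.D s.W gm bR
  cons : ∀ x, gm < x → x < gp → ¬ Mates S s.D s.W gm x
  gL : ¬ Cl S s.D s.W B (chain s.D s.W gm) (80 * s.w)
  gR : ¬ Cl S s.D s.W B (chain s.D s.W gp) (80 * s.w)
  zp : ∀ p ∈ s.Pin, p.2 ∈ s.W → p.1 ∉ Ioc gm gp
  uni : ∀ e, Cl S s.D s.W B (chain s.D s.W e) (40 * s.w) →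
    ¬ Cl S s.D s.W B (chain s.D s.W e) (30 * s.w) → s.Unif (s.nb S (chain s.D s.W e) (12 * s.w))

theorem search (hW : Wd s.W s.w) (hw : 0 < s.w) (hP : PArc S s.W s.Pin)
    (hh : s.w / 2 ≤ s.hi - s.lo) (H : Sit S s B bL gm θ gp bR) :
    ∃ (T : Finset (Fin (S.N + 1))) (pat : Fin (S.N + 1) → Bool), T.card ≤ 4 ∧
      ∀ co : Coins S, (∀ i ∈ T, co i = pat i) → ∃ I ∈ SB.cand S s co, θ ∈ tm I ∧ bL ≤ I.1 ∧
        I.2 ≤ bR ∧ ∀ d, θ ∉ SB.Zd S s I d := by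
  classical
  have o1 := H.o1
  have o2 := H.o2
  have o3 := H.o3
  have o4 := H.o4
  have o5 := H.o5
  obtain ⟨cm, a1, a2, a3, a4, a5⟩ := search1 (θ := θ) hW hw hP H.pin H.cL H.cR H.m1 H.m3
    (by omega) H.gL fun e _ => H.uni e
  obtain ⟨cp, b1, b2, b3, b4, b5⟩ := search1 (θ := θ) hW hw hP H.pin H.cR H.cL (H.m2.symm.trans H.m3)
    (H.m2.symm.trans H.m1) (by omega) H.gR fun e _ => H.uni e
  unfold Bt at a1 b1
  let Hs : ℕ → Set ℕ := fun g => {e | SB.F S s e ∧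
    Mates S s.D s.W g e ∧ ((θ ≤ g ∧ g ≤ e) ∨ (g < θ ∧ e ≤ g)) ∧ Harm S s g θ e}
  have hs : ∀ g, ∃ x, Hs g ⊆ {x} := fun g => by
    rcases (harm_sub (S := S) (g := g) (θ := θ) hW hw).eq_empty_or_singleton with h | ⟨x, h⟩
    · exact ⟨0, fun e he => absurd (h ▸ he : e ∈ (∅ : Set ℕ)) id⟩
    · exact ⟨x, h.subset⟩
  obtain ⟨xm, hxm⟩ := hs gm
  obtain ⟨xp, hxp⟩ := hs gp
  have hv : ∀ e, e ≤ S.N → ((Fin.ofNat (S.N + 1) e : Fin (S.N + 1)) : ℕ) = e := fun e he =>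
    Nat.mod_eq_of_lt (by omega)
  refine ⟨({cm, cp, xm, xp} : Finset ℕ).image (Fin.ofNat (S.N + 1)),
    fun i => decide (i.1 ∉ Hs gm ∧ i.1 ∉ Hs gp), Finset.card_image_le.trans Finset.card_le_four,
    fun co hco => ?_⟩
  have hon : ∀ e ∈ ({cm, cp, xm, xp} : Finset ℕ), e ≤ S.N →
      (co (Fin.ofNat (S.N + 1) e) = true ↔ e ∉ Hs gm ∧ e ∉ Hs gp) := fun e he he' => by
    rw [hco _ (Finset.mem_image_of_mem _ he), decide_eq_true_iff, hv e he']
  have hcm : SB.Cut S s co cm := a3.imp_right fun h => ⟨h, (hon cm (by simp) (by omega)).2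
    ⟨fun h => a5 h.2.2.2, fun h => by have := h.2.2.1; omega⟩⟩
  have hcp : SB.Cut S s co cp := b3.imp_right fun h => ⟨h, (hon cp (by simp) (by omega)).2
    ⟨fun h => by have := h.2.2.1; omega, fun h => b5 h.2.2.2⟩⟩
  have hoff : ∀ g e, g = gm ∨ g = gp → e ≤ S.N → SB.Cut S s co e → Mates S s.D s.W g e →
      ((θ ≤ g ∧ g ≤ e) ∨ (g < θ ∧ e ≤ g)) → ¬ Harm S s g θ e := fun g e hg he h1 h2 h3 h4 => by
    rcases h1 with h1 | h1
    · obtain ⟨q, ⟨p, hp, -⟩, -⟩ := h4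
      rw [h1] at hp
      exact hp
    · have h5 : e ∈ Hs g := ⟨h1.1, h2, h3, h4⟩
      rcases hg with rfl | rfl
      · exact ((hon e (by simp [show e = xm from hxm h5]) he).1 h1.2).1 h5
      · exact ((hon e (by simp [show e = xp from hxp h5]) he).1 h1.2).2 h5
  have h1 : ∃ x, gp ≤ x ∧ Mates S s.D s.W gm x ∧ SB.Cut S s co x :=
    ⟨cp, by omega, H.m2.trans b2, hcp⟩
  obtain ⟨u1, u2, u3⟩ := Nat.find_spec h1
  have u4 : ∀ y, gp ≤ y → Mates S s.D s.W gm y → SB.Cut S s co y → Nat.find h1 ≤ y :=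
    fun y a b c => Nat.find_min' h1 ⟨a, b, c⟩
  generalize Nat.find h1 = c' at u1 u2 u3 u4
  obtain ⟨v2, v3⟩ := Nat.findGreatest_spec
    (P := fun x => Mates S s.D s.W gm x ∧ SB.Cut S s co x) (show cm ≤ gm by omega) ⟨a2, hcm⟩
  have v4 : ∀ y, y ≤ gm → Mates S s.D s.W gm y → SB.Cut S s co y → y ≤ Nat.findGreatest
      (fun x => Mates S s.D s.W gm x ∧ SB.Cut S s co x) gm := fun y a b c =>
    Nat.le_findGreatest a ⟨b, c⟩
  have v1 := Nat.findGreatest_le (P := fun x => Mates S s.D s.W gm x ∧ SB.Cut S s co x) gm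
  generalize Nat.findGreatest (fun x => Mates S s.D s.W gm x ∧ SB.Cut S s co x) gm = c
    at v1 v2 v3 v4
  have w1 := u4 cp (by omega) (H.m2.trans b2) hcp
  have w2 := v4 cm (by omega) a2 hcm
  refine ⟨(c, c'), ⟨by simp only; omega, by simp only; omega, v3, u3, v2.symm.trans u2,
    fun x x1 x2 x3 x4 => ?_, fun p hp hp2 h => ?_, hh⟩, ⟨by simp only; omega, u1.trans' o3⟩,
    by simp only; omega, by simp only; omega, fun d => ?_⟩
  · have k1 := u4 x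
    have k2 := v4 x
    have k3 := H.cons x
    simp only [v2.trans x3, x4, forall_const, not_true_eq_false, imp_false] at k1 k2 k3 x1 x2
    omega
  · have k1 := a4 p hp hp2
    have k2 := b4 p hp hp2
    have k3 := H.zp p hp hp2
    simp only [tm, mem_Ioc] at h k3
    omega
  · rintro ⟨-, p, hp, -, h⟩
    cases d
    · exact hoff gp c' (Or.inr rfl) (by omega) u3 (H.m2.symm.trans u2) (by omega)
        ⟨p, hp, by have : p.1 ≤ θ := h; omega⟩
    · exact hoff gm c (Or.inl rfl) (by omega) v3 v2 (by omega)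
        ⟨p, hp, by have : θ ≤ p.1 := h; omega⟩

end Vale.Agent.P235.Pl.Qb
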