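import Vale.Agent.P235P.QBTop
import Vale.Agent.P235P.QBSe2
import Vale.Agent.P235P.EServe

/-! P235 planar case: a successful search serves the pair. -/

open Set Classical

namespace Vale.Agent.P235.Pl.Qb

variable {S : Sk} {π : Par}

theorem qbsv_wd {s : St} (hs : NB.NI S s) : Wd s.W s.w := fun _ h _ h' =>
  abs_le.2 ⟨by linarith [h.1, h'.2, hs.len], by linarith [h.2, h'.1, hs.len]⟩

theorem qbsv_main (N : NodeC (sysB S π)) (hN : ∀ s, N.NI s ↔ NB.NI S s) {s : St} {n : ℕ}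
    (hs : N.NI s) (hp : s.pend = none) (hk : s.kick = none) (hf : s.hi - s.lo = s.w)
    (hn : 2 * (S.N + 1) ^ 2 + 3 ≤ n) {B : Set (ℕ × ℝ)} {bL gm gp bR z o : ℕ} {a b : ℝ}
    (ha : s.lo + s.w / 4 ≤ a ∧ a ≤ s.hi - s.w / 4) (hab : |a - b| ≤ s.w / 100)
    (H : Sit S s B bL gm z gp bR) (ho : o ∉ Ioc bL bR) :
    s.w / 1600 ≤ Finset.expect Finset.univ fun ω : Om S π n =>
      |(sysB S π).proc n s ω z a - (sysB S π).proc n s ω o b| := by
  have h0 := (hN s).1 hs
  have hw := h0.w0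
  obtain ⟨T, pat, hT, h⟩ := search (qbsv_wd h0) hw h0.arc (by linarith) H
  choose f hf1 hf2 hf3 hf4 hf5 using h
  refine le_trans ?_ (Sys.serve_start (sysB S π) N n s hs hp hk hn hf z o a b ha hab
    (fun co => if h : ∀ i ∈ T, co i = pat i then some (f co h) else none) fun co I e => ?_)
  · have e : ∀ co : Coins S, (if (if h : ∀ i ∈ T, co i = pat i then some (f co h)
        else none).isSome then s.w / 100 else 0) =
          (if ∀ i ∈ T, co i = pat i then (1 : ℝ) else 0) * (s.w / 100) := fun co => by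
      by_cases h : ∀ i ∈ T, co i = pat i
      · rw [dif_pos h, if_pos h, one_mul, if_pos Option.isSome_some]
      · rw [dif_neg h, if_neg h, zero_mul, if_neg (by simp)]
    simp only [e]
    have h2 := coin_prob T pat
    rw [← Finset.expect_mul]
    refine le_trans ?_ (mul_le_mul_of_nonneg_right (le_of_eq_of_le h2.symm (le_of_eq ?_))
      (by linarith))
    swap
    · congr
      funext co
      congr
    have h1 : (1 / 2 : ℝ) ^ 4 ≤ (1 / 2) ^ T.card := pow_le_pow_of_le_one (by norm_num) (by norm_num) hT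
    nlinarith
  · by_cases h : ∀ i ∈ T, co i = pat i
    · simp only [dif_pos h, Option.some.injEq] at e
      subst e
      refine ⟨hf1 co h, hf2 co h, fun h1 => ho ⟨(hf3 co h).trans_lt h1.1, h1.2.trans (hf4 co h)⟩,
        fun s' ρ hs' e1 _ e3 e4 e5 hk' t => psi_trap N hs' ((hN s').1 hs') hk' (hf2 co h)
          (fun d => ?_) t⟩
      have := hf5 co h d
      simpa only [SB.Zd, St.nb, St.W, e1, e3, e4, e5] using this
    · simp only [dif_neg h] at e
      cases e

theorem serve_of_sit (N : NodeC (sysB S π)) (hN : ∀ s, N.NI s ↔ NB.NI S s) {c : Ctx S} {s : St}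
    {V : ℕ → ℝ → ℝ} {A : ℝ} {n : ℕ} (hs : N.NI s) (hF : c.Fin s V A)
    (hn : 2 * (S.N + 1) ^ 2 + 3 ≤ n) {B : Set (ℕ × ℝ)} {bL gm gp bR z o : ℕ}
    (hz : (z = c.x.1 ∧ o = c.y.1) ∨ (z = c.y.1 ∧ o = c.x.1))
    (H : Sit S s B bL gm z gp bR) (ho : o ∉ Ioc bL bR) :
    s.w / 1600 ≤ Finset.expect Finset.univ fun ω : Om S π n =>
      |(sysB S π).proc n s ω c.x.1 (c.vx V) - (sysB S π).proc n s ω c.y.1 (V c.y.1 c.y.2)| := by
  have hw := ((hN s).1 hs).w0
  have h1 := hF.lo_le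
  have h2 := hF.le_hi
  have h3 := abs_le.1 hF.close
  rcases hz with ⟨rfl, rfl⟩ | ⟨rfl, rfl⟩
  · exact qbsv_main N hN hs hF.pend hF.kick hF.full hn ⟨by linarith, by linarith⟩ hF.close H ho
  · simp only [abs_sub_comm ((sysB S π).proc n s _ c.x.1 (c.vx V))]
    exact qbsv_main N hN hs hF.pend hF.kick hF.full hn ⟨by linarith [h3.2], by linarith [h3.1]⟩
      (by rw [abs_sub_comm]; exact hF.close) H ho

end Vale.Agent.P235.Pl.Qb
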