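import Vale.Agent.P235P.QBTop
import Vale.Agent.P235P.QBDefs
import Vale.Agent.P235P.FBall

/-! System B: the map of the ball in a step of the non-affine phase. -/

open Set

noncomputable section

namespace Vale.Agent.P235.Pl.Qb

variable {S : Sk} {π : Par} {s : St} {ρ : Rnd S π} {I : ℕ × ℕ} {θ θ' a e y : ℕ} {t t' u u' A : ℝ}
  {p q : ℕ × ℝ} {N : NodeC (sysB S π)} {c : Ctx S} {V : ℕ → ℝ → ℝ}

theorem trap_val (hw : 0 < s.w) (hh : s.w / 2 ≤ s.hi - s.lo) (u : ℝ) : trap s ρ u =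
    if u < s.lo + zz s ρ then 0 else if u < s.lo + zz s ρ + s.w / 20 then u - s.lo - zz s ρ
    else if u < s.hi - zz s ρ - s.w / 20 then s.w / 20
    else if u < s.hi - zz s ρ then s.hi - zz s ρ - u else 0 := by
  have hz := zz_mem ρ hw
  unfold trap
  simp only [max_def, min_def]
  split_ifs <;> linarith

theorem lt_iff_far {v δ k : ℝ} (h : δ ≤ |v - k|) (hu : |u - v| < δ) : u < k ↔ v < k := by
  rw [abs_lt] at hu
  rcases le_abs.1 h with h | h <;> constructor <;> intro <;> linarith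

theorem trap_aff (hw : 0 < s.w) (hh : s.w / 2 ≤ s.hi - s.lo) {v δ : ℝ}
    (h1 : δ ≤ |v - (s.lo + zz s ρ)|) (h2 : δ ≤ |v - (s.lo + zz s ρ + s.w / 20)|)
    (h3 : δ ≤ |v - (s.hi - zz s ρ - s.w / 20)|) (h4 : δ ≤ |v - (s.hi - zz s ρ)|)
    (hu : |u - v| < δ) :
    trap s ρ u = trap s ρ v + trapS s ρ v * (u - v) ∧ trapS s ρ u = trapS s ρ v := by
  rw [trap_val hw hh, trap_val hw hh]
  unfold trapS
  simp only [lt_iff_far h1 hu, lt_iff_far h2 hu, lt_iff_far h3 hu, lt_iff_far h4 hu, and_true]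
  split_ifs <;> ring

/-- The hypotheses of a step. -/
structure Up (N : NodeC (sysB S π)) (c : Ctx S) (s : St) (ρ : Rnd S π) (V : ℕ → ℝ → ℝ) (A : ℝ)
    (y : ℕ) : Prop where
  hN : N.NI s
  hs : NB.NI S s
  rep : c.Rep s V A 7
  win : c.Win s V A
  non : c.NonG s V A
  big : c.Big s A π y
  nch : ∀ p ∈ c.ball 7, (sysB S π).ch s ρ p.1 = none
  kink : Kink c s ρ V A
  pos : 0 < beta c s ρ V

/-- Points that are not deep and see the trapezoid. -/
def Gd (s : St) (ρ : Rnd S π) (p : ℕ × ℝ) : Prop :=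
  ¬ (sysB S π).deep s ρ p ∧
    ∀ I, s.kick = some I → p.1 ∈ tm I ∧ ∀ d, 3 * s.w ≤ SB.g0 S s.D s.W s.w I d p.1 p.2

theorem big_le (h : c.Big s A π y) (hA : 0 < A) : 1000 * (A * c.rs) ≤ s.w := by
  have h1 : (2 : ℝ) ^ 20 ≤ 2 ^ y := pow_le_pow_right₀ one_le_two (by have := h.m0; have := h.le_y; omega)
  have h2 := mul_pos hA c.rs_pos
  rw [h.w_eq]
  nlinarith

theorem ball_top (hN : N.NI s) (hk : s.kick = some I) (hθ : θ ∈ tm I)
    (h : (sysB S π).ch s ρ θ = none) (d : Bool) (u : ℝ) :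
    5 * s.w ≤ SB.g0 S s.D s.W s.w I d θ u := by
  have h1 := ch_none (N.ok s ρ hN).1 h
  rw [zs_kick hk] at h1
  refine g0_top hθ (fun h2 => h1 ?_) u
  cases d
  · exact Or.inr h2
  · exact Or.inl h2

theorem link_mid {B : Set ℝ} (hw : 0 < s.w)
    (h : t' ∈ (sysB S π).Psi s ρ θ '' (B ∪ (sysB S π).fat s ρ θ θ' B)) (ht : t' ∈ s.W)
    (hd : ∀ t ∈ B, t ∈ s.W → ¬ (sysB S π).deep s ρ (θ, t)) :
    ∃ t ∈ B, t ∈ s.W ∧ t' = (sysB S π).Psi s ρ θ t := by
  obtain ⟨t, h1 | ⟨-, t0, a1, a2, i, a3, -, a4, -⟩, rfl⟩ := h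
  · refine ⟨t, h1, ?_, rfl⟩
    by_contra h2
    have h3 : t ≤ s.lo ∨ s.hi ≤ t := by
      by_contra h4
      push Not at h4
      exact h2 ⟨h4.1.le, h4.2.le⟩
    rw [(sysB S π).Psi_out ρ hw θ h3] at ht
    exact h2 ht
  · exact absurd ⟨a2, i, a3, a4⟩ (hd t0 a1 a2)

namespace Up
variable (H : Up N c s ρ V A y)
include H

theorem rs_le : A * c.rs ≤ A * c.r := by
  have := c.le_r
  have := c.rs_pos
  exact mul_le_mul_of_nonneg_left (by nlinarith) H.rep.pos.le

theorem ars : 0 < A * c.rs := mul_pos H.rep.pos c.rs_pos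

theorem w_ge : 1000 * (A * c.rs) ≤ s.w := big_le H.big H.rep.pos

theorem one_le : 1 ≤ beta c s ρ V := by
  have h := H.pos
  unfold beta sg trapS at h ⊢
  split_ifs at h ⊢ <;> linarith

theorem gd_ball (hp : p ∈ c.ball 7) (u : ℝ) : Gd s ρ (p.1, u) := by
  refine ⟨?_, fun I hk => ⟨H.rep.ink I hk p hp, fun d => le_trans (by linarith [H.hs.w0])
    (ball_top H.hN hk (H.rep.ink I hk p hp) (H.nch p hp) d u)⟩⟩
  rintro ⟨-, i, h, -⟩
  rw [H.nch p hp] at h
  exact absurd h (by simp)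

theorem psi_gd (h : Gd s ρ (θ, u)) :
    (sysB S π).Psi s ρ θ u = if s.kick.isSome then u + sg ρ * trap s ρ u else u := by
  cases hk : s.kick with
  | none =>
    refine (sysB S π).Psi_of_zero ρ ?_
    unfold Sys.psi Sys.psi0
    simp [hk]
  | some I =>
    unfold Sys.Psi
    rw [psi_top N H.hN H.hs hk (h.2 I hk).1 (h.2 I hk).2]
    rfl

theorem psi_eq (h : Gd s ρ (θ, u)) : (sysB S π).Psi s ρ θ u = (sysB S π).Psi s ρ c.x.1 u := by
  rw [H.psi_gd h, H.psi_gd (H.gd_ball (c.x_mem (by norm_num)) u)]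

theorem tr (hk : s.kick = some I) (hu : |u - c.vx V| < 100 * A * c.r) :
    trap s ρ u = trap s ρ (c.vx V) + trapS s ρ (c.vx V) * (u - c.vx V) ∧
      trapS s ρ u = trapS s ρ (c.vx V) :=
  trap_aff H.hs.w0 (N.half s I H.hN hk) H.kink.1 H.kink.2.1 H.kink.2.2.1 H.kink.2.2.2 hu

theorem aff (hu : |u - c.vx V| < 100 * A * c.r) : (sysB S π).Psi s ρ c.x.1 u =
    c.vx ((sysB S π).Vn s ρ V) + beta c s ρ V * (u - c.vx V) := by
  have hx := H.gd_ball (c.x_mem (R := 7) (by norm_num))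
  have e : c.vx ((sysB S π).Vn s ρ V) = (sysB S π).Psi s ρ c.x.1 (c.vx V) := rfl
  rw [e, H.psi_gd (hx _), H.psi_gd (hx _)]
  unfold beta
  cases hk : s.kick with
  | none => simp
  | some I =>
    simp only [Option.isSome_some, if_true, (H.tr hk hu).1]
    ring

theorem lab_gd (h : Gd s ρ (θ, u)) (hu : |u - c.vx V| < 100 * A * c.r) :
    (sysB S π).lab1 s ρ θ u = (beta c s ρ V * (s.lab θ u).1, beta c s ρ V * (s.lab θ u).2) := by
  unfold Sys.lab1 beta
  rw [if_neg h.1]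
  cases hk : s.kick with
  | none => simp
  | some I =>
    have h1 := H_top (ρ := ρ) N H.hN H.hs hk (h.2 I hk).2
    have h2 := trap_le (ρ := ρ) u H.hs.w0
    have h3 := H.hs.w0
    simp only at h1
    simp only [Option.isSome_some, if_true]
    rw [if_neg (by
      push Not
      exact ⟨(N.ok s ρ H.hN).2, (h.2 I hk).1, by linarith⟩), if_pos (by linarith), (H.tr hk hu).2]

theorem inj {ε : ℝ} (hε : 0 < ε) (hg : ∀ z, |z - u| ≤ ε → Gd s ρ (θ, z))
    (hu : |u - c.vx V| + ε < 100 * A * c.r)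
    (h : (sysB S π).Psi s ρ θ u' = (sysB S π).Psi s ρ θ u) : u' = u := by
  have hb := H.one_le
  have key : ∀ z, |z - u| ≤ ε → (sysB S π).Psi s ρ θ z =
      c.vx ((sysB S π).Vn s ρ V) + beta c s ρ V * (z - c.vx V) := fun z hz => by
    rw [H.psi_eq (hg z hz), H.aff (lt_of_le_of_lt (abs_sub_le z u _) (by linarith))]
  have h0 := key u (by simpa using hε.le)
  by_cases h1 : |u' - u| ≤ ε
  · rw [key u' h1, h0] at h
    nlinarith
  · exfalso
    have hm := (sysB S π).Psi_mono' (s := s) ρ θ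
    rcases lt_abs.1 (not_le.1 h1) with h2 | h2
    · have h3 := hm (show u + ε ≤ u' by linarith)
      rw [h, h0, key (u + ε) (by simp [abs_of_pos hε])] at h3
      nlinarith
    · have h3 := hm (show u' ≤ u - ε by linarith)
      rw [h, h0, key (u - ε) (by simp [abs_of_pos hε])] at h3
      nlinarith

theorem off (h : c.Off V A t) :
    c.Off ((sysB S π).Vn s ρ V) (beta c s ρ V * A) ((sysB S π).Psi s ρ c.x.1 t) := by
  have hm := (sysB S π).Psi_mono' (s := s) ρ c.x.1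
  have h1 := H.rs_le
  have h2 := H.ars
  unfold Ctx.Off at h ⊢
  rw [le_abs] at h ⊢
  rcases h with h | h
  · left
    have h3 := hm (show c.vx V + A * c.rs ≤ t by linarith)
    rw [H.aff (by rw [add_sub_cancel_left, abs_of_pos h2]; linarith)] at h3
    linarith
  · right
    have h3 := hm (show t ≤ c.vx V - A * c.rs by linarith)
    rw [H.aff (u := c.vx V - A * c.rs)
      (by rw [sub_sub_cancel_left, abs_neg, abs_of_pos h2]; linarith)] at h3
    linarith

theorem mates (hk : s.kick = some I) : Mates S s.D s.W I.1 I.2 := by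
  obtain ⟨P, co, h⟩ := kick_cand H.hs hk
  exact h.2.2.2.2.1

/-- Arcs around a time of the ball. -/
theorem arc (hp : p ∈ c.ball 7) (ha : a < S.mate a) (h1 : a ≤ p.1) (h2 : p.1 ≤ S.mate a)
    (ht : t ∈ s.D.P a) (hW : t ∈ s.W) : ¬ (sysB S π).deep s ρ (a, t) ∧ (Gd s ρ (a, t) ∨
      ∃ I, s.kick = some I ∧ a ≤ I.1 ∧ I.2 < S.mate a ∧ (a, t) ∈ s.Pin) := by
  have hw := H.hs.w0
  have hl := link_arc (D := s.D) ha ht
  have hd : ¬ (sysB S π).deep s ρ (a, t) := fun hd => by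
    obtain ⟨-, i, a1, a2⟩ := id hd
    have a3 : (sysB S π).ch s ρ (S.mate a) = some i := by
      by_contra a3
      exact a2 ((sysB S π).ch_exit ρ hl hW a1 a3)
    cases i with
    | some J =>
      obtain ⟨-, -, a4⟩ := N.ch_tm s ρ a J H.hN a1
      have a5 := (a4 p.1).2 ⟨lt_of_lt_of_le ((a4 _).1 a1).1 h1, h2.trans ((a4 _).1 a3).2⟩
      rw [H.nch p hp] at a5
      exact absurd a5 (by simp)
    | none =>
      have a4 := ch_zone a1
      have a5 := ch_none (N.ok s ρ H.hN).1 (H.nch p hp)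
      cases hk : s.kick with
      | none => simp [zs_none hk] at a4
      | some I =>
        rw [zs_kick hk] at a4 a5
        have a6 := H.rep.ink I hk p hp
        rcases a4 with ⟨b1, q, ⟨p0, b2, k, b3, b4⟩, b5, b6⟩ | ⟨b1, q, b2, b5, b6⟩
        · have b7 : q.1 < p.1 := by
            by_contra b7
            exact a5 (Or.inl ⟨a6, q, ⟨p0, b2, k, b3, b4⟩, b5, not_lt.1 b7⟩)
          have b8 : p0.1 = I.1 := b2.1
          have b9 : a ≤ q.1 := b6
          obtain ⟨⟨z, u⟩, c₁, c₂, hz, e1, e2, e3⟩ := bar_cols ha (r_symm b4) (by omega)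
            (by have := b1.1; omega)
          have e4 : Near S s.D s.W (SB.src s I) (5 * s.w) (z, u) :=
            ⟨p0, Or.inl b2, c₂, by linarith [r_nonneg e1], r_symm e2⟩
          refine nd_near N H.hN H.hs hk (R := 5 * s.w + s.w) (by linarith) ?_ hd
          rcases hz.1 with rfl | rfl
          · exact near_col (wd H.hs) e4 hW
          · exact near_link (near_col (wd H.hs) e4 hW) (link_symm hl)
        · exact a5 (Or.inr ⟨a6, q, b2, b5, le_trans b6 h1⟩)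
  refine ⟨hd, ?_⟩
  cases hk : s.kick with
  | none => exact Or.inl ⟨hd, fun I h => absurd (hk.symm.trans h) (by simp)⟩
  | some I =>
    have a6 := H.rep.ink I hk p hp
    have a7 := H.mates hk a ⟨ha, t, ht, hW⟩
    by_cases h3 : a ∈ tm I
    · have h4 : S.mate a ∈ tm I := by
        simp only [tm, mem_Ioc, Enc] at *
        omega
      refine Or.inl ⟨hd, fun J hJ => ?_⟩
      obtain rfl : I = J := Option.some.inj (hk.symm.trans hJ)
      refine ⟨h3, fun d => le_trans (by linarith) ((ball_top H.hN hk a6 (H.nch p hp) d t).trans ?_)⟩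
      cases d
      · exact g0_mono h1
      · exact (g0_mono h2).trans (g0_link (link_symm hl) hW h4 h3)
    · obtain ⟨A', P, co, hI⟩ := kick_ins H.hs hk
      simp only [tm, mem_Ioc, Enc] at a6 a7 h3
      exact Or.inr ⟨I, rfl, by omega, by omega, hI.out I hk (a, t) h3⟩

theorem arc_mid (hp : p ∈ c.ball 7) (ha : a < S.mate a) (h1 : a ≤ p.1) (h2 : p.1 ≤ S.mate a)
    (ht : t' ∈ ((sysB S π).mid s ρ).D.P a) (hW : t' ∈ s.W) :
    (∃ t ∈ s.D.P a, t ∈ s.W ∧ Gd s ρ (a, t) ∧ t' = (sysB S π).Psi s ρ a t) ∨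
      ∃ I, s.kick = some I ∧ a ≤ I.1 ∧ I.2 < S.mate a ∧ (a, t') ∈ s.Pin := by
  obtain ⟨t, a1, a2, rfl⟩ := link_mid H.hs.w0 ht hW fun t b1 b2 => (H.arc hp ha h1 h2 b1 b2).1
  rcases (H.arc hp ha h1 h2 a1 a2).2 with h | ⟨I, b1, b2, b3, b4⟩
  · exact Or.inl ⟨t, a1, a2, h, rfl⟩
  · rw [(sysB S π).Psi_of_zero ρ ((sysB S π).psi_pin ρ b4)]
    exact Or.inr ⟨I, b1, b2, b3, b4⟩

end Up

end Vale.Agent.P235.Pl.Qb
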