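import Vale.Agent.P235P.QBUp1

/-! System B: stops and terminals after a step. -/

open Set

noncomputable section

namespace Vale.Agent.P235.Pl.Qb

variable {S : Sk} {π : Par} {s : St} {ρ : Rnd S π} {I : ℕ × ℕ} {θ θ' a e y τ : ℕ}
  {t t' u u' A k : ℝ} {p q : ℕ × ℝ} {N : NodeC (sysB S π)} {c : Ctx S} {V : ℕ → ℝ → ℝ}

theorem stop_bg (h : c.Stop s V A e) : c.BG e := by
  rcases h with h | ⟨tk, b, l, h, -, -, -, h1⟩
  · exact h.1
  · have := c.rs_pos
    exact ⟨(e, tk), (h1 (e, tk) (Or.inl ⟨rfl, by simp only [sub_self, abs_zero]; linarith⟩)).1,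
      Or.inl rfl⟩

namespace Up
variable (H : Up N c s ρ V A y)
include H

theorem ar_pos : 0 < A * c.r := lt_of_lt_of_le H.ars H.rs_le

theorem stop (h : c.Stop s V A e) :
    c.Stop ((sysB S π).mid s ρ) ((sysB S π).Vn s ρ V) (beta c s ρ V * A) e := by
  rcases h with ⟨⟨p, hp, h1⟩, h2⟩ | ⟨tk, b, l, h, h1, h2, h3, h4⟩
  · refine Or.inl ⟨⟨p, hp, h1⟩, fun t' hW ht => ?_⟩
    obtain ⟨t, a1, a2, rfl⟩ := link_mid (θ' := e + 1) H.hs.w0 ht hW fun t b1 b2 hd => by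
      obtain ⟨-, i, b3, b4⟩ := hd
      have b5 : (sysB S π).ch s ρ (e + 1) = some i := by
        by_contra b5
        exact b4 ((sysB S π).ch_exit ρ (link_gap b1) b2 b3 b5)
      have b6 := H.nch p hp
      rcases h1 with h1 | h1 <;> rw [h1] at b6
      · exact absurd (b6.symm.trans b3) (by simp)
      · exact absurd (b6.symm.trans b5) (by simp)
    have e1 : (sysB S π).Psi s ρ e t = (sysB S π).Psi s ρ p.1 t := by
      rcases h1 with h1 | h1 <;> rw [h1]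
      exact (sysB S π).Psi_link ρ ((sysB S π).link_Dp ρ (link_gap a1))
    rw [e1, H.psi_eq (H.gd_ball hp t)]
    exact H.off (h2 t a2 a1)
  · have hb := H.one_le
    have h0 := H.ar_pos
    refine Or.inr ⟨tk, c.vx ((sysB S π).Vn s ρ V) + beta c s ρ V * (b - c.vx V), l, h, ?_, h2, h3,
      fun p hp => ?_⟩
    · rw [show beta c s ρ V * A * tk + (c.vx ((sysB S π).Vn s ρ V) + beta c s ρ V * (b - c.vx V)) -
        c.vx ((sysB S π).Vn s ρ V) = beta c s ρ V * (A * tk + b - c.vx V) by ring, abs_mul,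
        abs_of_pos H.pos]
      nlinarith
    · obtain ⟨a1, a2, a3, a4, a5⟩ := h4 p hp
      have a6 := H.rep.close a1
      have a7 : |V p.1 p.2 - c.vx V| < 100 * A * c.r := by linarith
      have a8 : ((sysB S π).mid s ρ).lab p.1 ((sysB S π).Vn s ρ V p.1 p.2) = _ :=
        (mid_lab fun u hu => H.inj h0 (fun z _ => H.gd_ball a1 z) (by linarith) hu).trans
          (H.lab_gd (H.gd_ball a1 _) a7)
      refine ⟨a1, a2, ?_, by rw [a8, a4], ?_⟩
      · show (sysB S π).Psi s ρ p.1 (V p.1 p.2) = _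
        rw [H.psi_eq (H.gd_ball a1 _), H.aff a7, a3]
        ring
      · rw [a8]
        nlinarith

theorem enc_out (h : c.BG e) (hk : s.kick = some I) (h1 : a ≤ I.1) (h2 : I.2 < S.mate a) :
    Enc S a e := by
  obtain ⟨p, hp, h3⟩ := h
  have := H.rep.ink I hk p hp
  simp only [tm, mem_Ioc, Enc] at *
  omega

theorem both_out (hk : s.kick = some I) (h1 : a ≤ I.1) (h2 : I.2 < S.mate a) : c.Both a := by
  have := H.rep.ink I hk _ (c.x_mem (by norm_num))
  have := H.rep.ink I hk _ (c.y_mem (by norm_num))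
  simp only [tm, mem_Ioc, Ctx.Both] at *
  omega

theorem bg_mid (h : c.BG e) (ha : Enc S a e) (ht : t' ∈ ((sysB S π).mid s ρ).D.P a) (hW : t' ∈ s.W) :
    (∃ t ∈ s.D.P a, t ∈ s.W ∧ Gd s ρ (a, t) ∧ t' = (sysB S π).Psi s ρ a t) ∨
      ∃ I, s.kick = some I ∧ a ≤ I.1 ∧ I.2 < S.mate a ∧ (a, t') ∈ s.Pin := by
  obtain ⟨p, hp, h3⟩ := h
  unfold Enc at ha
  exact H.arc_mid hp (by omega) (by omega) (by omega) ht hW

theorem fl (h : c.FL s V A) :
    c.FL ((sysB S π).mid s ρ) ((sysB S π).Vn s ρ V) (beta c s ρ V * A) := by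
  obtain ⟨cm, cp, z, o, h1, h2, h3, h4, h5, h6⟩ := h
  refine ⟨cm, cp, z, o, h1, h2, h3, H.stop h4, H.stop h5, fun a t' ha ht hW => ?_⟩
  have key : (∃ t ∈ s.D.P a, t ∈ s.W ∧ Gd s ρ (a, t) ∧ t' = (sysB S π).Psi s ρ a t) ∨
      ∃ I, s.kick = some I ∧ a ≤ I.1 ∧ I.2 < S.mate a ∧ (a, t') ∈ s.Pin := by
    by_cases h7 : Enc S a cm
    · exact H.bg_mid (stop_bg h4) h7 ht hW
    · exact H.bg_mid (stop_bg h5) (by tauto) ht hW
  rcases key with ⟨t, a1, a2, a3, rfl⟩ | ⟨I, a1, a2, a3, -⟩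
  · rw [H.psi_eq a3]
    exact H.off (h6 a t ha a1 a2)
  · exact absurd (iff_of_true (H.enc_out (stop_bg h4) a1 a2 a3) (H.enc_out (stop_bg h5) a1 a2 a3)) ha

theorem pb_close (h : |t - c.vx ((sysB S π).Vn s ρ V)| ≤ beta c s ρ V * k) :
    |c.vx V + (t - c.vx ((sysB S π).Vn s ρ V)) / beta c s ρ V - c.vx V| ≤ k := by
  rw [add_sub_cancel_left, abs_div, abs_of_pos H.pos, div_le_iff₀ H.pos, mul_comm]
  exact h

theorem pb_eq (h : |t - c.vx ((sysB S π).Vn s ρ V)| ≤ beta c s ρ V * k) (hk : k < 100 * A * c.r) :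
    (sysB S π).Psi s ρ c.x.1 (c.vx V + (t - c.vx ((sysB S π).Vn s ρ V)) / beta c s ρ V) = t := by
  rw [H.aff (lt_of_le_of_lt (H.pb_close h) hk)]
  have := H.pos.ne'
  field_simp
  ring

theorem mem_W (h : |u - c.vx V| ≤ 100 * A * c.r) : u ∈ s.W := by
  rw [abs_le] at h
  exact H.win ⟨by linarith, by linarith⟩

/-- PULL: short paths after the operation come from paths before it. -/
theorem pull {X : Set (ℕ × ℝ)} (hG : ∀ p, Near S s.D s.W X (s.w / 20) p → Gd s ρ p) {p0 : ℕ × ℝ}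
    (h0 : |p0.2 - c.vx ((sysB S π).Vn s ρ V)| ≤ beta c s ρ V * (A * c.rs / 5))
    (hX : (p0.1, c.vx V + (p0.2 - c.vx ((sysB S π).Vn s ρ V)) / beta c s ρ V) ∈ X)
    (h : Reach S ((sysB S π).mid s ρ).D s.W p0 q k) (hk : k ≤ beta c s ρ V * (A * c.rs / 5)) :
    Reach S s.D s.W (p0.1, c.vx V + (p0.2 - c.vx ((sysB S π).Vn s ρ V)) / beta c s ρ V)
      (q.1, c.vx V + (q.2 - c.vx ((sysB S π).Vn s ρ V)) / beta c s ρ V) (k / beta c s ρ V) := by
  have h1 := H.rs_le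
  have h2 := H.ars
  have h3 := H.w_ge
  have hb := H.pos
  have key : ∀ {q k}, Reach S ((sysB S π).mid s ρ).D s.W p0 q k →
      k ≤ beta c s ρ V * (A * c.rs / 5) →
      |q.2 - c.vx ((sysB S π).Vn s ρ V)| ≤ beta c s ρ V * (A * c.rs) := fun {q k} a1 a2 => by
    have a3 := r_abs a1
    have a4 := abs_sub_le q.2 p0.2 (c.vx ((sysB S π).Vn s ρ V))
    rw [abs_sub_comm] at a3
    nlinarith
  induction h with
  | refl h => exact r_cast (.refl (H.mem_W ((H.pb_close h0).trans (by linarith)))) (zero_div _).symm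
  | @vert θ t t' k a1 a2 ih =>
    refine r_cast ((ih (by linarith [abs_nonneg (t - t')])).vert
      (H.mem_W ((H.pb_close (key (a1.vert a2) hk)).trans (by linarith)))) ?_
    rw [add_sub_add_left_eq_sub, ← sub_div, sub_sub_sub_cancel_right, abs_div, abs_of_pos hb,
      add_div]
  | @link θ θ' t k a1 a2 ih =>
    have a3 := ih hk
    have a4 : k / beta c s ρ V ≤ A * c.rs / 5 := by rwa [div_le_iff₀ hb, mul_comm]
    have a5 := H.pb_close (key a1 hk)
    have a6 := H.pb_eq (key a1 hk) (by linarith)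
    simp only at a3 a5 a6 ⊢
    generalize c.vx V + (t - c.vx ((sysB S π).Vn s ρ V)) / beta c s ρ V = u at a3 a5 a6 ⊢
    have a7 : ∀ z, |z - u| ≤ A * c.rs → Gd s ρ (θ, z) := fun z hz => hG _ ⟨_, hX, _, by
      rw [abs_sub_comm] at hz
      linarith, a3.vert (H.mem_W ((abs_sub_le z u _).trans (by linarith)))⟩
    obtain ⟨u0, b1, b2⟩ := fmid1_inv a2
    have b3 : u0 = u := H.inj h2 a7 (by linarith)
      (b2.trans (a6.symm.trans (H.psi_eq (a7 u (by simpa using h2.le))).symm))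
    exact a3.link (fmid1_thin (b3 ▸ b1) h2 fun z _ hz => (a7 z hz).1)

/-- The terminal invariant after the operation. -/
theorem term (hT : c.Term s V A τ)
    (hG : ∀ p, Near S s.D s.W (chain s.D s.W τ) (s.w / 20) p → Gd s ρ p)
    (hA : ∀ a, Enc S a τ → c.Both a ∨ ∀ t ∈ s.D.P a, t ∈ s.W → Gd s ρ (a, t)) :
    c.Term ((sysB S π).mid s ρ) ((sysB S π).Vn s ρ V) (beta c s ρ V * A) τ := by
  have h1 := H.rs_le
  have h2 := H.ars
  have h3 := H.w_ge
  have hb := H.pos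
  have hw := H.hs.w0
  refine ⟨hT.ext, ?_, fun a t' ha ht hW => ?_⟩
  · obtain ⟨A0, b1, b2⟩ := hT.old
    refine ⟨beta c s ρ V * A0, mul_pos hb b1, ?_⟩
    rintro ⟨θ, t⟩ ⟨⟨x, t0'⟩, ⟨a0, a1, a2⟩, k, a3, a4⟩
    obtain rfl : x = τ := a0
    simp only at a1 a2
    have e1 : beta c s ρ V * A * c.rs / 5 = beta c s ρ V * (A * c.rs / 5) := by ring
    rw [e1] at a2 a3
    obtain ⟨t0, a5, a6, a7⟩ := link_mid (θ' := x + 1) hw a1 (r_mem a4).1 fun t b3 b4 =>
      (hG (x, t) (near_self ⟨rfl, b3, b4⟩ b4 (by linarith))).1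
    have a8 := H.pb_close a2
    have a9 : t0 = c.vx V + (t0' - c.vx ((sysB S π).Vn s ρ V)) / beta c s ρ V :=
      H.inj h2 (fun z _ => H.gd_ball (c.x_mem (by norm_num)) z) (by linarith) (by
        rw [H.pb_eq a2 (by linarith), ← H.psi_eq (hG (x, t0) (near_self ⟨rfl, a5, a6⟩ a6 (by linarith)))]
        exact a7.symm)
    have b3 := H.pull hG (p0 := (x, t0')) a2 (a9 ▸ ⟨rfl, a5, a6⟩) a4 a3
    have b4 : k / beta c s ρ V ≤ A * c.rs / 5 := by rwa [div_le_iff₀ hb, mul_comm]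
    have b5 : |t - c.vx ((sysB S π).Vn s ρ V)| ≤ beta c s ρ V * (A * c.rs) := by
      have c3 := r_abs a4
      have c4 := abs_sub_le t t0' (c.vx ((sysB S π).Vn s ρ V))
      rw [abs_sub_comm] at c3
      simp only at c3
      nlinarith
    have b6 := H.pb_close b5
    have b7 := H.pb_eq b5 (by linarith)
    simp only at b3 ⊢
    rw [← a9] at b3 a8
    generalize c.vx V + (t - c.vx ((sysB S π).Vn s ρ V)) / beta c s ρ V = u at b3 b6 b7
    have b8 : ∀ z, |z - u| ≤ A * c.rs → Gd s ρ (θ, z) := fun z hz => hG _ ⟨(x, t0), ⟨rfl, a5, a6⟩, _, by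
      rw [abs_sub_comm] at hz
      linarith, b3.vert (H.mem_W ((abs_sub_le z u _).trans (by linarith)))⟩
    have b9 := b8 u (by simpa using h2.le)
    obtain ⟨c1, c2⟩ := b2 (θ, u) ⟨(x, t0), ⟨rfl, a5, a8⟩, _, b4, b3⟩
    rw [← b7, ← H.psi_eq b9, mid_lab fun z hz => H.inj h2 b8 (by linarith) hz,
      H.lab_gd b9 (by linarith)]
    simp only at c1 c2 ⊢
    exact ⟨by rw [c1], by nlinarith⟩
  · rcases hA a ha with h4 | h4
    · exact Or.inl h4
    · obtain ⟨t, a1, a2, rfl⟩ := link_mid hw ht hW fun t b1 b2 => (h4 t b1 b2).1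
      rw [H.psi_eq (h4 t a1 a2)]
      exact (hT.arc a t ha a1 a2).imp_right H.off

end Up

end Vale.Agent.P235.Pl.Qb
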