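import Vale.Agent.P235P.QBUp2

/-! System B: moving the terminal. -/

open Set

noncomputable section

namespace Vale.Agent.P235.Pl.Qb

variable {S : Sk} {π : Par} {s : St} {ρ : Rnd S π} {I J : ℕ × ℕ} {θ θ' a e y τ Q g : ℕ}
  {t t' u u' A k : ℝ} {p q : ℕ × ℝ} {N : NodeC (sysB S π)} {c : Ctx S} {V : ℕ → ℝ → ℝ} {d : Bool}

theorem zd_mono (h : θ ∈ SB.Zd S s I d) (h1 : θ' ∈ tm I) (h2 : θ ∈ tgt d θ') :
    θ' ∈ SB.Zd S s I d := by
  obtain ⟨-, p, a1, a2, a3⟩ := h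
  refine ⟨h1, p, a1, a2, ?_⟩
  cases d <;> simp only [tgt, if_true, Bool.false_eq_true, if_false, mem_Ici, mem_Iic] at * <;>
    omega

theorem wall_cut {P co} (h : J ∈ SB.cand S (NB.base s P) co) (hg : g = J.1 ∨ g = J.2) :
    SB.Cut S (NB.base s P) co g := by
  rcases hg with rfl | rfl
  · exact h.2.2.1
  · exact h.2.2.2.1

theorem wall_unif {P co} (h : J ∈ SB.cand S (NB.base s P) co) (hg : g = J.1 ∨ g = J.2) :
    ∃ A0, 0 < A0 ∧ ∀ p, Near S s.D s.W (chain s.D s.W g) (12 * s.w) p →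
      (s.lab p.1 p.2).1 = A0 ∧ s.w ≤ (s.lab p.1 p.2).2 := by
  rcases (chain s.D s.W g).eq_empty_or_nonempty with h1 | ⟨q, hq⟩
  · refine ⟨1, one_pos, ?_⟩
    rintro p ⟨q, hq, -⟩
    rw [h1] at hq
    exact hq.elim
  · exact (cut_far (wall_cut h hg) hq).2.1

/-- EXIT: the columns of the zone. -/
theorem zone_exit (hs : NB.NI S s) (hk : s.kick = some I) (h : θ ∈ SB.Zd S s I d) (hu : u ∈ s.W) :
    Near S s.D s.W (chain s.D s.W (SB.wall I d)) (6 * s.w) (θ, u) ∨ ∃ a, WArc S s.D s.W a ∧ a < θ ∧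
      θ < S.mate a ∧ a ∈ SB.Zd S s I d ∧ S.mate a ∈ SB.Zd S s I d ∧
      ∀ z ∈ cols S s.W a, Near S s.D s.W (chain s.D s.W (SB.wall I d)) (6 * s.w) z := by
  obtain ⟨P, co, hI⟩ := kick_cand hs hk
  obtain ⟨h1, q, ⟨p0, a1, k, a2, a3⟩, a4, a5⟩ := h
  have hw := hs.w0
  have key : ∀ x v, Near S s.D s.W (chain s.D s.W (SB.wall I d)) (5 * s.w) (x, v) → ∀ u ∈ s.W,
      Near S s.D s.W (chain s.D s.W (SB.wall I d)) (6 * s.w) (x, u) := fun x v h u hu =>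
    near_mono (near_col (wd hs) h hu) Subset.rfl (by linarith)
  by_cases h2 : q.1 = θ
  · exact Or.inl (key θ q.2 ⟨p0, a1, k, a2, h2 ▸ a3⟩ u hu)
  have a6 : p0.1 = SB.wall I d := a1.1
  have hm : Mates S s.D s.W I.1 I.2 := hI.2.2.2.2.1
  obtain ⟨⟨x, v⟩, c₁, c₂, hz, b1, b2, b3⟩ := bar_gap (g := if d then θ else θ - 1) a3 (by
    cases d <;> simp only [tm, tgt, SB.wall, if_true, Bool.false_eq_true, if_false, mem_Ici,
      mem_Iic, mem_Ioc] at * <;> omega)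
  have b4 : Near S s.D s.W (chain s.D s.W (SB.wall I d)) (5 * s.w) (x, v) :=
    ⟨p0, a1, c₁, by linarith [r_nonneg b2], b1⟩
  rcases hz with hz | ⟨a, ha, e1, e2, e3⟩
  · left
    cases d
    · have e1 : x = θ - 1 := hz.1
      have e3 : v ∈ s.D.L (θ - 1) := hz.2.1
      have e2 := near_link (e1 ▸ b4) (link_gap e3)
      rw [show θ - 1 + 1 = θ by have := h1.1; omega] at e2
      exact key _ _ e2 u hu
    · have e1 : x = θ := hz.1
      exact key _ _ (e1 ▸ b4) u hu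
  have hl := link_arc (D := s.D) ha.1 e3
  have e4 : Near S s.D s.W (chain s.D s.W (SB.wall I d)) (5 * s.w) (a, v) ∧
      Near S s.D s.W (chain s.D s.W (SB.wall I d)) (5 * s.w) (S.mate a, v) := by
    rcases e2.1 with e | e <;> simp only at e <;> subst e
    · exact ⟨b4, near_link b4 hl⟩
    · exact ⟨near_link b4 (link_symm hl), b4⟩
  by_cases h3 : a = θ
  · exact Or.inl (key _ _ (h3 ▸ e4.1) u hu)
  by_cases h4 : S.mate a = θ
  · exact Or.inl (key _ _ (h4 ▸ e4.2) u hu)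
  have e5 : ¬ Enc S a (SB.wall I d) := fun e5 =>
    ((cut_far (wall_cut hI (by cases d <;> simp [SB.wall])) a1).2.2.2 (a, v)
      (near_mono e4.1 Subset.rfl (show 5 * s.w ≤ 20 * s.w by linarith)) a ha e5).1 rfl
  have e6 := hm a ha
  have e7 : a < θ ∧ θ < S.mate a ∧ a ∈ tm I ∧ S.mate a ∈ tm I := by
    cases d <;> simp only [tm, Enc, SB.wall, if_true, Bool.false_eq_true, if_false, mem_Ioc] at * <;>
      omega
  refine Or.inr ⟨a, ha, e7.1, e7.2.1, ⟨e7.2.2.1, _, e4.1, e7.2.2.1, by cases d <;> simp [tgt]⟩,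
    ⟨e7.2.2.2, _, e4.2, e7.2.2.2, by cases d <;> simp [tgt]⟩, ?_⟩
  rintro ⟨z, u⟩ ⟨rfl | rfl, hz⟩
  · exact key _ _ e4.1 u hz
  · exact key _ _ e4.2 u hz

/-- The gap is not strictly inside a kick child. -/
def NotIn (s : St) (ρ : Rnd S π) (τ : ℕ) : Prop :=
  ∀ J, (sysB S π).ch s ρ τ = some (some J) → (sysB S π).ch s ρ (τ + 1) ≠ some (some J)

namespace Up
variable (H : Up N c s ρ V A y)
include H

theorem term_of (h1 : c.x.1 ≤ τ ↔ c.y.1 ≤ τ)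
    (h2 : ∃ A0, 0 < A0 ∧ ∀ p, Near S s.D s.W (chain s.D s.W τ) (s.w / 20) p →
      (s.lab p.1 p.2).1 = A0 ∧ s.w ≤ (s.lab p.1 p.2).2)
    (h3 : ∀ a t, Enc S a τ → t ∈ s.D.P a → t ∈ s.W → c.Both a ∨ c.Off V A t) : c.Term s V A τ := by
  obtain ⟨A0, a1, a2⟩ := h2
  have := H.w_ge
  have := H.ars
  refine ⟨h1, ⟨A0, a1, ?_⟩, h3⟩
  rintro p ⟨q, hq, k, hk, h⟩
  have := a2 p ⟨q, ⟨hq.1, hq.2.1, (r_mem h).1⟩, k, by linarith, h⟩
  exact ⟨this.1, by linarith [this.2]⟩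

theorem term_zero :
    c.Term ((sysB S π).mid s ρ) ((sysB S π).Vn s ρ V) (beta c s ρ V * A) 0 := by
  refine ⟨by have := c.ptx.1; have := c.pty.1; omega, ⟨1, one_pos, ?_⟩, fun a t ha => ?_⟩
  · rintro p ⟨q, ⟨-, ⟨t, h | ⟨-, t0, h, -⟩, -⟩, -⟩, -⟩ <;> simp [H.hs.l0] at h
  · have := S.pos a (lt_of_le_of_lt ha.1 ha.2)
    have := ha.1
    omega

theorem out_kick (h : (sysB S π).ch s ρ θ = some (some J)) : c.x.1 ∉ tm J ∧ c.y.1 ∉ tm J := by
  obtain ⟨-, -, a4⟩ := N.ch_tm s ρ θ J H.hN h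
  constructor <;> intro h1
  · simpa [H.nch _ (c.x_mem (by norm_num))] using (a4 _).2 h1
  · simpa [H.nch _ (c.y_mem (by norm_num))] using (a4 _).2 h1

theorem b2 (hT : c.Term s V A τ) :
    ∃ τ', c.Term s V A τ' ∧ NotIn s ρ τ' ∧ ∀ a, c.Both a → Enc S a τ → Enc S a τ' := by
  by_cases h : NotIn s ρ τ
  · exact ⟨τ, hT, h, fun _ _ h => h⟩
  unfold NotIn at h
  push Not at h
  obtain ⟨J, h1, h2⟩ := h
  obtain ⟨a1, -, a2⟩ := N.ch_tm s ρ τ J H.hN h1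
  obtain ⟨P, co, hJ⟩ := pe_cand H.hs a1
  have hm : Mates S s.D s.W J.1 J.2 := hJ.2.2.2.2.1
  obtain ⟨a3, a4⟩ := H.out_kick h1
  have a5 := (a2 _).1 h1
  have a6 := (a2 _).1 h2
  have a7 := hT.ext
  have hw := H.hs.w0
  simp only [tm, mem_Ioc] at a2 a3 a4 a5 a6
  obtain ⟨g, hg⟩ : ∃ g, (τ < c.x.1 ∧ g = J.2) ∨ (c.x.1 ≤ τ ∧ g = J.1) := by
    by_cases h : τ < c.x.1
    · exact ⟨_, Or.inl ⟨h, rfl⟩⟩
    · exact ⟨_, Or.inr ⟨not_lt.1 h, rfl⟩⟩
  refine ⟨g, H.term_of (by omega) ?_ fun a t ha ht hW => hT.arc a t ?_ ht hW, fun J' b1 b2 => ?_,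
    fun a b1 b2 => ?_⟩
  · obtain ⟨A0, b1, b2⟩ := wall_unif hJ (g := g) (by omega)
    exact ⟨A0, b1, fun p hp => b2 p (near_mono hp Subset.rfl (by linarith))⟩
  · have := hm a ⟨lt_of_le_of_lt ha.1 ha.2, t, ht, hW⟩
    unfold Enc at *
    omega
  · have b3 := a2 g
    have b4 := a2 (g + 1)
    rw [b1] at b3
    rw [b2] at b4
    have b5 := b3.symm.trans b4
    omega
  · unfold Ctx.Both Enc at *
    omega

theorem nd_kick (h : NotIn s ρ τ) (hp : Near S s.D s.W (chain s.D s.W τ) (s.w / 20) p)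
    (h1 : (sysB S π).ch s ρ p.1 = some (some J)) : ¬ (sysB S π).deep s ρ p := by
  rintro ⟨-, i, a1, a2⟩
  obtain rfl : some J = i := Option.some.inj (h1.symm.trans a1)
  obtain ⟨a3, -, a4⟩ := N.ch_tm s ρ _ J H.hN h1
  obtain ⟨P, co, hJ⟩ := pe_cand H.hs a3
  have hm : Mates S s.D s.W J.1 J.2 := hJ.2.2.2.2.1
  have hw := H.hs.w0
  have a5 : Near S s.D s.W (SB.src s J) (s.w / 20) p := by
    obtain ⟨q, hq, k, hk, hr⟩ := hp
    have b1 : q.1 = τ := hq.1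
    have b2 := (a4 _).1 h1
    by_cases b3 : τ ∈ tm J
    · have b4 : τ + 1 ∉ tm J := fun b4 => h J ((a4 _).2 b3) ((a4 _).2 b4)
      simp only [tm, mem_Ioc] at b3 b4
      exact ⟨q, Or.inr ((show τ = J.2 by omega) ▸ hq), k, hk, hr⟩
    · simp only [tm, mem_Ioc] at b2 b3
      obtain ⟨z, c₁, c₂, hz, e1, e2, e3⟩ := bar_mates hm (r_symm hr) (by omega) (by omega)
      exact ⟨z, hz, c₁, by linarith [r_nonneg e2], r_symm e1⟩
  refine a2 (Or.inr ?_)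
  show dc S s.D s.W (SB.src s J) (20 * s.w) p ≤ del' s ρ
  exact a5.dc_le.trans (le_trans (by linarith) (uq_mem (a := s.w / 10) _ (by linarith)).1)

theorem arc_kick (h : NotIn s ρ τ) (ha : Enc S a τ) (ht : t ∈ s.D.P a) (hW : t ∈ s.W)
    (hd : (sysB S π).deep s ρ (a, t)) :
    a ∈ (sysB S π).Zs s ∧ S.mate a ∈ (sysB S π).Zs s := by
  obtain ⟨-, i, a1, a2⟩ := hd
  have a3 : (sysB S π).ch s ρ (S.mate a) = some i := by
    by_contra a3
    exact a2 ((sysB S π).ch_exit ρ (link_arc (lt_of_le_of_lt ha.1 ha.2) ht) hW a1 a3)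
  cases i with
  | none => exact ⟨ch_zone a1, ch_zone a3⟩
  | some J =>
    obtain ⟨-, -, a4⟩ := N.ch_tm s ρ _ J H.hN a1
    have b1 := (a4 _).1 a1
    have b2 := (a4 _).1 a3
    simp only [tm, mem_Ioc, Enc] at *
    exact absurd ((a4 (τ + 1)).2 (by omega)) (h J ((a4 τ).2 (by omega)))

theorem passive (hk : s.kick = none) (hT : c.Term s V A τ) (h : NotIn s ρ τ) :
    c.Term ((sysB S π).mid s ρ) ((sysB S π).Vn s ρ V) (beta c s ρ V * A) τ := by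
  refine H.term hT (fun p hp => ⟨fun hd => ?_, by simp [hk]⟩)
    fun a ha => Or.inr fun t ht hW => ⟨fun hd => ?_, by simp [hk]⟩
  · obtain ⟨-, i, a1, -⟩ := id hd
    cases i with
    | none => simpa [zs_none hk] using ch_zone a1
    | some J => exact H.nd_kick h hp a1 hd
  · simpa [zs_none hk] using (H.arc_kick h ha ht hW hd).1

theorem x_out (hk : s.kick = some I) (d : Bool) : c.x.1 ∉ SB.Zd S s I d := fun h => by
  have h1 := ch_none (N.ok s ρ H.hN).1 (H.nch _ (c.x_mem (by norm_num)))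
  rw [zs_kick hk] at h1
  cases d
  · exact h1 (Or.inr h)
  · exact h1 (Or.inl h)

theorem gQ (hk : s.kick = some I) (hQ : WArc S s.D s.W Q) (h1 : Q ∈ tm I) (h2 : S.mate Q ∈ tm I)
    (h3 : c.Both Q) (h4 : Q ≤ θ) (h5 : θ ≤ S.mate Q) (ht : t ∈ s.W) (d : Bool) :
    4 * s.w ≤ SB.g0 S s.D s.W s.w I d θ t := by
  obtain ⟨a1, u, a2, a3⟩ := hQ
  have hl := link_arc (D := s.D) a1 a2
  have hx := c.x_mem (R := 7) (by norm_num)
  have a4 := ball_top H.hN hk (H.rep.ink I hk _ hx) (H.nch _ hx) d u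
  have a5 := g0_lip (S := S) (D := s.D) (W := s.W) (w := s.w) (I := I) (d := d) (θ := θ) u t
  have a6 := wd H.hs u a3 t ht
  have a7 : SB.g0 S s.D s.W s.w I d c.x.1 u ≤ SB.g0 S s.D s.W s.w I d θ u := by
    cases d
    · exact (g0_mono h3.1).trans ((g0_link hl a3 h1 h2).trans (g0_mono h5))
    · exact (g0_mono h3.2.1).trans ((g0_link (link_symm hl) a3 h2 h1).trans (g0_mono h4))
  linarith

theorem g_near (hk : s.kick = some I) (hQ : WArc S s.D s.W Q) (h1 : Q ∈ tm I) (h2 : S.mate Q ∈ tm I)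
    (h3 : c.Both Q) (h4 : Enc S Q τ) (hp : Near S s.D s.W (chain s.D s.W τ) (s.w / 20) p) :
    ∀ J, s.kick = some J → p.1 ∈ tm J ∧ ∀ d, 3 * s.w ≤ SB.g0 S s.D s.W s.w J d p.1 p.2 := by
  intro J hJ
  obtain rfl : I = J := Option.some.inj (hk.symm.trans hJ)
  obtain ⟨q, hq, k, a1, a2⟩ := hp
  have a3 : q.1 = τ := hq.1
  have hw := H.hs.w0
  obtain ⟨a4, a5⟩ := g0_path (H.mates hk) a2
    (by simp only [tm, mem_Ioc, Enc] at *; omega)
    (H.gQ hk hQ h1 h2 h3 (a3 ▸ h4.1) (a3 ▸ h4.2.le) hq.2.2) (by linarith)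
  exact ⟨a4, fun d => le_trans (by linarith) (a5 d)⟩

end Up

end Vale.Agent.P235.Pl.Qb
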