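import Vale.Agent.P235P.QBUp3

/-! System B: the data of the non-affine phase persist. -/

open Set

noncomputable section

namespace Vale.Agent.P235.Pl.Qb

variable {S : Sk} {π : Par} {s : St} {ρ : Rnd S π} {I J : ℕ × ℕ} {θ θ' a e y τ Q g : ℕ}
  {t t' u u' A k : ℝ} {p q : ℕ × ℝ} {N : NodeC (sysB S π)} {c : Ctx S} {V : ℕ → ℝ → ℝ} {d : Bool}

/-- The zone reaches an arc around the terminal. -/
def Hit (c : Ctx S) (s : St) (I : ℕ × ℕ) (τ : ℕ) : Prop :=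
  ∃ a, WArc S s.D s.W a ∧ Enc S a τ ∧ ¬ c.Both a ∧
    ((τ < c.x.1 ∧ a ∈ SB.Zd S s I true) ∨ (c.x.1 ≤ τ ∧ S.mate a ∈ SB.Zd S s I false))

namespace Up
variable (H : Up N c s ρ V A y)
include H

theorem zone_side (hk : s.kick = some I) (h : θ ∈ SB.Zd S s I d) :
    (d = true ∧ θ < c.x.1) ∨ (d = false ∧ c.x.1 < θ) := by
  have h1 := H.x_out hk d
  have h2 := H.rep.ink I hk _ (c.x_mem (by norm_num))
  cases d
  · exact Or.inr ⟨rfl, not_le.1 fun h3 => h1 (zd_mono h h2 h3)⟩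
  · exact Or.inl ⟨rfl, not_le.1 fun h3 => h1 (zd_mono h h2 h3)⟩

theorem miss (hk : s.kick = some I) (hT : c.Term s V A τ) (h : NotIn s ρ τ) (hh : ¬ Hit c s I τ)
    (hQ : WArc S s.D s.W Q) (h1 : Q ∈ tm I) (h2 : S.mate Q ∈ tm I) (h3 : c.Both Q) (h4 : Enc S Q τ) :
    c.Term ((sysB S π).mid s ρ) ((sysB S π).Vn s ρ V) (beta c s ρ V * A) τ := by
  have hw := H.hs.w0
  refine H.term hT (fun p hp => ⟨fun hd => ?_, H.g_near hk hQ h1 h2 h3 h4 hp⟩) fun a ha => ?_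
  · obtain ⟨hW, i, a1, -⟩ := id hd
    cases i with
    | some J => exact H.nd_kick h hp a1 hd
    | none =>
      have a2 := ch_zone a1
      rw [zs_kick hk] at a2
      obtain ⟨d, a3⟩ : ∃ d, p.1 ∈ SB.Zd S s I d := a2.elim (fun h => ⟨_, h⟩) fun h => ⟨_, h⟩
      rcases zone_exit H.hs hk a3 hW with a4 | ⟨a, b1, b2, b3, b4, b5, b6⟩
      · exact nd_near N H.hN H.hs hk (by linarith) (near_mono a4 (wall_src d) le_rfl) hd
      obtain ⟨q, hq, k, c1, c2⟩ := hp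
      have c3 : q.1 = τ := hq.1
      have c4 := H.zone_side hk b4
      have c5 := H.zone_side hk b5
      by_cases c6 : a < τ ∧ τ < S.mate a
      · refine hh ⟨a, b1, ⟨c6.1.le, c6.2⟩, fun hb => ?_, ?_⟩
        · unfold Ctx.Both at hb
          cases d <;> simp at c4 c5 <;> omega
        · cases d <;> simp at c4 c5
          · exact Or.inr ⟨by omega, b5⟩
          · exact Or.inl ⟨by omega, b4⟩
      · obtain ⟨z, c₁, c₂, hz, e1, e2, e3⟩ := bar_cols b1.1 (r_symm c2) ⟨b2.le, b3.le⟩ (c3 ▸ c6)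
        exact nd_near N H.hN H.hs hk (R := 6 * s.w + c₁) (by linarith [r_nonneg e2])
          (near_mono (near_step (b6 z hz) (r_symm e1)) (wall_src d) le_rfl) hd
  · by_cases hb : c.Both a
    · exact Or.inl hb
    refine Or.inr fun t ht hW => ⟨fun hd => ?_, fun J hJ => ?_⟩
    · obtain ⟨a1, a2⟩ := H.arc_kick h ha ht hW hd
      rw [zs_kick hk] at a1 a2
      refine hh ⟨a, ⟨lt_of_le_of_lt ha.1 ha.2, t, ht, hW⟩, ha, hb, ?_⟩
      unfold Enc at ha
      by_cases a3 : τ < c.x.1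
      · refine Or.inl ⟨a3, a1.resolve_right fun a4 => ?_⟩
        have := H.zone_side hk a4
        simp at this
        omega
      · refine Or.inr ⟨not_lt.1 a3, a2.resolve_left fun a4 => ?_⟩
        have := H.zone_side hk a4
        simp at this
        omega
    · obtain rfl : I = J := Option.some.inj (hk.symm.trans hJ)
      have a1 : Q ≤ a := by
        by_contra a1
        have := enc_nest ha h4 (not_le.1 a1)
        unfold Ctx.Both at hb h3
        omega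
      have a2 : a ≤ S.mate Q := ha.1.trans h4.2.le
      exact ⟨⟨lt_of_lt_of_le h1.1 a1, a2.trans h2.2⟩,
        fun d => le_trans (by linarith) (H.gQ hk hQ h1 h2 h3 a1 a2 hW d)⟩

theorem not_sep (hk : s.kick = some I) (ha : a < S.mate a) (hb : ¬ c.Both a)
    (h : ∀ z ∈ cols S s.W a, Near S s.D s.W (SB.src s I) (7 * s.w) z) :
    ¬ (a ≤ c.x.1 ∧ c.x.1 ≤ S.mate a) ∧ ¬ (a ≤ c.y.1 ∧ c.y.1 ≤ S.mate a) := by
  have hw := H.hs.w0
  have h0 := c.r_pos
  have key : ∀ z ∈ cols S univ a, ∀ k ≤ c.r, ¬ Reach S c.D0 univ c.x z k := fun z hz k hk' hr => by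
    have a1 : z ∈ c.ball 7 := ⟨c.x, rfl, k, by linarith, hr⟩
    have a2 := N.mature s ρ I _ H.hN (Or.inr hk) (near_mono
      (h (z.1, V z.1 z.2) ⟨hz.1, H.rep.mem_W H.win (by norm_num) a1⟩) Subset.rfl (by linarith))
    have a3 := H.non.young z a1
    have := H.w_ge
    have := H.ars
    simp only at a2
    linarith
  unfold Ctx.Both at hb
  constructor <;> intro h1
  · obtain ⟨z, c₁, c₂, hz, e1, e2, e3⟩ := bar_cols ha c.dist.1 h1 (by omega)
    exact key z hz c₁ (by linarith [r_nonneg e2]) e1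
  · obtain ⟨z, c₁, c₂, hz, e1, e2, e3⟩ := bar_cols ha (r_symm c.dist.1) h1 (by omega)
    exact key z hz c₂ (by linarith [r_nonneg e1]) (r_symm e2)

theorem hit (hk : s.kick = some I) (hT : c.Term s V A τ) (hh : Hit c s I τ)
    (hQ : WArc S s.D s.W Q) (h1 : Q ∈ tm I) (h2 : S.mate Q ∈ tm I) (h3 : c.Both Q) (h4 : Enc S Q τ) :
    ∃ τ', c.Term ((sysB S π).mid s ρ) ((sysB S π).Vn s ρ V) (beta c s ρ V * A) τ' ∧
      ∀ a, c.Both a → Enc S a τ → Enc S a τ' := by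
  classical
  have hw := H.hs.w0
  obtain ⟨q0, a1, a2, a3, a4⟩ := hh
  have hex : ∃ a, WArc S s.D s.W a ∧ Enc S a τ ∧ ¬ c.Both a := ⟨q0, a1, a2, a3⟩
  obtain ⟨b1, b2, b3⟩ := Nat.find_spec hex
  have b4 : ∀ a, WArc S s.D s.W a → Enc S a τ → a < Nat.find hex → c.Both a := fun a x1 x2 x3 => by
    by_contra x4
    exact Nat.find_min hex x3 ⟨x1, x2, x4⟩
  have b5 : Nat.find hex ≤ q0 := Nat.find_min' hex ⟨a1, a2, a3⟩
  generalize Nat.find hex = b at b1 b2 b3 b4 b5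
  have b6 : S.mate q0 ≤ S.mate b := by
    rcases b5.eq_or_lt with h | h
    · rw [h]
    · exact (enc_nest b2 a2 h).le
  have b7 : Q < b ∧ S.mate b < S.mate Q := by
    rcases lt_trichotomy Q b with h | h | h
    · exact ⟨h, enc_nest h4 b2 h⟩
    · exact absurd (h ▸ h3) b3
    · have := enc_nest b2 h4 h
      unfold Ctx.Both at h3 b3
      omega
  have b8 := b1.1
  have b9 : b ∈ tm I ∧ S.mate b ∈ tm I := by
    simp only [tm, mem_Ioc] at *
    omega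
  obtain ⟨d, θ, c1, c2⟩ : ∃ d θ, θ ∈ SB.Zd S s I d ∧
      ((τ < c.x.1 ∧ θ = b) ∨ (c.x.1 ≤ τ ∧ θ = S.mate b)) := by
    rcases a4 with a4 | a4
    · exact ⟨true, b, zd_mono a4.2 b9.1 b5, Or.inl ⟨a4.1, rfl⟩⟩
    · exact ⟨false, _, zd_mono a4.2 b9.2 b6, Or.inr ⟨a4.1, rfl⟩⟩
  have hcol : ∀ z ∈ cols S s.W b, Near S s.D s.W (chain s.D s.W (SB.wall I d)) (7 * s.w) z := by
    obtain ⟨-, u, u1, u2⟩ := b1
    have hl := link_arc (D := s.D) b8 u1
    rcases zone_exit H.hs hk c1 u2 with c3 | ⟨a, e1, e2, e3, e4, e5, -⟩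
    · have c4 : ∀ x, x = b ∨ x = S.mate b →
          Near S s.D s.W (chain s.D s.W (SB.wall I d)) (6 * s.w) (x, u) := by
        rcases c2 with ⟨-, rfl⟩ | ⟨-, rfl⟩ <;> rintro x (rfl | rfl)
        exacts [c3, near_link c3 hl, near_link c3 (link_symm hl), c3]
      rintro ⟨x, v⟩ hz
      exact near_mono (near_col (wd H.hs) (c4 x hz.1) hz.2) Subset.rfl (by linarith)
    · exfalso
      have k1 := S.nc a b
      have k2 := S.nc b a
      have k3 := S.nc a (S.mate b)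
      have k4 := S.inv b
      have k5 := H.zone_side hk e4
      have k6 := H.zone_side hk e5
      have k7 : a < b ∧ S.mate b < S.mate a := by omega
      have k8 := b4 a e1 ⟨k7.1.le.trans b2.1, b2.2.trans k7.2⟩ k7.1
      unfold Ctx.Both at k8
      cases d <;> simp at k5 k6 <;> omega
  obtain ⟨n1, n2⟩ := H.not_sep hk b8 b3 fun z hz => near_mono (hcol z hz) (wall_src d) le_rfl
  have hx := hT.ext
  obtain ⟨g, hg⟩ : ∃ g, (τ < c.x.1 ∧ g = S.mate b) ∨ (c.x.1 ≤ τ ∧ g + 1 = b) := by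
    by_cases h : τ < c.x.1
    · exact ⟨_, Or.inl ⟨h, rfl⟩⟩
    · exact ⟨b - 1, Or.inr ⟨not_lt.1 h, by omega⟩⟩
  have hnear : ∀ p, Near S s.D s.W (chain s.D s.W g) (s.w / 20) p →
      Near S s.D s.W (chain s.D s.W (SB.wall I d)) (8 * s.w) p := by
    rintro p ⟨⟨x, v⟩, hq, k, e1, e2⟩
    obtain rfl : x = g := hq.1
    refine near_mono (near_step (R := 7 * s.w) ?_ e2) Subset.rfl (by linarith)
    rcases hg with ⟨-, e3⟩ | ⟨-, e3⟩
    · exact hcol _ ⟨Or.inr e3, hq.2.2⟩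
    · exact near_link (hcol (x + 1, v) ⟨Or.inl e3, hq.2.2⟩) (link_symm (link_gap hq.2.1))
  have harc : ∀ a t, Enc S a g → t ∈ s.D.P a → t ∈ s.W → c.Both a := fun a t ha ht hW => by
    have k1 := S.nc a b
    have k2 := S.nc b a
    have k4 := S.inv b
    have k5 := S.inv a
    have k7 : a < b ∧ S.mate b < S.mate a := by
      unfold Enc at ha
      by_cases k8 : a = S.mate b
      · subst k8
        omega
      by_cases k9 : a = b
      · subst k9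
        omega
      by_cases k10 : b = S.mate a
      · subst k10
        omega
      omega
    exact b4 a ⟨lt_of_le_of_lt ha.1 ha.2, t, ht, hW⟩ ⟨k7.1.le.trans b2.1, b2.2.trans k7.2⟩ k7.1
  obtain ⟨P, co, hI⟩ := kick_cand H.hs hk
  obtain ⟨A0, u1, u2⟩ := wall_unif hI (g := SB.wall I d) (by cases d <;> simp [SB.wall])
  refine ⟨g, H.term (H.term_of (by unfold Enc at b2; omega)
    ⟨A0, u1, fun p hp => u2 p (near_mono (hnear p hp) Subset.rfl (by linarith))⟩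
    fun a t ha ht hW => Or.inl (harc a t ha ht hW))
    (fun p hp => ⟨nd_near N H.hN H.hs hk (by linarith) (near_mono (hnear p hp) (wall_src d) le_rfl),
      H.g_near hk hQ h1 h2 h3 (by unfold Enc; omega) hp⟩) fun a ha => ?_, fun a x1 x2 => ?_⟩
  · by_cases hb : c.Both a
    · exact Or.inl hb
    · exact Or.inr fun t ht hW => absurd (harc a t ha ht hW) hb
  · unfold Ctx.Both Enc at *
    omega

theorem nf (h : c.NF s V A) :
    c.NF ((sysB S π).mid s ρ) ((sysB S π).Vn s ρ V) (beta c s ρ V * A) := by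
  obtain ⟨e, τ0, h1, h2, h3, h4⟩ := h
  obtain ⟨τ, a1, a2, a3⟩ := H.b2 h3
  obtain ⟨τ', b1, b2⟩ : ∃ τ', c.Term ((sysB S π).mid s ρ) ((sysB S π).Vn s ρ V)
      (beta c s ρ V * A) τ' ∧ ∀ a t, t ∈ s.D.P a → t ∈ s.W → Gd s ρ (a, t) → c.Both a → Enc S a τ →
        Enc S a τ' := by
    cases hk : s.kick with
    | none => exact ⟨τ, H.passive hk a1 a2, fun _ _ _ _ _ _ h => h⟩
    | some I =>
      by_cases hQ : ∃ Q, WArc S s.D s.W Q ∧ Q ∈ tm I ∧ S.mate Q ∈ tm I ∧ c.Both Q ∧ Enc S Q τ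
      · obtain ⟨Q, q1, q2, q3, q4, q5⟩ := hQ
        by_cases hh : Hit c s I τ
        · obtain ⟨τ', b1, b2⟩ := H.hit hk a1 hh q1 q2 q3 q4 q5
          exact ⟨τ', b1, fun a _ _ _ _ => b2 a⟩
        · exact ⟨τ, H.miss hk a1 a2 hh q1 q2 q3 q4 q5, fun _ _ _ _ _ _ h => h⟩
      · refine ⟨0, H.term_zero, fun a t ht hW hg hb ha => absurd ?_ hQ⟩
        have q1 : WArc S s.D s.W a := ⟨lt_of_le_of_lt ha.1 ha.2, t, ht, hW⟩
        have q2 : a ∈ tm I := (hg.2 I hk).1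
        have q3 := H.mates hk a q1
        have q4 := q1.1
        refine ⟨a, q1, q2, ?_, hb, ha⟩
        simp only [tm, mem_Ioc, Enc] at q2 q3 ⊢
        omega
  refine ⟨e, τ', h1, H.stop h2, b1, fun a t' ha ht hW => ?_⟩
  rcases H.bg_mid (stop_bg h2) ha ht hW with ⟨t, c1, c2, c3, rfl⟩ | ⟨I, c1, c2, c3, c4⟩
  · rcases h4 a t ha c1 c2 with h5 | ⟨h5, h6 | h6⟩
    · rw [H.psi_eq c3]
      exact Or.inl (H.off h5)
    · rw [(sysB S π).Psi_of_zero ρ ((sysB S π).psi_pin ρ h6)]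
      exact Or.inr ⟨h5, Or.inl h6⟩
    · exact Or.inr ⟨h5, Or.inr (b2 a t c1 c2 c3 h5 (a3 a h5 h6))⟩
  · exact Or.inr ⟨H.both_out c1 c2 c3, Or.inl c4⟩

theorem step (h : c.NDB s V A) :
    c.NDB ((sysB S π).mid s ρ) ((sysB S π).Vn s ρ V) (beta c s ρ V * A) :=
  h.imp H.fl H.nf

end Up

theorem ndb_mono {s' : St} (hD : s'.D = s.D) (hl : s'.lab = s.lab) (hW : s'.W ⊆ s.W)
    (hP : s.Pin ⊆ s'.Pin) (h : c.NDB s V A) : c.NDB s' V A := by
  have hs : ∀ e, c.Stop s V A e → c.Stop s' V A e := fun e h => by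
    rcases h with h | h
    · exact Or.inl ⟨h.1, fun t a b => h.2 t (hW a) (hD ▸ b)⟩
    · refine Or.inr ?_
      unfold Ctx.CoreStop at h ⊢
      rw [hl]
      exact h
  rcases h with ⟨cm, cp, z, o, h1, h2, h3, h4, h5, h6⟩ | ⟨e, τ, h1, h2, ⟨h3, ⟨A0, h5, h6⟩, h7⟩, h4⟩
  · exact Or.inl ⟨cm, cp, z, o, h1, h2, h3, hs _ h4, hs _ h5,
      fun a t x y z => h6 a t x (hD ▸ y) (hW z)⟩
  · refine Or.inr ⟨e, τ, h1, hs _ h2, ⟨h3, ⟨A0, h5, fun p hp => ?_⟩,
      fun a t x y z => h7 a t x (hD ▸ y) (hW z)⟩,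
      fun a t x y z => (h4 a t x (hD ▸ y) (hW z)).imp_right fun h => ⟨h.1, h.2.imp_left (@hP _)⟩⟩
    rw [hD] at hp
    rw [hl]
    obtain ⟨q, hq, k, hk, hr⟩ := hp
    exact h6 p ⟨q, hq, k, hk, hr.mono_W hW⟩

theorem ndb_child (i : Option (ℕ × ℕ)) (h : c.NDB s V A) : c.NDB ((sysB S π).cSt s ρ i) V A :=
  ndb_mono (s := s) rfl rfl Subset.rfl (fun _ h => Or.inl (Or.inl h)) h

theorem ndb_cut (u o v : ℝ) (h : c.NDB s V A) : c.NDB (s.cut u o v) V A :=
  ndb_mono (s := s) rfl rfl (Icc_subset_Icc (le_max_left _ _) (min_le_left _ _)) Subset.rfl h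

theorem top_B (hN : N.NI s) (hs : NB.NI S s) (hk : s.kick = some I) (hθ : θ ∈ tm I)
    (h : (sysB S π).ch s ρ θ = none) (u : ℝ) :
    trap s ρ u ≤ ((sysB S π).hl s ρ I).H θ u - xi0 s ρ :=
  (trap_le u hs.w0).trans (H_top N hN hs hk fun d =>
    le_trans (by linarith [hs.w0]) (ball_top hN hk hθ h d u)).le

end Vale.Agent.P235.Pl.Qb
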