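import Vale.Agent.P235P.QBPair
import Vale.Agent.P235P.PBHeal
import Vale.Agent.P235P.PBNd
import Vale.Agent.P235P.PBTerm2
import Vale.Agent.P235P.PBPiece

/-! P235 planar case: the birth estimate of system B. -/

open Set Classical

noncomputable section

namespace Vale.Agent.P235.Pl.Pb

variable {S : Sk} {π : Par} {c : Ctx S}

theorem qb_zero {X : Dat S π} (h : X.Sit) : X.c.Term X.mid X.Vn X.A 0 := by
  refine ⟨by have := X.c.ptx.1; have := X.c.pty.1; omega, ⟨1, one_pos, ?_⟩, fun a t ha => ?_⟩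
  · rintro p ⟨q, ⟨-, ⟨t, h' | ⟨-, t0, h', -⟩, -⟩, -⟩, -⟩ <;> simp [h.nd.nb.l0] at h'
  · have := S.pos a (lt_of_le_of_lt ha.1 ha.2)
    have := ha.1
    omega

theorem qb_term {X : Dat S π} {dir : Bool} {Im : ℕ × ℕ} {m : Fin π.nS} {i k : ℤ} {η τ η' : ℕ}
    (h : X.Sit) (hc : X.CD dir Im m i k η τ η')
    (hσ : sg X.ρ = if X.vx ≤ (X.K m i k).t then -1 else 1) : X.c.Term X.mid X.Vn X.A τ := by
  refine ⟨?_, hc.term_old h hσ, fun a t ha ht hW => hc.term_arc h hσ ha ht hW⟩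
  have h1 := hc.xin
  have h2 := hc.yin
  rw [hc.im] at h1 h2
  cases dir
  · have h3 : τ < X.c.x.1 := h1.1
    have h4 : τ < X.c.y.1 := h2.1
    omega
  · exact iff_of_true h1.2 h2.2

theorem qb_birth (hm : 200 ≤ π.m0) (hB : TypeB c) : BirthB hm c := by
  intro s V A y I co dd eo B Gv h hv
  refine birth_of h h.ni hv (fun z q κ => XR s (c.vx V)
    (zz s (co, dd, (z, q, fun _ => (0, 0, 0)), true, eo))
    (xi0 s (co, dd, (z, q, fun _ => (0, 0, 0)), true, eo)) κ)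
    (fun z q κ => Finset.card_le_two.trans (by norm_num)) ?_
  intro d hS n hn u i k _ hmid hd hsuc
  obtain ⟨b, hb⟩ := h.aff
  obtain ⟨hball, hscl⟩ := h.ball hS.heal
  let X : Bool → Dat S π := fun σ => ⟨nodeB hm, c, s, (co, dd, u, σ, eo), V, A, b, I, d, n⟩
  have hX : ∀ σ, (X σ).Sit := fun σ => by
    refine ⟨⟨h.ni, h.ni, h.kick, hm⟩, h.rep, h.win, hb, h.shal u σ, ?_, ?_, ?_,
      h.thick_sub hS.heal n, lift_of h.rep h.win (fun p hp => (hb p hp).1) (h.shal u σ)⟩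
    · rw [← hn] at hball
      exact hball
    · rw [← hn] at hscl
      exact hscl
    · rw [← hn] at hmid
      exact hmid
  have hd' : ∀ σ, |(X σ).mx - (X σ).H (X σ).n (X σ).c.y.1 ((X σ).V (X σ).c.y.1 (X σ).c.y.2)| <
      2 * (X σ).u := fun _ => not_le.1 hd
  have hs' : ∀ σ, (X σ).P.Suc (sd (X σ).ρ) (X σ).hb (X σ).n i k := fun _ => by
    rw [← hn] at hsuc
    exact hsuc
  obtain ⟨dir, Im, mu, hp, hI | ⟨m, i', k', η, τ, η', hc⟩⟩ := (hX true).piece
  · exact ⟨true, (hX true).nd_of hB hp (qb_zero (hX true)) (Or.inl hI) (hd' true) (hs' true)⟩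
  · have hp' : ∀ σ, (X σ).PD dir Im mu := fun _ =>
      ⟨hp.sub, hp.ball, hp.lip, hp.mono, hp.cons, hp.low, hp.arcs⟩
    have hc' : ∀ σ, (X σ).CD dir Im m i' k' η τ η' := fun _ =>
      ⟨hc.beta, hc.tri, hc.ok, hc.im, hc.xin, hc.yin⟩
    have hτ : τ = if dir then Im.2 else Im.1 := by
      rw [hc.im]
      cases dir <;> rfl
    by_cases hl : (X true).vx ≤ ((X true).K m i' k').t
    · exact ⟨false, (hX false).nd_of hB (hp' false)
        (qb_term (hX false) (hc' false) (if_pos hl).symm) (Or.inr hτ) (hd' false) (hs' false)⟩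
    · exact ⟨true, (hX true).nd_of hB hp
        (qb_term (hX true) hc (if_neg hl).symm) (Or.inr hτ) (hd' true) (hs' true)⟩

end Vale.Agent.P235.Pl.Pb
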