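import Vale.Agent.P235P.Heal

/-! P235 planar case: system A (kicks on the inside of arcs). -/

open Set Classical

noncomputable section

namespace Vale.Agent.P235.Pl

variable (S : Sk) (π : Par)

namespace SA

def elig (s : St) (a : ℕ) : Prop :=
  a < S.mate a ∧ s.w / 2 ≤ s.hi - s.lo ∧ s.Unif (s.nb S (cols S s.W a) (12 * s.w)) ∧
    Disjoint (s.nb S (cols S s.W a) (20 * s.w)) s.Pin

/-- The arc `a'` encloses the arc `a` and their columns are `R`-close in the band `W`. -/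
def rel (D : Lk) (W : Set ℝ) (R : ℝ) (a' a : ℕ) : Prop :=
  S.mate a < S.mate a' ∧ ∃ p ∈ cols S W a', Near S D W (cols S W a) R p

def F (s : St) : ℕ → Prop := greedy (elig S s) (rel S s.D s.W (20 * s.w))

/-- The function of the cell of the arc `a`. -/
def E (D : Lk) (H : ℕ → ℝ → ℝ) (κ : Cone) (a : ℕ) : ℕ → ℝ → ℝ :=
  envT S D κ.Ip (cols S κ.Ip a) (fun p => H p.1 p.2) (1 / 16) (fun θ => {θ}) (κ.a + 2 * κ.s)

def Fp (D : Lk) (I : ℕ × ℕ) (H : ℕ → ℝ → ℝ) (κ : Cone) : ℕ → Prop :=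
  greedy (fun a => a < S.mate a ∧ I.1 < a ∧ S.mate a ≤ I.2 ∧ E12 H κ (a - 1, S.mate a))
    (rel S D κ.Ip (2000 * κ.s))

def hp (s : St) (D : Lk) (I : ℕ × ℕ) : HP where
  S := S
  D := D
  W := s.W
  s1 := sTop π s.w (s.labA (cols S s.W (I.1 + 1)))
  H0 θ t := dc S D s.W (cols S s.W (I.1 + 1)) (5 * s.w) (θ, t) / 16
  cells H κ := {c | ∃ a, Fp S D I H κ a ∧ c = ((a - 1, S.mate a), E S D H κ a)}

end SA

def sysA : Sys S π where
  cand s _ := {I | ∃ a, SA.F S s a ∧ I = (a - 1, S.mate a)}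
  src s I := cols S s.W (I.1 + 1)
  Z _ _ := ∅
  heal s D I _ hs := (SA.hp S π s D I).out hs

end Vale.Agent.P235.Pl
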