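import Vale.Agent.P235P.TWalk

/-! P235 planar case: the structure lemma. -/

open Set

noncomputable section

namespace Vale.Agent.P235.Pl

variable {S : Sk} {D : Lk} {x y z o E : ℕ × ℝ} {u r t₀ U β γ k b₁ b₂ : ℝ} {a gm gp : ℕ}

/-- Tops of separating arcs are not far. -/
theorem top_near (hD : Init S D) (hβ : b₂ - b₁ ≤ β) (hx : x.2 ∈ Icc b₁ b₂) (hr : DLe S D x y r)
    (hs : Sep S a x.1 y.1 ∨ Sep S a y.1 x.1) (hk : k ∈ D.P a) (hW : k ∈ Icc b₁ b₂) :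
    DLe S D x (a, k) (2 * r + β) := by
  obtain ⟨c, hc, h⟩ := hr
  obtain ⟨θ, t, c₁, h1, h2, h3, h4⟩ : ∃ θ t c₁, (θ = a ∨ θ = S.mate a) ∧ t ≤ k ∧ c₁ ≤ r ∧
      Reach S D univ x (θ, t) c₁ := by
    rcases hs with hs | hs
    · obtain ⟨θ, t, c₁, c₂, h1, h2, rfl, h3, h4⟩ := reach_cross hD hk h hs
      exact ⟨θ, t, c₁, h1, h2, by linarith [h4.nonneg], h3⟩
    · obtain ⟨θ, t, c₁, c₂, h1, h2, rfl, h3, h4⟩ := reach_cross hD hk h.symm hs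
      exact ⟨θ, t, c₂, h1, h2, by linarith [h3.nonneg], h4.symm⟩
  have h5 := (abs_le.1 h4.abs_le).2
  have h6 : DLe S D x (θ, k) (r + (r + β)) := DLe.trans ⟨c₁, h3, h4⟩ (.vert _ (by
    rw [abs_of_nonpos (by linarith)]
    dsimp only at h5
    linarith [hx.1, hW.2]))
  rcases h1 with rfl | rfl
  · exact h6.mono (by linarith)
  · exact (h6.trans (DLe.link (link_arc (hs.elim (·.1) (·.1)) hk)).symm).mono (by linarith)

/-- The standing assumptions. -/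
structure TH (S : Sk) (D : Lk) (x y : ℕ × ℝ) (r t₀ U β γ b₁ b₂ : ℝ) : Prop where
  init : Init S D
  px : Pt S D x
  py : Pt S D y
  bx : x.2 ∈ Icc b₁ b₂
  by' : y.2 ∈ Icc b₁ b₂
  hβ : b₂ - b₁ ≤ β
  hγ : 0 < γ
  βγ : 2 * β ≤ γ
  t0 : β ≤ t₀
  hU : t₀ + 4 * γ + 3 * β ≤ U
  le : DLe S D x y r
  ge : DGe S D x y U
  gap : ∀ a k, (Sep S a x.1 y.1 ∨ Sep S a y.1 x.1) → k ∈ D.P a → k ∈ Icc b₁ b₂ →
    DLe S D x (a, k) t₀ ∨ DGe S D x (a, k) U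

namespace TH

variable (H : TH S D x y r t₀ U β γ b₁ b₂)
include H

theorem β0 : 0 ≤ β := (abs_nonneg _).trans (band_abs H.hβ H.bx H.bx)

theorem ne : x.1 ≠ y.1 := fun h => by
  have h1 : DLe S D (x.1, x.2) (x.1, y.2) β := .vert _ (band_abs H.hβ H.bx H.by')
  have h2 : (x.1, y.2) = y := by rw [h]
  have := H.ge.le (h2 ▸ h1)
  linarith [H.hU, H.hγ, H.β0, H.t0]

/-- Assembly of the conclusion from a branch. -/
theorem fin (zo : (z = x ∧ o = y) ∨ (z = y ∧ o = x)) (br : Branch S D (Icc b₁ b₂) z E gm gp)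
    (next : ∀ e, gm < e → e < gp → ¬ Mates S D (Icc b₁ b₂) gm e)
    (hE : (E = z ∧ gm + 1 = z.1 ∧ gp = z.1) ∨ (Sep S (gm + 1) z.1 o.1 ∧ S.mate (gm + 1) = gp ∧
      E.1 = gm + 1 ∧ E.2 ∈ D.P (gm + 1)))
    (seam : ∀ a, WArc S D (Icc b₁ b₂) a → Enc S a gm → ∀ p ∈ cols S (Icc b₁ b₂) a,
      DGe S D E p (2 * γ))
    (faro : DGe S D E o (2 * γ))
    (farb : ∀ b k, WArc S D (Icc b₁ b₂) b → k ∈ D.P b → Sep S b o.1 z.1 →
      Mates S D (Icc b₁ b₂) gm (b - 1) → DGe S D E (b, k) (2 * γ)) :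
    ∃ fm fp, Str S D (Icc b₁ b₂) x y r γ β z o E gm gp fm fp := by
  have h0 := H.β0
  have r0 : 0 ≤ r := let ⟨_, h1, h2⟩ := H.le; h2.nonneg.trans h1
  have pz : Pt S D z := by rcases zo with ⟨rfl, -⟩ | ⟨rfl, -⟩; exacts [H.px, H.py]
  have po : Pt S D o ∧ o.2 ∈ Icc b₁ b₂ ∧ z.1 ≠ o.1 := by
    rcases zo with ⟨rfl, rfl⟩ | ⟨rfl, rfl⟩
    exacts [⟨H.py, H.by', H.ne⟩, ⟨H.px, H.bx, H.ne.symm⟩]
  have hN : gp ≤ S.N ∧ (o.1 ≤ gm ∨ gp < o.1) ∧ DLe S D x E (2 * r + β) := by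
    rcases hE with ⟨rfl, h1, h2⟩ | ⟨h1, rfl, h2, h3⟩
    · refine ⟨h2 ▸ pz.2.1, by have := po.2.2; omega, ?_⟩
      rcases zo with ⟨rfl, -⟩ | ⟨rfl, -⟩
      exacts [.refl _ (by linarith), H.le.mono (by linarith)]
    · refine ⟨(S.pos _ h1.1).2, by have := h1.2.2.2; omega, ?_⟩
      have h4 : E = (gm + 1, E.2) := Prod.ext h2 rfl
      rw [h4]
      refine top_near H.init H.hβ H.bx H.le ?_ h3 br.2.2.2.1
      rcases zo with ⟨rfl, rfl⟩ | ⟨rfl, rfl⟩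
      exacts [Or.inl h1, Or.inr h1]
  obtain ⟨fm, fp, a1, a2, a3, a4, a5, a6, a7, a8⟩ := tw_walk H.init H.hβ H.hγ H.βγ br next hN.1
    po.2.1 hN.2.1 po.1.1 po.1.2.1 seam faro farb
  exact ⟨fm, fp, zo, hN.2.2, br, next, a1, a2, a3, a4, a5, a6, a7, a8, seam, faro, farb⟩

/-- The side of `y`, below an arc `s` whose top is not far from `x`. -/
theorem sideY {s : ℕ} (hs : WArc S D (Icc b₁ b₂) s) (hk : k ∈ D.P s) (s1 : s ≤ y.1)
    (s2 : y.1 ≤ S.mate s) (hT : DLe S D x (s, k) (t₀ + 2 * γ + 2 * β))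
    (hin : ∀ a, WArc S D (Icc b₁ b₂) a → s < a → a ≤ y.1 → y.1 ≤ S.mate a →
      Sep S a y.1 x.1 ∧ ∀ k ∈ D.P a, DGe S D x (a, k) U)
    (hb : ∀ b k, WArc S D (Icc b₁ b₂) b → k ∈ D.P b → Sep S b x.1 y.1 → Enc S s (b - 1) →
      (∀ c, WArc S D (Icc b₁ b₂) c → Enc S c (b - 1) → c ≤ y.1 ∧ y.1 ≤ S.mate c) →
      DLe S D x (b, k) (t₀ + 2 * γ + 2 * β)) :
    ∃ E gm gp fm fp, Str S D (Icc b₁ b₂) x y r γ β y x E gm gp fm fp := by
  have h0 := H.β0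
  have h1 := H.hγ
  have h2 := H.hU
  have h3 := H.t0
  have kW := hs.mem H.init hk
  obtain ⟨E, gm, gp, br, next, enc, hE⟩ := exists_branch (S := S) (D := D) H.by' H.py.1 s
    fun c hc hcs => by
      by_contra h
      have h4 : c = y.1 ∨ S.mate c = y.1 := by tauto
      rcases hcs.eq_or_lt with rfl | hcs
      · have := H.ge.le (hT.trans (col_top H.hβ hs.1 hk kW ⟨h4.imp Eq.symm Eq.symm, H.by'⟩))
        linarith
      · have := hc.1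
        have := arc_nest hs.1 hcs s1 (by omega)
        omega
  have hE' : (DGe S D x E U ∧ s ≤ E.1 ∧ E.1 ≤ S.mate s) ∧ ((E = y ∧ gm + 1 = y.1 ∧ gp = y.1) ∨
      (Sep S (gm + 1) y.1 x.1 ∧ S.mate (gm + 1) = gp ∧ E.1 = gm + 1 ∧ E.2 ∈ D.P (gm + 1))) := by
    rcases hE with ⟨rfl, e1, e2, -⟩ | ⟨e1, e2, e3, e4, e5, -⟩
    · exact ⟨⟨H.ge, s1, s2⟩, Or.inl ⟨rfl, e1, e2⟩⟩
    · obtain ⟨e6, e7⟩ := hin _ e2 (by omega) br.1 (e3 ▸ br.2.1)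
      have e8 : E = (gm + 1, E.2) := Prod.ext e4 rfl
      have := br.1
      exact ⟨⟨e8 ▸ e7 _ e5, by omega, by omega⟩, Or.inr ⟨e6, e3, e4, e5⟩⟩
  obtain ⟨⟨f1, f2, f3⟩, f4⟩ := hE'
  have ss : ∀ p ∈ cols S (Icc b₁ b₂) s, DGe S D E p (2 * γ) := fun p hp =>
    ((hT.trans (col_top H.hβ hs.1 hk kW hp)).ge f1).symm.mono (by linarith)
  refine ⟨E, gm, gp, H.fin (Or.inr ⟨rfl, rfl⟩) br next f4 (fun a ha he p hp => ?_)
    (f1.symm.mono (by linarith)) fun b k hb1 hb2 hb3 hb4 => ?_⟩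
  · obtain ⟨a1, a2, a3⟩ := (enc a ha).1 he
    rcases a3.eq_or_lt with rfl | a3
    · exact ss p hp
    · intro c hc
      have a4 := arc_nest hs.1 a3 s1 a2
      obtain ⟨q, q1, q2⟩ := cross_band H.init hs ⟨f2, f3⟩ (by have := hp.1; omega) hp.2
        ⟨c, le_rfl, hc⟩
      exact (ss q q1).le q2
  · exact ((hb b k hb1 hb2 hb3 ((hb4 s hs).1 ((enc s hs).2 ⟨s1, s2, le_rfl⟩)) fun c hc he =>
      let ⟨c1, c2, _⟩ := (enc c hc).1 ((hb4 c hc).2 he)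
      ⟨c1, c2⟩).ge f1).symm.mono (by linarith)

/-- No arc around `y` alone has its top near `x`. -/
theorem case2 (hY : ∀ b k, WArc S D (Icc b₁ b₂) b → k ∈ D.P b → Sep S b y.1 x.1 →
      DGe S D x (b, k) U) {m : ℕ} {E₀ : ℕ × ℝ} (e0 : DLe S D x E₀ t₀)
    (hn : ∀ b k, WArc S D (Icc b₁ b₂) b → k ∈ D.P b → Sep S b x.1 y.1 → b ≤ m →
      ¬ DLe S D x (b, k) t₀)
    (hA : (E₀ = x ∧ m = x.1) ∨ (WArc S D (Icc b₁ b₂) (m + 1) ∧ Sep S (m + 1) x.1 y.1 ∧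
      E₀.1 = m + 1 ∧ E₀.2 ∈ D.P (m + 1))) :
    ∃ z o E gm gp fm fp, Str S D (Icc b₁ b₂) x y r γ β z o E gm gp fm fp := by
  have h0 := H.β0
  have h1 := H.hγ
  have h2 := H.hU
  have h3 := H.t0
  have uniq : ∀ a k k', a < S.mate a → k ∈ D.P a → k' ∈ D.P a → k = k' := fun a k k' ha hk hk' => by
    obtain ⟨p, hp⟩ := H.init.single a ha
    rw [hp] at hk hk'
    exact hk.trans hk'.symm
  by_cases hc : ∀ c k, WArc S D (Icc b₁ b₂) c → k ∈ D.P c → c ≤ x.1 → x.1 ≤ S.mate c → c ≤ m →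
      DGe S D E₀ (c, k) (2 * γ + β)
  · obtain ⟨E, gm, gp, br, next, enc, hE⟩ := exists_branch (S := S) (D := D) H.bx H.px.1 m
      fun c hc1 hcm => by
        by_contra h
        have h4 : c = x.1 ∨ S.mate c = x.1 := by tauto
        have h5 := hc1.1
        rcases hA with ⟨rfl, -⟩ | ⟨a1, a2, -⟩
        · obtain ⟨k, k1, k2⟩ := hc1.2
          have := (hc c k hc1 k1 (by omega) (by omega) hcm).le
            (col_top H.hβ h5 k1 k2 ⟨h4.imp Eq.symm Eq.symm, H.bx⟩).symm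
          linarith
        · have := arc_nest a1.1 (a := c) (by omega) a2.2.1 (by omega)
          have := a2.2.1
          have := a2.2.2.1
          omega
    have hE' : E = E₀ ∧ ((E = x ∧ gm + 1 = x.1 ∧ gp = x.1) ∨
        (Sep S (gm + 1) x.1 y.1 ∧ S.mate (gm + 1) = gp ∧ E.1 = gm + 1 ∧ E.2 ∈ D.P (gm + 1))) := by
      have := br.1
      rcases hE with ⟨e0, e1, e2, e3⟩ | ⟨e1, e2, e3, e4, e5, e6⟩ <;>
        rcases hA with ⟨a1, a2⟩ | ⟨a1, a2, a3, a4⟩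
      · exact ⟨e0.trans a1.symm, Or.inl ⟨e0, e1, e2⟩⟩
      · exact absurd (e3 _ a1 a2.2.1 a2.2.2.1) (by omega)
      · omega
      · obtain rfl : gm = m := by
          have := e6 _ a1 (by omega) a2.2.1 a2.2.2.1
          omega
        exact ⟨Prod.ext (e4.trans a3.symm) (uniq _ _ _ a1.1 e5 a4), Or.inr ⟨a2, e3, e4, e5⟩⟩
    obtain ⟨rfl, f4⟩ := hE'
    refine ⟨_, _, E, gm, gp, H.fin (Or.inl ⟨rfl, rfl⟩) br next f4 (fun a ha he p hp => ?_)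
      ((e0.ge H.ge).mono (by linarith)) fun b k hb1 hb2 hb3 _ =>
        (e0.ge (hY b k hb1 hb2 hb3)).mono (by linarith)⟩
    obtain ⟨a1, a2, a3⟩ := (enc a ha).1 he
    obtain ⟨k, k1, k2⟩ := ha.2
    exact ((col_top H.hβ ha.1 k1 k2 hp).ge (hc a k ha k1 a1 a2 a3).symm).symm.mono (by linarith)
  simp only [not_forall] at hc
  obtain ⟨c, kc, c1, c2, c3, c4, c5, c6⟩ := hc
  have c7 := DLe.of_not c6
  have K : ∀ b k, WArc S D (Icc b₁ b₂) b → k ∈ D.P b → b ≤ x.1 → x.1 ≤ S.mate b → b ≤ m → c ≤ b →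
      DLe S D x (b, k) (t₀ + 2 * γ + 2 * β) := fun b k b1 b2 b3 b4 b5 b6 => by
    rcases b6.eq_or_lt with rfl | b6
    · rw [uniq _ _ _ b1.1 b2 c2]
      exact (e0.trans c7).mono (by linarith)
    · obtain ⟨q, q1, q2⟩ := cross_band H.init b1 (p := E₀) (by
        rcases hA with ⟨rfl, -⟩ | ⟨-, a2, a3, -⟩
        · exact ⟨b3, b4⟩
        · have := a2.2.1
          omega) (Or.inl b6) (c1.mem H.init c2) c7
      exact ((e0.trans q2).trans (col_top H.hβ b1.1 b2 (b1.mem H.init b2) q1).symm).mono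
        (by linarith)
  have cy : c ≤ y.1 ∧ y.1 ≤ S.mate c := by
    by_contra h
    have hs : Sep S c x.1 y.1 := ⟨c1.1, c3, c4, by omega⟩
    have := ((H.gap c kc (Or.inl hs) c2 (c1.mem H.init c2)).resolve_left (hn c kc c1 c2 hs c5)).le
      (K c kc c1 c2 c3 c4 c5 le_rfl)
    linarith
  obtain ⟨s, ⟨s1, s2, s3, s4, s5⟩, s6⟩ := tw_max (P := fun s => WArc S D (Icc b₁ b₂) s ∧ s ≤ x.1 ∧
    x.1 ≤ S.mate s ∧ s ≤ y.1 ∧ y.1 ≤ S.mate s) x.1 ⟨c, c1, c3, c4, cy⟩ fun _ h => h.2.1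
  have cs := s6 c ⟨c1, c3, c4, cy⟩
  have sm : s ≤ m := by
    rcases hA with ⟨-, rfl⟩ | ⟨-, ⟨a1, a2, a3, a4⟩, -⟩
    · exact s2
    · by_contra h
      rcases (show m + 1 ≤ s by omega).eq_or_lt with rfl | h'
      · omega
      · have := arc_nest s1.1 h' s2 a3
        omega
  obtain ⟨ks, k1, -⟩ := s1.2
  refine ⟨_, _, H.sideY s1 k1 s4 s5 (K s ks s1 k1 s2 s3 sm cs) (fun a a1 a2 a3 a4 => ?_)
    fun b k b1 b2 b3 b4 b5 => ?_⟩
  · have hs : Sep S a y.1 x.1 := ⟨a1.1, a3, a4, by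
      by_contra h
      exact absurd (s6 a ⟨a1, by omega, by omega, a3, a4⟩) (by omega)⟩
    exact ⟨hs, fun k hk => hY a k a1 hk hs⟩
  · have b6 := b4.1
    have b7 := b3.2.1
    by_cases hbm : b ≤ m
    · exact K b k b1 b2 b7 b3.2.2.1 hbm (by omega)
    rcases hA with ⟨-, rfl⟩ | ⟨a1, a2, a3, a4⟩
    · exact absurd b7 hbm
    rcases (show m + 1 ≤ b by omega).eq_or_lt with rfl | h'
    · have : E₀ = (m + 1, k) := Prod.ext a3 (uniq _ _ _ a1.1 a4 b2)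
      exact (this ▸ e0).mono (by linarith)
    · have b8 := arc_nest b1.1 h' b7 a2.2.2.1
      have b9 := b1.1
      have := b5 _ a1 ⟨by omega, by omega⟩
      have := a2.2.2.2
      omega

theorem main : ∃ z o E gm gp fm fp, Str S D (Icc b₁ b₂) x y r γ β z o E gm gp fm fp := by
  have h0 := H.β0
  have h1 := H.hγ
  by_cases hY : ∃ s, WArc S D (Icc b₁ b₂) s ∧ Sep S s y.1 x.1 ∧ ∃ k ∈ D.P s, DLe S D x (s, k) t₀
  · obtain ⟨s, ⟨s1, s2, k, s3, s4⟩, s5⟩ := tw_max y.1 hY fun _ h => h.2.1.2.1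
    refine ⟨_, _, H.sideY s1 s3 s2.2.1 s2.2.2.1 (s4.mono (by linarith)) (fun a a1 a2 a3 a4 => ?_)
      fun b k b1 _ b3 b4 _ => ?_⟩
    · have a5 := arc_nest a1.1 a2 a3 s2.2.2.1
      have hs : Sep S a y.1 x.1 := ⟨a1.1, a3, a4, by have := s2.2.2.2; omega⟩
      exact ⟨hs, fun k hk => (H.gap a k (Or.inr hs) hk (a1.mem H.init hk)).resolve_left fun h =>
        absurd (s5 a ⟨a1, hs, k, hk, h⟩) (by omega)⟩
    · obtain ⟨b5, b6⟩ := b4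
      have b7 := (S.pos b b1.1).1
      have := arc_nest b1.1 (a := s) (θ := b) (by omega) le_rfl (by omega)
      have := s2.2.2.2
      have := b3.2.1
      have := b3.2.2.1
      omega
  have hY' : ∀ b k, WArc S D (Icc b₁ b₂) b → k ∈ D.P b → Sep S b y.1 x.1 → DGe S D x (b, k) U :=
    fun b k b1 b2 b3 => (H.gap b k (Or.inr b3) b2 (b1.mem H.init b2)).resolve_left fun h =>
      hY ⟨b, b1, b3, k, b2, h⟩
  by_cases hX : ∃ s, WArc S D (Icc b₁ b₂) s ∧ Sep S s x.1 y.1 ∧ ∃ k ∈ D.P s, DLe S D x (s, k) t₀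
  · obtain ⟨s, ⟨s1, s2, k, s3, s4⟩, s5⟩ := tw_min hX
    obtain ⟨m, rfl⟩ : ∃ m, s = m + 1 := ⟨s - 1, by have := (S.pos s s1.1).1; omega⟩
    exact H.case2 hY' s4 (fun b k b1 b2 b3 b4 h => absurd (s5 b ⟨b1, b3, k, b2, h⟩) (by omega))
      (Or.inr ⟨s1, s2, rfl, s3⟩)
  · exact H.case2 hY' (.refl _ (h0.trans H.t0)) (fun b k b1 b2 b3 _ h => hX ⟨b, b1, b3, k, b2, h⟩)
      (Or.inl ⟨rfl, rfl⟩)

end TH

theorem structure_gen (c : Ctx S) (hB : TypeB c) (hγ : 0 < γ) (hβγ : 2 * β ≤ γ)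
    (hU : 4 * γ + 3 * β ≤ 50000 * c.rs)
    (bx : c.x.2 ∈ Icc b₁ b₂) (by' : c.y.2 ∈ Icc b₁ b₂) (h1 : c.x.2 - 61 * c.rs ≤ b₁)
    (h2 : b₂ ≤ c.x.2 + 61 * c.rs) (hβ : b₂ - b₁ ≤ β) :
    ∃ z o E gm gp fm fp,
      Str S c.D0 (Icc b₁ b₂) c.x c.y c.r γ β z o E gm gp fm fp := by
  obtain ⟨t₀, t1, t2, t3⟩ := hB
  have h0 := c.rs_pos
  have h3 : 0 ≤ β := by linarith [bx.1, bx.2]
  have hle : DLe S c.D0 c.x c.y c.r := ⟨_, le_rfl, c.dist.1⟩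
  refine TH.main (t₀ := t₀) (U := t₀ + 50000 * c.rs) ⟨c.init, c.ptx, c.pty, bx, by', hβ,
    hγ, hβγ, by linarith, by linarith, hle,
    fun k hk => le_trans (by linarith) (c.dist.2 hk), fun a k hs hk hW => ?_⟩
  obtain ⟨k₀, -, k1⟩ := top_near c.init hβ bx hle hs hk hW
  have hg : IsGLB {k' | Reach S c.D0 univ c.x (a, k) k'} _ :=
    isGLB_csInf ⟨k₀, k1⟩ ⟨0, fun _ h => Reach.nonneg h⟩
  rcases t3 a k _ hs hk (abs_le.2 ⟨by linarith [hW.1], by linarith [hW.2]⟩) hg with h | h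
  · obtain ⟨k', k2, k3⟩ := (isGLB_lt_iff hg).1 h
    exact Or.inl ⟨k', k3.le, k2⟩
  · exact Or.inr fun k' k2 => h.le.trans (hg.1 k2)

theorem structure_lemma (c : Ctx S) (hB : TypeB c) (hu : 0 < u) (huρ : u ≤ c.rs)
    (bx : c.x.2 ∈ Icc b₁ b₂) (by' : c.y.2 ∈ Icc b₁ b₂) (h1 : c.x.2 - 61 * c.rs ≤ b₁)
    (h2 : b₂ ≤ c.x.2 + 61 * c.rs) (hβ : b₂ - b₁ ≤ 122 * u) :
    ∃ z o E gm gp fm fp,
      Str S c.D0 (Icc b₁ b₂) c.x c.y c.r (10000 * u) (122 * u) z o E gm gp fm fp :=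
  structure_gen c hB (by linarith) (by linarith) (by linarith) bx by' h1 h2 hβ

end Vale.Agent.P235.Pl
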