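import Vale.Agent.P235P.TBas

/-! P235 planar case: the branch of a point and the walk along its class. -/

open Set

noncomputable section

namespace Vale.Agent.P235.Pl

variable {S : Sk} {D : Lk} {W : Set ℝ} {z o E p : ℕ × ℝ} {β γ b₁ b₂ : ℝ} {gm gp : ℕ}

theorem tw_max {P : ℕ → Prop} (n : ℕ) (h : ∃ a, P a) (hb : ∀ a, P a → a ≤ n) :
    ∃ a, P a ∧ ∀ b, P b → b ≤ a := by
  classical
  obtain ⟨a, ha⟩ := h
  exact ⟨_, Nat.findGreatest_spec (hb a ha) ha, fun b h => Nat.le_findGreatest (hb b h) h⟩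

theorem tw_min {P : ℕ → Prop} (h : ∃ a, P a) : ∃ a, P a ∧ ∀ b, P b → a ≤ b := by
  classical
  exact ⟨_, Nat.find_spec h, fun b k => Nat.find_min' h k⟩

theorem exists_branch (hz : z.2 ∈ W) (h1 : 1 ≤ z.1) (m : ℕ)
    (hm : ∀ c, WArc S D W c → c ≤ m → c ≠ z.1 ∧ S.mate c ≠ z.1) :
    ∃ E gm gp, Branch S D W z E gm gp ∧ (∀ e, gm < e → e < gp → ¬ Mates S D W gm e) ∧
      (∀ c, WArc S D W c → (Enc S c gm ↔ c ≤ z.1 ∧ z.1 ≤ S.mate c ∧ c ≤ m)) ∧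
      ((E = z ∧ gm + 1 = z.1 ∧ gp = z.1 ∧
          ∀ c, WArc S D W c → c ≤ z.1 → z.1 ≤ S.mate c → c ≤ m) ∨
        (m ≤ gm ∧ WArc S D W (gm + 1) ∧ S.mate (gm + 1) = gp ∧ E.1 = gm + 1 ∧ E.2 ∈ D.P (gm + 1) ∧
          ∀ c, WArc S D W c → m < c → c ≤ z.1 → z.1 ≤ S.mate c → gm + 1 ≤ c)) := by
  by_cases h : ∃ a, WArc S D W a ∧ m < a ∧ a ≤ z.1 ∧ z.1 ≤ S.mate a
  · obtain ⟨a, ⟨a1, a2, a3, a4⟩, a5⟩ := tw_min h
    obtain ⟨g, rfl⟩ : ∃ g, a = g + 1 := ⟨a - 1, by omega⟩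
    obtain ⟨k, k1, k2⟩ := a1.2
    refine ⟨(g + 1, k), g, S.mate (g + 1), ⟨a3, a4, mates_arc S D W a1.1, k2,
      Or.inr ⟨a1, rfl, rfl, k1⟩⟩, fun e e1 e2 hM => ?_, fun c hc => ⟨fun ⟨c1, c2⟩ => ?_,
      fun ⟨c1, c2, c3⟩ => ⟨by omega, by omega⟩⟩,
      Or.inr ⟨by omega, a1, rfl, rfl, k1, fun c hc c1 c2 c3 => a5 c ⟨hc, c1, c2, c3⟩⟩⟩
    · have := ((hM _ a1).2 ⟨e1, e2⟩).1
      omega
    · have c3 := arc_nest a1.1 (a := c) (by omega) le_rfl c2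
      refine ⟨by omega, by omega, ?_⟩
      by_contra c4
      have := a5 c ⟨hc, by omega, by omega, by omega⟩
      omega
  · have h' : ∀ c, WArc S D W c → c ≤ z.1 → z.1 ≤ S.mate c → c ≤ m := fun c hc c1 c2 =>
      not_lt.1 fun c3 => h ⟨c, hc, c3, c1, c2⟩
    refine ⟨z, z.1 - 1, z.1, ⟨by omega, le_rfl, fun c hc => ⟨fun ⟨c1, c2⟩ => ?_, fun ⟨c1, c2⟩ => ?_⟩,
      hz, Or.inl ⟨by omega, rfl⟩⟩, fun e e1 e2 => by omega, fun c hc => ⟨fun ⟨c1, c2⟩ => ?_,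
      fun ⟨c1, c2, c3⟩ => ?_⟩, Or.inl ⟨rfl, by omega, rfl, h'⟩⟩
    · have := hm c hc (h' c hc (by omega) (by omega))
      exact ⟨by omega, by omega⟩
    · have := hm c hc (h' c hc (by omega) (by omega))
      exact ⟨by omega, by omega⟩
    · exact ⟨by omega, by omega, h' c hc (by omega) (by omega)⟩
    · have := hm c hc c3
      exact ⟨by omega, by omega⟩

/-- Consecutive mates around a time. -/
theorem tw_around {e₀ e₁ θ : ℕ} (h0 : Mates S D W gm e₀) (h1 : Mates S D W gm e₁) (l0 : e₀ < θ)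
    (l1 : θ ≤ e₁) : ∃ e e', e₀ ≤ e ∧ e < θ ∧ θ ≤ e' ∧ e' ≤ e₁ ∧ Mates S D W gm e ∧
      Mates S D W gm e' ∧ (e' = e + 1 ∨ (WArc S D W (e + 1) ∧ e' = S.mate (e + 1))) := by
  obtain ⟨e, ⟨a1, a2⟩, a3⟩ := tw_max (P := fun e => Mates S D W gm e ∧ e < θ) θ ⟨_, h0, l0⟩
    fun _ h => h.2.le
  obtain ⟨e', ⟨b1, b2⟩, b3⟩ := tw_min (P := fun e => Mates S D W gm e ∧ θ ≤ e) ⟨_, h1, l1⟩
  refine ⟨e, e', a3 _ ⟨h0, l0⟩, a2, b2, b3 _ ⟨h1, l1⟩, a1, b1,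
    succ_mates (a1.symm.trans b1) (by omega) fun g g1 g2 g3 => ?_⟩
  by_cases h : g < θ
  · have := a3 g ⟨a1.trans g3, h⟩
    omega
  · have := b3 g ⟨a1.trans g3, by omega⟩
    omega

theorem Branch.anchor (hβ : b₂ - b₁ ≤ β) (h : Branch S D (Icc b₁ b₂) z E gm gp) {f : ℕ}
    (hf : f = gm ∨ f = gp) (hp : p ∈ chain D (Icc b₁ b₂) f) : DLe S D E p β := by
  obtain ⟨h1, h2, -, h3, h4⟩ := h
  obtain ⟨θ, k⟩ := E
  have key : ∀ t ∈ Icc b₁ b₂, DLe S D (θ, k) (gm + 1, t) β ∧ DLe S D (θ, k) (gp, t) β := by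
    intro t ht
    rcases h4 with ⟨rfl, rfl⟩ | ⟨h4, rfl, rfl, h5⟩
    · obtain rfl : θ = gm + 1 := le_antisymm h2 h1
      exact ⟨.vert _ (band_abs hβ h3 ht), .vert _ (band_abs hβ h3 ht)⟩
    · exact ⟨col_top hβ h4.1 h5 h3 ⟨Or.inl rfl, ht⟩, col_top hβ h4.1 h5 h3 ⟨Or.inr rfl, ht⟩⟩
  rcases hf with rfl | rfl
  · exact ((key _ hp.2.2).1.trans (chain_link hp).symm).mono (add_zero _).le
  · obtain ⟨θ', t⟩ := p
    obtain rfl : θ' = f := hp.1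
    exact (key _ hp.2.2).2

theorem tw_walk (hD : Init S D) (hβ : b₂ - b₁ ≤ β) (hγ : 0 < γ) (hβγ : 2 * β ≤ γ)
    (br : Branch S D (Icc b₁ b₂) z E gm gp)
    (next : ∀ e, gm < e → e < gp → ¬ Mates S D (Icc b₁ b₂) gm e) (hN : gp ≤ S.N)
    (ho : o.2 ∈ Icc b₁ b₂) (ho' : o.1 ≤ gm ∨ gp < o.1) (o1 : 1 ≤ o.1) (oN : o.1 ≤ S.N)
    (seam : ∀ a, WArc S D (Icc b₁ b₂) a → Enc S a gm → ∀ p ∈ cols S (Icc b₁ b₂) a,
      DGe S D E p (2 * γ))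
    (faro : DGe S D E o (2 * γ))
    (farb : ∀ b k, WArc S D (Icc b₁ b₂) b → k ∈ D.P b → Sep S b o.1 z.1 →
      Mates S D (Icc b₁ b₂) gm (b - 1) → DGe S D E (b, k) (2 * γ)) :
    ∃ fm fp, fm ≤ gm ∧ gp ≤ fp ∧ fp ≤ S.N ∧ Mates S D (Icc b₁ b₂) gm fm ∧
      Mates S D (Icc b₁ b₂) gm fp ∧ (o.1 ≤ fm ∨ fp < o.1) ∧
      (∀ e, fm < e → e < fp → Mates S D (Icc b₁ b₂) gm e →
        (chain D (Icc b₁ b₂) e).Nonempty ∧ ∀ p ∈ chain D (Icc b₁ b₂) e, DLe S D E p γ) ∧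
      ∀ f, f = fm ∨ f = fp → ∀ p ∈ chain D (Icc b₁ b₂) f,
        DGe S D E p (γ - β) ∧ DLe S D E p (γ + 2 * β) := by
  have hβ0 : 0 ≤ β := (abs_nonneg _).trans (band_abs hβ ho ho)
  obtain ⟨z1, z2, mg, -⟩ := id br
  set In : ℕ → Prop := fun e =>
    (chain D (Icc b₁ b₂) e).Nonempty ∧ ∀ p ∈ chain D (Icc b₁ b₂) e, DLe S D E p γ with hIn
  have ends : ∃ l u, l ≤ gm ∧ gp ≤ u ∧ u ≤ S.N ∧ Mates S D (Icc b₁ b₂) gm l ∧
      Mates S D (Icc b₁ b₂) gm u ∧ ¬ In l ∧ ¬ In u := by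
    by_cases h : ∃ a, WArc S D (Icc b₁ b₂) a ∧ Enc S a gm
    · obtain ⟨s, ⟨s1, s2⟩, s3⟩ := tw_max gm h fun _ h => h.2.1
      obtain ⟨m1, m2⟩ := mates_in (D := D) s2 fun b h1 h2 => s3 b ⟨h1, h2⟩
      have s4 := ((mg s s1).1 s2).2
      have s5 := (S.pos s s1.1).2
      refine ⟨s, S.mate s - 1, s2.1, by omega, by omega, m1, m2, fun ⟨⟨p, p1⟩, p2⟩ => ?_,
        fun ⟨⟨p, p1⟩, p2⟩ => ?_⟩
      · have := (seam s s1 s2 p ⟨Or.inl p1.1, p1.2.2⟩).le (p2 p p1)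
        linarith
      · have := (seam s s1 s2 (S.mate s - 1 + 1, p.2) ⟨Or.inr (by dsimp only; omega), p1.2.2⟩).le
          ((p2 p p1).trans (chain_link p1))
        linarith
    · refine ⟨0, S.N, Nat.zero_le _, hN, le_rfl, fun a ha => ⟨fun k => absurd ⟨a, ha, k⟩ h,
        fun k => ?_⟩, fun a ha => ⟨fun k => absurd ⟨a, ha, k⟩ h, fun k => ?_⟩,
        fun ⟨⟨p, p1⟩, _⟩ => ?_, fun ⟨⟨p, p1⟩, _⟩ => ?_⟩
      · exact absurd ((S.pos a ha.1).1.trans k.1) (by omega)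
      · exact absurd (S.pos a ha.1).2 (not_le.2 k.2)
      · exact absurd p1.2.1 (by rw [hD.l0]; exact id)
      · exact absurd p1.2.1 (by rw [hD.lN _ le_rfl]; exact id)
  obtain ⟨l, u, l1, u1, u2, l2, u3, l3, u4⟩ := ends
  obtain ⟨fm, ⟨a1, a2, a3⟩, a4⟩ :=
    tw_max (P := fun e => e ≤ gm ∧ Mates S D (Icc b₁ b₂) gm e ∧ ¬ In e) gm ⟨l, l1, l2, l3⟩
      fun _ h => h.1
  obtain ⟨fp, ⟨b1, b2, b3⟩, b4⟩ :=
    tw_min (P := fun e => gp ≤ e ∧ Mates S D (Icc b₁ b₂) gm e ∧ ¬ In e) ⟨u, u1, u3, u4⟩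
  have inner : ∀ e, fm < e → e < fp → Mates S D (Icc b₁ b₂) gm e → In e := fun e e1 e2 e3 => by
    by_contra h
    by_cases h1 : e ≤ gm
    · exact absurd (a4 e ⟨h1, e3, h⟩) (by omega)
    by_cases h2 : gp ≤ e
    · exact absurd (b4 e ⟨h2, e3, h⟩) (by omega)
    exact next e (by omega) (by omega) e3
  refine ⟨fm, fp, a1, b1, (b4 u ⟨u1, u3, u4⟩).trans u2, a2, b2, ?_, inner, fun f hf p hp => ⟨?_, ?_⟩⟩
  · by_contra h
    rcases ho' with ho' | ho'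
    · obtain ⟨e, e', c1, c2, c3, c4, c5, c6, c7⟩ := tw_around a2 (Mates.refl S D _ gm)
        (θ := o.1) (by omega) ho'
      obtain ⟨⟨p, p1⟩, p2⟩ := inner e' (by omega) (by omega) c6
      rcases c7 with c7 | ⟨c7, c8⟩
      · have p3 : p = (o.1, p.2) := Prod.ext (by rw [p1.1]; dsimp only; omega) rfl
        have := faro.le ((p3 ▸ p2 p p1 : DLe S D E (o.1, p.2) γ).trans
          (.vert _ (band_abs hβ p1.2.2 ho)))
        linarith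
      · obtain ⟨k, k1, k2⟩ := c7.2
        have := (farb _ k c7 k1 ⟨c7.1, c2, c8 ▸ c3, Or.inr (by omega)⟩ c5).le
          ((p2 p p1).trans (col_top hβ c7.1 k1 k2 ⟨Or.inr (p1.1.trans c8), p1.2.2⟩).symm)
        linarith
    · obtain ⟨e, e', c1, c2, c3, c4, c5, c6, c7⟩ := tw_around mg b2 (θ := o.1) ho' (by omega)
      obtain ⟨⟨p, p1⟩, p2⟩ := inner e (by omega) (by omega) c5
      have p3 := (p2 p p1).trans (chain_link p1)
      rcases c7 with c7 | ⟨c7, c8⟩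
      · have p4 : e + 1 = o.1 := by omega
        have := faro.le ((p4 ▸ p3).trans (.vert _ (band_abs hβ p1.2.2 ho)))
        linarith
      · obtain ⟨k, k1, k2⟩ := c7.2
        have := (farb _ k c7 k1 ⟨c7.1, c2, c8 ▸ c3, Or.inl (by omega)⟩ c5).le
          (p3.trans (col_top (p := (e + 1, p.2)) hβ c7.1 k1 k2 ⟨Or.inl rfl, p1.2.2⟩).symm)
        linarith
  · have h : ¬ In f := by rcases hf with rfl | rfl <;> assumption
    obtain ⟨q, q1, q2⟩ : ∃ q ∈ chain D (Icc b₁ b₂) f, ¬ DLe S D E q γ := by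
      by_contra k
      exact h ⟨⟨p, hp⟩, fun q hq => not_not.1 fun k' => k ⟨q, hq, k'⟩⟩
    have h1 : DLe S D q p β := by
      obtain ⟨θ, t⟩ := p
      obtain ⟨θ', t'⟩ := q
      obtain rfl : θ = f := hp.1
      obtain rfl : θ' = θ := q1.1
      exact .vert _ (band_abs hβ q1.2.2 hp.2.2)
    exact (h1.ge (DGe.of_not q2).symm).symm
  · by_cases h : f = gm ∨ f = gp
    · exact (br.anchor hβ h hp).mono (by linarith)
    rcases hf with rfl | rfl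
    · obtain ⟨e, e', c1, c2, c3, c4, c5, c6, c7⟩ := tw_around a2 (Mates.refl S D _ gm)
        (θ := f + 1) (by omega) (by omega)
      obtain rfl : e = f := by omega
      obtain ⟨⟨q, q1⟩, q2⟩ := inner e' (by omega) (by omega) c6
      exact (q2 q q1).trans (succ_dle hβ c7 hp q1).symm
    · obtain ⟨e, e', c1, c2, c3, c4, c5, c6, c7⟩ := tw_around mg b2 (θ := f) (by omega) le_rfl
      obtain rfl : e' = f := by omega
      obtain ⟨⟨q, q1⟩, q2⟩ := inner e (by omega) (by omega) c5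
      exact (q2 q q1).trans (succ_dle hβ c7 q1 hp)

end Vale.Agent.P235.Pl
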