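import Vale.Agent.P235.Assemble

/-! P235 planar case, part six: tree metrics are sums of cuts. -/

open Set MeasureTheory

noncomputable section

namespace Vale.Agent.P235.Pl

variable {V : Type} [Fintype V] [DecidableEq V] {M : V → V → ℝ}

/-- The class of `x` at the level `τ`. -/
def ycls (M : V → V → ℝ) (x : V) (τ : ℝ) (y : V) : Bool := decide (τ < M x y)

/-- The weight of a cut. -/
def ywt (M : V → V → ℝ) (η : V → Bool) : ℝ := (volume {τ | ∃ x, η x = true ∧ ycls M x τ = η}).toReal

omit [DecidableEq V] in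
theorem ycls_meas (x : V) (η : V → Bool) : MeasurableSet (ycls M x ⁻¹' {η}) := by
  have : Measurable (ycls M x) := measurable_pi_lambda _ fun y =>
    measurable_to_bool (by
      have : (fun τ => ycls M x τ y) ⁻¹' {true} = Iio (M x y) := by ext; simp [ycls]
      rw [this]; exact measurableSet_Iio)
  exact this (measurableSet_singleton _)

theorem ywt_sum (hs : ∀ x y, M x y = M y x) (hu : ∀ x y z, min (M x y) (M y z) ≤ M x z) (x y : V) :
    ∑ η ∈ Finset.univ.filter fun η : V → Bool => η x = true ∧ η y = false, ywt M η =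
      M x x - M x y := by
  have h1 : ∀ η : V → Bool, η x = true →
      {τ | ∃ x, η x = true ∧ ycls M x τ = η} = ycls M x ⁻¹' {η} := fun η hη => by
    ext τ
    refine ⟨?_, fun h => ⟨x, hη, h⟩⟩
    rintro ⟨x', -, rfl⟩
    have k : τ < M x' x := by simpa [ycls] using hη
    funext z
    simp only [ycls, decide_eq_decide]
    exact ⟨fun h => (lt_min k h).trans_le (hu _ _ _),
      fun h => (lt_min (hs x' x ▸ k) h).trans_le (hu _ _ _)⟩
  have h2 : ycls M x ⁻¹' ↑(Finset.univ.filter fun η : V → Bool => η x = true ∧ η y = false) =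
      Ico (M x y) (M x x) := by
    ext τ
    simp [ycls, and_comm]
  have h3 : M x y ≤ M x x := by simpa [hs y x] using hu x y x
  have h4 := sum_measure_preimage_singleton (μ := volume)
    (Finset.univ.filter fun η : V → Bool => η x = true ∧ η y = false) fun η _ => ycls_meas (M := M) x η
  rw [h2, Real.volume_Ico] at h4
  rw [← ENNReal.toReal_ofReal (sub_nonneg.2 h3), ← h4, ENNReal.toReal_sum fun η hη =>
    ne_top_of_le_ne_top (h4.trans_ne ENNReal.ofReal_ne_top)
      (Finset.single_le_sum (f := fun η => volume (ycls M x ⁻¹' {η})) (fun _ _ => zero_le) hη)]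
  exact Finset.sum_congr rfl fun η hη => by rw [ywt, h1 η (Finset.mem_filter.1 hη).2.1]

theorem ywt_sep (hs : ∀ x y, M x y = M y x) (hu : ∀ x y z, min (M x y) (M y z) ≤ M x z) (x y : V) :
    sepw (ywt M) x y = M x x + M y y - 2 * M x y := by
  have h1 := ywt_sum hs hu x y
  have h2 := ywt_sum hs hu y x
  rw [Finset.sum_filter] at h1 h2
  rw [show M x x + M y y - 2 * M x y = (M x x - M x y) + (M y y - M y x) by rw [hs y x]; ring,
    ← h1, ← h2, ← Finset.sum_add_distrib]
  refine Finset.sum_congr rfl fun η _ => ?_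
  cases hx : η x <;> cases hy : η y <;> simp [xv, hx, hy]

end Vale.Agent.P235.Pl
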