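import Vale.Agent.P235P.Base
import Vale.Agent.P235P.YUlt

/-! P235 planar case, part six: the embedding from a random consistent family. -/

open Set

noncomputable section

namespace Vale.Agent.P235.Pl

variable {S : Sk} {D : Lk} {Φ : ℕ → ℝ → ℝ} {τ τ' : ℝ} {p q r : ℕ × ℝ}

/-- Amounts that the family `Φ` pays for the pair `p`, `q`. -/
def Paid (S : Sk) (D : Lk) (Φ : ℕ → ℝ → ℝ) (p q : ℕ × ℝ) (v : ℝ) : Prop :=
  v ≤ |Φ p.1 p.2 - Φ q.1 q.2| ∨ ∃ a k, (Sep S a p.1 q.1 ∨ Sep S a q.1 p.1) ∧ k ∈ D.P a ∧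
    (v ≤ Φ p.1 p.2 - Φ a k ∨ v ≤ Φ q.1 q.2 - Φ a k)

/-- Paths on which `Φ` is at least `τ`. -/
inductive YHi (S : Sk) (D : Lk) (Φ : ℕ → ℝ → ℝ) (τ : ℝ) (p : ℕ × ℝ) : ℕ × ℝ → Prop
  | refl : τ ≤ Φ p.1 p.2 → YHi S D Φ τ p p
  | vert {θ : ℕ} {t t' : ℝ} : YHi S D Φ τ p (θ, t) → τ ≤ Φ θ t' → YHi S D Φ τ p (θ, t')
  | link {θ θ' : ℕ} {t : ℝ} : YHi S D Φ τ p (θ, t) → Link S D θ θ' t → YHi S D Φ τ p (θ', t)

theorem ylink_symm {θ θ' : ℕ} {t : ℝ} (h : Link S D θ θ' t) : Link S D θ' θ t := by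
  unfold Link at *
  tauto

theorem YHi.fst (h : YHi S D Φ τ p q) : τ ≤ Φ p.1 p.2 := by
  induction h with
  | refl h => exact h
  | vert _ _ ih => exact ih
  | link _ _ ih => exact ih

theorem YHi.snd (hΦ : Cons S D Φ) (h : YHi S D Φ τ p q) : τ ≤ Φ q.1 q.2 := by
  induction h with
  | refl h => exact h
  | vert _ h _ => exact h
  | link _ h ih => exact ih.trans_eq (hΦ.2 _ _ _ h)

theorem YHi.mono (h : YHi S D Φ τ p q) (h' : τ' ≤ τ) : YHi S D Φ τ' p q := by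
  induction h with
  | refl h => exact .refl (h'.trans h)
  | vert _ h ih => exact ih.vert (h'.trans h)
  | link _ h ih => exact ih.link h

theorem YHi.trans (h : YHi S D Φ τ p q) (h' : YHi S D Φ τ q r) : YHi S D Φ τ p r := by
  induction h' with
  | refl _ => exact h
  | vert _ k ih => exact ih.vert k
  | link _ k ih => exact ih.link k

theorem YHi.symm (hΦ : Cons S D Φ) (h : YHi S D Φ τ p q) : YHi S D Φ τ q p := by
  induction h with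
  | refl h => exact .refl h
  | vert h k ih => exact ((YHi.refl (p := (_, _)) k).vert (h.snd hΦ)).trans ih
  | link h k ih =>
    exact ((YHi.refl (p := (_, _)) ((h.link k).snd hΦ)).link (ylink_symm k)).trans ih

/-- A path that leaves the times below an arc passes below the top of the arc. -/
theorem YHi.arc (hD : Init S D) (hΦ : Cons S D Φ) {a : ℕ} {k : ℝ} (ha : a < S.mate a)
    (hk : k ∈ D.P a) (h : YHi S D Φ τ p q) (hp : a ≤ p.1 ∧ p.1 ≤ S.mate a) :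
    (a ≤ q.1 ∧ q.1 ≤ S.mate a) ∨ τ ≤ Φ a k := by
  have e : Φ a k = Φ (S.mate a) k := hΦ.2 _ _ _ (Or.inr (Or.inr (Or.inl ⟨ha, rfl, hk⟩)))
  induction h with
  | refl _ => exact Or.inl hp
  | vert _ _ ih => exact ih
  | @link θ θ' t h l ih =>
    rcases ih with ⟨i1, i2⟩ | ih
    swap
    · exact Or.inr ih
    dsimp only at i1 i2 ⊢
    have hτ : τ ≤ Φ θ t := h.snd hΦ
    have hm : a ≤ S.mate θ ∧ S.mate θ ≤ S.mate a := by
      rcases i1.eq_or_lt with rfl | i1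
      · exact ⟨ha.le, le_rfl⟩
      rcases i2.eq_or_lt with rfl | i2
      · rw [S.inv]; exact ⟨le_rfl, ha.le⟩
      · exact ⟨(S.nc _ _ i1 i2).1.le, (S.nc _ _ i1 i2).2.le⟩
    rcases l with ⟨rfl, l⟩ | ⟨rfl, l⟩ | ⟨-, rfl, -⟩ | ⟨-, rfl, -⟩
    · rcases i2.eq_or_lt with rfl | i2
      · exact Or.inr (e ▸ hτ.trans (hΦ.1 _ (hD.top a k ha hk _ (Or.inr rfl) t (Or.inl l))))
      · exact Or.inl ⟨by omega, by omega⟩
    · rcases i1.eq_or_lt with rfl | i1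
      · exact Or.inr (hτ.trans (hΦ.1 _ (hD.top _ k ha hk _ (Or.inl rfl) t (Or.inr l))))
      · exact Or.inl ⟨by omega, by omega⟩
    · exact Or.inl hm
    · rw [S.inv] at hm
      exact Or.inl hm

/-- The best level of a path. -/
def ylev (S : Sk) (D : Lk) (Φ : ℕ → ℝ → ℝ) (p q : ℕ × ℝ) : ℝ := sSup {τ | YHi S D Φ τ p q}

theorem YHi.le (h : YHi S D Φ τ p q) : τ ≤ ylev S D Φ p q := le_csSup ⟨_, fun _ k => k.fst⟩ h

theorem ylev_self : ylev S D Φ p p = Φ p.1 p.2 :=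
  IsGreatest.csSup_eq ⟨.refl le_rfl, fun _ k => k.fst⟩

theorem ylev_symm (hΦ : Cons S D Φ) : ylev S D Φ p q = ylev S D Φ q p :=
  congrArg sSup (Set.ext fun _ => ⟨fun h => h.symm hΦ, fun h => h.symm hΦ⟩)

theorem ylev_ultra (h : ∃ τ, YHi S D Φ τ p q) (h' : ∃ τ, YHi S D Φ τ q r) :
    min (ylev S D Φ p q) (ylev S D Φ q r) ≤ ylev S D Φ p r := by
  refine le_of_forall_lt_imp_le_of_dense fun τ hτ => ?_
  obtain ⟨τ₁, a1, a2⟩ := exists_lt_of_lt_csSup h (lt_min_iff.1 hτ).1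
  obtain ⟨τ₂, b1, b2⟩ := exists_lt_of_lt_csSup h' (lt_min_iff.1 hτ).2
  exact ((a1.mono a2.le).trans (b1.mono b2.le)).le

theorem ylev_paid (hD : Init S D) (hΦ : Cons S D Φ) (h : ∃ τ, YHi S D Φ τ p q) {v : ℝ}
    (hv : Paid S D Φ p q v) : v ≤ Φ p.1 p.2 + Φ q.1 q.2 - 2 * ylev S D Φ p q := by
  have h1 : ylev S D Φ p q ≤ Φ p.1 p.2 := csSup_le h fun _ k => k.fst
  have h2 : ylev S D Φ p q ≤ Φ q.1 q.2 := csSup_le h fun _ k => k.snd hΦ
  rcases hv with hv | ⟨a, k, hs, hk, hv⟩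
  · exact hv.trans (abs_le.2 ⟨by linarith, by linarith⟩)
  · have h3 : ylev S D Φ p q ≤ Φ a k := csSup_le h fun τ l => by
      rcases hs with ⟨s1, s2, s3, s4⟩ | ⟨s1, s2, s3, s4⟩
      · exact (YHi.arc hD hΦ s1 hk l ⟨s2, s3⟩).resolve_left (by omega)
      · exact (YHi.arc hD hΦ s1 hk (l.symm hΦ) ⟨s2, s3⟩).resolve_left (by omega)
    rcases hv with hv | hv <;> linarith

variable {Ω : Type} [Fintype Ω] {Ψ : Ω → ℕ → ℝ → ℝ} {n c : ℝ}

theorem yabs_sum (hΨ : ∀ ω, Cons S D (Ψ ω)) (hE : ∀ θ t, ∑ ω, Ψ ω θ t = n * t) (θ : ℕ) (t t' : ℝ) :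
    ∑ ω, |Ψ ω θ t - Ψ ω θ t'| = n * |t - t'| := by
  rcases le_total t t' with h | h
  · rw [Finset.sum_congr rfl fun ω _ => abs_of_nonpos (sub_nonpos.2 ((hΨ ω).1 θ h)),
      abs_of_nonpos (sub_nonpos.2 h), Finset.sum_neg_distrib, Finset.sum_sub_distrib, hE, hE]
    ring
  · rw [Finset.sum_congr rfl fun ω _ => abs_of_nonneg (sub_nonneg.2 ((hΨ ω).1 θ h)),
      abs_of_nonneg (sub_nonneg.2 h), Finset.sum_sub_distrib, hE, hE]
    ring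

theorem yreach (hΨ : ∀ ω, Cons S D (Ψ ω)) (hE : ∀ θ t, ∑ ω, Ψ ω θ t = n * t)
    (h : Reach S D univ p q c) : ∃ τ : Ω → ℝ, (∀ ω, YHi S D (Ψ ω) (τ ω) p q) ∧
      ∑ ω, (Ψ ω p.1 p.2 + Ψ ω q.1 q.2 - 2 * τ ω) ≤ n * c := by
  induction h with
  | refl _ => exact ⟨fun ω => Ψ ω p.1 p.2, fun _ => .refl le_rfl, by simp [← two_mul]⟩
  | @vert θ t t' c _ _ ih =>
    obtain ⟨τ, h1, h2⟩ := ih
    refine ⟨fun ω => min (τ ω) (Ψ ω θ t'),
      fun ω => ((h1 ω).mono (min_le_left _ _)).vert (min_le_right _ _), ?_⟩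
    rw [mul_add, ← yabs_sum hΨ hE θ t t']
    refine le_trans ?_ (add_le_add h2 le_rfl)
    rw [← Finset.sum_add_distrib]
    refine Finset.sum_le_sum fun ω _ => ?_
    have k1 : τ ω ≤ Ψ ω θ t := (h1 ω).snd (hΨ ω)
    have k2 := le_abs_self (Ψ ω θ t - Ψ ω θ t')
    have k3 := neg_le_abs (Ψ ω θ t - Ψ ω θ t')
    dsimp only
    rcases le_total (τ ω) (Ψ ω θ t') with k | k
    · rw [min_eq_left k]; linarith
    · rw [min_eq_right k]; linarith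
  | link _ l ih =>
    obtain ⟨τ, h1, h2⟩ := ih
    exact ⟨τ, fun ω => (h1 ω).link l, by simpa only [← fun ω => (hΨ ω).2 _ _ _ l] using h2⟩

theorem embed_of_pay {V : Type} [Fintype V] {pt : V → ℕ × ℝ} {d : V → V → ℝ}
    (hd : Realises S D pt d) (hn : 0 < n) (hc : 0 < c) (hΨ : ∀ ω, Cons S D (Ψ ω))
    (hE : ∀ θ t, ∑ ω, Ψ ω θ t = n * t)
    (hv : ∀ x y, x ≠ y → ∃ v : Ω → ℝ, (∀ ω, Paid S D (Ψ ω) (pt x) (pt y) (v ω)) ∧
      c * (n * d x y) ≤ ∑ ω, v ω) : EmbedsL1 d c⁻¹ := by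
  classical
  have h1 := fun x y => yreach hΨ hE (hd.2.2 x y).1
  have h2 : ∀ ω x y, ∃ τ, YHi S D (Ψ ω) τ (pt x) (pt y) := fun ω x y =>
    let ⟨τ, h, _⟩ := h1 x y
    ⟨τ ω, h ω⟩
  set M : Ω → V → V → ℝ := fun ω x y => ylev S D (Ψ ω) (pt x) (pt y) with hM
  have hcn : 0 < c * n := mul_pos hc hn
  obtain ⟨f, hf⟩ := cut_embed (w := fun η => (c * n)⁻¹ * ∑ ω, ywt (M ω) η) fun η =>
    mul_nonneg (inv_pos.2 hcn).le (Finset.sum_nonneg fun _ _ => ENNReal.toReal_nonneg)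
  have h3 : ∀ x y, ‖f x - f y‖ = (c * n)⁻¹ * ∑ ω, (Ψ ω (pt x).1 (pt x).2 + Ψ ω (pt y).1 (pt y).2 -
      2 * ylev S D (Ψ ω) (pt x) (pt y)) := fun x y => by
    have k : ∀ ω, sepw (ywt (M ω)) x y = Ψ ω (pt x).1 (pt x).2 + Ψ ω (pt y).1 (pt y).2 -
        2 * ylev S D (Ψ ω) (pt x) (pt y) := fun ω => by
      rw [ywt_sep (M := M ω) (fun _ _ => ylev_symm (hΨ ω))
        (fun x y z => ylev_ultra (h2 ω x y) (h2 ω y z)) x y]
      simp only [hM, ylev_self]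
    rw [hf, ← Finset.sum_congr rfl fun ω _ => k ω]
    simp only [sepw, ex, Finset.mul_sum, Finset.sum_mul, mul_assoc]
    exact Finset.sum_comm
  refine ⟨_, _, _, f, fun x y => ⟨?_, ?_⟩⟩
  · by_cases h : x = y
    · subst h
      exact ((hd.2.2 x x).2 (.refl trivial)).trans (norm_nonneg _)
    · obtain ⟨v, v1, v2⟩ := hv x y h
      rw [h3, le_inv_mul_iff₀ hcn, mul_assoc]
      exact v2.trans (Finset.sum_le_sum fun ω _ => ylev_paid hd.1 (hΨ ω) (h2 ω x y) (v1 ω))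
  · obtain ⟨τ, t1, t2⟩ := h1 x y
    rw [h3, inv_mul_le_iff₀ hcn, show c * n * (c⁻¹ * d x y) = n * d x y by field_simp]
    exact (Finset.sum_le_sum fun ω _ => by linarith [(t1 ω).le]).trans t2

end Vale.Agent.P235.Pl
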