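import Vale.Agent.P235P.ZDefs

/-! P235 planar case, part zero: the contour is one cycle. -/

open Set SimpleGraph

noncomputable section

namespace Vale.Agent.P235.Pl

variable {V : Type} {G : SimpleGraph V} {ℓ : Sym2 V → ℝ} {d : V → V → ℝ} {T : Tr G}

/-- An equivalence relation that holds along all steps of a cycle but one joins the cycle. Every
`x` of the cycle is `(σ ^ i) (σ e)` with `i` minimal (`SameCycle.exists_pow_eq'`, `Nat.find`), and
then `(σ ^ j) (σ e) ≠ e` for `j < i`; so `Z (σ e) x` by induction. -/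
theorem cyc_rel {α : Type} [Finite α] (σ : Equiv.Perm α) {Z : α → α → Prop} (hZ : Equivalence Z)
    (e : α) (h : ∀ x, σ.SameCycle e x → x ≠ e → Z x (σ x)) {x y : α} (hx : σ.SameCycle e x)
    (hy : σ.SameCycle e y) : Z x y := by
  have h1 : ∀ i : ℕ, Z (σ e) ((σ ^ i) (σ e)) := by
    intro i
    induction i with
    | zero => exact hZ.refl _
    | succ i ih =>
      rw [pow_succ', Equiv.Perm.mul_apply]
      by_cases he : (σ ^ i) (σ e) = e
      · rw [he]
        exact hZ.refl _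
      · refine hZ.trans ih (h _ ⟨(i + 1 : ℕ), ?_⟩ he)
        rw [zpow_natCast, pow_succ, Equiv.Perm.mul_apply]
  have h2 : ∀ z, σ.SameCycle e z → Z (σ e) z := fun z hz => by
    obtain ⟨i, rfl⟩ := (Equiv.Perm.sameCycle_apply_left.2 hz).exists_nat_pow_eq
    exact h1 i
  exact hZ.trans (hZ.symm (h2 x hx)) (h2 y hy)

theorem ztree_fin [Finite V] : Finite G.Dart := Finite.of_injective _ Dart.toProd_injective

/-- `T.ind_down` on `u`, statement: `t ≤ T.h u →` all darts out of `u` are related. Apply `cyc_rel`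
to `T.σ` with the exceptional dart `⟨(u, par u), _⟩` when `u ≠ r` and `T.σ⁻¹ e₀` when `u = r`. A
dart `x` out of `u` that is not `Dn` and has `T.σ x ≠ e₀` is related to `T.σ x`: if it is not a
tree dart `τ x = σ x`, `m x = h u`; otherwise `Dn x.symm`, `w = x.snd` is a child of `u`,
`Z x (τ x)` (`τ x` starts at `w ≠ r`, `m x = h u`), `Z (τ x) x.symm` by induction, and
`τ x.symm = σ x`, `m x.symm = h u`. -/
theorem Tr.join [Finite V] (T : Tr G) {Z : G.Dart → G.Dart → Prop} (hZ : Equivalence Z)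
    {e₀ : G.Dart} (h0 : e₀.fst = T.r) (t : ℝ)
    (h : ∀ e, T.τ e ≠ e₀ → t ≤ T.m e → Z e (T.τ e)) {e e' : G.Dart} (he : e.fst = e'.fst)
    (ht : t ≤ T.h e.fst) : Z e e' := by
  have := ztree_fin (G := G)
  suffices H : ∀ u, t ≤ T.h u → ∀ x y : G.Dart, x.fst = u → y.fst = u → Z x y from
    H _ ht e e' rfl he.symm
  intro u
  induction u using T.ind_down with
  | h1 u ih =>
  intro hu
  have key : ∀ x : G.Dart, x.fst = u → ¬ T.Dn x → T.σ x ≠ e₀ → Z x (T.σ x) := by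
    intro x hx hn hs
    by_cases hT : T.IsT x
    · have hd : T.Dn x.symm := hT.resolve_left hn
      have h1 : x.snd ≠ T.r := hd.1
      have h2 : T.par x.snd = u := hd.2.symm.trans hx
      have h3 : t ≤ T.h x.snd := hu.trans (h2 ▸ T.lt _ h1).le
      have h4 : (T.τ x).fst = x.snd := Tr.τ_fst_pos hT
      have h5 : T.τ x.symm = T.σ x := by rw [Tr.τ_pos (Or.inl hd), Dart.symm_symm]
      have a1 : Z x (T.τ x) := h x (fun e => h1 (by rw [← h4, e, h0]))
        (le_min (hx ▸ hu) (h4 ▸ h3))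
      have a2 : Z (T.τ x) x.symm := ih _ h1 h2 h3 _ _ h4 rfl
      have a3 : Z x.symm (T.τ x.symm) := h _ (h5 ▸ hs)
        (le_min h3 (by rw [h5, Tr.σ_fst, hx]; exact hu))
      exact h5 ▸ hZ.trans a1 (hZ.trans a2 a3)
    · have h5 : T.τ x = T.σ x := Tr.τ_neg hT
      exact h5 ▸ h x (h5 ▸ hs) (le_min (hx ▸ hu) (by rw [Tr.τ_fst_neg hT, hx]; exact hu))
  obtain ⟨z, hz, hz'⟩ : ∃ z : G.Dart, z.fst = u ∧
      ∀ x : G.Dart, x.fst = u → x ≠ z → ¬ T.Dn x ∧ T.σ x ≠ e₀ := by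
    by_cases hr : u = T.r
    · refine ⟨T.σ.symm e₀, ?_, fun x hx hn => ⟨fun hd => hd.1 (hx.trans hr), fun e => hn ?_⟩⟩
      · rw [← Tr.σ_fst (T := T), Equiv.apply_symm_apply, h0, hr]
      · rw [← e, Equiv.symm_apply_apply]
    · refine ⟨⟨(u, T.par u), T.adj u hr⟩, rfl, fun x hx hn => ⟨fun hd => hn ?_, fun e => hr ?_⟩⟩
      · exact Dart.ext _ _ (Prod.ext hx (hd.2.trans (congrArg _ hx)))
      · rw [← hx, ← Tr.σ_fst (T := T), e, h0]
  intro x y hx hy
  refine cyc_rel T.σ hZ z (fun w hw hn => ?_) ((T.rot _ _).2 (hz.trans hx.symm))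
    ((T.rot _ _).2 (hz.trans hy.symm))
  have h1 : w.fst = u := ((T.rot _ _).1 hw).symm.trans hz
  exact key w h1 (hz' w h1 hn).1 (hz' w h1 hn).2

/-- `join` with `t = T.h T.r` (the least height, `ind_up`), then `ind_up`: the dart
`⟨(v, par v), _⟩` is related to its image under `τ`, which starts at `par v`. -/
theorem Tr.const [Finite V] (T : Tr G) {Z : G.Dart → G.Dart → Prop} (hZ : Equivalence Z)
    {e₀ : G.Dart} (h0 : e₀.fst = T.r) (h : ∀ e, Z e (T.τ e)) (e e' : G.Dart) : Z e e' := by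
  have h1 : ∀ v, T.h T.r ≤ T.h v :=
    T.ind_up le_rfl fun v hv ih => ih.trans (T.lt v hv).le
  have h2 : ∀ x y : G.Dart, x.fst = y.fst → Z x y := fun x y hxy =>
    T.join hZ h0 (T.h T.r) (fun e _ _ => h e) hxy (h1 _)
  have h3 : ∀ v, ∀ x : G.Dart, x.fst = v → Z x e₀ := by
    refine T.ind_up (fun x hx => h2 x e₀ (hx.trans h0.symm)) fun v hv ih x hx => ?_
    have h4 : T.IsT ⟨(v, T.par v), T.adj v hv⟩ := Or.inl ⟨hv, rfl⟩
    exact hZ.trans (h2 x _ hx) (hZ.trans (h _) (ih _ (Tr.τ_fst_pos h4)))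
  exact hZ.trans (h3 _ e rfl) (hZ.symm (h3 _ e' rfl))

/-- `const` with `Z = T.τ.SameCycle` gives `T.τ.IsCycleOn (Finset.univ : Finset _)`; take
`N = card`, `dt θ = (T.τ ^ (θ - 1)) e₀`, and use `IsCycleOn.exists_pow_eq`,
`IsCycleOn.pow_apply_eq_pow_apply`, `IsCycleOn.pow_card_apply`. -/
theorem Tr.exists_ct [Finite V] (T : Tr G) {e₀ : G.Dart} (h0 : e₀.fst = T.r) : Nonempty (Ct T) := by
  have := ztree_fin (G := G)
  have := Fintype.ofFinite G.Dart
  have hc : T.τ.IsCycleOn (Finset.univ : Finset G.Dart) := by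
    refine ⟨?_, fun x _ y _ => T.const (Equiv.Perm.SameCycle.equivalence _) h0
      (fun e => ⟨1, by rw [zpow_one]⟩) x y⟩
    rw [Finset.coe_univ]
    exact T.τ.bijective.bijOn_univ
  choose k k1 k2 using fun e => hc.exists_pow_eq (Finset.mem_univ e₀) (Finset.mem_univ e)
  have hN : 1 ≤ (Finset.univ : Finset G.Dart).card := Finset.card_pos.2 ⟨e₀, Finset.mem_univ _⟩
  have hs : ∀ θ, 1 ≤ θ → T.τ ((T.τ ^ (θ - 1)) e₀) = (T.τ ^ θ) e₀ := fun θ hθ => by
    rw [← Equiv.Perm.mul_apply, ← pow_succ', Nat.sub_add_cancel hθ]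
  refine ⟨⟨(Finset.univ : Finset G.Dart).card, fun θ => (T.τ ^ (θ - 1)) e₀, fun e => k e + 1,
    fun e => Nat.le_add_left _ _, k1, k2, fun θ h1 h2 => ?_, fun θ hθ => (hs θ hθ).symm, ?_, h0⟩⟩
  · have h3 := (hc.pow_apply_eq_pow_apply (Finset.mem_univ e₀)).1 (k2 ((T.τ ^ (θ - 1)) e₀))
    have h4 := h3.eq_of_lt_of_lt (k1 _) (by omega)
    omega
  · exact (hs _ hN).trans (hc.pow_card_apply (Finset.mem_univ e₀))

end Vale.Agent.P235.Pl
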